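import Crest.Agent.R62.AlgXi

/-!
A polynomial-time step function for the greedy algorithm.
-/

set_option autoImplicit false
set_option linter.unusedVariables false

open Finset Matrix

namespace Crest.Agent.R62

open Crest.Agent.PT Crest.Agent.PT.Rp

variable {d : ℕ}

/-- Admissible moves. -/
def mv (s : SS d) (u v : Fin s.1 × Fin d) : Prop :=
  if (par0 ℚ s.1 d).live s.2.S.card then ok (par0 ℚ s.1 d) Prod.fst s.2 u v
  else u ≠ v ∧ u ∈ s.2.S ∧ v ∈ s.2.S

/-- The result of a move. -/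
def nx (s : SS d) (u v : Fin s.1 × Fin d) : SS d :=
  if (par0 ℚ s.1 d).live s.2.S.card then ⟨s.1, child Prod.fst s.2 u v⟩
  else ⟨s.1, childE Prod.fst s.2 u v⟩

/-- `k` codes a pair of half-edges. -/
def inR (s : SS d) (k : ℕ) : Prop := k / (s.1 * d) < s.1 * d ∧ k % (s.1 * d) < s.1 * d

instance (s : SS d) (k : ℕ) : Decidable (inR s k) := inferInstanceAs (Decidable (_ ∧ _))

def cN (s : SS d) (k : ℕ) : Prop :=
  if h : inR s k then mv s (dec _ h.1) (dec _ h.2) else False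

def vN (s : SS d) (k : ℕ) : ℚ :=
  if h : inR s k then Xi (par0 ℚ s.1 d) Prod.fst (child Prod.fst s.2 (dec _ h.1) (dec _ h.2))
  else 0

def nN (s : SS d) (k : ℕ) : SS d :=
  if h : inR s k then nx s (dec _ h.1) (dec _ h.2) else s

theorem pu_n : PU fun s : SS d => s.1 := (PSt.of_ptime (PTime.id (α := SS d))).hn

theorem pt_inR : PTime fun q : SS d × Un => inR q.1 q.2.val := by
  have h : PTime fun q : SS d × Un => q.1.1 := (pu_n.comp PTime.fst').ptime
  have hN : PTime fun q : SS d × Un => q.1.1 * d := h.mul (PTime.const _)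
  have hk : PTime fun q : SS d × Un => q.2.val := PTime.val PTime.snd'
  exact ((hk.div hN).lt hN).and ((hk.mod hN).lt hN)

/-- States with a valid pair. -/
abbrev SP (d : ℕ) := {q : SS d × Un // inR q.1 q.2.val}

theorem sp_st : PSt (fun a : SP d => a.1.1.1) fun a => a.1.1.2 :=
  PSt.of_ptime (s := fun a : SP d => a.1.1) PTime.subval.fst

theorem sp_u : PU fun a : SP d => enc (dec _ a.2.1) := by
  simp only [enc_dec]
  exact (PU.val PTime.subval.snd).div (sp_st.hn.ptime.mul (PTime.const _))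

theorem sp_v : PU fun a : SP d => enc (dec _ a.2.2) := by
  simp only [enc_dec]
  exact (PU.val PTime.subval.snd).mod (sp_st.hn.ptime.mul (PTime.const _))

theorem sp_live : PTime fun a : SP d => (par0 ℚ a.1.1.1 d).live a.1.1.2.S.card :=
  pt_live (pt_par0 sp_st.hn) sp_st.card

theorem pt_cN : PTime fun q : SS d × Un => cN q.1 q.2.val :=
  PTime.dite (f := fun (q : SS d × Un) (h : inR q.1 q.2.val) => mv q.1 (dec _ h.1) (dec _ h.2))
    pt_inR (PTime.ite sp_live (sp_st.ok (pt_par0 sp_st.hn) sp_u sp_v) (sp_st.free sp_u sp_v))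
    (PTime.const False)

theorem pt_vN : PTime fun q : SS d × Un => vN q.1 q.2.val :=
  PTime.dite (f := fun (q : SS d × Un) (h : inR q.1 q.2.val) =>
      Xi (par0 ℚ q.1.1 d) Prod.fst (child Prod.fst q.1.2 (dec _ h.1) (dec _ h.2)))
    pt_inR ((sp_st.child sp_u sp_v).xi (pt_par0 sp_st.hn)) (PTime.const 0)

theorem pt_nN : PTime fun q : SS d × Un => nN q.1 q.2.val :=
  PTime.dite (f := fun (q : SS d × Un) (h : inR q.1 q.2.val) => nx q.1 (dec _ h.1) (dec _ h.2))
    pt_inR (PTime.ite sp_live (sp_st.child sp_u sp_v).ptime (sp_st.childE sp_u sp_v).ptime)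
    PTime.fst'

/-- An optimal move. -/
def good (s : SS d) (k : ℕ) : Prop :=
  cN s k ∧ ∀ k' < s.1 * d * (s.1 * d), cN s k' → vN s k ≤ vN s k'

theorem pu_NN : PU fun s : SS d => s.1 * d * (s.1 * d) :=
  (pu_n.mul (PU.const d)).mul (pu_n.mul (PU.const d))

theorem pt_argmin {α : Type} [Rp α] {N : α → ℕ} {c : α → ℕ → Prop} {v : α → ℕ → ℚ} (hN : PU N)
    (hc : PTime fun q : α × Un => c q.1 q.2.val) (hv : PTime fun q : α × Un => v q.1 q.2.val) :
    PTime fun q : α × Un => c q.1 q.2.val ∧ ∀ k' < N q.1, c q.1 k' → v q.1 q.2.val ≤ v q.1 k' := by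
  have h1 : PTime fun r : (α × Un) × Un => (r.1.1, r.2) := PTime.fst'.fst.pair PTime.snd'
  exact hc.and (PTime.forall_lt (n := fun q : α × Un => N q.1)
    (c := fun q k' => c q.1 k' → v q.1 q.2.val ≤ v q.1 k') (hN.comp PTime.fst')
    ((hc.comp h1).imp ((hv.comp PTime.fst').qle (hv.comp h1))))

theorem pt_good : PTime fun q : SS d × Un => good q.1 q.2.val := by
  unfold good
  exact pt_argmin (c := cN) (v := vN) pu_NN pt_cN pt_vN

section
variable {n : ℕ} {s : St (Fin n × Fin d) (Fin n) ℚ}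

theorem inR_pair (u v : Fin n × Fin d) : inR (⟨n, s⟩ : SS d) (enc u * (n * d) + enc v) :=
  ⟨by show _ / (n * d) < n * d; rw [pair_div (enc_lt v)]; exact enc_lt u,
    by show _ % (n * d) < n * d; rw [pair_mod (enc_lt v)]; exact enc_lt v⟩

theorem dec_pair1 (u v : Fin n × Fin d) (h : (enc u * (n * d) + enc v) / (n * d) < n * d) :
    dec _ h = u := enc_inj.1 (by rw [enc_dec, pair_div (enc_lt v)])

theorem dec_pair2 (u v : Fin n × Fin d) (h : (enc u * (n * d) + enc v) % (n * d) < n * d) :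
    dec _ h = v := enc_inj.1 (by rw [enc_dec, pair_mod (enc_lt v)])

theorem cN_pair (u v : Fin n × Fin d) :
    cN (⟨n, s⟩ : SS d) (enc u * (n * d) + enc v) ↔ mv (⟨n, s⟩ : SS d) u v := by
  rw [cN, dif_pos (inR_pair u v), dec_pair1, dec_pair2]

theorem vN_pair (u v : Fin n × Fin d) :
    vN (⟨n, s⟩ : SS d) (enc u * (n * d) + enc v)
      = Xi (par0 ℚ n d) Prod.fst (child Prod.fst s u v) := by
  rw [vN, dif_pos (inR_pair u v), dec_pair1, dec_pair2]

theorem not_cN_of_empty (h : s.S = ∅) (k : ℕ) : ¬ cN (⟨n, s⟩ : SS d) k := by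
  unfold cN
  split_ifs with h1
  · unfold mv
    split_ifs with h2
    · intro h3
      have := h3.2.1
      simp [h] at this
    · intro h3
      have := h3.2.1
      simp [h] at this
  · exact id

theorem exists_good (h : ∃ s', Step (par0 ℚ n d) Prod.fst s s') :
    ∃ k < n * d * (n * d), good (⟨n, s⟩ : SS d) k := by
  classical
  obtain ⟨s', u, v, h⟩ := h
  have hm : mv (⟨n, s⟩ : SS d) u v := by
    unfold mv
    rcases h with h | h
    · rw [if_pos h.1]; exact h.2.1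
    · rw [if_neg h.1]; exact ⟨h.2.1, h.2.2.1, h.2.2.2.1⟩
  obtain ⟨k, hk, hmin⟩ := Finset.exists_min_image
    ((range (n * d * (n * d))).filter fun k => cN (⟨n, s⟩ : SS d) k) (vN (⟨n, s⟩ : SS d))
    ⟨enc u * (n * d) + enc v, mem_filter.2 ⟨mem_range.2 (pair_lt (enc_lt u) (enc_lt v)),
      (cN_pair u v).2 hm⟩⟩
  rw [mem_filter, mem_range] at hk
  exact ⟨k, hk.1, hk.2, fun k' h1 h2 => hmin k' (mem_filter.2 ⟨mem_range.2 h1, h2⟩)⟩

theorem step_of_good {k : ℕ} (h : good (⟨n, s⟩ : SS d) k) :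
    ∃ s', nN (⟨n, s⟩ : SS d) k = ⟨n, s'⟩ ∧ Step (par0 ℚ n d) Prod.fst s s' := by
  obtain ⟨h1, h2⟩ := h
  have hR : inR (⟨n, s⟩ : SS d) k := by
    by_contra hR
    rw [cN, dif_neg hR] at h1
    exact h1
  rw [cN, dif_pos hR] at h1
  rw [vN, dif_pos hR] at h2
  rw [nN, dif_pos hR]
  generalize dec _ hR.1 = u at h1 h2 ⊢
  generalize dec _ hR.2 = v at h1 h2 ⊢
  unfold mv at h1
  unfold nx
  split_ifs at h1 ⊢ with hl
  · refine ⟨_, rfl, u, v, Or.inl ⟨hl, h1, fun u' v' h' => ?_, rfl⟩⟩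
    have := h2 _ (pair_lt (enc_lt u') (enc_lt v')) ((cN_pair u' v').2 (by
      unfold mv; rw [if_pos hl]; exact h'))
    rwa [vN_pair] at this
  · exact ⟨_, rfl, u, v, Or.inr ⟨hl, h1.1, h1.2.1, h1.2.2, rfl⟩⟩

end

theorem exists_step (d : ℕ) : ∃ step : SS d → SS d, PTime step ∧
    ∀ (n : ℕ) (s : St (Fin n × Fin d) (Fin n) ℚ), (s.S = ∅ → step ⟨n, s⟩ = ⟨n, s⟩) ∧
      ((∃ s', Step (par0 ℚ n d) Prod.fst s s') →
        ∃ s', step ⟨n, s⟩ = ⟨n, s'⟩ ∧ Step (par0 ℚ n d) Prod.fst s s') := by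
  obtain ⟨b, hb, hb'⟩ := PU.find_lt (c := fun s k => good s k) (pu_NN (d := d)) pt_good
  refine ⟨fun s => if b s < s.1 * d * (s.1 * d) then nN s (b s) else s,
    PTime.ite (hb.ptime.lt pu_NN.ptime)
      (pt_nN.comp (f := fun s => (s, Un.mk (b s))) (PTime.id.pair hb)) PTime.id,
    fun n s => ⟨fun h => ?_, fun h => ?_⟩⟩
  · exact if_neg fun h1 => not_cN_of_empty h _ ((hb' ⟨n, s⟩).2.2 h1).1
  · obtain ⟨k, hk, hg⟩ := exists_good h
    obtain ⟨h1, h2, h3⟩ := hb' ⟨n, s⟩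
    have h4 : b ⟨n, s⟩ < n * d * (n * d) := by
      by_contra h5
      exact h2 k (by omega) hg
    obtain ⟨s', e, hs'⟩ := step_of_good (h3 h4)
    exact ⟨s', (if_pos h4).trans e, hs'⟩

end Crest.Agent.R62
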