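import Mathlib
import Crest.Prelude.Def_GraphCode

/-!
Row 62 (S0084): deterministic polynomial-time Ramanujan graphs.

Half-edges `ι`, vertices `V`, `vtx : ι → V`.  A state is the set `S` of free half-edges
(`m = |S|`), two symmetric matrices `F` (sign `+1`) and `G` (sign `-1`) supported on `S` with zero
row sums, and the multi-adjacency matrix `A` built so far.  A step pairs two free half-edges.
Everything algorithmic is polymorphic in the ordered field `𝕜` (`ℚ` for the algorithm, `ℝ` for the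
analysis).
-/

set_option autoImplicit false

open Finset Matrix

namespace Crest.Agent.R62

section poly
variable {ι V : Type} [Fintype ι] [DecidableEq ι] [Fintype V] [DecidableEq V]
variable {𝕜 : Type} [Field 𝕜] [LinearOrder 𝕜]

/-- The free half-edges after pairing `u` and `v`. -/
def rem (S : Finset ι) (u v : ι) : Finset ι := (S.erase u).erase v

/-- Orthogonal projection onto the zero-sum vectors supported on `S`. -/
def prj (S : Finset ι) : Matrix ι ι 𝕜 := fun a b =>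
  if a ∈ S ∧ b ∈ S then (if a = b then 1 else 0) - 1 / (S.card : 𝕜) else 0

def dd (σ : 𝕜) (S : Finset ι) (F : Matrix ι ι 𝕜) (u : ι) : 𝕜 := F u u + σ / (S.card : 𝕜)
def ww (σ : 𝕜) (S : Finset ι) (F : Matrix ι ι 𝕜) (u v : ι) : 𝕜 := σ - σ / (S.card : 𝕜) - F u v
def psi (σ : 𝕜) (S : Finset ι) (F : Matrix ι ι 𝕜) (u v : ι) : 𝕜 :=
  ww σ S F u v ^ 2 - dd σ S F u * dd σ S F v
/-- `hat σ S F u v = F e_u - σ P e_v`. -/
def hat (σ : 𝕜) (S : Finset ι) (F : Matrix ι ι 𝕜) (u v : ι) : ι → 𝕜 := fun a =>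
  F a u - σ * prj S a v

/-- The updated matrix (a Schur complement): with `y = hat u v`, `z = hat v u`, `e_i = P e_i`,
`F + (d_v y yᵀ + d_u z zᵀ + w (y zᵀ + z yᵀ))/ψ - σ (e_u e_vᵀ + e_v e_uᵀ + (e_u+e_v)(e_u+e_v)ᵀ/(m-2))`. -/
def upd (σ : 𝕜) (S : Finset ι) (F : Matrix ι ι 𝕜) (u v : ι) : Matrix ι ι 𝕜 := fun a b =>
  F a b + (dd σ S F v * hat σ S F u v a * hat σ S F u v b
      + dd σ S F u * hat σ S F v u a * hat σ S F v u b
      + ww σ S F u v * (hat σ S F u v a * hat σ S F v u b + hat σ S F v u a * hat σ S F u v b))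
      / psi σ S F u v
    - σ * (prj S a u * prj S b v + prj S a v * prj S b u
      + (prj S a u + prj S a v) * (prj S b u + prj S b v) / ((S.card : 𝕜) - 2))

/-! ### Tracked quantities -/

def t1 (F : Matrix ι ι 𝕜) : 𝕜 := F.trace
def a2 (F : Matrix ι ι 𝕜) : 𝕜 := (F * F).trace
def a3 (F : Matrix ι ι 𝕜) : 𝕜 := (F * F * F).trace
def a4 (F : Matrix ι ι 𝕜) : 𝕜 := (F * F * F * F).trace
def c11 (F G : Matrix ι ι 𝕜) : 𝕜 := (F * G).trace
def c22 (F G : Matrix ι ι 𝕜) : 𝕜 := (F * F * G * G).trace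
def rr (F : Matrix ι ι 𝕜) (a : ι) : 𝕜 := (F * F) a a
def X2 (S : Finset ι) (F : Matrix ι ι 𝕜) : 𝕜 := ∑ a ∈ S, (rr F a - 1) ^ 2
def R2 (S : Finset ι) (F : Matrix ι ι 𝕜) : 𝕜 := ∑ a ∈ S, rr F a ^ 2
def R4 (S : Finset ι) (F : Matrix ι ι 𝕜) : 𝕜 := ∑ a ∈ S, rr F a ^ 4
def D2 (S : Finset ι) (F : Matrix ι ι 𝕜) : 𝕜 := ∑ a ∈ S, F a a ^ 2
def D4 (S : Finset ι) (F : Matrix ι ι 𝕜) : 𝕜 := ∑ a ∈ S, F a a ^ 4
def hh (F : Matrix ι ι 𝕜) (u v : ι) : 𝕜 := ∑ a, F a u ^ 2 * F a v ^ 2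

/-! ### Parameters -/

structure Par (𝕜 : Type) where
  K : 𝕜
  N : 𝕜
  a : 𝕜

namespace Par
variable (p : Par 𝕜) (m : 𝕜)
def W : 𝕜 := p.K ^ 6700
def rho : 𝕜 := m / (m + p.W)
def T2 : 𝕜 := p.K * m * p.rho m
def a2s : 𝕜 := m * p.rho m
def k2 : 𝕜 := p.W / p.K * p.rho m
def kt : 𝕜 := p.K ^ 3350 * p.rho m
def k3 : 𝕜 := p.N / p.K
def kc : 𝕜 := m / p.K
def T4 : 𝕜 := p.K ^ 4 * p.N ^ 2 * m ^ 2 / (m + p.W) ^ 3
def TX : 𝕜 := p.K ^ 3 * p.W ^ 2 / m
def TR : 𝕜 := p.K ^ 13 * p.W * p.rho m ^ 2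
def TR4 : 𝕜 := p.K ^ 100 * p.N * p.rho m ^ 2
def TD : 𝕜 := p.K ^ 450 * p.rho m
def T22 : 𝕜 := p.K ^ 4 * p.N + p.N ^ 2 / (m * p.K ^ 140)
def TB : 𝕜 := p.K ^ 6 * m ^ 2 / p.N
def tst : 𝕜 := max 0 (p.K ^ 600 * p.a / 2 * (1 / p.K ^ 7195 - 1 / m))
/-- phase I -/
def phI : Prop := p.K ^ 7195 < m
/-- phases I and II -/
def phX : Prop := p.K ^ 6710 < m
/-- not yet in the endgame -/
def live : Prop := p.K ^ 3340 < m
instance : Decidable (p.phI m) := inferInstanceAs (Decidable (p.K ^ 7195 < m))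
instance : Decidable (p.phX m) := inferInstanceAs (Decidable (p.K ^ 6710 < m))
instance : Decidable (p.live m) := inferInstanceAs (Decidable (p.K ^ 3340 < m))
end Par

def pp (x : 𝕜) : 𝕜 := max x 0 ^ 2

/-! ### The potential -/

section terms
variable (p : Par 𝕜) (S : Finset ι) (F G : Matrix ι ι 𝕜)
def pT : 𝕜 := pp (t1 F - p.tst S.card) / p.kt S.card ^ 2
def pT' : 𝕜 := pp (-t1 F) / p.kt S.card ^ 2
def p2 : 𝕜 := pp (a2 F - p.a2s S.card) / p.k2 S.card ^ 2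
def p2l : 𝕜 := a2 F / p.T2 S.card
def p2' : 𝕜 := pp (S.card - 4 * p.W - a2 F) / p.W ^ 2
def p3 : 𝕜 := pp (a3 F - p.a) / p.k3 ^ 2
def p3' : 𝕜 := pp (p.a - a3 F) / p.k3 ^ 2
def p4 : 𝕜 := a4 F / p.T4 S.card
def pX : 𝕜 := X2 S F / p.TX S.card
def pR : 𝕜 := R2 S F / p.TR S.card
def pR4 : 𝕜 := R4 S F / p.TR4 S.card
def pD2 : 𝕜 := D2 S F / p.TD S.card
def pD4 : 𝕜 := p.K ^ 4 * D4 S F
def p11 : 𝕜 := pp (-c11 F G) / p.kc S.card ^ 2
def p22 : 𝕜 := c22 F G / p.T22 S.card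

/-- The one-matrix potential, with the phase read off `m0`. -/
def Xi1 (m0 : 𝕜) : 𝕜 :=
  pT p S F + pT' p S F + p2 p S F + p2l p S F + p3 p F + p4 p S F + pR4 p S F + pD2 p S F
    + pD4 p S F + (if p.phX m0 then p2' p S F + pX p S F else pR p S F)
    + (if p.phI m0 then p3' p F else 0)
end terms

/-- Ordered pairs of distinct free half-edges at the same vertex. -/
def same (vtx : ι → V) (S : Finset ι) : ℕ :=
  ((S ×ˢ S).filter fun x => x.1 ≠ x.2 ∧ vtx x.1 = vtx x.2).card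
/-- Ordered pairs of free half-edges at adjacent vertices. -/
def adjc (vtx : ι → V) (S : Finset ι) (A : V → V → ℕ) : ℕ :=
  ((S ×ˢ S).filter fun x => A (vtx x.1) (vtx x.2) ≠ 0).card
def pB (p : Par 𝕜) (vtx : ι → V) (S : Finset ι) (A : V → V → ℕ) : 𝕜 :=
  (p.K ^ 4 * same vtx S + adjc vtx S A) / p.TB S.card

def addE (A : V → V → ℕ) (i j : V) : V → V → ℕ := fun a b =>
  A a b + (if a = i ∧ b = j then 1 else 0) + (if a = j ∧ b = i then 1 else 0)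

def bad (vtx : ι → V) (A : V → V → ℕ) (u v : ι) : Prop := vtx u = vtx v ∨ A (vtx u) (vtx v) ≠ 0

structure St (ι V 𝕜 : Type) where
  S : Finset ι
  F : Matrix ι ι 𝕜
  G : Matrix ι ι 𝕜
  A : V → V → ℕ

/-- The potential with the phase read off `m0`. -/
def XiAt (p : Par 𝕜) (vtx : ι → V) (m0 : 𝕜) (s : St ι V 𝕜) : 𝕜 :=
  Xi1 p s.S s.F m0 + Xi1 p s.S s.G m0
    + (if p.phI m0 then p11 p s.S s.F s.G + p22 p s.S s.F s.G else 0) + pB p vtx s.S s.A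

/-- The potential. -/
def Xi (p : Par 𝕜) (vtx : ι → V) (s : St ι V 𝕜) : 𝕜 := XiAt p vtx s.S.card s

def ok (p : Par 𝕜) (vtx : ι → V) (s : St ι V 𝕜) (u v : ι) : Prop :=
  u ≠ v ∧ u ∈ s.S ∧ v ∈ s.S ∧ ¬ bad vtx s.A u v ∧ |s.F u v| ≤ 1 / p.K ∧ |s.G u v| ≤ 1 / p.K

def child (vtx : ι → V) (s : St ι V 𝕜) (u v : ι) : St ι V 𝕜 :=
  ⟨rem s.S u v, upd 1 s.S s.F u v, upd (-1) s.S s.G u v, addE s.A (vtx u) (vtx v)⟩

def childE (vtx : ι → V) (s : St ι V 𝕜) (u v : ι) : St ι V 𝕜 :=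
  ⟨rem s.S u v, s.F, s.G, addE s.A (vtx u) (vtx v)⟩

/-- One step of the greedy algorithm. -/
def Step (p : Par 𝕜) (vtx : ι → V) (s s' : St ι V 𝕜) : Prop :=
  ∃ u v, (p.live s.S.card ∧ ok p vtx s u v
      ∧ (∀ u' v', ok p vtx s u' v' → Xi p vtx (child vtx s u v) ≤ Xi p vtx (child vtx s u' v'))
      ∧ s' = child vtx s u v)
    ∨ (¬ p.live s.S.card ∧ u ≠ v ∧ u ∈ s.S ∧ v ∈ s.S ∧ s' = childE vtx s u v)

def Reach (p : Par 𝕜) (vtx : ι → V) (s0 s : St ι V 𝕜) : Prop :=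
  Relation.ReflTransGen (Step p vtx) s0 s

/-! ### The initial data -/

/-- `K`: the largest `k` with `k ^ 10000 ≤ N`. -/
def K0 (N : ℕ) : ℕ := Nat.findGreatest (fun k => k ^ 10000 ≤ N) N
def s0 (𝕜 : Type) [Field 𝕜] (n d : ℕ) : 𝕜 :=
  (Nat.sqrt ((n * d) ^ 3 * (n * d - 2 * K0 (n * d) ^ 6700) / (d - 1)) : 𝕜) / ((n * d : ℕ) : 𝕜) ^ 2
def phi0 (𝕜 : Type) [Field 𝕜] (n d : ℕ) : 𝕜 :=
  s0 𝕜 n d * (1 + 8 * ((K0 (n * d) : 𝕜) ^ 6700) ^ 2 / ((n * d : ℕ) : 𝕜) ^ 2)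
def x0 (𝕜 : Type) [Field 𝕜] (n d : ℕ) : 𝕜 :=
  s0 𝕜 n d * d + (1 - s0 𝕜 n d ^ 2) / phi0 𝕜 n d
def par0 (𝕜 : Type) [Field 𝕜] (n d : ℕ) : Par 𝕜 :=
  ⟨K0 (n * d), ((n * d : ℕ) : 𝕜), ((n * d : ℕ) : 𝕜) * ((d : 𝕜) - 1) * ((d : 𝕜) - 2) * s0 𝕜 n d ^ 3⟩
def F0 (𝕜 : Type) [Field 𝕜] (n d : ℕ) : Matrix (Fin n × Fin d) (Fin n × Fin d) 𝕜 := fun a b =>
  phi0 𝕜 n d * ((if a.1 = b.1 then 1 else 0) - (d : 𝕜) / ((n * d : ℕ) : 𝕜))
    - s0 𝕜 n d * ((if a = b then 1 else 0) - 1 / ((n * d : ℕ) : 𝕜))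
def st0 (𝕜 : Type) [Field 𝕜] (n d : ℕ) : St (Fin n × Fin d) (Fin n) 𝕜 :=
  ⟨univ, F0 𝕜 n d, F0 𝕜 n d, fun _ _ => 0⟩

/-- All matrix entries have numerators and denominators of at most `B` bits. -/
def Small (B : ℕ) (F : Matrix ι ι ℚ) : Prop :=
  ∀ a b, (F a b).num.natAbs ≤ 2 ^ B ∧ (F a b).den ≤ 2 ^ B

def St.cast (s : St ι V ℚ) : St ι V ℝ := ⟨s.S, s.F.map (↑), s.G.map (↑), s.A⟩
def Par.cast (p : Par ℚ) : Par ℝ := ⟨p.K, p.N, p.a⟩

end poly

/-! ### Analysis over `ℝ` -/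

section real
variable {ι V : Type} [Fintype ι] [DecidableEq ι] [Fintype V] [DecidableEq V]

/-- symmetric, supported on `S`, zero row sums -/
structure Mat (S : Finset ι) (F : Matrix ι ι ℝ) : Prop where
  symm : ∀ a b, F a b = F b a
  supp : ∀ a b, a ∉ S → F a b = 0
  row : ∀ a, ∑ b, F a b = 0

/-- operator norm at most `L` -/
def OpB (L : ℝ) (F : Matrix ι ι ℝ) : Prop :=
  ∀ x : ι → ℝ, (F *ᵥ x) ⬝ᵥ (F *ᵥ x) ≤ L ^ 2 * (x ⬝ᵥ x)

/-- Local hypotheses of the pointwise update formulas. -/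
structure Loc (σ : ℝ) (S : Finset ι) (F : Matrix ι ι ℝ) (u v : ι) : Prop where
  mat : Mat S F
  sg : σ = 1 ∨ σ = -1
  ne : u ≠ v
  hu : u ∈ S
  hv : v ∈ S
  big : (1000 : ℝ) ≤ S.card
  du : |F u u| ≤ 1 / 1000
  dv : |F v v| ≤ 1 / 1000
  f : |F u v| ≤ 1 / 1000

/-- `p_a = |F_aa| + 1/m` -/
noncomputable def pd (S : Finset ι) (F : Matrix ι ι ℝ) (a : ι) : ℝ := |F a a| + 1 / (S.card : ℝ)
/-- `φ = |F_uv| + 1/m` -/
noncomputable def ph (S : Finset ι) (F : Matrix ι ι ℝ) (u v : ι) : ℝ := |F u v| + 1 / (S.card : ℝ)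

namespace Par
variable (p : Par ℝ) (m : ℝ)
noncomputable def L : ℝ := √(1 + √(p.T4 m))
noncomputable def R : ℝ := 3 * √(√(p.TR4 m))
noncomputable def gam : ℝ := p.K ^ 600
noncomputable def eps : ℝ := if p.phI m then 1 / p.K ^ 1150 else 1 / p.K ^ 800
noncomputable def Gam2 : ℝ := if p.phI m then p.K ^ 1201 else p.K ^ 36
structure OK : Prop where
  K2 : 2 ≤ p.K
  N1 : p.K ^ 10000 ≤ p.N
  N2 : p.N ≤ 2 * p.K ^ 10000
  a1 : p.N / 2 ≤ p.a
  a2 : p.a ≤ p.K * p.N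
end Par

/-- What `Ξ ≤ 1` and the link give for one matrix. -/
structure One (p : Par ℝ) (S : Finset ι) (F : Matrix ι ι ℝ) : Prop where
  mat : Mat S F
  ent : ∀ a b, |F a b| ≤ 3 / 4
  t_lo : -p.kt S.card ≤ t1 F
  t_hi : t1 F ≤ p.tst S.card + p.kt S.card
  a2_hi : a2 F ≤ p.a2s S.card + p.k2 S.card
  a2_T : a2 F ≤ p.T2 S.card
  a2_lo : p.phX S.card → S.card - 5 * p.W ≤ a2 F
  a3_hi : a3 F ≤ p.a + p.k3
  a3_lo : -a2 F ≤ a3 F
  a3_I : p.phI S.card → p.a - p.k3 ≤ a3 F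
  a4_T : a4 F ≤ p.T4 S.card
  X2_T : p.phX S.card → X2 S F ≤ p.TX S.card
  R2_T : ¬ p.phX S.card → R2 S F ≤ p.TR S.card
  R4_T : R4 S F ≤ p.TR4 S.card
  D2_T : D2 S F ≤ p.TD S.card
  D4_T : D4 S F ≤ 1 / p.K ^ 4

structure Two (p : Par ℝ) (S : Finset ι) (F G : Matrix ι ι ℝ) : Prop where
  c11_lo : p.phI S.card → -p.kc S.card ≤ c11 F G
  c22_T : p.phI S.card → c22 F G ≤ p.T22 S.card

open Classical in
/-- `1` if the trace is positive, else `0` -/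
noncomputable def io (F : Matrix ι ι ℝ) : ℝ := if 0 < t1 F then 1 else 0
/-- the tilt -/
noncomputable def xi (σ : ℝ) (F G : Matrix ι ι ℝ) (u v : ι) : ℝ := σ * (io F * F u v - io G * G u v)

/-- The averaging weights. -/
structure Wt (p : Par ℝ) (σ : ℝ) (S : Finset ι) (F G : Matrix ι ι ℝ) (w : ι → ι → ℝ) : Prop where
  nn : ∀ u v, 0 ≤ w u v
  le : ∀ u v, w u v ≤ 11 / 10
  symm : ∀ u v, w u v = w v u
  supp : ∀ u v, w u v ≠ 0 → u ≠ v ∧ u ∈ S ∧ v ∈ S ∧ |F u v| ≤ 1 / p.K ∧ |G u v| ≤ 1 / p.K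
    ∧ hh F u v ≤ 1 / p.K ^ 20 ∧ hh G u v ≤ 1 / p.K ^ 20
  row : ∀ u ∈ S, ∑ v ∈ S, (w u v - 1) ^ 2 ≤ p.eps S.card ^ 2 * S.card
  tot : ∑ u ∈ S, ∑ v ∈ S.erase u, (w u v - 1) ^ 2 ≤ p.Gam2 S.card * S.card
  ref : p.phI S.card → ∃ χ : ι → ι → ℝ, ∑ u ∈ S, ∑ v ∈ S, χ u v ^ 2 ≤ p.K ^ 35 * S.card ∧
    ∀ u ∈ S, ∀ v ∈ S, u ≠ v →
      |w u v - 1 + p.gam * xi σ F G u v| ≤ 1000 * p.gam ^ 2 * (F u v ^ 2 + G u v ^ 2) + χ u v

/-- The setting of every drift estimate. -/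
structure Ctx (ι : Type) [Fintype ι] [DecidableEq ι] where
  p : Par ℝ
  σ : ℝ
  S : Finset ι
  F : Matrix ι ι ℝ
  G : Matrix ι ι ℝ
  w : ι → ι → ℝ
  sg : σ = 1 ∨ σ = -1
  ok : p.OK
  mN : (S.card : ℝ) ≤ p.N
  live : p.live S.card
  oF : One p S F
  oG : One p S G
  two : Two p S F G
  wt : Wt p σ S F G w

namespace Ctx
variable (c : Ctx ι)
noncomputable def m : ℝ := c.S.card
noncomputable def Ω : ℝ := ∑ u, ∑ v, c.w u v
/-- the allowed error per step -/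
noncomputable def η : ℝ := 1 / (√c.p.K * c.m)
noncomputable def F' (u v : ι) : Matrix ι ι ℝ := upd c.σ c.S c.F u v
noncomputable def G' (u v : ι) : Matrix ι ι ℝ := upd (-c.σ) c.S c.G u v
end Ctx

/-- Drift estimate for a one-matrix term `P` in the phases `ph`. -/
def TrOne (ph : Par ℝ → ℝ → Prop)
    (P : ∀ (ι : Type) [Fintype ι] [DecidableEq ι], Par ℝ → Finset ι → Matrix ι ι ℝ → ℝ) : Prop :=
  ∃ K1 : ℝ, ∀ (ι : Type) [Fintype ι] [DecidableEq ι] (c : Ctx ι), K1 ≤ c.p.K → ph c.p c.m →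
    P ι c.p c.S c.F ≤ 1 →
    ∑ u, ∑ v, c.w u v * P ι c.p (rem c.S u v) (c.F' u v) ≤ c.Ω * (P ι c.p c.S c.F + c.η)

/-- Drift estimate for a two-matrix term `P` in phase I. -/
def TrTwo
    (P : ∀ (ι : Type) [Fintype ι] [DecidableEq ι],
      Par ℝ → Finset ι → Matrix ι ι ℝ → Matrix ι ι ℝ → ℝ) : Prop :=
  ∃ K1 : ℝ, ∀ (ι : Type) [Fintype ι] [DecidableEq ι] (c : Ctx ι), K1 ≤ c.p.K → c.p.phI c.m →
    P ι c.p c.S c.F c.G ≤ 1 →
    ∑ u, ∑ v, c.w u v * P ι c.p (rem c.S u v) (c.F' u v) (c.G' u v)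
      ≤ c.Ω * (P ι c.p c.S c.F c.G + c.η)

/-! ### The link with the graph -/

/-- number of free half-edges at a vertex -/
def fr (vtx : ι → V) (S : Finset ι) (i : V) : ℕ := (S.filter fun a => vtx a = i).card

def Rm (vtx : ι → V) : Matrix V ι ℝ := fun i a => if vtx a = i then 1 else 0

noncomputable def Hm (σ x s : ℝ) (d : ℕ) (vtx : ι → V) (S : Finset ι) (A : V → V → ℕ) :
    Matrix V V ℝ := fun i j =>
  (if i = j then x - s * fr vtx S i else 0) - σ * A i j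
    - (σ - s) * fr vtx S i * fr vtx S j / S.card + (σ - s) * d / Fintype.card V

def Link (σ x s : ℝ) (d : ℕ) (vtx : ι → V) (S : Finset ι) (A : V → V → ℕ)
    (F : Matrix ι ι ℝ) : Prop :=
  (Hm σ x s d vtx S A).PosDef ∧
    F = (1 - s ^ 2) • ((prj S : Matrix ι ι ℝ) * (Rm vtx)ᵀ * (Hm σ x s d vtx S A)⁻¹ * Rm vtx
      * (prj S : Matrix ι ι ℝ)) - s • (prj S : Matrix ι ι ℝ)

/-- endgame invariant -/
def EI (σ x s : ℝ) (d : ℕ) (vtx : ι → V) (S : Finset ι) (A : V → V → ℕ) : Prop :=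
  (Hm σ x s d vtx S A - (1 - s) • (Rm vtx * (prj S : Matrix ι ι ℝ) * (Rm vtx)ᵀ)).PosDef

/-- combinatorial invariant: a simple graph whose degrees are completed to `d` by free half-edges -/
structure Gr (d : ℕ) (vtx : ι → V) (S : Finset ι) (A : V → V → ℕ) : Prop where
  symm : ∀ i j, A i j = A j i
  le : ∀ i j, A i j ≤ 1
  diag : ∀ i, A i i = 0
  deg : ∀ i, ∑ j, A i j + fr vtx S i = d

/-! ### Main terms and error terms of the pointwise update formulas -/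

section pt
variable (σ σ' L R : ℝ) (S : Finset ι) (F G : Matrix ι ι ℝ) (u v : ι)

/-- `ϱ_a = 1 + r_a` -/
noncomputable def vr (F : Matrix ι ι ℝ) (a : ι) : ℝ := 1 + rr F a

noncomputable def mainT : ℝ := 2 * σ * (F * F) u v + F v v * (rr F u - 1) + F u u * (rr F v - 1)
noncomputable def errT : ℝ :=
  (rr F u + rr F v) / S.card + F u v ^ 2 * (vr F u + vr F v) + |F u v| * |(F * F) u v|
    + pd S F u ^ 2 * vr F v + pd S F v ^ 2 * vr F u

/-- `r^F_a + r^G_a` -/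
noncomputable def rb (F G : Matrix ι ι ℝ) (a : ι) : ℝ := rr F a + rr G a
noncomputable def pb (S : Finset ι) (F G : Matrix ι ι ℝ) (a : ι) : ℝ :=
  |F a a| + |G a a| + 1 / (S.card : ℝ)
noncomputable def o2 : ℝ := |(F * F) u v| + |(F * G) u v| + |(G * F) u v| + |(G * G) u v|
noncomputable def w3 : ℝ := |(F * G * F) u v| + |(G * F * G) u v|

noncomputable def main2 : ℝ :=
  -2 * ((F * G) u u + (F * G) v v) + 2 * σ * σ' * (F * G) u u * (F * G) v v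
    + 2 * σ * (F * G * F) u v + 2 * σ' * (G * F * G) u v
    + F v v * (F * G * F) u u + F u u * (F * G * F) v v
    + G v v * (G * F * G) u u + G u u * (G * F * G) v v
noncomputable def err2 : ℝ :=
  L * (rb F G u + rb F G v) / S.card + rb F G u * rb F G v / S.card
    + L * (pb S F G v * (|F u v| + |G u v|) + pb S F G v ^ 2) * rb F G u
    + L * (pb S F G u * (|F u v| + |G u v|) + pb S F G u ^ 2) * rb F G v
    + (|F u v| + |G u v| + 1 / S.card + pb S F G u * pb S F G v) * w3 F G u v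
    + (|F u v| + |G u v| + pb S F G u * pb S F G v) * (rb F G u * rb F G v + rb F G u + rb F G v)
    + o2 F G u v ^ 2 + pb S F G v ^ 2 * rb F G u ^ 2 + pb S F G u ^ 2 * rb F G v ^ 2
    + (|F u u| + |G u u|) ^ 2 + (|F v v| + |G v v|) ^ 2 + (|F u v| + |G u v|) ^ 2
noncomputable def crude2 : ℝ :=
  w3 F G u v + rb F G u + rb F G v + rb F G u * rb F G v
    + L * (pb S F G v * rb F G u + pb S F G u * rb F G v)
    + pb S F G v ^ 2 * rb F G u ^ 2 + pb S F G u ^ 2 * rb F G v ^ 2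

noncomputable def main3 : ℝ :=
  3 * (rr F u - 1) * (F * F * F) v v + 3 * (rr F v - 1) * (F * F * F) u u
    + 6 * σ * (F * F * F * F) u v
    + 3 * (F v v * (F * F * F * F) u u + F u u * (F * F * F * F) v v)
noncomputable def err3 : ℝ :=
  (ph S F u v + pd S F u * pd S F v) * |(F * F * F * F) u v|
    + (ph S F u v * pd S F v + pd S F v ^ 2 + 1 / S.card) * (F * F * F * F) u u
    + (ph S F u v * pd S F u + pd S F u ^ 2 + 1 / S.card) * (F * F * F * F) v v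
    + L * (ph S F u v + |(F * F) u v|) * vr F u * vr F v
    + L * (pd S F v * vr F u ^ 2 * vr F v + pd S F u * vr F u * vr F v ^ 2)
    + R * (pd S F v ^ 2 * vr F u ^ 2 + pd S F u ^ 2 * vr F v ^ 2) + R * (vr F u + vr F v) / S.card
noncomputable def crude3 : ℝ :=
  |(F * F * F * F) u v| + (L + R) * vr F u * vr F v
    + (L ^ 2 + R ^ 2) * (pd S F v * vr F u + pd S F u * vr F v)

/-- `1 + r^F_a + r^G_a` -/
noncomputable def ro (F G : Matrix ι ι ℝ) (a : ι) : ℝ := 1 + rb F G a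
noncomputable def qq (F G : Matrix ι ι ℝ) (a : ι) : ℝ :=
  (F * F * F * F) a a + (F * G * G * F) a a + (G * F * F * G) a a + (G * G * G * G) a a
noncomputable def phb : ℝ := |F u v| + |G u v| + 1 / (S.card : ℝ)
noncomputable def rem4 : ℝ :=
  (F * G * G * F) u u + (G * F * F * G) u u + 2 * (F * F * G * G) u u
    + ((F * G * G * F) v v + (G * F * F * G) v v + 2 * (F * F * G * G) v v)
noncomputable def quad4 : ℝ :=
  rr F u * (F * G * G * F) v v + rr F v * (F * G * G * F) u u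
    + rr G u * (G * F * F * G) v v + rr G v * (G * F * F * G) u u
    + 2 * σ * σ' * ((F * F * G) u u * (G * G * F) v v + (F * F * G) v v * (G * G * F) u u)
    + 2 * σ * σ' * ((F * G) u u * (G * G * F * F) v v + (F * G) v v * (G * G * F * F) u u)
noncomputable def lin4 : ℝ :=
  2 * σ * ((F * G * G * F * F) u v + (F * G * G * F * F) v u)
    + 2 * (F v v * (F * G * G * F * F) u u + F u u * (F * G * G * F * F) v v)
    + 2 * σ' * ((G * G * F * F * G) u v + (G * G * F * F * G) v u)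
    + 2 * (G v v * (G * G * F * F * G) u u + G u u * (G * G * F * F * G) v v)
noncomputable def half4 : ℝ :=
  (√(qq F G u) * ro F G u + ro F G u ^ 2) * ro F G v ^ 2 + phb S F G u v * ro F G u * qq F G v
    + pb S F G v * ro F G u * √(qq F G u * qq F G v)
    + √R * pb S F G v * ro F G v * (qq F G u + ro F G u ^ 2)
    + (R + L) * pb S F G v ^ 2 * qq F G u
    + L * (phb S F G u v + pb S F G u + pb S F G v) * (√(qq F G u) + √(ro F G u))
        * √(ro F G u * ro F G v)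
    + L * (1 / S.card + pb S F G v * phb S F G u v) * qq F G u
    + ro F G u * qq F G v / R + R ^ 3 * pb S F G v ^ 2 * ro F G u ^ 2
    + (L ^ 2 + R ^ 2) * ro F G u / S.card
noncomputable def o3 : ℝ :=
  |(F * F * G) u v| + |(F * F * G) v u| + |(G * G * F) u v| + |(G * G * F) v u|
noncomputable def err4 : ℝ :=
  half4 L R S F G u v + half4 L R S F G v u + o2 F G u v * √(qq F G u * qq F G v)
    + o3 F G u v ^ 2 + L * phb S F G u v * √(qq F G u * qq F G v)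

variable (a : ι)
noncomputable def main5 : ℝ :=
  F a u ^ 2 * (rr F v - 1) + F a v ^ 2 * (rr F u - 1)
    + 2 * σ * (F a v * (F * F) a u + F a u * (F * F) a v)
    + 2 * F v v * F a u * (F * F) a u + 2 * F u u * F a v * (F * F) a v
/-- `φ + p_u p_v` -/
noncomputable def ph0 : ℝ := ph S F u v + pd S F u * pd S F v
/-- `1/m + p_v φ + p_v²` -/
noncomputable def pe : ℝ := 1 / S.card + pd S F v * ph S F u v + pd S F v ^ 2
noncomputable def err5 : ℝ :=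
  ph0 S F u v * (F a u ^ 2 * vr F v + F a v ^ 2 * vr F u + |F a v * (F * F) a u|
      + |F a u * (F * F) a v|)
    + pe S F u v * |F a u * (F * F) a u| + pe S F v u * |F a v * (F * F) a v|
    + |F a u * F a v| * (|(F * F) u v| + pd S F v * vr F u + pd S F u * vr F v)
    + F a u ^ 2 * (pd S F v * |(F * F) u v| + pd S F v ^ 2 * vr F u)
    + F a v ^ 2 * (pd S F u * |(F * F) u v| + pd S F u ^ 2 * vr F v)
    + (|(F * F) a u| + |(F * F) a v| + (|F a u| + |F a v|) * (vr F u + vr F v)) / S.card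
    + (rr F u + rr F v) / (S.card : ℝ) ^ 2
noncomputable def main6 : ℝ := F v v * F a u ^ 2 + F u u * F a v ^ 2 + 2 * σ * F a u * F a v
noncomputable def err6 : ℝ :=
  pe S F u v * F a u ^ 2 + pe S F v u * F a v ^ 2 + ph0 S F u v * |F a u * F a v|
    + (|F a u| + |F a v|) / S.card + (pd S F u + pd S F v + ph S F u v) / (S.card : ℝ) ^ 2
end pt

end real

end Crest.Agent.R62
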