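import Crest.Agent.Lib.PT.Int
import Crest.Agent.R62.Defs
import Crest.Agent.R62.AlgStep

set_option autoImplicit false

open Finset Matrix

namespace Crest.Agent.R62

open Crest.Agent.PT

variable {ι V : Type} [Fintype ι] [DecidableEq ι] [Fintype V] [DecidableEq V]

omit [Fintype V] in
theorem Step.card_adj {p : Par ℚ} {vtx : ι → V} {s s' : St ι V ℚ} (h : Step p vtx s s') :
    s'.S.card + 2 = s.S.card ∧ ∀ i j, s'.A i j ≤ s.A i j + 2 := by
  have key : ∀ u v, u ≠ v → u ∈ s.S → v ∈ s.S → (rem s.S u v).card + 2 = s.S.card ∧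
      ∀ i j, addE s.A (vtx u) (vtx v) i j ≤ s.A i j + 2 := by
    intro u v huv hu hv
    refine ⟨?_, fun i j => ?_⟩
    · have h1 : v ∈ s.S.erase u := mem_erase.2 ⟨huv.symm, hv⟩
      have h2 := card_erase_add_one h1
      have h3 := card_erase_add_one hu
      unfold rem; omega
    · unfold addE; split_ifs <;> omega
  obtain ⟨u, v, h | h⟩ := h
  · obtain ⟨_, h1, _, rfl⟩ := h
    exact key u v h1.1 h1.2.1 h1.2.2.1
  · obtain ⟨_, h1, h2, h3, rfl⟩ := h
    exact key u v h1 h2 h3

theorem length_wM_le {n d B : ℕ} {F : Matrix (Fin n × Fin d) (Fin n × Fin d) ℚ} (h : Small B F) :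
    (wM F).length ≤ n * d * (n * d) * (2 * (2 * (B + 1)) + 5) := by
  refine length_tab_le fun k _ => sz_le_of_ht ?_
  have h1 : 2 ^ B < 2 ^ (B + 1) := Nat.pow_lt_pow_right (by omega) (by omega)
  refine lt_of_le_of_lt ?_ h1
  unfold ex
  split_ifs with h2
  · exact max_le (h _ _).1 (h _ _).2
  · simpa [ht] using Nat.one_le_two_pow

theorem length_wA_le {n B : ℕ} {A : Fin n → Fin n → ℕ} (h : ∀ i j, A i j ≤ B) :
    (wA A).length ≤ n * n * (2 * (2 * (B + 1)) + 5) := by
  refine length_tab_le fun k _ => sz_le_of_ht ?_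
  have h1 : B + 1 < 2 ^ (B + 1) := Nat.lt_two_pow_self
  refine lt_of_le_of_lt ?_ h1
  have h2 : exA A (k / n) (k % n) ≤ B := by
    unfold exA
    split_ifs
    · exact h _ _
    · omega
  simp only [ht, Rat.num_natCast, Int.natAbs_natCast, Rat.den_natCast]
  omega

/-- The size bound of the states. -/
def szB (d c n : ℕ) : ℕ :=
  n + n * d + n * d * (n * d) * (2 * (2 * ((n + 2) ^ c + 1)) + 5)
    + n * d * (n * d) * (2 * (2 * ((n + 2) ^ c + 1)) + 5) + n * n * (2 * (2 * (n * d + 1)) + 5)

open Classical in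
noncomputable def outW {d : ℕ} (s : SS d) : List Bool :=
  (List.range (s.1 * s.1)).map fun k => decide (exA s.2.A (k / s.1) (k % s.1) ≠ 0)

theorem pt_outW {d : ℕ} : PTime (outW (d := d)) := by
  have h := PSt.of_ptime (PTime.id (α := SS d))
  have hn : PTime fun q : SS d × Un => q.1.1 := (pu_n.comp PTime.fst').ptime
  exact PTime.rangeMap (g := fun (s : SS d) k => decide (exA s.2.A (k / s.1) (k % s.1) ≠ 0))
    (pu_n.mul pu_n) (PTime.decide ((h.hA.app PTime.fst' ((PU.val PTime.snd').div hn)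
      ((PU.val PTime.snd').mod hn)).ne (PTime.const 0)))

/-- The greedy run is computable in polynomial time as long as it stays small and never gets stuck. -/
theorem alg (d c : ℕ) (hd : 3 ≤ d) : ∃ f : List Bool → List Bool, Crest.Complexity.PolyTime f ∧
    ∀ n : ℕ, (∀ s, Reach (par0 ℚ n d) Prod.fst (st0 ℚ n d) s →
        Small ((n + 2) ^ c) s.F ∧ Small ((n + 2) ^ c) s.G
          ∧ (s.S.Nonempty → ∃ s', Step (par0 ℚ n d) Prod.fst s s')) →
      ∃ s, Reach (par0 ℚ n d) Prod.fst (st0 ℚ n d) s ∧ s.S = ∅ ∧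
        ∀ i j : Fin n, (f (Crest.CombinatoricsR.GraphCode.unary n)).getD (i.val * n + j.val) false
          = true ↔ s.A i j ≠ 0 := by
  obtain ⟨step, hstep, hs⟩ := exists_step d
  have hl : PU fun x : Word => x.length := PU.length PTime.id
  obtain ⟨g, hg, hg'⟩ := exists_iter (init := fun x : Word => (⟨x.length, st0 ℚ x.length d⟩ : SS d))
    (n := fun x => x.length * d) (B := fun x => szB d c x.length) (pst_st0 hl).ptime hstep
    (hl.mul (PU.const d)) (by unfold szB; fun_prop)
  refine ⟨fun x => outW (g x), (pt_outW.comp hg).polyTime, fun n h => ?_⟩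
  have key : ∀ k, ∃ s, step^[k] (⟨n, st0 ℚ n d⟩ : SS d) = ⟨n, s⟩ ∧
      Reach (par0 ℚ n d) Prod.fst (st0 ℚ n d) s ∧ s.S.card ≤ n * d - k ∧
      ∀ i j, s.A i j + s.S.card ≤ n * d := by
    intro k
    induction k with
    | zero => exact ⟨_, rfl, Relation.ReflTransGen.refl, by simp [st0], by simp [st0]⟩
    | succ k ih =>
        obtain ⟨s, e, hr, h1, h2⟩ := ih
        rw [Function.iterate_succ_apply', e]
        rcases s.S.eq_empty_or_nonempty with h0 | h0
        · exact ⟨s, (hs n s).1 h0, hr, by simp [h0], h2⟩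
        · obtain ⟨s', e', hs'⟩ := (hs n s).2 ((h s hr).2.2 h0)
          obtain ⟨h3, h4⟩ := hs'.card_adj
          refine ⟨s', e', hr.tail hs', by omega, fun i j => ?_⟩
          have := h2 i j
          have := h4 i j
          omega
  have hlen : (Crest.CombinatoricsR.GraphCode.unary n).length = n := by
    simp [Crest.CombinatoricsR.GraphCode.unary]
  have e := hg' (Crest.CombinatoricsR.GraphCode.unary n) (by
    rw [hlen]
    intro k _
    obtain ⟨s, e, hr, h1, h2⟩ := key k
    rw [e, sz_SS]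
    have a1 := length_wM_le (h s hr).1
    have a2 := length_wM_le (h s hr).2.1
    have a3 := length_wA_le (A := s.A) (B := n * d) fun i j => by have := h2 i j; omega
    have a4 : (wS s.S).length = n * d := by simp [wS]
    unfold szB
    simp only
    omega)
  rw [hlen] at e
  obtain ⟨s, e', hr, h1, _⟩ := key (n * d)
  refine ⟨s, hr, card_eq_zero.1 (by omega), fun i j => ?_⟩
  simp only
  rw [e, e', outW, getD_rangeMap_of_lt _ (pair_lt i.2 j.2)]
  simp only [pair_div j.2, pair_mod j.2, exA_val, decide_eq_true_eq]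

end Crest.Agent.R62
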