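import Crest.Agent.R290.PTx

/-!
Rational arithmetic in polynomial time, tables of rationals, clamped iteration.
-/

set_option autoImplicit false
set_option linter.unusedVariables false

namespace Crest.Agent.PT

open Function Crest.Agent.PT.Rp Crest.Enc

/-! ### gcd -/

def gcdStep (p : ℕ × ℕ) : ℕ × ℕ := if p.1 = 0 then p else (p.2 % p.1, p.1)

theorem gcdStep_gcd (p : ℕ × ℕ) : Nat.gcd (gcdStep p).1 (gcdStep p).2 = Nat.gcd p.1 p.2 := by
  unfold gcdStep
  split_ifs with h
  · rfl
  · exact (Nat.gcd_rec _ _).symm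

theorem gcdIter_gcd (k : ℕ) (p : ℕ × ℕ) :
    Nat.gcd (gcdStep^[k] p).1 (gcdStep^[k] p).2 = Nat.gcd p.1 p.2 := by
  induction k with
  | zero => rfl
  | succ k ih => rw [iterate_succ_apply', gcdStep_gcd, ih]

theorem gcdIter_le (k : ℕ) (p : ℕ × ℕ) :
    (gcdStep^[k] p).1 ≤ p.1 + p.2 ∧ (gcdStep^[k] p).2 ≤ p.1 + p.2 := by
  induction k with
  | zero => simp
  | succ k ih =>
      rw [iterate_succ_apply']
      generalize gcdStep^[k] p = q at ih
      unfold gcdStep
      split_ifs with h
      · exact ih
      · exact ⟨(Nat.mod_le _ _).trans ih.2, ih.1⟩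

theorem gcdIter_zero (k : ℕ) (p : ℕ × ℕ) (h1 : p.1 ≤ p.2) (h2 : p.1 * p.2 < 2 ^ k) :
    (gcdStep^[k] p).1 = 0 := by
  induction k generalizing p with
  | zero =>
      simp only [pow_zero, Nat.lt_one_iff, Nat.mul_eq_zero] at h2
      simp only [iterate_zero, id]; omega
  | succ k ih =>
      rw [iterate_succ_apply]
      by_cases h : p.1 = 0
      · have e : gcdStep p = p := by simp [gcdStep, h]
        rw [e, iterate_fixed e]; exact h
      · have e : gcdStep p = (p.2 % p.1, p.1) := by simp [gcdStep, h]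
        rw [e]
        have h3 : p.2 % p.1 < p.1 := Nat.mod_lt _ (Nat.pos_of_ne_zero h)
        refine ih _ h3.le ?_
        have h4 : p.2 % p.1 + p.1 ≤ p.2 := by
          have := Nat.mod_add_div p.2 p.1
          have h5 : 1 ≤ p.2 / p.1 := (Nat.le_div_iff_mul_le (Nat.pos_of_ne_zero h)).2 (by omega)
          nlinarith
        have h5 : 2 * (p.2 % p.1) ≤ p.2 := by omega
        have h6 : 2 * (p.2 % p.1 * p.1) ≤ p.1 * p.2 := by nlinarith
        rw [pow_succ] at h2
        show p.2 % p.1 * p.1 < 2 ^ k
        omega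

theorem gcd_eq_iter (a b : ℕ) :
    Nat.gcd a b = (gcdStep^[2 * (a.size + b.size)] (min a b, max a b)).2 := by
  have h0 := gcdIter_zero (2 * (a.size + b.size)) (min a b, max a b) min_le_max (by
    show min a b * max a b < _
    rw [min_mul_max]
    have h1 := Nat.lt_size_self a
    have h2 := Nat.lt_size_self b
    calc a * b < 2 ^ a.size * 2 ^ b.size := Nat.mul_lt_mul'' h1 h2
      _ = 2 ^ (a.size + b.size) := (pow_add _ _ _).symm
      _ ≤ _ := Nat.pow_le_pow_right (by omega) (by omega))
  have h1 := gcdIter_gcd (2 * (a.size + b.size)) (min a b, max a b)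
  rw [h0, Nat.gcd_zero_left] at h1
  rw [h1]
  rcases le_total a b with h | h
  · simp [h]
  · simp [h, Nat.gcd_comm]

instance : Rp ℚ := ⟨I (ℤ × ℕ), fun q => w (q.num, q.den)⟩

theorem sz_int (z : ℤ) : sz z = sz z.toNat + sz (-z).toNat := sz_prod _ _

theorem sz_rat (q : ℚ) : sz q = sz q.num + sz q.den := sz_prod _ _

theorem sz_int_eq (z : ℤ) : sz z = sz z.natAbs := by
  rw [sz_int]
  rcases le_total 0 z with h | h
  · rw [show (-z).toNat = 0 by omega, show z.toNat = z.natAbs by omega]; simp [sz_nat]
  · rw [show z.toNat = 0 by omega, show (-z).toNat = z.natAbs by omega]; simp [sz_nat]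

/-- The height of a rational number. -/
def ht (q : ℚ) : ℕ := max q.num.natAbs q.den

theorem ht_lt (q : ℚ) : ht q < 2 ^ sz q := by
  rw [sz_rat, sz_int_eq]
  have h1 := lt_two_pow_sz q.num.natAbs
  have h2 := lt_two_pow_sz q.den
  have h3 : 2 ^ sz q.num.natAbs ≤ 2 ^ (sz q.num.natAbs + sz q.den) :=
    Nat.pow_le_pow_right (by omega) (by omega)
  have h4 : 2 ^ sz q.den ≤ 2 ^ (sz q.num.natAbs + sz q.den) :=
    Nat.pow_le_pow_right (by omega) (by omega)
  unfold ht; omega

theorem sz_le_of_ht {q : ℚ} {k : ℕ} (h : ht q < 2 ^ k) : sz q ≤ 2 * k := by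
  rw [sz_rat, sz_int_eq]
  have h1 : sz q.num.natAbs ≤ k := sz_nat_le.2 (lt_of_le_of_lt (le_max_left _ _) h)
  have h2 : sz q.den ≤ k := sz_nat_le.2 (lt_of_le_of_lt (le_max_right _ _) h)
  omega

theorem ht_mkRat (z : ℤ) (n : ℕ) (hn : n ≠ 0) : ht (mkRat z n) ≤ max z.natAbs n := by
  unfold ht
  rw [Rat.num_mkRat, Rat.den_mkRat, if_neg hn, if_neg hn]
  refine max_le_max ?_ (Nat.div_le_self _ _)
  exact Int.natAbs_ediv_le_natAbs _ _

theorem ht_add (x y : ℚ) : ht (x + y) ≤ 2 * ht x * ht y := by
  rw [Rat.add_def']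
  refine (ht_mkRat _ _ (mul_ne_zero x.den_nz y.den_nz)).trans (max_le ?_ ?_)
  · refine (Int.natAbs_add_le _ _).trans ?_
    rw [Int.natAbs_mul, Int.natAbs_mul, Int.natAbs_natCast, Int.natAbs_natCast]
    have h1 : x.num.natAbs * y.den ≤ ht x * ht y :=
      Nat.mul_le_mul (le_max_left _ _) (le_max_right _ _)
    have h2 : y.num.natAbs * x.den ≤ ht y * ht x :=
      Nat.mul_le_mul (le_max_left _ _) (le_max_right _ _)
    nlinarith
  · have h1 : x.den * y.den ≤ ht x * ht y :=
      Nat.mul_le_mul (le_max_right _ _) (le_max_right _ _)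
    nlinarith

section
variable {α β : Type} [Rp α] [Rp β]

@[fun_prop] theorem PTime.gcd {f g : α → ℕ} (hf : PTime f) (hg : PTime g) :
    PTime fun a => Nat.gcd (f a) (g a) := by
  have := PTime.iter (step := fun _ p => gcdStep p) (init := fun a => (Min.min (f a) (g a), Max.max (f a) (g a)))
    (n := fun a => 2 * ((f a).size + (g a).size)) (by unfold gcdStep; fun_prop) (by fun_prop)
    (by fun_prop) (((hf.sz.add hg.sz).add (PB.const 1)).mul (PB.const 2)) (fun a k _ => by
      obtain ⟨h1, h2⟩ := gcdIter_le k (Min.min (f a) (g a), Max.max (f a) (g a))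
      simp only [min_add_max] at h1 h2
      have h3 := (sz_nat_mono h1).trans (sz_add_le _ _)
      have h4 := (sz_nat_mono h2).trans (sz_add_le _ _)
      rw [← Prod.mk.eta (p := gcdStep^[k] _), sz_prod]
      omega)
  exact this.snd.congr fun a => gcd_eq_iter _ _

theorem PTime.rat_iff {f : α → ℚ} : PTime f ↔ PTime fun a => ((f a).num, (f a).den) := Iff.rfl

@[fun_prop] theorem PTime.num {f : α → ℚ} (hf : PTime f) : PTime fun a => (f a).num :=
  (PTime.rat_iff.1 hf).fst

@[fun_prop] theorem PTime.den {f : α → ℚ} (hf : PTime f) : PTime fun a => (f a).den :=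
  (PTime.rat_iff.1 hf).snd

/-- Exact division of an integer by a natural number. -/
theorem PTime.idiv_exact {f : α → ℤ} {g : α → ℕ} (hf : PTime f) (hg : PTime g)
    (h : ∀ a, (g a : ℤ) ∣ f a) : PTime fun a => f a / (g a : ℤ) := by
  refine PTime.int_mk (hf.toNat.div hg) (hf.toNatNeg.div hg) fun a => ?_
  obtain ⟨c, hc⟩ := h a
  rcases Nat.eq_zero_or_pos (g a) with h0 | h0
  · simp [h0]
  have h1 : (g a : ℤ) ≠ 0 := by exact_mod_cast h0.ne'
  push_cast
  rw [hc, Int.mul_ediv_cancel_left _ h1]
  rcases le_total 0 c with hc0 | hc0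
  · have e1 : (((g a : ℤ) * c).toNat : ℤ) = g a * c := Int.toNat_of_nonneg (by positivity)
    have e2 : ((-((g a : ℤ) * c)).toNat : ℤ) = 0 := by
      have : (0 : ℤ) ≤ g a * c := by positivity
      omega
    rw [e1, e2, Int.mul_ediv_cancel_left _ h1]; simp
  · have h2 : (g a : ℤ) * c ≤ 0 := mul_nonpos_of_nonneg_of_nonpos (by positivity) hc0
    have e1 : (((g a : ℤ) * c).toNat : ℤ) = 0 := by omega
    have e2 : ((-((g a : ℤ) * c)).toNat : ℤ) = g a * (-c) := by
      rw [Int.toNat_of_nonneg (by omega)]; ring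
    rw [e1, e2, Int.mul_ediv_cancel_left _ h1]; simp

@[fun_prop] theorem PTime.mkRat {f : α → ℤ} {g : α → ℕ} (hf : PTime f) (hg : PTime g) :
    PTime fun a => mkRat (f a) (g a) := by
  have h1 : PTime fun a => f a / ((Nat.gcd (g a) (f a).natAbs : ℕ) : ℤ) :=
    PTime.idiv_exact hf (by fun_prop) fun a => by
      rw [Int.natCast_dvd]; exact Nat.gcd_dvd_right _ _
  refine PTime.rat_iff.2 <| PTime.congr (f := fun a =>
    (if g a = 0 then 0 else f a / ((Nat.gcd (g a) (f a).natAbs : ℕ) : ℤ),
      if g a = 0 then 1 else g a / Nat.gcd (g a) (f a).natAbs))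
    (PTime.pair (PTime.ite (by fun_prop) (PTime.const _) h1) (by fun_prop)) fun a => ?_
  rw [Rat.num_mkRat, Rat.den_mkRat]

@[fun_prop] theorem PTime.qint {f : α → ℤ} (hf : PTime f) : PTime fun a => (f a : ℚ) :=
  PTime.rat_iff.2 <| (hf.pair (PTime.const 1)).congr fun a => by simp

@[fun_prop] theorem PTime.qnat {f : α → ℕ} (hf : PTime f) : PTime fun a => (f a : ℚ) :=
  hf.natCast.qint.congr fun a => by simp

@[fun_prop] theorem PTime.qadd {f g : α → ℚ} (hf : PTime f) (hg : PTime g) :
    PTime fun a => f a + g a :=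
  PTime.congr (f := fun a => _root_.mkRat ((f a).num * (g a).den + (g a).num * (f a).den)
    ((f a).den * (g a).den)) (by fun_prop) fun a => Rat.add_def' _ _

@[fun_prop] theorem PTime.qmul {f g : α → ℚ} (hf : PTime f) (hg : PTime g) :
    PTime fun a => f a * g a :=
  PTime.congr (f := fun a => _root_.mkRat ((f a).num * (g a).num) ((f a).den * (g a).den))
    (by fun_prop) fun a => Rat.mul_def' _ _

@[fun_prop] theorem PTime.qneg {f : α → ℚ} (hf : PTime f) : PTime fun a => -f a :=
  PTime.rat_iff.2 <| (hf.num.ineg.pair hf.den).congr fun a => by simp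

@[fun_prop] theorem PTime.qsub {f g : α → ℚ} (hf : PTime f) (hg : PTime g) :
    PTime fun a => f a - g a :=
  (hf.qadd hg.qneg).congr fun a => sub_eq_add_neg _ _

@[fun_prop] theorem PTime.qinv {f : α → ℚ} (hf : PTime f) : PTime fun a => (f a)⁻¹ := by
  refine PTime.congr (f := fun a => _root_.mkRat
    (if (f a).num < 0 then -((f a).den : ℤ) else (f a).den) (f a).num.natAbs)
    (by fun_prop) fun a => ?_
  rw [Rat.mkRat_eq_div]
  conv_lhs => rw [← Rat.num_div_den (f a), inv_div]
  split_ifs with h
  · rw [Nat.cast_natAbs, abs_of_neg h]; push_cast; rw [neg_div_neg_eq]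
  · rw [Nat.cast_natAbs, abs_of_nonneg (not_lt.1 h)]; push_cast; rfl

@[fun_prop] theorem PTime.qdiv {f g : α → ℚ} (hf : PTime f) (hg : PTime g) :
    PTime fun a => f a / g a :=
  (hf.qmul hg.qinv).congr fun a => div_eq_mul_inv _ _

@[fun_prop] theorem PTime.qle {f g : α → ℚ} (hf : PTime f) (hg : PTime g) :
    PTime fun a => f a ≤ g a :=
  ((hf.qsub hg).num.ile (PTime.const 0)).congr fun a => by
    rw [Rat.num_nonpos, sub_nonpos]

@[fun_prop] theorem PTime.qlt {f g : α → ℚ} (hf : PTime f) (hg : PTime g) :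
    PTime fun a => f a < g a :=
  (hg.qle hf).not.congr fun a => by simp

@[fun_prop] theorem PTime.qeq {f g : α → ℚ} (hf : PTime f) (hg : PTime g) :
    PTime fun a => f a = g a :=
  ((hf.qle hg).and (hg.qle hf)).congr fun a => by simp [le_antisymm_iff]

@[fun_prop] theorem PTime.qmax {f g : α → ℚ} (hf : PTime f) (hg : PTime g) :
    PTime fun a => Max.max (f a) (g a) :=
  PTime.congr (f := fun a => if f a ≤ g a then g a else f a) (by fun_prop) fun a => max_def _ _

@[fun_prop] theorem PTime.qabs {f : α → ℚ} (hf : PTime f) : PTime fun a => |f a| :=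
  (hf.qmax hf.qneg).congr fun a => abs_eq_max_neg

@[fun_prop] theorem PTime.qpow {f : α → ℚ} {k : α → ℕ} (hf : PTime f) (hk : PU k) :
    PTime fun a => f a ^ k a :=
  PTime.rat_iff.2 <| ((hf.num.ipow hk).pair (hf.den.pow hk)).congr fun a => by
    rw [Rat.num_pow, Rat.den_pow]

theorem PTime.qsum_range {n : α → ℕ} {g : α → ℕ → ℚ} (hn : PU n)
    (hg : PTime fun p : α × Un => g p.1 p.2.val) :
    PTime fun a => ∑ i ∈ Finset.range (n a), g a i := by
  obtain ⟨B, hB, hb⟩ := bound_range hn hg
  refine PTime.loop (fun a k => ∑ i ∈ Finset.range k, g a i) (fun a s k => s + g a k) hn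
    (by simpa using PTime.const _)
    (PTime.qadd (by fun_prop) (hg.comp (f := fun p : α × ℚ × Un => (p.1, p.2.2)) (by fun_prop)))
    (fun a k _ => Finset.sum_range_succ _ _)
    ((PB.const 2).mul ((hn.pb.mul (hB.add (PB.const 1))).add (PB.const 1)))
    (fun a k hk => ?_)
  have key : ∀ j, j ≤ n a → ht (∑ i ∈ Finset.range j, g a i) ≤ 2 ^ (j * (B a + 1)) := by
    intro j hj
    induction j with
    | zero => simp [ht]
    | succ j ih =>
        rw [Finset.sum_range_succ]
        refine (ht_add _ _).trans ?_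
        have h1 := ih (by omega)
        have h2 : ht (g a j) ≤ 2 ^ B a :=
          (ht_lt _).le.trans (Nat.pow_le_pow_right (by omega) (hb a j (by omega)))
        calc 2 * ht (∑ i ∈ Finset.range j, g a i) * ht (g a j)
            ≤ 2 * 2 ^ (j * (B a + 1)) * 2 ^ B a := by gcongr
          _ = 2 ^ ((j + 1) * (B a + 1)) := by ring
  refine (sz_le_of_ht (k := k * (B a + 1) + 1)
    ((key k hk).trans_lt (Nat.pow_lt_pow_right (by omega) (by omega)))).trans ?_
  have := Nat.mul_le_mul_right (B a + 1) hk
  omega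

/-! ### Dependent case distinction, sizes, clamped iteration -/

instance {c : α → Prop} : Rp {a // c a} := ⟨I α, fun a => w a.1⟩

theorem PTime.subval {c : α → Prop} : PTime fun a : {a // c a} => a.1 := fun j =>
  PTw.var (α := {a // c a}) j

theorem PTime.dite {c : α → Prop} [∀ a, Decidable (c a)] {f : ∀ a, c a → β} {g : α → β}
    (hc : PTime c) (hf : PTime fun p : {a // c a} => f p.1 p.2) (hg : PTime g) :
    PTime fun a => if h : c a then f a h else g a := by
  by_cases hne : ∃ a, c a
  · obtain ⟨a0, h0⟩ := hne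
    have hr : PTime fun a => (if h : c a then ⟨a, h⟩ else ⟨a0, h0⟩ : {a // c a}) := by
      have h1 : PTime fun a => if c a then a else a0 := PTime.ite hc PTime.id (PTime.const _)
      intro j
      have := h1 j
      convert this using 2 with a
      show w (if h : c a then ⟨a, h⟩ else ⟨a0, h0⟩ : {a // c a}).1 j = _
      beta_reduce
      split_ifs <;> rfl
    refine (PTime.ite hc (hf.comp hr) hg).congr fun a => ?_
    split_ifs with h <;> rfl
  · refine hg.congr fun a => ?_
    rw [dif_neg fun h => hne ⟨a, h⟩]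

theorem PU.finsum {J : Type} (S : Finset J) {f : J → α → ℕ} (hf : ∀ j, PU (f j)) :
    PU fun a => ∑ j ∈ S, f j a := by
  classical
  induction S using Finset.induction_on with
  | empty => simpa using PU.const 0
  | insert j S hj ih => simpa [Finset.sum_insert hj] using (hf j).add ih

theorem PU.sz' : PU fun a : α => PT.sz a :=
  PU.finsum _ fun j => PU.length (f := fun a : α => w a j) fun _ => PTw.var j

/-- An iteration which is correct as long as its states stay small. -/
theorem exists_iter {σ : Type} [Rp σ] {init : α → σ} {step : σ → σ} {n B : α → ℕ}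
    (hi : PTime init) (hs : PTime step) (hn : PU n) (hB : PU B) :
    ∃ f : α → σ, PTime f ∧
      ∀ a, (∀ k ≤ n a, PT.sz (step^[k] (init a)) ≤ B a) → f a = step^[n a] (init a) := by
  refine ⟨fun a => (fun s => if PT.sz (step s) ≤ B a then step s else s)^[n a] (init a),
    PTime.iter (step := fun a s => if PT.sz (step s) ≤ B a then step s else s) ?_ hi hn
      (hB.pb.add hi.sz) fun a k _ => ?_, fun a h => ?_⟩
  · have h1 : PTime fun p : α × σ => step p.2 := hs.comp PTime.snd'
    exact PTime.ite ((PU.sz'.comp h1).ptime.le (hB.comp PTime.fst').ptime) h1 PTime.snd'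
  · induction k with
    | zero => simp
    | succ k ih =>
        rw [iterate_succ_apply']
        split_ifs with h
        · omega
        · exact ih (by omega)
  · have key : ∀ k ≤ n a, (fun s => if PT.sz (step s) ≤ B a then step s else s)^[k] (init a)
        = step^[k] (init a) := by
      intro k hk
      induction k with
      | zero => rfl
      | succ k ih =>
          have := h (k + 1) hk
          rw [iterate_succ_apply'] at this
          rw [iterate_succ_apply', ih (by omega), if_pos this, iterate_succ_apply']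
    exact key _ le_rfl

theorem PU.findGreatest {n : α → ℕ} {c : α → ℕ → Prop} [∀ a, DecidablePred (c a)] (hn : PU n)
    (hc : PTime fun p : α × Un => c p.1 p.2.val) :
    PU fun a => Nat.findGreatest (c a) (n a) := by
  have h1 : PTime fun p : α × Un × Un => c p.1 (p.2.2.val + 1) :=
    hc.comp (f := fun p : α × Un × Un => (p.1, Un.mk (p.2.2.val + 1))) (by fun_prop)
  exact PTime.loop (fun a k => Un.mk (Nat.findGreatest (c a) k))
    (fun a s k => Un.mk (if c a (k + 1) then k + 1 else s.val)) hn (PTime.const _)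
    (PU.ite h1 (by fun_prop) (by fun_prop)) (fun a k _ => by rw [Nat.findGreatest_succ])
    hn.pb (fun a k hk => by simpa using (Nat.findGreatest_le k).trans hk)

theorem sqrt_eq_findGreatest (X : ℕ) :
    Nat.sqrt X = Nat.findGreatest (fun k => k * k ≤ X) X := by
  refine le_antisymm (Nat.le_findGreatest (Nat.sqrt_le_self _) (Nat.sqrt_le _)) ?_
  exact Nat.le_sqrt.2 (Nat.findGreatest_spec (P := fun k => k * k ≤ X) (Nat.zero_le X) (by simp))

theorem PU.sqrt {n : α → ℕ} (hn : PU n) : PU fun a => Nat.sqrt (n a) := by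
  have := PU.findGreatest (c := fun a k => k * k ≤ n a) hn
    (by have := hn.ptime; fun_prop)
  simpa only [sqrt_eq_findGreatest] using this

end

/-! ### Tables of rationals -/

def ratVal (x : Word) : ℚ := mkRat (intVal x) (natVal (intRest x))
def ratRest (x : Word) : Word := natRest (intRest x)

theorem ratCode_eq (q : ℚ) : ratCode q = intCode q.num ++ natCode q.den := rfl

theorem ratVal_code (q : ℚ) (r : Word) : ratVal (ratCode q ++ r) = q := by
  rw [ratVal, ratCode_eq, List.append_assoc, intVal_intCode, intRest_intCode, natVal_natCode,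
    Rat.mkRat_self]

theorem ratRest_code (q : ℚ) (r : Word) : ratRest (ratCode q ++ r) = r := by
  rw [ratRest, ratCode_eq, List.append_assoc, intRest_intCode, natRest_natCode]

theorem length_ratRest_le (x : Word) : (ratRest x).length ≤ x.length :=
  (length_natRest_le _).trans (length_intRest_le _)

theorem length_ratCode (q : ℚ) : (ratCode q).length = 2 * sz q + 5 := by
  rw [ratCode_eq, List.length_append, intCode, List.length_cons, length_natCode, length_natCode,
    sz_rat, sz_int_eq, sz_nat, sz_nat]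
  omega

/-- A table of `N` rationals. -/
def tab (N : ℕ) (g : ℕ → ℚ) : Word := ((List.range N).map fun i => ratCode (g i)).flatten

/-- Reading a table. -/
def rd (x : Word) (i : ℕ) : ℚ := ratVal (ratRest^[i] x)

theorem rd_tab {N i : ℕ} (g : ℕ → ℚ) (h : i < N) : rd (tab N g) i = g i := by
  have := iterate_skip ratRest (fun i => ratCode (g i)) (fun i r => ratRest_code _ r)
    (List.range N) [] i (by simpa using h.le)
  rw [List.append_nil] at this
  rw [rd, tab, this, List.drop_eq_getElem_cons (by simpa using h), List.map_cons, List.flatten_cons,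
    List.append_assoc, ratVal_code]
  simp

theorem length_tab_le {N B : ℕ} {g : ℕ → ℚ} (h : ∀ i < N, sz (g i) ≤ B) :
    (tab N g).length ≤ N * (2 * B + 5) := by
  induction N with
  | zero => simp [tab]
  | succ N ih =>
      have h1 := ih fun i hi => h i (by omega)
      have h2 := h N (by omega)
      have h3 := length_ratCode (g N)
      simp only [tab, List.range_succ, List.map_append, List.flatten_append, List.length_append,
        List.map_cons, List.map_nil, List.flatten_cons, List.flatten_nil, List.append_nil] at h1 ⊢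
      rw [add_mul]; omega

section
variable {α : Type} [Rp α]

@[fun_prop] theorem PTime.ratCode {f : α → ℚ} (hf : PTime f) : PTime fun a => ratCode (f a) := by
  simp only [ratCode_eq]; fun_prop

theorem PTime.tab {N : α → ℕ} {g : α → ℕ → ℚ} (hN : PU N)
    (hg : PTime fun p : α × Un => g p.1 p.2.val) : PTime fun a => tab (N a) (g a) :=
  PTime.flatRange (g := fun a i => Crest.Enc.ratCode (g a i)) hN hg.ratCode

@[fun_prop] theorem PTime.rd {x : α → Word} {i : α → ℕ} (hx : PTime x) (hi : PU i) :
    PTime fun a => rd (x a) (i a) := by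
  have h1 : PTime fun a => ratRest^[i a] (x a) :=
    PTime.iterate (by unfold ratRest; fun_prop) length_ratRest_le hx hi
  unfold PT.rd ratVal
  fun_prop

end

end Crest.Agent.PT
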