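import Crest.Agent.R62.AlgRat
import Crest.Agent.R62.Defs

/-!
Encoding of the states of the greedy algorithm and polynomial-time families of matrices.
-/

set_option autoImplicit false
set_option linter.unusedVariables false

open Finset Matrix

namespace Crest.Agent.R62

open Crest.Agent.PT Crest.Agent.PT.Rp

section idx
variable {n d : ℕ}

def enc (a : Fin n × Fin d) : ℕ := (finProdFinEquiv a).val
def dec (i : ℕ) (h : i < n * d) : Fin n × Fin d := finProdFinEquiv.symm ⟨i, h⟩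

theorem enc_lt (a : Fin n × Fin d) : enc a < n * d := (finProdFinEquiv a).2
@[simp] theorem enc_dec (i : ℕ) (h : i < n * d) : enc (dec i h) = i := by
  rw [enc, dec, Equiv.apply_symm_apply]
@[simp] theorem dec_enc (a : Fin n × Fin d) (h : enc a < n * d) : dec (enc a) h = a :=
  finProdFinEquiv.symm_apply_apply a
theorem enc_inj {a b : Fin n × Fin d} : enc a = enc b ↔ a = b :=
  ⟨fun h => finProdFinEquiv.injective (Fin.ext h), fun h => by rw [h]⟩
theorem enc_div (a : Fin n × Fin d) : enc a / d = a.1.val := by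
  have h := a.2.2
  simp only [enc, finProdFinEquiv_apply_val]
  rw [Nat.add_mul_div_left _ _ (by omega), Nat.div_eq_of_lt h, zero_add]

theorem sum_enc {M : Type} [AddCommMonoid M] (g : ℕ → M) :
    ∑ a : Fin n × Fin d, g (enc a) = ∑ i ∈ range (n * d), g i := by
  rw [← Fin.sum_univ_eq_sum_range]
  exact Fintype.sum_equiv finProdFinEquiv _ _ fun _ => rfl

/-- A matrix extended by zero to all pairs of natural numbers. -/
def ex (M : Matrix (Fin n × Fin d) (Fin n × Fin d) ℚ) (i j : ℕ) : ℚ :=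
  if h : i < n * d ∧ j < n * d then M (dec i h.1) (dec j h.2) else 0

def exS (S : Finset (Fin n × Fin d)) (i : ℕ) : Prop := ∃ h : i < n * d, dec i h ∈ S

def exA (A : Fin n → Fin n → ℕ) (i j : ℕ) : ℕ :=
  if h : i < n ∧ j < n then A ⟨i, h.1⟩ ⟨j, h.2⟩ else 0

theorem ex_enc (M : Matrix (Fin n × Fin d) (Fin n × Fin d) ℚ) (a b : Fin n × Fin d) :
    ex M (enc a) (enc b) = M a b := by
  rw [ex, dif_pos ⟨enc_lt a, enc_lt b⟩, dec_enc, dec_enc]

theorem exS_enc (S : Finset (Fin n × Fin d)) (a : Fin n × Fin d) : exS S (enc a) ↔ a ∈ S :=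
  ⟨fun ⟨h, h'⟩ => by rwa [dec_enc] at h', fun h => ⟨enc_lt a, by rwa [dec_enc]⟩⟩

theorem exA_val (A : Fin n → Fin n → ℕ) (i j : Fin n) : exA A i.val j.val = A i j := by
  rw [exA, dif_pos ⟨i.2, j.2⟩]

theorem ex_eq {M : Matrix (Fin n × Fin d) (Fin n × Fin d) ℚ} {g : ℕ → ℕ → ℚ}
    (h : ∀ a b, M a b = g (enc a) (enc b)) (i j : ℕ) :
    ex M i j = if i < n * d ∧ j < n * d then g i j else 0 := by
  unfold ex
  split_ifs with h'
  · rw [h, enc_dec, enc_dec]
  · rfl

theorem exS_eq {S : Finset (Fin n × Fin d)} {c : ℕ → Prop} (h : ∀ a, a ∈ S ↔ c (enc a)) (i : ℕ) :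
    exS S i ↔ i < n * d ∧ c i :=
  ⟨fun ⟨h1, h2⟩ => ⟨h1, by rwa [h, enc_dec] at h2⟩, fun ⟨h1, h2⟩ => ⟨h1, by rwa [h, enc_dec]⟩⟩

theorem exA_eq {A : Fin n → Fin n → ℕ} {g : ℕ → ℕ → ℕ} (h : ∀ a b, A a b = g a.val b.val)
    (i j : ℕ) : exA A i j = if i < n ∧ j < n then g i j else 0 := by
  unfold exA
  split_ifs with h'
  · rw [h]
  · rfl

open Classical in
noncomputable def wS (S : Finset (Fin n × Fin d)) : Word :=
  (List.range (n * d)).map fun i => decide (exS S i)

def wM (M : Matrix (Fin n × Fin d) (Fin n × Fin d) ℚ) : Word :=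
  tab ((n * d) * (n * d)) fun k => ex M (k / (n * d)) (k % (n * d))

def wA (A : Fin n → Fin n → ℕ) : Word :=
  tab (n * n) fun k => (exA A (k / n) (k % n) : ℚ)

theorem pair_lt {N i j : ℕ} (hi : i < N) (hj : j < N) : i * N + j < N * N := by nlinarith

theorem pair_div {N i j : ℕ} (hj : j < N) : (i * N + j) / N = i := by
  rw [add_comm, Nat.add_mul_div_right _ _ (by omega), Nat.div_eq_of_lt hj, zero_add]

theorem pair_mod {N i j : ℕ} (hj : j < N) : (i * N + j) % N = j := by
  rw [add_comm, Nat.add_mul_mod_self_right, Nat.mod_eq_of_lt hj]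

theorem ex_wM (M : Matrix (Fin n × Fin d) (Fin n × Fin d) ℚ) (i j : ℕ) :
    ex M i j = if i < n * d ∧ j < n * d then rd (wM M) (i * (n * d) + j) else 0 := by
  split_ifs with h
  · rw [wM, rd_tab _ (pair_lt h.1 h.2), pair_div h.2, pair_mod h.2]
  · rw [ex, dif_neg h]

theorem exA_wA (A : Fin n → Fin n → ℕ) (i j : ℕ) :
    exA A i j = if i < n ∧ j < n then (rd (wA A) (i * n + j)).num.toNat else 0 := by
  split_ifs with h
  · rw [wA, rd_tab _ (pair_lt h.1 h.2), pair_div h.2, pair_mod h.2]; simp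
  · rw [exA, dif_neg h]

theorem exS_wS (S : Finset (Fin n × Fin d)) (i : ℕ) : exS S i ↔ (wS S).getD i false = true := by
  rw [wS, getD_rangeMap]
  simp only [Bool.and_eq_true, decide_eq_true_eq]
  exact ⟨fun h => ⟨h.1, h⟩, fun h => h.2⟩

end idx

/-- States of all sizes. -/
abbrev SS (d : ℕ) := Σ n : ℕ, St (Fin n × Fin d) (Fin n) ℚ

noncomputable def SS.code {d : ℕ} (s : SS d) : Un × Word × Word × Word × Word :=
  (Un.mk s.1, wS s.2.S, wM s.2.F, wM s.2.G, wA s.2.A)

noncomputable instance {d : ℕ} : Rp (SS d) :=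
  ⟨I (Un × Word × Word × Word × Word), fun s => w s.code⟩

theorem sz_SS {d : ℕ} (s : SS d) : PT.sz s = s.1 + (wS s.2.S).length + (wM s.2.F).length
    + (wM s.2.G).length + (wA s.2.A).length := by
  show PT.sz s.code = _
  simp [SS.code]; omega

instance : Rp (Par ℚ) := ⟨I (ℚ × ℚ × ℚ), fun p => w (p.K, p.N, p.a)⟩

section fam
variable {α β : Type} [Rp α] [Rp β] {d : ℕ}

/-- Polynomial-time families of matrices. -/
def PM (n : α → ℕ) (M : ∀ a, Matrix (Fin (n a) × Fin d) (Fin (n a) × Fin d) ℚ) : Prop :=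
  PTime fun p : α × Un × Un => ex (M p.1) p.2.1.val p.2.2.val

/-- Polynomial-time families of sets of half-edges. -/
def PS (n : α → ℕ) (S : ∀ a, Finset (Fin (n a) × Fin d)) : Prop :=
  PTime fun p : α × Un => exS (S p.1) p.2.val

/-- Polynomial-time families of adjacency tables. -/
def PA (n : α → ℕ) (A : ∀ a, Fin (n a) → Fin (n a) → ℕ) : Prop :=
  PTime fun p : α × Un × Un => exA (A p.1) p.2.1.val p.2.2.val

variable {n : α → ℕ}

theorem PM.app {M : ∀ a, Matrix (Fin (n a) × Fin d) (Fin (n a) × Fin d) ℚ} (h : PM n M)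
    {φ : β → α} {i j : β → ℕ} (hφ : PTime φ) (hi : PU i) (hj : PU j) :
    PTime fun b => ex (M (φ b)) (i b) (j b) :=
  PTime.comp (f := fun b => (φ b, Un.mk (i b), Un.mk (j b))) h (by fun_prop)

theorem PS.app {S : ∀ a, Finset (Fin (n a) × Fin d)} (h : PS n S)
    {φ : β → α} {i : β → ℕ} (hφ : PTime φ) (hi : PU i) : PTime fun b => exS (S (φ b)) (i b) :=
  PTime.comp (f := fun b => (φ b, Un.mk (i b))) h (by fun_prop)

theorem PA.app {A : ∀ a, Fin (n a) → Fin (n a) → ℕ} (h : PA n A)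
    {φ : β → α} {i j : β → ℕ} (hφ : PTime φ) (hi : PU i) (hj : PU j) :
    PTime fun b => exA (A (φ b)) (i b) (j b) :=
  PTime.comp (f := fun b => (φ b, Un.mk (i b), Un.mk (j b))) h (by fun_prop)

theorem PM.of_eq {M : ∀ a, Matrix (Fin (n a) × Fin d) (Fin (n a) × Fin d) ℚ} (hn : PU n)
    {g : α → ℕ → ℕ → ℚ} (hg : PTime fun p : α × Un × Un => g p.1 p.2.1.val p.2.2.val)
    (h : ∀ x a b, M x a b = g x (enc a) (enc b)) : PM n M := by
  have := hn.ptime
  exact PTime.congr (PTime.ite (c := fun p : α × Un × Un =>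
    p.2.1.val < n p.1 * d ∧ p.2.2.val < n p.1 * d) (by fun_prop) hg (PTime.const 0))
    fun p => ex_eq (h p.1) _ _

theorem PS.of_eq {S : ∀ a, Finset (Fin (n a) × Fin d)} (hn : PU n)
    {c : α → ℕ → Prop} (hc : PTime fun p : α × Un => c p.1 p.2.val)
    (h : ∀ x a, a ∈ S x ↔ c x (enc a)) : PS n S := by
  have := hn.ptime
  exact PTime.congr (PTime.and (c := fun p : α × Un => p.2.val < n p.1 * d) (by fun_prop) hc)
    fun p => propext (exS_eq (h p.1) _)

theorem PA.of_eq {A : ∀ a, Fin (n a) → Fin (n a) → ℕ} (hn : PU n)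
    {g : α → ℕ → ℕ → ℕ} (hg : PTime fun p : α × Un × Un => g p.1 p.2.1.val p.2.2.val)
    (h : ∀ x a b, A x a b = g x a.val b.val) : PA n A := by
  have := hn.ptime
  exact PTime.congr (PTime.ite (c := fun p : α × Un × Un =>
    p.2.1.val < n p.1 ∧ p.2.2.val < n p.1) (by fun_prop) hg (PTime.const 0))
    fun p => exA_eq (h p.1) _ _

theorem PM.wM {M : ∀ a, Matrix (Fin (n a) × Fin d) (Fin (n a) × Fin d) ℚ} (hn : PU n)
    (h : PM n M) : PTime fun a => wM (M a) := by
  have := hn.ptime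
  exact PTime.tab (g := fun a k => ex (M a) (k / (n a * d)) (k % (n a * d))) (by fun_prop)
    (h.app PTime.fst' (by fun_prop) (by fun_prop))

theorem PA.wA {A : ∀ a, Fin (n a) → Fin (n a) → ℕ} (hn : PU n) (h : PA n A) :
    PTime fun a => wA (A a) := by
  have := hn.ptime
  exact PTime.tab (g := fun a k => (exA (A a) (k / n a) (k % n a) : ℚ)) (by fun_prop)
    (h.app PTime.fst' (by fun_prop) (by fun_prop)).qnat

theorem PS.wS {S : ∀ a, Finset (Fin (n a) × Fin d)} (hn : PU n) (h : PS n S) :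
    PTime fun a => wS (S a) := by
  classical
  exact PTime.rangeMap (g := fun a i => decide (exS (S a) i)) (by fun_prop) (PTime.decide h)

theorem PM.of_wM {M : ∀ a, Matrix (Fin (n a) × Fin d) (Fin (n a) × Fin d) ℚ} (hn : PU n)
    (h : PTime fun a => R62.wM (M a)) : PM n M := by
  have := hn.ptime
  have h1 : PTime fun p : α × Un × Un => R62.wM (M p.1) := h.comp PTime.fst'
  exact PTime.congr (PTime.ite (c := fun p : α × Un × Un =>
    p.2.1.val < n p.1 * d ∧ p.2.2.val < n p.1 * d) (by fun_prop)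
    (PTime.rd (i := fun p : α × Un × Un => p.2.1.val * (n p.1 * d) + p.2.2.val) h1 (by fun_prop))
    (PTime.const 0)) fun p => ex_wM _ _ _

theorem PA.of_wA {A : ∀ a, Fin (n a) → Fin (n a) → ℕ} (hn : PU n)
    (h : PTime fun a => R62.wA (A a)) : PA n A := by
  have := hn.ptime
  have h1 : PTime fun p : α × Un × Un => R62.wA (A p.1) := h.comp PTime.fst'
  exact PTime.congr (PTime.ite (c := fun p : α × Un × Un =>
    p.2.1.val < n p.1 ∧ p.2.2.val < n p.1) (by fun_prop)
    (PTime.rd (i := fun p : α × Un × Un => p.2.1.val * n p.1 + p.2.2.val) h1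
      (by fun_prop)).num.toNat (PTime.const 0)) fun p => exA_wA _ _ _

theorem PS.of_wS {S : ∀ a, Finset (Fin (n a) × Fin d)} (h : PTime fun a => R62.wS (S a)) :
    PS n S := by
  have h1 : PTime fun p : α × Un => R62.wS (S p.1) := h.comp PTime.fst'
  exact PTime.of_bool (PTime.getD (n := fun p : α × Un => p.2.val) h1 (by fun_prop)
    (PTime.const false)) fun p => exS_wS _ _

/-- Polynomial-time families of states. -/
structure PSt (n : α → ℕ) (s : ∀ a, St (Fin (n a) × Fin d) (Fin (n a)) ℚ) : Prop where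
  hn : PU n
  hS : PS n fun a => (s a).S
  hF : PM n fun a => (s a).F
  hG : PM n fun a => (s a).G
  hA : PA n fun a => (s a).A

theorem PSt.ptime {s : ∀ a, St (Fin (n a) × Fin d) (Fin (n a)) ℚ} (h : PSt n s) :
    PTime fun a => (⟨n a, s a⟩ : SS d) :=
  show PTime fun a => SS.code (⟨n a, s a⟩ : SS d) from
    PTime.pair h.hn (PTime.pair (h.hS.wS h.hn) (PTime.pair (h.hF.wM h.hn)
      (PTime.pair (h.hG.wM h.hn) (h.hA.wA h.hn))))

theorem PSt.of_ptime {s : α → SS d} (h : PTime s) : PSt (fun a => (s a).1) fun a => (s a).2 := by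
  have h' : PTime fun a => SS.code (s a) := h
  have hn : PU fun a => (s a).1 := h'.fst
  exact ⟨hn, PS.of_wS h'.snd.fst, PM.of_wM hn h'.snd.snd.fst, PM.of_wM hn h'.snd.snd.snd.fst,
    PA.of_wA hn h'.snd.snd.snd.snd⟩

/-! ### Matrix operations -/

theorem PM.mul {M M' : ∀ a, Matrix (Fin (n a) × Fin d) (Fin (n a) × Fin d) ℚ} (hn : PU n)
    (h : PM n M) (h' : PM n M') : PM n fun a => M a * M' a := by
  refine PM.of_eq hn (g := fun x i j => ∑ k ∈ range (n x * d), ex (M x) i k * ex (M' x) k j)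
    (PTime.qsum_range (n := fun p : α × Un × Un => n p.1 * d)
      (g := fun p k => ex (M p.1) p.2.1.val k * ex (M' p.1) k p.2.2.val) (by fun_prop)
      (PTime.qmul (h.app (φ := fun q : (α × Un × Un) × Un => q.1.1) (by fun_prop) (by fun_prop)
        (by fun_prop)) (h'.app (φ := fun q : (α × Un × Un) × Un => q.1.1) (by fun_prop)
        (by fun_prop) (by fun_prop)))) fun x a b => ?_
  rw [Matrix.mul_apply, ← sum_enc]
  simp only [ex_enc]

theorem PM.trace {M : ∀ a, Matrix (Fin (n a) × Fin d) (Fin (n a) × Fin d) ℚ} (hn : PU n)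
    (h : PM n M) : PTime fun a => (M a).trace := by
  refine (PTime.qsum_range (n := fun a => n a * d) (g := fun a k => ex (M a) k k) (by fun_prop)
    (h.app PTime.fst' (by fun_prop) (by fun_prop))).congr fun a => ?_
  rw [← sum_enc]
  simp only [ex_enc]; rfl

theorem PS.sum {S : ∀ a, Finset (Fin (n a) × Fin d)} (hn : PU n) (hS : PS n S)
    {G : ∀ a, Fin (n a) × Fin d → ℚ} {g : α → ℕ → ℚ}
    (hg : PTime fun p : α × Un => g p.1 p.2.val) (h : ∀ x a, G x a = g x (enc a)) :
    PTime fun x => ∑ a ∈ S x, G x a := by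
  classical
  refine (PTime.qsum_range (n := fun a => n a * d)
    (g := fun x k => if exS (S x) k then g x k else 0) (by fun_prop)
    (PTime.ite hS hg (PTime.const 0))).congr fun x => ?_
  rw [← sum_enc]
  simp only [exS_enc, ← h]
  rw [Finset.sum_ite_mem, Finset.univ_inter]

theorem PS.card {S : ∀ a, Finset (Fin (n a) × Fin d)} (hn : PU n) (hS : PS n S) :
    PTime fun x => ((S x).card : ℚ) :=
  (hS.sum hn (G := fun _ _ => 1) (g := fun _ _ => 1) (PTime.const _) fun _ _ => rfl).congr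
    fun x => by simp

theorem PS.card2 {S : ∀ a, Finset (Fin (n a) × Fin d)} (hn : PU n) (hS : PS n S)
    {P : ∀ x, (Fin (n x) × Fin d) × (Fin (n x) × Fin d) → Prop} [∀ x, DecidablePred (P x)]
    {c : α → ℕ → ℕ → Prop} (hc : PTime fun p : (α × Un) × Un => c p.1.1 p.1.2.val p.2.val)
    (h : ∀ x a b, P x (a, b) ↔ c x (enc a) (enc b)) :
    PTime fun x => (((S x ×ˢ S x).filter (P x)).card : ℚ) := by
  classical
  have h1 : PTime fun p : α × Un => ∑ b ∈ S p.1, (if c p.1 p.2.val (enc b) then 1 else 0 : ℚ) :=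
    PS.sum (n := fun p : α × Un => n p.1) (S := fun p => S p.1) (hn.comp PTime.fst')
      (hS.app (φ := fun q : (α × Un) × Un => q.1.1) (by fun_prop) (by fun_prop))
      (g := fun p k => if c p.1 p.2.val k then 1 else 0)
      (PTime.ite hc (PTime.const _) (PTime.const _)) fun _ _ => rfl
  refine (hS.sum hn (G := fun x a => ∑ b ∈ S x, (if c x (enc a) (enc b) then 1 else 0 : ℚ))
    (g := fun x i => ∑ b ∈ S x, (if c x i (enc b) then 1 else 0 : ℚ)) h1 fun _ _ => rfl).congr
    fun x => ?_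
  rw [Finset.card_filter, Finset.sum_product]
  push_cast
  simp only [h]

end fam

end Crest.Agent.R62
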