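import Crest.Agent.R62.AlgSt

/-!
The potential, the admissibility test and the update are computable in polynomial time.
-/

set_option autoImplicit false
set_option linter.unusedVariables false

open Finset Matrix

namespace Crest.Agent.R62

open Crest.Agent.PT Crest.Agent.PT.Rp

section par
variable {α : Type} [Rp α] {p : α → Par ℚ} {m : α → ℚ}

@[fun_prop] theorem pt_K (hp : PTime p) : PTime fun a => (p a).K :=
  (show PTime fun a => ((p a).K, (p a).N, (p a).a) from hp).fst
@[fun_prop] theorem pt_N (hp : PTime p) : PTime fun a => (p a).N :=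
  (show PTime fun a => ((p a).K, (p a).N, (p a).a) from hp).snd.fst
@[fun_prop] theorem pt_a (hp : PTime p) : PTime fun a => (p a).a :=
  (show PTime fun a => ((p a).K, (p a).N, (p a).a) from hp).snd.snd
theorem pt_mk {K N A : α → ℚ} (hK : PTime K) (hN : PTime N) (hA : PTime A) :
    PTime fun a => (⟨K a, N a, A a⟩ : Par ℚ) :=
  show PTime fun a => (K a, N a, A a) from hK.pair (hN.pair hA)

@[fun_prop] theorem pt_W (hp : PTime p) : PTime fun a => (p a).W := by
  unfold Par.W; fun_prop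
@[fun_prop] theorem pt_rho (hp : PTime p) (hm : PTime m) : PTime fun a => (p a).rho (m a) := by
  unfold Par.rho; fun_prop
@[fun_prop] theorem pt_T2 (hp : PTime p) (hm : PTime m) : PTime fun a => (p a).T2 (m a) := by
  unfold Par.T2; fun_prop
@[fun_prop] theorem pt_a2s (hp : PTime p) (hm : PTime m) : PTime fun a => (p a).a2s (m a) := by
  unfold Par.a2s; fun_prop
@[fun_prop] theorem pt_k2 (hp : PTime p) (hm : PTime m) : PTime fun a => (p a).k2 (m a) := by
  unfold Par.k2; fun_prop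
@[fun_prop] theorem pt_kt (hp : PTime p) (hm : PTime m) : PTime fun a => (p a).kt (m a) := by
  unfold Par.kt; fun_prop
@[fun_prop] theorem pt_k3 (hp : PTime p) : PTime fun a => (p a).k3 := by
  unfold Par.k3; fun_prop
@[fun_prop] theorem pt_kc (hp : PTime p) (hm : PTime m) : PTime fun a => (p a).kc (m a) := by
  unfold Par.kc; fun_prop
@[fun_prop] theorem pt_T4 (hp : PTime p) (hm : PTime m) : PTime fun a => (p a).T4 (m a) := by
  unfold Par.T4; fun_prop
@[fun_prop] theorem pt_TX (hp : PTime p) (hm : PTime m) : PTime fun a => (p a).TX (m a) := by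
  unfold Par.TX; fun_prop
@[fun_prop] theorem pt_TR (hp : PTime p) (hm : PTime m) : PTime fun a => (p a).TR (m a) := by
  unfold Par.TR; fun_prop
@[fun_prop] theorem pt_TR4 (hp : PTime p) (hm : PTime m) : PTime fun a => (p a).TR4 (m a) := by
  unfold Par.TR4; fun_prop
@[fun_prop] theorem pt_TD (hp : PTime p) (hm : PTime m) : PTime fun a => (p a).TD (m a) := by
  unfold Par.TD; fun_prop
@[fun_prop] theorem pt_T22 (hp : PTime p) (hm : PTime m) : PTime fun a => (p a).T22 (m a) := by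
  unfold Par.T22; fun_prop
@[fun_prop] theorem pt_TB (hp : PTime p) (hm : PTime m) : PTime fun a => (p a).TB (m a) := by
  unfold Par.TB; fun_prop
@[fun_prop] theorem pt_tst (hp : PTime p) (hm : PTime m) : PTime fun a => (p a).tst (m a) := by
  unfold Par.tst; fun_prop
@[fun_prop] theorem pt_phI (hp : PTime p) (hm : PTime m) : PTime fun a => (p a).phI (m a) := by
  unfold Par.phI; fun_prop
@[fun_prop] theorem pt_phX (hp : PTime p) (hm : PTime m) : PTime fun a => (p a).phX (m a) := by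
  unfold Par.phX; fun_prop
@[fun_prop] theorem pt_live (hp : PTime p) (hm : PTime m) : PTime fun a => (p a).live (m a) := by
  unfold Par.live; fun_prop
@[fun_prop] theorem pt_pp (hm : PTime m) : PTime fun a => pp (m a) := by
  unfold pp; fun_prop

/-- `Xi1` as a function of its scalar data. -/
def xi1S (p : Par ℚ) (m m0 t b2 b3 b4 x2 r2 r4 d2 d4 : ℚ) : ℚ :=
  pp (t - p.tst m) / p.kt m ^ 2 + pp (-t) / p.kt m ^ 2 + pp (b2 - p.a2s m) / p.k2 m ^ 2
    + b2 / p.T2 m + pp (b3 - p.a) / p.k3 ^ 2 + b4 / p.T4 m + r4 / p.TR4 m + d2 / p.TD m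
    + p.K ^ 4 * d4
    + (if p.phX m0 then pp (m - 4 * p.W - b2) / p.W ^ 2 + x2 / p.TX m else r2 / p.TR m)
    + (if p.phI m0 then pp (p.a - b3) / p.k3 ^ 2 else 0)

theorem pt_xi1S {m0 t b2 b3 b4 x2 r2 r4 d2 d4 : α → ℚ} (hp : PTime p) (hm : PTime m)
    (hm0 : PTime m0) (ht : PTime t) (h2 : PTime b2) (h3 : PTime b3) (h4 : PTime b4)
    (hx2 : PTime x2) (hr2 : PTime r2) (hr4 : PTime r4) (hd2 : PTime d2) (hd4 : PTime d4) :
    PTime fun a => xi1S (p a) (m a) (m0 a) (t a) (b2 a) (b3 a) (b4 a) (x2 a) (r2 a) (r4 a)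
      (d2 a) (d4 a) := by
  unfold xi1S; fun_prop

/-- `Xi` as a function of its scalar data. -/
def xiS (p : Par ℚ) (m x y c1 c2 sm ad : ℚ) : ℚ :=
  x + y + (if p.phI m then pp (-c1) / p.kc m ^ 2 + c2 / p.T22 m else 0)
    + (p.K ^ 4 * sm + ad) / p.TB m

theorem pt_xiS {x y c1 c2 sm ad : α → ℚ} (hp : PTime p) (hm : PTime m) (hx : PTime x)
    (hy : PTime y) (h1 : PTime c1) (h2 : PTime c2) (hs : PTime sm) (ha : PTime ad) :
    PTime fun a => xiS (p a) (m a) (x a) (y a) (c1 a) (c2 a) (sm a) (ad a) := by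
  unfold xiS; fun_prop

/-- `upd` as a function of its scalar data. -/
def updS (σ m fab fau fav fbu fbv fuu fvv fuv pau pav pbu pbv : ℚ) : ℚ :=
  fab + ((fvv + σ / m) * (fau - σ * pav) * (fbu - σ * pbv)
      + (fuu + σ / m) * (fav - σ * pau) * (fbv - σ * pbu)
      + (σ - σ / m - fuv) * ((fau - σ * pav) * (fbv - σ * pbu) + (fav - σ * pau) * (fbu - σ * pbv)))
      / ((σ - σ / m - fuv) ^ 2 - (fuu + σ / m) * (fvv + σ / m))
    - σ * (pau * pbv + pav * pbu + (pau + pav) * (pbu + pbv) / (m - 2))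

theorem pt_updS (σ : ℚ) {fab fau fav fbu fbv fuu fvv fuv pau pav pbu pbv : α → ℚ} (hm : PTime m)
    (h1 : PTime fab) (h2 : PTime fau) (h3 : PTime fav) (h4 : PTime fbu) (h5 : PTime fbv)
    (h6 : PTime fuu) (h7 : PTime fvv) (h8 : PTime fuv) (h9 : PTime pau) (h10 : PTime pav)
    (h11 : PTime pbu) (h12 : PTime pbv) :
    PTime fun a => updS σ (m a) (fab a) (fau a) (fav a) (fbu a) (fbv a) (fuu a) (fvv a) (fuv a)
      (pau a) (pav a) (pbu a) (pbv a) := by
  unfold updS; fun_prop

end par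

section gen
variable {ι V : Type} [Fintype ι] [DecidableEq ι] [Fintype V] [DecidableEq V]

omit [DecidableEq ι] in
theorem Xi1_eq (p : Par ℚ) (S : Finset ι) (F : Matrix ι ι ℚ) (m0 : ℚ) :
    Xi1 p S F m0 = xi1S p S.card m0 (t1 F) (a2 F) (a3 F) (a4 F) (X2 S F) (R2 S F) (R4 S F)
      (D2 S F) (D4 S F) := rfl

omit [Fintype V] in
theorem Xi_eq (p : Par ℚ) (vtx : ι → V) (s : St ι V ℚ) :
    Xi p vtx s = xiS p s.S.card (Xi1 p s.S s.F s.S.card) (Xi1 p s.S s.G s.S.card) (c11 s.F s.G)
      (c22 s.F s.G) (same vtx s.S) (adjc vtx s.S s.A) := rfl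

omit [Fintype ι] in
theorem upd_eqS (σ : ℚ) (S : Finset ι) (F : Matrix ι ι ℚ) (u v a b : ι) :
    upd σ S F u v a b = updS σ S.card (F a b) (F a u) (F a v) (F b u) (F b v) (F u u) (F v v)
      (F u v) (prj S a u) (prj S a v) (prj S b u) (prj S b v) := rfl

end gen

section fam
variable {α : Type} [Rp α] {d : ℕ} {n : α → ℕ}

theorem PS.xi1 {S : ∀ a, Finset (Fin (n a) × Fin d)}
    {F : ∀ a, Matrix (Fin (n a) × Fin d) (Fin (n a) × Fin d) ℚ} {p : α → Par ℚ} {m0 : α → ℚ}
    (hn : PU n) (hS : PS n S) (hF : PM n F) (hp : PTime p) (hm0 : PTime m0) :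
    PTime fun a => Xi1 (p a) (S a) (F a) (m0 a) := by
  have h2 := PM.mul hn hF hF
  have h3 := PM.mul hn h2 hF
  have h4 := PM.mul hn h3 hF
  have hr : PTime fun q : α × Un => ex (F q.1 * F q.1) q.2.val q.2.val :=
    h2.app PTime.fst' (by fun_prop) (by fun_prop)
  have hd : PTime fun q : α × Un => ex (F q.1) q.2.val q.2.val :=
    hF.app PTime.fst' (by fun_prop) (by fun_prop)
  have e1 : PTime fun a => t1 (F a) := by unfold t1; exact hF.trace hn
  have e2 : PTime fun a => a2 (F a) := by unfold a2; exact h2.trace hn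
  have e3 : PTime fun a => a3 (F a) := by unfold a3; exact h3.trace hn
  have e4 : PTime fun a => a4 (F a) := by unfold a4; exact h4.trace hn
  have e5 : PTime fun a => X2 (S a) (F a) := by
    unfold X2
    exact hS.sum hn (G := fun x a => (rr (F x) a - 1) ^ 2)
      (g := fun x i => (ex (F x * F x) i i - 1) ^ 2)
      ((hr.qsub (PTime.const 1)).qpow (PU.const 2)) fun x a => by rw [ex_enc, rr]
  have e6 : PTime fun a => R2 (S a) (F a) := by
    unfold R2
    exact hS.sum hn (G := fun x a => rr (F x) a ^ 2) (g := fun x i => ex (F x * F x) i i ^ 2)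
      (hr.qpow (PU.const 2)) fun x a => by rw [ex_enc, rr]
  have e7 : PTime fun a => R4 (S a) (F a) := by
    unfold R4
    exact hS.sum hn (G := fun x a => rr (F x) a ^ 4) (g := fun x i => ex (F x * F x) i i ^ 4)
      (hr.qpow (PU.const 4)) fun x a => by rw [ex_enc, rr]
  have e8 : PTime fun a => D2 (S a) (F a) := by
    unfold D2
    exact hS.sum hn (G := fun x a => F x a a ^ 2) (g := fun x i => ex (F x) i i ^ 2)
      (hd.qpow (PU.const 2)) fun x a => by rw [ex_enc]
  have e9 : PTime fun a => D4 (S a) (F a) := by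
    unfold D4
    exact hS.sum hn (G := fun x a => F x a a ^ 4) (g := fun x i => ex (F x) i i ^ 4)
      (hd.qpow (PU.const 4)) fun x a => by rw [ex_enc]
  exact (pt_xi1S hp (hS.card hn) hm0 e1 e2 e3 e4 e5 e6 e7 e8 e9).congr fun a => Xi1_eq _ _ _ _

theorem PSt.card {s : ∀ a, St (Fin (n a) × Fin d) (Fin (n a)) ℚ} (h : PSt n s) :
    PTime fun a => ((s a).S.card : ℚ) := h.hS.card h.hn

theorem PSt.xi {s : ∀ a, St (Fin (n a) × Fin d) (Fin (n a)) ℚ} {p : α → Par ℚ} (h : PSt n s)
    (hp : PTime p) : PTime fun a => Xi (p a) Prod.fst (s a) := by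
  have hn := h.hn
  refine (pt_xiS hp h.card (h.hS.xi1 hn h.hF hp h.card) (h.hS.xi1 hn h.hG hp h.card)
    ((PM.mul hn h.hF h.hG).trace hn)
    ((PM.mul hn (PM.mul hn (PM.mul hn h.hF h.hF) h.hG) h.hG).trace hn)
    (h.hS.card2 hn (P := fun x y => y.1 ≠ y.2 ∧ y.1.1 = y.2.1)
      (c := fun x i j => i ≠ j ∧ i / d = j / d) (by fun_prop) fun x a b => ?_)
    (h.hS.card2 hn (P := fun x y => (s x).A y.1.1 y.2.1 ≠ 0)
      (c := fun x i j => exA (s x).A (i / d) (j / d) ≠ 0)
      (PTime.ne (h.hA.app (φ := fun q : (α × Un) × Un => q.1.1) (by fun_prop) (by fun_prop)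
        (by fun_prop)) (PTime.const _)) fun x a b => ?_)).congr fun a => Xi_eq _ _ _
  · rw [enc_div, enc_div, Ne, Ne, enc_inj, Fin.val_inj]
  · rw [enc_div, enc_div, exA_val]

theorem PS.prj {S : ∀ a, Finset (Fin (n a) × Fin d)} (hn : PU n) (hS : PS n S) :
    PM n fun a => (prj (S a) : Matrix _ _ ℚ) := by
  classical
  have hc : PTime fun q : α × Un × Un => ((S q.1).card : ℚ) := (hS.card hn).comp PTime.fst'
  refine PM.of_eq hn (g := fun x i j => if exS (S x) i ∧ exS (S x) j then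
    (if i = j then 1 else 0) - 1 / ((S x).card : ℚ) else 0)
    (PTime.ite ((hS.app PTime.fst' (by fun_prop)).and (hS.app PTime.fst' (by fun_prop)))
      (PTime.qsub (by fun_prop) ((PTime.const 1).qdiv hc)) (PTime.const _)) fun x a b => ?_
  simp only [R62.prj, exS_enc, enc_inj]

theorem PM.upd {S : ∀ a, Finset (Fin (n a) × Fin d)}
    {F : ∀ a, Matrix (Fin (n a) × Fin d) (Fin (n a) × Fin d) ℚ} (σ : ℚ)
    {u v : ∀ a, Fin (n a) × Fin d} (hn : PU n) (hS : PS n S) (hF : PM n F)
    (hu : PU fun a => enc (u a)) (hv : PU fun a => enc (v a)) :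
    PM n fun a => upd σ (S a) (F a) (u a) (v a) := by
  have hP := hS.prj hn
  have hc : PTime fun q : α × Un × Un => ((S q.1).card : ℚ) := (hS.card hn).comp PTime.fst'
  have hu' : PU fun q : α × Un × Un => enc (u q.1) := hu.comp PTime.fst'
  have hv' : PU fun q : α × Un × Un => enc (v q.1) := hv.comp PTime.fst'
  have hi : PU fun q : α × Un × Un => q.2.1.val := by fun_prop
  have hj : PU fun q : α × Un × Un => q.2.2.val := by fun_prop
  have h1 : PTime (Prod.fst : α × Un × Un → α) := PTime.fst'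
  refine PM.of_eq hn (g := fun x i j => updS σ (S x).card (ex (F x) i j) (ex (F x) i (enc (u x)))
    (ex (F x) i (enc (v x))) (ex (F x) j (enc (u x))) (ex (F x) j (enc (v x)))
    (ex (F x) (enc (u x)) (enc (u x))) (ex (F x) (enc (v x)) (enc (v x)))
    (ex (F x) (enc (u x)) (enc (v x))) (ex (R62.prj (S x)) i (enc (u x)))
    (ex (R62.prj (S x)) i (enc (v x))) (ex (R62.prj (S x)) j (enc (u x)))
    (ex (R62.prj (S x)) j (enc (v x))))
    (pt_updS σ hc (hF.app h1 hi hj) (hF.app h1 hi hu') (hF.app h1 hi hv') (hF.app h1 hj hu')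
      (hF.app h1 hj hv') (hF.app h1 hu' hu') (hF.app h1 hv' hv') (hF.app h1 hu' hv')
      (hP.app h1 hi hu') (hP.app h1 hi hv') (hP.app h1 hj hu') (hP.app h1 hj hv'))
    fun x a b => ?_
  simp only [ex_enc, upd_eqS]

theorem PS.rem {S : ∀ a, Finset (Fin (n a) × Fin d)} {u v : ∀ a, Fin (n a) × Fin d} (hn : PU n)
    (hS : PS n S) (hu : PU fun a => enc (u a)) (hv : PU fun a => enc (v a)) :
    PS n fun a => rem (S a) (u a) (v a) := by
  have hu' : PTime fun q : α × Un => enc (u q.1) := (hu.comp PTime.fst').ptime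
  have hv' : PTime fun q : α × Un => enc (v q.1) := (hv.comp PTime.fst').ptime
  have hi : PTime fun q : α × Un => q.2.val := by fun_prop
  refine PS.of_eq hn (c := fun x i => i ≠ enc (v x) ∧ i ≠ enc (u x) ∧ exS (S x) i)
    ((hi.ne hv').and ((hi.ne hu').and hS)) fun x a => ?_
  simp only [R62.rem, mem_erase, exS_enc, Ne, enc_inj]

theorem PA.addE {A : ∀ a, Fin (n a) → Fin (n a) → ℕ} {u v : ∀ a, Fin (n a) × Fin d} (hn : PU n)
    (hA : PA n A) (hu : PU fun a => enc (u a)) (hv : PU fun a => enc (v a)) :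
    PA n fun a => addE (A a) (u a).1 (v a).1 := by
  have hu' : PTime fun q : α × Un × Un => enc (u q.1) / d :=
    (hu.comp PTime.fst').ptime.div (PTime.const _)
  have hv' : PTime fun q : α × Un × Un => enc (v q.1) / d :=
    (hv.comp PTime.fst').ptime.div (PTime.const _)
  have hi : PTime fun q : α × Un × Un => q.2.1.val := by fun_prop
  have hj : PTime fun q : α × Un × Un => q.2.2.val := by fun_prop
  refine PA.of_eq hn (g := fun x i j => exA (A x) i j
    + (if i = enc (u x) / d ∧ j = enc (v x) / d then 1 else 0)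
    + (if i = enc (v x) / d ∧ j = enc (u x) / d then 1 else 0))
    (PTime.add (PTime.add hA (PTime.ite ((hi.eq hu').and (hj.eq hv')) (PTime.const _)
      (PTime.const _))) (PTime.ite ((hi.eq hv').and (hj.eq hu')) (PTime.const _) (PTime.const _)))
    fun x a b => ?_
  simp only [R62.addE, enc_div, exA_val, Fin.val_inj]

variable {s : ∀ a, St (Fin (n a) × Fin d) (Fin (n a)) ℚ} {u v : ∀ a, Fin (n a) × Fin d}

theorem PSt.child (h : PSt n s) (hu : PU fun a => enc (u a)) (hv : PU fun a => enc (v a)) :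
    PSt n fun a => child Prod.fst (s a) (u a) (v a) :=
  ⟨h.hn, h.hS.rem h.hn hu hv, PM.upd 1 h.hn h.hS h.hF hu hv, PM.upd (-1) h.hn h.hS h.hG hu hv,
    h.hA.addE h.hn hu hv⟩

theorem PSt.childE (h : PSt n s) (hu : PU fun a => enc (u a)) (hv : PU fun a => enc (v a)) :
    PSt n fun a => childE Prod.fst (s a) (u a) (v a) :=
  ⟨h.hn, h.hS.rem h.hn hu hv, h.hF, h.hG, h.hA.addE h.hn hu hv⟩

theorem PSt.free (h : PSt n s) (hu : PU fun a => enc (u a)) (hv : PU fun a => enc (v a)) :
    PTime fun a => u a ≠ v a ∧ u a ∈ (s a).S ∧ v a ∈ (s a).S :=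
  ((hu.ptime.ne hv.ptime).and ((h.hS.app PTime.id hu).and (h.hS.app PTime.id hv))).congr
    fun a => by simp only [exS_enc, Ne, enc_inj]

theorem PSt.ok {p : α → Par ℚ} (h : PSt n s) (hp : PTime p) (hu : PU fun a => enc (u a))
    (hv : PU fun a => enc (v a)) : PTime fun a => ok (p a) Prod.fst (s a) (u a) (v a) := by
  have hu' : PU fun a => enc (u a) / d := hu.div (PTime.const _)
  have hv' : PU fun a => enc (v a) / d := hv.div (PTime.const _)
  have hK : PTime fun a => 1 / (p a).K := by fun_prop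
  refine ((h.free hu hv).and ((((hu'.ptime.eq hv'.ptime).or
    ((h.hA.app PTime.id hu' hv').ne (PTime.const 0))).not).and
    (((h.hF.app PTime.id hu hv).qabs.qle hK).and
      ((h.hG.app PTime.id hu hv).qabs.qle hK)))).congr fun a => ?_
  simp only [R62.ok, bad, ex_enc, enc_div, exA_val, Fin.val_inj, and_assoc]

/-! ### Initial data -/

theorem pu_K0 {N : α → ℕ} (hN : PU N) : PU fun a => K0 (N a) := by
  have := hN.ptime
  exact PU.findGreatest (c := fun a k => k ^ 10000 ≤ N a) hN (by fun_prop)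

theorem pt_s0 (hn : PU n) : PTime fun a => s0 ℚ (n a) d := by
  have hN : PU fun a => n a * d := by fun_prop
  have hK := (pu_K0 hN).ptime
  have h1 : PU fun a =>
      Nat.sqrt ((n a * d) ^ 3 * (n a * d - 2 * K0 (n a * d) ^ 6700) / (d - 1)) :=
    PU.sqrt (PU.div ((hN.pow_const 3).mul
      (hN.sub' ((PTime.const 2).mul (hK.pow (PU.const 6700))))) (PTime.const _))
  exact h1.ptime.qnat.qdiv (hN.ptime.qnat.qpow (PU.const 2))

theorem pt_phi0 (hn : PU n) : PTime fun a => phi0 ℚ (n a) d := by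
  have hN : PU fun a => n a * d := by fun_prop
  have hK := (pu_K0 hN).ptime
  exact (pt_s0 hn).qmul ((PTime.const 1).qadd (((PTime.const 8).qmul
    ((hK.qnat.qpow (PU.const 6700)).qpow (PU.const 2))).qdiv (hN.ptime.qnat.qpow (PU.const 2))))

theorem pt_par0 (hn : PU n) : PTime fun a => par0 ℚ (n a) d := by
  have hN : PU fun a => n a * d := by fun_prop
  exact pt_mk (pu_K0 hN).ptime.qnat hN.ptime.qnat
    (((hN.ptime.qnat.qmul (PTime.const _)).qmul (PTime.const _)).qmul
      ((pt_s0 hn).qpow (PU.const 3)))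

theorem pst_st0 (hn : PU n) : PSt n fun a => st0 ℚ (n a) d := by
  have hN : PTime fun q : α × Un × Un => ((n q.1 * d : ℕ) : ℚ) :=
    ((hn.mul (PU.const d)).comp PTime.fst').ptime.qnat
  have hF : PM n fun a => F0 ℚ (n a) d := by
    refine PM.of_eq hn (g := fun x i j => phi0 ℚ (n x) d * ((if i / d = j / d then 1 else 0)
      - (d : ℚ) / ((n x * d : ℕ) : ℚ))
      - s0 ℚ (n x) d * ((if i = j then 1 else 0) - 1 / ((n x * d : ℕ) : ℚ)))
      (PTime.qsub (PTime.qmul ((pt_phi0 hn).comp PTime.fst')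
        (PTime.qsub (by fun_prop) ((PTime.const _).qdiv hN)))
        (PTime.qmul ((pt_s0 hn).comp PTime.fst')
        (PTime.qsub (by fun_prop) ((PTime.const _).qdiv hN)))) fun x a b => ?_
    simp only [F0, enc_div, enc_inj, Fin.val_inj]
  exact ⟨hn, PS.of_eq hn (c := fun _ _ => True) (PTime.const _) fun x a => by simp [st0], hF, hF,
    PA.of_eq hn (g := fun _ _ _ => 0) (PTime.const _) fun _ _ _ => rfl⟩

end fam

end Crest.Agent.R62
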