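import Crest.Agent.R62.Defs

set_option autoImplicit false

open Finset Matrix

namespace Crest.Agent.R62

variable {ι V : Type} [Fintype ι] [DecidableEq ι] [Fintype V] [DecidableEq V]

namespace CastX

/-- The entrywise cast of a rational matrix. -/
abbrev cm (F : Matrix ι ι ℚ) : Matrix ι ι ℝ := F.map (↑)

omit [DecidableEq ι] in
theorem cm_mul (F G : Matrix ι ι ℚ) : cm F * cm G = cm (F * G) := by
  ext a b
  simp [cm, Matrix.mul_apply]

omit [DecidableEq ι] in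
theorem cm_trace (F : Matrix ι ι ℚ) : (cm F).trace = (F.trace : ℚ) := by
  simp [cm, Matrix.trace]

omit [Fintype ι] [DecidableEq ι] in
theorem cm_apply (F : Matrix ι ι ℚ) (a b : ι) : cm F a b = (F a b : ℚ) := rfl

section
variable (p : Par ℚ) (m : ℕ)
theorem cK : p.cast.K = (p.K : ℚ) := rfl
theorem cN : p.cast.N = (p.N : ℚ) := rfl
theorem ca : p.cast.a = (p.a : ℚ) := rfl
theorem cW : p.cast.W = (p.W : ℚ) := by simp only [Par.W, cK, Rat.cast_pow]
theorem crho : p.cast.rho m = (p.rho m : ℚ) := by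
  simp only [Par.rho, cW, Rat.cast_div, Rat.cast_add, Rat.cast_natCast]
theorem cT2 : p.cast.T2 m = (p.T2 m : ℚ) := by
  simp only [Par.T2, cK, crho, Rat.cast_mul, Rat.cast_natCast]
theorem ca2s : p.cast.a2s m = (p.a2s m : ℚ) := by
  simp only [Par.a2s, crho, Rat.cast_mul, Rat.cast_natCast]
theorem ck2 : p.cast.k2 m = (p.k2 m : ℚ) := by
  simp only [Par.k2, cK, cW, crho, Rat.cast_mul, Rat.cast_div]
theorem ckt : p.cast.kt m = (p.kt m : ℚ) := by
  simp only [Par.kt, cK, crho, Rat.cast_mul, Rat.cast_pow]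
theorem ck3 : p.cast.k3 = (p.k3 : ℚ) := by
  simp only [Par.k3, cK, cN, Rat.cast_div]
theorem ckc : p.cast.kc m = (p.kc m : ℚ) := by
  simp only [Par.kc, cK, Rat.cast_div, Rat.cast_natCast]
theorem cT4 : p.cast.T4 m = (p.T4 m : ℚ) := by
  simp only [Par.T4, cK, cN, cW, Rat.cast_div, Rat.cast_mul, Rat.cast_pow, Rat.cast_add,
    Rat.cast_natCast]
theorem cTX : p.cast.TX m = (p.TX m : ℚ) := by
  simp only [Par.TX, cK, cW, Rat.cast_div, Rat.cast_mul, Rat.cast_pow, Rat.cast_natCast]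
theorem cTR : p.cast.TR m = (p.TR m : ℚ) := by
  simp only [Par.TR, cK, cW, crho, Rat.cast_mul, Rat.cast_pow]
theorem cTR4 : p.cast.TR4 m = (p.TR4 m : ℚ) := by
  simp only [Par.TR4, cK, cN, crho, Rat.cast_mul, Rat.cast_pow]
theorem cTD : p.cast.TD m = (p.TD m : ℚ) := by
  simp only [Par.TD, cK, crho, Rat.cast_mul, Rat.cast_pow]
theorem cT22 : p.cast.T22 m = (p.T22 m : ℚ) := by
  simp only [Par.T22, cK, cN, Rat.cast_div, Rat.cast_mul, Rat.cast_pow, Rat.cast_add,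
    Rat.cast_natCast]
theorem cTB : p.cast.TB m = (p.TB m : ℚ) := by
  simp only [Par.TB, cK, cN, Rat.cast_div, Rat.cast_mul, Rat.cast_pow, Rat.cast_natCast]
theorem ctst : p.cast.tst m = (p.tst m : ℚ) := by
  simp only [Par.tst, cK, ca, Rat.cast_div, Rat.cast_mul, Rat.cast_pow, Rat.cast_sub,
    Rat.cast_natCast, Rat.cast_max, Rat.cast_zero, Rat.cast_one, Rat.cast_ofNat]
theorem cpow_lt (e : ℕ) : p.cast.K ^ e < (m : ℝ) ↔ p.K ^ e < (m : ℚ) := by
  rw [cK, ← Rat.cast_pow, ← Rat.cast_natCast (α := ℝ) m, Rat.cast_lt]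
theorem cphI : p.cast.phI m ↔ p.phI m := cpow_lt p m _
theorem cphX : p.cast.phX m ↔ p.phX m := cpow_lt p m _
theorem clive : p.cast.live m ↔ p.live m := cpow_lt p m _
end

theorem cpp (x : ℚ) : pp (x : ℝ) = (pp x : ℚ) := by
  simp only [pp, Rat.cast_pow, Rat.cast_max, Rat.cast_zero]

section
variable (S : Finset ι) (F G : Matrix ι ι ℚ)
omit [DecidableEq ι] in
theorem ct1 : t1 (cm F) = (t1 F : ℚ) := cm_trace F
omit [DecidableEq ι] in
theorem ca2 : a2 (cm F) = (a2 F : ℚ) := by simp only [a2, cm_mul, cm_trace]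
omit [DecidableEq ι] in
theorem ca3 : a3 (cm F) = (a3 F : ℚ) := by simp only [a3, cm_mul, cm_trace]
omit [DecidableEq ι] in
theorem ca4 : a4 (cm F) = (a4 F : ℚ) := by simp only [a4, cm_mul, cm_trace]
omit [DecidableEq ι] in
theorem cc11 : c11 (cm F) (cm G) = (c11 F G : ℚ) := by simp only [c11, cm_mul, cm_trace]
omit [DecidableEq ι] in
theorem cc22 : c22 (cm F) (cm G) = (c22 F G : ℚ) := by simp only [c22, cm_mul, cm_trace]
omit [DecidableEq ι] in
theorem crr (a : ι) : rr (cm F) a = (rr F a : ℚ) := by simp only [rr, cm_mul, cm_apply]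
omit [DecidableEq ι] in
theorem cX2 : X2 S (cm F) = (X2 S F : ℚ) := by
  simp only [X2, crr, Rat.cast_sum, Rat.cast_pow, Rat.cast_sub, Rat.cast_one]
omit [DecidableEq ι] in
theorem cR2 : R2 S (cm F) = (R2 S F : ℚ) := by
  simp only [R2, crr, Rat.cast_sum, Rat.cast_pow]
omit [DecidableEq ι] in
theorem cR4 : R4 S (cm F) = (R4 S F : ℚ) := by
  simp only [R4, crr, Rat.cast_sum, Rat.cast_pow]
omit [Fintype ι] [DecidableEq ι] in
theorem cD2 : D2 S (cm F) = (D2 S F : ℚ) := by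
  simp only [D2, cm_apply, Rat.cast_sum, Rat.cast_pow]
omit [Fintype ι] [DecidableEq ι] in
theorem cD4 : D4 S (cm F) = (D4 S F : ℚ) := by
  simp only [D4, cm_apply, Rat.cast_sum, Rat.cast_pow]
end

omit [DecidableEq ι] in
theorem cXi1 (p : Par ℚ) (S : Finset ι) (F : Matrix ι ι ℚ) (m : ℕ) :
    Xi1 p.cast S (cm F) m = (Xi1 p S F m : ℚ) := by
  simp only [Xi1, pT, pT', p2, p2l, p2', p3, p3', p4, pX, pR, pR4, pD2, pD4, ct1, ca2, ca3, ca4,
    cX2, cR2, cR4, cD2, cD4, cK, ca, cW, cT2, ca2s, ck2, ckt, ck3, cT4, cTX, cTR, cTR4, cTD, ctst,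
    cphI, cphX, apply_ite (Rat.cast : ℚ → ℝ), Rat.cast_add, Rat.cast_div, Rat.cast_mul,
    Rat.cast_pow, ← cpp, Rat.cast_sub, Rat.cast_neg, Rat.cast_natCast, Rat.cast_ofNat,
    Rat.cast_zero]

omit [Fintype ι] in
theorem cprj (S : Finset ι) (a b : ι) :
    (prj S : Matrix ι ι ℝ) a b = ((prj S : Matrix ι ι ℚ) a b : ℚ) := by
  simp only [prj]
  split_ifs <;> simp

omit [Fintype ι] in
theorem cupd (σ : ℚ) (S : Finset ι) (F : Matrix ι ι ℚ) (u v : ι) :
    cm (upd σ S F u v) = upd (σ : ℝ) S (cm F) u v := by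
  ext a b
  simp only [cm_apply, upd, psi, dd, ww, hat, cprj]
  push_cast
  rfl

end CastX

open CastX

section
variable (p : Par ℚ) (vtx : ι → V) (s : St ι V ℚ) (u v : ι)
theorem cast_xi : Xi p.cast vtx s.cast = (Xi p vtx s : ℚ) := by
  have e1 := cXi1 p s.S s.F s.S.card
  have e2 := cXi1 p s.S s.G s.S.card
  show Xi1 p.cast s.S (cm s.F) s.S.card + Xi1 p.cast s.S (cm s.G) s.S.card
    + (if p.cast.phI s.S.card then p11 p.cast s.S (cm s.F) (cm s.G)
      + p22 p.cast s.S (cm s.F) (cm s.G) else 0) + pB p.cast vtx s.S s.A = _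
  rw [e1, e2]
  simp only [Xi, XiAt, p11, p22, pB, cc11, cc22, cK, ckc, cT22, cTB, cphI,
    apply_ite (Rat.cast : ℚ → ℝ), Rat.cast_add, Rat.cast_div, Rat.cast_mul,
    Rat.cast_pow, ← cpp, Rat.cast_neg, Rat.cast_natCast, Rat.cast_zero]
theorem cast_ok : ok p.cast vtx s.cast u v ↔ ok p vtx s u v := by
  have h : ∀ x : ℚ, |(x : ℝ)| ≤ 1 / p.cast.K ↔ |x| ≤ 1 / p.K := by
    intro x
    rw [cK, ← Rat.cast_abs, ← Rat.cast_one (α := ℝ), ← Rat.cast_div, Rat.cast_le]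
  exact and_congr Iff.rfl (and_congr Iff.rfl (and_congr Iff.rfl (and_congr Iff.rfl
    (and_congr (h _) (h _)))))
theorem cast_child : (child vtx s u v).cast = child vtx s.cast u v := by
  have e1 := cupd 1 s.S s.F u v
  have e2 := cupd (-1) s.S s.G u v
  rw [Rat.cast_one] at e1
  rw [Rat.cast_neg, Rat.cast_one] at e2
  simp only [child, St.cast]
  congr 1
theorem cast_childE : (childE vtx s u v).cast = childE vtx s.cast u v := rfl
theorem cast_live (m : ℕ) : p.cast.live m ↔ p.live m := clive p m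
theorem cast_step {s' : St ι V ℚ} (h : Step p vtx s s') : Step p.cast vtx s.cast s'.cast := by
  obtain ⟨u, v, ⟨h1, h2, h3, h4⟩ | ⟨h1, h2, h3, h4, h5⟩⟩ := h
  · refine ⟨u, v, Or.inl ⟨(cast_live p _).2 h1, (cast_ok p vtx s u v).2 h2, fun u' v' h' => ?_,
      by rw [h4, cast_child]⟩⟩
    rw [← cast_child, ← cast_child, cast_xi, cast_xi, Rat.cast_le]
    exact h3 u' v' ((cast_ok p vtx s u' v').1 h')
  · exact ⟨u, v, Or.inr ⟨fun h => h1 ((cast_live p _).1 h), h2, h3, h4,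
      by rw [h5, cast_childE]⟩⟩
end

theorem cast_s0 (n d : ℕ) : ((s0 ℚ n d : ℚ) : ℝ) = s0 ℝ n d := by
  simp only [s0, Rat.cast_div, Rat.cast_pow, Rat.cast_natCast]
theorem cast_phi0 (n d : ℕ) : ((phi0 ℚ n d : ℚ) : ℝ) = phi0 ℝ n d := by
  simp only [phi0, Rat.cast_div, Rat.cast_pow, Rat.cast_natCast, Rat.cast_mul, Rat.cast_add,
    Rat.cast_one, Rat.cast_ofNat, cast_s0]
theorem cast_par0 (n d : ℕ) : (par0 ℚ n d).cast = par0 ℝ n d := by
  simp only [par0, Par.cast, Rat.cast_natCast, Rat.cast_mul, Rat.cast_sub, Rat.cast_one,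
    Rat.cast_ofNat, Rat.cast_pow, cast_s0]
theorem cast_st0 (n d : ℕ) : (st0 ℚ n d).cast = st0 ℝ n d := by
  have h : (F0 ℚ n d).map ((↑) : ℚ → ℝ) = F0 ℝ n d := by
    ext a b
    simp only [Matrix.map_apply, F0, Rat.cast_sub, Rat.cast_mul, Rat.cast_div, Rat.cast_natCast,
      Rat.cast_one, Rat.cast_zero, apply_ite (Rat.cast : ℚ → ℝ), cast_s0, cast_phi0]
  simp only [st0, St.cast, h]

end Crest.Agent.R62
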