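import Crest.Agent.R62.GenM

set_option autoImplicit false

open Finset Matrix

namespace Crest.Agent.R62

variable {ι V : Type} [Fintype ι] [DecidableEq ι] [Fintype V] [DecidableEq V]

/-! Generic estimates for weighted double sums. `m = c.m`, `ε = c.p.eps c.m`. -/

namespace Ctx
variable (c : Ctx ι)

/-- the same context with the roles of `F` and `G` exchanged -/
def swap : Ctx ι where
  p := c.p
  σ := -c.σ
  S := c.S
  F := c.G
  G := c.F
  w := c.w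
  sg := by rcases c.sg with h | h <;> simp [h]
  ok := c.ok
  mN := c.mN
  live := c.live
  oF := c.oG
  oG := c.oF
  two := ⟨fun h => by rw [c11_comm]; exact c.two.c11_lo h,
    fun h => by rw [c22_comm]; exact c.two.c22_T h⟩
  wt :=
    { nn := c.wt.nn
      le := c.wt.le
      symm := c.wt.symm
      supp := fun u v h => by
        obtain ⟨h1, h2, h3, h4, h5, h6, h7⟩ := c.wt.supp u v h
        exact ⟨h1, h2, h3, h5, h4, h7, h6⟩
      row := c.wt.row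
      tot := c.wt.tot
      ref := fun h => by
        obtain ⟨χ, h1, h2⟩ := c.wt.ref h
        refine ⟨χ, h1, fun u hu v hv huv => ?_⟩
        have h3 := h2 u hu v hv huv
        have e : xi (-c.σ) c.G c.F u v = xi c.σ c.F c.G u v := by unfold xi; ring
        rw [e, add_comm (c.G u v ^ 2)]
        exact h3 }

theorem w_zero_left {u : ι} (hu : u ∉ c.S) (v : ι) : c.w u v = 0 := by
  by_contra h
  exact hu (c.wt.supp u v h).2.1
theorem w_zero_right (u : ι) {v : ι} (hv : v ∉ c.S) : c.w u v = 0 := by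
  by_contra h
  exact hv (c.wt.supp u v h).2.2.1
theorem w_diag (u : ι) : c.w u u = 0 := by
  by_contra h
  exact (c.wt.supp u u h).1 rfl
theorem eps_nonneg' : 0 ≤ c.p.eps c.m := by
  have hK : (0 : ℝ) ≤ c.p.K := le_trans (by norm_num) c.ok.K2
  unfold Par.eps
  split_ifs <;> positivity
theorem m_nonneg' : 0 ≤ c.m := Nat.cast_nonneg _
theorem Ω_nonneg' : 0 ≤ c.Ω :=
  sum_nonneg fun u _ => sum_nonneg fun v _ => c.wt.nn u v

theorem sum_eq (X : ι → ι → ℝ) :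
    ∑ u, ∑ v, c.w u v * X u v = ∑ u ∈ c.S, ∑ v ∈ c.S, c.w u v * X u v := by
  rw [← Finset.sum_subset (subset_univ c.S) (f := fun u => ∑ v, c.w u v * X u v)
    (fun u _ hu => sum_eq_zero fun v _ => by rw [c.w_zero_left hu, zero_mul])]
  refine sum_congr rfl fun u _ => ?_
  refine (Finset.sum_subset (subset_univ c.S) ?_).symm
  intro v _ hv
  rw [c.w_zero_right u hv, zero_mul]
theorem sum_comm' (X : ι → ι → ℝ) : ∑ u, ∑ v, c.w u v * X u v = ∑ u, ∑ v, c.w u v * X v u := by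
  rw [Finset.sum_comm]
  exact sum_congr rfl fun u _ => sum_congr rfl fun v _ => by rw [c.wt.symm]
/-- compare on the support of `w` only -/
theorem sum_le_sum' {X Y : ι → ι → ℝ} (h : ∀ u v, c.w u v ≠ 0 → X u v ≤ Y u v) :
    ∑ u, ∑ v, c.w u v * X u v ≤ ∑ u, ∑ v, c.w u v * Y u v := by
  refine sum_le_sum fun u _ => sum_le_sum fun v _ => ?_
  by_cases hw : c.w u v = 0
  · simp [hw]
  · exact mul_le_mul_of_nonneg_left (h u v hw) (c.wt.nn u v)
/-- crude bound: `Y ≥ 0` on `S × S`, `X ≤ Y` on the support of `w` -/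
theorem sum_le_crude {X Y : ι → ι → ℝ} (h : ∀ u v, c.w u v ≠ 0 → X u v ≤ Y u v)
    (h0 : ∀ u ∈ c.S, ∀ v ∈ c.S, 0 ≤ Y u v) :
    ∑ u, ∑ v, c.w u v * X u v ≤ 11 / 10 * ∑ u ∈ c.S, ∑ v ∈ c.S, Y u v := by
  refine (c.sum_le_sum' h).trans ?_
  rw [c.sum_eq, mul_sum]
  refine sum_le_sum fun u hu => ?_
  rw [mul_sum]
  exact sum_le_sum fun v hv => mul_le_mul_of_nonneg_right (c.wt.le u v) (h0 u hu v hv)
theorem G6 (g k : ι → ℝ) :
    |∑ u, ∑ v, c.w u v * (g u * k v) - (∑ u ∈ c.S, g u) * ∑ v ∈ c.S, k v|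
      ≤ c.p.eps c.m * √c.m * √(∑ v ∈ c.S, k v ^ 2) * ∑ u ∈ c.S, |g u| := by
  have e : ∑ u, ∑ v, c.w u v * (g u * k v) - (∑ u ∈ c.S, g u) * ∑ v ∈ c.S, k v
      = ∑ u ∈ c.S, g u * ∑ v ∈ c.S, (c.w u v - 1) * k v := by
    rw [c.sum_eq (fun u v => g u * k v), sum_mul_sum, ← sum_sub_distrib]
    refine sum_congr rfl fun u _ => ?_
    rw [← sum_sub_distrib, mul_sum]
    exact sum_congr rfl fun v _ => by ring
  rw [e, mul_sum]
  refine (abs_sum_le_sum_abs _ _).trans (sum_le_sum fun u hu => ?_)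
  rw [abs_mul, mul_comm]
  refine mul_le_mul_of_nonneg_right ?_ (abs_nonneg _)
  refine (abs_sum_le_sum_abs _ _).trans ?_
  simp only [abs_mul]
  refine (sum_mul_le_sqrt c.S (fun v => c.w u v - 1) k).trans ?_
  refine mul_le_mul_of_nonneg_right ?_ (Real.sqrt_nonneg _)
  refine (Real.sqrt_le_sqrt (c.wt.row u hu)).trans ?_
  have h0 := c.eps_nonneg'
  unfold m at h0 ⊢
  rw [Real.sqrt_mul (sq_nonneg _), Real.sqrt_sq h0]
theorem G5 (g k : ι → ℝ) :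
    |∑ u, ∑ v, c.w u v * (g u * k v) - (∑ u ∈ c.S, g u) * ∑ v ∈ c.S, k v|
      ≤ c.p.eps c.m * c.m * (√(∑ u ∈ c.S, g u ^ 2) * √(∑ v ∈ c.S, k v ^ 2)) := by
  refine (c.G6 g k).trans ?_
  have h1 : ∑ u ∈ c.S, |g u| ≤ √(∑ u ∈ c.S, g u ^ 2) * √c.m := by
    have := sum_mul_le_sqrt c.S g (fun _ => 1)
    simpa [m] using this
  have h2 : √c.m * √c.m = c.m := Real.mul_self_sqrt c.m_nonneg'
  have h0 := c.eps_nonneg'
  calc c.p.eps c.m * √c.m * √(∑ v ∈ c.S, k v ^ 2) * ∑ u ∈ c.S, |g u|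
      ≤ c.p.eps c.m * √c.m * √(∑ v ∈ c.S, k v ^ 2) * (√(∑ u ∈ c.S, g u ^ 2) * √c.m) :=
        mul_le_mul_of_nonneg_left h1 (by positivity)
    _ = c.p.eps c.m * (√c.m * √c.m) * (√(∑ u ∈ c.S, g u ^ 2) * √(∑ v ∈ c.S, k v ^ 2)) := by ring
    _ = _ := by rw [h2]
/-- `G6` with `k = 1` -/
theorem G6one (g : ι → ℝ) :
    |∑ u, ∑ v, c.w u v * g u - c.m * ∑ u ∈ c.S, g u| ≤ c.p.eps c.m * c.m * ∑ u ∈ c.S, |g u| := by
  have h := c.G6 g (fun _ => 1)
  have h2 : √c.m * √c.m = c.m := Real.mul_self_sqrt c.m_nonneg'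
  have e1 : ∑ v ∈ c.S, (1 : ℝ) = c.m := by simp [m]
  simp only [mul_one, one_pow, e1] at h
  rw [mul_comm c.m]
  rw [mul_assoc (c.p.eps c.m), h2] at h
  exact h
theorem G4 : |c.Ω - c.m ^ 2| ≤ c.p.eps c.m * c.m ^ 2 := by
  have h := c.G6one (fun _ => 1)
  have e1 : ∑ v ∈ c.S, (1 : ℝ) = c.m := by simp [m]
  simp only [mul_one, abs_one, e1] at h
  rw [sq, ← mul_assoc]
  exact h
theorem offdiag_eq (X Y : ι → ι → ℝ) (h0 : ∑ u ∈ c.S, ∑ v ∈ c.S, X u v = 0) :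
    ∑ u, ∑ v, c.w u v * X u v + ∑ u ∈ c.S, X u u
        + (∑ u ∈ c.S, ∑ v ∈ c.S, Y u v * X u v - ∑ u ∈ c.S, Y u u * X u u)
      = ∑ u ∈ c.S, ∑ v ∈ c.S, (if v = u then 0 else c.w u v - 1 + Y u v) * X u v := by
  have e0 : ∑ u ∈ c.S, ∑ v ∈ c.S, c.w u v * X u v
      = ∑ u ∈ c.S, ∑ v ∈ c.S, c.w u v * X u v - ∑ u ∈ c.S, ∑ v ∈ c.S, X u v := by
    rw [h0, sub_zero]
  rw [c.sum_eq, e0]
  rw [← sum_sub_distrib, ← sum_add_distrib, ← sum_sub_distrib, ← sum_add_distrib]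
  refine sum_congr rfl fun u hu => ?_
  rw [← sum_sub_distrib, ← add_sum_erase _ _ hu, ← add_sum_erase _ (fun v => Y u v * X u v) hu,
    ← add_sum_erase _ (fun v => (if v = u then 0 else c.w u v - 1 + Y u v) * X u v) hu]
  have e : ∑ v ∈ c.S.erase u, (if v = u then 0 else c.w u v - 1 + Y u v) * X u v
      = ∑ v ∈ c.S.erase u, (c.w u v * X u v - X u v) + ∑ v ∈ c.S.erase u, Y u v * X u v := by
    rw [← sum_add_distrib]
    refine sum_congr rfl fun v hv => ?_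
    rw [if_neg (ne_of_mem_erase hv)]
    ring
  rw [e, c.w_diag, if_pos rfl]
  ring
/-- crude off-diagonal estimate for an array of total sum zero -/
theorem G7 (X : ι → ι → ℝ) (h0 : ∑ u ∈ c.S, ∑ v ∈ c.S, X u v = 0) :
    |∑ u, ∑ v, c.w u v * X u v + ∑ u ∈ c.S, X u u|
      ≤ √(c.p.Gam2 c.m * c.m) * √(∑ u ∈ c.S, ∑ v ∈ c.S, X u v ^ 2) := by
  have e := c.offdiag_eq X (fun _ _ => 0) h0
  simp only [zero_mul, sum_const_zero, sub_zero, add_zero] at e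
  rw [e]
  refine (abs_sum_le_sum_abs _ _).trans ?_
  refine (sum_le_sum fun u _ => abs_sum_le_sum_abs _ _).trans ?_
  simp only [abs_mul]
  refine (sum2_mul_le_sqrt c.S (fun u v => if v = u then 0 else c.w u v - 1) X).trans ?_
  refine mul_le_mul_of_nonneg_right (Real.sqrt_le_sqrt ?_) (Real.sqrt_nonneg _)
  refine le_trans (le_of_eq ?_) c.wt.tot
  refine sum_congr rfl fun u hu => ?_
  rw [← add_sum_erase _ _ hu, if_pos rfl]
  simp only [ne_eq, OfNat.ofNat_ne_zero, not_false_eq_true, zero_pow, zero_add]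
  exact sum_congr rfl fun v hv => by rw [if_neg (ne_of_mem_erase hv)]
/-- refined estimate in phase I -/
theorem G8 (hI : c.p.phI c.m) (X : ι → ι → ℝ) (h0 : ∑ u ∈ c.S, ∑ v ∈ c.S, X u v = 0) :
    |∑ u, ∑ v, c.w u v * X u v + ∑ u ∈ c.S, X u u
        + c.p.gam * (∑ u ∈ c.S, ∑ v ∈ c.S, xi c.σ c.F c.G u v * X u v
          - ∑ u ∈ c.S, xi c.σ c.F c.G u u * X u u)|
      ≤ 1000 * c.p.gam ^ 2 * ∑ u ∈ c.S, ∑ v ∈ c.S, (c.F u v ^ 2 + c.G u v ^ 2) * |X u v|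
        + √(c.p.K ^ 35 * c.m) * √(∑ u ∈ c.S, ∑ v ∈ c.S, X u v ^ 2) := by
  obtain ⟨χ, h1, h2⟩ := c.wt.ref hI
  have e := c.offdiag_eq X (fun u v => c.p.gam * xi c.σ c.F c.G u v) h0
  have e2 : c.p.gam * (∑ u ∈ c.S, ∑ v ∈ c.S, xi c.σ c.F c.G u v * X u v
          - ∑ u ∈ c.S, xi c.σ c.F c.G u u * X u u)
      = ∑ u ∈ c.S, ∑ v ∈ c.S, c.p.gam * xi c.σ c.F c.G u v * X u v
          - ∑ u ∈ c.S, c.p.gam * xi c.σ c.F c.G u u * X u u := by
    simp only [mul_sub, mul_sum, mul_assoc]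
  rw [e2, e]
  refine (abs_sum_le_sum_abs _ _).trans ?_
  refine (sum_le_sum fun u _ => abs_sum_le_sum_abs _ _).trans ?_
  have h3 : ∑ u ∈ c.S, ∑ v ∈ c.S, |χ u v| * |X u v|
      ≤ √(c.p.K ^ 35 * c.m) * √(∑ u ∈ c.S, ∑ v ∈ c.S, X u v ^ 2) :=
    (sum2_mul_le_sqrt c.S χ X).trans
      (mul_le_mul_of_nonneg_right (Real.sqrt_le_sqrt h1) (Real.sqrt_nonneg _))
  refine le_trans ?_ (add_le_add le_rfl h3)
  rw [mul_sum, ← sum_add_distrib]
  refine sum_le_sum fun u hu => ?_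
  rw [mul_sum, ← sum_add_distrib]
  refine sum_le_sum fun v hv => ?_
  rw [abs_mul, ← mul_assoc, ← add_mul]
  refine mul_le_mul_of_nonneg_right ?_ (abs_nonneg _)
  by_cases huv : v = u
  · rw [if_pos huv, abs_zero]
    exact add_nonneg (mul_nonneg (mul_nonneg (by norm_num) (sq_nonneg _))
      (add_nonneg (sq_nonneg _) (sq_nonneg _))) (abs_nonneg _)
  · rw [if_neg huv]
    exact (h2 u hu v hv (Ne.symm huv)).trans (add_le_add le_rfl (le_abs_self _))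

/-- Square lemma. `Z` is the parent value, `Z + Δ u v` the child value, `k`, `k'` the scales.
If `Z > 0` the drift is at most `-λ Z + β`; the variance is at most `V`. -/
theorem sq_lemma {Z k k' lam β Vr e : ℝ} {Δ : ι → ι → ℝ} (hk : 0 < k) (hk' : 0 < k')
    (hZ : Z ≤ k) (hβ : 0 ≤ β)
    (hdrift : 0 < Z → ∑ u, ∑ v, c.w u v * Δ u v ≤ c.Ω * (-lam * Z + β))
    (hvar : ∑ u, ∑ v, c.w u v * Δ u v ^ 2 ≤ c.Ω * Vr)
    (hlam : (1 - 2 * lam) * k ^ 2 ≤ (1 + e) * k' ^ 2) (he : 0 ≤ e) :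
    ∑ u, ∑ v, c.w u v * (pp (Z + Δ u v) / k' ^ 2)
      ≤ c.Ω * (pp Z / k ^ 2 + (e + (2 * k * β + Vr) / k' ^ 2)) := by
  have hΩ := c.Ω_nonneg'
  have hk2 : 0 < k ^ 2 := by positivity
  have hk2' : 0 < k' ^ 2 := by positivity
  have h1 : ∑ u, ∑ v, c.w u v * (pp (Z + Δ u v) / k' ^ 2)
      ≤ (c.Ω * pp Z + 2 * max Z 0 * ∑ u, ∑ v, c.w u v * Δ u v
        + ∑ u, ∑ v, c.w u v * Δ u v ^ 2) / k' ^ 2 := by
    refine (c.sum_le_sum' (Y := fun u v => (pp Z + 2 * max Z 0 * Δ u v + Δ u v ^ 2) / k' ^ 2)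
      fun u v _ => div_le_div_of_nonneg_right (pp_add_le _ _) hk2'.le).trans (le_of_eq ?_)
    unfold Ω
    rw [sum_mul, mul_sum, ← sum_add_distrib, ← sum_add_distrib, sum_div]
    refine sum_congr rfl fun u _ => ?_
    rw [sum_mul, mul_sum, ← sum_add_distrib, ← sum_add_distrib, sum_div]
    refine sum_congr rfl fun v _ => ?_
    generalize pp Z = a
    generalize max Z 0 = b
    ring
  refine h1.trans ?_
  rcases lt_or_ge 0 Z with hZ0 | hZ0
  · have hp : pp Z = Z ^ 2 := by unfold pp; rw [max_eq_left hZ0.le]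
    rw [hp, max_eq_left hZ0.le]
    have h2 : c.Ω * Z ^ 2 + 2 * Z * ∑ u, ∑ v, c.w u v * Δ u v + ∑ u, ∑ v, c.w u v * Δ u v ^ 2
        ≤ c.Ω * ((1 - 2 * lam) * Z ^ 2 + (2 * k * β + Vr)) := by
      have h3 := mul_le_mul_of_nonneg_left (hdrift hZ0) (by positivity : 0 ≤ 2 * Z)
      have h4 : c.Ω * (Z * β) ≤ c.Ω * (k * β) :=
        mul_le_mul_of_nonneg_left (mul_le_mul_of_nonneg_right hZ hβ) hΩ
      nlinarith
    refine (div_le_div_of_nonneg_right h2 hk2'.le).trans ?_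
    rw [mul_div_assoc]
    refine mul_le_mul_of_nonneg_left ?_ hΩ
    rw [add_div, ← add_assoc]
    refine add_le_add ?_ le_rfl
    have h5 : Z ^ 2 / k ^ 2 ≤ 1 := by
      rw [div_le_one hk2]; exact pow_le_pow_left₀ hZ0.le hZ 2
    have h6 : (1 - 2 * lam) * Z ^ 2 / k' ^ 2 ≤ (1 + e) * (Z ^ 2 / k ^ 2) := by
      rw [← mul_div_assoc, div_le_div_iff₀ hk2' hk2]
      have := mul_le_mul_of_nonneg_right hlam (sq_nonneg Z)
      nlinarith
    have h7 : e * (Z ^ 2 / k ^ 2) ≤ e := by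
      simpa using mul_le_mul_of_nonneg_left h5 he
    linarith
  · have hp : pp Z = 0 := by unfold pp; rw [max_eq_right hZ0]; simp
    rw [hp, max_eq_right hZ0]
    simp only [mul_zero, zero_mul, zero_add, zero_div]
    refine (div_le_div_of_nonneg_right hvar hk2'.le).trans ?_
    rw [mul_div_assoc]
    refine mul_le_mul_of_nonneg_left ?_ hΩ
    have : Vr / k' ^ 2 ≤ (2 * k * β + Vr) / k' ^ 2 :=
      div_le_div_of_nonneg_right (by nlinarith [mul_nonneg hk.le hβ]) hk2'.le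
    linarith
end Ctx

end Crest.Agent.R62
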