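import Crest.Agent.R62.Defs

set_option autoImplicit false
set_option linter.unusedSectionVars false

open Finset Matrix

namespace Crest.Agent.R62

variable {ι V : Type} [Fintype ι] [DecidableEq ι] [Fintype V] [DecidableEq V]

/-! Basic facts on the update. `y = hat σ S F u v`, `z = hat σ S F v u`, `e_i = fun a => prj S a i`. -/

theorem mem_rem {S : Finset ι} {u v a : ι} : a ∈ rem S u v ↔ a ∈ S ∧ a ≠ u ∧ a ≠ v := by
  simp only [rem, mem_erase]; tauto

theorem card_rem {S : Finset ι} {u v : ι} (h : u ≠ v) (hu : u ∈ S) (hv : v ∈ S) :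
    (rem S u v).card + 2 = S.card := by
  have h1 : v ∈ S.erase u := mem_erase.2 ⟨h.symm, hv⟩
  have h2 := card_erase_add_one h1
  have h3 := card_erase_add_one hu
  unfold rem; omega

theorem card_rem_real {S : Finset ι} {u v : ι} (h : u ≠ v) (hu : u ∈ S) (hv : v ∈ S) :
    ((rem S u v).card : ℝ) = S.card - 2 := by
  have := card_rem h hu hv
  rw [← this]; push_cast; ring

/-- coefficient of `y yᵀ` (use `n1 σ S F v u` for the coefficient of `z zᵀ`) -/
noncomputable def n1 (σ : ℝ) (S : Finset ι) (F : Matrix ι ι ℝ) (u v : ι) : ℝ :=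
  dd σ S F v / psi σ S F u v
/-- coefficient of `y zᵀ + z yᵀ` -/
noncomputable def n2 (σ : ℝ) (S : Finset ι) (F : Matrix ι ι ℝ) (u v : ι) : ℝ :=
  ww σ S F u v / psi σ S F u v

namespace UpdX

theorem prj_symm (S : Finset ι) (a b : ι) : (prj S : Matrix ι ι ℝ) a b = prj S b a := by
  simp only [prj, and_comm, eq_comm]

theorem prj_out (S : Finset ι) {a : ι} (ha : a ∉ S) (b : ι) : (prj S : Matrix ι ι ℝ) a b = 0 := by
  simp [prj, ha]

theorem prj_row (S : Finset ι) (a : ι) : ∑ b, (prj S : Matrix ι ι ℝ) a b = 0 := by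
  by_cases ha : a ∈ S
  · have hc : (S.card : ℝ) ≠ 0 := by
      have := card_pos.2 ⟨a, ha⟩
      positivity
    have : ∑ b, (prj S : Matrix ι ι ℝ) a b = ∑ b ∈ S, ((if a = b then 1 else 0) - 1 / (S.card : ℝ)) := by
      rw [← sum_subset (subset_univ S)]
      · exact sum_congr rfl fun b hb => by simp [prj, ha, hb]
      · intro b _ hb; simp [prj, hb]
    rw [this, sum_sub_distrib, sum_ite_eq, if_pos ha, sum_const, nsmul_eq_mul]
    field_simp; ring
  · simp [prj_out S ha]

theorem prj_col (S : Finset ι) (b : ι) : ∑ a, (prj S : Matrix ι ι ℝ) a b = 0 := by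
  simp only [fun a => prj_symm S a b]; exact prj_row S b

/-- scalar core of the coefficient bounds -/
theorem core {σ e f x y : ℝ} (hσ : σ = 1 ∨ σ = -1) (he0 : 0 ≤ e) (he : e ≤ 1 / 1000)
    (hf : |f| ≤ 1 / 1000) (hx : |x| ≤ 1 / 1000) (hy : |y| ≤ 1 / 1000) :
    |(σ - σ * e - f) ^ 2 - (x + σ * e) * (y + σ * e) - 1|
        ≤ 2002 / 1000 * (|f| + e) + (|x| + e) * (|y| + e) ∧
      |σ - σ * e - f - σ * ((σ - σ * e - f) ^ 2 - (x + σ * e) * (y + σ * e))|
        ≤ 1002 / 1000 * (|f| + e) + (|x| + e) * (|y| + e) := by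
  have hs : |σ| = 1 := by rcases hσ with h | h <;> simp [h]
  have hs2 : σ ^ 2 = 1 := by rcases hσ with h | h <;> simp [h]
  have key : ∀ t : ℝ, |t + σ * e| ≤ |t| + e := fun t =>
    (abs_add_le _ _).trans (by rw [abs_mul, hs, one_mul, abs_of_nonneg he0])
  have h1 := key f
  have h2 : |(x + σ * e) * (y + σ * e)| ≤ (|x| + e) * (|y| + e) := by
    rw [abs_mul]; exact mul_le_mul (key x) (key y) (abs_nonneg _) (by positivity)
  set δ := f + σ * e with hδ
  set q := (x + σ * e) * (y + σ * e)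
  have h3 : |δ ^ 2| ≤ 2 / 1000 * (|f| + e) := by
    rw [abs_pow, sq]; exact mul_le_mul (by linarith) h1 (abs_nonneg _) (by norm_num)
  have h4 : |σ * δ| ≤ |f| + e := by rw [abs_mul, hs, one_mul]; exact h1
  have h5 : |σ * δ ^ 2| ≤ 2 / 1000 * (|f| + e) := by rw [abs_mul, hs, one_mul]; exact h3
  have h6 : |σ * q| ≤ (|x| + e) * (|y| + e) := by rw [abs_mul, hs, one_mul]; exact h2
  have e1 : σ - σ * e - f = σ - δ := by rw [hδ]; ring
  rw [e1]
  constructor
  · have : (σ - δ) ^ 2 - q - 1 = -2 * (σ * δ) + δ ^ 2 - q := by linear_combination hs2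
    rw [this, abs_le]
    rw [abs_le] at h2 h3 h4
    constructor <;> linarith [h2.1, h2.2, h3.1, h3.2, h4.1, h4.2]
  · have : σ - δ - σ * ((σ - δ) ^ 2 - q) = δ - σ * δ ^ 2 + σ * q := by
      linear_combination (2 * δ - σ) * hs2
    rw [this, abs_le]
    rw [abs_le] at h1 h5 h6
    constructor <;> linarith [h1.1, h1.2, h5.1, h5.2, h6.1, h6.2]

end UpdX
open UpdX

section
variable {σ : ℝ} {S : Finset ι} {F : Matrix ι ι ℝ} {u v : ι}

theorem Loc.swap (h : Loc σ S F u v) : Loc σ S F v u :=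
  ⟨h.mat, h.sg, h.ne.symm, h.hv, h.hu, h.big, h.dv, h.du, by rw [h.mat.symm]; exact h.f⟩

theorem Loc.ww_swap (h : Loc σ S F u v) : ww σ S F v u = ww σ S F u v := by
  simp only [ww, h.mat.symm v u]

theorem Loc.psi_swap (h : Loc σ S F u v) : psi σ S F v u = psi σ S F u v := by
  simp only [psi, h.ww_swap]; ring

theorem Loc.upd_swap (h : Loc σ S F u v) : upd σ S F v u = upd σ S F u v := by
  ext a b
  simp only [upd, h.ww_swap, h.psi_swap]; ring

theorem Loc.inv_card (h : Loc σ S F u v) :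
    0 ≤ 1 / (S.card : ℝ) ∧ 1 / (S.card : ℝ) ≤ 1 / 1000 :=
  ⟨by positivity, one_div_le_one_div_of_le (by norm_num) h.big⟩

theorem Loc.core (h : Loc σ S F u v) :
    |psi σ S F u v - 1| ≤ 2002 / 1000 * ph S F u v + pd S F u * pd S F v ∧
      |ww σ S F u v - σ * psi σ S F u v| ≤ 1002 / 1000 * ph S F u v + pd S F u * pd S F v := by
  have := UpdX.core h.sg h.inv_card.1 h.inv_card.2 h.f h.du h.dv
  simpa only [psi, ww, dd, ph, pd, mul_one_div] using this

theorem Loc.small (h : Loc σ S F u v) :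
    0 ≤ ph S F u v ∧ ph S F u v ≤ 2 / 1000 ∧ 0 ≤ pd S F u ∧ pd S F u ≤ 2 / 1000 ∧
      0 ≤ pd S F v ∧ pd S F v ≤ 2 / 1000 := by
  have h1 := h.inv_card
  have := h.f; have := h.du; have := h.dv
  have := abs_nonneg (F u v); have := abs_nonneg (F u u); have := abs_nonneg (F v v)
  simp only [ph, pd]
  refine ⟨?_, ?_, ?_, ?_, ?_, ?_⟩ <;> linarith [h1.1, h1.2]

theorem Loc.psi_bd (h : Loc σ S F u v) : |psi σ S F u v - 1| ≤ 1 / 100 := by
  obtain ⟨a, b, c, d, e, f⟩ := h.small
  refine h.core.1.trans ?_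
  nlinarith

theorem Loc.psi_ge (h : Loc σ S F u v) : 99 / 100 ≤ psi σ S F u v := by
  have := (abs_le.1 h.psi_bd).1; linarith

theorem Loc.n2_swap (h : Loc σ S F u v) : n2 σ S F v u = n2 σ S F u v := by
  simp only [n2, h.ww_swap, h.psi_swap]

theorem Loc.n2_bd (h : Loc σ S F u v) : |n2 σ S F u v - σ| ≤ 2 * ph0 S F u v := by
  obtain ⟨a, b, c, d, e, f⟩ := h.small
  have hp := h.psi_ge
  have hp0 : 0 < psi σ S F u v := by linarith
  have e1 : n2 σ S F u v - σ = (ww σ S F u v - σ * psi σ S F u v) / psi σ S F u v := by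
    rw [n2]; field_simp
  rw [e1, abs_div, abs_of_pos hp0, div_le_iff₀ hp0, ph0]
  refine h.core.2.trans ?_
  have := mul_nonneg c e
  nlinarith

theorem Loc.abs_dd (h : Loc σ S F u v) (a : ι) : |dd σ S F a| ≤ pd S F a := by
  have hs : |σ| = 1 := by rcases h.sg with h | h <;> simp [h]
  rw [dd, pd]
  refine (abs_add_le _ _).trans ?_
  rw [abs_div, hs, Nat.abs_cast]

theorem Loc.n1_bd (h : Loc σ S F u v) : |n1 σ S F u v - F v v| ≤ 3 * pe S F u v := by
  obtain ⟨a, b, c, d, e, f⟩ := h.small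
  have hs : |σ| = 1 := by rcases h.sg with h | h <;> simp [h]
  have hp := h.psi_ge
  have hp0 : 0 < psi σ S F u v := by linarith
  have hi := h.inv_card
  have e1 : n1 σ S F u v - F v v =
      (σ * (1 / S.card) - F v v * (psi σ S F u v - 1)) / psi σ S F u v := by
    rw [n1, dd, eq_div_iff hp0.ne', sub_mul, div_mul_cancel₀ _ hp0.ne']; ring
  have h1 : |F v v| ≤ pd S F v := by rw [pd]; linarith [hi.1]
  have h2 := mul_le_mul h1 h.core.1 (abs_nonneg _) e
  rw [e1, abs_div, abs_of_pos hp0, div_le_iff₀ hp0, pe]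
  refine (abs_sub _ _).trans ?_
  rw [abs_mul, abs_mul, hs, one_mul, abs_of_nonneg hi.1]
  have h3 := mul_nonneg e a
  have h4 := sq_nonneg (pd S F v)
  have h5 : pd S F u * pd S F v ^ 2 ≤ 2 / 1000 * pd S F v ^ 2 := mul_le_mul_of_nonneg_right d h4
  have h6 : 3 * (1 / (S.card : ℝ) + pd S F v * ph S F u v + pd S F v ^ 2) * (99 / 100) ≤
      3 * (1 / (S.card : ℝ) + pd S F v * ph S F u v + pd S F v ^ 2) * psi σ S F u v :=
    mul_le_mul_of_nonneg_left hp (by linarith [hi.1])
  nlinarith [hi.1]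

theorem Loc.n1_le (h : Loc σ S F u v) : |n1 σ S F u v| ≤ 2 * pd S F v := by
  obtain ⟨a, b, c, d, e, f⟩ := h.small
  have hp := h.psi_ge
  have hp0 : 0 < psi σ S F u v := by linarith
  rw [n1, abs_div, abs_of_pos hp0, div_le_iff₀ hp0]
  refine (h.abs_dd v).trans ?_
  nlinarith

/-- matrix form of the update -/
theorem Loc.upd_eq (h : Loc σ S F u v) :
    upd σ S F u v = F + n1 σ S F u v • vecMulVec (hat σ S F u v) (hat σ S F u v)
      + n1 σ S F v u • vecMulVec (hat σ S F v u) (hat σ S F v u)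
      + n2 σ S F u v • (vecMulVec (hat σ S F u v) (hat σ S F v u)
          + vecMulVec (hat σ S F v u) (hat σ S F u v))
      - σ • (vecMulVec (fun a => prj S a u) (fun a => prj S a v)
          + vecMulVec (fun a => prj S a v) (fun a => prj S a u))
      - (σ / ((S.card : ℝ) - 2)) • vecMulVec (fun a => prj S a u + prj S a v)
          (fun a => prj S a u + prj S a v) := by
  ext a b
  simp only [upd, n1, n2, h.psi_swap, Matrix.add_apply, Matrix.sub_apply, Matrix.smul_apply,
    vecMulVec_apply, smul_eq_mul]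
  ring

theorem Loc.upd_row_u (h : Loc σ S F u v) (b : ι) : upd σ S F u v u b = 0 := by
  have hs2 : σ ^ 2 = 1 := by rcases h.sg with h | h <;> simp [h]
  have hp0 : psi σ S F u v ≠ 0 := by have := h.psi_ge; intro h0; linarith
  have hm : (S.card : ℝ) ≠ 0 := by have := h.big; intro h0; linarith
  have hm2 : (S.card : ℝ) - 2 ≠ 0 := by have := h.big; intro h0; linarith
  have p1 : (prj S : Matrix ι ι ℝ) u u = 1 - 1 / S.card := by simp [prj, h.hu]
  have p2 : (prj S : Matrix ι ι ℝ) u v = - (1 / S.card) := by simp [prj, h.hu, h.hv, h.ne]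
  have y1 : hat σ S F u v u = dd σ S F u := by rw [hat, p2, dd]; ring
  have y2 : hat σ S F v u u = - ww σ S F u v := by rw [hat, p1, ww]; ring
  have e1 : (dd σ S F v * dd σ S F u * hat σ S F u v b
      + dd σ S F u * -ww σ S F u v * hat σ S F v u b
      + ww σ S F u v * (dd σ S F u * hat σ S F v u b + -ww σ S F u v * hat σ S F u v b))
      / psi σ S F u v = - hat σ S F u v b := by
    rw [div_eq_iff hp0, psi]; ring
  simp only [upd]
  rw [y1, y2, e1, p1, p2, hat, h.mat.symm b u]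
  field_simp
  ring

/-- Rows `u` and `v` of the update vanish: an algebraic identity (`field_simp`, `σ² = 1`); note
`hat u v u = dd u`, `hat u v v = -ww`, `hat v u u = -ww`, `hat v u v = dd v`. -/
theorem Loc.mat_upd (h : Loc σ S F u v) : Mat (rem S u v) (upd σ S F u v) := by
  refine ⟨fun a b => ?_, fun a b ha => ?_, fun a => ?_⟩
  · simp only [upd, h.mat.symm a b]; ring
  · by_cases hS : a ∈ S
    · by_cases hu : a = u
      · rw [hu]; exact h.upd_row_u b
      · have hv : a = v := by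
          by_contra hv; exact ha (mem_rem.2 ⟨hS, hu, hv⟩)
        rw [hv, ← h.upd_swap]; exact h.swap.upd_row_u b
    · simp [upd, hat, h.mat.supp a _ hS, prj_out S hS]
  · have c1 : ∀ x y, ∑ b, hat σ S F x y b = 0 := fun x y => by
      simp only [hat, sum_sub_distrib, ← mul_sum, prj_col, fun b => h.mat.symm b x, h.mat.row]
      simp
    simp only [upd, sum_sub_distrib, sum_add_distrib, ← mul_sum, ← sum_div, c1, prj_col,
      h.mat.row]
    simp

theorem Mat.mul_prj (h : Mat S F) : F * (prj S : Matrix ι ι ℝ) = F := by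
  ext a b
  by_cases hb : b ∈ S
  · have : ∀ c, F a c * (prj S : Matrix ι ι ℝ) c b =
        (if c = b then F a c else 0) - F a c * (1 / S.card) := fun c => by
      by_cases hc : c ∈ S
      · simp only [prj, hc, hb, and_self, if_true]; split_ifs <;> ring
      · have : F a c = 0 := by rw [h.symm]; exact h.supp _ _ hc
        simp [this]
    simp only [mul_apply, this, sum_sub_distrib, ← sum_mul, h.row]
    simp
  · have : F a b = 0 := by rw [h.symm]; exact h.supp _ _ hb
    simp [mul_apply, prj, hb, this]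

theorem Mat.prj_mul (h : Mat S F) : (prj S : Matrix ι ι ℝ) * F = F := by
  ext a b
  rw [h.symm a b]
  conv_rhs => rw [← h.mul_prj]
  simp only [mul_apply]
  exact sum_congr rfl fun c _ => by rw [prj_symm, h.symm c b, mul_comm]

theorem mat_prj (S : Finset ι) : Mat S (prj S : Matrix ι ι ℝ) :=
  ⟨prj_symm S, fun _ b ha => prj_out S ha b, prj_row S⟩

theorem prj_mul_prj (S : Finset ι) : (prj S : Matrix ι ι ℝ) * prj S = prj S := (mat_prj S).mul_prj
end

end Crest.Agent.R62
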