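import Crest.Agent.R62.Mono
import Crest.Agent.R62.GenW
import Crest.Agent.R62.Upd

set_option autoImplicit false
set_option linter.unusedSectionVars false

open Finset Matrix

namespace Crest.Agent.R62

variable {ι V : Type} [Fintype ι] [DecidableEq ι] [Fintype V] [DecidableEq V]

/-! Derived facts in a context with `Big c.p.K`: `m = K ^ μ`, sizes of all parameters as powers of
`K`, and the basic consequences of `One`. Apply them to `c.swap` for `G`. -/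

namespace Ctx
variable (c : Ctx ι)

noncomputable def μ : ℝ := Real.logb c.p.K c.m
/-- exponent of `ρ` -/
noncomputable def ϱ : ℝ := min 0 (c.μ - 6700)
/-- exponent of `T4` -/
noncomputable def τ : ℝ := 20004 + 2 * c.μ - 3 * max c.μ 6700
noncomputable def L : ℝ := c.p.L c.m
noncomputable def R : ℝ := c.p.R c.m

/-- the two ranges: `m ≥ W` and `m ≤ W` -/
theorem cases_W : (6700 ≤ c.μ ∧ c.ϱ = 0 ∧ c.τ = 20004 - c.μ)
    ∨ (c.μ ≤ 6700 ∧ c.ϱ = c.μ - 6700 ∧ c.τ = 2 * c.μ - 96) := by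
  unfold ϱ τ
  rcases le_total 6700 c.μ with h | h
  · left
    refine ⟨h, min_eq_left (by linarith), ?_⟩
    rw [max_eq_left h]; ring
  · right
    refine ⟨h, min_eq_right (by linarith), ?_⟩
    rw [max_eq_right h]; ring

/-- two-sided size: `K^(e - 1/100) ≤ x ≤ K^(e + 1/100)` -/
def Sz (K x e : ℝ) : Prop := Ge K x (e - 1 / 100) ∧ Le K x (e + 1 / 100)

theorem Sz.of_bounds {K x e : ℝ} (hK : Big K) (h1 : K ^ e ≤ 10 * x) (h2 : x ≤ 10 * K ^ e) :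
    Sz K x e := by
  have ht : (10 : ℝ) ≤ K ^ ((1 : ℝ) / 100) := hK.ten
  have hp : 0 < K ^ e := Real.rpow_pos_of_pos hK.pos e
  have hq : 0 < K ^ ((1 : ℝ) / 100) := Real.rpow_pos_of_pos hK.pos _
  constructor
  · unfold Ge
    rw [Real.rpow_sub hK.pos, div_le_iff₀ hq]
    have hx : 0 ≤ x := by linarith
    calc K ^ e ≤ 10 * x := h1
      _ = x * 10 := mul_comm _ _
      _ ≤ x * K ^ ((1 : ℝ) / 100) := mul_le_mul_of_nonneg_left ht hx
  · unfold Le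
    rw [Real.rpow_add hK.pos]
    calc x ≤ 10 * K ^ e := h2
      _ = K ^ e * 10 := mul_comm _ _
      _ ≤ K ^ e * K ^ ((1 : ℝ) / 100) := mul_le_mul_of_nonneg_left ht hp.le

theorem Sz.of_eq {K x e : ℝ} (hK : Big K) (h : x = K ^ e) : Sz K x e := by
  have hp : 0 < K ^ e := Real.rpow_pos_of_pos hK.pos e
  exact Sz.of_bounds hK (by rw [h]; linarith) (by rw [h]; linarith)

theorem sqrt_sqrt_le {x y : ℝ} (hy : 0 ≤ y) (h : x ≤ y ^ 4) : √(√x) ≤ y := by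
  rw [Real.sqrt_le_left hy, Real.sqrt_le_left (by positivity)]
  calc x ≤ y ^ 4 := h
    _ = (y ^ 2) ^ 2 := by ring

theorem le_sqrt_sqrt {x y : ℝ} (h : y ^ 4 ≤ x) : y ≤ √(√x) := by
  apply Real.le_sqrt_of_sq_le
  apply Real.le_sqrt_of_sq_le
  calc (y ^ 2) ^ 2 = y ^ 4 := by ring
    _ ≤ x := h

theorem rpow_nat_eq (K : ℝ) (n : ℕ) (e : ℝ) (h : e = n) : K ^ e = K ^ n := by
  rw [h, Real.rpow_natCast]

variable {c} (hK : Big c.p.K)
include hK

theorem live' : c.p.K ^ 3340 < c.m := c.live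
theorem m_pos : 0 < c.m := lt_trans (pow_pos hK.pos _) (live' hK)
theorem K_le_m : c.p.K ≤ c.m := by
  have h := live' hK
  have h1 : c.p.K ^ 1 ≤ c.p.K ^ 3340 := pow_le_pow_right₀ hK.one_lt.le (by norm_num)
  rw [pow_one] at h1
  linarith
theorem W_pos : 0 < c.p.W := pow_pos hK.pos _
theorem N_pos : 0 < c.p.N := lt_of_lt_of_le (pow_pos hK.pos _) c.ok.N1
theorem m_le_N : c.m ≤ c.p.N := c.mN

theorem m_eq : c.m = c.p.K ^ c.μ :=
  (Real.rpow_logb hK.pos hK.one_lt.ne' (m_pos hK)).symm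
theorem le_m : Le c.p.K c.m c.μ := (m_eq hK).le
theorem ge_m : Ge c.p.K c.m c.μ := (m_eq hK).ge
theorem pow_lt_m_iff (n : ℕ) : c.p.K ^ n < c.m ↔ (n : ℝ) < c.μ := by
  rw [← Real.rpow_natCast]
  conv_lhs => rw [m_eq hK]
  exact Real.rpow_lt_rpow_left_iff hK.one_lt
theorem pow_le_m_iff (n : ℕ) : c.p.K ^ n ≤ c.m ↔ (n : ℝ) ≤ c.μ := by
  rw [← Real.rpow_natCast]
  conv_lhs => rw [m_eq hK]
  exact Real.rpow_le_rpow_left_iff hK.one_lt
theorem μ_lo : 3340 < c.μ := by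
  have := (pow_lt_m_iff hK 3340).1 (live' hK)
  exact_mod_cast this
theorem μ_hi : c.μ ≤ 10000 + 1 / 100 := by
  have h1 : Le c.p.K (2 * c.p.K ^ 10000) ((10000 : ℕ) + 1 / 100) :=
    Le.cmul hK (Le.K_pow 10000) (by norm_num) (by norm_num)
  have h2 : c.p.K ^ c.μ ≤ c.p.K ^ (((10000 : ℕ) : ℝ) + 1 / 100) := by
    rw [← m_eq hK]
    exact le_trans (le_trans (m_le_N hK) c.ok.N2) h1
  have := (Real.rpow_le_rpow_left_iff hK.one_lt).1 h2
  exact_mod_cast this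
theorem phI_iff : c.p.phI c.m ↔ 7195 < c.μ := by
  have := pow_lt_m_iff hK 7195
  exact_mod_cast this
theorem phX_iff : c.p.phX c.m ↔ 6710 < c.μ := by
  have := pow_lt_m_iff hK 6710
  exact_mod_cast this
theorem W_le_iff : c.p.W ≤ c.m ↔ 6700 ≤ c.μ := by
  have := pow_le_m_iff hK 6700
  exact_mod_cast this
theorem m_big : 10 ^ 100 ≤ c.m := le_trans hK (K_le_m hK)
theorem W_eq : c.p.W = c.p.K ^ (6700 : ℝ) := (rpow_nat_eq _ 6700 _ (by norm_num)).symm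
theorem mx_le : c.p.K ^ (max c.μ 6700) ≤ c.m + c.p.W := by
  have h1 := m_pos hK
  have h2 := W_pos hK
  rcases le_total 6700 c.μ with h | h
  · rw [max_eq_left h, ← m_eq hK]; linarith
  · rw [max_eq_right h, ← W_eq hK]; linarith
theorem le_mx : c.m + c.p.W ≤ 2 * c.p.K ^ (max c.μ 6700) := by
  have h1 : c.m ≤ c.p.K ^ (max c.μ 6700) := (le_m hK).mono hK (le_max_left _ _)
  have h2 : c.p.W ≤ c.p.K ^ (max c.μ 6700) := by
    rw [W_eq hK]; exact Real.rpow_le_rpow_of_exponent_le hK.one_lt.le (le_max_right _ _)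
  linarith
theorem rho_exp : c.p.K ^ c.ϱ = c.m / c.p.K ^ (max c.μ 6700) := by
  have : c.ϱ = c.μ - max c.μ 6700 := by
    unfold ϱ
    rcases le_total 6700 c.μ with h | h
    · rw [max_eq_left h, min_eq_left (by linarith)]; ring
    · rw [max_eq_right h, min_eq_right (by linarith)]
  rw [this, Real.rpow_sub hK.pos, ← m_eq hK]
theorem rho_pos : 0 < c.p.rho c.m := div_pos (m_pos hK) (add_pos (m_pos hK) (W_pos hK))
theorem rho_le : c.p.rho c.m ≤ c.p.K ^ c.ϱ := by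
  rw [rho_exp hK]
  exact div_le_div_of_nonneg_left (m_pos hK).le (Real.rpow_pos_of_pos hK.pos _) (mx_le hK)
theorem le_rho : c.p.K ^ c.ϱ ≤ 2 * c.p.rho c.m := by
  have h1 := m_pos hK
  have h2 := W_pos hK
  have h3 := Real.rpow_pos_of_pos hK.pos (max c.μ 6700)
  rw [rho_exp hK]
  unfold Par.rho
  rw [← mul_div_assoc, div_le_div_iff₀ h3 (add_pos h1 h2)]
  have := mul_le_mul_of_nonneg_left (le_mx hK) h1.le
  linarith
theorem rho_le_one : c.p.rho c.m ≤ 1 := by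
  have h1 := m_pos hK
  have h2 := W_pos hK
  unfold Par.rho
  rw [div_le_one (add_pos h1 h2)]; linarith
theorem N_lo : c.p.K ^ (10000 : ℝ) ≤ c.p.N := by
  rw [rpow_nat_eq _ 10000 _ (by norm_num)]; exact c.ok.N1
theorem N_hi : c.p.N ≤ 2 * c.p.K ^ (10000 : ℝ) := by
  rw [rpow_nat_eq _ 10000 _ (by norm_num)]; exact c.ok.N2
theorem ϱ_lo : -3360 < c.ϱ := by
  have := μ_lo hK
  rcases c.cases_W with ⟨_, h, _⟩ | ⟨_, h, _⟩ <;> rw [h] <;> linarith
theorem ϱ_hi : c.ϱ ≤ 0 := min_le_left _ _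
theorem τ_lo : 6584 < c.τ := by
  have := μ_lo hK
  have := μ_hi hK
  rcases c.cases_W with ⟨_, _, h⟩ | ⟨_, _, h⟩ <;> rw [h] <;> linarith
/-- `x = K^e · ρ` -/
theorem sz_mul_rho {x e : ℝ} (h : x = c.p.K ^ e * c.p.rho c.m) : Sz c.p.K x (e + c.ϱ) := by
  have h3 := Real.rpow_pos_of_pos hK.pos e
  have h1 := mul_le_mul_of_nonneg_left (rho_le hK) h3.le
  have h2 := mul_le_mul_of_nonneg_left (le_rho hK) h3.le
  have h4 := mul_pos h3 (rho_pos hK)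
  apply Sz.of_bounds hK <;> rw [Real.rpow_add hK.pos, h] <;> linarith
theorem rho_sq_le : c.p.rho c.m ^ 2 ≤ c.p.K ^ (2 * c.ϱ) := by
  have := Le.pow hK (show Le c.p.K (c.p.rho c.m) c.ϱ from rho_le hK) (rho_pos hK).le 2
  exact_mod_cast this
theorem le_rho_sq : c.p.K ^ (2 * c.ϱ) ≤ 4 * c.p.rho c.m ^ 2 := by
  have := Ge.pow hK (show Ge c.p.K (2 * c.p.rho c.m) c.ϱ from le_rho hK) 2
  have h2 : c.p.K ^ (2 * c.ϱ) ≤ (2 * c.p.rho c.m) ^ 2 := by exact_mod_cast this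
  linarith
theorem sz_N : Sz c.p.K c.p.N 10000 := by
  have h1 := N_lo hK
  have h2 := N_hi hK
  have h3 := N_pos hK
  apply Sz.of_bounds hK <;> linarith
theorem sz_rho : Sz c.p.K (c.p.rho c.m) c.ϱ := by
  have := sz_mul_rho hK (x := c.p.rho c.m) (e := 0) (by simp)
  rwa [zero_add] at this
theorem sz_T2 : Sz c.p.K (c.p.T2 c.m) (1 + c.μ + c.ϱ) := by
  apply sz_mul_rho hK
  rw [Real.rpow_add hK.pos, Real.rpow_one, ← m_eq hK]; rfl
theorem sz_k2 : Sz c.p.K (c.p.k2 c.m) (6699 + c.ϱ) := by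
  apply sz_mul_rho hK
  rw [show (6699 : ℝ) = 6700 - 1 by norm_num, Real.rpow_sub hK.pos, Real.rpow_one, ← W_eq hK]; rfl
theorem sz_kt : Sz c.p.K (c.p.kt c.m) (3350 + c.ϱ) := by
  apply sz_mul_rho hK
  rw [rpow_nat_eq _ 3350 _ (by norm_num)]; rfl
theorem sz_k3 : Sz c.p.K c.p.k3 9999 := by
  have h1 := N_lo hK
  have h2 := N_hi hK
  have h3 := N_pos hK
  have h4 := hK.pos
  have e : c.p.K ^ (9999 : ℝ) = c.p.K ^ (10000 : ℝ) / c.p.K := by
    rw [show (9999 : ℝ) = 10000 - 1 by norm_num, Real.rpow_sub hK.pos, Real.rpow_one]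
  unfold Par.k3
  apply Sz.of_bounds hK <;> rw [e, ← mul_div_assoc] <;>
    exact div_le_div_of_nonneg_right (by linarith) h4.le
theorem sz_kc : Sz c.p.K (c.p.kc c.m) (c.μ - 1) := by
  apply Sz.of_eq hK
  rw [Real.rpow_sub hK.pos, Real.rpow_one, ← m_eq hK]; rfl
theorem τ_exp : c.p.K ^ c.τ
    = c.p.K ^ 4 * (c.p.K ^ (10000 : ℝ)) ^ 2 * c.m ^ 2 / (c.p.K ^ (max c.μ 6700)) ^ 3 := by
  have h := hK.pos
  conv_rhs => rw [m_eq hK]
  rw [← Real.rpow_natCast c.p.K 4, ← Real.rpow_natCast _ 2, ← Real.rpow_natCast _ 2,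
    ← Real.rpow_natCast _ 3, ← Real.rpow_mul h.le, ← Real.rpow_mul h.le, ← Real.rpow_mul h.le,
    ← Real.rpow_add h, ← Real.rpow_add h, ← Real.rpow_sub h]
  congr 1
  unfold τ
  push_cast; ring
theorem T4_le : c.p.T4 c.m ≤ 4 * c.p.K ^ c.τ := by
  have h0 := hK.pos
  have h1 := m_pos hK
  have h3 := Real.rpow_pos_of_pos hK.pos (max c.μ 6700)
  have h4 := N_pos hK
  rw [τ_exp hK]
  unfold Par.T4
  calc c.p.K ^ 4 * c.p.N ^ 2 * c.m ^ 2 / (c.m + c.p.W) ^ 3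
      ≤ c.p.K ^ 4 * (2 * c.p.K ^ (10000 : ℝ)) ^ 2 * c.m ^ 2 / (c.p.K ^ (max c.μ 6700)) ^ 3 := by
        have h5 := N_hi hK
        have h6 := mx_le hK
        gcongr
    _ = _ := by ring
theorem le_T4 : c.p.K ^ c.τ ≤ 8 * c.p.T4 c.m := by
  have h0 := hK.pos
  have h1 := m_pos hK
  have h2 := W_pos hK
  have h3 := Real.rpow_pos_of_pos hK.pos (max c.μ 6700)
  have h4 := Real.rpow_pos_of_pos hK.pos (10000 : ℝ)
  rw [τ_exp hK]
  unfold Par.T4
  calc c.p.K ^ 4 * (c.p.K ^ (10000 : ℝ)) ^ 2 * c.m ^ 2 / (c.p.K ^ (max c.μ 6700)) ^ 3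
      = 8 * (c.p.K ^ 4 * (c.p.K ^ (10000 : ℝ)) ^ 2 * c.m ^ 2
          / (2 * c.p.K ^ (max c.μ 6700)) ^ 3) := by field_simp; norm_num
    _ ≤ _ := by
        have h5 := N_lo hK
        have h6 := le_mx hK
        gcongr
theorem sz_T4 : Sz c.p.K (c.p.T4 c.m) c.τ := by
  have h1 := T4_le hK
  have h2 := le_T4 hK
  have h3 := Real.rpow_pos_of_pos hK.pos c.τ
  apply Sz.of_bounds hK <;> linarith
theorem TX_eq : c.p.TX c.m = c.p.K ^ (13403 - c.μ) := by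
  rw [Real.rpow_sub hK.pos, ← m_eq hK, rpow_nat_eq _ 13403 _ (by norm_num)]
  unfold Par.TX Par.W
  rw [← pow_mul, ← pow_add]
theorem sz_TX : Sz c.p.K (c.p.TX c.m) (13403 - c.μ) := Sz.of_eq hK (TX_eq hK)
theorem sz_TR : Sz c.p.K (c.p.TR c.m) (6713 + 2 * c.ϱ) := by
  have e : c.p.TR c.m = c.p.K ^ (6713 : ℝ) * c.p.rho c.m ^ 2 := by
    rw [rpow_nat_eq _ 6713 _ (by norm_num)]
    unfold Par.TR Par.W
    rw [← pow_add]
  have h3 := Real.rpow_pos_of_pos hK.pos (6713 : ℝ)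
  have h1 := mul_le_mul_of_nonneg_left (rho_sq_le hK) h3.le
  have h2 := mul_le_mul_of_nonneg_left (le_rho_sq hK) h3.le
  have h4 := mul_pos h3 (pow_pos (rho_pos hK) 2)
  apply Sz.of_bounds hK <;> rw [Real.rpow_add hK.pos, e] <;> linarith
theorem TR4_le : c.p.TR4 c.m ≤ 2 * c.p.K ^ (10100 + 2 * c.ϱ) := by
  have h0 := hK.pos
  have h4 := N_pos hK
  have h5 := rho_pos hK
  rw [Real.rpow_add hK.pos, show (10100 : ℝ) = 100 + 10000 by norm_num, Real.rpow_add hK.pos,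
    rpow_nat_eq _ 100 _ (by norm_num)]
  unfold Par.TR4
  calc c.p.K ^ 100 * c.p.N * c.p.rho c.m ^ 2
      ≤ c.p.K ^ 100 * (2 * c.p.K ^ (10000 : ℝ)) * c.p.K ^ (2 * c.ϱ) := by
        have h6 := N_hi hK
        have h7 := rho_sq_le hK
        gcongr
    _ = _ := by ring
theorem le_TR4 : c.p.K ^ (10100 + 2 * c.ϱ) ≤ 4 * c.p.TR4 c.m := by
  have h0 := hK.pos
  have h4 := N_pos hK
  have h5 := rho_pos hK
  rw [Real.rpow_add hK.pos, show (10100 : ℝ) = 100 + 10000 by norm_num, Real.rpow_add hK.pos,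
    rpow_nat_eq _ 100 _ (by norm_num)]
  unfold Par.TR4
  calc c.p.K ^ 100 * c.p.K ^ (10000 : ℝ) * c.p.K ^ (2 * c.ϱ)
      ≤ c.p.K ^ 100 * c.p.N * (4 * c.p.rho c.m ^ 2) := by
        have h6 := N_lo hK
        have h7 := le_rho_sq hK
        gcongr
    _ = _ := by ring
theorem sz_TR4 : Sz c.p.K (c.p.TR4 c.m) (10100 + 2 * c.ϱ) := by
  have h1 := TR4_le hK
  have h2 := le_TR4 hK
  have h3 := Real.rpow_pos_of_pos hK.pos (10100 + 2 * c.ϱ)
  apply Sz.of_bounds hK <;> linarith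
theorem sz_TD : Sz c.p.K (c.p.TD c.m) (450 + c.ϱ) := by
  apply sz_mul_rho hK
  rw [rpow_nat_eq _ 450 _ (by norm_num)]; rfl
theorem sz_T22 : Sz c.p.K (c.p.T22 c.m) (max 10004 (19860 - c.μ)) := by
  have h0 := hK.pos
  have h1 := m_pos hK
  have h4 := N_pos hK
  have h5 := N_lo hK
  have h6 := N_hi hK
  have h7 := Real.rpow_pos_of_pos hK.pos (10000 : ℝ)
  have e1 : c.p.K ^ (10004 : ℝ) = c.p.K ^ 4 * c.p.K ^ (10000 : ℝ) := by
    rw [show (10004 : ℝ) = 4 + 10000 by norm_num, Real.rpow_add hK.pos,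
      rpow_nat_eq _ 4 _ (by norm_num)]
  have e2 : c.p.K ^ (19860 - c.μ) = (c.p.K ^ (10000 : ℝ)) ^ 2 / (c.m * c.p.K ^ 140) := by
    conv_rhs => rw [m_eq hK]
    rw [← Real.rpow_natCast c.p.K 140, ← Real.rpow_natCast _ 2, ← Real.rpow_mul h0.le,
      ← Real.rpow_add h0, ← Real.rpow_sub h0]
    congr 1
    push_cast; ring
  have a1 : c.p.K ^ (10004 : ℝ) ≤ c.p.K ^ 4 * c.p.N := by rw [e1]; gcongr
  have a2 : c.p.K ^ 4 * c.p.N ≤ 2 * c.p.K ^ (10004 : ℝ) := by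
    rw [e1]
    calc c.p.K ^ 4 * c.p.N ≤ c.p.K ^ 4 * (2 * c.p.K ^ (10000 : ℝ)) := by gcongr
      _ = _ := by ring
  have a3 : c.p.K ^ (19860 - c.μ) ≤ c.p.N ^ 2 / (c.m * c.p.K ^ 140) := by rw [e2]; gcongr
  have a4 : c.p.N ^ 2 / (c.m * c.p.K ^ 140) ≤ 4 * c.p.K ^ (19860 - c.μ) := by
    rw [e2]
    calc c.p.N ^ 2 / (c.m * c.p.K ^ 140)
        ≤ (2 * c.p.K ^ (10000 : ℝ)) ^ 2 / (c.m * c.p.K ^ 140) := by gcongr
      _ = _ := by ring
  have b1 : c.p.K ^ (10004 : ℝ) ≤ c.p.K ^ (max 10004 (19860 - c.μ)) :=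
    Real.rpow_le_rpow_of_exponent_le hK.one_lt.le (le_max_left _ _)
  have b2 : c.p.K ^ (19860 - c.μ) ≤ c.p.K ^ (max 10004 (19860 - c.μ)) :=
    Real.rpow_le_rpow_of_exponent_le hK.one_lt.le (le_max_right _ _)
  have p1 := Real.rpow_pos_of_pos hK.pos (10004 : ℝ)
  have p2 := Real.rpow_pos_of_pos hK.pos (19860 - c.μ)
  have b3 : c.p.K ^ (max 10004 (19860 - c.μ)) ≤ c.p.K ^ (10004 : ℝ) + c.p.K ^ (19860 - c.μ) := by
    rcases le_total 10004 (19860 - c.μ) with h | h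
    · rw [max_eq_right h]; linarith
    · rw [max_eq_left h]; linarith
  unfold Par.T22
  apply Sz.of_bounds hK <;> linarith
theorem sz_L : Sz c.p.K c.L (c.τ / 4) := by
  have hτ := τ_lo hK
  obtain ⟨h1, h2⟩ := sz_T4 hK
  constructor
  · have h3 := (h1.sqrt hK).of_le (show √(c.p.T4 c.m) ≤ 1 + √(c.p.T4 c.m) by linarith)
    exact (h3.sqrt hK).mono hK (by linarith)
  · have h3 := Le.add hK Le.one (h2.sqrt hK) (g := (c.τ + 1 / 100) / 2) (by linarith) le_rfl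
    exact (h3.sqrt hK).mono hK (by linarith)
theorem sz_R : Sz c.p.K c.R (2525 + c.ϱ / 2) := by
  have hp := Real.rpow_pos_of_pos hK.pos (2525 + c.ϱ / 2)
  have e : c.p.K ^ (10100 + 2 * c.ϱ) = (c.p.K ^ (2525 + c.ϱ / 2)) ^ 4 := by
    rw [← Real.rpow_natCast, ← Real.rpow_mul hK.pos.le]
    congr 1
    push_cast; ring
  have h1 := TR4_le hK
  have h2 := le_TR4 hK
  rw [e] at h1 h2
  have h0 := pow_pos hp 4
  have a1 : √(√(c.p.TR4 c.m)) ≤ 2 * c.p.K ^ (2525 + c.ϱ / 2) :=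
    sqrt_sqrt_le (by positivity) (by rw [mul_pow]; linarith)
  have a2 : c.p.K ^ (2525 + c.ϱ / 2) / 2 ≤ √(√(c.p.TR4 c.m)) :=
    le_sqrt_sqrt (by rw [div_pow]; linarith)
  unfold R Par.R
  apply Sz.of_bounds hK <;> linarith
theorem one_le_L : 1 ≤ c.L := by
  unfold L Par.L
  apply Real.le_sqrt_of_sq_le
  have := Real.sqrt_nonneg (c.p.T4 c.m)
  linarith
theorem a_pos : 0 < c.p.a := lt_of_lt_of_le (half_pos (N_pos hK)) c.ok.a1
theorem le_tst : Le c.p.K (c.p.tst c.m) 3406 := by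
  have h0 := hK.pos
  have h1 := m_pos hK
  have h2 := a_pos hK
  unfold Le Par.tst
  rw [rpow_nat_eq _ 3406 _ (by norm_num)]
  refine max_le (by positivity) ?_
  have h3 : c.p.a ≤ c.p.K * (2 * c.p.K ^ 10000) :=
    le_trans c.ok.a2 (mul_le_mul_of_nonneg_left c.ok.N2 h0.le)
  have h4 : 1 / c.p.K ^ 7195 - 1 / c.m ≤ 1 / c.p.K ^ 7195 := by
    have : 0 < 1 / c.m := by positivity
    linarith
  calc c.p.K ^ 600 * c.p.a / 2 * (1 / c.p.K ^ 7195 - 1 / c.m)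
      ≤ c.p.K ^ 600 * c.p.a / 2 * (1 / c.p.K ^ 7195) :=
        mul_le_mul_of_nonneg_left h4 (by positivity)
    _ ≤ c.p.K ^ 600 * (c.p.K * (2 * c.p.K ^ 10000)) / 2 * (1 / c.p.K ^ 7195) := by gcongr
    _ = c.p.K ^ 3406 := by
        rw [show c.p.K ^ 10000 = c.p.K ^ 7195 * c.p.K ^ 2805 by rw [← pow_add],
          show c.p.K ^ 3406 = c.p.K ^ 600 * c.p.K * c.p.K ^ 2805 by
            rw [← pow_succ, ← pow_add]]
        generalize hx : c.p.K ^ 7195 = x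
        have : x ≠ 0 := by rw [← hx]; positivity
        generalize c.p.K ^ 2805 = y
        generalize c.p.K ^ 600 = z
        field_simp
theorem tst_eq (h : ¬ c.p.phI c.m) : c.p.tst c.m = 0 := by
  have h0 := hK.pos
  have h1 := m_pos hK
  have h2 := a_pos hK
  have h3 : c.m ≤ c.p.K ^ 7195 := not_lt.1 h
  unfold Par.tst
  apply max_eq_left
  apply mul_nonpos_of_nonneg_of_nonpos (by positivity)
  have := one_div_le_one_div_of_le h1 h3
  linarith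
theorem eps_pos : 0 < c.p.eps c.m := by
  have h0 := hK.pos
  unfold Par.eps
  split_ifs <;> positivity
theorem le_inv_pow (n : ℕ) : Le c.p.K (1 / c.p.K ^ n) (-(n : ℝ)) := Le.inv hK (Ge.K_pow n)
theorem le_eps : Le c.p.K (c.p.eps c.m) (-800) := by
  unfold Par.eps
  split_ifs
  · exact (le_inv_pow hK 1150).mono hK (by norm_num)
  · exact (le_inv_pow hK 800).mono hK (by norm_num)
theorem le_eps_I (h : c.p.phI c.m) : Le c.p.K (c.p.eps c.m) (-1150) := by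
  unfold Par.eps
  rw [if_pos h]
  exact (le_inv_pow hK 1150).mono hK (by norm_num)
theorem le_Gam2_I : Le c.p.K (c.p.Gam2 c.m) 1201 := by
  unfold Par.Gam2
  split_ifs
  · exact (Le.K_pow 1201).mono hK (by norm_num)
  · exact (Le.K_pow 36).mono hK (by norm_num)
theorem le_Gam2 (h : ¬ c.p.phI c.m) : Le c.p.K (c.p.Gam2 c.m) 36 := by
  unfold Par.Gam2
  rw [if_neg h]
  exact (Le.K_pow 36).mono hK (by norm_num)
theorem ge_η : Ge c.p.K c.η (-c.μ - 1 / 2) := by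
  have h1 : Le c.p.K (√c.p.K * c.m) (1 / 2 + c.μ) :=
    Le.mul hK (Le.sqrt hK Le.self) (le_m hK) (m_pos hK).le
  have h2 := Ge.div hK Ge.one h1 (mul_pos (Real.sqrt_pos.2 hK.pos) (m_pos hK))
  exact h2.mono hK (by linarith)
theorem η_pos : 0 < c.η := (ge_η hK).pos hK
theorem eps_le_half : c.p.eps c.m ≤ 1 / 10 := by
  have h1 : Le c.p.K (10 * c.p.eps c.m) (-800 + 1 / 100) :=
    Le.cmul hK (le_eps hK) (by norm_num) le_rfl
  have h2 := h1.le_of_ge hK Ge.one (by norm_num)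
  linarith
theorem Ω_lo : c.m ^ 2 / 2 ≤ c.Ω := by
  have h1 := (abs_le.1 c.G4).1
  have h2 := mul_le_mul_of_nonneg_right (eps_le_half hK) (sq_nonneg c.m)
  have h3 := sq_nonneg c.m
  linarith
theorem Ω_pos : 0 < c.Ω :=
  lt_of_lt_of_le (half_pos (pow_pos (m_pos hK) 2)) (Ω_lo hK)
/-- `Ω η ≥ K^(μ - 1/2 - 1/100)`: the total error allowed in a drift estimate -/
theorem ge_Ωη : Ge c.p.K (c.Ω * c.η) (c.μ - 1 / 2 - 1 / 100) := by
  have h2 : Le c.p.K 2 (1 / 100) := hK.ten.of_le (by norm_num)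
  have h1 := (Ge.div hK ((ge_m hK).pow hK 2) h2 (by norm_num)).of_le (Ω_lo hK)
  exact (h1.mul hK (ge_η hK)).mono hK (by push_cast; linarith)

theorem T4_le_L : c.p.T4 c.m ≤ c.L ^ 4 := by
  have h0 : 0 ≤ c.p.T4 c.m := ((sz_T4 hK).1.pos hK).le
  have h1 := Real.sqrt_nonneg (c.p.T4 c.m)
  have h2 : c.L ^ 2 = 1 + √(c.p.T4 c.m) := Real.sq_sqrt (by linarith)
  have h3 := Real.sq_sqrt h0
  rw [show c.L ^ 4 = (c.L ^ 2) ^ 2 by ring, h2]
  nlinarith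
theorem opB : OpB c.L c.F := c.oF.mat.opB_of_a4 (le_trans c.oF.a4_T (T4_le_L hK))
theorem opB_G : OpB c.L c.G := c.oG.mat.opB_of_a4 (le_trans c.oG.a4_T (T4_le_L hK))
/-- `m - a2 ≥ (1 - 1/K) W ρ`; in particular `a2 ≤ m` -/
theorem a2_le : a2 c.F ≤ c.m - (1 - 1 / c.p.K) * (c.p.W * c.p.rho c.m) := by
  have h0 := hK.pos
  have h1 := m_pos hK
  have h2 := W_pos hK
  have h : a2 c.F ≤ c.p.a2s c.m + c.p.k2 c.m := c.oF.a2_hi
  refine le_trans h (le_of_eq ?_)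
  unfold Par.a2s Par.k2 Par.rho
  generalize c.p.W = W at h2 ⊢
  field_simp
  ring
theorem a2_le_m : a2 c.F ≤ c.m := by
  have h1 := a2_le hK
  have h2 : 1 / c.p.K ≤ 1 := by rw [div_le_one hK.pos]; exact hK.one_lt.le
  have h3 := mul_nonneg (sub_nonneg.2 h2) (mul_pos (W_pos hK) (rho_pos hK)).le
  linarith
theorem diag_le (a : ι) : |c.F a a| ≤ 1 / c.p.K := by
  have h0 := hK.pos
  by_cases ha : a ∈ c.S
  · have h1 : c.F a a ^ 4 ≤ D4 c.S c.F :=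
      single_le_sum (f := fun a => c.F a a ^ 4) (fun i _ => by positivity) ha
    have h2 := le_trans h1 c.oF.D4_T
    rw [← pow_le_pow_iff_left₀ (abs_nonneg _) (by positivity) (n := 4) (by norm_num), ← abs_pow,
      abs_of_nonneg (by positivity), div_pow, one_pow]
    exact h2
  · rw [c.oF.mat.supp a a ha, abs_zero]; positivity
theorem pd_le (a : ι) : pd c.S c.F a ≤ 2 / c.p.K := by
  have h1 := diag_le hK a
  have h2 : 1 / c.m ≤ 1 / c.p.K := one_div_le_one_div_of_le hK.pos (K_le_m hK)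
  have h3 : 2 / c.p.K = 1 / c.p.K + 1 / c.p.K := by ring
  unfold pd
  unfold m at h2
  linarith
theorem rr_le_of {F : Matrix ι ι ℝ} (h : One c.p c.S F) (a : ι) :
    rr F a ≤ √(√(c.p.TR4 c.m)) := by
  by_cases ha : a ∈ c.S
  · apply le_sqrt_sqrt
    have h1 : rr F a ^ 4 ≤ R4 c.S F :=
      single_le_sum (f := fun a => rr F a ^ 4) (fun i _ => by positivity) ha
    exact le_trans h1 h.R4_T
  · rw [h.mat.rr_eq, sum_eq_zero fun b _ => by rw [h.mat.supp a b ha]; norm_num]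
    exact Real.sqrt_nonneg _
theorem ro_le (a : ι) : 1 + rr c.F a + rr c.G a ≤ c.R := by
  have h1 := rr_le_of hK c.oF a
  have h2 := rr_le_of hK c.oG a
  have h3 : 1 ≤ √(√(c.p.TR4 c.m)) := by
    apply le_sqrt_sqrt
    rw [one_pow]
    have := ϱ_lo hK
    exact Le.le_of_ge hK Le.one (sz_TR4 hK).1 (by linarith)
  unfold R Par.R
  linarith
theorem tst_nonneg : 0 ≤ c.p.tst c.m := le_max_left _ _
theorem kt_pos : 0 < c.p.kt c.m := (sz_kt hK).1.pos hK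
theorem le_t : Le c.p.K |t1 c.F| (3406 + 1 / 50) := by
  have h0 := ϱ_hi hK
  have h1 := Le.add hK (le_tst hK) (sz_kt hK).2 (g := 3406) le_rfl (by linarith)
  have h2 : -c.p.kt c.m ≤ t1 c.F := c.oF.t_lo
  have h3 : t1 c.F ≤ c.p.tst c.m + c.p.kt c.m := c.oF.t_hi
  have h4 := tst_nonneg hK
  exact (h1.of_le (abs_le.2 ⟨by linarith, h3⟩)).mono hK (by norm_num)
theorem le_t' (h : ¬ c.p.phI c.m) : |t1 c.F| ≤ c.p.kt c.m := by
  have h2 : -c.p.kt c.m ≤ t1 c.F := c.oF.t_lo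
  have h3 : t1 c.F ≤ c.p.tst c.m + c.p.kt c.m := c.oF.t_hi
  rw [tst_eq hK h, zero_add] at h3
  exact abs_le.2 ⟨h2, h3⟩
theorem abs_a3_le : |a3 c.F| ≤ 2 * c.p.K * c.p.N := by
  have h0 := N_pos hK
  have h1 := c.oF.a3_hi
  have h2 := c.oF.a3_lo
  have h3 := a2_le_m hK
  have h4 := m_le_N hK
  have h5 := c.ok.a2
  have h6 : c.p.N ≤ c.p.K * c.p.N := le_mul_of_one_le_left h0.le hK.one_lt.le
  have h7 : c.p.k3 ≤ c.p.N := div_le_self h0.le hK.one_lt.le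
  rw [mul_assoc]
  exact abs_le.2 ⟨by linarith, by linarith⟩
theorem X2_eq : X2 c.S c.F = R2 c.S c.F - 2 * a2 c.F + c.m := by
  rw [c.oF.mat.a2_eq]
  unfold X2 R2 m
  rw [mul_sum, ← sum_sub_distrib, card_eq_sum_ones, Nat.cast_sum, ← sum_add_distrib]
  exact sum_congr rfl fun a _ => by push_cast; ring
theorem P_eq : ∑ a ∈ c.S, vr c.F a ^ 2 = R2 c.S c.F + 2 * a2 c.F + c.m := by
  rw [c.oF.mat.a2_eq]
  unfold R2 m vr
  rw [mul_sum, ← sum_add_distrib, card_eq_sum_ones, Nat.cast_sum, ← sum_add_distrib]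
  exact sum_congr rfl fun a _ => by push_cast; ring
theorem R2_le_X (h : c.p.phX c.m) : R2 c.S c.F ≤ 4 * c.m := by
  have h1 : X2 c.S c.F ≤ c.p.TX c.m := c.oF.X2_T h
  have h2 := (phX_iff hK).1 h
  have h3 : c.p.TX c.m ≤ c.m := Le.le_of_ge hK (sz_TX hK).2 (ge_m hK) (by linarith)
  have h4 := X2_eq hK
  have h5 := a2_le_m hK
  have h6 := m_pos hK
  linarith
theorem le_R2 : Le c.p.K (R2 c.S c.F) (c.μ + 13) := by
  by_cases h : c.p.phX c.m
  · exact ((Le.cmul hK (le_m hK) (C := 4) (by norm_num) (by norm_num)).of_le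
      (R2_le_X hK h)).mono hK (by linarith)
  · have h1 : R2 c.S c.F ≤ c.p.TR c.m := c.oF.R2_T h
    have h0 := hK.pos
    have h2 := m_pos hK
    have h3 := W_pos hK
    have h4 : c.p.W * c.p.rho c.m ^ 2 ≤ c.m := by
      unfold Par.rho
      generalize c.p.W = W at h3 ⊢
      rw [div_pow, ← mul_div_assoc, div_le_iff₀ (by positivity)]
      have : 0 ≤ c.m * (c.m ^ 2 + c.m * W + W ^ 2) := by positivity
      nlinarith
    have h5 : c.p.TR c.m ≤ c.m * c.p.K ^ 13 := by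
      unfold Par.TR
      rw [mul_assoc, mul_comm c.m]
      exact mul_le_mul_of_nonneg_left h4 (by positivity)
    have h6 := Le.mul hK (le_m hK) (Le.K_pow (K := c.p.K) 13) (by positivity)
    exact (h6.of_le (le_trans h1 h5)).mono hK (by norm_num)
theorem X2_le_R2 : X2 c.S c.F ≤ c.m + R2 c.S c.F := by
  have h1 := X2_eq hK
  have h2 := c.oF.mat.a2_nonneg
  linarith
theorem le_X2 : Le c.p.K (X2 c.S c.F) (c.μ + 13 + 1 / 100) :=
  (Le.add hK (le_m hK) (le_R2 hK) (by linarith) le_rfl).of_le (X2_le_R2 hK)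
/-- `P = Σ ϱ²` -/
theorem le_P : Le c.p.K (∑ a ∈ c.S, vr c.F a ^ 2) (c.μ + 13 + 1 / 50) := by
  have h1 := Le.cmul hK (le_m hK) (C := 3) (by norm_num) (by norm_num)
  have h2 := Le.add hK (le_R2 hK) h1 (g := c.μ + 13) le_rfl (by linarith)
  have h3 := a2_le_m hK
  refine (h2.of_le ?_).mono hK (by linarith)
  rw [P_eq hK]; linarith
theorem P_le_X (h : c.p.phX c.m) : ∑ a ∈ c.S, vr c.F a ^ 2 ≤ 10 * c.m := by
  have h1 := R2_le_X hK h
  have h3 := a2_le_m hK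
  have h4 := m_pos hK
  rw [P_eq hK]; linarith
theorem sum_vr_le : ∑ a ∈ c.S, vr c.F a ≤ 2 * c.m := by
  have h3 := a2_le_m hK
  rw [c.oF.mat.a2_eq] at h3
  unfold vr
  rw [sum_add_distrib, sum_const, nsmul_eq_mul, mul_one]
  unfold m at h3 ⊢
  linarith
/-- `P2 = Σ p²` (uses `1/m ≤ TD`) -/
theorem P2_le : ∑ a ∈ c.S, pd c.S c.F a ^ 2 ≤ 4 * c.p.TD c.m := by
  have hm := m_pos hK
  have h1 : 1 / c.m ≤ c.p.TD c.m := by
    have := μ_lo hK
    refine Le.le_of_ge hK (Le.inv hK (ge_m hK)) (sz_TD hK).1 ?_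
    rcases c.cases_W with ⟨_, h, _⟩ | ⟨_, h, _⟩ <;> rw [h] <;> linarith
  have h2 : D2 c.S c.F ≤ c.p.TD c.m := c.oF.D2_T
  have h3 : ∑ a ∈ c.S, pd c.S c.F a ^ 2 ≤ ∑ a ∈ c.S, (2 * c.F a a ^ 2 + 2 * (1 / c.m) ^ 2) := by
    refine sum_le_sum fun a _ => ?_
    unfold pd
    change (|c.F a a| + 1 / c.m) ^ 2 ≤ _
    rw [← sq_abs (c.F a a)]
    nlinarith [sq_nonneg (|c.F a a| - 1 / c.m)]
  rw [sum_add_distrib, ← mul_sum, sum_const, nsmul_eq_mul] at h3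
  have h4 : (c.S.card : ℝ) * (2 * (1 / c.m) ^ 2) = 2 * (1 / c.m) := by
    change c.m * _ = _
    field_simp
  rw [h4] at h3
  unfold D2 at h2
  linarith
theorem P4_le : ∑ a ∈ c.S, pd c.S c.F a ^ 4 ≤ 16 / c.p.K ^ 4 := by
  have hm := m_pos hK
  have h0 := hK.pos
  have h1 : 1 / c.m ^ 3 ≤ 1 / c.p.K ^ 4 := by
    apply one_div_le_one_div_of_le (by positivity)
    have := μ_lo hK
    exact Le.le_of_ge hK (Le.K_pow 4) ((ge_m hK).pow hK 3) (by push_cast; linarith)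
  have h2 : D4 c.S c.F ≤ 1 / c.p.K ^ 4 := c.oF.D4_T
  have key : ∀ x y : ℝ, (x + y) ^ 4 ≤ 8 * x ^ 4 + 8 * y ^ 4 := fun x y => by
    have e : 8 * x ^ 4 + 8 * y ^ 4 - (x + y) ^ 4
        = (x - y) ^ 2 * (5 * (x + y) ^ 2 + 2 * x ^ 2 + 2 * y ^ 2) := by ring
    have : 0 ≤ (x - y) ^ 2 * (5 * (x + y) ^ 2 + 2 * x ^ 2 + 2 * y ^ 2) := by positivity
    linarith
  have h3 : ∑ a ∈ c.S, pd c.S c.F a ^ 4 ≤ ∑ a ∈ c.S, (8 * c.F a a ^ 4 + 8 * (1 / c.m) ^ 4) := by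
    refine sum_le_sum fun a _ => ?_
    unfold pd
    change (|c.F a a| + 1 / c.m) ^ 4 ≤ _
    have e : c.F a a ^ 4 = |c.F a a| ^ 4 := by
      rw [← abs_pow, abs_of_nonneg (by positivity)]
    rw [e]
    exact key _ _
  rw [sum_add_distrib, ← mul_sum, sum_const, nsmul_eq_mul] at h3
  have h4 : (c.S.card : ℝ) * (8 * (1 / c.m) ^ 4) = 8 * (1 / c.m ^ 3) := by
    change c.m * _ = _
    field_simp
  rw [h4] at h3
  unfold D4 at h2
  have h5 : 16 / c.p.K ^ 4 = 16 * (1 / c.p.K ^ 4) := by ring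
  linarith
theorem inv_K_le : 1 / c.p.K ≤ 1 / 1000 :=
  one_div_le_one_div_of_le (by norm_num) (le_trans (by norm_num) hK)
theorem loc {u v : ι} (h : c.w u v ≠ 0) : Loc c.σ c.S c.F u v := by
  obtain ⟨h1, h2, h3, h4, -⟩ := c.wt.supp u v h
  exact ⟨c.oF.mat, c.sg, h1, h2, h3, le_trans (by norm_num) (m_big hK),
    le_trans (diag_le hK u) (inv_K_le hK), le_trans (diag_le hK v) (inv_K_le hK),
    le_trans h4 (inv_K_le hK)⟩
theorem loc_G {u v : ι} (h : c.w u v ≠ 0) : Loc (-c.σ) c.S c.G u v :=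
  loc (c := c.swap) hK h
theorem card_rem' {u v : ι} (h : c.w u v ≠ 0) : ((rem c.S u v).card : ℝ) = c.m - 2 := by
  obtain ⟨h1, h2, h3, -⟩ := c.wt.supp u v h
  exact card_rem_real h1 h2 h3
end Ctx

end Crest.Agent.R62
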