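import Crest.Agent.R62.Defs

set_option autoImplicit false

open Finset Matrix

namespace Crest.Agent.R62

variable {ι V : Type} [Fintype ι] [DecidableEq ι] [Fintype V] [DecidableEq V]

/-! Exponent calculus: `Le K x e` means `x ≤ K ^ e` (real power). With `hK : Big K` every
application of `add` / a constant `≤ 10` costs `1/100` in the exponent; close exponent goals with
`linarith` after splitting on the phase. -/

def Big (K : ℝ) : Prop := (10 : ℝ) ^ 100 ≤ K
def Le (K x e : ℝ) : Prop := x ≤ K ^ e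
def Ge (K x e : ℝ) : Prop := K ^ e ≤ x

section
variable {K x y e f : ℝ}
theorem Big.one_lt (h : Big K) : 1 < K := lt_of_lt_of_le (by norm_num) h
theorem Big.pos (h : Big K) : 0 < K := lt_trans one_pos h.one_lt
theorem Big.ten (h : Big K) : Le K 10 (1 / 100) := by
  unfold Le
  calc (10 : ℝ) = ((10 : ℝ) ^ (100 : ℕ)) ^ ((1 : ℝ) / 100) := by
        rw [← Real.rpow_natCast, ← Real.rpow_mul (by norm_num)]; norm_num
    _ ≤ K ^ ((1 : ℝ) / 100) := Real.rpow_le_rpow (by positivity) h (by norm_num)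
theorem exists_const (C δ : ℝ) (hδ : 0 < δ) : ∃ K1 : ℝ, ∀ K, K1 ≤ K → Big K ∧ Le K C δ := by
  obtain ⟨K1, hK1⟩ := Filter.eventually_atTop.1
    ((tendsto_rpow_atTop hδ).eventually_ge_atTop C)
  exact ⟨max K1 (10 ^ 100), fun K hK => ⟨le_trans (le_max_right _ _) hK,
    hK1 K (le_trans (le_max_left _ _) hK)⟩⟩
theorem Le.mono (hK : Big K) (h : Le K x e) (hef : e ≤ f) : Le K x f :=
  le_trans h (Real.rpow_le_rpow_of_exponent_le hK.one_lt.le hef)
theorem Ge.mono (hK : Big K) (h : Ge K x e) (hef : f ≤ e) : Ge K x f :=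
  le_trans (Real.rpow_le_rpow_of_exponent_le hK.one_lt.le hef) h
theorem Le.of_le (h : Le K y e) (hxy : x ≤ y) : Le K x e := le_trans hxy h
theorem Ge.of_le (h : Ge K x e) (hxy : x ≤ y) : Ge K y e := le_trans h hxy
theorem Ge.pos (hK : Big K) (h : Ge K x e) : 0 < x := lt_of_lt_of_le (Real.rpow_pos_of_pos hK.pos e) h
theorem Le.le_of_ge (hK : Big K) (h : Le K x e) (h' : Ge K y f) (hef : e ≤ f) : x ≤ y :=
  le_trans (h.mono hK hef) h'
theorem Le.mul (hK : Big K) (hx : Le K x e) (hy : Le K y f) (h0 : 0 ≤ y) : Le K (x * y) (e + f) := by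
  unfold Le at *
  rw [Real.rpow_add hK.pos]
  exact mul_le_mul hx hy h0 (Real.rpow_pos_of_pos hK.pos e).le
theorem Ge.mul (hK : Big K) (hx : Ge K x e) (hy : Ge K y f) : Ge K (x * y) (e + f) := by
  have := hx.pos hK
  unfold Ge at *
  rw [Real.rpow_add hK.pos]
  exact mul_le_mul hx hy (Real.rpow_pos_of_pos hK.pos f).le this.le
theorem Le.div (hK : Big K) (hx : Le K x e) (hy : Ge K y f) : Le K (x / y) (e - f) := by
  have := hy.pos hK
  unfold Le Ge at *
  rw [Real.rpow_sub hK.pos]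
  exact div_le_div₀ (Real.rpow_pos_of_pos hK.pos e).le hx (Real.rpow_pos_of_pos hK.pos f) hy
theorem Ge.div (hK : Big K) (hx : Ge K x e) (hy : Le K y f) (h0 : 0 < y) : Ge K (x / y) (e - f) := by
  have := hx.pos hK
  unfold Le Ge at *
  rw [Real.rpow_sub hK.pos]
  exact div_le_div₀ this.le hx h0 hy
theorem Le.one : Le K 1 0 := by simp [Le]
theorem Ge.one : Ge K 1 0 := by simp [Ge]
theorem Le.zero (hK : Big K) : Le K 0 e := (Real.rpow_pos_of_pos hK.pos e).le
theorem Le.inv (hK : Big K) (hy : Ge K y f) : Le K (1 / y) (-f) := by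
  simpa using Le.div hK Le.one hy
theorem Le.pow (hK : Big K) (hx : Le K x e) (h0 : 0 ≤ x) (n : ℕ) : Le K (x ^ n) (n * e) := by
  unfold Le at *
  rw [mul_comm, Real.rpow_mul hK.pos.le, Real.rpow_natCast]
  exact pow_le_pow_left₀ h0 hx n
theorem Ge.pow (hK : Big K) (hx : Ge K x e) (n : ℕ) : Ge K (x ^ n) (n * e) := by
  unfold Ge at *
  rw [mul_comm, Real.rpow_mul hK.pos.le, Real.rpow_natCast]
  exact pow_le_pow_left₀ (Real.rpow_pos_of_pos hK.pos e).le hx n
theorem Le.sqrt (hK : Big K) (hx : Le K x e) : Le K (√x) (e / 2) := by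
  unfold Le at *
  rw [Real.rpow_div_two_eq_sqrt _ hK.pos.le, Real.sqrt_eq_rpow, Real.sqrt_eq_rpow,
    ← Real.rpow_mul hK.pos.le, mul_comm, Real.rpow_mul hK.pos.le, ← Real.sqrt_eq_rpow,
    ← Real.sqrt_eq_rpow]
  exact Real.sqrt_le_sqrt hx
theorem Ge.sqrt (hK : Big K) (hx : Ge K x e) : Ge K (√x) (e / 2) := by
  unfold Ge at *
  rw [Real.rpow_div_two_eq_sqrt _ hK.pos.le, Real.sqrt_eq_rpow, Real.sqrt_eq_rpow,
    ← Real.rpow_mul hK.pos.le, mul_comm, Real.rpow_mul hK.pos.le, ← Real.sqrt_eq_rpow,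
    ← Real.sqrt_eq_rpow]
  exact Real.sqrt_le_sqrt hx
theorem Le.K_pow (n : ℕ) : Le K (K ^ n) n := by simp [Le]
theorem Ge.K_pow (n : ℕ) : Ge K (K ^ n) n := by simp [Ge]
theorem Le.self : Le K K 1 := by simp [Le]
theorem Ge.self : Ge K K 1 := by simp [Ge]
/-- a constant factor at most `10` -/
theorem Le.cmul (hK : Big K) (hx : Le K x e) {C : ℝ} (h0 : 0 ≤ C) (hC : C ≤ 10) :
    Le K (C * x) (e + 1 / 100) := by
  have h1 := hK.ten
  unfold Le at *
  rw [Real.rpow_add hK.pos, mul_comm (K ^ e)]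
  exact le_trans (mul_le_mul_of_nonneg_left hx h0)
    (mul_le_mul_of_nonneg_right (hC.trans h1) (Real.rpow_pos_of_pos hK.pos e).le)
/-- sum of two terms, both at most `K ^ g` -/
theorem Le.add (hK : Big K) (hx : Le K x e) (hy : Le K y f) {g : ℝ} (he : e ≤ g) (hf : f ≤ g) :
    Le K (x + y) (g + 1 / 100) := by
  have h1 := Le.cmul hK (show Le K (K ^ g) g from le_rfl) (C := 2) (by norm_num) (by norm_num)
  have h2 := hx.mono hK he
  have h3 := hy.mono hK hf
  unfold Le at *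
  linarith
end

end Crest.Agent.R62
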