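import Crest.Agent.R62.LinkFact
import Crest.Agent.R62.Mono

set_option autoImplicit false
set_option linter.unusedSectionVars false

open Finset Matrix

namespace Crest.Agent.R62

variable {ι V : Type} [Fintype ι] [DecidableEq ι] [Fintype V] [DecidableEq V]

namespace FX

/-- All scales are positive. -/
structure Pos (p : Par ℝ) (m : ℝ) : Prop where
  K : 0 < p.K
  N : 0 < p.N
  W : 0 < p.W
  rho : 0 < p.rho m
  T2 : 0 < p.T2 m
  k2 : 0 < p.k2 m
  kt : 0 < p.kt m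
  k3 : 0 < p.k3
  kc : 0 < p.kc m
  T4 : 0 < p.T4 m
  TX : 0 < p.TX m
  TR : 0 < p.TR m
  TR4 : 0 < p.TR4 m
  TD : 0 < p.TD m
  T22 : 0 < p.T22 m
  TB : 0 < p.TB m

theorem pos {p : Par ℝ} {m : ℝ} (hK : Big p.K) (hp : p.OK) (hm : 0 < m) : Pos p m := by
  have h1 := hK.pos
  have h2 : 0 < p.N := lt_of_lt_of_le (pow_pos h1 _) hp.N1
  have h3 : 0 < p.W := pow_pos h1 _
  have h4 : 0 < p.rho m := div_pos hm (add_pos hm h3)
  have h5 : 0 < m + p.W := add_pos hm h3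
  refine ⟨h1, h2, h3, h4, ?_, ?_, ?_, ?_, ?_, ?_, ?_, ?_, ?_, ?_, ?_, ?_⟩
  · exact mul_pos (mul_pos h1 hm) h4
  · exact mul_pos (div_pos h3 h1) h4
  · exact mul_pos (pow_pos h1 _) h4
  · exact div_pos h2 h1
  · exact div_pos hm h1
  · exact div_pos (mul_pos (mul_pos (pow_pos h1 _) (pow_pos h2 _)) (pow_pos hm _)) (pow_pos h5 _)
  · exact div_pos (mul_pos (pow_pos h1 _) (pow_pos h3 _)) hm
  · exact mul_pos (mul_pos (pow_pos h1 _) h3) (pow_pos h4 _)
  · exact mul_pos (mul_pos (pow_pos h1 _) h2) (pow_pos h4 _)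
  · exact mul_pos (pow_pos h1 _) h4
  · exact add_pos (mul_pos (pow_pos h1 _) h2) (div_pos (pow_pos h2 _) (mul_pos hm (pow_pos h1 _)))
  · exact div_pos (mul_pos (pow_pos h1 _) (pow_pos hm _)) h2

theorem four_nonneg (x : ℝ) : 0 ≤ x ^ 4 := by positivity

/-- All one-matrix terms are nonnegative. -/
structure NN (p : Par ℝ) (S : Finset ι) (F : Matrix ι ι ℝ) : Prop where
  T : 0 ≤ pT p S F
  T' : 0 ≤ pT' p S F
  a : 0 ≤ p2 p S F
  l : 0 ≤ p2l p S F
  a' : 0 ≤ p2' p S F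
  b : 0 ≤ p3 p F
  b' : 0 ≤ p3' p F
  c : 0 ≤ p4 p S F
  X : 0 ≤ pX p S F
  R : 0 ≤ pR p S F
  R4 : 0 ≤ pR4 p S F
  D2 : 0 ≤ pD2 p S F
  D4 : 0 ≤ pD4 p S F

theorem nn {p : Par ℝ} {S : Finset ι} {F : Matrix ι ι ℝ} (h : Pos p S.card) (hF : Mat S F) :
    NN p S F := by
  refine ⟨div_nonneg (pp_nonneg _) (sq_nonneg _), div_nonneg (pp_nonneg _) (sq_nonneg _),
    div_nonneg (pp_nonneg _) (sq_nonneg _), div_nonneg hF.a2_nonneg h.T2.le,
    div_nonneg (pp_nonneg _) (sq_nonneg _), div_nonneg (pp_nonneg _) (sq_nonneg _),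
    div_nonneg (pp_nonneg _) (sq_nonneg _), div_nonneg hF.a4_nonneg h.T4.le,
    div_nonneg (Finset.sum_nonneg fun a _ => sq_nonneg _) h.TX.le,
    div_nonneg (Finset.sum_nonneg fun a _ => sq_nonneg _) h.TR.le,
    div_nonneg (Finset.sum_nonneg fun a _ => four_nonneg _) h.TR4.le,
    div_nonneg (Finset.sum_nonneg fun a _ => sq_nonneg _) h.TD.le,
    mul_nonneg (four_nonneg _) (Finset.sum_nonneg fun a _ => four_nonneg _)⟩

theorem NN.xi1 {p : Par ℝ} {S : Finset ι} {F : Matrix ι ι ℝ} (h : NN p S F) (m0 : ℝ) :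
    0 ≤ Xi1 p S F m0 := by
  obtain ⟨h1, h2, h3, h4, h5, h6, h7, h8, h9, h10, h11, h12, h13⟩ := h
  unfold Xi1
  split_ifs <;> linarith

theorem pB_nonneg {p : Par ℝ} {S : Finset ι} (h : Pos p S.card) (vtx : ι → V) (A : V → V → ℕ) :
    0 ≤ pB p vtx S A :=
  div_nonneg (add_nonneg (mul_nonneg (four_nonneg _) (Nat.cast_nonneg _)) (Nat.cast_nonneg _))
    h.TB.le

theorem NN.terms {p : Par ℝ} {S : Finset ι} {X : Matrix ι ι ℝ} (h : NN p S X)
    (h1 : Xi1 p S X S.card ≤ 1) :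
    pT p S X ≤ 1 ∧ pT' p S X ≤ 1 ∧ p2 p S X ≤ 1
      ∧ p2l p S X ≤ 1 ∧ p3 p X ≤ 1 ∧ p4 p S X ≤ 1 ∧ pR4 p S X ≤ 1
      ∧ pD2 p S X ≤ 1 ∧ pD4 p S X ≤ 1
      ∧ (p.phX S.card → p2' p S X ≤ 1 ∧ pX p S X ≤ 1)
      ∧ (¬ p.phX S.card → pR p S X ≤ 1) ∧ (p.phI S.card → p3' p X ≤ 1) := by
  obtain ⟨h1', h2, h3, h4, h5, h6, h7, h8, h9, h10, h11, h12, h13⟩ := h
  unfold Xi1 at h1
  have e1 : 0 ≤ (if p.phX S.card then p2' p S X + pX p S X else pR p S X) := by
    split_ifs <;> linarith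
  have e2 : 0 ≤ (if p.phI S.card then p3' p X else 0) := by
    split_ifs <;> linarith
  refine ⟨by linarith, by linarith, by linarith, by linarith, by linarith, by linarith,
      by linarith, by linarith, by linarith, fun h => ?_, fun h => ?_, fun h => ?_⟩
  · rw [if_pos h] at h1
    exact ⟨by linarith, by linarith⟩
  · rw [if_neg h] at h1
    linarith
  · rw [if_pos h] at h1
    linarith

theorem one_of {σ x s : ℝ} {d : ℕ} {vtx : ι → V} {A : V → V → ℕ} {p : Par ℝ} {S : Finset ι}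
    {X : Matrix ι ι ℝ} (hK : Big p.K) (hP : Pos p S.card) (hm : (1000 : ℝ) ≤ S.card)
    (hs0 : 0 ≤ s) (hs : s ^ 2 ≤ 1 / 2) (hL : Link σ x s d vtx S A X)
    (h1 : Xi1 p S X S.card ≤ 1) : One p S X := by
  have hM := hL.mat
  obtain ⟨t1', t2, t3, t4, t5, t6, t7, t8, t9, t10, t11, t12⟩ := (nn hP hM).terms h1
  have hD4 : D4 S X ≤ 1 / p.K ^ 4 := by
    rw [le_div_iff₀ (pow_pos hP.K 4), mul_comm]; exact t9
  have hd : ∀ a, |X a a| ≤ 1 / 100 := by
    intro a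
    by_cases ha : a ∈ S
    · have h2 : X a a ^ 4 ≤ D4 S X :=
        Finset.single_le_sum (f := fun a => X a a ^ 4) (fun a _ => four_nonneg _) ha
      have h3 : (100 : ℝ) ≤ p.K := le_trans (by norm_num) hK
      have h4 : 1 / p.K ^ 4 ≤ (1 / 100 : ℝ) ^ 4 := by
        rw [_root_.one_div_pow]
        exact one_div_le_one_div_of_le (by positivity) (pow_le_pow_left₀ (by norm_num) h3 4)
      have h5 : |X a a| ^ 4 ≤ (1 / 100 : ℝ) ^ 4 := by
        rw [show (4 : ℕ) = 2 * 2 from rfl, pow_mul, sq_abs, ← pow_mul]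
        exact h2.trans (hD4.trans h4)
      exact le_of_pow_le_pow_left₀ (by norm_num) (by norm_num) h5
    · rw [hM.supp a a ha]; norm_num
  refine ⟨hM, hL.ent hs0 hs hm hd, ?_, ?_, ?_, ?_, fun h => ?_, ?_, hL.a3_lo hs0 (by linarith),
    fun h => ?_, ?_, fun h => ?_, fun h => ?_, ?_, ?_, hD4⟩
  · linarith [le_of_pp_div_le hP.kt t2]
  · linarith [le_of_pp_div_le hP.kt t1']
  · linarith [le_of_pp_div_le hP.k2 t3]
  · exact (div_le_one hP.T2).1 t4
  · linarith [le_of_pp_div_le hP.W (t10 h).1]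
  · linarith [le_of_pp_div_le hP.k3 t5]
  · linarith [le_of_pp_div_le hP.k3 (t12 h)]
  · exact (div_le_one hP.T4).1 t6
  · exact (div_le_one hP.TX).1 (t10 h).2
  · exact (div_le_one hP.TR).1 (t11 h)
  · exact (div_le_one hP.TR4).1 t7
  · exact (div_le_one hP.TD).1 t8

theorem R2_le (S : Finset ι) (F : Matrix ι ι ℝ) : R2 S F ≤ 2 * S.card + 2 * X2 S F := by
  unfold R2 X2
  calc ∑ a ∈ S, rr F a ^ 2 ≤ ∑ a ∈ S, (2 + 2 * (rr F a - 1) ^ 2) :=
        Finset.sum_le_sum fun a _ => by nlinarith [sq_nonneg (rr F a - 2)]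
    _ = _ := by
        rw [Finset.sum_add_distrib, ← Finset.mul_sum, Finset.sum_const, nsmul_eq_mul, mul_comm]

theorem switch_num {K W m X R : ℝ} (hK : 10 ≤ K) (hW : 1 ≤ W) (hm : m ≤ K ^ 10 * W)
    (hm' : K ^ 10 * W < m + 2) (hX : 0 ≤ X) (hR : R ≤ 2 * m + 2 * X) :
    R / (K ^ 13 * W * (m / (m + W)) ^ 2) ≤ X / (K ^ 3 * W ^ 2 / m) + 10 / K ^ 3 := by
  have hK0 : 0 < K := by linarith
  have hK10 : (10 : ℝ) ^ 10 ≤ K ^ 10 := pow_le_pow_left₀ (by norm_num) hK 10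
  have hWm : W ≤ m := by nlinarith
  have hW0 : 0 < W := by linarith
  have hm0 : 0 < m := by linarith
  have hρ : 1 / 2 ≤ m / (m + W) := by
    rw [div_le_div_iff₀ (by norm_num) (by linarith)]; linarith
  have hρ2 : 1 / 4 ≤ (m / (m + W)) ^ 2 := by nlinarith
  have hT : K ^ 13 * W / 4 ≤ K ^ 13 * W * (m / (m + W)) ^ 2 := by
    have : 0 < K ^ 13 * W := by positivity
    nlinarith
  have hT0 : 0 < K ^ 13 * W / 4 := by positivity
  have h1 : R / (K ^ 13 * W * (m / (m + W)) ^ 2) ≤ (2 * m + 2 * X) / (K ^ 13 * W / 4) :=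
    le_trans (div_le_div_of_nonneg_right hR (by positivity))
      (div_le_div_of_nonneg_left (by positivity) hT0 hT)
  refine h1.trans ?_
  rw [add_div, add_comm]
  refine add_le_add ?_ ?_
  · rw [div_le_div_iff₀ hT0 (by positivity)]
    have h2 : 2 * (K ^ 3 * W ^ 2 / m) ≤ K ^ 13 * W / 4 := by
      have h3 : K ^ 3 * W ^ 2 / m ≤ K ^ 3 * W := by
        rw [div_le_iff₀ hm0]
        have : 0 < K ^ 3 * W := by positivity
        nlinarith
      have h4 : K ^ 13 * W = K ^ 10 * (K ^ 3 * W) := by ring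
      have : 0 < K ^ 3 * W := by positivity
      nlinarith
    nlinarith
  · rw [div_le_div_iff₀ hT0 (by positivity)]
    have h4 : K ^ 13 * W = K ^ 3 * (K ^ 10 * W) := by ring
    have : 0 < K ^ 3 := by positivity
    nlinarith

theorem xi1_switch {p : Par ℝ} {S : Finset ι} {F : Matrix ι ι ℝ} (hK : Big p.K)
    (hP : Pos p S.card) (hF : Mat S F) :
    Xi1 p S F S.card ≤ Xi1 p S F (S.card + 2)
      + (if p.phX (S.card + 2) ∧ ¬ p.phX S.card then 10 / p.K ^ 3 else 0) := by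
  have h := nn hP hF
  have hXX : p.phX S.card → p.phX ((S.card : ℝ) + 2) := fun h => by
    unfold Par.phX at h ⊢; linarith
  have hII : p.phI S.card → p.phI ((S.card : ℝ) + 2) := fun h => by
    unfold Par.phI at h ⊢; linarith
  have e1 : (if p.phI S.card then p3' p F else 0) ≤ (if p.phI ((S.card : ℝ) + 2) then p3' p F else 0) := by
    by_cases hI : p.phI S.card
    · rw [if_pos hI, if_pos (hII hI)]
    · rw [if_neg hI]; split_ifs
      · exact h.b'
      · exact le_rfl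
  have e2 : (if p.phX S.card then p2' p S F + pX p S F else pR p S F)
      ≤ (if p.phX ((S.card : ℝ) + 2) then p2' p S F + pX p S F else pR p S F)
        + (if p.phX (S.card + 2) ∧ ¬ p.phX S.card then 10 / p.K ^ 3 else 0) := by
    by_cases hX : p.phX S.card
    · rw [if_pos hX, if_pos (hXX hX), if_neg (fun h => h.2 hX), add_zero]
    · by_cases hX' : p.phX ((S.card : ℝ) + 2)
      · rw [if_neg hX, if_pos hX', if_pos ⟨hX', hX⟩]
        have e : p.K ^ 6710 = p.K ^ 10 * p.W := by unfold Par.W; rw [← pow_add]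
        unfold Par.phX at hX hX'
        rw [e] at hX hX'
        have hW : 1 ≤ p.W := one_le_pow₀ hK.one_lt.le
        have := switch_num (le_trans (by norm_num) hK) hW (not_lt.1 hX) hX'
          (Finset.sum_nonneg fun a _ => sq_nonneg _) (R2_le S F)
        have h2 := h.a'
        change pR p S F ≤ pX p S F + 10 / p.K ^ 3 at this
        linarith
      · rw [if_neg hX, if_neg hX', if_neg (fun h => hX' h.1), add_zero]
  unfold Xi1
  linarith

end FX

/-- What `Ξ ≤ 1` gives. Every term of `Ξ` is nonnegative, hence at most `1`. -/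
theorem facts {p : Par ℝ} {vtx : ι → V} {st : St ι V ℝ} {x s : ℝ} {d : ℕ} (hK : Big p.K)
    (hp : p.OK) (hm : (1000 : ℝ) ≤ st.S.card) (hs0 : 0 ≤ s) (hs : s ^ 2 ≤ 1 / 2)
    (hF : Link 1 x s d vtx st.S st.A st.F) (hG : Link (-1) x s d vtx st.S st.A st.G)
    (hΞ : Xi p vtx st ≤ 1) :
    One p st.S st.F ∧ One p st.S st.G ∧ Two p st.S st.F st.G ∧ pB p vtx st.S st.A ≤ 1
      ∧ (∀ X, X = st.F ∨ X = st.G → pT p st.S X ≤ 1 ∧ pT' p st.S X ≤ 1 ∧ p2 p st.S X ≤ 1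
          ∧ p2l p st.S X ≤ 1 ∧ p3 p X ≤ 1 ∧ p4 p st.S X ≤ 1 ∧ pR4 p st.S X ≤ 1
          ∧ pD2 p st.S X ≤ 1 ∧ pD4 p st.S X ≤ 1
          ∧ (p.phX st.S.card → p2' p st.S X ≤ 1 ∧ pX p st.S X ≤ 1)
          ∧ (¬ p.phX st.S.card → pR p st.S X ≤ 1) ∧ (p.phI st.S.card → p3' p X ≤ 1))
      ∧ (p.phI st.S.card → p11 p st.S st.F st.G ≤ 1 ∧ p22 p st.S st.F st.G ≤ 1) := by
  have hP : FX.Pos p st.S.card := FX.pos hK hp (by linarith)
  have nF := FX.nn hP hF.mat
  have nG := FX.nn hP hG.mat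
  have h1 := nF.xi1 st.S.card
  have h2 := nG.xi1 st.S.card
  have h3 := FX.pB_nonneg hP vtx st.A
  have h4 : 0 ≤ p11 p st.S st.F st.G := div_nonneg (pp_nonneg _) (sq_nonneg _)
  have h5 : 0 ≤ p22 p st.S st.F st.G := div_nonneg (hF.mat.c22_nonneg hG.mat) hP.T22.le
  have h6 : 0 ≤ (if p.phI st.S.card then p11 p st.S st.F st.G + p22 p st.S st.F st.G else 0) := by
    split_ifs <;> linarith
  unfold Xi XiAt at hΞ
  have g1 : Xi1 p st.S st.F st.S.card ≤ 1 := by linarith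
  have g2 : Xi1 p st.S st.G st.S.card ≤ 1 := by linarith
  have g3 : p.phI st.S.card → p11 p st.S st.F st.G ≤ 1 ∧ p22 p st.S st.F st.G ≤ 1 := fun h => by
    rw [if_pos h] at hΞ
    exact ⟨by linarith, by linarith⟩
  refine ⟨FX.one_of hK hP hm hs0 hs hF g1, FX.one_of hK hP hm hs0 hs hG g2,
    ⟨fun h => ?_, fun h => ?_⟩, by linarith, ?_, g3⟩
  · linarith [le_of_pp_div_le hP.kc (g3 h).1]
  · exact (div_le_one hP.T22).1 (g3 h).2
  · rintro X (rfl | rfl)
    · exact nF.terms g1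
    · exact nG.terms g2

/-- Changing the phase from that of `m + 2` to that of `m` costs at most `16 / K³`, and only at the
switch from phase II to phase III (`R2 ≤ 2 m + 2 X2`). -/
theorem xi_switch {p : Par ℝ} {vtx : ι → V} {st : St ι V ℝ} (hK : Big p.K) (hp : p.OK)
    (hm : (1000 : ℝ) ≤ st.S.card) (hF : Mat st.S st.F) (hG : Mat st.S st.G) :
    Xi p vtx st ≤ XiAt p vtx (st.S.card + 2) st
      + (if p.phX (st.S.card + 2) ∧ ¬ p.phX st.S.card then 20 / p.K ^ 3 else 0) := by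
  have hP : FX.Pos p st.S.card := FX.pos hK hp (by linarith)
  have h1 := FX.xi1_switch hK hP hF
  have h2 := FX.xi1_switch hK hP hG
  have h4 : 0 ≤ p11 p st.S st.F st.G := div_nonneg (pp_nonneg _) (sq_nonneg _)
  have h5 : 0 ≤ p22 p st.S st.F st.G := div_nonneg (hF.c22_nonneg hG) hP.T22.le
  have e1 : (if p.phI st.S.card then p11 p st.S st.F st.G + p22 p st.S st.F st.G else 0)
      ≤ (if p.phI ((st.S.card : ℝ) + 2) then p11 p st.S st.F st.G + p22 p st.S st.F st.G else 0) := by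
    by_cases hI : p.phI st.S.card
    · have hI' : p.phI ((st.S.card : ℝ) + 2) := by unfold Par.phI at hI ⊢; linarith
      rw [if_pos hI, if_pos hI']
    · rw [if_neg hI]; split_ifs
      · linarith
      · exact le_rfl
  have e2 : (if p.phX (st.S.card + 2) ∧ ¬ p.phX st.S.card then 20 / p.K ^ 3 else 0)
      = 2 * (if p.phX (st.S.card + 2) ∧ ¬ p.phX st.S.card then 10 / p.K ^ 3 else 0) := by
    split_ifs <;> ring
  unfold Xi XiAt
  linarith

/-- At the start of the endgame the matrices are contractions and no bad pair is left. -/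
theorem facts_end {p : Par ℝ} {vtx : ι → V} {S : Finset ι} {A : V → V → ℕ} {F : Matrix ι ι ℝ}
    (hK : Big p.K) (hp : p.OK) (hm : (1000 : ℝ) ≤ S.card) (hl : ¬ p.live S.card)
    (hF : One p S F) (hB : pB p vtx S A ≤ 1) :
    a2 F < 1 ∧ same vtx S = 0 ∧ adjc vtx S A = 0 := by
  have hP : FX.Pos p S.card := FX.pos hK hp (by linarith)
  have hK1 := hK.one_lt
  have hK0 := hK.pos
  have hm0 : (0 : ℝ) < S.card := by linarith
  have hm1 : (S.card : ℝ) ≤ p.K ^ 3340 := not_lt.1 hl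
  have hm2 : (S.card : ℝ) ^ 2 ≤ p.K ^ 6680 := by
    rw [show 6680 = 3340 * 2 from rfl, pow_mul]; exact pow_le_pow_left₀ hm0.le hm1 2
  refine ⟨lt_of_le_of_lt hF.a2_T ?_, ?_⟩
  · unfold Par.T2 Par.rho
    rw [mul_div_assoc', div_lt_one (add_pos hm0 hP.W)]
    have h1 : p.K * p.K ^ 6680 < p.W := by
      unfold Par.W; rw [← pow_succ']; exact pow_lt_pow_right₀ hK1 (by norm_num)
    have h2 : p.K * (S.card : ℝ) ^ 2 ≤ p.K * p.K ^ 6680 := mul_le_mul_of_nonneg_left hm2 hK0.le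
    have h3 : p.K * (S.card : ℝ) * S.card = p.K * (S.card : ℝ) ^ 2 := by ring
    linarith
  · have h1 : p.TB S.card < 1 := by
      unfold Par.TB
      rw [div_lt_one hP.N]
      have h2 : p.K ^ 6 * p.K ^ 6680 < p.K ^ 10000 := by
        rw [← pow_add]; exact pow_lt_pow_right₀ hK1 (by norm_num)
      have h3 : p.K ^ 6 * (S.card : ℝ) ^ 2 ≤ p.K ^ 6 * p.K ^ 6680 :=
        mul_le_mul_of_nonneg_left hm2 (pow_pos hK0 6).le
      linarith [hp.N1]
    have h2 : p.K ^ 4 * (same vtx S : ℝ) + adjc vtx S A < 1 :=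
      lt_of_le_of_lt ((div_le_one hP.TB).1 hB) h1
    have h3 : 1 ≤ p.K ^ 4 := one_le_pow₀ hK1.le
    have h4 : (0 : ℝ) ≤ same vtx S := Nat.cast_nonneg _
    have h5 : (0 : ℝ) ≤ adjc vtx S A := Nat.cast_nonneg _
    have h6 : (same vtx S : ℝ) ≤ p.K ^ 4 * (same vtx S : ℝ) := le_mul_of_one_le_left h4 h3
    have h7 : (same vtx S : ℝ) < 1 := by linarith
    have h8 : (adjc vtx S A : ℝ) < 1 := by linarith
    exact ⟨Nat.lt_one_iff.1 (by exact_mod_cast h7), Nat.lt_one_iff.1 (by exact_mod_cast h8)⟩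

end Crest.Agent.R62
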