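import Crest.Agent.R62.Tr2Aux

set_option autoImplicit false
set_option linter.unusedSectionVars false

open Finset Matrix

namespace Crest.Agent.R62

variable {ι V : Type} [Fintype ι] [DecidableEq ι] [Fintype V] [DecidableEq V]

namespace Tr2X
open Ctx
variable {c : Ctx ι} (hK : Big c.p.K)
include hK

theorem m_pos : 0 < c.m := lt_of_lt_of_le (by norm_num) (m_big hK)
theorem le_a2 : Le c.p.K (a2 c.F) c.μ := (le_m hK).of_le (a2_le_m hK)
theorem le_a4 : Le c.p.K (a4 c.F) (c.τ + 1 / 100) := (sz_T4 hK).2.of_le c.oF.a4_T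
theorem le_A : Le c.p.K (∑ a ∈ c.S, rb c.F c.F a) (c.μ + 1 / 100) := by
  refine ((le_a2 hK).cmul hK (C := 2) (by norm_num) (by norm_num)).of_le (le_of_eq ?_)
  simp only [rb, sum_add_distrib, ← c.oF.mat.a2_eq]; ring
theorem le_ro : Le c.p.K (∑ a ∈ c.S, ro c.F c.F a ^ 2) (c.μ + 13 + 1 / 50 + 1 / 100) := by
  refine ((le_P hK).cmul hK (C := 4) (by norm_num) (by norm_num)).of_le ?_
  rw [mul_sum]
  refine sum_le_sum fun a _ => ?_
  have := c.oF.mat.rr_nonneg a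
  simp only [ro, rb, vr]; nlinarith
omit hK in
theorem pb_le (a : ι) : pb c.S c.F c.F a ≤ 2 * pd c.S c.F a := by
  have : 0 ≤ 1 / (c.S.card : ℝ) := by positivity
  simp only [pb, pd]; linarith
theorem le_pb : Le c.p.K (∑ a ∈ c.S, pb c.S c.F c.F a ^ 2)
    (450 + c.ϱ + 1 / 100 + 1 / 100 + 1 / 100) := by
  refine (((((sz_TD hK).2.cmul hK (C := 4) (by norm_num) (by norm_num)).of_le (P2_le hK))).cmul hK
    (C := 4) (by norm_num) (by norm_num)).of_le ?_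
  rw [mul_sum]
  refine sum_le_sum fun a _ => (pow_le_pow_left₀ (pb_nonneg _ _ _ a) (pb_le a) 2).trans_eq ?_
  ring
theorem le_cube : Le c.p.K (∑ u ∈ c.S, ∑ v ∈ c.S, (c.F * c.F * c.F) u v ^ 2)
    (3 / 2 * c.τ + 3 / 100) := by
  have h0 : 0 ≤ c.L := zero_le_one.trans (one_le_L hK)
  refine ((((sz_L hK).2.pow hK h0 2).mul hK (le_a4 hK) c.oF.mat.a4_nonneg).of_le
    (cube_sq c.oF.mat (opB hK))).mono hK (le_of_eq ?_)
  push_cast; ring
theorem le_w3 : Le c.p.K (∑ u ∈ c.S, ∑ v ∈ c.S, w3 c.F c.F u v ^ 2)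
    (3 / 2 * c.τ + 3 / 100 + 1 / 100) := by
  refine ((le_cube hK).cmul hK (C := 4) (by norm_num) (by norm_num)).of_le (le_of_eq ?_)
  simp only [mul_sum, w3]
  refine sum_congr rfl fun u _ => sum_congr rfl fun v _ => ?_
  rw [← sq_abs ((c.F * c.F * c.F) u v)]; ring
theorem le_o2 : Le c.p.K (∑ u ∈ c.S, ∑ v ∈ c.S, o2 c.F c.F u v ^ 2)
    (c.τ + 1 / 100 + 1 / 100 + 1 / 100) := by
  refine (((le_a4 hK).cmul hK (C := 4) (by norm_num) (by norm_num)).cmul hK (C := 4) (by norm_num)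
    (by norm_num)).of_le ?_
  rw [c.oF.mat.a4_eq_sum]
  refine ((sum_le_sum fun u _ => sum_le_sum_of_subset_of_nonneg (subset_univ c.S)
      fun _ _ _ => sq_nonneg _).trans
      (sum_le_sum_of_subset_of_nonneg (subset_univ c.S) fun _ _ _ => by positivity)).trans_eq ?_
  simp only [mul_sum, o2]
  refine sum_congr rfl fun u _ => sum_congr rfl fun v _ => ?_
  rw [← sq_abs ((c.F * c.F) u v)]; ring

theorem le_err : Le c.p.K (∑ u ∈ c.S, ∑ v ∈ c.S, err2 c.L c.S c.F c.F u v)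
    (c.μ + 6699 + c.ϱ - 2) := by
  have hc := c.cases_W
  have h1 := μ_lo hK
  have h2 := μ_hi hK
  have hA0 : 0 ≤ ∑ a ∈ c.S, rb c.F c.F a := sum_nonneg fun a _ => rb_nonneg c.oF.mat c.oF.mat a
  refine Le.of_le ?_ (err2_sum c.oF.mat c.oF.mat (one_le_L hK) (m_pos hK))
  have t1 := ((sz_L hK).2.mul hK (le_A hK) hA0).cmul hK (C := 6) (by norm_num) (by norm_num)
  have t2 := ((sz_L hK).2.mul hK ((le_ro hK).mul hK (le_pb hK) (by positivity))
    (by positivity)).cmul hK (C := 8) (by norm_num) (by norm_num)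
  have t3 := (((((le_A hK).cmul hK (C := 2) (by norm_num) (by norm_num)).add hK Le.one
    (g := c.μ + 2 / 100) (by linarith) (by linarith)).add hK ((le_pb hK).pow hK (by positivity) 2)
    (g := c.μ + 3 / 100) (by linarith)
    (by push_cast; rcases hc with ⟨a, b, d⟩ | ⟨a, b, d⟩ <;> linarith)).cmul hK (C := 3)
    (by norm_num) (by norm_num)).sqrt hK
  have t4 := ((le_w3 hK).sqrt hK).add hK ((le_ro hK).cmul hK (C := 2) (by norm_num) (by norm_num))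
    (g := c.μ / 2 + 6699 + c.ϱ - 4) (by rcases hc with ⟨a, b, d⟩ | ⟨a, b, d⟩ <;> linarith)
    (by rcases hc with ⟨a, b, d⟩ | ⟨a, b, d⟩ <;> linarith)
  have t5 := t3.mul hK t4 (by positivity)
  refine ((((t1.add hK t2 (g := c.μ + 6699 + c.ϱ - 3) ?_ ?_).add hK t5
    (g := c.μ + 6699 + c.ϱ - 3 + 1 / 100) le_rfl ?_).add hK (le_o2 hK)
    (g := c.μ + 6699 + c.ϱ - 3 + 1 / 100 + 1 / 100) le_rfl ?_)).mono hK ?_
  all_goals rcases hc with ⟨a, b, d⟩ | ⟨a, b, d⟩ <;> linarith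

theorem le_crude : Le c.p.K (∑ u ∈ c.S, ∑ v ∈ c.S, crude2 c.L c.S c.F c.F u v ^ 2)
    (c.μ + 2 * (6699 + c.ϱ) - 2) := by
  have hc := c.cases_W
  have h1 := μ_lo hK
  have h2 := μ_hi hK
  have h0 : 0 ≤ c.L := zero_le_one.trans (one_le_L hK)
  refine Le.of_le ?_ (crude2_sum c.oF.mat c.oF.mat h0)
  have r4 : Le c.p.K (∑ a ∈ c.S, rb c.F c.F a ^ 4) (10100 + 2 * c.ϱ + 1 / 100 + 1 / 100 + 1 / 100) := by
    refine ((((sz_TR4 hK).2.of_le c.oF.R4_T).cmul hK (C := 4) (by norm_num) (by norm_num)).cmul hK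
      (C := 4) (by norm_num) (by norm_num)).of_le (le_of_eq ?_)
    simp only [R4, mul_sum, rb]
    exact sum_congr rfl fun a _ => by ring
  have p4 : Le c.p.K (∑ a ∈ c.S, pb c.S c.F c.F a ^ 4) 1 := by
    have e1 : ∑ a ∈ c.S, pb c.S c.F c.F a ^ 4 ≤ 16 * ∑ a ∈ c.S, pd c.S c.F a ^ 4 := by
      rw [mul_sum]
      refine sum_le_sum fun a _ => (pow_le_pow_left₀ (pb_nonneg _ _ _ a) (pb_le a) 4).trans_eq ?_
      ring
    have e2 := P4_le hK
    have e3 : 16 / c.p.K ^ 4 ≤ 16 := div_le_self (by norm_num) (one_le_pow₀ hK.one_lt.le)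
    have e4 : (10 : ℝ) ^ 100 ≤ c.p.K := hK
    refine Le.self.of_le ?_
    linarith [show (256 : ℝ) ≤ 10 ^ 100 by norm_num]
  have t2 := (le_ro hK).pow hK (by positivity) 2
  have t3 := (((sz_L hK).2.pow hK h0 2).mul hK ((le_ro hK).mul hK (le_pb hK) (by positivity))
    (by positivity)).cmul hK (C := 2) (by norm_num) (by norm_num)
  have t4 := (r4.mul hK p4 (by positivity)).cmul hK (C := 2) (by norm_num) (by norm_num)
  refine ((((((le_w3 hK).add hK t2 (g := c.μ + 2 * (6699 + c.ϱ) - 3) ?_ ?_).add hK t3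
    (g := c.μ + 2 * (6699 + c.ϱ) - 3 + 1 / 100) le_rfl ?_).add hK t4
    (g := c.μ + 2 * (6699 + c.ϱ) - 3 + 1 / 100 + 1 / 100) le_rfl ?_)).cmul hK (C := 6) (by norm_num)
    (by norm_num)).mono hK ?_
  all_goals push_cast; rcases hc with ⟨a, b, d⟩ | ⟨a, b, d⟩ <;> linarith

theorem le_xx : Le c.p.K |∑ u, ∑ v, c.w u v * ((rr c.F u - 1) * (rr c.F v - 1))
    - (a2 c.F - c.m) ^ 2| (c.μ + 6699 + c.ϱ - 2) := by
  have hc := c.cases_W
  have h1 := μ_lo hK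
  have h := c.G5 (fun a => rr c.F a - 1) (fun a => rr c.F a - 1)
  have e1 : ∑ a ∈ c.S, (rr c.F a - 1) = a2 c.F - c.m := by
    rw [sum_sub_distrib, ← c.oF.mat.a2_eq]; simp [Ctx.m]
  have hX : 0 ≤ X2 c.S c.F := by unfold X2; positivity
  rw [e1, ← sq, Real.mul_self_sqrt (by positivity)] at h
  refine Le.of_le ?_ h
  have t := (le_eps hK).mul hK (le_m hK) (m_pos hK).le
  by_cases hx : c.p.phX c.m
  · have := (phX_iff hK).1 hx
    refine (t.mul hK ((sz_TX hK).2.of_le (c.oF.X2_T hx)) hX).mono hK ?_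
    rcases hc with ⟨a, b, d⟩ | ⟨a, b, d⟩ <;> linarith
  · have := (phX_iff hK).not.1 hx
    refine (t.mul hK (le_X2 hK) hX).mono hK ?_
    rcases hc with ⟨a, b, d⟩ | ⟨a, b, d⟩ <;> linarith

theorem le_a3' : Le c.p.K (√(a2 c.F) * √(a4 c.F)) (c.μ / 2 + (c.τ + 1 / 100) / 2) :=
  ((le_a2 hK).sqrt hK).mul hK ((le_a4 hK).sqrt hK) (Real.sqrt_nonneg _)

theorem le_f3 : Le c.p.K |∑ u, ∑ v, c.w u v * (c.F * c.F * c.F) u v| (c.μ + 6699 + c.ϱ - 2) := by
  have hc := c.cases_W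
  have h1 := μ_lo hK
  have h := c.G7 (fun u v => (c.F * c.F * c.F) u v) (c.oF.mat.sum_sum_mul c.oF.mat c.F)
  rw [sum_cube_diag c.oF.mat] at h
  have h2 : |∑ u, ∑ v, c.w u v * (c.F * c.F * c.F) u v| ≤ √(c.p.Gam2 c.m * c.m) *
      √(∑ u ∈ c.S, ∑ v ∈ c.S, (c.F * c.F * c.F) u v ^ 2) + √(a2 c.F) * √(a4 c.F) := by
    have := abs_a3 c.oF.mat
    rw [abs_le] at h this ⊢
    constructor <;> linarith [h.1, h.2, this.1, this.2]
  refine Le.of_le ?_ h2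
  by_cases hx : c.p.phI c.m
  · have := (phI_iff hK).1 hx
    refine ((((((le_Gam2_I hK).mul hK (le_m hK) (m_pos hK).le).sqrt hK).mul hK
      ((le_cube hK).sqrt hK) (Real.sqrt_nonneg _)).add hK (le_a3' hK)
      (g := c.μ + 6699 + c.ϱ - 3) ?_ ?_)).mono hK ?_
    all_goals rcases hc with ⟨a, b, d⟩ | ⟨a, b, d⟩ <;> linarith
  · refine ((((((le_Gam2 hK hx).mul hK (le_m hK) (m_pos hK).le).sqrt hK).mul hK
      ((le_cube hK).sqrt hK) (Real.sqrt_nonneg _)).add hK (le_a3' hK)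
      (g := c.μ + 6699 + c.ϱ - 3) ?_ ?_)).mono hK ?_
    all_goals rcases hc with ⟨a, b, d⟩ | ⟨a, b, d⟩ <;> linarith

theorem le_gd : Le c.p.K |∑ u, ∑ v, c.w u v * ((c.F * c.F * c.F) u u * c.F v v)|
    (c.μ + 6699 + c.ϱ - 2) := by
  have hc := c.cases_W
  have h1 := μ_lo hK
  have h := c.G6 (fun u => (c.F * c.F * c.F) u u) (fun v => c.F v v)
  rw [sum_cube_diag c.oF.mat, ← c.oF.mat.t1_eq] at h
  have he := c.eps_nonneg'
  have h3 := mul_le_mul_of_nonneg_left (cube_diag c.oF.mat)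
    (show 0 ≤ c.p.eps c.m * √c.m * √(∑ v ∈ c.S, c.F v v ^ 2) by positivity)
  have h4 : |a3 c.F * t1 c.F| ≤ √(a2 c.F) * √(a4 c.F) * |t1 c.F| := by
    rw [abs_mul]; exact mul_le_mul_of_nonneg_right (abs_a3 c.oF.mat) (abs_nonneg _)
  have h2 : |∑ u, ∑ v, c.w u v * ((c.F * c.F * c.F) u u * c.F v v)| ≤
      c.p.eps c.m * √c.m * √(D2 c.S c.F) * (√(a2 c.F) * √(a4 c.F))
        + √(a2 c.F) * √(a4 c.F) * |t1 c.F| := by
    unfold D2
    rw [abs_le] at h h4 ⊢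
    constructor <;> linarith [h.1, h.2, h4.1, h4.2]
  refine Le.of_le ?_ h2
  have t1 := (((le_eps hK).mul hK ((le_m hK).sqrt hK) (Real.sqrt_nonneg _)).mul hK
    (((sz_TD hK).2.of_le c.oF.D2_T).sqrt hK) (Real.sqrt_nonneg _)).mul hK (le_a3' hK)
    (by positivity)
  by_cases hx : c.p.phI c.m
  · have := (phI_iff hK).1 hx
    refine (t1.add hK ((le_a3' hK).mul hK (le_t hK) (abs_nonneg _))
      (g := c.μ + 6699 + c.ϱ - 3) ?_ ?_).mono hK ?_
    all_goals rcases hc with ⟨a, b, d⟩ | ⟨a, b, d⟩ <;> linarith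
  · refine (t1.add hK ((le_a3' hK).mul hK ((sz_kt hK).2.of_le (le_t' hK hx)) (abs_nonneg _))
      (g := c.μ + 6699 + c.ϱ - 3) ?_ ?_).mono hK ?_
    all_goals rcases hc with ⟨a, b, d⟩ | ⟨a, b, d⟩ <;> linarith

theorem drift2 {C : ℝ} (h0 : 0 ≤ C) (hC : Le c.p.K C (1 / 100))
    (hpt : ∀ u v, c.w u v ≠ 0 → |a2 (c.F' u v) - a2 c.F - main2 c.σ c.σ c.F c.F u v|
      ≤ C * err2 c.L c.S c.F c.F u v) :
    Le c.p.K |∑ u, ∑ v, c.w u v * (a2 (c.F' u v) - a2 c.F) - (2 * (a2 c.F - c.m) ^ 2 - 2 * c.Ω)|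
      (c.μ + 6699 + c.ϱ - 1) := by
  have hs2 : c.σ ^ 2 = 1 := by rcases c.sg with h | h <;> simp [h]
  have hs : |c.σ| = 1 := by rcases c.sg with h | h <;> simp [h]
  have hL0 : 0 ≤ c.L := zero_le_one.trans (one_le_L hK)
  set e : ι → ι → ℝ := fun u v => a2 (c.F' u v) - a2 c.F - main2 c.σ c.σ c.F c.F u v with he
  have e0 : ∀ u v, c.w u v * (a2 (c.F' u v) - a2 c.F) =
      2 * (c.w u v * ((rr c.F u - 1) * (rr c.F v - 1))) - 2 * c.w u v
      + 4 * c.σ * (c.w u v * (c.F * c.F * c.F) u v)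
      + 2 * (c.w u v * ((c.F * c.F * c.F) u u * c.F v v))
      + 2 * (c.w u v * ((c.F * c.F * c.F) v v * c.F u u)) + c.w u v * e u v := by
    intro u v
    simp only [he, main2, rr]
    linear_combination (2 * c.w u v * (c.F * c.F) u u * (c.F * c.F) v v) * hs2
  have e1 := c.sum_comm' (fun u v => (c.F * c.F * c.F) u u * c.F v v)
  have hn : ∀ u ∈ c.S, ∀ v ∈ c.S, 0 ≤ C * err2 c.L c.S c.F c.F u v := fun u _ v _ =>
    mul_nonneg h0 (err2_nonneg c.oF.mat c.oF.mat hL0 u v)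
  have e2 := c.sum_le_crude (X := e) (fun u v h => (le_abs_self _).trans (hpt u v h)) hn
  have e3 := c.sum_le_crude (X := fun u v => - e u v)
    (fun u v h => (neg_le_abs _).trans (hpt u v h)) hn
  simp only [mul_neg, sum_neg_distrib, ← mul_sum] at e2 e3
  have hE : 0 ≤ ∑ u ∈ c.S, ∑ v ∈ c.S, err2 c.L c.S c.F c.F u v :=
    sum_nonneg fun u _ => sum_nonneg fun v _ => err2_nonneg c.oF.mat c.oF.mat hL0 u v
  have t1 := (le_xx hK).cmul hK (C := 2) (by norm_num) (by norm_num)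
  have t2 := (le_f3 hK).cmul hK (C := 4) (by norm_num) (by norm_num)
  have t3 := (le_gd hK).cmul hK (C := 4) (by norm_num) (by norm_num)
  have t4 := (hC.mul hK (le_err hK) hE).cmul hK (C := 11 / 10) (by norm_num) (by norm_num)
  have t5 := ((t1.add hK t2 le_rfl le_rfl).add hK t3 le_rfl (by linarith)).add hK t4 le_rfl
    (by linarith)
  refine (t5.mono hK (by linarith)).of_le ?_
  simp only [e0, sum_add_distrib, sum_sub_distrib, ← mul_sum]
  rw [← e1]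
  have a1 : |c.σ * ∑ u, ∑ v, c.w u v * (c.F * c.F * c.F) u v| ≤
      |∑ u, ∑ v, c.w u v * (c.F * c.F * c.F) u v| := by rw [abs_mul, hs, one_mul]
  have a2' := abs_le.1 a1
  have a3' := abs_le.1 (le_refl |∑ u, ∑ v, c.w u v * ((rr c.F u - 1) * (rr c.F v - 1))
    - (a2 c.F - c.m) ^ 2|)
  have a4' := abs_le.1 (le_refl |∑ u, ∑ v, c.w u v * ((c.F * c.F * c.F) u u * c.F v v)|)
  rw [abs_le]
  unfold Ctx.Ω
  constructor <;> linarith [a2'.1, a2'.2, a3'.1, a3'.2, a4'.1, a4'.2]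

theorem eps_le : c.p.eps c.m ≤ 1 / 10 := by
  have h := ((le_eps hK).cmul hK (C := 10) (by norm_num) le_rfl).le_of_ge hK Ge.one (by norm_num)
  linarith

theorem Ω_bd : (1 - c.p.eps c.m) * c.m ^ 2 ≤ c.Ω ∧ c.Ω ≤ 11 / 10 * c.m ^ 2 := by
  have h := abs_le.1 c.G4
  have h2 := mul_le_mul_of_nonneg_right (eps_le hK) (sq_nonneg c.m)
  constructor <;> linarith [h.1, h.2]

theorem var2 {C : ℝ} (h0 : 0 ≤ C) (hC : Le c.p.K C (1 / 100))
    (hpt : ∀ u v, c.w u v ≠ 0 → |a2 (c.F' u v) - a2 c.F| ≤ C * crude2 c.L c.S c.F c.F u v)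
    {Δ : ι → ι → ℝ} (hΔ : ∀ u v, Δ u v ^ 2 ≤ 2 * (a2 (c.F' u v) - a2 c.F) ^ 2 + 8) :
    Le c.p.K (∑ u, ∑ v, c.w u v * Δ u v ^ 2) (c.μ + 2 * (6699 + c.ϱ) - 1) := by
  have hc := c.cases_W
  have h1 := μ_lo hK
  have h2 := μ_hi hK
  have e1 := c.sum_le_sum' (fun u v _ => hΔ u v)
  have e2 := c.sum_le_crude (X := fun u v => (a2 (c.F' u v) - a2 c.F) ^ 2)
    (Y := fun u v => C ^ 2 * crude2 c.L c.S c.F c.F u v ^ 2)
    (fun u v h => by rw [← sq_abs, ← mul_pow]; exact pow_le_pow_left₀ (abs_nonneg _) (hpt u v h) 2)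
    (fun u _ v _ => by positivity)
  have e3 : ∑ u, ∑ v, c.w u v * (2 * (a2 (c.F' u v) - a2 c.F) ^ 2 + 8)
      = 2 * ∑ u, ∑ v, c.w u v * (a2 (c.F' u v) - a2 c.F) ^ 2 + 8 * c.Ω := by
    simp only [Ctx.Ω, mul_sum, ← sum_add_distrib]
    exact sum_congr rfl fun u _ => sum_congr rfl fun v _ => by ring
  simp only [← mul_sum] at e2
  have t1 := ((hC.pow hK h0 2).mul hK (le_crude hK) (by positivity)).cmul hK (C := 22 / 10)
    (by norm_num) (by norm_num)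
  have t2 := ((le_m hK).pow hK (m_pos hK).le 2).cmul hK (C := 9) (by norm_num) (by norm_num)
  refine ((t1.add hK t2 (g := c.μ + 2 * (6699 + c.ϱ) - 3 / 2) ?_ ?_).mono hK (by linarith)).of_le ?_
  · push_cast; linarith
  · push_cast; rcases hc with ⟨a, b, d⟩ | ⟨a, b, d⟩ <;> linarith
  · linarith [(Ω_bd hK).2, sq_nonneg c.m]

theorem fin2 {k k' B Vr : ℝ} (hk : Ge c.p.K k (6699 + c.ϱ - 1 / 100)) (hkk : k / 2 ≤ k')
    (hB : Le c.p.K B (c.μ + 6699 + c.ϱ - 9 / 10)) (hV : Le c.p.K Vr (c.μ + 2 * (6699 + c.ϱ) - 1)) :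
    0 + (2 * k * (B / c.Ω) + Vr / c.Ω) / k' ^ 2 ≤ c.η := by
  have hΩ := Ω_pos hK
  have hk0 := hk.pos hK
  have hk1 : 0 < k' := by linarith
  set b := c.p.K ^ (c.μ + 6699 + c.ϱ - 9 / 10) with hb
  set v := c.p.K ^ (c.μ + 2 * (6699 + c.ϱ) - 1) with hv
  have hb0 : 0 < b := Real.rpow_pos_of_pos hK.pos _
  have hv0 : 0 < v := Real.rpow_pos_of_pos hK.pos _
  have t1 := ((show Le c.p.K b _ from le_rfl).div hK hk).cmul hK (C := 8) (by norm_num) (by norm_num)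
  have t2 := ((show Le c.p.K v _ from le_rfl).div hK (hk.pow hK 2)).cmul hK (C := 4) (by norm_num)
    (by norm_num)
  have t3 := (t1.add hK t2 (g := c.μ - 8 / 10) (by linarith) (by push_cast; linarith)).le_of_ge hK
    (ge_Ωη hK) (by linarith)
  have e1 : (2 * k * (B / c.Ω) + Vr / c.Ω) / k' ^ 2 = (2 * k * B + Vr) / k' ^ 2 / c.Ω := by
    field_simp
  rw [zero_add, e1, div_le_iff₀ hΩ, mul_comm c.η]
  refine le_trans ?_ t3
  have e2 : 8 * (b / k) + 4 * (v / k ^ 2) = (2 * k * b + v) / (k / 2) ^ 2 := by field_simp; ring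
  rw [e2]
  have hB' : B ≤ b := hB
  have hV' : Vr ≤ v := hV
  exact div_le_div₀ (by positivity) (by nlinarith) (by positivity)
    (pow_le_pow_left₀ (by positivity) hkk 2)

omit hK in
theorem scal {m W : ℝ} (hm : 10 ≤ m) (hW : 0 < W) :
    0 ≤ m * (m / (m + W)) - (m - 2) * ((m - 2) / (m - 2 + W)) ∧
    m * (m / (m + W)) - (m - 2) * ((m - 2) / (m - 2 + W)) ≤ 2 - 2 * (W / (m + W)) ^ 2 ∧
    m / (m + W) / 2 ≤ (m - 2) / (m - 2 + W) ∧
    (1 - 2 * (5 / 2 * (W / (m + W)) / m)) * (m / (m + W)) ^ 2 ≤ ((m - 2) / (m - 2 + W)) ^ 2 := by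
  have h1 : 0 < m + W := by linarith
  have h2 : 0 < m - 2 + W := by linarith
  have h3 : 0 < m := by linarith
  have e1 : m * (m / (m + W)) - (m - 2) * ((m - 2) / (m - 2 + W))
      = 2 - 2 * (W / (m + W) * (W / (m - 2 + W))) := by field_simp; ring
  have a1 : W / (m + W) ≤ W / (m - 2 + W) := div_le_div_of_nonneg_left hW.le h2 (by linarith)
  have a2 : W / (m - 2 + W) ≤ 1 := (div_le_one h2).2 (by linarith)
  have a3 : 0 < W / (m + W) := by positivity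
  have e2 : (m - 2) / (m - 2 + W) = m / (m + W) * (1 - 2 * (W / (m - 2 + W)) / m) := by
    field_simp; ring
  have a4 : 2 * (W / (m - 2 + W)) / m ≤ 1 / 2 := by rw [div_le_iff₀ h3]; linarith
  have a5 : 0 < m / (m + W) := by positivity
  have a6 : 4 * (W / (m - 2 + W)) ≤ 5 * (W / (m + W)) := by
    rw [← mul_div_assoc, ← mul_div_assoc, div_le_div_iff₀ h2 h1]; nlinarith
  refine ⟨?_, ?_, ?_, ?_⟩
  · rw [e1]; nlinarith
  · rw [e1]; nlinarith
  · rw [e2]; nlinarith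
  · rw [e2, mul_pow, mul_comm]
    refine mul_le_mul_of_nonneg_left ?_ (sq_nonneg _)
    have a7 : 4 * (W / (m - 2 + W)) / m ≤ 5 * (W / (m + W)) / m :=
      div_le_div_of_nonneg_right a6 h3.le
    have e3 : 2 * (5 / 2 * (W / (m + W)) / m) = 5 * (W / (m + W)) / m := by ring
    have e4 : 4 * (W / (m - 2 + W)) / m = 2 * (2 * (W / (m - 2 + W)) / m) := by ring
    rw [e3]; rw [e4] at a7
    nlinarith [sq_nonneg (2 * (W / (m - 2 + W)) / m)]

end Tr2X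
open Tr2X Ctx

theorem tr2 : TrOne (fun p m => True) (fun _ _ _ p S F => p2 p S F) := by
  obtain ⟨C1, h1, hC1⟩ := pt2
  obtain ⟨C2, h2, hC2⟩ := pt2c
  obtain ⟨K1, hK1⟩ := exists_const (C1 + C2) (1 / 100) (by norm_num)
  refine ⟨K1, fun ι _ _ c hK0 _ hP => ?_⟩
  obtain ⟨hK, hC⟩ := hK1 _ hK0
  have hd := drift2 hK h1 (hC.of_le (by linarith)) fun u v h =>
    hC1 ι c.σ c.σ c.L c.S c.F c.F u v (loc hK h) (loc hK h) (one_le_L hK) (opB hK) (opB hK)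
  have hW : 0 < c.p.W := pow_pos hK.pos _
  have hm : 10 ≤ c.m := le_trans (by norm_num) (m_big hK)
  have hm0 : 0 < c.m := by linarith
  obtain ⟨s1, s2, s3, s4⟩ := scal hm hW
  set s := c.p.a2s c.m - c.p.a2s (c.m - 2) with hs
  have s1' : 0 ≤ s := s1
  have s2' : s ≤ 2 - 2 * (c.p.W / (c.m + c.p.W)) ^ 2 := s2
  set t := c.p.W / (c.m + c.p.W) with ht
  have ht0 : 0 < t := by positivity
  have hv := var2 hK h2 (hC.of_le (by linarith)) (fun u v h =>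
    hC2 ι c.σ c.σ c.L c.S c.F c.F u v (loc hK h) (loc hK h) (one_le_L hK) (opB hK) (opB hK))
    (Δ := fun u v => a2 (c.F' u v) - a2 c.F + s) fun u v => by
      nlinarith [sq_nonneg (a2 (c.F' u v) - a2 c.F - s), sq_nonneg t]
  have hk := (sz_k2 hK).1
  have hk0 := hk.pos hK
  have hWK : 0 < c.p.W / c.p.K := div_pos hW hK.pos
  have hkk : c.p.k2 c.m / 2 ≤ c.p.k2 (c.m - 2) := by
    have := mul_le_mul_of_nonneg_left s3 hWK.le
    simp only [Par.k2, Par.rho]; linarith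
  have hΩ := Ω_pos hK
  have hy : c.p.W * c.p.rho c.m = c.m * t := by rw [ht, Par.rho]; ring
  have hB : Le c.p.K (|∑ u, ∑ v, c.w u v * (a2 (c.F' u v) - a2 c.F)
      - (2 * (a2 c.F - c.m) ^ 2 - 2 * c.Ω)| + 2 * (c.p.eps c.m * (c.m * t) ^ 2))
      (c.μ + 6699 + c.ϱ - 9 / 10) := by
    have hc := c.cases_W
    have t1 : Le c.p.K (c.m * t) _ := ((Le.K_pow (K := c.p.K) 6700).mul hK (sz_rho hK).2
      ((sz_rho hK).1.pos hK).le).of_le hy.ge
    have t2 := ((le_eps hK).mul hK (t1.pow hK (by positivity) 2) (by positivity)).cmul hK (C := 2)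
      (by norm_num) (by norm_num)
    refine (hd.add hK t2 le_rfl ?_).mono hK (by linarith)
    push_cast; rcases hc with ⟨a, b, d⟩ | ⟨a, b, d⟩ <;> linarith
  have hZ : a2 c.F - c.p.a2s c.m ≤ c.p.k2 c.m := le_of_pp_div_le hk0 hP
  have he := c.eps_nonneg'
  have key := c.sq_lemma (Z := a2 c.F - c.p.a2s c.m) (k := c.p.k2 c.m) (k' := c.p.k2 (c.m - 2))
    (lam := 5 / 2 * t / c.m) (e := 0) (Δ := fun u v => a2 (c.F' u v) - a2 c.F + s)
    (β := (|∑ u, ∑ v, c.w u v * (a2 (c.F' u v) - a2 c.F)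
      - (2 * (a2 c.F - c.m) ^ 2 - 2 * c.Ω)| + 2 * (c.p.eps c.m * (c.m * t) ^ 2)) / c.Ω)
    (Vr := (∑ u, ∑ v, c.w u v * (a2 (c.F' u v) - a2 c.F + s) ^ 2) / c.Ω) hk0 (by linarith) hZ
    (by positivity) ?_ (by rw [mul_div_cancel₀ _ hΩ.ne']) ?_ le_rfl
  · refine le_trans (c.sum_le_sum' fun u v h => le_of_eq ?_) (key.trans
      (mul_le_mul_of_nonneg_left (add_le_add le_rfl (fin2 hK hk hkk hB hv)) hΩ.le))
    simp only [p2, card_rem' hK h, hs]
    congr 2; ring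
  · intro hZ0
    have e1 : ∑ u, ∑ v, c.w u v * (a2 (c.F' u v) - a2 c.F + s)
        = ∑ u, ∑ v, c.w u v * (a2 (c.F' u v) - a2 c.F) + s * c.Ω := by
      simp only [Ctx.Ω, mul_sum, ← sum_add_distrib]
      exact sum_congr rfl fun u _ => sum_congr rfl fun v _ => by ring
    rw [e1, mul_add c.Ω, mul_div_cancel₀ _ hΩ.ne']
    have a1 := le_abs_self (∑ u, ∑ v, c.w u v * (a2 (c.F' u v) - a2 c.F)
      - (2 * (a2 c.F - c.m) ^ 2 - 2 * c.Ω))
    have a2' := mul_le_mul_of_nonneg_right s2' hΩ.le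
    obtain ⟨o1, o2⟩ := Ω_bd hK
    have a3' := mul_le_mul_of_nonneg_right o1 (sq_nonneg t)
    set Z := a2 c.F - c.p.a2s c.m with hZ'
    have e2 : a2 c.F - c.m = Z - c.m * t := by
      rw [hZ', ht, Par.a2s, Par.rho]; field_simp; ring
    have a4' : 2 * Z ≤ c.m * t := by
      have : c.p.k2 c.m * c.p.K = c.m * t := by
        rw [← hy, Par.k2]; field_simp [hK.pos.ne']
      nlinarith [c.ok.K2]
    have a5 : c.Ω * (5 / 2 * t / c.m * Z) ≤ 11 / 10 * c.m ^ 2 * (5 / 2 * t / c.m * Z) :=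
      mul_le_mul_of_nonneg_right o2 (by positivity)
    have e3 : 11 / 10 * c.m ^ 2 * (5 / 2 * t / c.m * Z) = 11 / 4 * (c.m * t * Z) := by
      field_simp; ring
    have a6 : 2 * Z * Z ≤ c.m * t * Z := mul_le_mul_of_nonneg_right a4' hZ0.le
    have a7 : 0 ≤ c.m * t * Z := by positivity
    rw [e2] at a1 ⊢
    nlinarith
  · have := mul_le_mul_of_nonneg_left s4 (sq_nonneg (c.p.W / c.p.K))
    simp only [Par.k2, Par.rho, mul_pow]
    linarith

theorem tr2' : TrOne (fun p m => p.phX m) (fun _ _ _ p S F => p2' p S F) := by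
  obtain ⟨C1, h1, hC1⟩ := pt2
  obtain ⟨C2, h2, hC2⟩ := pt2c
  obtain ⟨K1, hK1⟩ := exists_const (C1 + C2) (1 / 100) (by norm_num)
  refine ⟨K1, fun ι _ _ c hK0 _ hP => ?_⟩
  obtain ⟨hK, hC⟩ := hK1 _ hK0
  have hd := drift2 hK h1 (hC.of_le (by linarith)) fun u v h =>
    hC1 ι c.σ c.σ c.L c.S c.F c.F u v (loc hK h) (loc hK h) (one_le_L hK) (opB hK) (opB hK)
  have hW : 0 < c.p.W := pow_pos hK.pos _
  have hv := var2 hK h2 (hC.of_le (by linarith)) (fun u v h =>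
    hC2 ι c.σ c.σ c.L c.S c.F c.F u v (loc hK h) (loc hK h) (one_le_L hK) (opB hK) (opB hK))
    (Δ := fun u v => -(a2 (c.F' u v) - a2 c.F) - 2) fun u v => by
      nlinarith [sq_nonneg (a2 (c.F' u v) - a2 c.F - 2)]
  have hk : Ge c.p.K c.p.W (6699 + c.ϱ - 1 / 100) := by
    refine (Ge.K_pow (K := c.p.K) 6700).mono hK ?_
    have := min_le_left 0 (c.μ - 6700)
    push_cast; unfold Ctx.ϱ; linarith
  have hΩ := Ω_pos hK
  have hZ : c.m - 4 * c.p.W - a2 c.F ≤ c.p.W := le_of_pp_div_le hW hP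
  have key := c.sq_lemma (Z := c.m - 4 * c.p.W - a2 c.F) (k := c.p.W) (k' := c.p.W)
    (lam := 0) (e := 0) (Δ := fun u v => -(a2 (c.F' u v) - a2 c.F) - 2)
    (β := |∑ u, ∑ v, c.w u v * (a2 (c.F' u v) - a2 c.F)
      - (2 * (a2 c.F - c.m) ^ 2 - 2 * c.Ω)| / c.Ω)
    (Vr := (∑ u, ∑ v, c.w u v * (-(a2 (c.F' u v) - a2 c.F) - 2) ^ 2) / c.Ω) hW hW hZ
    (by positivity) ?_ (by rw [mul_div_cancel₀ _ hΩ.ne']) (by simp) le_rfl
  · refine le_trans (c.sum_le_sum' fun u v h => le_of_eq ?_) (key.trans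
      (mul_le_mul_of_nonneg_left (add_le_add le_rfl
        (fin2 hK hk (by linarith) (hd.mono hK (by linarith)) hv)) hΩ.le))
    simp only [p2', card_rem' hK h]
    congr 2; ring
  · intro _
    have e1 : ∑ u, ∑ v, c.w u v * (-(a2 (c.F' u v) - a2 c.F) - 2)
        = -(∑ u, ∑ v, c.w u v * (a2 (c.F' u v) - a2 c.F)) - 2 * c.Ω := by
      simp only [Ctx.Ω, mul_sum, ← sum_neg_distrib, ← sum_sub_distrib]
      exact sum_congr rfl fun u _ => sum_congr rfl fun v _ => by ring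
    rw [e1, neg_zero, zero_mul, zero_add, mul_div_cancel₀ _ hΩ.ne']
    have a1 := neg_le_abs (∑ u, ∑ v, c.w u v * (a2 (c.F' u v) - a2 c.F)
      - (2 * (a2 c.F - c.m) ^ 2 - 2 * c.Ω))
    nlinarith [sq_nonneg (a2 c.F - c.m)]

end Crest.Agent.R62
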