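import Crest.Agent.R62.Defs

set_option autoImplicit false

open Finset Matrix

namespace Crest.Agent.R62

variable {ι V : Type} [Fintype ι] [DecidableEq ι] [Fintype V] [DecidableEq V]

/-! Generic matrix inequalities. -/

namespace GenMX

omit [DecidableEq ι] in
theorem cs_sqrt {α : Type} (S : Finset α) (f g : α → ℝ) :
    ∑ a ∈ S, |f a| * |g a| ≤ √(∑ a ∈ S, f a ^ 2) * √(∑ a ∈ S, g a ^ 2) := by
  have h := Real.sum_mul_le_sqrt_mul_sqrt S (fun a => |f a|) (fun a => |g a|)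
  simpa only [sq_abs] using h

omit [DecidableEq ι] in
theorem gram_diag (A : Matrix ι ι ℝ) (u : ι) : (Aᵀ * A) u u = ∑ a, A a u ^ 2 := by
  simp only [Matrix.mul_apply, Matrix.transpose_apply, sq]

omit [DecidableEq ι] in
theorem gram_diag' (A : Matrix ι ι ℝ) (u : ι) : (A * Aᵀ) u u = ∑ a, A u a ^ 2 := by
  simp only [Matrix.mul_apply, Matrix.transpose_apply, sq]

omit [DecidableEq ι] in
theorem dot_self (x : ι → ℝ) : x ⬝ᵥ x = ∑ a, x a ^ 2 := by
  simp only [dotProduct, sq]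

omit [DecidableEq ι] in
theorem dot_self_nonneg (x : ι → ℝ) : 0 ≤ x ⬝ᵥ x := by
  rw [dot_self]; positivity

omit [DecidableEq ι] in
theorem dot_sq_le (x y : ι → ℝ) : (x ⬝ᵥ y) ^ 2 ≤ (x ⬝ᵥ x) * (y ⬝ᵥ y) := by
  rw [dot_self, dot_self]
  exact Finset.sum_mul_sq_le_sq_mul_sq univ x y

omit [DecidableEq ι] in
/-- operator norm at most the Frobenius norm -/
theorem mulVec_sq_le (A : Matrix ι ι ℝ) (x : ι → ℝ) :
    (A *ᵥ x) ⬝ᵥ (A *ᵥ x) ≤ (∑ u, ∑ v, A u v ^ 2) * (x ⬝ᵥ x) := by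
  rw [dot_self, dot_self, Finset.sum_mul]
  refine Finset.sum_le_sum fun u _ => ?_
  exact Finset.sum_mul_sq_le_sq_mul_sq univ (A u) x

omit [DecidableEq ι] in
theorem mul_col (F A : Matrix ι ι ℝ) (u : ι) :
    F *ᵥ (fun a => A a u) = fun a => (F * A) a u := by
  funext a
  simp only [Matrix.mulVec, dotProduct, Matrix.mul_apply]

omit [DecidableEq ι] in
theorem gram_dot (A B : Matrix ι ι ℝ) (u v : ι) :
    (Aᵀ * B) u v = (fun a => A a u) ⬝ᵥ (fun a => B a v) := by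
  simp only [Matrix.mul_apply, Matrix.transpose_apply, dotProduct]

omit [DecidableEq ι] in
theorem trace_eq (A : Matrix ι ι ℝ) : A.trace = ∑ a, A a a := rfl

end GenMX

open GenMX

section
variable {S : Finset ι} {F G : Matrix ι ι ℝ} {L : ℝ}

theorem Mat.transpose (h : Mat S F) : Fᵀ = F := by
  ext a b; exact h.symm b a
theorem Mat.supp' (h : Mat S F) (a b : ι) (hb : b ∉ S) : F a b = 0 := by
  rw [h.symm]; exact h.supp b a hb
theorem Mat.rr_eq (h : Mat S F) (a : ι) : rr F a = ∑ b, F a b ^ 2 := by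
  unfold rr
  rw [Matrix.mul_apply]
  refine Finset.sum_congr rfl fun b _ => ?_
  rw [h.symm b a, sq]
theorem Mat.rr_nonneg (h : Mat S F) (a : ι) : 0 ≤ rr F a := by
  rw [h.rr_eq]; positivity
theorem Mat.sq_le_rr (h : Mat S F) (a b : ι) : F a b ^ 2 ≤ rr F a := by
  rw [h.rr_eq]
  exact Finset.single_le_sum (f := fun b => F a b ^ 2) (fun _ _ => sq_nonneg _) (mem_univ b)
theorem Mat.t1_eq (h : Mat S F) : t1 F = ∑ a ∈ S, F a a := by
  unfold t1
  rw [trace_eq]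
  symm
  exact Finset.sum_subset (subset_univ S) fun a _ ha => h.supp a a ha
theorem Mat.mul_supp (h : Mat S F) (M : Matrix ι ι ℝ) (a b : ι) (ha : a ∉ S) :
    (F * M) a b = 0 := by
  rw [Matrix.mul_apply]
  exact Finset.sum_eq_zero fun c _ => by rw [h.supp a c ha, zero_mul]
theorem Mat.mul_supp' (h : Mat S F) (M : Matrix ι ι ℝ) (a b : ι) (hb : b ∉ S) :
    (M * F) a b = 0 := by
  rw [Matrix.mul_apply]
  exact Finset.sum_eq_zero fun c _ => by rw [h.supp' c b hb, mul_zero]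
theorem Mat.a2_eq (h : Mat S F) : a2 F = ∑ a ∈ S, rr F a := by
  unfold a2 rr
  rw [trace_eq]
  symm
  exact Finset.sum_subset (subset_univ S) fun a _ ha => h.mul_supp F a a ha
/-- a product starting with `F` has rows supported on `S`; its trace is a sum over `S` -/
theorem Mat.trace_mul (h : Mat S F) (M : Matrix ι ι ℝ) : (F * M).trace = ∑ a ∈ S, (F * M) a a := by
  rw [trace_eq]
  symm
  exact Finset.sum_subset (subset_univ S) fun a _ ha => h.mul_supp M a a ha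
/-- the total sum of a product ending with `G` and starting with `F` vanishes -/
theorem Mat.sum_sum_mul (hF : Mat S F) (hG : Mat S G) (M : Matrix ι ι ℝ) :
    ∑ u ∈ S, ∑ v ∈ S, (F * M * G) u v = 0 := by
  refine Finset.sum_eq_zero fun u _ => ?_
  have h1 : ∑ v ∈ S, (F * M * G) u v = ∑ v, (F * M * G) u v :=
    Finset.sum_subset (subset_univ S) fun v _ hv => hG.mul_supp' _ u v hv
  rw [h1]
  simp only [Matrix.mul_apply (M := F * M)]
  rw [Finset.sum_comm]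
  refine Finset.sum_eq_zero fun c _ => ?_
  rw [← Finset.mul_sum, hG.row c, mul_zero]
/-- Cauchy–Schwarz for an entry of a product -/
theorem entry_sq_le (A B : Matrix ι ι ℝ) (u v : ι) :
    ((A * B) u v) ^ 2 ≤ (A * Aᵀ) u u * (Bᵀ * B) v v := by
  rw [gram_diag, gram_diag', Matrix.mul_apply]
  exact Finset.sum_mul_sq_le_sq_mul_sq univ (A u) (fun a => B a v)
theorem sum_sq_eq_trace (A : Matrix ι ι ℝ) : ∑ u, ∑ v, A u v ^ 2 = (A * Aᵀ).trace := by
  rw [trace_eq]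
  exact Finset.sum_congr rfl fun u _ => (gram_diag' A u).symm
/-- Cauchy–Schwarz for the Frobenius inner product -/
theorem trace_sq_le (A B : Matrix ι ι ℝ) :
    (A * B).trace ^ 2 ≤ (A * Aᵀ).trace * (Bᵀ * B).trace := by
  have h1 : (A * B).trace = ∑ x : ι × ι, A x.1 x.2 * B x.2 x.1 := by
    rw [trace_eq, Fintype.sum_prod_type]
    simp only [Matrix.mul_apply]
  have h2 : (A * Aᵀ).trace = ∑ x : ι × ι, A x.1 x.2 ^ 2 := by
    rw [← sum_sq_eq_trace, Fintype.sum_prod_type]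
  have h3 : (Bᵀ * B).trace = ∑ x : ι × ι, B x.2 x.1 ^ 2 := by
    rw [trace_eq, Fintype.sum_prod_type]
    exact Finset.sum_congr rfl fun u _ => gram_diag B u
  rw [h1, h2, h3]
  exact Finset.sum_mul_sq_le_sq_mul_sq univ (fun x : ι × ι => A x.1 x.2) (fun x => B x.2 x.1)
/-- Frobenius norm is submultiplicative -/
theorem frob_mul_le (A B : Matrix ι ι ℝ) :
    ((A * B) * (A * B)ᵀ).trace ≤ (A * Aᵀ).trace * (B * Bᵀ).trace := by
  rw [← sum_sq_eq_trace (A * B), Matrix.trace_mul_comm B Bᵀ, trace_eq, trace_eq,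
    Finset.sum_mul_sum]
  exact Finset.sum_le_sum fun u _ => Finset.sum_le_sum fun v _ => entry_sq_le A B u v
theorem diag_gram_nonneg (A : Matrix ι ι ℝ) (u : ι) : 0 ≤ (Aᵀ * A) u u := by
  rw [gram_diag]; positivity
/-- `‖F A e_u‖² ≤ L² ‖A e_u‖²` -/
theorem OpB.diag (h : OpB L F) (A : Matrix ι ι ℝ) (u : ι) :
    ((F * A)ᵀ * (F * A)) u u ≤ L ^ 2 * (Aᵀ * A) u u := by
  have h1 := h (fun a => A a u)
  rw [mul_col] at h1
  rw [gram_dot, gram_dot]
  exact h1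
/-- `|⟨A e_u, F B e_v⟩| ≤ L ‖A e_u‖ ‖B e_v‖` -/
theorem OpB.entry (h : OpB L F) (A B : Matrix ι ι ℝ) (u v : ι) :
    ((Aᵀ * F * B) u v) ^ 2 ≤ L ^ 2 * ((Aᵀ * A) u u * (Bᵀ * B) v v) := by
  rw [Matrix.mul_assoc]
  have h1 := entry_sq_le Aᵀ (F * B) u v
  rw [Matrix.transpose_transpose] at h1
  have h2 := h.diag B v
  have h3 := diag_gram_nonneg A u
  calc _ ≤ _ := h1
    _ ≤ (Aᵀ * A) u u * (L ^ 2 * (Bᵀ * B) v v) := mul_le_mul_of_nonneg_left h2 h3
    _ = _ := by ring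
theorem OpB.mono (h : OpB L F) {L' : ℝ} (h0 : 0 ≤ L) (hL : L ≤ L') : OpB L' F := by
  intro x
  refine (h x).trans (mul_le_mul_of_nonneg_right ?_ (dot_self_nonneg x))
  exact pow_le_pow_left₀ h0 hL 2
theorem Mat.a2_eq_sum (h : Mat S F) : a2 F = ∑ u, ∑ v, F u v ^ 2 := by
  rw [sum_sq_eq_trace, h.transpose]; rfl
theorem Mat.sq_transpose (h : Mat S F) : (F * F)ᵀ = F * F := by
  rw [Matrix.transpose_mul, h.transpose]
theorem Mat.a4_eq_sum (h : Mat S F) : a4 F = ∑ u, ∑ v, (F * F) u v ^ 2 := by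
  rw [sum_sq_eq_trace, h.sq_transpose]
  unfold a4
  simp only [Matrix.mul_assoc]
theorem Mat.opB_of_a4 (h : Mat S F) (hL : a4 F ≤ L ^ 4) : OpB L F := by
  intro x
  have h1 : (F *ᵥ x) ⬝ᵥ (F *ᵥ x) = x ⬝ᵥ ((F * F) *ᵥ x) := by
    rw [← Matrix.mulVec_mulVec, Matrix.dotProduct_mulVec x F, ← Matrix.mulVec_transpose,
      h.transpose]
  have h2 := dot_sq_le x ((F * F) *ᵥ x)
  have h3 := mulVec_sq_le (F * F) x
  rw [← h.a4_eq_sum] at h3
  have h4 := dot_self_nonneg x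
  rw [h1]
  refine le_of_sq_le_sq ?_ (by positivity)
  calc _ ≤ _ := h2
    _ ≤ (x ⬝ᵥ x) * (L ^ 4 * (x ⬝ᵥ x)) :=
      mul_le_mul_of_nonneg_left (h3.trans (mul_le_mul_of_nonneg_right hL h4)) h4
    _ = _ := by ring
theorem Mat.opB_of_a2 (h : Mat S F) (hL : a2 F ≤ L ^ 2) : OpB L F := by
  intro x
  have h3 := mulVec_sq_le F x
  rw [← h.a2_eq_sum] at h3
  exact h3.trans (mul_le_mul_of_nonneg_right hL (dot_self_nonneg x))
theorem Mat.a2_nonneg (h : Mat S F) : 0 ≤ a2 F := by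
  rw [h.a2_eq_sum]; positivity
theorem Mat.a4_nonneg (h : Mat S F) : 0 ≤ a4 F := by
  rw [h.a4_eq_sum]; positivity
theorem Mat.c22_eq (hF : Mat S F) (hG : Mat S G) : c22 F G = ((F * G)ᵀ * (F * G)).trace := by
  unfold c22
  rw [Matrix.transpose_mul, hF.transpose, hG.transpose, Matrix.trace_mul_comm (F * F * G) G]
  simp only [Matrix.mul_assoc]
theorem Mat.c22_nonneg (hF : Mat S F) (hG : Mat S G) : 0 ≤ c22 F G := by
  rw [hF.c22_eq hG, trace_eq]
  exact Finset.sum_nonneg fun u _ => diag_gram_nonneg _ u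
theorem Mat.a4_le_sq (h : Mat S F) : a4 F ≤ a2 F ^ 2 := by
  have h1 := frob_mul_le F F
  rw [h.sq_transpose, h.transpose] at h1
  unfold a4 a2
  rw [sq]
  simpa only [Matrix.mul_assoc] using h1
theorem Mat.a4_le (h : Mat S F) (hL : OpB L F) : a4 F ≤ L ^ 2 * a2 F := by
  have h1 : a4 F = ∑ u, ((F * F)ᵀ * (F * F)) u u := by
    rw [h.sq_transpose, ← trace_eq]
    unfold a4
    simp only [Matrix.mul_assoc]
  have h2 : a2 F = ∑ u, (Fᵀ * F) u u := by
    rw [h.transpose, ← trace_eq]; rfl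
  rw [h1, h2, Finset.mul_sum]
  exact Finset.sum_le_sum fun u _ => hL.diag F u
theorem Mat.a3_sq_le (h : Mat S F) : a3 F ^ 2 ≤ a2 F * a4 F := by
  have h1 := trace_sq_le F (F * F)
  rw [h.sq_transpose, h.transpose] at h1
  unfold a3 a2 a4
  simpa only [Matrix.mul_assoc] using h1
theorem Mat.c22_sq_le (hF : Mat S F) (hG : Mat S G) : c22 F G ^ 2 ≤ a4 F * a4 G := by
  have h1 := trace_sq_le (F * F) (G * G)
  rw [hF.sq_transpose, hG.sq_transpose] at h1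
  unfold c22 a4
  simpa only [Matrix.mul_assoc] using h1
theorem Mat.c21_sq_le (hF : Mat S F) (hG : Mat S G) : (F * F * G).trace ^ 2 ≤ a2 F * c22 F G := by
  have h1 := trace_sq_le F (F * G)
  rw [← hF.c22_eq hG, hF.transpose] at h1
  unfold a2
  simpa only [Matrix.mul_assoc] using h1
theorem c11_comm (F G : Matrix ι ι ℝ) : c11 F G = c11 G F := Matrix.trace_mul_comm F G
theorem c22_comm (F G : Matrix ι ι ℝ) : c22 F G = c22 G F := by
  unfold c22
  have h := Matrix.trace_mul_comm (F * F) (G * G)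
  simpa only [Matrix.mul_assoc] using h
theorem D4_le_sq (S : Finset ι) (F : Matrix ι ι ℝ) : D4 S F ≤ D2 S F ^ 2 := by
  unfold D4 D2
  have h := Finset.sum_sq_le_sq_sum_of_nonneg (s := S) (f := fun a => F a a ^ 2)
    (fun _ _ => sq_nonneg _)
  refine le_trans (le_of_eq ?_) h
  exact Finset.sum_congr rfl fun a _ => by ring
/-- Schur test for the kernel `F_uv²` (row sums `r_u ≤ R`) -/
theorem Mat.kernel (h : Mat S F) {R : ℝ} (hR : ∀ a, rr F a ≤ R) (g k : ι → ℝ) :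
    ∑ u ∈ S, ∑ v ∈ S, F u v ^ 2 * (|g u| * |k v|)
      ≤ R * (√(∑ u ∈ S, g u ^ 2) * √(∑ v ∈ S, k v ^ 2)) := by
  rcases S.eq_empty_or_nonempty with rfl | ⟨a0, _⟩
  · simp
  have hR0 : 0 ≤ R := (h.rr_nonneg a0).trans (hR a0)
  have hrow : ∀ u, ∑ v ∈ S, F u v ^ 2 ≤ R := fun u => by
    refine le_trans ?_ (hR u)
    rw [h.rr_eq]
    exact Finset.sum_le_sum_of_subset_of_nonneg (subset_univ S) fun _ _ _ => sq_nonneg _
  have h1 := cs_sqrt (S ×ˢ S) (fun x => F x.1 x.2 * g x.1) (fun x => F x.1 x.2 * k x.2)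
  simp only [Finset.sum_product] at h1
  have h2 : ∑ u ∈ S, ∑ v ∈ S, (F u v * g u) ^ 2 ≤ R * ∑ u ∈ S, g u ^ 2 := by
    rw [Finset.mul_sum]
    refine Finset.sum_le_sum fun u _ => ?_
    simp only [mul_pow]
    rw [← Finset.sum_mul]
    exact mul_le_mul_of_nonneg_right (hrow u) (sq_nonneg _)
  have h3 : ∑ u ∈ S, ∑ v ∈ S, (F u v * k v) ^ 2 ≤ R * ∑ v ∈ S, k v ^ 2 := by
    rw [Finset.mul_sum, Finset.sum_comm]
    refine Finset.sum_le_sum fun v _ => ?_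
    simp only [mul_pow]
    rw [← Finset.sum_mul]
    refine mul_le_mul_of_nonneg_right ?_ (sq_nonneg _)
    refine le_trans (le_of_eq ?_) (hrow v)
    exact Finset.sum_congr rfl fun u _ => by rw [h.symm u v]
  calc ∑ u ∈ S, ∑ v ∈ S, F u v ^ 2 * (|g u| * |k v|)
      = ∑ u ∈ S, ∑ v ∈ S, |F u v * g u| * |F u v * k v| := by
        refine Finset.sum_congr rfl fun u _ => Finset.sum_congr rfl fun v _ => ?_
        rw [abs_mul, abs_mul, ← sq_abs (F u v)]; ring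
    _ ≤ _ := h1
    _ ≤ √(R * ∑ u ∈ S, g u ^ 2) * √(R * ∑ v ∈ S, k v ^ 2) :=
        mul_le_mul (Real.sqrt_le_sqrt h2) (Real.sqrt_le_sqrt h3) (Real.sqrt_nonneg _)
          (Real.sqrt_nonneg _)
    _ = _ := by
        rw [Real.sqrt_mul hR0, Real.sqrt_mul hR0]
        have := Real.mul_self_sqrt hR0
        calc _ = (√R * √R) * (√(∑ u ∈ S, g u ^ 2) * √(∑ v ∈ S, k v ^ 2)) := by ring
          _ = _ := by rw [this]
theorem Mat.sum_hh (h : Mat S F) : ∑ u, ∑ v, hh F u v = R2 S F := by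
  unfold hh R2
  have h1 : ∑ a ∈ S, rr F a ^ 2 = ∑ a, rr F a ^ 2 := by
    refine Finset.sum_subset (subset_univ S) fun a _ ha => ?_
    have : rr F a = 0 := h.mul_supp F a a ha
    rw [this]; ring
  rw [h1]
  have h2 : ∀ a, rr F a ^ 2 = ∑ u, ∑ v, F a u ^ 2 * F a v ^ 2 := fun a => by
    rw [h.rr_eq, sq, Finset.sum_mul_sum]
  simp only [h2]
  calc ∑ u, ∑ v, ∑ a, F a u ^ 2 * F a v ^ 2 = ∑ u, ∑ a, ∑ v, F a u ^ 2 * F a v ^ 2 :=
        Finset.sum_congr rfl fun u _ => Finset.sum_comm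
    _ = _ := Finset.sum_comm
end

/-- Cauchy–Schwarz on a finset, square-root form -/
theorem sum_mul_le_sqrt (S : Finset ι) (f g : ι → ℝ) :
    ∑ a ∈ S, |f a| * |g a| ≤ √(∑ a ∈ S, f a ^ 2) * √(∑ a ∈ S, g a ^ 2) := cs_sqrt S f g
theorem sum2_mul_le_sqrt (S : Finset ι) (f g : ι → ι → ℝ) :
    ∑ u ∈ S, ∑ v ∈ S, |f u v| * |g u v|
      ≤ √(∑ u ∈ S, ∑ v ∈ S, f u v ^ 2) * √(∑ u ∈ S, ∑ v ∈ S, g u v ^ 2) := by
  have h1 := cs_sqrt (S ×ˢ S) (fun x => f x.1 x.2) (fun x => g x.1 x.2)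
  simpa only [Finset.sum_product] using h1

theorem pp_nonneg (x : ℝ) : 0 ≤ pp x := sq_nonneg _
theorem le_of_pp_div_le {x k : ℝ} (hk : 0 < k) (h : pp x / k ^ 2 ≤ 1) : x ≤ k := by
  rw [div_le_one (by positivity)] at h
  unfold pp at h
  exact (le_max_left x 0).trans (le_of_sq_le_sq h hk.le)
theorem pp_add_le (x d : ℝ) : pp (x + d) ≤ pp x + 2 * max x 0 * d + d ^ 2 := by
  unfold pp
  rcases le_total 0 x with hx | hx
  · rw [max_eq_left hx]
    rcases le_total 0 (x + d) with h | h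
    · rw [max_eq_left h]; nlinarith
    · rw [max_eq_right h]; nlinarith [sq_nonneg (x + d)]
  · rw [max_eq_right hx]
    rcases le_total 0 (x + d) with h | h
    · rw [max_eq_left h]; nlinarith
    · rw [max_eq_right h]; nlinarith [sq_nonneg d]
theorem four_add_le (x d : ℝ) : (x + d) ^ 4 ≤ x ^ 4 + 4 * x ^ 3 * d + 16 * x ^ 2 * d ^ 2 + 7 / 5 * d ^ 4 := by
  nlinarith [sq_nonneg (d * (x - d / 5))]
theorem four_pq_le (p q : ℝ) : (p + q) ^ 4 ≤ 3 / 2 * (p ^ 4 + q ^ 4) + 15 * p ^ 2 * q ^ 2 := by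
  nlinarith [sq_nonneg (p ^ 2 + q ^ 2 - 4 * p * q)]
theorem four_small_le (y r : ℝ) : (y + r) ^ 4 ≤ 3 / 2 * y ^ 4 + 540 * r ^ 4 := by
  have h : ∀ a b : ℝ, (a + b) ^ 2 ≤ 8 / 7 * a ^ 2 + 8 * b ^ 2 := fun a b => by
    nlinarith [sq_nonneg (a - 7 * b)]
  have h1 := h y r
  have h2 := h (8 / 7 * y ^ 2) (8 * r ^ 2)
  have h3 : ((y + r) ^ 2) ^ 2 ≤ (8 / 7 * y ^ 2 + 8 * r ^ 2) ^ 2 :=
    pow_le_pow_left₀ (sq_nonneg _) h1 2
  have h4 : 0 ≤ y ^ 4 := by positivity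
  have h5 : 0 ≤ r ^ 4 := by positivity
  nlinarith

end Crest.Agent.R62
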