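import Crest.Agent.R62.Upd
import Crest.Agent.R62.GenM

set_option autoImplicit false

open Finset Matrix

namespace Crest.Agent.R62

variable {ι V : Type} [Fintype ι] [DecidableEq ι] [Fintype V] [DecidableEq V]

namespace Pt2X

theorem amul {x y a b : ℝ} (h1 : |x| ≤ a) (h2 : |y| ≤ b) : |x * y| ≤ a * b := by
  rw [abs_mul]
  exact mul_le_mul h1 h2 (abs_nonneg _) ((abs_nonneg _).trans h1)

theorem aadd {x y a b : ℝ} (h1 : |x| ≤ a) (h2 : |y| ≤ b) : |x + y| ≤ a + b :=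
  (abs_add_le x y).trans (add_le_add h1 h2)

theorem asub {x y a b : ℝ} (h1 : |x| ≤ a) (h2 : |y| ≤ b) : |x - y| ≤ a + b :=
  (abs_sub x y).trans (add_le_add h1 h2)

theorem asg {σ : ℝ} (h : σ = 1 ∨ σ = -1) : |σ| ≤ 1 := by
  rcases h with rfl | rfl <;> simp

theorem sgsq {σ : ℝ} (h : σ = 1 ∨ σ = -1) : σ * σ = 1 := by
  rcases h with rfl | rfl <;> simp

/-- column of a matrix -/
def cl (M : Matrix ι ι ℝ) (i : ι) : ι → ℝ := fun a => M a i

omit [DecidableEq ι] in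
theorem mulVec_cl (A B : Matrix ι ι ℝ) (i : ι) : A *ᵥ cl B i = cl (A * B) i := GenMX.mul_col A B i

omit [DecidableEq ι] in
theorem cl_dot (A B : Matrix ι ι ℝ) (u v : ι) : cl A u ⬝ᵥ cl B v = (Aᵀ * B) u v :=
  (GenMX.gram_dot A B u v).symm

omit [DecidableEq ι] in
theorem dot_vmv (p q x y : ι → ℝ) : p ⬝ᵥ (vecMulVec x y *ᵥ q) = (p ⬝ᵥ x) * (y ⬝ᵥ q) := by
  simp only [dotProduct, Matrix.mulVec, vecMulVec_apply, Finset.sum_mul, Finset.mul_sum]
  rw [Finset.sum_comm]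
  refine Finset.sum_congr rfl fun _ _ => Finset.sum_congr rfl fun _ _ => by ring

omit [DecidableEq ι] in
theorem tr_vmv (x y : ι → ℝ) (M : Matrix ι ι ℝ) :
    (vecMulVec x y * M).trace = y ⬝ᵥ (M *ᵥ x) := by
  simp only [Matrix.trace, Matrix.diag, Matrix.mul_apply, dotProduct, Matrix.mulVec,
    vecMulVec_apply, Finset.mul_sum]
  rw [Finset.sum_comm]
  refine Finset.sum_congr rfl fun _ _ => Finset.sum_congr rfl fun _ _ => by ring

theorem hat_eq (σ : ℝ) (S : Finset ι) (F : Matrix ι ι ℝ) (u v : ι) :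
    hat σ S F u v = cl F u - σ • cl (prj S) v := by
  funext a; simp [hat, cl]

section
variable {σ : ℝ} {S : Finset ι} {F : Matrix ι ι ℝ} {u v : ι}

theorem upd_eq' (h : Loc σ S F u v) :
    upd σ S F u v = F + n1 σ S F u v • vecMulVec (hat σ S F u v) (hat σ S F u v)
      + n1 σ S F v u • vecMulVec (hat σ S F v u) (hat σ S F v u)
      + n2 σ S F u v • (vecMulVec (hat σ S F u v) (hat σ S F v u)
          + vecMulVec (hat σ S F v u) (hat σ S F u v))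
      - σ • (vecMulVec (cl (prj S) u) (cl (prj S) v) + vecMulVec (cl (prj S) v) (cl (prj S) u))
      - (σ / ((S.card : ℝ) - 2)) • vecMulVec (cl (prj S) u + cl (prj S) v)
          (cl (prj S) u + cl (prj S) v) := h.upd_eq

/-- trace of the update against any matrix -/
theorem tr_upd (h : Loc σ S F u v) (M : Matrix ι ι ℝ) :
    (upd σ S F u v * M).trace = (F * M).trace
      + n1 σ S F u v * (hat σ S F u v ⬝ᵥ (M *ᵥ hat σ S F u v))
      + n1 σ S F v u * (hat σ S F v u ⬝ᵥ (M *ᵥ hat σ S F v u))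
      + n2 σ S F u v * (hat σ S F v u ⬝ᵥ (M *ᵥ hat σ S F u v)
          + hat σ S F u v ⬝ᵥ (M *ᵥ hat σ S F v u))
      - σ * (cl (prj S) v ⬝ᵥ (M *ᵥ cl (prj S) u) + cl (prj S) u ⬝ᵥ (M *ᵥ cl (prj S) v))
      - (σ / ((S.card : ℝ) - 2)) * ((cl (prj S) u + cl (prj S) v) ⬝ᵥ
          (M *ᵥ (cl (prj S) u + cl (prj S) v))) := by
  rw [upd_eq' h]
  simp only [Matrix.add_mul, Matrix.sub_mul, Matrix.smul_mul, Matrix.trace_add, Matrix.trace_sub,
    Matrix.trace_smul, tr_vmv, smul_eq_mul]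

/-- bilinear form of the update -/
theorem quad_upd (h : Loc σ S F u v) (p q : ι → ℝ) :
    p ⬝ᵥ (upd σ S F u v *ᵥ q) = p ⬝ᵥ (F *ᵥ q)
      + n1 σ S F u v * ((p ⬝ᵥ hat σ S F u v) * (hat σ S F u v ⬝ᵥ q))
      + n1 σ S F v u * ((p ⬝ᵥ hat σ S F v u) * (hat σ S F v u ⬝ᵥ q))
      + n2 σ S F u v * ((p ⬝ᵥ hat σ S F u v) * (hat σ S F v u ⬝ᵥ q)
          + (p ⬝ᵥ hat σ S F v u) * (hat σ S F u v ⬝ᵥ q))
      - σ * ((p ⬝ᵥ cl (prj S) u) * (cl (prj S) v ⬝ᵥ q) + (p ⬝ᵥ cl (prj S) v) * (cl (prj S) u ⬝ᵥ q))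
      - (σ / ((S.card : ℝ) - 2)) * ((p ⬝ᵥ (cl (prj S) u + cl (prj S) v)) *
          ((cl (prj S) u + cl (prj S) v) ⬝ᵥ q)) := by
  rw [upd_eq' h]
  simp only [Matrix.add_mulVec, Matrix.sub_mulVec, Matrix.smul_mulVec, dotProduct_add,
    dotProduct_sub, dotProduct_smul, dot_vmv, smul_eq_mul]

theorem mat_upd' (h : Loc σ S F u v) : Mat S (upd σ S F u v) :=
  ⟨h.mat_upd.symm, fun a b ha => h.mat_upd.supp a b fun h' => ha (mem_rem.1 h').1, h.mat_upd.row⟩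

theorem upd_cl_u (h : Loc σ S F u v) : upd σ S F u v *ᵥ cl (prj S) u = 0 := by
  rw [mulVec_cl, (mat_upd' h).mul_prj]
  funext a
  exact h.mat_upd.supp' a u fun h' => (mem_rem.1 h').2.1 rfl

theorem upd_cl_v (h : Loc σ S F u v) : upd σ S F u v *ᵥ cl (prj S) v = 0 := by
  rw [mulVec_cl, (mat_upd' h).mul_prj]
  funext a
  exact h.mat_upd.supp' a v fun h' => (mem_rem.1 h').2.2 rfl

theorem dot_symm {M : Matrix ι ι ℝ} (hM : Mat S M) (p q : ι → ℝ) :
    p ⬝ᵥ (M *ᵥ q) = q ⬝ᵥ (M *ᵥ p) := by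
  rw [Matrix.dotProduct_mulVec, ← Matrix.mulVec_transpose, hM.transpose, dotProduct_comm]

end

/-- the exact change of `tr (F G)` -/
theorem delta_eq {σ σ' : ℝ} {S : Finset ι} {F G : Matrix ι ι ℝ} {u v : ι}
    (hF : Loc σ S F u v) (hG : Loc σ' S G u v) :
    c11 (upd σ S F u v) (upd σ' S G u v) - c11 F G =
      n1 σ' S G u v * ((G * F * G) u u - 2 * σ' * (F * G) v u + F v v)
      + n1 σ' S G v u * ((G * F * G) v v - 2 * σ' * (F * G) u v + F u u)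
      + 2 * n2 σ' S G u v * ((G * F * G) u v - σ' * (F * G) u u - σ' * (F * G) v v + F u v)
      - 2 * σ' * F u v - σ' / ((S.card : ℝ) - 2) * (F u u + F v v + 2 * F u v)
      + n1 σ S F u v * ((F * G * F) u u + n1 σ' S G u v * ((F * G) u u - σ' * F u v) ^ 2
        + n1 σ' S G v u * ((F * G) u v - σ' * F u u) ^ 2
        + 2 * n2 σ' S G u v * (((F * G) u u - σ' * F u v) * ((F * G) u v - σ' * F u u))
        - 2 * σ' * (F u u * F u v) - σ' / ((S.card : ℝ) - 2) * (F u u + F u v) ^ 2)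
      + n1 σ S F v u * ((F * G * F) v v + n1 σ' S G u v * ((F * G) v u - σ' * F v v) ^ 2
        + n1 σ' S G v u * ((F * G) v v - σ' * F u v) ^ 2
        + 2 * n2 σ' S G u v * (((F * G) v u - σ' * F v v) * ((F * G) v v - σ' * F u v))
        - 2 * σ' * (F u v * F v v) - σ' / ((S.card : ℝ) - 2) * (F u v + F v v) ^ 2)
      + 2 * n2 σ S F u v * ((F * G * F) u v
        + n1 σ' S G u v * (((F * G) u u - σ' * F u v) * ((F * G) v u - σ' * F v v))
        + n1 σ' S G v u * (((F * G) u v - σ' * F u u) * ((F * G) v v - σ' * F u v))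
        + n2 σ' S G u v * (((F * G) u u - σ' * F u v) * ((F * G) v v - σ' * F u v)
          + ((F * G) u v - σ' * F u u) * ((F * G) v u - σ' * F v v))
        - σ' * (F u u * F v v + F u v * F u v)
        - σ' / ((S.card : ℝ) - 2) * ((F u u + F u v) * (F u v + F v v))) := by
  have mF := hF.mat
  have mG := hG.mat
  have mP := mat_prj S
  have mG' := mat_upd' hG
  have hu := upd_cl_u hG
  have hv := upd_cl_v hG
  -- the forms of `G'` at `y`, `z`
  have kill : ∀ (i j : ι) (x : ι → ℝ), upd σ' S G u v *ᵥ x = 0 →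
      upd σ' S G u v *ᵥ (cl F i - σ • x) = upd σ' S G u v *ᵥ cl F i := fun i j x hx => by
    rw [Matrix.mulVec_sub, Matrix.mulVec_smul, hx, smul_zero, sub_zero]
  have form : ∀ (i j : ι) (x y : ι → ℝ), upd σ' S G u v *ᵥ x = 0 → upd σ' S G u v *ᵥ y = 0 →
      (cl F i - σ • x) ⬝ᵥ (upd σ' S G u v *ᵥ (cl F j - σ • y))
        = cl F i ⬝ᵥ (upd σ' S G u v *ᵥ cl F j) := fun i j x y hx hy => by
    rw [kill j j y hy, dot_symm mG', kill i i x hx, dot_symm mG']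
  have e1 := tr_upd hF (upd σ' S G u v)
  rw [hat_eq σ S F u v, hat_eq σ S F v u, form u u _ _ hv hv, form v v _ _ hu hu,
    form v u _ _ hu hv, form u v _ _ hv hu, Matrix.mulVec_add, hu, hv, add_zero,
    dotProduct_zero, dotProduct_zero, dotProduct_zero, dot_symm mG' (cl F v) (cl F u),
    quad_upd hG, quad_upd hG, quad_upd hG, Matrix.trace_mul_comm F, tr_upd hG F] at e1
  have tF := mF.transpose
  have tG := mG.transpose
  have tP := mP.transpose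
  have FP := mF.mul_prj
  have PF := mF.prj_mul
  have GP := mG.mul_prj
  have PG := mG.prj_mul
  have PFG : prj S * (F * G) = F * G := by rw [← Matrix.mul_assoc, PF]
  have GF : ∀ i j, (G * F) i j = (F * G) j i := fun i j => by
    rw [← Matrix.transpose_apply (F * G), Matrix.transpose_mul, tF, tG]
  have s1 : (G * F * G) v u = (G * F * G) u v := by
    rw [← Matrix.transpose_apply (G * F * G), Matrix.transpose_mul, Matrix.transpose_mul, tF, tG,
      Matrix.mul_assoc]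
  have s2 := mF.symm v u
  have sq := sgsq hG.sg
  simp only [hat_eq, Matrix.mulVec_sub, Matrix.mulVec_add, Matrix.mulVec_smul, mulVec_cl,
    dotProduct_sub, sub_dotProduct, dotProduct_add, add_dotProduct, dotProduct_smul,
    smul_dotProduct, cl_dot, tF, tG, tP, FP, PF, GP, PG, PFG, smul_eq_mul,
    ← Matrix.mul_assoc, GF, s1, s2] at e1
  unfold c11
  rw [e1, Matrix.trace_mul_comm G F]
  linear_combination (n1 σ' S G u v * F v v + n1 σ' S G v u * F u u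
    + 2 * n2 σ' S G u v * F u v) * sq

/-- Lipschitz bounds on the coefficients, exact at `F = 0`. -/
theorem coef_real {σ m D E f : ℝ} (hσ : σ = 1 ∨ σ = -1) (hm : 1000 ≤ m) (hD : |D| ≤ 1 / 1000)
    (hE : |E| ≤ 1 / 1000) (hf : |f| ≤ 1 / 1000) :
    |(E + σ / m) / ((σ - σ / m - f) ^ 2 - (D + σ / m) * (E + σ / m)) - σ / (m - 2)|
        ≤ 5 * (|D| + |E| + |f|) ∧
      |(σ - σ / m - f) / ((σ - σ / m - f) ^ 2 - (D + σ / m) * (E + σ / m)) - σ - σ / (m - 2)|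
        ≤ 5 * (|D| + |E| + |f|) := by
  have hm0 : 0 < m := by linarith
  obtain ⟨μ, hμ⟩ : ∃ μ, μ = 1 / m := ⟨_, rfl⟩
  have μ0 : 0 < μ := by rw [hμ]; positivity
  have μ1 : μ ≤ 1 / 1000 := by rw [hμ]; exact one_div_le_one_div_of_le (by norm_num) hm
  have a1 : σ / m = σ * μ := by rw [hμ]; ring
  have p0 : 0 < 1 - 2 * μ := by linarith
  have a2 : σ / (m - 2) = σ * μ / (1 - 2 * μ) := by
    have : m - 2 ≠ 0 := by linarith
    have h2 : 1 - 2 * (1 / m) = (m - 2) / m := by field_simp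
    rw [hμ, h2]; field_simp
  have sq := sgsq hσ
  have sa := asg hσ
  rw [a1, a2]
  set t := |D| + |E| + |f| with ht
  have hD0 := abs_nonneg D
  have hE0 := abs_nonneg E
  have hf0 := abs_nonneg f
  set ψ := (σ - σ * μ - f) ^ 2 - (D + σ * μ) * (E + σ * μ) with hψ
  have e : ψ - (1 - 2 * μ) = -2 * (σ * (1 - μ)) * f + f * f - D * E - (σ * μ) * D - (σ * μ) * E := by
    rw [hψ]; linear_combination (1 - 2 * μ) * sq
  have b1 : |σ * (1 - μ)| ≤ 1 * 1 := amul sa (by rw [abs_le]; constructor <;> linarith)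
  have b2 : |σ * μ| ≤ 1 * (1 / 1000) := amul sa (by rw [abs_le]; constructor <;> linarith)
  have hd : |ψ - (1 - 2 * μ)| ≤ 3 * t := by
    rw [e]
    have c1 : |-2 * (σ * (1 - μ)) * f| ≤ 2 * (1 * 1) * |f| :=
      amul (amul (by norm_num) b1) le_rfl
    have c2 : |f * f| ≤ 1 / 1000 * |f| := amul hf le_rfl
    have c3 : |D * E| ≤ 1 / 1000 * |E| := amul hD le_rfl
    have c4 : |σ * μ * D| ≤ 1 * (1 / 1000) * |D| := amul b2 le_rfl
    have c5 : |σ * μ * E| ≤ 1 * (1 / 1000) * |E| := amul b2 le_rfl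
    have := asub (asub (asub (aadd c1 c2) c3) c4) c5
    linarith
  have t1 : t ≤ 3 / 1000 := by linarith
  have ψ0 : 98 / 100 ≤ ψ := by have := (abs_le.1 hd).1; linarith
  have den : 9 / 10 ≤ ψ * (1 - 2 * μ) := by nlinarith
  have ψp : 0 < ψ := by linarith
  have b3 : |1 - 2 * μ| ≤ 1 := by rw [abs_le]; constructor <;> linarith
  have key : ∀ x : ℝ, |x| ≤ 4 * t → |x / (ψ * (1 - 2 * μ))| ≤ 5 * t := fun x hx => by
    rw [abs_div, abs_of_pos (by linarith : 0 < ψ * (1 - 2 * μ)), div_le_iff₀ (by linarith)]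
    have : 0 ≤ t := by linarith
    nlinarith
  constructor
  · have : (E + σ * μ) / ψ - σ * μ / (1 - 2 * μ)
        = (E * (1 - 2 * μ) - σ * μ * (ψ - (1 - 2 * μ))) / (ψ * (1 - 2 * μ)) := by
      rw [div_sub_div _ _ ψp.ne' p0.ne']; congr 1; ring
    rw [this]
    refine key _ ?_
    have := asub (amul (le_refl |E|) b3) (amul b2 hd)
    linarith
  · have : (σ - σ * μ - f) / ψ - σ - σ * μ / (1 - 2 * μ)
        = (-(f * (1 - 2 * μ)) - σ * (1 - μ) * (ψ - (1 - 2 * μ))) / (ψ * (1 - 2 * μ)) := by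
      have h0 : σ * (1 - μ) / (1 - 2 * μ) = σ + σ * μ / (1 - 2 * μ) := by
        rw [div_eq_iff p0.ne', add_mul, div_mul_cancel₀ _ p0.ne']; ring
      rw [sub_sub, ← h0, div_sub_div _ _ ψp.ne' p0.ne']; congr 1; ring
    rw [this]
    refine key _ ?_
    have h1 : |-(f * (1 - 2 * μ))| ≤ |f| * 1 := by rw [abs_neg]; exact amul le_rfl b3
    have := asub h1 (amul b1 hd)
    linarith

theorem n1_lip {σ : ℝ} {S : Finset ι} {F : Matrix ι ι ℝ} {u v : ι} (h : Loc σ S F u v) :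
    |n1 σ S F u v - σ / ((S.card : ℝ) - 2)| ≤ 5 * (|F u u| + |F v v| + |F u v|) :=
  (coef_real h.sg h.big h.du h.dv h.f).1

theorem n2_lip {σ : ℝ} {S : Finset ι} {F : Matrix ι ι ℝ} {u v : ι} (h : Loc σ S F u v) :
    |n2 σ S F u v - σ - σ / ((S.card : ℝ) - 2)| ≤ 5 * (|F u u| + |F v v| + |F u v|) :=
  (coef_real h.sg h.big h.du h.dv h.f).2

theorem h6 (a b c d e g : ℝ) : (a + b + c + d + e + g) * (a + b + c + d + e + g)
    ≤ 6 * (a ^ 2 + e ^ 2 + g ^ 2 + b ^ 2 + c ^ 2 + d ^ 2) := by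
  linarith [sq_nonneg (a - b), sq_nonneg (a - c), sq_nonneg (a - d), sq_nonneg (a - e),
    sq_nonneg (a - g), sq_nonneg (b - c), sq_nonneg (b - d), sq_nonneg (b - e),
    sq_nonneg (b - g), sq_nonneg (c - d), sq_nonneg (c - e), sq_nonneg (c - g),
    sq_nonneg (d - e), sq_nonneg (d - g), sq_nonneg (e - g)]

set_option maxHeartbeats 2000000 in
/-- the scalar inequality -/
theorem real2 {σ σ' k n m n2 N M N2 f Du Dv Eu Ev Auu Avv Auv Avu Buu Bvv Buv Cuu Cvv Cuv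
    L μ ru rv du dv φ o w pu pv δ : ℝ}
    (hpu : pu = du + μ) (hpv : pv = dv + μ) (hδ : δ = φ + μ + pu * pv)
    (hσ : σ = 1 ∨ σ = -1) (hσ' : σ' = 1 ∨ σ' = -1)
    (hL : 1 ≤ L) (μ0 : 0 ≤ μ) (μ1 : μ ≤ 1 / 1000) (ru0 : 0 ≤ ru) (rv0 : 0 ≤ rv)
    (du1 : du ≤ 1 / 100) (dv1 : dv ≤ 1 / 100) (φ1 : φ ≤ 1 / 100)
    (hk : |k| ≤ 1) (hf : |f| ≤ φ) (hDu : |Du| ≤ du) (hDv : |Dv| ≤ dv)
    (hn : |n| ≤ 2 * pv) (hm : |m| ≤ 2 * pu)
    (hN : |N| ≤ 2 * pv) (hM : |M| ≤ 2 * pu)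
    (hn' : |n - Dv| ≤ 3 * (μ + pv * (φ + μ) + pv ^ 2))
    (hm' : |m - Du| ≤ 3 * (μ + pu * (φ + μ) + pu ^ 2))
    (hN' : |N - Ev| ≤ 3 * (μ + pv * (φ + μ) + pv ^ 2))
    (hM' : |M - Eu| ≤ 3 * (μ + pu * (φ + μ) + pu ^ 2))
    (hn2 : |n2 - σ| ≤ 2 * δ)
    (hN2 : |N2 - σ'| ≤ 2 * δ)
    (lN : |N - k| ≤ 5 * (du + dv + φ)) (lM : |M - k| ≤ 5 * (du + dv + φ))
    (lN2 : |N2 - σ' - k| ≤ 5 * (du + dv + φ))
    (hAuu : |Auu| ≤ ru) (hAvv : |Avv| ≤ rv) (hAuv : |Auv| ≤ o) (hAvu : |Avu| ≤ o)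
    (ho : o ≤ 2 * (ru + rv))
    (hBuu : |Buu| ≤ L * ru) (hBvv : |Bvv| ≤ L * rv) (hCuu : |Cuu| ≤ L * ru) (hCvv : |Cvv| ≤ L * rv)
    (hBuv : |Buv| ≤ w) (hCuv : |Cuv| ≤ w) :
    |N * (Cuu - 2 * σ' * Avu + Dv) + M * (Cvv - 2 * σ' * Auv + Du)
      + 2 * N2 * (Cuv - σ' * Auu - σ' * Avv + f) - 2 * σ' * f - k * (Du + Dv + 2 * f)
      + n * (Buu + N * (Auu - σ' * f) ^ 2 + M * (Auv - σ' * Du) ^ 2
        + 2 * N2 * ((Auu - σ' * f) * (Auv - σ' * Du)) - 2 * σ' * (Du * f) - k * (Du + f) ^ 2)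
      + m * (Bvv + N * (Avu - σ' * Dv) ^ 2 + M * (Avv - σ' * f) ^ 2
        + 2 * N2 * ((Avu - σ' * Dv) * (Avv - σ' * f)) - 2 * σ' * (f * Dv) - k * (f + Dv) ^ 2)
      + 2 * n2 * (Buv + N * ((Auu - σ' * f) * (Avu - σ' * Dv))
        + M * ((Auv - σ' * Du) * (Avv - σ' * f))
        + N2 * ((Auu - σ' * f) * (Avv - σ' * f) + (Auv - σ' * Du) * (Avu - σ' * Dv))
        - σ' * (Du * Dv + f * f) - k * ((Du + f) * (f + Dv)))
      - (-2 * (Auu + Avv) + 2 * σ * σ' * Auu * Avv + 2 * σ * Buv + 2 * σ' * Cuv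
        + Dv * Buu + Du * Bvv + Ev * Cuu + Eu * Cvv)|
    ≤ 2000 * (L * (ru + rv) * μ + ru * rv * μ
      + L * (pv * φ + pv ^ 2) * ru + L * (pu * φ + pu ^ 2) * rv
      + δ * w + (φ + pu * pv) * (ru * rv + ru + rv)
      + o ^ 2 + pv ^ 2 * ru ^ 2 + pu ^ 2 * rv ^ 2 + du ^ 2 + dv ^ 2 + φ ^ 2) := by
  have sq' := sgsq hσ'
  have sa := asg hσ
  have sa' := asg hσ'
  have φ0 : 0 ≤ φ := (abs_nonneg _).trans hf
  have du0 : 0 ≤ du := (abs_nonneg _).trans hDu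
  have dv0 : 0 ≤ dv := (abs_nonneg _).trans hDv
  have o0 : 0 ≤ o := (abs_nonneg _).trans hAuv
  have w0 : 0 ≤ w := (abs_nonneg _).trans hBuv
  have pu0 : 0 ≤ pu := by linarith
  have pv0 : 0 ≤ pv := by linarith
  have pu1 : pu ≤ 1 / 50 := by linarith
  have pv1 : pv ≤ 1 / 50 := by linarith
  have μu : μ ≤ pu := by linarith
  have μv : μ ≤ pv := by linarith
  have pp1 : pu * pv ≤ 1 / 50 := by
    have := mul_le_mul pu1 (show pv ≤ 1 by linarith) pv0 (by norm_num)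
    linarith
  have pp0 : 0 ≤ pu * pv := mul_nonneg pu0 pv0
  have δ0 : 0 ≤ δ := by linarith
  have δ1 : δ ≤ 1 / 10 := by linarith
  have bn2 : |n2| ≤ 2 := by
    have := aadd hn2 sa; rw [sub_add_cancel] at this; linarith
  have bN2 : |N2| ≤ 2 := by
    have := aadd hN2 sa'; rw [sub_add_cancel] at this; linarith
  have bn : |n| ≤ 1 := by linarith
  have bm : |m| ≤ 1 := by linarith
  have bN : |N| ≤ 1 := by linarith
  have bM : |M| ≤ 1 := by linarith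
  obtain ⟨β, hβ⟩ : ∃ p, p = o + du + dv + φ + pv * ru + pu * rv := ⟨_, rfl⟩
  have Su0 : 0 ≤ pv * ru := mul_nonneg pv0 ru0
  have Sv0 : 0 ≤ pu * rv := mul_nonneg pu0 rv0
  have hβ2 : β * β ≤ 6 * (o ^ 2 + pv ^ 2 * ru ^ 2 + pu ^ 2 * rv ^ 2 + du ^ 2 + dv ^ 2 + φ ^ 2) := by
    have := h6 o du dv φ (pv * ru) (pu * rv)
    rw [mul_pow, mul_pow] at this
    rw [hβ]; exact this
  have bf : |f| ≤ β := by linarith
  have bDu : |Du| ≤ β := by linarith
  have bDv : |Dv| ≤ β := by linarith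
  have sf : |σ' * f| ≤ φ := by have := amul sa' hf; linarith
  have sDu : |σ' * Du| ≤ du := by have := amul sa' hDu; linarith
  have sDv : |σ' * Dv| ≤ dv := by have := amul sa' hDv; linarith
  obtain ⟨X1, hX1⟩ : ∃ p, p = Auu - σ' * f := ⟨_, rfl⟩
  obtain ⟨X2, hX2⟩ : ∃ p, p = Auv - σ' * Du := ⟨_, rfl⟩
  obtain ⟨X3, hX3⟩ : ∃ p, p = Avu - σ' * Dv := ⟨_, rfl⟩
  obtain ⟨X4, hX4⟩ : ∃ p, p = Avv - σ' * f := ⟨_, rfl⟩
  have b1 : |X1| ≤ ru + φ := by rw [hX1]; exact asub hAuu sf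
  have b4 : |X4| ≤ rv + φ := by rw [hX4]; exact asub hAvv sf
  have b2 : |X2| ≤ β := by rw [hX2]; have := asub hAuv sDu; linarith
  have b3 : |X3| ≤ β := by rw [hX3]; have := asub hAvu sDv; linarith
  have pφv : pv * φ ≤ 1 / 50 * φ := mul_le_mul_of_nonneg_right pv1 φ0
  have pφu : pu * φ ≤ 1 / 50 * φ := mul_le_mul_of_nonneg_right pu1 φ0
  have nX : |n * X1| ≤ 2 * β := by have := amul hn b1; linarith
  have NX : |N * X1| ≤ 2 * β := by have := amul hN b1; linarith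
  have mX : |m * X4| ≤ 2 * β := by have := amul hm b4; linarith
  have MX : |M * X4| ≤ 2 * β := by have := amul hM b4; linarith
  have two : |(2 : ℝ)| ≤ 2 := by norm_num
  have bDf : |Du + f| ≤ β := by have := aadd hDu hf; linarith
  have bfD : |f + Dv| ≤ β := by have := aadd hf hDv; linarith
  have hnN : |n2 * N2 - σ * σ'| ≤ 6 * δ := by
    have e : n2 * N2 - σ * σ' = (n2 - σ) * N2 + σ * (N2 - σ') := by ring
    rw [e]
    have := aadd (amul hn2 bN2) (amul sa hN2)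
    linarith
  -- the residual terms
  have r1 := abs_le.1 (amul hN' hCuu)
  have r2 := abs_le.1 (amul hM' hCvv)
  have r3 := abs_le.1 (amul hn' hBuu)
  have r4 := abs_le.1 (amul hm' hBvv)
  have r5 := abs_le.1 (amul hN2 hCuv)
  have r6 := abs_le.1 (amul hn2 hBuv)
  have r7 := abs_le.1 (amul (amul hN2 sa') (aadd hAuu hAvv))
  have r8 := abs_le.1 (amul (amul hN sa') hAvu)
  have r9 := abs_le.1 (amul (amul hM sa') hAuv)
  have t1 : 5 * (du + dv + φ) ≤ 5 * β := by linarith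
  have r10 := abs_le.1 (amul (lN.trans t1) bDv)
  have r11 := abs_le.1 (amul (lM.trans t1) bDu)
  have r12 := abs_le.1 (amul (lN2.trans t1) bf)
  have r13 := abs_le.1 (amul nX NX)
  have r14 := abs_le.1 (amul (amul bn bM) (amul b2 b2))
  have r15 := abs_le.1 (amul bN2 (amul nX b2))
  have r16 := abs_le.1 (amul (amul bn sa') (amul bDu bf))
  have r17 := abs_le.1 (amul (amul bn hk) (amul bDf bDf))
  have r18 := abs_le.1 (amul mX MX)
  have r19 := abs_le.1 (amul (amul bm bN) (amul b3 b3))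
  have r20 := abs_le.1 (amul bN2 (amul mX b3))
  have r21 := abs_le.1 (amul (amul bm sa') (amul bf bDv))
  have r22 := abs_le.1 (amul (amul bm hk) (amul bfD bfD))
  have r23 := abs_le.1 (amul bn2 (amul NX b3))
  have r24 := abs_le.1 (amul bn2 (amul b2 MX))
  have r25 := abs_le.1 (amul (amul bn2 bN2) (amul b2 b3))
  have r26 := abs_le.1 (amul (amul bn2 sa') (aadd (amul bDu bDv) (amul bf bf)))
  have r27 := abs_le.1 (amul (amul bn2 hk) (amul bDf bfD))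
  have r28 := abs_le.1 (amul hnN (amul hAuu hAvv))
  have r29 := abs_le.1 (amul (amul bn2 bN2) (amul sf (aadd hAuu hAvv)))
  have r30 := abs_le.1 (amul (amul bn2 bN2) (amul bf bf))
  have eq : N * (Cuu - 2 * σ' * Avu + Dv) + M * (Cvv - 2 * σ' * Auv + Du)
      + 2 * N2 * (Cuv - σ' * Auu - σ' * Avv + f) - 2 * σ' * f - k * (Du + Dv + 2 * f)
      + n * (Buu + N * (Auu - σ' * f) ^ 2 + M * (Auv - σ' * Du) ^ 2
        + 2 * N2 * ((Auu - σ' * f) * (Auv - σ' * Du)) - 2 * σ' * (Du * f) - k * (Du + f) ^ 2)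
      + m * (Bvv + N * (Avu - σ' * Dv) ^ 2 + M * (Avv - σ' * f) ^ 2
        + 2 * N2 * ((Avu - σ' * Dv) * (Avv - σ' * f)) - 2 * σ' * (f * Dv) - k * (f + Dv) ^ 2)
      + 2 * n2 * (Buv + N * ((Auu - σ' * f) * (Avu - σ' * Dv))
        + M * ((Auv - σ' * Du) * (Avv - σ' * f))
        + N2 * ((Auu - σ' * f) * (Avv - σ' * f) + (Auv - σ' * Du) * (Avu - σ' * Dv))
        - σ' * (Du * Dv + f * f) - k * ((Du + f) * (f + Dv)))
      - (-2 * (Auu + Avv) + 2 * σ * σ' * Auu * Avv + 2 * σ * Buv + 2 * σ' * Cuv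
        + Dv * Buu + Du * Bvv + Ev * Cuu + Eu * Cvv)
      = (N - Ev) * Cuu + (M - Eu) * Cvv + (n - Dv) * Buu + (m - Du) * Bvv
        + 2 * ((N2 - σ') * Cuv) + 2 * ((n2 - σ) * Buv) - 2 * ((N2 - σ') * σ' * (Auu + Avv))
        - 2 * (N * σ' * Avu) - 2 * (M * σ' * Auv)
        + (N - k) * Dv + (M - k) * Du + 2 * ((N2 - σ' - k) * f)
        + n * X1 * (N * X1) + n * M * (X2 * X2) + 2 * (N2 * (n * X1 * X2))
        - 2 * (n * σ' * (Du * f)) - n * k * ((Du + f) * (Du + f))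
        + m * X4 * (M * X4) + m * N * (X3 * X3) + 2 * (N2 * (m * X4 * X3))
        - 2 * (m * σ' * (f * Dv)) - m * k * ((f + Dv) * (f + Dv))
        + 2 * (n2 * (N * X1 * X3)) + 2 * (n2 * (X2 * (M * X4))) + 2 * (n2 * N2 * (X2 * X3))
        - 2 * (n2 * σ' * (Du * Dv + f * f)) - 2 * (n2 * k * ((Du + f) * (f + Dv)))
        + 2 * ((n2 * N2 - σ * σ') * (Auu * Avv)) - 2 * (n2 * N2 * (σ' * f * (Auu + Avv)))
        + 2 * (n2 * N2 * (f * f)) := by
    rw [hX1, hX2, hX3, hX4]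
    linear_combination (2 * n2 * N2 * f * f - 2 * (Auu + Avv)) * sq'
  rw [eq]
  have L0 : 0 ≤ L := by linarith
  obtain ⟨e1, he1⟩ : ∃ p, p = L * (ru + rv) * μ := ⟨_, rfl⟩
  obtain ⟨e2, he2⟩ : ∃ p, p = ru * rv * μ := ⟨_, rfl⟩
  obtain ⟨e3, he3⟩ : ∃ p, p = L * (pv * φ + pv ^ 2) * ru := ⟨_, rfl⟩
  obtain ⟨e4, he4⟩ : ∃ p, p = L * (pu * φ + pu ^ 2) * rv := ⟨_, rfl⟩
  obtain ⟨e5, he5⟩ : ∃ p, p = δ * w := ⟨_, rfl⟩
  obtain ⟨e6, he6⟩ : ∃ p, p = (φ + pu * pv) * (ru * rv + ru + rv) := ⟨_, rfl⟩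
  obtain ⟨e7, he7⟩ : ∃ p,
    p = o ^ 2 + pv ^ 2 * ru ^ 2 + pu ^ 2 * rv ^ 2 + du ^ 2 + dv ^ 2 + φ ^ 2 := ⟨_, rfl⟩
  have E : L * (ru + rv) * μ + ru * rv * μ
      + L * (pv * φ + pv ^ 2) * ru + L * (pu * φ + pu ^ 2) * rv
      + δ * w + (φ + pu * pv) * (ru * rv + ru + rv)
      + o ^ 2 + pv ^ 2 * ru ^ 2 + pu ^ 2 * rv ^ 2 + du ^ 2 + dv ^ 2 + φ ^ 2
      = e1 + e2 + e3 + e4 + e5 + e6 + e7 := by
    rw [he1, he2, he3, he4, he5, he6, he7]; ring
  rw [E]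
  rw [← he7] at hβ2
  have z1 : 0 ≤ e1 := by rw [he1]; positivity
  have z2 : 0 ≤ e2 := by rw [he2]; positivity
  have z3 : 0 ≤ e3 := by rw [he3]; positivity
  have z4 : 0 ≤ e4 := by rw [he4]; positivity
  have z5 : 0 ≤ e5 := by rw [he5]; positivity
  have z6 : 0 ≤ e6 := by rw [he6]; positivity
  have z7 : 0 ≤ e7 := by rw [he7]; positivity
  have Lru : 0 ≤ L * ru := mul_nonneg L0 ru0
  have Lrv : 0 ≤ L * rv := mul_nonneg L0 rv0
  have m1 : (ru + rv) * μ ≤ e1 := by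
    rw [he1, mul_assoc]
    exact le_mul_of_one_le_left (by positivity) hL
  have q1 : 3 * (μ + pv * (φ + μ) + pv ^ 2) * (L * ru) ≤ 3 * e1 + 6 * e3 := by
    have h1 : μ + pv * (φ + μ) + pv ^ 2 ≤ μ + 2 * (pv * φ + pv ^ 2) := by
      linarith [mul_le_mul_of_nonneg_left μv pv0, mul_nonneg pv0 φ0]
    have h2 := mul_le_mul_of_nonneg_right h1 Lru
    have h3 := mul_nonneg Lrv μ0
    rw [he1, he3]; linarith
  have q2 : 3 * (μ + pu * (φ + μ) + pu ^ 2) * (L * rv) ≤ 3 * e1 + 6 * e4 := by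
    have h1 : μ + pu * (φ + μ) + pu ^ 2 ≤ μ + 2 * (pu * φ + pu ^ 2) := by
      linarith [mul_le_mul_of_nonneg_left μu pu0, mul_nonneg pu0 φ0]
    have h2 := mul_le_mul_of_nonneg_right h1 Lrv
    have h3 := mul_nonneg Lru μ0
    rw [he1, he4]; linarith
  have q3 : 2 * δ * w = 2 * e5 := by rw [he5]; ring
  have rr0 : 0 ≤ ru * rv := mul_nonneg ru0 rv0
  have g0 : 0 ≤ φ + pu * pv := by linarith
  have q4 : 2 * δ * 1 * (ru + rv) ≤ 2 * e1 + 2 * e6 := by
    have h1 := mul_nonneg g0 rr0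
    rw [he6, hδ]; linarith
  have oβ : o ≤ β := by linarith
  have β0 : 0 ≤ β := by linarith
  have μo : μ * o ≤ 2 * e1 := by
    have := mul_le_mul_of_nonneg_left ho μ0
    linarith
  have q5 : 2 * pv * 1 * o ≤ 2 * (β * β) + 4 * e1 := by
    have h1 : dv * o ≤ β * β := mul_le_mul (by linarith) oβ o0 β0
    rw [hpv]; linarith
  have q6 : 2 * pu * 1 * o ≤ 2 * (β * β) + 4 * e1 := by
    have h1 : du * o ≤ β * β := mul_le_mul (by linarith) oβ o0 β0
    rw [hpu]; linarith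
  have q7 : 6 * δ * (ru * rv) ≤ 6 * e2 + 6 * e6 := by
    have h1 := mul_nonneg g0 (add_nonneg ru0 rv0)
    rw [he6, he2, hδ]; linarith
  have q8 : 2 * 2 * (φ * (ru + rv)) ≤ 4 * e6 := by
    have h1 := mul_nonneg g0 rr0
    have h2 := mul_nonneg pp0 (add_nonneg ru0 rv0)
    rw [he6]; linarith
  rw [abs_le]
  constructor
  · linarith [r1.1, r2.1, r3.1, r4.1, r5.1, r6.1, r7.2, r8.2, r9.2, r10.1, r11.1, r12.1, r13.1,
      r14.1, r15.1, r16.2, r17.2, r18.1, r19.1, r20.1, r21.2, r22.2, r23.1, r24.1, r25.1, r26.2,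
      r27.2, r28.1, r29.2, r30.1]
  · linarith [r1.2, r2.2, r3.2, r4.2, r5.2, r6.2, r7.1, r8.1, r9.1, r10.2, r11.2, r12.2, r13.2,
      r14.2, r15.2, r16.1, r17.1, r18.2, r19.2, r20.2, r21.1, r22.1, r23.2, r24.2, r25.2, r26.1,
      r27.1, r28.2, r29.1, r30.2]

section
variable {S : Finset ι} {F G : Matrix ι ι ℝ} {L : ℝ}

/-- entries of a product of two symmetric matrices -/
theorem prod_le (hF : Mat S F) (hG : Mat S G) (u v : ι) {a b : ℝ} (ha : rr F u ≤ a)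
    (hb : rr G v ≤ b) : ((F * G) u v) ^ 2 ≤ a * b := by
  have h := entry_sq_le F G u v
  rw [hF.transpose, hG.transpose] at h
  exact h.trans (mul_le_mul ha hb (hG.rr_nonneg v) ((hF.rr_nonneg u).trans ha))

theorem abs_le_half {x a b : ℝ} (ha : 0 ≤ a) (hb : 0 ≤ b) (h : x ^ 2 ≤ a * b) :
    |x| ≤ (a + b) / 2 :=
  abs_le_of_sq_le_sq (by nlinarith [sq_nonneg (a - b)]) (by linarith)

theorem triple_le (hF : Mat S F) (hL : OpB L G) (L0 : 0 ≤ L) (u : ι) {a : ℝ} (ha : rr F u ≤ a) :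
    |(F * G * F) u u| ≤ L * a := by
  have h := hL.entry F F u u
  rw [hF.transpose] at h
  have r0 := hF.rr_nonneg u
  refine abs_le_of_sq_le_sq (h.trans ?_) (mul_nonneg L0 (r0.trans ha))
  rw [mul_pow, sq a]
  exact mul_le_mul_of_nonneg_left (mul_le_mul ha ha r0 (r0.trans ha)) (sq_nonneg _)

theorem GF (hF : Mat S F) (hG : Mat S G) (i j : ι) : (G * F) i j = (F * G) j i := by
  rw [← Matrix.transpose_apply (F * G), Matrix.transpose_mul, hF.transpose, hG.transpose]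

theorem rF_le (hG : Mat S G) (F : Matrix ι ι ℝ) (u : ι) : rr F u ≤ rb F G u :=
  le_add_of_nonneg_right (hG.rr_nonneg u)
theorem rG_le (hF : Mat S F) (G : Matrix ι ι ℝ) (u : ι) : rr G u ≤ rb F G u :=
  le_add_of_nonneg_left (hF.rr_nonneg u)
theorem rb_nonneg (hF : Mat S F) (hG : Mat S G) (u : ι) : 0 ≤ rb F G u :=
  add_nonneg (hF.rr_nonneg u) (hG.rr_nonneg u)

theorem o2_le (hF : Mat S F) (hG : Mat S G) (u v : ι) :
    o2 F G u v ≤ 2 * (rb F G u + rb F G v) := by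
  have a := rb_nonneg hF hG u
  have b := rb_nonneg hF hG v
  have h1 := abs_le_half a b (prod_le hF hF u v (rF_le hG F u) (rF_le hG F v))
  have h2 := abs_le_half a b (prod_le hF hG u v (rF_le hG F u) (rG_le hF G v))
  have h3 := abs_le_half a b (prod_le hG hF u v (rG_le hF G u) (rF_le hG F v))
  have h4 := abs_le_half a b (prod_le hG hG u v (rG_le hF G u) (rG_le hF G v))
  unfold o2; linarith

theorem o2_sq_le (hF : Mat S F) (hG : Mat S G) (u v : ι) :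
    o2 F G u v ^ 2 ≤ 16 * (rb F G u * rb F G v) := by
  have h1 := prod_le hF hF u v (rF_le hG F u) (rF_le hG F v)
  have h2 := prod_le hF hG u v (rF_le hG F u) (rG_le hF G v)
  have h3 := prod_le hG hF u v (rG_le hF G u) (rF_le hG F v)
  have h4 := prod_le hG hG u v (rG_le hF G u) (rG_le hF G v)
  rw [← sq_abs] at h1 h2 h3 h4
  unfold o2
  generalize |(F * F) u v| = a at *
  generalize |(F * G) u v| = b at *
  generalize |(G * F) u v| = c at *
  generalize |(G * G) u v| = d at *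
  linarith [sq_nonneg (a - b), sq_nonneg (a - c), sq_nonneg (a - d), sq_nonneg (b - c),
    sq_nonneg (b - d), sq_nonneg (c - d)]

theorem diag_le (hF : Mat S F) (hG : Mat S G) (u : ι) : |(F * G) u u| ≤ rb F G u := by
  have a := rb_nonneg hF hG u
  have := abs_le_half a a (prod_le hF hG u u (rF_le hG F u) (rG_le hF G u))
  linarith

theorem ent_sq_le (hF : Mat S F) (hG : Mat S G) (u v : ι) :
    (|F u v| + |G u v|) ^ 2 ≤ 2 * rb F G u := by
  have h1 := hF.sq_le_rr u v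
  have h2 := hG.sq_le_rr u v
  rw [← sq_abs] at h1 h2
  unfold rb
  linarith [sq_nonneg (|F u v| - |G u v|)]
end

theorem pe_le {μ a b p φ : ℝ} (μ0 : 0 ≤ μ) (a0 : 0 ≤ a) (b0 : 0 ≤ b) (ha : a + μ ≤ p) (hb : b ≤ φ) :
    3 * (μ + (a + μ) * (b + μ) + (a + μ) ^ 2) ≤ 3 * (μ + p * (φ + μ) + p ^ 2) := by
  have h0 : 0 ≤ a + μ := by linarith
  have h1 : (a + μ) * (b + μ) ≤ p * (φ + μ) :=
    mul_le_mul ha (by linarith) (by linarith) (by linarith)
  have h2 : (a + μ) ^ 2 ≤ p ^ 2 := pow_le_pow_left₀ h0 ha 2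
  linarith

theorem ph0_le {μ a b c p q φ : ℝ} (μ0 : 0 ≤ μ) (a0 : 0 ≤ a) (c0 : 0 ≤ c) (ha : a + μ ≤ p)
    (hc : c + μ ≤ q) (hb : b ≤ φ) :
    2 * (b + μ + (a + μ) * (c + μ)) ≤ 2 * (φ + μ + p * q) := by
  have h1 : (a + μ) * (c + μ) ≤ p * q := mul_le_mul ha hc (by linarith) (by linarith)
  linarith

theorem pt2_aux {σ σ' L : ℝ} {S : Finset ι} {F G : Matrix ι ι ℝ} {u v : ι}
    (hF : Loc σ S F u v) (hG : Loc σ' S G u v) (hL : 1 ≤ L) (oF : OpB L F) (oG : OpB L G) :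
    |c11 (upd σ S F u v) (upd σ' S G u v) - c11 F G - main2 σ σ' F G u v|
      ≤ 2000 * err2 L S F G u v := by
  have mF := hF.mat
  have mG := hG.mat
  have big := hF.big
  have L0 : 0 ≤ L := by linarith
  have μ0 : (0 : ℝ) ≤ 1 / S.card := by positivity
  have μ1 : (1 : ℝ) / S.card ≤ 1 / 1000 := one_div_le_one_div_of_le (by norm_num) big
  have a1 := abs_nonneg (F u u)
  have a2 := abs_nonneg (F v v)
  have a3 := abs_nonneg (F u v)
  have a4 := abs_nonneg (G u u)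
  have a5 := abs_nonneg (G v v)
  have a6 := abs_nonneg (G u v)
  have hk : |σ' / ((S.card : ℝ) - 2)| ≤ 1 := by
    rw [abs_div, abs_of_pos (by linarith : (0 : ℝ) < S.card - 2), div_le_one (by linarith)]
    have := asg hG.sg; linarith
  have sF : |F v u| = |F u v| := by rw [mF.symm v u]
  have sG : |G v u| = |G u v| := by rw [mG.symm v u]
  have pFu : |F u u| + 1 / (S.card : ℝ) ≤ pb S F G u := by unfold pb; linarith
  have pFv : |F v v| + 1 / (S.card : ℝ) ≤ pb S F G v := by unfold pb; linarith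
  have pGu : |G u u| + 1 / (S.card : ℝ) ≤ pb S F G u := by unfold pb; linarith
  have pGv : |G v v| + 1 / (S.card : ℝ) ≤ pb S F G v := by unfold pb; linarith
  have φF : |F u v| ≤ |F u v| + |G u v| := by linarith
  have φG : |G u v| ≤ |F u v| + |G u v| := by linarith
  have o1 := abs_nonneg ((F * F) u v)
  have o2' := abs_nonneg ((F * G) u v)
  have o3' := abs_nonneg ((G * F) u v)
  have o4 := abs_nonneg ((G * G) u v)
  have key := real2 (σ := σ) (σ' := σ') (k := σ' / ((S.card : ℝ) - 2))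
    (n := n1 σ S F u v) (m := n1 σ S F v u) (n2 := n2 σ S F u v)
    (N := n1 σ' S G u v) (M := n1 σ' S G v u) (N2 := n2 σ' S G u v)
    (f := F u v) (Du := F u u) (Dv := F v v) (Eu := G u u) (Ev := G v v)
    (Auu := (F * G) u u) (Avv := (F * G) v v) (Auv := (F * G) u v) (Avu := (F * G) v u)
    (Buu := (F * G * F) u u) (Bvv := (F * G * F) v v) (Buv := (F * G * F) u v)
    (Cuu := (G * F * G) u u) (Cvv := (G * F * G) v v) (Cuv := (G * F * G) u v)
    (L := L) (μ := 1 / S.card) (ru := rb F G u) (rv := rb F G v)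
    (du := |F u u| + |G u u|) (dv := |F v v| + |G v v|) (φ := |F u v| + |G u v|)
    (o := o2 F G u v) (w := w3 F G u v) (pu := pb S F G u) (pv := pb S F G v)
    (δ := |F u v| + |G u v| + 1 / S.card + pb S F G u * pb S F G v) rfl rfl rfl
    hF.sg hG.sg hL μ0 μ1 (rb_nonneg mF mG u) (rb_nonneg mF mG v)
    (by linarith [hF.du, hG.du]) (by linarith [hF.dv, hG.dv]) (by linarith [hF.f, hG.f])
    hk φF (by linarith) (by linarith)
    (hF.n1_le.trans (by unfold pd; linarith)) (hF.swap.n1_le.trans (by unfold pd; linarith))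
    (hG.n1_le.trans (by unfold pd; linarith)) (hG.swap.n1_le.trans (by unfold pd; linarith))
    (hF.n1_bd.trans (pe_le μ0 a2 a3 pFv φF))
    (hF.swap.n1_bd.trans (pe_le μ0 a1 (abs_nonneg _) pFu (sF.le.trans φF)))
    (hG.n1_bd.trans (pe_le μ0 a5 a6 pGv φG))
    (hG.swap.n1_bd.trans (pe_le μ0 a4 (abs_nonneg _) pGu (sG.le.trans φG)))
    (hF.n2_bd.trans (ph0_le μ0 a1 a2 pFu pFv φF))
    (hG.n2_bd.trans (ph0_le μ0 a4 a5 pGu pGv φG))
    ((n1_lip hG).trans (by linarith)) ((n1_lip hG.swap).trans (by rw [sG]; linarith))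
    ((n2_lip hG).trans (by linarith))
    (diag_le mF mG u) (diag_le mF mG v) (by unfold o2; linarith)
    (by rw [← GF mF mG u v]; unfold o2; linarith) (o2_le mF mG u v)
    (triple_le mF oG L0 u (rF_le mG F u)) (triple_le mF oG L0 v (rF_le mG F v))
    (triple_le mG oF L0 u (rG_le mF G u)) (triple_le mG oF L0 v (rG_le mF G v))
    (by unfold w3; linarith [abs_nonneg ((G * F * G) u v)])
    (by unfold w3; linarith [abs_nonneg ((F * G * F) u v)])
  rw [delta_eq hF hG]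
  refine le_trans key (le_of_eq ?_)
  unfold err2
  ring

theorem crude_real {L μ ru rv du dv φ o w pu pv : ℝ} (hpu : pu = du + μ) (hpv : pv = dv + μ)
    (hL : 1 ≤ L) (μ0 : 0 ≤ μ) (μ1 : μ ≤ 1 / 1000) (ru0 : 0 ≤ ru) (rv0 : 0 ≤ rv)
    (du0 : 0 ≤ du) (dv0 : 0 ≤ dv) (φ0 : 0 ≤ φ) (w0 : 0 ≤ w)
    (du1 : du ≤ 1 / 100) (dv1 : dv ≤ 1 / 100) (φ1 : φ ≤ 1 / 100)
    (ho : o ^ 2 ≤ 16 * (ru * rv)) (hdu : du ^ 2 ≤ 2 * ru) (hdv : dv ^ 2 ≤ 2 * rv)
    (hφ : φ ^ 2 ≤ 2 * ru) :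
    L * (ru + rv) * μ + ru * rv * μ
      + L * (pv * φ + pv ^ 2) * ru + L * (pu * φ + pu ^ 2) * rv
      + (φ + μ + pu * pv) * w + (φ + pu * pv) * (ru * rv + ru + rv)
      + o ^ 2 + pv ^ 2 * ru ^ 2 + pu ^ 2 * rv ^ 2 + du ^ 2 + dv ^ 2 + φ ^ 2
    ≤ 20 * (w + ru + rv + ru * rv + L * (pv * ru + pu * rv) + pv ^ 2 * ru ^ 2 + pu ^ 2 * rv ^ 2) := by
  have L0 : 0 ≤ L := by linarith
  have pu0 : 0 ≤ pu := by linarith
  have pv0 : 0 ≤ pv := by linarith
  have pu1 : pu ≤ 1 / 50 := by linarith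
  have pv1 : pv ≤ 1 / 50 := by linarith
  have Lu : 0 ≤ L * ru := mul_nonneg L0 ru0
  have Lv : 0 ≤ L * rv := mul_nonneg L0 rv0
  have rr0 : 0 ≤ ru * rv := mul_nonneg ru0 rv0
  have pp1 : pu * pv ≤ 1 / 50 := by
    have := mul_le_mul pu1 (show pv ≤ 1 by linarith) pv0 (by norm_num)
    linarith
  have h1 := mul_le_mul_of_nonneg_left (show μ ≤ pv by linarith) Lu
  have h2 := mul_le_mul_of_nonneg_left (show μ ≤ pu by linarith) Lv
  have h3 := mul_le_mul_of_nonneg_left (show μ ≤ 1 by linarith) rr0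
  have h4 := mul_le_mul_of_nonneg_left (show φ + pv ≤ 1 by linarith) (mul_nonneg Lu pv0)
  have h5 := mul_le_mul_of_nonneg_left (show φ + pu ≤ 1 by linarith) (mul_nonneg Lv pu0)
  have h6 := mul_le_mul_of_nonneg_right (show φ + μ + pu * pv ≤ 1 by linarith) w0
  have h7 := mul_le_mul_of_nonneg_right (show φ + pu * pv ≤ 1 by linarith)
    (show 0 ≤ ru * rv + ru + rv by linarith)
  have h8 := mul_nonneg Lu pv0
  have h9 := mul_nonneg Lv pu0
  have h10 : 0 ≤ pv ^ 2 * ru ^ 2 := by positivity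
  have h11 : 0 ≤ pu ^ 2 * rv ^ 2 := by positivity
  linarith

theorem pt2c_aux {σ σ' L : ℝ} {S : Finset ι} {F G : Matrix ι ι ℝ} {u v : ι}
    (hF : Loc σ S F u v) (hG : Loc σ' S G u v) (hL : 1 ≤ L) (oF : OpB L F) (oG : OpB L G) :
    |c11 (upd σ S F u v) (upd σ' S G u v) - c11 F G| ≤ 40002 * crude2 L S F G u v := by
  have mF := hF.mat
  have mG := hG.mat
  have big := hF.big
  have L0 : 0 ≤ L := by linarith
  have μ0 : (0 : ℝ) ≤ 1 / S.card := by positivity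
  have μ1 : (1 : ℝ) / S.card ≤ 1 / 1000 := one_div_le_one_div_of_le (by norm_num) big
  have a1 := abs_nonneg (F u u)
  have a2 := abs_nonneg (F v v)
  have a3 := abs_nonneg (F u v)
  have a4 := abs_nonneg (G u u)
  have a5 := abs_nonneg (G v v)
  have a6 := abs_nonneg (G u v)
  have ru0 := rb_nonneg mF mG u
  have rv0 := rb_nonneg mF mG v
  have w0 : 0 ≤ w3 F G u v := add_nonneg (abs_nonneg _) (abs_nonneg _)
  have h1 := pt2_aux hF hG hL oF oG
  have h2 : err2 L S F G u v ≤ 20 * crude2 L S F G u v := by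
    have := crude_real (L := L) (μ := 1 / S.card) (ru := rb F G u) (rv := rb F G v)
      (du := |F u u| + |G u u|) (dv := |F v v| + |G v v|) (φ := |F u v| + |G u v|)
      (o := o2 F G u v) (w := w3 F G u v) (pu := pb S F G u) (pv := pb S F G v) rfl rfl hL μ0 μ1
      ru0 rv0 (by linarith) (by linarith) (by linarith) w0
      (by linarith [hF.du, hG.du]) (by linarith [hF.dv, hG.dv]) (by linarith [hF.f, hG.f])
      (o2_sq_le mF mG u v) (ent_sq_le mF mG u u) (ent_sq_le mF mG v v) (ent_sq_le mF mG u v)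
    refine le_trans (le_of_eq ?_) this
    unfold err2
    ring
  have h3 : |main2 σ σ' F G u v| ≤ 2 * crude2 L S F G u v := by
    have sa := asg hF.sg
    have sa' := asg hG.sg
    have two : |(2 : ℝ)| ≤ 2 := by norm_num
    have two' : |(-2 : ℝ)| ≤ 2 := by norm_num
    have := aadd (aadd (aadd (aadd (aadd (aadd (aadd
      (amul two' (aadd (diag_le mF mG u) (diag_le mF mG v)))
      (amul (amul (amul (amul two sa) sa') (diag_le mF mG u)) (diag_le mF mG v)))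
      (amul (amul two sa) (le_refl |(F * G * F) u v|)))
      (amul (amul two sa') (le_refl |(G * F * G) u v|)))
      (amul (le_refl |F v v|) (triple_le mF oG L0 u (rF_le mG F u))))
      (amul (le_refl |F u u|) (triple_le mF oG L0 v (rF_le mG F v))))
      (amul (le_refl |G v v|) (triple_le mG oF L0 u (rG_le mF G u))))
      (amul (le_refl |G u u|) (triple_le mG oF L0 v (rG_le mF G v)))
    refine le_trans this ?_
    have b1 := mul_nonneg (mul_nonneg L0 ru0) μ0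
    have b2 := mul_nonneg (mul_nonneg L0 rv0) μ0
    have b3 := mul_nonneg (mul_nonneg L0 ru0) (add_nonneg a2 a5)
    have b4 := mul_nonneg (mul_nonneg L0 rv0) (add_nonneg a1 a4)
    have b5 : 0 ≤ pb S F G v ^ 2 * rb F G u ^ 2 := by positivity
    have b6 : 0 ≤ pb S F G u ^ 2 * rb F G v ^ 2 := by positivity
    have e1 : L * (pb S F G v * rb F G u + pb S F G u * rb F G v)
        = L * rb F G u * (|F v v| + |G v v|) + L * rb F G u * (1 / S.card)
          + L * rb F G v * (|F u u| + |G u u|) + L * rb F G v * (1 / S.card) := by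
      unfold pb; ring
    unfold crude2
    rw [e1]
    unfold w3
    linarith
  have h4 := aadd h1 h3
  rw [sub_add_cancel] at h4
  linarith

end Pt2X

/-- Pointwise change of `tr (F G)`. -/
theorem pt2 : ∃ C : ℝ, 0 ≤ C ∧ ∀ (ι : Type) [Fintype ι] [DecidableEq ι] (σ σ' L : ℝ) (S : Finset ι)
    (F G : Matrix ι ι ℝ) (u v : ι), Loc σ S F u v → Loc σ' S G u v → 1 ≤ L → OpB L F → OpB L G →
    |c11 (upd σ S F u v) (upd σ' S G u v) - c11 F G - main2 σ σ' F G u v| ≤ C * err2 L S F G u v :=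
  ⟨2000, by norm_num, fun _ _ _ _ _ _ _ _ _ _ _ hF hG hL oF oG => Pt2X.pt2_aux hF hG hL oF oG⟩

/-- Crude version. -/
theorem pt2c : ∃ C : ℝ, 0 ≤ C ∧ ∀ (ι : Type) [Fintype ι] [DecidableEq ι] (σ σ' L : ℝ) (S : Finset ι)
    (F G : Matrix ι ι ℝ) (u v : ι), Loc σ S F u v → Loc σ' S G u v → 1 ≤ L → OpB L F → OpB L G →
    |c11 (upd σ S F u v) (upd σ' S G u v) - c11 F G| ≤ C * crude2 L S F G u v :=
  ⟨40002, by norm_num, fun _ _ _ _ _ _ _ _ _ _ _ hF hG hL oF oG => Pt2X.pt2c_aux hF hG hL oF oG⟩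

end Crest.Agent.R62
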