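import Crest.Agent.R62.Der

set_option autoImplicit false
set_option linter.unusedSectionVars false

open Finset Matrix

namespace Crest.Agent.R62

variable {ι : Type} [Fintype ι] [DecidableEq ι]

namespace Tr2bX

section mat
variable {S : Finset ι} {F : Matrix ι ι ℝ} {L : ℝ}

theorem sum2_le_univ (S : Finset ι) (X : ι → ι → ℝ) (h : ∀ u v, 0 ≤ X u v) :
    ∑ u ∈ S, ∑ v ∈ S, X u v ≤ ∑ u, ∑ v, X u v := by
  refine le_trans (sum_le_sum fun u _ => ?_)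
    (sum_le_sum_of_subset_of_nonneg (subset_univ S) fun u _ _ => sum_nonneg fun v _ => h u v)
  exact sum_le_sum_of_subset_of_nonneg (subset_univ S) fun v _ _ => h u v

theorem sum_f_sq (h : Mat S F) : ∑ u ∈ S, ∑ v ∈ S, F u v ^ 2 ≤ a2 F := by
  rw [h.a2_eq_sum]
  exact sum2_le_univ S _ fun _ _ => sq_nonneg _

theorem sum_o_sq (h : Mat S F) : ∑ u ∈ S, ∑ v ∈ S, (F * F) u v ^ 2 ≤ a4 F := by
  rw [h.a4_eq_sum]
  exact sum2_le_univ S _ fun _ _ => sq_nonneg _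

theorem frob3 (h : Mat S F) (hL : OpB L F) :
    ∑ u ∈ S, ∑ v ∈ S, (F * F * F) u v ^ 2 ≤ L ^ 2 * a4 F := by
  refine (sum2_le_univ S _ fun _ _ => sq_nonneg _).trans ?_
  rw [Finset.sum_comm, h.a4_eq_sum, Finset.sum_comm (f := fun u v => (F * F) u v ^ 2), mul_sum]
  refine sum_le_sum fun v _ => ?_
  have h1 := hL.diag (F * F) v
  rw [GenMX.gram_diag, GenMX.gram_diag, ← Matrix.mul_assoc] at h1
  exact h1

theorem diag3 (h : Mat S F) (hL : OpB L F) (h0 : 0 ≤ L) (u : ι) :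
    |(F * F * F) u u| ≤ L * rr F u := by
  have h1 := hL.entry F F u u
  rw [h.transpose] at h1
  have h2 : 0 ≤ L * rr F u := mul_nonneg h0 (h.rr_nonneg u)
  refine abs_le_of_sq_le_sq' ?_ h2 |> abs_le.2
  unfold rr
  nlinarith [h1]

theorem sum_diag3 (h : Mat S F) (hL : OpB L F) (h0 : 0 ≤ L) :
    ∑ u ∈ S, |(F * F * F) u u| ≤ L * a2 F := by
  rw [h.a2_eq, mul_sum]
  exact sum_le_sum fun u _ => diag3 h hL h0 u

theorem R2_le (h : Mat S F) {R : ℝ} (hR : ∀ a, rr F a ≤ R) : R2 S F ≤ R * a2 F := by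
  rw [h.a2_eq, mul_sum]
  refine sum_le_sum fun u _ => ?_
  rw [sq]
  exact mul_le_mul_of_nonneg_right (hR u) (h.rr_nonneg u)

theorem pd_nonneg (S : Finset ι) (F : Matrix ι ι ℝ) (a : ι) : 0 ≤ pd S F a := by
  unfold pd; positivity

/-- `2 |f| + 4 p_u p_v` -/
noncomputable def AA (S : Finset ι) (F : Matrix ι ι ℝ) (u v : ι) : ℝ :=
  2 * |F u v| + 4 * (pd S F u * pd S F v)
noncomputable def BB (F : Matrix ι ι ℝ) (u v : ι) : ℝ := 2 * (rr F u * rr F v) + 2 * rr F u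

/-- half of the error term -/
noncomputable def HH (L : ℝ) (S : Finset ι) (F : Matrix ι ι ℝ) (u v : ι) : ℝ :=
  2 * L * (rr F u * (1 / (S.card : ℝ))) + 2 / (S.card : ℝ) * (rr F u * rr F v)
    + 8 * L * (|F u v| * |rr F u * pd S F v|) + 8 * L * (rr F u * pd S F v ^ 2)
    + |AA S F u v + 1 / (S.card : ℝ)| * |(F * F * F) u v| + |AA S F u v| * |BB F u v|
    + 8 * (F * F) u v ^ 2 + 16 * (rr F u ^ 2 * pd S F v ^ 2) + 4 * (F u u ^ 2 * 1) + 2 * F u v ^ 2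

theorem real_err {L i ru rv du dv f X o : ℝ} (hL : 0 ≤ L) (hi : 0 ≤ i) (hru : 0 ≤ ru)
    (hrv : 0 ≤ rv) (hdu : 0 ≤ du) (hdv : 0 ≤ dv) (hf : 0 ≤ f) (hX : 0 ≤ X) :
    L * ((ru + ru) + (rv + rv)) * i + (ru + ru) * (rv + rv) * i
      + L * ((dv + dv + i) * (f + f) + (dv + dv + i) ^ 2) * (ru + ru)
      + L * ((du + du + i) * (f + f) + (du + du + i) ^ 2) * (rv + rv)
      + (f + f + i + (du + du + i) * (dv + dv + i)) * (X + X)
      + (f + f + (du + du + i) * (dv + dv + i)) * ((ru + ru) * (rv + rv) + (ru + ru) + (rv + rv))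
      + (o + o + o + o) ^ 2 + (dv + dv + i) ^ 2 * (ru + ru) ^ 2 + (du + du + i) ^ 2 * (rv + rv) ^ 2
      + (du + du) ^ 2 + (dv + dv) ^ 2 + (f + f) ^ 2
    ≤ (2 * L * (ru * i) + 2 * i * (ru * rv) + 8 * L * (f * (ru * (dv + i)))
        + 8 * L * (ru * (dv + i) ^ 2) + (2 * f + 4 * ((du + i) * (dv + i)) + i) * X
        + (2 * f + 4 * ((du + i) * (dv + i))) * (2 * (ru * rv) + 2 * ru)
        + 8 * o ^ 2 + 16 * (ru ^ 2 * (dv + i) ^ 2) + 4 * (du ^ 2 * 1) + 2 * f ^ 2)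
      + (2 * L * (rv * i) + 2 * i * (rv * ru) + 8 * L * (f * (rv * (du + i)))
        + 8 * L * (rv * (du + i) ^ 2) + (2 * f + 4 * ((dv + i) * (du + i)) + i) * X
        + (2 * f + 4 * ((dv + i) * (du + i))) * (2 * (rv * ru) + 2 * rv)
        + 8 * o ^ 2 + 16 * (rv ^ 2 * (du + i) ^ 2) + 4 * (dv ^ 2 * 1) + 2 * f ^ 2) := by
  rw [← sub_nonneg]
  ring_nf
  positivity

theorem err2_le (h : Mat S F) (h0 : 0 ≤ L) (u v : ι) :
    err2 L S F F u v ≤ HH L S F u v + HH L S F v u := by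
  have hs3 : (F * F * F) v u = (F * F * F) u v := by
    have : (F * F * F)ᵀ = F * F * F := by
      rw [Matrix.transpose_mul, Matrix.transpose_mul, h.transpose, Matrix.mul_assoc]
    rw [← this, Matrix.transpose_apply, this]
  have hs2 : (F * F) v u = (F * F) u v := by
    rw [← h.sq_transpose, Matrix.transpose_apply, h.sq_transpose]
  have hi : (0 : ℝ) ≤ 1 / (S.card : ℝ) := by positivity
  have hru := h.rr_nonneg u
  have hrv := h.rr_nonneg v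
  have hpu := pd_nonneg S F u
  have hpv := pd_nonneg S F v
  have key := real_err (o := |(F * F) u v|) h0 hi hru hrv (abs_nonneg (F u u)) (abs_nonneg (F v v))
    (abs_nonneg (F u v)) (abs_nonneg ((F * F * F) u v))
  have eA : ∀ a b, |AA S F a b| = AA S F a b := fun a b => abs_of_nonneg (by
    have := pd_nonneg S F a; have := pd_nonneg S F b; unfold AA; positivity)
  have eA' : ∀ a b, |AA S F a b + 1 / (S.card : ℝ)| = AA S F a b + 1 / (S.card : ℝ) :=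
    fun a b => abs_of_nonneg (by
      have := pd_nonneg S F a; have := pd_nonneg S F b; unfold AA; positivity)
  have eB : ∀ a b, |BB F a b| = BB F a b := fun a b => abs_of_nonneg (by
    have := h.rr_nonneg a; have := h.rr_nonneg b; unfold BB; positivity)
  have eP : ∀ a b, |rr F a * pd S F b| = rr F a * pd S F b := fun a b => abs_of_nonneg (by
    have := h.rr_nonneg a; have := pd_nonneg S F b; positivity)
  unfold HH
  rw [eA, eA, eA', eA', eB, eB, eP, eP, hs3, hs2]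
  unfold err2 AA BB rb pb o2 w3 pd
  rw [h.symm v u]
  simp only [sq_abs] at key
  simp only [div_eq_mul_inv, one_mul] at key ⊢
  linarith [key]

theorem sum2_mul (S : Finset ι) (g k : ι → ℝ) :
    ∑ u ∈ S, ∑ v ∈ S, g u * k v = (∑ u ∈ S, g u) * ∑ v ∈ S, k v := (Finset.sum_mul_sum S S g k).symm

theorem sum_AA_sq (h : Mat S F) : ∑ u ∈ S, ∑ v ∈ S, AA S F u v ^ 2
    ≤ 8 * a2 F + 32 * (∑ a ∈ S, pd S F a ^ 2) ^ 2 := by
  have h1 : ∑ u ∈ S, ∑ v ∈ S, AA S F u v ^ 2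
      ≤ ∑ u ∈ S, ∑ v ∈ S, (8 * F u v ^ 2 + 32 * (pd S F u ^ 2 * pd S F v ^ 2)) := by
    refine sum_le_sum fun u _ => sum_le_sum fun v _ => ?_
    unfold AA
    rw [← sq_abs (F u v)]
    nlinarith [sq_nonneg (2 * |F u v| - 4 * (pd S F u * pd S F v))]
  simp only [sum_add_distrib, ← mul_sum] at h1
  rw [← sum_mul, ← sq] at h1
  linarith [sum_f_sq h]

theorem sum_AA_sq' (h : Mat S F) (hm : (0 : ℝ) < S.card) :
    ∑ u ∈ S, ∑ v ∈ S, (AA S F u v + 1 / (S.card : ℝ)) ^ 2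
    ≤ 16 * a2 F + 64 * (∑ a ∈ S, pd S F a ^ 2) ^ 2 + 2 := by
  have h1 : ∑ u ∈ S, ∑ v ∈ S, (AA S F u v + 1 / (S.card : ℝ)) ^ 2
      ≤ ∑ u ∈ S, ∑ v ∈ S, (2 * AA S F u v ^ 2 + 2 * (1 / (S.card : ℝ)) ^ 2) := by
    refine sum_le_sum fun u _ => sum_le_sum fun v _ => ?_
    nlinarith [sq_nonneg (AA S F u v - 1 / (S.card : ℝ))]
  simp only [sum_add_distrib, ← mul_sum, sum_const, nsmul_eq_mul] at h1
  have e : (S.card : ℝ) * (S.card * (1 / (S.card : ℝ)) ^ 2) = 1 := by field_simp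
  have := sum_AA_sq h
  have e2 : (S.card : ℝ) * (S.card * (2 * (1 / (S.card : ℝ)) ^ 2)) = 2 := by field_simp
  linarith

theorem sum_BB_sq (S : Finset ι) (F : Matrix ι ι ℝ) : ∑ u ∈ S, ∑ v ∈ S, BB F u v ^ 2
    ≤ 8 * R2 S F ^ 2 + 8 * (R2 S F * S.card) := by
  have h1 : ∑ u ∈ S, ∑ v ∈ S, BB F u v ^ 2
      ≤ ∑ u ∈ S, ∑ v ∈ S, (8 * (rr F u ^ 2 * rr F v ^ 2) + 8 * (rr F u ^ 2 * 1)) := by
    refine sum_le_sum fun u _ => sum_le_sum fun v _ => ?_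
    unfold BB
    nlinarith [sq_nonneg (2 * (rr F u * rr F v) - 2 * rr F u)]
  simp only [sum_add_distrib, ← mul_sum] at h1
  rw [← sum_mul, ← sum_mul, ← sq] at h1
  simpa [R2] using h1

theorem sum_HH (h : Mat S F) (hL : OpB L F) (h0 : 0 ≤ L) (hm : (0 : ℝ) < S.card) :
    ∑ u ∈ S, ∑ v ∈ S, HH L S F u v
      ≤ 2 * (L * a2 F) + 2 * (a2 F ^ 2 / S.card)
        + 8 * (L * (√(a2 F) * √(R2 S F * ∑ a ∈ S, pd S F a ^ 2)))
        + 8 * (L * (a2 F * ∑ a ∈ S, pd S F a ^ 2))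
        + √(16 * a2 F + 64 * (∑ a ∈ S, pd S F a ^ 2) ^ 2 + 2) * √(L ^ 2 * a4 F)
        + √(8 * a2 F + 32 * (∑ a ∈ S, pd S F a ^ 2) ^ 2)
          * √(8 * R2 S F ^ 2 + 8 * (R2 S F * S.card))
        + 8 * a4 F + 16 * (R2 S F * ∑ a ∈ S, pd S F a ^ 2) + 4 * (D2 S F * S.card) + 2 * a2 F := by
  unfold HH
  simp only [sum_add_distrib]
  have t1 : ∑ u ∈ S, ∑ v ∈ S, 2 * L * (rr F u * (1 / (S.card : ℝ))) = 2 * (L * a2 F) := by
    simp only [← mul_sum]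
    rw [← sum_mul, ← h.a2_eq, sum_const, nsmul_eq_mul]
    field_simp
  have t2 : ∑ u ∈ S, ∑ v ∈ S, 2 / (S.card : ℝ) * (rr F u * rr F v) = 2 * (a2 F ^ 2 / S.card) := by
    simp only [← mul_sum]
    rw [← sum_mul, ← h.a2_eq]
    ring
  have t3 : ∑ u ∈ S, ∑ v ∈ S, 8 * L * (|F u v| * |rr F u * pd S F v|)
      ≤ 8 * (L * (√(a2 F) * √(R2 S F * ∑ a ∈ S, pd S F a ^ 2))) := by
    have e : ∑ u ∈ S, ∑ v ∈ S, 8 * L * (|F u v| * |rr F u * pd S F v|)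
        = 8 * (L * ∑ u ∈ S, ∑ v ∈ S, |F u v| * |rr F u * pd S F v|) := by
      simp only [mul_sum, mul_assoc]
    rw [e]
    have h1 := sum2_mul_le_sqrt S (fun u v => F u v) (fun u v => rr F u * pd S F v)
    have e2 : ∑ u ∈ S, ∑ v ∈ S, (rr F u * pd S F v) ^ 2 = R2 S F * ∑ a ∈ S, pd S F a ^ 2 := by
      simp only [mul_pow]
      rw [sum2_mul]; rfl
    rw [e2] at h1
    have h2 : √(∑ u ∈ S, ∑ v ∈ S, F u v ^ 2) ≤ √(a2 F) := Real.sqrt_le_sqrt (sum_f_sq h)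
    have h3 := h1.trans (mul_le_mul_of_nonneg_right h2 (Real.sqrt_nonneg _))
    exact mul_le_mul_of_nonneg_left (mul_le_mul_of_nonneg_left h3 h0) (by norm_num)
  have t4 : ∑ u ∈ S, ∑ v ∈ S, 8 * L * (rr F u * pd S F v ^ 2)
      = 8 * (L * (a2 F * ∑ a ∈ S, pd S F a ^ 2)) := by
    simp only [← mul_sum]
    rw [← sum_mul, ← h.a2_eq]
    ring
  have t5 : ∑ u ∈ S, ∑ v ∈ S, |AA S F u v + 1 / (S.card : ℝ)| * |(F * F * F) u v|
      ≤ √(16 * a2 F + 64 * (∑ a ∈ S, pd S F a ^ 2) ^ 2 + 2) * √(L ^ 2 * a4 F) := by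
    refine (sum2_mul_le_sqrt S (fun u v => AA S F u v + 1 / (S.card : ℝ))
      (fun u v => (F * F * F) u v)).trans ?_
    exact mul_le_mul (Real.sqrt_le_sqrt (sum_AA_sq' h hm)) (Real.sqrt_le_sqrt (frob3 h hL))
      (Real.sqrt_nonneg _) (Real.sqrt_nonneg _)
  have t6 : ∑ u ∈ S, ∑ v ∈ S, |AA S F u v| * |BB F u v|
      ≤ √(8 * a2 F + 32 * (∑ a ∈ S, pd S F a ^ 2) ^ 2)
          * √(8 * R2 S F ^ 2 + 8 * (R2 S F * S.card)) := by
    refine (sum2_mul_le_sqrt S (fun u v => AA S F u v) (fun u v => BB F u v)).trans ?_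
    exact mul_le_mul (Real.sqrt_le_sqrt (sum_AA_sq h)) (Real.sqrt_le_sqrt (sum_BB_sq S F))
      (Real.sqrt_nonneg _) (Real.sqrt_nonneg _)
  have t7 : ∑ u ∈ S, ∑ v ∈ S, 8 * (F * F) u v ^ 2 ≤ 8 * a4 F := by
    simp only [← mul_sum]
    linarith [sum_o_sq h]
  have t8 : ∑ u ∈ S, ∑ v ∈ S, 16 * (rr F u ^ 2 * pd S F v ^ 2)
      = 16 * (R2 S F * ∑ a ∈ S, pd S F a ^ 2) := by
    simp only [← mul_sum]
    rw [← sum_mul]; rfl
  have t9 : ∑ u ∈ S, ∑ v ∈ S, 4 * (F u u ^ 2 * 1) = 4 * (D2 S F * S.card) := by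
    simp only [← mul_sum]
    rw [← sum_mul, sum_const, nsmul_eq_mul, mul_one]; rfl
  have t10 : ∑ u ∈ S, ∑ v ∈ S, 2 * F u v ^ 2 ≤ 2 * a2 F := by
    simp only [← mul_sum]
    linarith [sum_f_sq h]
  linarith

theorem sum_err2 (h : Mat S F) (h0 : 0 ≤ L) :
    ∑ u ∈ S, ∑ v ∈ S, err2 L S F F u v ≤ 2 * ∑ u ∈ S, ∑ v ∈ S, HH L S F u v := by
  have h1 : ∑ u ∈ S, ∑ v ∈ S, err2 L S F F u v
      ≤ ∑ u ∈ S, ∑ v ∈ S, (HH L S F u v + HH L S F v u) :=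
    sum_le_sum fun u _ => sum_le_sum fun v _ => err2_le h h0 u v
  simp only [sum_add_distrib] at h1
  rw [Finset.sum_comm (f := fun u v => HH L S F v u)] at h1
  linarith

theorem err2_nonneg (h : Mat S F) (h0 : 0 ≤ L) (u v : ι) : 0 ≤ err2 L S F F u v := by
  have hru := h.rr_nonneg u
  have hrv := h.rr_nonneg v
  unfold err2 rb pb o2 w3
  positivity

end mat

theorem ratio {m W K : ℝ} (hm : 10 ≤ m) (hW : 0 ≤ W) (hK : 0 ≤ K) :
    K * m * (m / (m + W)) * (1 - 4 / m + 2 / (m + W) - 8 / m ^ 2)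
      ≤ K * (m - 2) * ((m - 2) / (m - 2 + W)) := by
  have hs : 0 < m + W := by linarith
  have hs2 : 0 < m - 2 + W := by linarith
  have hm0 : 0 < m := by linarith
  have e1 : K * m * (m / (m + W)) * (1 - 4 / m + 2 / (m + W) - 8 / m ^ 2)
      = K * ((m ^ 2 - 4 * m + 2 * m ^ 2 / (m + W) - 8) / (m + W)) := by field_simp
  have e2 : K * (m - 2) * ((m - 2) / (m - 2 + W)) = K * ((m - 2) ^ 2 / (m - 2 + W)) := by
    field_simp
  rw [e1, e2]
  refine mul_le_mul_of_nonneg_left ?_ hK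
  have h1 : m ^ 2 - 4 * m + 2 * m ^ 2 / (m + W) - 8 ≤ (m - 2) ^ 2 * (1 + 2 / (m + W)) := by
    have h2 : m / (m + W) ≤ 1 := by rw [div_le_one hs]; linarith
    have h3 : 0 ≤ 1 / (m + W) := by positivity
    have e3 : (m - 2) ^ 2 * (1 + 2 / (m + W))
        = m ^ 2 - 4 * m + 4 + 2 * m ^ 2 / (m + W) - 8 * (m / (m + W)) + 8 * (1 / (m + W)) := by
      field_simp; ring
    linarith
  refine (div_le_div_of_nonneg_right h1 hs.le).trans ?_
  rw [mul_div_assoc, div_eq_mul_one_div ((m - 2) ^ 2)]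
  refine mul_le_mul_of_nonneg_left ?_ (sq_nonneg _)
  rw [div_le_div_iff₀ hs hs2]
  have e4 : (1 + 2 / (m + W)) * (m - 2 + W) = m + W - 4 / (m + W) := by field_simp; ring
  have : 0 ≤ 4 / (m + W) := by positivity
  linarith

end Tr2bX

end Crest.Agent.R62
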