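import Crest.Agent.R62.Der
import Crest.Agent.R62.Pt2
import Crest.Agent.R62.Tr2bAux

set_option autoImplicit false
set_option linter.unusedSectionVars false

open Finset Matrix

namespace Crest.Agent.R62

variable {ι V : Type} [Fintype ι] [DecidableEq ι] [Fintype V] [DecidableEq V]

namespace Tr2bX

/-- the allowed size of an error term -/
noncomputable def ZZ (c : Ctx ι) : ℝ := c.p.K ^ (2 * c.μ + c.ϱ + 1 / 10)

variable {c : Ctx ι} (hK : Big c.p.K)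
include hK

theorem le_Z {x e : ℝ} (h : Le c.p.K x e) (he : e ≤ 2 * c.μ + c.ϱ + 1 / 10) : x ≤ ZZ c :=
  h.mono hK he

theorem m_pos : 0 < c.m := lt_of_lt_of_le (by norm_num) (Ctx.m_big hK)
theorem L_nn : 0 ≤ c.L := le_trans zero_le_one (Ctx.one_le_L hK)
theorem le_a : Le c.p.K (a2 c.F) (1 + c.μ + c.ϱ + 1 / 100) := (Ctx.sz_T2 hK).2.of_le c.oF.a2_T
theorem le_L : Le c.p.K c.L (c.τ / 4 + 1 / 100) := (Ctx.sz_L hK).2
theorem rr_le (a : ι) : rr c.F a ≤ c.R := by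
  have := Ctx.ro_le hK a
  have := c.oG.mat.rr_nonneg a
  linarith
theorem le_R2' : Le c.p.K (R2 c.S c.F) (2525 + c.ϱ / 2 + 1 / 100 + (1 + c.μ + c.ϱ + 1 / 100)) :=
  (Le.mul hK (Ctx.sz_R hK).2 (le_a hK) c.oF.mat.a2_nonneg).of_le (R2_le c.oF.mat (rr_le hK))
theorem le_P2 : Le c.p.K (∑ a ∈ c.S, pd c.S c.F a ^ 2) (450 + c.ϱ + 1 / 100 + 1 / 100) :=
  (Le.cmul hK (Ctx.sz_TD hK).2 (C := 4) (by norm_num) (by norm_num)).of_le (Ctx.P2_le hK)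
theorem le_D2 : Le c.p.K (D2 c.S c.F) (450 + c.ϱ + 1 / 100) := (Ctx.sz_TD hK).2.of_le c.oF.D2_T
theorem le_L2 : Le c.p.K (c.L ^ 2) (c.τ / 2 + 2 / 100) :=
  (Le.pow hK (le_L hK) (L_nn hK) 2).mono hK (by push_cast; linarith)
theorem le_a4 : Le c.p.K (a4 c.F) (c.τ / 2 + 2 / 100 + (1 + c.μ + c.ϱ + 1 / 100)) :=
  (Le.mul hK (le_L2 hK) (le_a hK) c.oF.mat.a2_nonneg).of_le (c.oF.mat.a4_le (Ctx.opB hK))
theorem le_a4' : Le c.p.K (a4 c.F) (2 * (1 + c.μ + c.ϱ + 1 / 100)) :=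
  ((Le.pow hK (le_a hK) c.oF.mat.a2_nonneg 2).mono hK (by push_cast; linarith)).of_le
    c.oF.mat.a4_le_sq
theorem le_a4'' : Le c.p.K (a4 c.F) (c.τ + 1 / 100) := (Ctx.sz_T4 hK).2.of_le c.oF.a4_T
theorem le_La : Le c.p.K (c.L * a2 c.F) (c.τ / 4 + 1 / 100 + (1 + c.μ + c.ϱ + 1 / 100)) :=
  Le.mul hK (le_L hK) (le_a hK) c.oF.mat.a2_nonneg

theorem La_le : c.L * a2 c.F ≤ ZZ c := by
  have := Ctx.μ_lo hK
  refine le_Z hK (le_La hK) ?_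
  rcases c.cases_W with ⟨h1, h2, h3⟩ | ⟨h1, h2, h3⟩ <;> linarith

theorem a_le : a2 c.F ≤ ZZ c := by
  have := Ctx.μ_lo hK
  exact le_Z hK (le_a hK) (by linarith)

theorem e1 : |∑ u, ∑ v, c.w u v * (c.F * c.F * c.F) u v| ≤ 2 * ZZ c := by
  have hμ := Ctx.μ_lo hK
  have h := c.G7 (fun u v => (c.F * c.F * c.F) u v) (c.oF.mat.sum_sum_mul c.oF.mat c.F)
  have h1 : |∑ u ∈ c.S, (c.F * c.F * c.F) u u| ≤ ZZ c :=
    ((abs_sum_le_sum_abs _ _).trans (sum_diag3 c.oF.mat (Ctx.opB hK) (L_nn hK))).trans (La_le hK)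
  have h2 : √(c.p.Gam2 c.m * c.m) * √(∑ u ∈ c.S, ∑ v ∈ c.S, (c.F * c.F * c.F) u v ^ 2) ≤ ZZ c := by
    have h3 := frob3 c.oF.mat (Ctx.opB hK)
    by_cases hI : c.p.phI c.m
    · have h4 := (Ctx.phI_iff hK).1 hI
      have h5 := (Le.mul hK (le_L2 hK) (le_a4'' hK) c.oF.mat.a4_nonneg).of_le h3
      have h6 := Le.mul hK (Ctx.le_Gam2_I hK) (Ctx.le_m hK) (m_pos hK).le
      refine le_Z hK (Le.mul hK (h6.sqrt hK) (h5.sqrt hK) (Real.sqrt_nonneg _)) ?_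
      rcases c.cases_W with ⟨h1, h2, h3⟩ | ⟨h1, h2, h3⟩ <;> linarith
    · have h4 : c.μ ≤ 7195 := not_lt.1 fun h => hI ((Ctx.phI_iff hK).2 h)
      have h5 := (Le.mul hK (le_L2 hK) (le_a4' hK) c.oF.mat.a4_nonneg).of_le h3
      have h6 := Le.mul hK (Ctx.le_Gam2 hK hI) (Ctx.le_m hK) (m_pos hK).le
      refine le_Z hK (Le.mul hK (h6.sqrt hK) (h5.sqrt hK) (Real.sqrt_nonneg _)) ?_
      rcases c.cases_W with ⟨h1, h2, h3⟩ | ⟨h1, h2, h3⟩ <;> linarith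
  have h7 := abs_le.1 (h.trans h2)
  have h8 := abs_le.1 h1
  exact abs_le.2 ⟨by linarith, by linarith⟩

theorem e2 : ∑ u, ∑ v, c.w u v * ((c.F * c.F * c.F) u u * c.F v v) ≤ 2 * ZZ c := by
  have hμ := Ctx.μ_lo hK
  have h := c.G6 (fun u => (c.F * c.F * c.F) u u) (fun v => c.F v v)
  have h0 := sum_diag3 c.oF.mat (Ctx.opB hK) (L_nn hK)
  have h0' : Le c.p.K (∑ u ∈ c.S, |(c.F * c.F * c.F) u u|) _ := (le_La hK).of_le h0
  have h1 : (∑ u ∈ c.S, (c.F * c.F * c.F) u u) * ∑ v ∈ c.S, c.F v v ≤ ZZ c := by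
    refine (le_abs_self _).trans ?_
    rw [abs_mul, ← c.oF.mat.t1_eq]
    have h2 : Le c.p.K |∑ u ∈ c.S, (c.F * c.F * c.F) u u| _ :=
      h0'.of_le (abs_sum_le_sum_abs _ _)
    by_cases hI : c.p.phI c.m
    · have h4 := (Ctx.phI_iff hK).1 hI
      refine le_Z hK (Le.mul hK h2 (Ctx.le_t hK) (abs_nonneg _)) ?_
      rcases c.cases_W with ⟨h1, h2, h3⟩ | ⟨h1, h2, h3⟩ <;> linarith
    · have h4 : c.μ ≤ 7195 := not_lt.1 fun h => hI ((Ctx.phI_iff hK).2 h)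
      refine le_Z hK (Le.mul hK h2 ((Ctx.sz_kt hK).2.of_le (Ctx.le_t' hK hI)) (abs_nonneg _)) ?_
      rcases c.cases_W with ⟨h1, h2, h3⟩ | ⟨h1, h2, h3⟩ <;> linarith
  have h2 : c.p.eps c.m * √c.m * √(∑ v ∈ c.S, c.F v v ^ 2) * ∑ u ∈ c.S, |(c.F * c.F * c.F) u u|
      ≤ ZZ c := by
    have h3 := Le.mul hK (Le.mul hK (Le.mul hK (Ctx.le_eps hK) ((Ctx.le_m hK).sqrt hK)
      (Real.sqrt_nonneg _)) ((le_D2 hK).sqrt hK) (Real.sqrt_nonneg _)) h0'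
      (sum_nonneg fun _ _ => abs_nonneg _)
    refine le_Z hK h3 ?_
    rcases c.cases_W with ⟨h1, h2, h3⟩ | ⟨h1, h2, h3⟩ <;> linarith
  have h7 := abs_le.1 (h.trans h2)
  linarith [h7.2]

theorem e3 : ∑ u, ∑ v, c.w u v * err2 c.L c.S c.F c.F u v ≤ 120 * ZZ c := by
  have hμ := Ctx.μ_lo hK
  have hm := m_pos hK
  have hM := c.oF.mat
  have h1 := c.sum_le_crude (X := fun u v => err2 c.L c.S c.F c.F u v) (fun _ _ _ => le_rfl)
    (fun u _ v _ => err2_nonneg hM (L_nn hK) u v)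
  have h2 := sum_err2 hM (L_nn hK)
  have h3 := sum_HH hM (Ctx.opB hK) (L_nn hK) hm
  have hP0 : 0 ≤ ∑ a ∈ c.S, pd c.S c.F a ^ 2 := sum_nonneg fun _ _ => sq_nonneg _
  have hR0 : 0 ≤ R2 c.S c.F := sum_nonneg fun _ _ => sq_nonneg _
  have ha := le_a hK
  have hP := le_P2 hK
  have hR := le_R2' hK
  have hL := le_L hK
  have hPP := Le.pow hK hP hP0 2
  have hRP := Le.mul hK hR hP hP0
  have t1 := La_le hK
  have t0 := a_le hK
  have t2 : a2 c.F ^ 2 / c.S.card ≤ ZZ c := by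
    refine le_trans ?_ t0
    show a2 c.F ^ 2 / c.m ≤ a2 c.F
    rw [div_le_iff₀ hm, sq]
    exact mul_le_mul_of_nonneg_left (Ctx.a2_le_m hK) hM.a2_nonneg
  have t3 : c.L * (√(a2 c.F) * √(R2 c.S c.F * ∑ a ∈ c.S, pd c.S c.F a ^ 2)) ≤ ZZ c := by
    refine le_Z hK (Le.mul hK hL (Le.mul hK (ha.sqrt hK) (hRP.sqrt hK) (Real.sqrt_nonneg _))
      (by positivity)) ?_
    rcases c.cases_W with ⟨h1, h2, h3⟩ | ⟨h1, h2, h3⟩ <;> linarith
  have t4 : c.L * (a2 c.F * ∑ a ∈ c.S, pd c.S c.F a ^ 2) ≤ ZZ c := by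
    refine le_Z hK (Le.mul hK hL (Le.mul hK ha hP hP0) (mul_nonneg hM.a2_nonneg hP0)) ?_
    rcases c.cases_W with ⟨h1, h2, h3⟩ | ⟨h1, h2, h3⟩ <;> linarith
  have hA : Le c.p.K (8 * a2 c.F + 32 * (∑ a ∈ c.S, pd c.S c.F a ^ 2) ^ 2)
      (1 + c.μ + c.ϱ + 1 / 10 + 1 / 100) := by
    have e : 32 * (∑ a ∈ c.S, pd c.S c.F a ^ 2) ^ 2
        = 4 * (8 * (∑ a ∈ c.S, pd c.S c.F a ^ 2) ^ 2) := by ring
    rw [e]
    refine Le.add hK (Le.cmul hK ha (by norm_num) (by norm_num))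
      (Le.cmul hK (Le.cmul hK hPP (by norm_num) (by norm_num)) (by norm_num) (by norm_num))
      (by linarith) ?_
    push_cast
    rcases c.cases_W with ⟨h1, h2, h3⟩ | ⟨h1, h2, h3⟩ <;> linarith
  have t5 : √(16 * a2 c.F + 64 * (∑ a ∈ c.S, pd c.S c.F a ^ 2) ^ 2 + 2) * √(c.L ^ 2 * a4 c.F)
      ≤ ZZ c := by
    have e : 16 * a2 c.F + 64 * (∑ a ∈ c.S, pd c.S c.F a ^ 2) ^ 2 + 2
        = 2 * (8 * a2 c.F + 32 * (∑ a ∈ c.S, pd c.S c.F a ^ 2) ^ 2 + 1) := by ring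
    rw [e]
    have h4 := Le.cmul hK (C := 2) (Le.add hK hA Le.one (g := c.μ + 2) (by
      rcases c.cases_W with ⟨h1, h2, h3⟩ | ⟨h1, h2, h3⟩ <;> linarith) (by linarith))
      (by norm_num) (by norm_num)
    have h5 := Le.mul hK (le_L2 hK) (le_a4' hK) hM.a4_nonneg
    refine le_Z hK (Le.mul hK (h4.sqrt hK) (h5.sqrt hK) (Real.sqrt_nonneg _)) ?_
    rcases c.cases_W with ⟨h1, h2, h3⟩ | ⟨h1, h2, h3⟩ <;> linarith
  have t6 : √(8 * a2 c.F + 32 * (∑ a ∈ c.S, pd c.S c.F a ^ 2) ^ 2)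
      * √(8 * R2 c.S c.F ^ 2 + 8 * (R2 c.S c.F * c.S.card)) ≤ ZZ c := by
    have h4 := Le.add hK (Le.cmul hK (C := 8) (Le.pow hK hR hR0 2) (by norm_num) (by norm_num))
      (Le.cmul hK (C := 8) (Le.mul hK hR (Ctx.le_m hK) hm.le) (by norm_num) (by norm_num))
      (g := 3 * c.μ + c.ϱ - 10)
      (by push_cast; rcases c.cases_W with ⟨h1, h2, h3⟩ | ⟨h1, h2, h3⟩ <;> linarith)
      (by rcases c.cases_W with ⟨h1, h2, h3⟩ | ⟨h1, h2, h3⟩ <;> linarith)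
    exact le_Z hK (Le.mul hK (hA.sqrt hK) (h4.sqrt hK) (Real.sqrt_nonneg _)) (by linarith)
  have t7 : a4 c.F ≤ ZZ c := by
    refine le_Z hK (le_a4 hK) ?_
    rcases c.cases_W with ⟨h1, h2, h3⟩ | ⟨h1, h2, h3⟩ <;> linarith
  have t8 : R2 c.S c.F * ∑ a ∈ c.S, pd c.S c.F a ^ 2 ≤ ZZ c := by
    refine le_Z hK hRP ?_
    rcases c.cases_W with ⟨h1, h2, h3⟩ | ⟨h1, h2, h3⟩ <;> linarith
  have t9 : D2 c.S c.F * c.S.card ≤ ZZ c :=
    le_Z hK (Le.mul hK (le_D2 hK) (Ctx.le_m hK) hm.le) (by linarith)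
  have hZ : 0 ≤ ZZ c := hM.a2_nonneg.trans t0
  linarith

theorem e4 : c.p.eps c.m * c.m * a2 c.F ≤ ZZ c :=
  le_Z hK (Le.mul hK (Le.mul hK (Ctx.le_eps hK) (Ctx.le_m hK) (m_pos hK).le) (le_a hK)
    c.oF.mat.a2_nonneg) (by linarith)

theorem e5 : c.p.eps c.m * √c.m * √(R2 c.S c.F) * a2 c.F ≤ ZZ c :=
  le_Z hK (Le.mul hK (Le.mul hK (Le.mul hK (Ctx.le_eps hK) ((Ctx.le_m hK).sqrt hK)
    (Real.sqrt_nonneg _)) ((Ctx.le_R2 hK).sqrt hK) (Real.sqrt_nonneg _)) (le_a hK)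
    c.oF.mat.a2_nonneg) (by linarith)

theorem e6 : c.m / c.p.K * a2 c.F ≤ ZZ c :=
  le_Z hK (Le.mul hK (Le.div hK (Ctx.le_m hK) Ge.self) (le_a hK) c.oF.mat.a2_nonneg) (by linarith)

theorem W_nn : 0 ≤ c.p.W := pow_nonneg hK.pos.le _

theorem a_sq : a2 c.F ^ 2 ≤ c.m ^ 2 / (c.m + c.p.W) * a2 c.F + ZZ c := by
  have hm := m_pos hK
  have hW := W_nn hK
  have hK0 := hK.pos
  have h1 := Ctx.a2_le hK
  have h2 : c.m - (1 - 1 / c.p.K) * (c.p.W * c.p.rho c.m)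
      ≤ c.m ^ 2 / (c.m + c.p.W) + c.m / c.p.K := by
    unfold Par.rho
    generalize c.p.W = W at *
    generalize c.m = m at *
    generalize c.p.K = K at *
    have e : m - (1 - 1 / K) * (W * (m / (m + W)))
        = m ^ 2 / (m + W) + m / K - m / K * (m / (m + W)) := by field_simp; ring
    have : 0 ≤ m / K * (m / (m + W)) := by positivity
    linarith
  have h3 := mul_le_mul_of_nonneg_right (h1.trans h2) c.oF.mat.a2_nonneg
  have h4 := e6 hK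
  nlinarith

theorem drift {C : ℝ} (hC0 : 0 ≤ C)
    (hC : ∀ u v, c.w u v ≠ 0 → |c11 (c.F' u v) (c.F' u v) - c11 c.F c.F - main2 c.σ c.σ c.F c.F u v|
      ≤ C * err2 c.L c.S c.F c.F u v) :
    ∑ u, ∑ v, c.w u v * a2 (c.F' u v)
      ≤ c.Ω * a2 c.F - 4 * (c.m * a2 c.F) + 2 * (c.m ^ 2 / (c.m + c.p.W) * a2 c.F)
        + (24 + 120 * C) * ZZ c := by
  have hM := c.oF.mat
  have hσ : c.σ * c.σ = 1 := by rcases c.sg with h | h <;> simp [h]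
  have h1 : ∑ u, ∑ v, c.w u v * a2 (c.F' u v)
      ≤ ∑ u, ∑ v, c.w u v * (a2 c.F - 2 * rr c.F u - 2 * rr c.F v + 2 * (rr c.F u * rr c.F v)
        + 4 * c.σ * (c.F * c.F * c.F) u v + 2 * ((c.F * c.F * c.F) u u * c.F v v)
        + 2 * ((c.F * c.F * c.F) v v * c.F u u) + C * err2 c.L c.S c.F c.F u v) := by
    refine c.sum_le_sum' fun u v hw => ?_
    have h := (abs_le.1 (hC u v hw)).2
    have e : main2 c.σ c.σ c.F c.F u v = - 2 * rr c.F u - 2 * rr c.F v + 2 * (rr c.F u * rr c.F v)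
        + 4 * c.σ * (c.F * c.F * c.F) u v + 2 * ((c.F * c.F * c.F) u u * c.F v v)
        + 2 * ((c.F * c.F * c.F) v v * c.F u u) := by
      unfold main2 rr
      linear_combination (2 * (c.F * c.F) u u * (c.F * c.F) v v) * hσ
    rw [e] at h
    unfold c11 at h
    unfold a2
    linarith
  have e : ∑ u, ∑ v, c.w u v * (a2 c.F - 2 * rr c.F u - 2 * rr c.F v + 2 * (rr c.F u * rr c.F v)
        + 4 * c.σ * (c.F * c.F * c.F) u v + 2 * ((c.F * c.F * c.F) u u * c.F v v)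
        + 2 * ((c.F * c.F * c.F) v v * c.F u u) + C * err2 c.L c.S c.F c.F u v)
      = c.Ω * a2 c.F - 2 * ∑ u, ∑ v, c.w u v * rr c.F u - 2 * ∑ u, ∑ v, c.w u v * rr c.F v
        + 2 * ∑ u, ∑ v, c.w u v * (rr c.F u * rr c.F v)
        + 4 * c.σ * ∑ u, ∑ v, c.w u v * (c.F * c.F * c.F) u v
        + 2 * ∑ u, ∑ v, c.w u v * ((c.F * c.F * c.F) u u * c.F v v)
        + 2 * ∑ u, ∑ v, c.w u v * ((c.F * c.F * c.F) v v * c.F u u)
        + C * ∑ u, ∑ v, c.w u v * err2 c.L c.S c.F c.F u v := by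
    unfold Ctx.Ω
    simp only [mul_sum, sum_mul, ← sum_add_distrib, ← sum_sub_distrib]
    exact sum_congr rfl fun u _ => sum_congr rfl fun v _ => by ring
  rw [e, c.sum_comm' (fun u v => rr c.F v), c.sum_comm' (fun u v => (c.F * c.F * c.F) v v * c.F u u)]
    at h1
  have habs : ∑ u ∈ c.S, |rr c.F u| = a2 c.F := by
    rw [hM.a2_eq]
    exact sum_congr rfl fun u _ => abs_of_nonneg (hM.rr_nonneg u)
  have g1 := c.G6one (fun u => rr c.F u)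
  rw [habs, ← hM.a2_eq] at g1
  have g1' := (abs_le.1 (g1.trans (e4 hK))).1
  have g2 := c.G6 (fun u => rr c.F u) (fun u => rr c.F u)
  rw [habs, ← hM.a2_eq] at g2
  have g2' := (abs_le.1 (g2.trans (e5 hK))).2
  have g3 : c.σ * ∑ u, ∑ v, c.w u v * (c.F * c.F * c.F) u v ≤ 2 * ZZ c := by
    have := abs_le.1 (e1 hK)
    rcases c.sg with h | h <;> rw [h] <;> linarith
  have g4 := e2 hK
  have g5 := mul_le_mul_of_nonneg_left (e3 hK) hC0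
  have g6 := a_sq hK
  nlinarith

end Tr2bX

open Tr2bX in
theorem tr2l : TrOne (fun p m => True) (fun _ _ _ p S F => p2l p S F) := by
  obtain ⟨C, hC0, hC⟩ := pt2
  obtain ⟨K1, hK1⟩ := exists_const (100 + 240 * C) (1 / 10) (by norm_num)
  refine ⟨K1, fun ι _ _ c hK' _ _ => ?_⟩
  obtain ⟨hK, hCK⟩ := hK1 _ hK'
  have hd := drift hK hC0 fun u v hw => hC ι c.σ c.σ c.L c.S c.F c.F u v (Ctx.loc hK hw)
    (Ctx.loc hK hw) (Ctx.one_le_L hK) (Ctx.opB hK) (Ctx.opB hK)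
  have hm := m_pos hK
  have hm10 : 10 ≤ c.m := le_trans (by norm_num) (Ctx.m_big hK)
  have hm100 : 100 ≤ c.m := le_trans (by norm_num) (Ctx.m_big hK)
  have hW := W_nn hK
  have hr : c.p.T2 c.m * (1 - 4 / c.m + 2 / (c.m + c.p.W) - 8 / c.m ^ 2) ≤ c.p.T2 (c.m - 2) :=
    ratio hm10 hW hK.pos.le
  have hT : 0 < c.p.T2 c.m := (Ctx.sz_T2 hK).1.pos hK
  have hκ : 1 / 2 ≤ 1 - 4 / c.m + 2 / (c.m + c.p.W) - 8 / c.m ^ 2 := by
    have h1 : 4 / c.m ≤ 1 / 4 := by rw [div_le_iff₀ hm]; linarith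
    have h2 : 8 / c.m ^ 2 ≤ 1 / 4 := by rw [div_le_iff₀ (by positivity)]; nlinarith
    have h3 : 0 ≤ 2 / (c.m + c.p.W) := by positivity
    linarith
  have hT2 : c.p.T2 c.m / 2 ≤ c.p.T2 (c.m - 2) := by nlinarith
  have hT' : 0 < c.p.T2 (c.m - 2) := by linarith
  have e : ∑ u, ∑ v, c.w u v * p2l c.p (rem c.S u v) (c.F' u v)
      = (∑ u, ∑ v, c.w u v * a2 (c.F' u v)) / c.p.T2 (c.m - 2) := by
    rw [sum_div]
    refine sum_congr rfl fun u _ => ?_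
    rw [sum_div]
    refine sum_congr rfl fun v _ => ?_
    by_cases hw : c.w u v = 0
    · simp [hw]
    · unfold p2l
      rw [Ctx.card_rem' hK hw, mul_div_assoc]
  show ∑ u, ∑ v, c.w u v * p2l c.p (rem c.S u v) (c.F' u v) ≤ c.Ω * (a2 c.F / c.p.T2 c.m + c.η)
  rw [e, div_le_iff₀ hT']
  have ha0 := c.oF.mat.a2_nonneg
  have hΩ := Ctx.Ω_pos hK
  have hZ : 0 ≤ ZZ c := ha0.trans (a_le hK)
  -- the error budget
  have b1 : (100 + 240 * C) * ZZ c ≤ c.Ω * c.η * c.p.T2 c.m := by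
    have h1 : Le c.p.K (ZZ c) (2 * c.μ + c.ϱ + 1 / 10) := le_rfl
    exact (Le.mul hK hCK h1 hZ).le_of_ge hK (Ge.mul hK (Ctx.ge_Ωη hK) (Ctx.sz_T2 hK).1) (by linarith)
  have hη : 0 ≤ c.Ω * c.η := ((Ctx.ge_Ωη hK).pos hK).le
  have b2 : (50 + 120 * C) * ZZ c ≤ c.Ω * c.η * c.p.T2 (c.m - 2) := by
    have := mul_le_mul_of_nonneg_left hT2 hη
    linarith
  -- the main terms
  have b3 : c.Ω * a2 c.F * (1 - 4 / c.m + 2 / (c.m + c.p.W) - 8 / c.m ^ 2)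
      ≤ c.Ω * (a2 c.F / c.p.T2 c.m) * c.p.T2 (c.m - 2) := by
    have h1 := mul_le_mul_of_nonneg_left hr (show 0 ≤ c.Ω * (a2 c.F / c.p.T2 c.m) by positivity)
    have e1 : c.Ω * (a2 c.F / c.p.T2 c.m)
        * (c.p.T2 c.m * (1 - 4 / c.m + 2 / (c.m + c.p.W) - 8 / c.m ^ 2))
        = c.Ω * a2 c.F * (1 - 4 / c.m + 2 / (c.m + c.p.W) - 8 / c.m ^ 2) := by
      field_simp
    linarith
  have hG := abs_le.1 c.G4
  have hε := e4 hK
  have ha := a_le hK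
  have hε1 : c.p.eps c.m ≤ 1 := by
    have := (Ctx.le_eps hK).mono hK (show (-800 : ℝ) ≤ 0 by norm_num)
    simpa [Le] using this
  have hε0 := c.eps_nonneg'
  have b4 : c.Ω * a2 c.F - 4 * (c.m * a2 c.F) + 2 * (c.m ^ 2 / (c.m + c.p.W) * a2 c.F) - 22 * ZZ c
      ≤ c.Ω * a2 c.F * (1 - 4 / c.m + 2 / (c.m + c.p.W) - 8 / c.m ^ 2) := by
    generalize c.p.W = W at *
    generalize c.p.eps c.m = ε at *
    generalize c.m = m at *
    generalize a2 c.F = a at *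
    generalize c.Ω = Ω at *
    generalize ZZ c = Z at *
    have hs : 0 < m + W := by linarith
    have k1 : Ω / m ≤ m + ε * m := by rw [div_le_iff₀ hm]; nlinarith [hG.2]
    have k2 : Ω / m ^ 2 ≤ 2 := by
      rw [div_le_iff₀ (by positivity)]
      nlinarith [hG.2, mul_le_mul_of_nonneg_right hε1 (sq_nonneg m)]
    have k3 : m ^ 2 / (m + W) - ε * m ≤ Ω / (m + W) := by
      rw [le_div_iff₀ hs, sub_mul, div_mul_cancel₀ _ hs.ne']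
      nlinarith [hG.1, mul_nonneg (mul_nonneg hε0 hm.le) hW]
    have e2 : Ω * a * (1 - 4 / m + 2 / (m + W) - 8 / m ^ 2)
        = Ω * a - 4 * (Ω / m * a) + 2 * (Ω / (m + W) * a) - 8 * (Ω / m ^ 2 * a) := by ring
    have k1' := mul_le_mul_of_nonneg_right k1 ha0
    have k2' := mul_le_mul_of_nonneg_right k2 ha0
    have k3' := mul_le_mul_of_nonneg_right k3 ha0
    rw [e2]
    linarith
  have e3 : c.Ω * (a2 c.F / c.p.T2 c.m + c.η) * c.p.T2 (c.m - 2)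
      = c.Ω * (a2 c.F / c.p.T2 c.m) * c.p.T2 (c.m - 2) + c.Ω * c.η * c.p.T2 (c.m - 2) := by ring
  rw [e3]
  linarith

end Crest.Agent.R62
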