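import Crest.Agent.R62.Der
import Crest.Agent.R62.Pt2

set_option autoImplicit false
set_option linter.unusedSectionVars false

open Finset Matrix

namespace Crest.Agent.R62

variable {ι V : Type} [Fintype ι] [DecidableEq ι] [Fintype V] [DecidableEq V]

namespace T2c

theorem fro_le {L : ℝ} {F : Matrix ι ι ℝ} (h : OpB L F) (A : Matrix ι ι ℝ) :
    ∑ u, ∑ v, (F * A) u v ^ 2 ≤ L ^ 2 * ∑ u, ∑ v, A u v ^ 2 := by
  rw [sum_comm, sum_comm (f := fun u v => A u v ^ 2), mul_sum]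
  refine sum_le_sum fun v _ => ?_
  have := h.diag A v
  simpa only [mul_apply (M := (F * A)ᵀ), mul_apply (M := Aᵀ), transpose_apply, ← sq] using this

theorem sub_le_univ (S : Finset ι) (A : Matrix ι ι ℝ) :
    ∑ u ∈ S, ∑ v ∈ S, A u v ^ 2 ≤ ∑ u, ∑ v, A u v ^ 2 :=
  (sum_le_sum fun _ _ => sum_le_sum_of_subset_of_nonneg (subset_univ S)
    fun _ _ _ => sq_nonneg _).trans
    (sum_le_sum_of_subset_of_nonneg (subset_univ S) fun _ _ _ => sum_nonneg fun _ _ => sq_nonneg _)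

theorem fro_eq {S : Finset ι} {F : Matrix ι ι ℝ} (h : Mat S F) : ∑ u, ∑ v, F u v ^ 2 = a2 F := by
  rw [sum_sq_eq_trace, h.transpose, a2]

theorem fro1 {S : Finset ι} {F : Matrix ι ι ℝ} {m : ℝ} (h : Mat S F) (ha : a2 F ≤ m) :
    ∑ u ∈ S, ∑ v ∈ S, F u v ^ 2 ≤ m := (sub_le_univ S F).trans (by rw [fro_eq h]; exact ha)

theorem fro2 {S : Finset ι} {F G : Matrix ι ι ℝ} {L m : ℝ} (hF : OpB L F) (h : Mat S G)
    (ha : a2 G ≤ m) : ∑ u ∈ S, ∑ v ∈ S, (F * G) u v ^ 2 ≤ L ^ 2 * m :=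
  (sub_le_univ S _).trans ((fro_le hF G).trans
    (mul_le_mul_of_nonneg_left (by rw [fro_eq h]; exact ha) (sq_nonneg _)))

theorem fro3 {S : Finset ι} {F G : Matrix ι ι ℝ} {L m : ℝ} (hF : OpB L F) (hG : OpB L G)
    (h : Mat S F) (ha : a2 F ≤ m) : ∑ u ∈ S, ∑ v ∈ S, (F * G * F) u v ^ 2 ≤ L ^ 4 * m := by
  refine (sub_le_univ S _).trans ?_
  rw [Matrix.mul_assoc]
  refine (fro_le hF _).trans ?_
  rw [show L ^ 4 * m = L ^ 2 * (L ^ 2 * m) by ring]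
  refine mul_le_mul_of_nonneg_left ((fro_le hG _).trans ?_) (sq_nonneg _)
  exact mul_le_mul_of_nonneg_left (by rw [fro_eq h]; exact ha) (sq_nonneg _)

theorem diag3 {S : Finset ι} {F G : Matrix ι ι ℝ} {L : ℝ} (hL : 0 ≤ L) (hG : OpB L G)
    (h : Mat S F) (u : ι) : |(F * G * F) u u| ≤ L * rr F u := by
  have h1 := hG.entry F F u u
  rw [h.transpose] at h1
  refine abs_le_of_sq_le_sq' ?_ (mul_nonneg hL (h.rr_nonneg u)) |> abs_le.2
  rw [mul_pow, sq (rr F u)]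
  exact h1

theorem diag2 {S : Finset ι} {F G : Matrix ι ι ℝ} (hF : Mat S F) (hG : Mat S G) (u : ι) :
    |(F * G) u u| ≤ rb F G u := by
  have h1 := entry_sq_le F G u u
  rw [hF.transpose, hG.transpose] at h1
  have h2 := hF.rr_nonneg u
  have h3 := hG.rr_nonneg u
  refine abs_le_of_sq_le_sq' ?_ (add_nonneg h2 h3) |> abs_le.2
  refine h1.trans ?_
  change rr F u * rr G u ≤ (rr F u + rr G u) ^ 2
  nlinarith [mul_nonneg h2 h3]

/-- the pointwise error bound -/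
theorem err_pt {L m ru rv pu pv φ ω o du dv : ℝ} (hL : 1 ≤ L) (hm : 0 < m) (h1 : 0 ≤ ru)
    (h2 : 0 ≤ rv) (h3 : 0 ≤ pu) (h4 : 0 ≤ pv) (_h5 : 0 ≤ φ) (h6 : φ ≤ 2) (_h7 : 0 ≤ ω)
    (h8 : 0 ≤ du) (h9 : du ≤ pu) (h10 : 0 ≤ dv) (h11 : dv ≤ pv) :
    L * (ru + rv) / m + ru * rv / m + L * (pv * φ + pv ^ 2) * ru + L * (pu * φ + pu ^ 2) * rv
      + (φ + 1 / m + pu * pv) * ω + (φ + pu * pv) * (ru * rv + ru + rv)
      + o ^ 2 + pv ^ 2 * ru ^ 2 + pu ^ 2 * rv ^ 2 + du ^ 2 + dv ^ 2 + φ ^ 2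
    ≤ L / m * (ru * 1) + L / m * (1 * rv) + 1 / m * (ru * rv) + 2 * L * (ru * pv)
      + L * (ru * pv ^ 2) + 2 * L * (pu * rv) + L * (pu ^ 2 * rv)
      + 3 * L ^ 2 * φ ^ 2 + 3 * L ^ 2 / m ^ 2 * (1 * 1) + 3 * L ^ 2 * (pu ^ 2 * pv ^ 2)
      + 1 / L ^ 2 * ω ^ 2 + 3 / L ^ 2 * (ru ^ 2 * rv ^ 2) + 3 / L ^ 2 * (ru ^ 2 * 1)
      + 3 / L ^ 2 * (1 * rv ^ 2) + o ^ 2 + ru ^ 2 * pv ^ 2 + pu ^ 2 * rv ^ 2
      + pu ^ 2 * 1 + 1 * pv ^ 2 + φ ^ 2 := by
  have hL0 : 0 < L := by linarith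
  have hi : 0 ≤ 1 / m := by positivity
  set ψ := φ + 1 / m + pu * pv with hψ
  set ρ := ru * rv + ru + rv with hρ
  have hρ0 : 0 ≤ ρ := by positivity
  have a1 : L * (pv * φ) * ru ≤ 2 * L * (ru * pv) := by
    have := mul_le_mul_of_nonneg_left h6 (by positivity : 0 ≤ L * pv * ru)
    linarith
  have a2 : L * (pu * φ) * rv ≤ 2 * L * (pu * rv) := by
    have := mul_le_mul_of_nonneg_left h6 (by positivity : 0 ≤ L * pu * rv)
    linarith
  have a3 : (φ + pu * pv) * ρ ≤ ψ * ρ := mul_le_mul_of_nonneg_right (by linarith) hρ0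
  have am : ∀ x : ℝ, ψ * x ≤ L ^ 2 / 2 * ψ ^ 2 + 1 / L ^ 2 * x ^ 2 := fun x => by
    have e : L ^ 2 / 2 * ψ ^ 2 + 1 / L ^ 2 * x ^ 2 - ψ * x
        = (L ^ 2 * ψ - x) ^ 2 / (2 * L ^ 2) + x ^ 2 / (2 * L ^ 2) := by
      field_simp; ring
    have : 0 ≤ (L ^ 2 * ψ - x) ^ 2 / (2 * L ^ 2) + x ^ 2 / (2 * L ^ 2) := by positivity
    linarith
  have a4 : ψ ^ 2 ≤ 3 * (φ ^ 2 + (1 / m) ^ 2 + (pu * pv) ^ 2) := by
    rw [hψ]
    nlinarith [sq_nonneg (φ - 1 / m), sq_nonneg (φ - pu * pv), sq_nonneg (1 / m - pu * pv)]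
  have a5 : ρ ^ 2 ≤ 3 * ((ru * rv) ^ 2 + ru ^ 2 + rv ^ 2) := by
    rw [hρ]
    nlinarith [sq_nonneg (ru * rv - ru), sq_nonneg (ru * rv - rv), sq_nonneg (ru - rv)]
  have a6 := mul_le_mul_of_nonneg_left a4 (sq_nonneg L)
  have a7 := mul_le_mul_of_nonneg_left a5 (by positivity : 0 ≤ 1 / L ^ 2)
  have a8 : du ^ 2 ≤ pu ^ 2 := pow_le_pow_left₀ h8 h9 2
  have a9 : dv ^ 2 ≤ pv ^ 2 := pow_le_pow_left₀ h10 h11 2
  have b1 := am ω
  have b2 := am ρ
  have e1 : L * (ru + rv) / m = L / m * (ru * 1) + L / m * (1 * rv) := by ring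
  have e2 : ru * rv / m = 1 / m * (ru * rv) := by ring
  have e3 : L ^ 2 * (3 * (φ ^ 2 + (1 / m) ^ 2 + (pu * pv) ^ 2))
      = 3 * L ^ 2 * φ ^ 2 + 3 * L ^ 2 / m ^ 2 * (1 * 1) + 3 * L ^ 2 * (pu ^ 2 * pv ^ 2) := by ring
  have e4 : 1 / L ^ 2 * (3 * ((ru * rv) ^ 2 + ru ^ 2 + rv ^ 2))
      = 3 / L ^ 2 * (ru ^ 2 * rv ^ 2) + 3 / L ^ 2 * (ru ^ 2 * 1) + 3 / L ^ 2 * (1 * rv ^ 2) := by ring
  rw [e1, e2]
  rw [e3] at a6
  rw [e4] at a7
  linarith

/-- the pointwise bound of the squared crude error -/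
theorem crude_pt {L ru rv pu pv ω M : ℝ} (hM1 : pv ^ 2 * ru ^ 2 ≤ M) (hM2 : pu ^ 2 * rv ^ 2 ≤ M) :
    (ω + ru + rv + ru * rv + L * (pv * ru + pu * rv) + pv ^ 2 * ru ^ 2 + pu ^ 2 * rv ^ 2) ^ 2
    ≤ 8 * ω ^ 2 + 8 * (ru ^ 2 * 1) + 8 * (1 * rv ^ 2) + 8 * (ru ^ 2 * rv ^ 2)
      + 8 * (L ^ 2 + M) * (ru ^ 2 * pv ^ 2) + 8 * (L ^ 2 + M) * (pu ^ 2 * rv ^ 2) := by
  have key : ∀ a b c d e f g h : ℝ, (a + b + c + d + e + f + g + h) ^ 2
      ≤ 8 * (a ^ 2 + b ^ 2 + c ^ 2 + d ^ 2 + e ^ 2 + f ^ 2 + g ^ 2 + h ^ 2) := by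
    intro a b c d e f g h
    have h2 : ∀ x y : ℝ, (x + y) ^ 2 ≤ 2 * x ^ 2 + 2 * y ^ 2 := fun x y => by
      nlinarith [sq_nonneg (x - y)]
    have q1 := h2 (a + b + (c + d)) (e + f + (g + h))
    have q2 := h2 (a + b) (c + d)
    have q3 := h2 (e + f) (g + h)
    have q4 := h2 a b
    have q5 := h2 c d
    have q6 := h2 e f
    have q7 := h2 g h
    rw [show a + b + c + d + e + f + g + h = a + b + (c + d) + (e + f + (g + h)) by ring]
    linarith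
  have h := key ω ru rv (ru * rv) (L * (pv * ru)) (L * (pu * rv)) (pv ^ 2 * ru ^ 2) (pu ^ 2 * rv ^ 2)
  have b1 := mul_le_mul_of_nonneg_right hM1 (by positivity : 0 ≤ pv ^ 2 * ru ^ 2)
  have b2 := mul_le_mul_of_nonneg_right hM2 (by positivity : 0 ≤ pu ^ 2 * rv ^ 2)
  rw [show ω + ru + rv + ru * rv + L * (pv * ru + pu * rv) + pv ^ 2 * ru ^ 2 + pu ^ 2 * rv ^ 2
    = ω + ru + rv + ru * rv + L * (pv * ru) + L * (pu * rv) + pv ^ 2 * ru ^ 2 + pu ^ 2 * rv ^ 2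
    by ring]
  nlinarith

variable (c : Ctx ι)

noncomputable def A1 : ℝ := ∑ a ∈ c.S, rb c.F c.G a
noncomputable def A2 : ℝ := ∑ a ∈ c.S, rb c.F c.G a ^ 2
noncomputable def P1 : ℝ := ∑ a ∈ c.S, pb c.S c.F c.G a
noncomputable def P2 : ℝ := ∑ a ∈ c.S, pb c.S c.F c.G a ^ 2
noncomputable def Φ : ℝ := ∑ u ∈ c.S, ∑ v ∈ c.S, (|c.F u v| + |c.G u v|) ^ 2
noncomputable def W : ℝ := ∑ u ∈ c.S, ∑ v ∈ c.S, w3 c.F c.G u v ^ 2
noncomputable def O : ℝ := ∑ u ∈ c.S, ∑ v ∈ c.S, o2 c.F c.G u v ^ 2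

theorem rb_nn (a : ι) : 0 ≤ rb c.F c.G a :=
  add_nonneg (c.oF.mat.rr_nonneg a) (c.oG.mat.rr_nonneg a)
theorem pb_nn (a : ι) : 0 ≤ pb c.S c.F c.G a := by unfold pb; positivity
theorem A1_nn : 0 ≤ A1 c := sum_nonneg fun a _ => rb_nn c a
theorem A2_nn : 0 ≤ A2 c := sum_nonneg fun _ _ => sq_nonneg _
theorem P1_nn : 0 ≤ P1 c := sum_nonneg fun a _ => pb_nn c a
theorem P2_nn : 0 ≤ P2 c := sum_nonneg fun _ _ => sq_nonneg _
theorem one_sum : ∑ _a ∈ c.S, (1 : ℝ) = c.m := by simp [Ctx.m]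

theorem err_sum (hL : 1 ≤ c.L) (hm : 0 < c.m) :
    ∑ u ∈ c.S, ∑ v ∈ c.S, err2 c.L c.S c.F c.G u v
      ≤ c.L / c.m * (A1 c * c.m) + c.L / c.m * (c.m * A1 c) + 1 / c.m * (A1 c * A1 c)
      + 2 * c.L * (A1 c * P1 c) + c.L * (A1 c * P2 c) + 2 * c.L * (P1 c * A1 c)
      + c.L * (P2 c * A1 c)
      + 3 * c.L ^ 2 * Φ c + 3 * c.L ^ 2 / c.m ^ 2 * (c.m * c.m) + 3 * c.L ^ 2 * (P2 c * P2 c)
      + 1 / c.L ^ 2 * W c + 3 / c.L ^ 2 * (A2 c * A2 c) + 3 / c.L ^ 2 * (A2 c * c.m)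
      + 3 / c.L ^ 2 * (c.m * A2 c) + O c + A2 c * P2 c + P2 c * A2 c
      + P2 c * c.m + c.m * P2 c + Φ c := by
  have hpt : ∀ u v, err2 c.L c.S c.F c.G u v ≤ _ := fun u v =>
    err_pt (L := c.L) (m := c.m) (ru := rb c.F c.G u) (rv := rb c.F c.G v)
      (pu := pb c.S c.F c.G u) (pv := pb c.S c.F c.G v) (φ := |c.F u v| + |c.G u v|)
      (ω := w3 c.F c.G u v) (o := o2 c.F c.G u v) (du := |c.F u u| + |c.G u u|)
      (dv := |c.F v v| + |c.G v v|) hL hm (rb_nn c u) (rb_nn c v) (pb_nn c u) (pb_nn c v)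
      (by positivity) (by linarith [c.oF.ent u v, c.oG.ent u v]) (by unfold w3; positivity)
      (by positivity) (le_add_of_nonneg_right (by positivity))
      (by positivity) (le_add_of_nonneg_right (by positivity))
  refine (sum_le_sum fun u _ => sum_le_sum fun v _ => hpt u v).trans (le_of_eq ?_)
  have e : ∀ (k : ℝ) (f g : ι → ℝ), ∑ u ∈ c.S, ∑ v ∈ c.S, k * (f u * g v)
      = k * ((∑ u ∈ c.S, f u) * ∑ v ∈ c.S, g v) := fun k f g => by
    rw [sum_mul_sum, mul_sum]; exact sum_congr rfl fun u _ => by rw [mul_sum]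
  have e' : ∀ (k : ℝ) (f : ι → ι → ℝ), ∑ u ∈ c.S, ∑ v ∈ c.S, k * f u v
      = k * ∑ u ∈ c.S, ∑ v ∈ c.S, f u v := fun k f => by
    rw [mul_sum]; exact sum_congr rfl fun u _ => by rw [mul_sum]
  simp only [sum_add_distrib]
  rw [e, e, e, e, e, e, e, e' (3 * c.L ^ 2), e, e, e' (1 / c.L ^ 2), e, e, e,
    ← sum_mul_sum, ← sum_mul_sum, ← sum_mul_sum, ← sum_mul_sum, one_sum]
  rfl

theorem crude_sum :
    ∑ u ∈ c.S, ∑ v ∈ c.S, crude2 c.L c.S c.F c.G u v ^ 2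
      ≤ 8 * W c + 8 * (A2 c * c.m) + 8 * (c.m * A2 c) + 8 * (A2 c * A2 c)
      + 8 * (c.L ^ 2 + P2 c * A2 c) * (A2 c * P2 c)
      + 8 * (c.L ^ 2 + P2 c * A2 c) * (P2 c * A2 c) := by
  have hM : ∀ u ∈ c.S, ∀ v ∈ c.S, pb c.S c.F c.G v ^ 2 * rb c.F c.G u ^ 2 ≤ P2 c * A2 c :=
    fun u hu v hv => mul_le_mul
      (single_le_sum (f := fun a => pb c.S c.F c.G a ^ 2) (fun _ _ => sq_nonneg _) hv)
      (single_le_sum (f := fun a => rb c.F c.G a ^ 2) (fun _ _ => sq_nonneg _) hu)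
      (sq_nonneg _) (P2_nn c)
  have hpt : ∀ u ∈ c.S, ∀ v ∈ c.S, crude2 c.L c.S c.F c.G u v ^ 2 ≤ _ := fun u hu v hv =>
    crude_pt (L := c.L) (ru := rb c.F c.G u) (rv := rb c.F c.G v)
      (pu := pb c.S c.F c.G u) (pv := pb c.S c.F c.G v) (ω := w3 c.F c.G u v)
      (hM u hu v hv) (hM v hv u hu)
  refine (sum_le_sum fun u hu => sum_le_sum fun v hv => hpt u hu v hv).trans (le_of_eq ?_)
  have e : ∀ (k : ℝ) (f g : ι → ℝ), ∑ u ∈ c.S, ∑ v ∈ c.S, k * (f u * g v)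
      = k * ((∑ u ∈ c.S, f u) * ∑ v ∈ c.S, g v) := fun k f g => by
    rw [sum_mul_sum, mul_sum]; exact sum_congr rfl fun u _ => by rw [mul_sum]
  have e' : ∀ (k : ℝ) (f : ι → ι → ℝ), ∑ u ∈ c.S, ∑ v ∈ c.S, k * f u v
      = k * ∑ u ∈ c.S, ∑ v ∈ c.S, f u v := fun k f => by
    rw [mul_sum]; exact sum_congr rfl fun u _ => by rw [mul_sum]
  simp only [sum_add_distrib]
  rw [e' 8 (fun u v => w3 c.F c.G u v ^ 2), e, e, e, e, e, one_sum]
  rfl

variable {c} (hK : Big c.p.K) (hI : c.p.phI c.m)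
include hK

theorem a2G : a2 c.G ≤ c.m := Ctx.a2_le_m (c := c.swap) hK

theorem A1_le : A1 c ≤ 2 * c.m := by
  have h1 := Ctx.a2_le_m hK
  have h2 := a2G hK
  rw [c.oF.mat.a2_eq] at h1
  rw [c.oG.mat.a2_eq] at h2
  unfold A1 rb
  rw [sum_add_distrib]
  linarith

theorem P2_le' : P2 c ≤ 4 * (4 * c.p.TD c.m) := by
  have h1 := Ctx.P2_le hK
  have h2 : ∑ a ∈ c.S, pd c.S c.G a ^ 2 ≤ 4 * c.p.TD c.m := Ctx.P2_le (c := c.swap) hK
  have h3 : P2 c ≤ ∑ a ∈ c.S, (2 * pd c.S c.F a ^ 2 + 2 * pd c.S c.G a ^ 2) := by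
    refine sum_le_sum fun a _ => ?_
    have h4 : pb c.S c.F c.G a ≤ pd c.S c.F a + pd c.S c.G a := by
      have : (0 : ℝ) ≤ 1 / (c.S.card : ℝ) := by positivity
      unfold pb pd; linarith
    refine (pow_le_pow_left₀ (pb_nn c a) h4 2).trans ?_
    nlinarith [sq_nonneg (pd c.S c.F a - pd c.S c.G a)]
  rw [sum_add_distrib, ← mul_sum, ← mul_sum] at h3
  linarith

omit hK in
theorem P1_le : P1 c ≤ √(P2 c) * √c.m := by
  have := sum_mul_le_sqrt c.S (pb c.S c.F c.G) (fun _ => 1)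
  simp only [abs_one, mul_one, one_pow, one_sum, fun a => abs_of_nonneg (pb_nn c a)] at this
  exact this

omit hK in
theorem sum2_le {f g h : ι → ι → ℝ} {k a b : ℝ} (hk : 0 ≤ k)
    (hf : ∀ u v, f u v ≤ k * g u v + k * h u v)
    (hg : ∑ u ∈ c.S, ∑ v ∈ c.S, g u v ≤ a) (hh : ∑ u ∈ c.S, ∑ v ∈ c.S, h u v ≤ b) :
    ∑ u ∈ c.S, ∑ v ∈ c.S, f u v ≤ k * a + k * b := by
  refine (sum_le_sum fun u _ => sum_le_sum fun v _ => hf u v).trans ?_
  simp only [sum_add_distrib, ← mul_sum]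
  exact add_le_add (mul_le_mul_of_nonneg_left hg hk) (mul_le_mul_of_nonneg_left hh hk)

omit hK in
theorem abs2 (x y : ℝ) : (|x| + |y|) ^ 2 ≤ 2 * x ^ 2 + 2 * y ^ 2 := by
  nlinarith [sq_nonneg (|x| - |y|), sq_abs x, sq_abs y]

theorem Φ_le : Φ c ≤ 4 * c.m := by
  have := sum2_le (c := c) (by norm_num : (0 : ℝ) ≤ 2) (fun u v => abs2 (c.F u v) (c.G u v))
    (fro1 c.oF.mat (Ctx.a2_le_m hK)) (fro1 c.oG.mat (a2G hK))
  unfold Φ; linarith

theorem W_le : W c ≤ 4 * (c.L ^ 4 * c.m) := by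
  have := sum2_le (c := c) (by norm_num : (0 : ℝ) ≤ 2)
    (fun u v => abs2 ((c.F * c.G * c.F) u v) ((c.G * c.F * c.G) u v))
    (fro3 (Ctx.opB hK) (Ctx.opB_G hK) c.oF.mat (Ctx.a2_le_m hK))
    (fro3 (Ctx.opB_G hK) (Ctx.opB hK) c.oG.mat (a2G hK))
  unfold W w3; linarith

theorem O_le : O c ≤ 4 * (4 * (c.L ^ 2 * c.m)) := by
  have h1 := sum2_le (c := c) (by norm_num : (0 : ℝ) ≤ 2)
    (fun u v => abs2 ((c.F * c.F) u v) ((c.F * c.G) u v))
    (fro2 (Ctx.opB hK) c.oF.mat (Ctx.a2_le_m hK)) (fro2 (Ctx.opB hK) c.oG.mat (a2G hK))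
  have h2 := sum2_le (c := c) (by norm_num : (0 : ℝ) ≤ 2)
    (fun u v => abs2 ((c.G * c.F) u v) ((c.G * c.G) u v))
    (fro2 (Ctx.opB_G hK) c.oF.mat (Ctx.a2_le_m hK)) (fro2 (Ctx.opB_G hK) c.oG.mat (a2G hK))
  have := sum2_le (c := c) (f := fun u v => o2 c.F c.G u v ^ 2) (by norm_num : (0 : ℝ) ≤ 2)
    (fun u v => by
      unfold o2
      nlinarith [sq_nonneg (|(c.F * c.F) u v| + |(c.F * c.G) u v|
        - (|(c.G * c.F) u v| + |(c.G * c.G) u v|))]) h1 h2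
  unfold O; linarith

include hI

theorem A2_le : A2 c ≤ 4 * (4 * c.m) := by
  have hμ := (Ctx.phI_iff hK).1 hI
  have hX : c.p.phX c.m := (Ctx.phX_iff hK).2 (by linarith)
  have h1 := Ctx.R2_le_X hK hX
  have h2 : R2 c.S c.G ≤ 4 * c.m := Ctx.R2_le_X (c := c.swap) hK hX
  have h3 : A2 c ≤ ∑ a ∈ c.S, (2 * rr c.F a ^ 2 + 2 * rr c.G a ^ 2) := by
    refine sum_le_sum fun a _ => ?_
    unfold rb
    nlinarith [sq_nonneg (rr c.F a - rr c.G a)]
  rw [sum_add_distrib, ← mul_sum, ← mul_sum] at h3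
  unfold R2 at h1 h2
  linarith

/-- all exponents -/
theorem sizes : ∃ l : ℝ, l = 5001 - c.μ / 4 ∧ 7195 < c.μ ∧ c.μ ≤ 10001 ∧ Le c.p.K c.L (l + 1 / 100)
    ∧ Ge c.p.K c.L (l - 1 / 100) ∧ Le c.p.K (A1 c) (c.μ + 1) ∧ Le c.p.K (A2 c) (c.μ + 1)
    ∧ Le c.p.K (P2 c) 451 ∧ Le c.p.K (P1 c) (c.μ / 2 + 226) ∧ Le c.p.K (Φ c) (c.μ + 1)
    ∧ Le c.p.K (W c) (4 * l + c.μ + 1) ∧ Le c.p.K (O c) (2 * l + c.μ + 1) := by
  have hμ := (Ctx.phI_iff hK).1 hI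
  have hμ' := Ctx.μ_hi hK
  obtain ⟨-, hϱ, hτ⟩ := c.cases_W.resolve_right (fun h => by linarith [h.1])
  have lem := Ctx.le_m hK
  have m0 := c.m_nonneg'
  have hL := Ctx.sz_L hK
  rw [hτ] at hL
  have hTD := (Ctx.sz_TD hK).2
  rw [hϱ] at hTD
  have L0 : 0 ≤ c.L := le_trans zero_le_one (Ctx.one_le_L hK)
  have lP2 : Le c.p.K (P2 c) 451 :=
    (((hTD.cmul hK (C := 4) (by norm_num) (by norm_num)).cmul hK (C := 4) (by norm_num)
      (by norm_num)).of_le (P2_le' hK)).mono hK (by linarith)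
  refine ⟨_, rfl, hμ, by linarith, hL.2.mono hK (by linarith), hL.1.mono hK (by linarith),
    ((lem.cmul hK (C := 2) (by norm_num) (by norm_num)).of_le (A1_le hK)).mono hK (by linarith),
    (((lem.cmul hK (C := 4) (by norm_num) (by norm_num)).cmul hK (C := 4) (by norm_num)
      (by norm_num)).of_le (A2_le hK hI)).mono hK (by linarith), lP2,
    (((lP2.sqrt hK).mul hK (lem.sqrt hK) (Real.sqrt_nonneg _)).of_le P1_le).mono hK (by linarith),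
    ((lem.cmul hK (C := 4) (by norm_num) (by norm_num)).of_le (Φ_le hK)).mono hK (by linarith),
    ((((hL.2.pow hK L0 4).mul hK lem m0).cmul hK (C := 4) (by norm_num) (by norm_num)).of_le
      (W_le hK)).mono hK (by push_cast; linarith),
    (((((hL.2.pow hK L0 2).mul hK lem m0).cmul hK (C := 4) (by norm_num) (by norm_num)).cmul hK
      (C := 4) (by norm_num) (by norm_num)).of_le (O_le hK)).mono hK (by push_cast; linarith)⟩

theorem err_le : ∑ u ∈ c.S, ∑ v ∈ c.S, err2 c.L c.S c.F c.G u v ≤ 20 * (c.m ^ 2 / c.p.K ^ 5) := by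
  obtain ⟨l, hl, hμ, hμ', lL, gL, lA1, lA2, lP2, lP1, lΦ, lW, lO⟩ := sizes hK hI
  have lem := Ctx.le_m hK
  have gem := Ctx.ge_m hK
  have m0 : 0 < c.m := gem.pos hK
  have L1 := Ctx.one_le_L hK
  have L0 : 0 ≤ c.L := le_trans zero_le_one L1
  have gT : Ge c.p.K (c.m ^ 2 / c.p.K ^ 5) (2 * c.μ - 5) :=
    ((gem.pow hK 2).div hK (Le.K_pow 5) (pow_pos hK.pos 5)).mono hK (by push_cast; linarith)
  have n1 := A1_nn c
  have n2 := A2_nn c
  have n3 := P1_nn c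
  have n4 := P2_nn c
  have n5 : 0 ≤ Φ c := sum_nonneg fun _ _ => sum_nonneg fun _ _ => sq_nonneg _
  have n6 : 0 ≤ W c := sum_nonneg fun _ _ => sum_nonneg fun _ _ => sq_nonneg _
  have l2L := lL.cmul hK (C := 2) (by norm_num) (by norm_num)
  have l3L := (lL.pow hK L0 2).cmul hK (C := 3) (by norm_num) (by norm_num)
  have l1 := Le.inv hK (gL.pow hK 2)
  have l3 := Le.div hK (hK.ten.of_le (x := 3) (by norm_num)) (gL.pow hK 2)
  push_cast at l3L l1 l3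
  have t1 := ((lL.div hK gem).mul hK (lA1.mul hK lem m0.le) (by positivity)).le_of_ge hK gT
    (by linarith)
  have t2 := ((lL.div hK gem).mul hK (lem.mul hK lA1 n1) (by positivity)).le_of_ge hK gT
    (by linarith)
  have t3 := ((Le.inv hK gem).mul hK (lA1.mul hK lA1 n1) (by positivity)).le_of_ge hK gT
    (by linarith)
  have t4 := (l2L.mul hK (lA1.mul hK lP1 n3) (by positivity)).le_of_ge hK gT (by linarith)
  have t5 := (lL.mul hK (lA1.mul hK lP2 n4) (by positivity)).le_of_ge hK gT (by linarith)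
  have t6 := (l2L.mul hK (lP1.mul hK lA1 n1) (by positivity)).le_of_ge hK gT (by linarith)
  have t7 := (lL.mul hK (lP2.mul hK lA1 n1) (by positivity)).le_of_ge hK gT (by linarith)
  have t8 := (l3L.mul hK lΦ n5).le_of_ge hK gT (by linarith)
  have t9 := ((l3L.div hK (gem.pow hK 2)).mul hK (lem.mul hK lem m0.le) (by positivity)).le_of_ge
    hK gT (by push_cast; linarith)
  have t10 := (l3L.mul hK (lP2.mul hK lP2 n4) (by positivity)).le_of_ge hK gT (by linarith)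
  have t11 := (l1.mul hK lW n6).le_of_ge hK gT (by linarith)
  have t12 := (l3.mul hK (lA2.mul hK lA2 n2) (by positivity)).le_of_ge hK gT (by linarith)
  have t13 := (l3.mul hK (lA2.mul hK lem m0.le) (by positivity)).le_of_ge hK gT (by linarith)
  have t14 := (l3.mul hK (lem.mul hK lA2 n2) (by positivity)).le_of_ge hK gT (by linarith)
  have t15 := lO.le_of_ge hK gT (by linarith)
  have t16 := (lA2.mul hK lP2 n4).le_of_ge hK gT (by linarith)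
  have t17 := (lP2.mul hK lA2 n2).le_of_ge hK gT (by linarith)
  have t18 := (lP2.mul hK lem m0.le).le_of_ge hK gT (by linarith)
  have t19 := (lem.mul hK lP2 n4).le_of_ge hK gT (by linarith)
  have t20 := lΦ.le_of_ge hK gT (by linarith)
  have := err_sum c L1 m0
  linarith

theorem crude_le :
    ∑ u ∈ c.S, ∑ v ∈ c.S, crude2 c.L c.S c.F c.G u v ^ 2 ≤ 64 * (c.m ^ 3 / c.p.K ^ 6) := by
  obtain ⟨l, hl, hμ, hμ', lL, gL, lA1, lA2, lP2, lP1, lΦ, lW, lO⟩ := sizes hK hI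
  have lem := Ctx.le_m hK
  have gem := Ctx.ge_m hK
  have m0 : 0 < c.m := gem.pos hK
  have L0 : 0 ≤ c.L := le_trans zero_le_one (Ctx.one_le_L hK)
  have gT : Ge c.p.K (c.m ^ 3 / c.p.K ^ 6) (3 * c.μ - 6) :=
    ((gem.pow hK 3).div hK (Le.K_pow 6) (pow_pos hK.pos 6)).mono hK (by push_cast; linarith)
  have n2 := A2_nn c
  have n4 := P2_nn c
  have lL2 := lL.pow hK L0 2
  push_cast at lL2
  have t1 := lW.le_of_ge hK gT (by linarith)
  have t2 := (lA2.mul hK lem m0.le).le_of_ge hK gT (by linarith)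
  have t3 := (lA2.mul hK lA2 n2).le_of_ge hK gT (by linarith)
  have t4 := (lL2.mul hK (lA2.mul hK lP2 n4) (by positivity)).le_of_ge hK gT (by linarith)
  have t5 := ((lP2.mul hK lA2 n2).mul hK (lA2.mul hK lP2 n4) (by positivity)).le_of_ge hK gT
    (by linarith)
  have := crude_sum c
  linarith

/-- the drift of `-main2` -/
theorem main_le : ∑ u, ∑ v, c.w u v * (-main2 (c.σ) (-c.σ) c.F c.G u v)
    ≤ 4 * c.m * c11 c.F c.G + 2 * c11 c.F c.G ^ 2 + 20 * (c.m ^ 2 / c.p.K ^ 5) := by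
  obtain ⟨l, hl, hμ, hμ', lL, gL, lA1, lA2, lP2, lP1, lΦ, lW, lO⟩ := sizes hK hI
  have lem := Ctx.le_m hK
  have gem := Ctx.ge_m hK
  have m0 : 0 < c.m := gem.pos hK
  have L0 : 0 ≤ c.L := le_trans zero_le_one (Ctx.one_le_L hK)
  have gT : Ge c.p.K (c.m ^ 2 / c.p.K ^ 5) (2 * c.μ - 5) :=
    ((gem.pow hK 2).div hK (Le.K_pow 5) (pow_pos hK.pos 5)).mono hK (by push_cast; linarith)
  have n1 := A1_nn c
  have n2 := A2_nn c
  have n3 := P1_nn c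
  have hF := c.oF.mat
  have hG := c.oG.mat
  have e0 := c.eps_nonneg'
  have lε := Ctx.le_eps_I hK hI
  set g : ι → ℝ := fun a => (c.F * c.G) a a with hg
  have hsum : ∑ a ∈ c.S, g a = c11 c.F c.G := (hF.trace_mul c.G).symm
  have hσ : c.σ * c.σ = 1 := by rcases c.sg with h | h <;> simp [h]
  have hσ' : |c.σ| = 1 := by rcases c.sg with h | h <;> simp [h]
  -- pointwise
  have hpt : ∀ u v, -main2 c.σ (-c.σ) c.F c.G u v ≤ 2 * g u + 2 * g v + 2 * (g u * g v)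
      - 2 * c.σ * (c.F * c.G * c.F) u v + 2 * c.σ * (c.G * c.F * c.G) u v
      + c.L * (rb c.F c.G u * pb c.S c.F c.G v + pb c.S c.F c.G u * rb c.F c.G v) := by
    intro u v
    have key : ∀ a b, -(c.F b b * (c.F * c.G * c.F) a a + c.G b b * (c.G * c.F * c.G) a a)
        ≤ c.L * (rb c.F c.G a * pb c.S c.F c.G b) := fun a b => by
      have d1 := diag3 L0 (Ctx.opB_G hK) hF a
      have d2 := diag3 L0 (Ctx.opB hK) hG a
      have r1 := hF.rr_nonneg a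
      have r2 := hG.rr_nonneg a
      have q1 : -(c.F b b * (c.F * c.G * c.F) a a) ≤ |c.F b b| * (c.L * rr c.F a) :=
        (neg_le_abs _).trans (by rw [abs_mul]; exact mul_le_mul_of_nonneg_left d1 (abs_nonneg _))
      have q2 : -(c.G b b * (c.G * c.F * c.G) a a) ≤ |c.G b b| * (c.L * rr c.G a) :=
        (neg_le_abs _).trans (by rw [abs_mul]; exact mul_le_mul_of_nonneg_left d2 (abs_nonneg _))
      have i0 : (0 : ℝ) ≤ 1 / (c.S.card : ℝ) := by positivity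
      have s1 := abs_nonneg (c.F b b)
      have s2 := abs_nonneg (c.G b b)
      have q3 : 0 ≤ c.L * (rr c.F a * (|c.G b b| + 1 / (c.S.card : ℝ))
          + rr c.G a * (|c.F b b| + 1 / (c.S.card : ℝ))) := by positivity
      unfold rb pb
      linarith
    have k1 := key u v
    have k2 := key v u
    have e : 2 * c.σ * -c.σ * (c.F * c.G) u u * (c.F * c.G) v v = -2 * (g u * g v) := by
      simp only [hg]; linear_combination (-2 * (c.F * c.G) u u * (c.F * c.G) v v) * hσ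
    unfold main2
    rw [e]
    simp only [hg]
    linarith
  refine (c.sum_le_sum' fun u v _ => hpt u v).trans ?_
  have split : ∑ u, ∑ v, c.w u v * (2 * g u + 2 * g v + 2 * (g u * g v)
      - 2 * c.σ * (c.F * c.G * c.F) u v + 2 * c.σ * (c.G * c.F * c.G) u v
      + c.L * (rb c.F c.G u * pb c.S c.F c.G v + pb c.S c.F c.G u * rb c.F c.G v))
      = 2 * ∑ u, ∑ v, c.w u v * g u + 2 * ∑ u, ∑ v, c.w u v * g v
        + 2 * ∑ u, ∑ v, c.w u v * (g u * g v)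
        - 2 * (c.σ * ∑ u, ∑ v, c.w u v * (c.F * c.G * c.F) u v)
        + 2 * (c.σ * ∑ u, ∑ v, c.w u v * (c.G * c.F * c.G) u v)
        + ∑ u, ∑ v, c.w u v *
          (c.L * (rb c.F c.G u * pb c.S c.F c.G v + pb c.S c.F c.G u * rb c.F c.G v)) := by
    simp only [mul_sum, ← sum_add_distrib, ← sum_sub_distrib]
    exact sum_congr rfl fun u _ => sum_congr rfl fun v _ => by ring
  rw [split, ← c.sum_comm' (fun u _ => g u)]
  -- first order
  have s1 : ∑ u, ∑ v, c.w u v * g u ≤ c.m * c11 c.F c.G + c.m ^ 2 / c.p.K ^ 5 := by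
    have h := (abs_le.1 (c.G6one g)).2
    have h2 : ∑ u ∈ c.S, |g u| ≤ A1 c := sum_le_sum fun a _ => diag2 hF hG a
    have h3 := mul_le_mul_of_nonneg_left h2 (mul_nonneg e0 m0.le)
    have h4 := ((lε.mul hK lem m0.le).mul hK lA1 n1).le_of_ge hK gT (by linarith)
    rw [hsum] at h
    linarith
  have s2 : ∑ u, ∑ v, c.w u v * (g u * g v) ≤ c11 c.F c.G ^ 2 + c.m ^ 2 / c.p.K ^ 5 := by
    have h := (abs_le.1 (c.G5 g g)).2
    rw [Real.mul_self_sqrt (sum_nonneg fun _ _ => sq_nonneg _), hsum] at h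
    have h2 : ∑ u ∈ c.S, g u ^ 2 ≤ A2 c := sum_le_sum fun a _ => by
      rw [← sq_abs]; exact pow_le_pow_left₀ (abs_nonneg _) (diag2 hF hG a) 2
    have h3 := mul_le_mul_of_nonneg_left h2 (mul_nonneg e0 m0.le)
    have h4 := ((lε.mul hK lem m0.le).mul hK lA2 n2).le_of_ge hK gT (by linarith)
    linarith
  have s3 : ∀ X : Matrix ι ι ℝ, ∑ u ∈ c.S, ∑ v ∈ c.S, X u v = 0 →
      (∀ u, |X u u| ≤ c.L * rb c.F c.G u) → ∑ u ∈ c.S, ∑ v ∈ c.S, X u v ^ 2 ≤ c.L ^ 4 * c.m →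
      |c.σ * ∑ u, ∑ v, c.w u v * X u v| ≤ 2 * (c.m ^ 2 / c.p.K ^ 5) := by
    intro X h0 hd hf
    have h := c.G7 X h0
    have h2 : |∑ u ∈ c.S, X u u| ≤ c.L * A1 c := by
      refine (abs_sum_le_sum_abs _ _).trans ?_
      unfold A1
      rw [mul_sum]
      exact sum_le_sum fun u _ => hd u
    have h3 := (lL.mul hK lA1 n1).le_of_ge hK gT (by linarith)
    have h4 := ((((Ctx.le_Gam2_I hK).mul hK lem m0.le).sqrt hK).mul hK
      ((((lL.pow hK L0 4).mul hK lem m0.le).of_le hf).sqrt hK) (Real.sqrt_nonneg _)).le_of_ge hK gT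
      (by push_cast; linarith)
    rw [abs_mul, hσ', one_mul]
    have h5 := abs_sub (∑ u, ∑ v, c.w u v * X u v + ∑ u ∈ c.S, X u u) (∑ u ∈ c.S, X u u)
    rw [add_sub_cancel_right] at h5
    linarith
  have s4 := abs_le.1 (s3 (c.F * c.G * c.F) (hF.sum_sum_mul hF c.G)
    (fun u => (diag3 L0 (Ctx.opB_G hK) hF u).trans
      (mul_le_mul_of_nonneg_left (le_add_of_nonneg_right (hG.rr_nonneg u)) L0))
    (fro3 (Ctx.opB hK) (Ctx.opB_G hK) hF (Ctx.a2_le_m hK)))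
  have s5 := abs_le.1 (s3 (c.G * c.F * c.G) (hG.sum_sum_mul hG c.F)
    (fun u => (diag3 L0 (Ctx.opB hK) hG u).trans
      (mul_le_mul_of_nonneg_left (le_add_of_nonneg_left (hF.rr_nonneg u)) L0))
    (fro3 (Ctx.opB_G hK) (Ctx.opB hK) hG (a2G hK)))
  have s6 : ∑ u, ∑ v, c.w u v *
      (c.L * (rb c.F c.G u * pb c.S c.F c.G v + pb c.S c.F c.G u * rb c.F c.G v))
      ≤ 11 / 10 * (2 * (c.L * (A1 c * P1 c))) := by
    refine (c.sum_le_crude (fun _ _ _ => le_rfl) fun u _ v _ => ?_).trans (le_of_eq ?_)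
    · have := rb_nn c u; have := rb_nn c v; have := pb_nn c u; have := pb_nn c v
      positivity
    · simp only [← mul_sum, sum_add_distrib, ← sum_mul]
      unfold A1 P1
      ring
  have s7 := (lL.mul hK (lA1.mul hK lP1 n3) (by positivity)).le_of_ge hK gT (by linarith)
  have T0 := gT.pos hK
  linarith [s4.1, s5.2]

end T2c

set_option maxHeartbeats 800000 in
open T2c in
theorem tr11 : TrTwo (fun _ _ _ p S F G => p11 p S F G) := by
  obtain ⟨C, hC0, hC⟩ := pt2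
  obtain ⟨C', hC0', hC'⟩ := pt2c
  obtain ⟨K1, hK1⟩ := exists_const (C + C') 1 one_pos
  refine ⟨K1, fun ι _ _ c hK hI _ => ?_⟩
  obtain ⟨hK, hCK⟩ := hK1 _ hK
  have hCK' : C + C' ≤ c.p.K := by simpa [Le] using hCK
  have K0 := hK.pos
  have KB : (10 : ℝ) ^ 100 ≤ c.p.K := hK
  have K3 : (1000 : ℝ) ≤ c.p.K := le_trans (by norm_num) KB
  have mB : (1000 : ℝ) ≤ c.m := le_trans (by norm_num) (Ctx.m_big hK)
  have m0 : 0 < c.m := by linarith
  have m2 : 0 < c.m - 2 := by linarith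
  have L1 := Ctx.one_le_L hK
  have hΩ := Ctx.Ω_lo hK
  have hΩ' : c.Ω ≤ 3 / 2 * c.m ^ 2 := by
    have h := (abs_le.1 c.G4).2
    have h2 : c.p.eps c.m ≤ 1 / 2 := by
      have h3 := (Ctx.le_eps hK).le_of_ge hK
        (Ge.one.div hK (Le.self (K := c.p.K)) K0) (by norm_num)
      refine h3.trans ?_
      rw [div_le_div_iff₀ K0 (by norm_num)]; linarith
    nlinarith [sq_nonneg c.m]
  set Z := -c11 c.F c.G with hZ
  set Δ : ι → ι → ℝ := fun u v => -(c11 (c.F' u v) (c.G' u v) - c11 c.F c.G) with hΔ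
  have hZk : Z ≤ c.m / c.p.K := by
    have := c.two.c11_lo hI
    unfold Par.kc at this
    change -(c.m / c.p.K) ≤ _ at this
    linarith
  have main := c.sq_lemma (Z := Z) (k := c.m / c.p.K) (k' := (c.m - 2) / c.p.K) (lam := 2 / c.m)
    (β := 1 / c.p.K ^ 2) (Vr := c.m / c.p.K ^ 3) (e := 0) (Δ := Δ) (by positivity) (by positivity)
    hZk (by positivity) ?_ ?_ ?_ le_rfl
  · have e1 : ∑ u, ∑ v, c.w u v * p11 c.p (rem c.S u v) (c.F' u v) (c.G' u v)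
        ≤ ∑ u, ∑ v, c.w u v * (pp (Z + Δ u v) / ((c.m - 2) / c.p.K) ^ 2) := by
      refine c.sum_le_sum' fun u v h => le_of_eq ?_
      unfold p11 Par.kc
      rw [Ctx.card_rem' hK h]
      congr 2
      simp only [hZ, hΔ]; ring
    refine e1.trans (main.trans ?_)
    refine mul_le_mul_of_nonneg_left (add_le_add (le_of_eq rfl) ?_) c.Ω_nonneg'
    have s0 : 0 < √c.p.K := Real.sqrt_pos.2 K0
    have s1 : √c.p.K * √c.p.K = c.p.K := Real.mul_self_sqrt K0.le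
    have s2 : 12 ≤ √c.p.K := Real.le_sqrt_of_sq_le (by linarith)
    have e2 : 0 + (2 * (c.m / c.p.K) * (1 / c.p.K ^ 2) + c.m / c.p.K ^ 3) / ((c.m - 2) / c.p.K) ^ 2
        = 3 * c.m / (c.p.K * (c.m - 2) ^ 2) := by
      field_simp; ring
    rw [e2, Ctx.η, div_le_div_iff₀ (by positivity) (by positivity)]
    have s3 : c.m ^ 2 ≤ 4 * (c.m - 2) ^ 2 := by nlinarith
    have s4 : 12 * √c.p.K ≤ c.p.K := by nlinarith
    have s5 := mul_le_mul_of_nonneg_left s3 s0.le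
    have s6 := mul_le_mul_of_nonneg_right s4 (sq_nonneg (c.m - 2))
    nlinarith
  · intro hZ0
    have hpt : ∀ u v, c.w u v ≠ 0 →
        Δ u v ≤ -main2 c.σ (-c.σ) c.F c.G u v + C * err2 c.L c.S c.F c.G u v := fun u v h => by
      have := (abs_le.1 (hC ι c.σ (-c.σ) c.L c.S c.F c.G u v (Ctx.loc hK h) (Ctx.loc_G hK h) L1
        (Ctx.opB hK) (Ctx.opB_G hK))).1
      simp only [hΔ, Ctx.F', Ctx.G']
      linarith
    refine (c.sum_le_sum' hpt).trans ?_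
    have split : ∑ u, ∑ v, c.w u v * (-main2 c.σ (-c.σ) c.F c.G u v + C * err2 c.L c.S c.F c.G u v)
        = ∑ u, ∑ v, c.w u v * (-main2 c.σ (-c.σ) c.F c.G u v)
          + C * ∑ u, ∑ v, c.w u v * err2 c.L c.S c.F c.G u v := by
      simp only [mul_sum, ← sum_add_distrib]
      exact sum_congr rfl fun u _ => sum_congr rfl fun v _ => by ring
    have h1 := main_le hK hI
    have h2 : ∑ u, ∑ v, c.w u v * err2 c.L c.S c.F c.G u v ≤ 22 * (c.m ^ 2 / c.p.K ^ 5) := by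
      refine (c.sum_le_crude (fun _ _ _ => le_rfl) fun u _ v _ => ?_).trans ?_
      · have := rb_nn c u; have := rb_nn c v; have := pb_nn c u; have := pb_nn c v
        have : 0 ≤ c.L := by linarith
        have : 0 ≤ w3 c.F c.G u v := by unfold w3; positivity
        unfold err2
        positivity
      · linarith [err_le hK hI]
    have h3 := mul_le_mul (show C ≤ c.p.K by linarith) h2
      (sum_nonneg fun u _ => sum_nonneg fun v _ => mul_nonneg (c.wt.nn u v) (by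
        have := rb_nn c u; have := rb_nn c v; have := pb_nn c u; have := pb_nn c v
        have : 0 ≤ c.L := by linarith
        have : 0 ≤ w3 c.F c.G u v := by unfold w3; positivity
        unfold err2
        positivity)) K0.le
    rw [split]
    have hc : c11 c.F c.G = -Z := by rw [hZ, neg_neg]
    rw [hc] at h1
    have q1 : Z ^ 2 ≤ c.m * Z / 2 := by
      have : c.m / c.p.K ≤ c.m / 2 := div_le_div_of_nonneg_left m0.le (by norm_num) (by linarith)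
      nlinarith
    have q2 : c.Ω * (2 / c.m * Z) ≤ 3 * c.m * Z := by
      refine (mul_le_mul_of_nonneg_right hΩ' (by positivity)).trans (le_of_eq ?_)
      field_simp
    have q3 : c.m ^ 2 / 2 * (1 / c.p.K ^ 2) ≤ c.Ω * (1 / c.p.K ^ 2) :=
      mul_le_mul_of_nonneg_right hΩ (by positivity)
    have q4 : c.m ^ 2 / 2 * (1 / c.p.K ^ 2) = c.p.K ^ 3 / 2 * (c.m ^ 2 / c.p.K ^ 5) := by
      field_simp
    have q5 : 20 + c.p.K * 22 ≤ c.p.K ^ 3 / 2 := by nlinarith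
    have q6 := mul_le_mul_of_nonneg_right q5 (by positivity : 0 ≤ c.m ^ 2 / c.p.K ^ 5)
    have q7 : c.Ω * (-(2 / c.m) * Z + 1 / c.p.K ^ 2)
        = -(c.Ω * (2 / c.m * Z)) + c.Ω * (1 / c.p.K ^ 2) := by ring
    rw [q7]
    rw [q4] at q3
    rw [neg_sq] at h1
    generalize c.m ^ 2 / c.p.K ^ 5 = T at h1 h3 q3 q6
    generalize c.Ω * (2 / c.m * Z) = x1 at q2 ⊢
    generalize c.Ω * (1 / c.p.K ^ 2) = x2 at q3 ⊢
    linarith
  · have hpt : ∀ u v, c.w u v ≠ 0 →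
        Δ u v ^ 2 ≤ C' ^ 2 * crude2 c.L c.S c.F c.G u v ^ 2 := fun u v h => by
      have := hC' ι c.σ (-c.σ) c.L c.S c.F c.G u v (Ctx.loc hK h) (Ctx.loc_G hK h) L1
        (Ctx.opB hK) (Ctx.opB_G hK)
      simp only [hΔ, Ctx.F', Ctx.G']
      rw [neg_sq, ← sq_abs, ← mul_pow]
      exact pow_le_pow_left₀ (abs_nonneg _) this 2
    refine (c.sum_le_crude hpt fun u _ v _ => by positivity).trans ?_
    simp only [← mul_sum]
    have h1 := crude_le hK hI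
    have h2 : C' ^ 2 ≤ c.p.K ^ 2 := pow_le_pow_left₀ hC0' (by linarith) 2
    have h3 := mul_le_mul h2 h1 (sum_nonneg fun _ _ => sum_nonneg fun _ _ => sq_nonneg _)
      (sq_nonneg _)
    have q3 : c.m ^ 2 / 2 * (c.m / c.p.K ^ 3) ≤ c.Ω * (c.m / c.p.K ^ 3) :=
      mul_le_mul_of_nonneg_right hΩ (by positivity)
    have q4 : c.m ^ 2 / 2 * (c.m / c.p.K ^ 3)
        = c.p.K / 2 * (c.p.K ^ 2 * (c.m ^ 3 / c.p.K ^ 6)) := by
      field_simp
    have q6 := mul_le_mul_of_nonneg_right (show (71 : ℝ) ≤ c.p.K / 2 by linarith)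
      (by positivity : 0 ≤ c.p.K ^ 2 * (c.m ^ 3 / c.p.K ^ 6))
    have q7 : 0 ≤ c.p.K ^ 2 * (c.m ^ 3 / c.p.K ^ 6) := by positivity
    linarith
  · have e : (1 - 2 * (2 / c.m)) * (c.m / c.p.K) ^ 2 = (c.m ^ 2 - 4 * c.m) / c.p.K ^ 2 := by
      field_simp; ring
    rw [e, add_zero, one_mul, div_pow]
    exact div_le_div_of_nonneg_right (by nlinarith) (by positivity)

end Crest.Agent.R62
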