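import Crest.Agent.R62.Pt3AuxA

/-! The real-number estimate behind `pt3`, `pt3c`. -/

set_option autoImplicit false

namespace Crest.Agent.R62.Pt3X

theorem amul {x y X Y : ℝ} (hx : |x| ≤ X) (hy : |y| ≤ Y) : |x * y| ≤ X * Y := by
  rw [abs_mul]
  exact mul_le_mul hx hy (abs_nonneg _) ((abs_nonneg _).trans hx)
theorem aadd {x y X Y : ℝ} (hx : |x| ≤ X) (hy : |y| ≤ Y) : |x + y| ≤ X + Y :=
  (abs_add_le _ _).trans (add_le_add hx hy)
theorem asub {x y X Y : ℝ} (hx : |x| ≤ X) (hy : |y| ≤ Y) : |x - y| ≤ X + Y :=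
  (abs_sub _ _).trans (add_le_add hx hy)
theorem acst {x : ℝ} (hx : 0 ≤ x) : |x| ≤ x := (abs_of_nonneg hx).le

/-- one half of the remainder -/
def half (σ a b c κ Y O Z Y1 O1 y rv o su t : ℝ) : ℝ :=
  3 * (a * (rv - 2 * (σ * t))) + 3 * (c * o) + 3 * (κ * su) + 3 * (c * c * Z * (y - 2 * (σ * o)))
    + 3 * (a * a * Y * Y1) + 6 * (a * c * O * Y1) + 6 * (a * c * Y * O1)
    + 3 * ((a * b + c * c) * O * O1)
    + (a * Y + c * O) * (a * Y + c * O) * (a * Y + c * O)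
    + 3 * ((a * O + c * Z) * (c * Y + b * O) * (a * Y + c * O))

theorem half_le {σ a b c κ Y O Z Y1 O1 y rv o su t pu pv φ ω g U V L R E : ℝ}
    (hσ : |σ| ≤ 1) (ha : |a| ≤ 2 * pv) (hb : |b| ≤ 2 * pu) (hc : |c| ≤ 2) (hκ : |κ| ≤ 30 * (φ * V))
    (hY : |Y| ≤ 2 * U) (hO : |O| ≤ ω) (hZ : |Z| ≤ 2 * V) (hY1 : |Y1| ≤ 4 * (L * U))
    (hO1 : |O1| ≤ L * g + 2 * U + 2 * V) (hy : |y| ≤ ω) (hrv : |rv| ≤ V) (ho : |o| ≤ ω)
    (hsu : |su| ≤ L * U) (ht : |t| ≤ L * g)
    (pu0 : 0 ≤ pu) (pu1 : pu ≤ 1) (pv0 : 0 ≤ pv) (pv1 : pv ≤ 1) (ω0 : 0 ≤ ω) (ωg : ω ≤ 3 * g)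
    (gg : g * g = U * V) (gR : g ≤ R) (U1 : 1 ≤ U) (V1 : 1 ≤ V) (UR : U ≤ R) (L1 : 1 ≤ L)
    (E1 : L * (φ * (U * V)) ≤ E) (E2 : ω * (U * V) ≤ E) (E3 : L * (ω * g) ≤ E)
    (E4 : pv * (U * U * V) ≤ E) (E4' : pu * (U * V * V) ≤ E) (E5 : L * (pv * (U * g)) ≤ E)
    (E6 : L * (pv * (U * U)) ≤ E) (E7 : R * (pv * pv * (U * U)) ≤ E) :
    |half σ a b c κ Y O Z Y1 O1 y rv o su t| ≤ 5000 * E := by
  have g0 : 0 ≤ g := by linarith
  have U0 : 0 ≤ U := by linarith
  have V0 : 0 ≤ V := by linarith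
  have L0 : 0 ≤ L := by linarith
  have R0 : 0 ≤ R := by linarith
  have UV1 : 1 ≤ U * V := one_le_mul_of_one_le_of_one_le U1 V1
  have ωω : ω * ω ≤ 9 * (U * V) := by
    have := mul_le_mul ωg ωg ω0 (by linarith)
    nlinarith
  -- elementary monomial bounds
  have m1 : pv * (L * g) ≤ E := by
    refine le_trans ?_ E5
    have : L * (pv * g) * 1 ≤ L * (pv * g) * U := by gcongr
    linarith
  have m2 : pv * V ≤ E := by
    refine le_trans ?_ E4
    have : pv * V * 1 ≤ pv * V * (U * U) := by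
      gcongr; exact one_le_mul_of_one_le_of_one_le U1 U1
    linarith
  have m3 : ω ≤ E := by
    refine le_trans ?_ E2
    have : ω * 1 ≤ ω * (U * V) := by gcongr
    linarith
  have m4 : ω * V ≤ E := by
    refine le_trans ?_ E2
    have : ω * V * 1 ≤ ω * V * U := by gcongr
    linarith
  have m4' : ω * U ≤ E := by
    refine le_trans ?_ E2
    have : ω * U * 1 ≤ ω * U * V := by gcongr
    linarith
  have m5 : pv * pv * U * (L * U) ≤ E := by
    refine le_trans ?_ E6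
    have : L * (pv * (U * U)) * pv ≤ L * (pv * (U * U)) * 1 := by gcongr
    linarith
  have m6 : pv * ω * (L * U) ≤ 3 * E := by
    have : L * (pv * U) * ω ≤ L * (pv * U) * (3 * g) := by gcongr
    linarith
  have m7 : pv * U * U ≤ E := by
    refine le_trans ?_ E4
    have : pv * U * U * 1 ≤ pv * U * U * V := by gcongr
    linarith
  have m8 : pv * U * V ≤ E := by
    refine le_trans ?_ E4
    have : pv * U * V * 1 ≤ pv * U * V * U := by gcongr
    linarith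
  have pp1 : pv * pu ≤ 1 := mul_le_one₀ pv1 pu0 pu1
  have pp0 : 0 ≤ pv * pu := mul_nonneg pv0 pu0
  have m9 : pv * U * (pv * U) * (pv * U) ≤ E := by
    refine le_trans ?_ E7
    have h1 : pv * U ≤ R := by
      have : pv * U ≤ 1 * U := by gcongr
      linarith
    have : pv * U * (pv * U) * (pv * U) ≤ pv * U * (pv * U) * R := by gcongr
    linarith
  have m10 : pv * U * (pv * U) * ω ≤ 3 * E := by
    have : pv * U * (pv * U) * ω ≤ pv * U * (pv * U) * (3 * R) := by gcongr; linarith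
    linarith
  have m11 : pv * U * (ω * ω) ≤ 9 * E := by
    have : pv * U * (ω * ω) ≤ pv * U * (9 * (U * V)) := by gcongr
    linarith
  have m12 : ω * (ω * ω) ≤ 9 * E := by
    have : ω * (ω * ω) ≤ ω * (9 * (U * V)) := by gcongr
    linarith
  have m13 : pu * V * (ω * ω) ≤ 9 * E := by
    have : pu * V * (ω * ω) ≤ pu * V * (9 * (U * V)) := by gcongr
    linarith
  have m14 : pv * pu * (pv * U * (ω * ω)) ≤ 9 * E := by
    have : pv * pu * (pv * U * (ω * ω)) ≤ 1 * (pv * U * (ω * ω)) := by gcongr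
    linarith
  have m15 : pv * pu * (ω * (ω * ω)) ≤ 9 * E := by
    have : pv * pu * (ω * (ω * ω)) ≤ 1 * (ω * (ω * ω)) := by gcongr
    linarith
  have m16 : pv * pu * (ω * (U * V)) ≤ E := by
    have : pv * pu * (ω * (U * V)) ≤ 1 * (ω * (U * V)) := by gcongr
    linarith
  have c2 : |(2 : ℝ)| ≤ 2 := acst (by norm_num)
  have c3 : |(3 : ℝ)| ≤ 3 := acst (by norm_num)
  have c6 : |(6 : ℝ)| ≤ 6 := acst (by norm_num)
  have t1 : |a * (rv - 2 * (σ * t))| ≤ 6 * E :=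
    (amul ha (asub hrv (amul c2 (amul hσ ht)))).trans (by linarith)
  have t2 : |c * o| ≤ 2 * E := (amul hc ho).trans (by linarith)
  have t3 : |κ * su| ≤ 30 * E := (amul hκ hsu).trans (by linarith)
  have t4 : |c * c * Z * (y - 2 * (σ * o))| ≤ 24 * E :=
    (amul (amul (amul hc hc) hZ) (asub hy (amul c2 (amul hσ ho)))).trans (by linarith)
  have t5 : |a * a * Y * Y1| ≤ 32 * E :=
    (amul (amul (amul ha ha) hY) hY1).trans (by linarith)
  have t6 : |a * c * O * Y1| ≤ 48 * E :=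
    (amul (amul (amul ha hc) hO) hY1).trans (by linarith)
  have t7 : |a * c * Y * O1| ≤ 40 * E :=
    (amul (amul (amul ha hc) hY) hO1).trans (by linarith)
  have hab : |a * b + c * c| ≤ 8 := (aadd (amul ha hb) (amul hc hc)).trans (by linarith)
  have t8 : |(a * b + c * c) * O * O1| ≤ 40 * E :=
    (amul (amul hab hO) hO1).trans (by linarith)
  have h11 := aadd (amul ha hY) (amul hc hO)
  have h12 := aadd (amul ha hO) (amul hc hZ)
  have h21 := aadd (amul hc hY) (amul hb hO)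
  have t9 : |(a * Y + c * O) * (a * Y + c * O) * (a * Y + c * O)| ≤ 856 * E :=
    (amul (amul h11 h11) h11).trans (by linarith)
  have t10 : |(a * O + c * Z) * (c * Y + b * O) * (a * Y + c * O)| ≤ 728 * E :=
    (amul (amul h12 h21) h11).trans (by linarith)
  have E0 : 0 ≤ E := ω0.trans m3
  unfold half
  refine (aadd (aadd (aadd (aadd (aadd (aadd (aadd (aadd (aadd (amul c3 t1) (amul c3 t2))
    (amul c3 t3)) (amul c3 t4)) (amul c3 t5)) (amul c6 t6)) (amul c6 t7)) (amul c3 t8)) t9)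
    (amul c3 t10)).trans ?_
  linarith

/-- coefficient of `(F³)_uu` left after removing the main term -/
def kap (σ c Z rv : ℝ) : ℝ := c * c * Z - 2 * σ * c - (rv - 1)

theorem kap_le {σ c f e rv φ : ℝ} (hσ : σ = 1 ∨ σ = -1) (hc : |c - σ| ≤ 2 * φ) (φ1 : φ ≤ 1)
    (hfe : |f| + e ≤ φ) (e0 : 0 ≤ e) (r0 : 0 ≤ rv) (hZ : |rv - 2 * σ * f + 1 - e| ≤ 2 * (1 + rv)) :
    |kap σ c (rv - 2 * σ * f + 1 - e) rv| ≤ 30 * (φ * (1 + rv)) := by
  have hs : |σ| ≤ 1 := by rcases hσ with h | h <;> simp [h]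
  have hs2 : σ * σ = 1 := by rcases hσ with h | h <;> simp [h]
  have φ0 : 0 ≤ φ := by linarith [abs_nonneg f]
  have c2 : |(2 : ℝ)| ≤ 2 := acst (by norm_num)
  have hf : |f| ≤ φ := by linarith
  have he : |e| ≤ φ := by rw [abs_of_nonneg e0]; linarith [abs_nonneg f]
  have h1 : kap σ c (rv - 2 * σ * f + 1 - e) rv
      = (2 * σ * (c - σ) + (c - σ) * (c - σ)) * (rv - 2 * σ * f + 1 - e) - 2 * σ * f - e
        - 2 * σ * (c - σ) := by
    unfold kap
    linear_combination (rv - 2 * σ * f + 1 - e - 2) * hs2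
  have hc' : |c - σ| ≤ 2 := by linarith
  rw [h1]
  refine (asub (asub (asub (amul (aadd (amul (amul c2 hs) hc) (amul hc hc')) hZ)
    (amul (amul c2 hs) hf)) he) (amul (amul c2 hs) hc)).trans ?_
  have : 0 ≤ φ * rv := mul_nonneg φ0 r0
  linarith

theorem poly_eq {σ : ℝ} (a b c e x y f ru rv o su sv t cu cv w : ℝ) :
    poly a b c (ru - 2 * σ * f + 1 - e) (o - σ * x - σ * y - e) (rv - 2 * σ * f + 1 - e)
      (su - 2 * σ * o + y) (t - σ * ru - σ * rv + f) (sv - 2 * σ * o + x)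
      (cu - 2 * σ * t + rv) (w - σ * su - σ * sv + o) (cv - 2 * σ * t + ru)
    = 3 * (ru - 1) * sv + 3 * (rv - 1) * su + 6 * c * w + 3 * (a * cu + b * cv)
      + half σ a b c (kap σ c (rv - 2 * σ * f + 1 - e) rv) (ru - 2 * σ * f + 1 - e)
          (o - σ * x - σ * y - e) (rv - 2 * σ * f + 1 - e) (su - 2 * σ * o + y)
          (t - σ * ru - σ * rv + f) y rv o su t
      + half σ b a c (kap σ c (ru - 2 * σ * f + 1 - e) ru) (rv - 2 * σ * f + 1 - e)
          (o - σ * x - σ * y - e) (ru - 2 * σ * f + 1 - e) (sv - 2 * σ * o + x)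
          (t - σ * ru - σ * rv + f) x ru o sv t := by
  unfold poly half kap
  ring

end Crest.Agent.R62.Pt3X
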