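import Crest.Agent.R62.Upd
import Crest.Agent.R62.GenM
import Crest.Agent.R62.Pt3AuxB

set_option autoImplicit false

open Finset Matrix

namespace Crest.Agent.R62

variable {ι V : Type} [Fintype ι] [DecidableEq ι] [Fintype V] [DecidableEq V]

namespace Pt3X

variable {σ L R : ℝ} {S : Finset ι} {F : Matrix ι ι ℝ} {u v : ι}

theorem cube_diag (hF : Mat S F) (hL : 1 ≤ L) (hO : OpB L F) (u : ι) :
    |(F * F * F) u u| ≤ L * vr F u := by
  have h := hO.entry F F u u
  rw [hF.transpose] at h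
  have r0 := hF.rr_nonneg u
  refine le_trans (abs_le_of_sq_le_sq' ?_ (by positivity : 0 ≤ L * rr F u) |> abs_le.2) ?_
  · rw [mul_pow, sq (rr F u)]; exact h
  · unfold vr; nlinarith

theorem four_nonneg (hF : Mat S F) (u : ι) : 0 ≤ (F * F * F * F) u u := by
  have h := diag_gram_nonneg (F * F) u
  rw [hF.sq_transpose] at h
  simpa only [Matrix.mul_assoc] using h

theorem four_le (hF : Mat S F) (hO : OpB L F) (u : ι) :
    (F * F * F * F) u u ≤ L ^ 2 * vr F u := by
  have h := hO.diag F u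
  rw [hF.sq_transpose, hF.transpose] at h
  have h' : (F * F * F * F) u u ≤ L ^ 2 * rr F u := by
    simpa only [Matrix.mul_assoc, rr] using h
  refine h'.trans (mul_le_mul_of_nonneg_left ?_ (sq_nonneg _))
  unfold vr; linarith

theorem one_le_vr (hF : Mat S F) (u : ι) : 1 ≤ vr F u := by
  unfold vr; linarith [hF.rr_nonneg u]

theorem rr_prod_le (hF : Mat S F) (u v : ι) : rr F u * rr F v ≤ vr F u * vr F v := by
  have := hF.rr_nonneg u; have := hF.rr_nonneg v
  unfold vr; nlinarith

theorem o_le (hF : Mat S F) (u v : ι) : |(F * F) u v| ≤ √(vr F u * vr F v) := by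
  refine Real.abs_le_sqrt ?_
  have h := entry_sq_le F F u v
  rw [hF.transpose] at h
  exact h.trans (rr_prod_le hF u v)

theorem o_le' (hF : Mat S F) (hL : 1 ≤ L) (hO : OpB L F) (u v : ι) :
    |(F * F) u v| ≤ L * vr F u := by
  have h := hO.entry F 1 u v
  rw [hF.transpose, Matrix.mul_one, Matrix.transpose_one, Matrix.mul_one, Matrix.one_apply_eq,
    mul_one] at h
  have r0 := hF.rr_nonneg u
  have h1 := one_le_vr hF u
  refine abs_le.2 (abs_le_of_sq_le_sq' (h.trans ?_) (by positivity))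
  rw [mul_pow]
  refine mul_le_mul_of_nonneg_left ?_ (sq_nonneg _)
  change rr F u ≤ _
  unfold vr; nlinarith

theorem t_le (hF : Mat S F) (hL : 1 ≤ L) (hO : OpB L F) (u v : ι) :
    |(F * F * F) u v| ≤ L * √(vr F u * vr F v) := by
  have h := hO.entry F F u v
  rw [hF.transpose] at h
  have h1 := one_le_vr hF u
  have h2 := one_le_vr hF v
  refine abs_le.2 (abs_le_of_sq_le_sq' (h.trans ?_) (by positivity))
  rw [mul_pow, Real.sq_sqrt (by positivity)]
  exact mul_le_mul_of_nonneg_left (rr_prod_le hF u v) (sq_nonneg _)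

theorem sq_swap (hF : Mat S F) (u v : ι) : (F * F) v u = (F * F) u v := by
  have := congrFun (congrFun hF.sq_transpose u) v
  simpa using this

theorem Y_le (h : Loc σ S F u v) (a : ι) :
    |rr F a - 2 * σ * F u v + 1 - 1 / S.card| ≤ 2 * vr F a := by
  have r0 := h.mat.rr_nonneg a
  have h1 := h.inv_card
  have h2 := abs_le.1 h.f
  unfold vr
  rw [abs_le]
  rcases h.sg with hs | hs <;> rw [hs] <;> constructor <;> linarith [h1.1, h1.2, h2.1, h2.2]

theorem n2_le (h : Loc σ S F u v) : ph0 S F u v ≤ 1 / 100 ∧ |n2 σ S F u v| ≤ 2 := by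
  obtain ⟨a, b, c, d, e, f⟩ := h.small
  have h1 : ph0 S F u v ≤ 1 / 100 := by unfold ph0; nlinarith
  refine ⟨h1, ?_⟩
  have h2 := abs_le.1 h.n2_bd
  rw [abs_le]
  rcases h.sg with hs | hs <;> rw [hs] at h2 ⊢ <;> constructor <;> linarith [h2.1, h2.2]

/-- the common core of both estimates -/
theorem core (h : Loc σ S F u v) (hL : 1 ≤ L) (hO : OpB L F) (hu : vr F u ≤ R) (hv : vr F v ≤ R)
    {E : ℝ} (E1 : L * (ph0 S F u v * (vr F u * vr F v)) ≤ E)
    (E2 : (|(F * F) u v| + pd S F u + pd S F v) * (vr F u * vr F v) ≤ E)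
    (E3 : L * ((|(F * F) u v| + pd S F u + pd S F v) * √(vr F u * vr F v)) ≤ E)
    (E4 : pd S F v * (vr F u * vr F u * vr F v) ≤ E)
    (E4' : pd S F u * (vr F u * vr F v * vr F v) ≤ E)
    (E5 : L * (pd S F v * (vr F u * √(vr F u * vr F v))) ≤ E)
    (E5' : L * (pd S F u * (vr F v * √(vr F u * vr F v))) ≤ E)
    (E6 : L * (pd S F v * (vr F u * vr F u)) ≤ E) (E6' : L * (pd S F u * (vr F v * vr F v)) ≤ E)
    (E7 : R * (pd S F v * pd S F v * (vr F u * vr F u)) ≤ E)
    (E7' : R * (pd S F u * pd S F u * (vr F v * vr F v)) ≤ E) :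
    |a3 (upd σ S F u v) - a3 F - (3 * (rr F u - 1) * (F * F * F) v v
      + 3 * (rr F v - 1) * (F * F * F) u u + 6 * n2 σ S F u v * (F * F * F * F) u v
      + 3 * (n1 σ S F u v * (F * F * F * F) u u + n1 σ S F v u * (F * F * F * F) v v))|
      ≤ 10000 * E := by
  have hF := h.mat
  rw [a3_diff h, poly_eq]
  obtain ⟨ph0', ph1, pu0, pu1, pv0, pv1⟩ := h.small
  obtain ⟨e0, e1⟩ := h.inv_card
  obtain ⟨φ1, hc⟩ := n2_le h
  have hs : |σ| ≤ 1 := by rcases h.sg with h | h <;> simp [h]
  have U1 := one_le_vr hF u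
  have V1 := one_le_vr hF v
  have ru0 := hF.rr_nonneg u
  have rv0 := hF.rr_nonneg v
  have hru : |rr F u| ≤ vr F u := by rw [abs_of_nonneg ru0]; unfold vr; linarith
  have hrv : |rr F v| ≤ vr F v := by rw [abs_of_nonneg rv0]; unfold vr; linarith
  have hx : |F u u| + 1 / S.card = pd S F u := rfl
  have hy : |F v v| + 1 / S.card = pd S F v := rfl
  have hog := o_le hF u v
  have ht := t_le hF hL hO u v
  have o0 := abs_nonneg ((F * F) u v)
  have gg : √(vr F u * vr F v) * √(vr F u * vr F v) = vr F u * vr F v :=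
    Real.mul_self_sqrt (by positivity)
  have g1 : 1 ≤ √(vr F u * vr F v) :=
    Real.one_le_sqrt.2 (one_le_mul_of_one_le_of_one_le U1 V1)
  have gR : √(vr F u * vr F v) ≤ R := by
    rw [Real.sqrt_le_left (by linarith), sq]
    exact mul_le_mul hu hv (by linarith) (by linarith)
  have hfe : |F u v| + 1 / S.card ≤ ph0 S F u v := by
    have : 0 ≤ pd S F u * pd S F v := mul_nonneg pu0 pv0
    unfold ph0 ph; linarith
  have hκv := kap_le h.sg h.n2_bd (by linarith) hfe e0 rv0 (Y_le h v)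
  have hκu := kap_le h.sg h.n2_bd (by linarith) hfe e0 ru0 (Y_le h u)
  have c2 : |(2 : ℝ)| ≤ 2 := acst (by norm_num)
  have hOO : |(F * F) u v - σ * F u u - σ * F v v - 1 / S.card|
      ≤ |(F * F) u v| + pd S F u + pd S F v :=
    (asub (asub (asub le_rfl (amul hs le_rfl)) (amul hs le_rfl)) (acst e0)).trans (by linarith)
  have hLU : 1 ≤ L * vr F u := one_le_mul_of_one_le_of_one_le hL U1
  have hLV : 1 ≤ L * vr F v := one_le_mul_of_one_le_of_one_le hL V1
  have hY1 : |(F * F * F) u u - 2 * σ * (F * F) u v + F v v| ≤ 4 * (L * vr F u) :=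
    (aadd (asub (cube_diag hF hL hO u) (amul (amul c2 hs) (o_le' hF hL hO u v))) h.dv).trans
      (by linarith)
  have hZ1 : |(F * F * F) v v - 2 * σ * (F * F) u v + F u u| ≤ 4 * (L * vr F v) := by
    have := o_le' hF hL hO v u
    rw [sq_swap hF u v] at this
    exact (aadd (asub (cube_diag hF hL hO v) (amul (amul c2 hs) this)) h.du).trans (by linarith)
  have hO1 : |(F * F * F) u v - σ * rr F u - σ * rr F v + F u v|
      ≤ L * √(vr F u * vr F v) + 2 * vr F u + 2 * vr F v :=
    (aadd (asub (asub ht (amul hs hru)) (amul hs hrv)) h.f).trans (by linarith)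
  have ω0 : 0 ≤ |(F * F) u v| + pd S F u + pd S F v := by linarith
  have ωg : |(F * F) u v| + pd S F u + pd S F v ≤ 3 * √(vr F u * vr F v) := by linarith
  have H1 := half_le (E := E) (R := R) (U := vr F u) (V := vr F v) hs h.n1_le h.swap.n1_le hc hκv
    (Y_le h u) hOO (Y_le h v) hY1
    hO1 (y := F v v) (by linarith) hrv (o := (F * F) u v) (by linarith) (cube_diag hF hL hO u) ht
    pu0 (by linarith) pv0 (by linarith) ω0 ωg gg gR U1 V1 hu hL E1 E2 E3 E4 E4' E5 E6 E7
  have H2 := half_le (E := E) (R := R) (U := vr F v) (V := vr F u) hs h.swap.n1_le h.n1_le hc hκu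
    (Y_le h v) hOO (Y_le h u) hZ1
    (hO1.trans_eq (by ring)) (y := F u u) (by linarith) hru (o := (F * F) u v) (by linarith)
    (cube_diag hF hL hO v) ht pv0 (by linarith) pu0 (by linarith) ω0 ωg (gg.trans (mul_comm _ _)) gR
    V1 U1 hv hL (by linarith [mul_comm (vr F u) (vr F v)]) (by rw [mul_comm (vr F v)]; exact E2) E3
    (by linarith) (by linarith) E5' E6' E7'
  have key : ∀ A B C : ℝ, A + B + C - A = B + C := fun A B C => by ring
  rw [key]
  exact (aadd H1 H2).trans (by linarith)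

end Pt3X

open Pt3X

/-- Pointwise change of `tr F³`. -/
theorem pt3 : ∃ C : ℝ, 0 ≤ C ∧ ∀ (ι : Type) [Fintype ι] [DecidableEq ι] (σ L R : ℝ) (S : Finset ι)
    (F : Matrix ι ι ℝ) (u v : ι), Loc σ S F u v → 1 ≤ L → OpB L F → vr F u ≤ R → vr F v ≤ R →
    |a3 (upd σ S F u v) - a3 F - main3 σ F u v| ≤ C * err3 L R S F u v := by
  refine ⟨10012, by norm_num, fun ι _ _ σ L R S F u v h hL hO hu hv => ?_⟩
  have hF := h.mat
  obtain ⟨φ0, φ1, pu0, pu1, pv0, pv1⟩ := h.small
  obtain ⟨e0, e1⟩ := h.inv_card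
  have U1 := one_le_vr hF u
  have V1 := one_le_vr hF v
  have cu0 := four_nonneg hF u
  have cv0 := four_nonneg hF v
  have g1 : 1 ≤ √(vr F u * vr F v) :=
    Real.one_le_sqrt.2 (one_le_mul_of_one_le_of_one_le U1 V1)
  have gg : √(vr F u * vr F v) * √(vr F u * vr F v) = vr F u * vr F v :=
    Real.mul_self_sqrt (by positivity)
  have gUV : √(vr F u * vr F v) ≤ vr F u * vr F v := by nlinarith
  have hn2 := h.n2_bd
  have hn1 := h.n1_bd
  have hn1' := h.swap.n1_bd
  have hph : ph S F v u = ph S F u v := by unfold ph; rw [hF.symm v u]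
  unfold pe at hn1 hn1'
  rw [hph] at hn1'
  have hcore := fun E a1 a2 a3 a4 a5 a6 a7 a8 a9 a10 a11 =>
    core (E := E) h hL hO hu hv a1 a2 a3 a4 a5 a6 a7 a8 a9 a10 a11
  unfold ph0 at hn2 hcore
  unfold err3 main3
  generalize √(vr F u * vr F v) = g at *
  generalize vr F u = U at *
  generalize vr F v = V at *
  generalize pd S F u = pu at *
  generalize pd S F v = pv at *
  generalize ph S F u v = φ at *
  have o0 := abs_nonneg ((F * F) u v)
  generalize |(F * F) u v| = o at *
  generalize (F * F * F * F) u u = cu at *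
  generalize (F * F * F * F) v v = cv at *
  generalize (F * F * F * F) u v = w at *
  have R1 : 1 ≤ R := U1.trans hu
  have hdiv : R * (U + V) / (S.card : ℝ) = R * (U + V) * (1 / S.card) := by ring
  rw [hdiv]
  generalize 1 / (S.card : ℝ) = e at *
  have T1 : 0 ≤ (φ + pu * pv) * |w| := by positivity
  have T2 : 0 ≤ (φ * pv + pv ^ 2 + e) * cu := by positivity
  have T3 : 0 ≤ (φ * pu + pu ^ 2 + e) * cv := by positivity
  have T4 : 0 ≤ L * φ * U * V := by positivity
  have T4' : 0 ≤ L * o * U * V := by positivity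
  have T5 : 0 ≤ L * (pv * U ^ 2 * V) := by positivity
  have T5' : 0 ≤ L * (pu * U * V ^ 2) := by positivity
  have T6 : 0 ≤ R * (pv ^ 2 * U ^ 2) := by positivity
  have T6' : 0 ≤ R * (pu ^ 2 * V ^ 2) := by positivity
  have T7 : 0 ≤ R * (U + V) * e := by positivity
  have b1 : L * (pv * U * V) * pu ≤ L * (pv * U * V) * U := by gcongr; linarith
  have b2 : L * (pv * U * V) * 1 ≤ L * (pv * U * V) * U := by gcongr
  have b3 : L * (pu * U * V) * 1 ≤ L * (pu * U * V) * V := by gcongr
  have b4 : 1 * ((o + pu + pv) * (U * V)) ≤ L * ((o + pu + pv) * (U * V)) := by gcongr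
  have b5 : L * ((o + pu + pv) * g) ≤ L * ((o + pu + pv) * (U * V)) := by gcongr
  have b6 : 1 * (pv * (U * U * V)) ≤ L * (pv * (U * U * V)) := by gcongr
  have b7 : 1 * (pu * (U * V * V)) ≤ L * (pu * (U * V * V)) := by gcongr
  have b8 : L * (pv * (U * g)) ≤ L * (pv * (U * (U * V))) := by gcongr
  have b9 : L * (pu * (V * g)) ≤ L * (pu * (V * (U * V))) := by gcongr
  have b10 : L * (pv * (U * U)) * 1 ≤ L * (pv * (U * U)) * V := by gcongr
  have b11 : L * (pu * (V * V)) * 1 ≤ L * (pu * (V * V)) * U := by gcongr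
  have H := hcore (L * (φ + o) * U * V + L * (pv * U ^ 2 * V + pu * U * V ^ 2)
      + R * (pv ^ 2 * U ^ 2 + pu ^ 2 * V ^ 2)) (by linarith) (by linarith) (by linarith)
      (by linarith) (by linarith) (by linarith) (by linarith) (by linarith) (by linarith)
      (by linarith) (by linarith)
  have c3 : |(3 : ℝ)| ≤ 3 := acst (by norm_num)
  have c6 : |(6 : ℝ)| ≤ 6 := acst (by norm_num)
  have H2 := aadd (aadd H (amul c6 (amul hn2 (le_refl |w|))))
    (amul c3 (aadd (amul hn1 (acst cu0)) (amul hn1' (acst cv0))))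
  refine le_trans (le_of_eq (congrArg _ (by ring))) (H2.trans ?_)
  linarith

/-- Crude version. -/
theorem pt3c : ∃ C : ℝ, 0 ≤ C ∧ ∀ (ι : Type) [Fintype ι] [DecidableEq ι] (σ L R : ℝ) (S : Finset ι)
    (F : Matrix ι ι ℝ) (u v : ι), Loc σ S F u v → 1 ≤ L → OpB L F → vr F u ≤ R → vr F v ≤ R →
    |a3 (upd σ S F u v) - a3 F| ≤ C * crude3 L R S F u v := by
  refine ⟨30020, by norm_num, fun ι _ _ σ L R S F u v h hL hO hu hv => ?_⟩
  have hF := h.mat
  obtain ⟨φ0, φ1, pu0, pu1, pv0, pv1⟩ := h.small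
  obtain ⟨φ2, hc⟩ := n2_le h
  have U1 := one_le_vr hF u
  have V1 := one_le_vr hF v
  have cu0 := four_nonneg hF u
  have cv0 := four_nonneg hF v
  have cu1 := four_le hF hO u
  have cv1 := four_le hF hO v
  have su := cube_diag hF hL hO u
  have sv := cube_diag hF hL hO v
  have g1 : 1 ≤ √(vr F u * vr F v) :=
    Real.one_le_sqrt.2 (one_le_mul_of_one_le_of_one_le U1 V1)
  have gg : √(vr F u * vr F v) * √(vr F u * vr F v) = vr F u * vr F v :=
    Real.mul_self_sqrt (by positivity)
  have gR : √(vr F u * vr F v) ≤ R := by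
    rw [Real.sqrt_le_left (by linarith), sq]
    exact mul_le_mul hu hv (by linarith) (by linarith)
  have hog := o_le hF u v
  have hn1 := h.n1_le
  have hn1' := h.swap.n1_le
  have hru : |rr F u - 1| ≤ vr F u := by
    have := hF.rr_nonneg u
    unfold vr; rw [abs_le]; constructor <;> linarith
  have hrv : |rr F v - 1| ≤ vr F v := by
    have := hF.rr_nonneg v
    unfold vr; rw [abs_le]; constructor <;> linarith
  have φ3 : 0 ≤ ph0 S F u v := by unfold ph0; positivity
  have hcore := fun E a1 a2 a3 a4 a5 a6 a7 a8 a9 a10 a11 =>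
    core (E := E) h hL hO hu hv a1 a2 a3 a4 a5 a6 a7 a8 a9 a10 a11
  unfold crude3
  generalize √(vr F u * vr F v) = g at *
  generalize vr F u = U at *
  generalize vr F v = V at *
  generalize pd S F u = pu at *
  generalize pd S F v = pv at *
  generalize ph0 S F u v = φ at *
  have o0 := abs_nonneg ((F * F) u v)
  generalize |(F * F) u v| = o at *
  generalize (F * F * F * F) u u = cu at *
  generalize (F * F * F * F) v v = cv at *
  generalize (F * F * F * F) u v = w at *
  have R1 : 1 ≤ R := U1.trans hu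
  have w0 := abs_nonneg w
  have T1 : 0 ≤ L * U * V := by positivity
  have T2 : 0 ≤ R * U * V := by positivity
  have T3 : 0 ≤ L ^ 2 * (pv * U) := by positivity
  have T4 : 0 ≤ L ^ 2 * (pu * V) := by positivity
  have T5 : 0 ≤ R ^ 2 * (pv * U) := by positivity
  have T6 : 0 ≤ R ^ 2 * (pu * V) := by positivity
  have ωg : o + pu + pv ≤ 3 * g := by linarith
  have LR : L * R ≤ L ^ 2 + R ^ 2 := by nlinarith [sq_nonneg (L - R)]
  have b1 : L * (φ * (U * V)) ≤ L * (1 * (U * V)) := by gcongr; linarith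
  have b2 : (o + pu + pv) * (U * V) ≤ (3 * R) * (U * V) := by gcongr; linarith
  have b3 : L * ((o + pu + pv) * g) ≤ L * ((3 * g) * g) := by gcongr
  have b3' : L * ((3 * g) * g) = 3 * (L * U * V) := by linear_combination 3 * L * gg
  have b4 : pv * (U * U * V) ≤ pv * (U * R * R) := by gcongr
  have b5 : pu * (U * V * V) ≤ pu * (R * R * V) := by gcongr
  have b6 : L * (pv * (U * g)) ≤ L * (pv * (U * R)) := by gcongr
  have b7 : L * (pu * (V * g)) ≤ L * (pu * (V * R)) := by gcongr
  have b8 : L * (pv * (U * U)) ≤ L * (pv * (U * R)) := by gcongr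
  have b9 : L * (pu * (V * V)) ≤ L * (pu * (V * R)) := by gcongr
  have b10 : L * R * (pv * U) ≤ (L ^ 2 + R ^ 2) * (pv * U) := by gcongr
  have b11 : L * R * (pu * V) ≤ (L ^ 2 + R ^ 2) * (pu * V) := by gcongr
  have b12 : R * (pv * pv * (U * U)) ≤ R * (pv * 1 * (U * R)) := by gcongr; linarith
  have b13 : R * (pu * pu * (V * V)) ≤ R * (pu * 1 * (V * R)) := by gcongr; linarith
  have H := hcore (3 * ((L + R) * U * V + (L ^ 2 + R ^ 2) * (pv * U + pu * V))) (by linarith)
      (by linarith) (by linarith) (by linarith) (by linarith) (by linarith) (by linarith)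
      (by linarith) (by linarith) (by linarith) (by linarith)
  have c3 : |(3 : ℝ)| ≤ 3 := acst (by norm_num)
  have c6 : |(6 : ℝ)| ≤ 6 := acst (by norm_num)
  have H2 := aadd H (aadd (aadd (aadd (amul (amul c3 hru) sv) (amul (amul c3 hrv) su))
    (amul (amul c6 hc) (le_refl |w|)))
    (amul c3 (aadd (amul hn1 ((acst cu0).trans cu1)) (amul hn1' ((acst cv0).trans cv1)))))
  rw [sub_add_cancel] at H2
  refine H2.trans ?_
  linarith

end Crest.Agent.R62
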