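import Crest.Agent.R62.Der

set_option autoImplicit false

open Finset Matrix

namespace Crest.Agent.R62

variable {ι : Type} [Fintype ι] [DecidableEq ι]

namespace T3

section mat
variable {S : Finset ι} {F : Matrix ι ι ℝ}

omit [DecidableEq ι] in
theorem sum2_le_univ (X : ι → ι → ℝ) (h : ∀ u v, 0 ≤ X u v) :
    ∑ u ∈ S, ∑ v ∈ S, X u v ≤ ∑ u, ∑ v, X u v :=
  calc ∑ u ∈ S, ∑ v ∈ S, X u v ≤ ∑ u ∈ S, ∑ v, X u v :=
        sum_le_sum fun u _ => sum_le_sum_of_subset_of_nonneg (subset_univ _) fun v _ _ => h u v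
    _ ≤ ∑ u, ∑ v, X u v :=
        sum_le_sum_of_subset_of_nonneg (subset_univ _) fun u _ _ => sum_nonneg fun v _ => h u v

theorem F4_sum0 (h : Mat S F) : ∑ u ∈ S, ∑ v ∈ S, (F * F * F * F) u v = 0 := by
  have := h.sum_sum_mul h (F * F)
  rwa [← Matrix.mul_assoc F F F] at this

theorem F4_eq (F : Matrix ι ι ℝ) : F * F * F * F = (F * F) * (F * F) := by
  simp only [Matrix.mul_assoc]

theorem a4_eq_tr (h : Mat S F) : ((F * F) * (F * F)ᵀ).trace = a4 F := by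
  rw [h.sq_transpose, a4, F4_eq]

theorem F4_frob (h : Mat S F) : ∑ u ∈ S, ∑ v ∈ S, (F * F * F * F) u v ^ 2 ≤ a4 F ^ 2 := by
  refine (sum2_le_univ _ fun u v => sq_nonneg _).trans ?_
  rw [sum_sq_eq_trace, F4_eq]
  refine (frob_mul_le _ _).trans ?_
  rw [a4_eq_tr h, sq]

theorem F4_frob' (h : Mat S F) : √(∑ u ∈ S, ∑ v ∈ S, (F * F * F * F) u v ^ 2) ≤ a4 F := by
  rw [Real.sqrt_le_left h.a4_nonneg]
  exact F4_frob h

theorem F2_frob (h : Mat S F) : ∑ u ∈ S, ∑ v ∈ S, (F * F) u v ^ 2 ≤ a4 F := by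
  rw [h.a4_eq_sum]
  exact sum2_le_univ _ fun u v => sq_nonneg _

theorem F4_diag_nonneg (h : Mat S F) (a : ι) : 0 ≤ (F * F * F * F) a a := by
  have := diag_gram_nonneg (F * F) a
  rwa [h.sq_transpose, ← F4_eq] at this

theorem F4_diag_sum (h : Mat S F) : ∑ a ∈ S, (F * F * F * F) a a = a4 F := by
  have := h.trace_mul (F * F * F)
  rw [← Matrix.mul_assoc, ← Matrix.mul_assoc] at this
  rw [a4, this]

theorem F3_diag_sum (h : Mat S F) : ∑ a ∈ S, (F * F * F) a a = a3 F := by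
  have := h.trace_mul (F * F)
  rw [← Matrix.mul_assoc] at this
  rw [a3, this]

theorem F3_abs_sum (h : Mat S F) : ∑ a ∈ S, |(F * F * F) a a| ≤ √(a2 F) * √(a4 F) := by
  have h1 : ∀ a, |(F * F * F) a a| ≤ |√(rr F a)| * |√((F * F * F * F) a a)| := by
    intro a
    have := entry_sq_le F (F * F) a a
    rw [h.transpose, h.sq_transpose, ← F4_eq, ← Matrix.mul_assoc] at this
    rw [abs_of_nonneg (Real.sqrt_nonneg _), abs_of_nonneg (Real.sqrt_nonneg _),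
      ← Real.sqrt_mul (h.rr_nonneg a)]
    exact Real.abs_le_sqrt this
  refine (sum_le_sum fun a _ => h1 a).trans ((sum_mul_le_sqrt _ _ _).trans (le_of_eq ?_))
  congr 2
  · rw [h.a2_eq]
    exact sum_congr rfl fun a _ => Real.sq_sqrt (h.rr_nonneg a)
  · rw [← F4_diag_sum h]
    exact sum_congr rfl fun a _ => Real.sq_sqrt (F4_diag_nonneg h a)

theorem x_sum (h : Mat S F) : ∑ a ∈ S, (rr F a - 1) = a2 F - S.card := by
  rw [sum_sub_distrib, h.a2_eq]; simp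

theorem ph_row (h : Mat S F) (hm : (1 : ℝ) ≤ S.card) (u : ι) :
    ∑ v ∈ S, ph S F u v ^ 2 ≤ 2 * rr F u + 2 := by
  have hm0 : (0 : ℝ) < S.card := by linarith
  have h1 : ∀ v, ph S F u v ^ 2 ≤ 2 * F u v ^ 2 + 2 * (1 / (S.card : ℝ)) ^ 2 := by
    intro v
    unfold ph
    nlinarith [sq_nonneg (|F u v| - 1 / (S.card : ℝ)), sq_abs (F u v)]
  refine (sum_le_sum fun v _ => h1 v).trans ?_
  rw [sum_add_distrib, ← mul_sum, sum_const, nsmul_eq_mul, h.rr_eq]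
  have h2 : ∑ v ∈ S, F u v ^ 2 ≤ ∑ v, F u v ^ 2 :=
    sum_le_sum_of_subset_of_nonneg (subset_univ _) fun v _ _ => sq_nonneg _
  have h3 : (S.card : ℝ) * (2 * (1 / (S.card : ℝ)) ^ 2) = 2 / S.card := by field_simp
  have h4 : 2 / (S.card : ℝ) ≤ 2 := div_le_self (by norm_num) hm
  linarith

theorem ph_tot (h : Mat S F) (hm : (1 : ℝ) ≤ S.card) :
    ∑ u ∈ S, ∑ v ∈ S, ph S F u v ^ 2 ≤ 2 * a2 F + 2 * S.card := by
  refine (sum_le_sum fun u _ => ph_row h hm u).trans (le_of_eq ?_)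
  rw [sum_add_distrib, ← mul_sum, h.a2_eq]; simp [mul_comm]

theorem ph_symm (h : Mat S F) (u v : ι) : ph S F u v = ph S F v u := by
  unfold ph; rw [h.symm]

omit [Fintype ι] [DecidableEq ι] in
theorem ph_nonneg (u v : ι) : 0 ≤ ph S F u v := by unfold ph; positivity

omit [Fintype ι] [DecidableEq ι] in
theorem pd_nonneg (u : ι) : 0 ≤ pd S F u := by unfold pd; positivity

theorem vr_nonneg (h : Mat S F) (u : ι) : 0 ≤ vr F u := by
  unfold vr; linarith [h.rr_nonneg u]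

omit [Fintype ι] [DecidableEq ι] in
theorem sum2_prod (f g : ι → ℝ) :
    ∑ u ∈ S, ∑ v ∈ S, f u * g v = (∑ u ∈ S, f u) * ∑ v ∈ S, g v := (sum_mul_sum _ _ _ _).symm

/-- Cauchy–Schwarz against a product. -/
theorem cs_prod (X : ι → ι → ℝ) (f : ι → ℝ) (hf : ∀ a, 0 ≤ f a) :
    ∑ u ∈ S, ∑ v ∈ S, |X u v| * (f u * f v)
      ≤ √(∑ u ∈ S, ∑ v ∈ S, X u v ^ 2) * ∑ a ∈ S, f a ^ 2 := by
  have h1 := sum2_mul_le_sqrt S X (fun u v => f u * f v)
  have h2 : ∑ u ∈ S, ∑ v ∈ S, (f u * f v) ^ 2 = (∑ a ∈ S, f a ^ 2) ^ 2 := by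
    rw [sq (∑ a ∈ S, f a ^ 2), ← sum2_prod]
    exact sum_congr rfl fun u _ => sum_congr rfl fun v _ => by ring
  rw [h2, Real.sqrt_sq (sum_nonneg fun a _ => sq_nonneg _)] at h1
  refine le_trans (le_of_eq ?_) h1
  exact sum_congr rfl fun u _ => sum_congr rfl fun v _ => by
    rw [abs_of_nonneg (mul_nonneg (hf u) (hf v))]

/-- The double sum of `err3`. -/
theorem err3_sum (h : Mat S F) (hm : (1 : ℝ) ≤ S.card) {L R : ℝ} (hL : 0 ≤ L) (hR : 0 ≤ R)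
    (hr : ∀ a, vr F a ≤ R) :
    ∑ u ∈ S, ∑ v ∈ S, err3 L R S F u v
      ≤ √(2 * a2 F + 2 * S.card) * a4 F + a4 F * ∑ a ∈ S, pd S F a ^ 2
        + 2 * (a4 F * (R + 2 * ∑ a ∈ S, pd S F a ^ 2 + 1))
        + L * (√(2 * a2 F + 2 * S.card) * ∑ a ∈ S, vr F a ^ 2)
        + L * (√(a4 F) * ∑ a ∈ S, vr F a ^ 2)
        + 2 * (L * ((∑ a ∈ S, vr F a ^ 2)
            * (√(∑ a ∈ S, pd S F a ^ 2) * √(∑ a ∈ S, vr F a ^ 2))))
        + 2 * (R * ((∑ a ∈ S, vr F a ^ 2) * ∑ a ∈ S, pd S F a ^ 2))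
        + 2 * (R * ∑ a ∈ S, vr F a) := by
  have hm0 : (0 : ℝ) < S.card := by linarith
  set P := ∑ a ∈ S, vr F a ^ 2 with hP
  set P2 := ∑ a ∈ S, pd S F a ^ 2 with hP2
  have hP0 : 0 ≤ P := sum_nonneg fun a _ => sq_nonneg _
  have hP20 : 0 ≤ P2 := sum_nonneg fun a _ => sq_nonneg _
  have hph : √(∑ u ∈ S, ∑ v ∈ S, ph S F u v ^ 2) ≤ √(2 * a2 F + 2 * S.card) :=
    Real.sqrt_le_sqrt (ph_tot h hm)
  have e1 : ∑ u ∈ S, ∑ v ∈ S, ph S F u v * |(F * F * F * F) u v|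
      ≤ √(2 * a2 F + 2 * S.card) * a4 F := by
    have := sum2_mul_le_sqrt S (ph S F) (F * F * F * F)
    simp only [abs_of_nonneg (ph_nonneg _ _)] at this
    exact this.trans (mul_le_mul hph (F4_frob' h) (Real.sqrt_nonneg _) (Real.sqrt_nonneg _))
  have e2 : ∑ u ∈ S, ∑ v ∈ S, |(F * F * F * F) u v| * (pd S F u * pd S F v) ≤ a4 F * P2 :=
    (cs_prod _ _ pd_nonneg).trans (mul_le_mul_of_nonneg_right (F4_frob' h) hP20)
  have e3 : ∑ u ∈ S, ∑ v ∈ S,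
      (ph S F u v * pd S F v + pd S F v ^ 2 + 1 / S.card) * (F * F * F * F) u u
      ≤ a4 F * (R + 2 * P2 + 1) := by
    rw [← F4_diag_sum h, sum_mul]
    refine sum_le_sum fun u _ => ?_
    rw [← sum_mul, mul_comm]
    refine mul_le_mul_of_nonneg_left ?_ (F4_diag_nonneg h u)
    have h1 : ∀ v, ph S F u v * pd S F v + pd S F v ^ 2 + 1 / (S.card : ℝ)
        ≤ 1 / 2 * ph S F u v ^ 2 + 2 * pd S F v ^ 2 + 1 / (S.card : ℝ) := by
      intro v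
      nlinarith [sq_nonneg (ph S F u v - pd S F v), sq_nonneg (pd S F v)]
    refine (sum_le_sum fun v _ => h1 v).trans ?_
    rw [sum_add_distrib, sum_add_distrib, ← mul_sum, ← mul_sum, sum_const, nsmul_eq_mul,
      mul_one_div_cancel hm0.ne']
    have := ph_row h hm u
    have := hr u
    unfold vr at this
    linarith
  have e3' : ∑ u ∈ S, ∑ v ∈ S,
      (ph S F u v * pd S F u + pd S F u ^ 2 + 1 / S.card) * (F * F * F * F) v v
      ≤ a4 F * (R + 2 * P2 + 1) := by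
    rw [sum_comm]
    refine le_trans (le_of_eq ?_) e3
    exact sum_congr rfl fun u _ => sum_congr rfl fun v _ => by rw [ph_symm h v u]
  have e4 : ∑ u ∈ S, ∑ v ∈ S, ph S F u v * (vr F u * vr F v) ≤ √(2 * a2 F + 2 * S.card) * P := by
    have := cs_prod (S := S) (ph S F) (vr F) (vr_nonneg h)
    simp only [abs_of_nonneg (ph_nonneg _ _)] at this
    exact this.trans (mul_le_mul_of_nonneg_right hph hP0)
  have e5 : ∑ u ∈ S, ∑ v ∈ S, |(F * F) u v| * (vr F u * vr F v) ≤ √(a4 F) * P :=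
    (cs_prod _ _ (vr_nonneg h)).trans
      (mul_le_mul_of_nonneg_right (Real.sqrt_le_sqrt (F2_frob h)) hP0)
  have e6a : ∑ v ∈ S, pd S F v * vr F v ≤ √P2 * √P := by
    have := sum_mul_le_sqrt S (pd S F) (vr F)
    simpa only [abs_of_nonneg (pd_nonneg _), abs_of_nonneg (vr_nonneg h _)] using this
  have e6 : ∑ u ∈ S, ∑ v ∈ S, vr F u ^ 2 * (pd S F v * vr F v) ≤ P * (√P2 * √P) := by
    rw [sum2_prod]
    exact mul_le_mul_of_nonneg_left e6a hP0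
  have e6' : ∑ u ∈ S, ∑ v ∈ S, vr F v ^ 2 * (pd S F u * vr F u) ≤ P * (√P2 * √P) := by
    rw [sum_comm]; exact e6
  have e7 : ∑ u ∈ S, ∑ v ∈ S, vr F u ^ 2 * pd S F v ^ 2 = P * P2 := sum2_prod _ _
  have e7' : ∑ u ∈ S, ∑ v ∈ S, vr F v ^ 2 * pd S F u ^ 2 = P * P2 := by
    rw [sum_comm]; exact e7
  have e8 : ∑ u ∈ S, ∑ _v ∈ S, vr F u * (1 / (S.card : ℝ)) = ∑ a ∈ S, vr F a := by
    rw [sum2_prod (vr F) (fun _ => 1 / (S.card : ℝ)), sum_const, nsmul_eq_mul,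
      mul_one_div_cancel hm0.ne', mul_one]
  have e8' : ∑ _u ∈ S, ∑ v ∈ S, vr F v * (1 / (S.card : ℝ)) = ∑ a ∈ S, vr F a := by
    rw [sum_comm]; exact e8
  have key : ∑ u ∈ S, ∑ v ∈ S, err3 L R S F u v
      = ∑ u ∈ S, ∑ v ∈ S, ph S F u v * |(F * F * F * F) u v|
        + ∑ u ∈ S, ∑ v ∈ S, |(F * F * F * F) u v| * (pd S F u * pd S F v)
        + ∑ u ∈ S, ∑ v ∈ S,
          (ph S F u v * pd S F v + pd S F v ^ 2 + 1 / S.card) * (F * F * F * F) u u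
        + ∑ u ∈ S, ∑ v ∈ S,
          (ph S F u v * pd S F u + pd S F u ^ 2 + 1 / S.card) * (F * F * F * F) v v
        + L * ∑ u ∈ S, ∑ v ∈ S, ph S F u v * (vr F u * vr F v)
        + L * ∑ u ∈ S, ∑ v ∈ S, |(F * F) u v| * (vr F u * vr F v)
        + L * ∑ u ∈ S, ∑ v ∈ S, vr F u ^ 2 * (pd S F v * vr F v)
        + L * ∑ u ∈ S, ∑ v ∈ S, vr F v ^ 2 * (pd S F u * vr F u)
        + R * ∑ u ∈ S, ∑ v ∈ S, vr F u ^ 2 * pd S F v ^ 2
        + R * ∑ u ∈ S, ∑ v ∈ S, vr F v ^ 2 * pd S F u ^ 2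
        + R * ∑ u ∈ S, ∑ _v ∈ S, vr F u * (1 / (S.card : ℝ))
        + R * ∑ _u ∈ S, ∑ v ∈ S, vr F v * (1 / (S.card : ℝ)) := by
    simp only [mul_sum, ← sum_add_distrib]
    exact sum_congr rfl fun u _ => sum_congr rfl fun v _ => by unfold err3; ring
  rw [key, e7, e7', e8, e8']
  have m4 := mul_le_mul_of_nonneg_left e4 hL
  have m5 := mul_le_mul_of_nonneg_left e5 hL
  have m6 := mul_le_mul_of_nonneg_left e6 hL
  have m6' := mul_le_mul_of_nonneg_left e6' hL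
  linarith

theorem err3_nonneg (h : Mat S F) {L R : ℝ} (hL : 0 ≤ L) (hR : 0 ≤ R) (u v : ι) :
    0 ≤ err3 L R S F u v := by
  have := ph_nonneg (S := S) (F := F) u v
  have := pd_nonneg (S := S) (F := F) u
  have := pd_nonneg (S := S) (F := F) v
  have := vr_nonneg h u
  have := vr_nonneg h v
  have := F4_diag_nonneg h u
  have := F4_diag_nonneg h v
  unfold err3
  positivity

/-- The double sum of `crude3 ^ 2`. -/
theorem crude3_sum (h : Mat S F) (L R : ℝ) :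
    ∑ u ∈ S, ∑ v ∈ S, crude3 L R S F u v ^ 2
      ≤ 4 * a4 F ^ 2 + 4 * ((L + R) ^ 2 * (∑ a ∈ S, vr F a ^ 2) ^ 2)
        + 8 * ((L ^ 2 + R ^ 2) ^ 2 * ((∑ a ∈ S, vr F a ^ 2) * ∑ a ∈ S, pd S F a ^ 2)) := by
  set P := ∑ a ∈ S, vr F a ^ 2 with hP
  set P2 := ∑ a ∈ S, pd S F a ^ 2 with hP2
  have e7 : ∑ u ∈ S, ∑ v ∈ S, vr F u ^ 2 * pd S F v ^ 2 = P * P2 := sum2_prod _ _
  have e7' : ∑ u ∈ S, ∑ v ∈ S, vr F v ^ 2 * pd S F u ^ 2 = P * P2 := by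
    rw [sum_comm]; exact e7
  have e9 : ∑ u ∈ S, ∑ v ∈ S, vr F u ^ 2 * vr F v ^ 2 = P ^ 2 := by rw [sum2_prod, sq]
  have h1 : ∀ u v, crude3 L R S F u v ^ 2
      ≤ 4 * (F * F * F * F) u v ^ 2 + 4 * (L + R) ^ 2 * (vr F u ^ 2 * vr F v ^ 2)
        + 4 * (L ^ 2 + R ^ 2) ^ 2 * (vr F u ^ 2 * pd S F v ^ 2)
        + 4 * (L ^ 2 + R ^ 2) ^ 2 * (vr F v ^ 2 * pd S F u ^ 2) := by
    intro u v
    have gen : ∀ a b c d : ℝ, (a + b + (c + d)) ^ 2 ≤ 4 * a ^ 2 + 4 * b ^ 2 + 4 * c ^ 2 + 4 * d ^ 2 := by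
      intro a b c d
      nlinarith [sq_nonneg (a - b), sq_nonneg (a - c), sq_nonneg (a - d), sq_nonneg (b - c),
        sq_nonneg (b - d), sq_nonneg (c - d)]
    have := gen |(F * F * F * F) u v| ((L + R) * vr F u * vr F v)
      ((L ^ 2 + R ^ 2) * (pd S F v * vr F u)) ((L ^ 2 + R ^ 2) * (pd S F u * vr F v))
    rw [sq_abs] at this
    unfold crude3
    refine le_trans (le_of_eq ?_) (this.trans (le_of_eq ?_)) <;> ring
  refine (sum_le_sum fun u _ => sum_le_sum fun v _ => h1 u v).trans ?_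
  simp only [sum_add_distrib, ← mul_sum]
  simp only [mul_sum] at e7 e7' e9 ⊢
  have := F4_frob h
  simp only [← mul_sum] at e7 e7' e9 ⊢
  rw [e7, e7', e9]
  linarith

end mat
end T3
end Crest.Agent.R62
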