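import Crest.Agent.R62.Der
import Crest.Agent.R62.Pt3
import Crest.Agent.R62.Tr3Aux

set_option autoImplicit false

open Finset Matrix

namespace Crest.Agent.R62

variable {ι V : Type} [Fintype ι] [DecidableEq ι] [Fintype V] [DecidableEq V]

namespace T3

section ctx
variable {c : Ctx ι}

theorem exps (c : Ctx ι) :
    c.τ ≤ 20004 - c.μ ∧ c.τ ≤ 2 * c.μ - 96 ∧ c.ϱ ≤ 0 ∧ c.ϱ ≤ c.μ - 6700 := by
  rcases c.cases_W with ⟨h1, h2, h3⟩ | ⟨h1, h2, h3⟩ <;>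
    exact ⟨by linarith, by linarith, by linarith, by linarith⟩

variable (hK : Big c.p.K)
include hK

theorem one_le_m : (1 : ℝ) ≤ c.S.card := by
  have := Ctx.m_big hK
  have h2 : (1 : ℝ) ≤ 10 ^ 100 := by norm_num
  exact h2.trans this

theorem la4 : Le c.p.K (a4 c.F) (c.τ + 1 / 100) := (Ctx.sz_T4 hK).2.of_le c.oF.a4_T
theorem la2 : Le c.p.K (a2 c.F) c.μ := (Ctx.le_m hK).of_le (Ctx.a2_le_m hK)
theorem lP2 : Le c.p.K (∑ a ∈ c.S, pd c.S c.F a ^ 2) (450 + c.ϱ + 1 / 100 + 1 / 100) :=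
  ((Ctx.sz_TD hK).2.cmul hK (C := 4) (by norm_num) (by norm_num)).of_le (Ctx.P2_le hK)
theorem R_pos : 0 < c.R := (Ctx.sz_R hK).1.pos hK
theorem vr_le (a : ι) : vr c.F a ≤ c.R := by
  have := Ctx.ro_le hK a
  have := c.oG.mat.rr_nonneg a
  unfold vr
  linarith

theorem err_le : ∑ u ∈ c.S, ∑ v ∈ c.S, err3 c.L c.R c.S c.F u v ≤ 12 * c.p.K ^ (c.μ + 9998) := by
  obtain ⟨t1, t2, r1, r2⟩ := exps c
  have μ1 := Ctx.μ_lo hK
  have μ2 := Ctx.μ_hi hK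
  have hF := c.oF.mat
  have hL0 : 0 ≤ c.L := le_trans zero_le_one (Ctx.one_le_L hK)
  have hR0 := (R_pos hK).le
  have h := err3_sum hF (one_le_m hK) hL0 hR0 (vr_le hK)
  set P := ∑ a ∈ c.S, vr c.F a ^ 2 with hP
  set P2 := ∑ a ∈ c.S, pd c.S c.F a ^ 2 with hP2
  have hP0 : 0 ≤ P := sum_nonneg fun a _ => sq_nonneg _
  have hP20 : 0 ≤ P2 := sum_nonneg fun a _ => sq_nonneg _
  have lP : Le c.p.K P (c.μ + 13 + 1 / 50) := Ctx.le_P hK
  have lQ : Le c.p.K P2 (450 + c.ϱ + 1 / 100 + 1 / 100) := lP2 hK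
  have l4 := la4 hK
  have lL := (Ctx.sz_L hK).2
  have lR := (Ctx.sz_R hK).2
  have a40 := hF.a4_nonneg
  have lph : Le c.p.K (√(2 * a2 c.F + 2 * c.S.card)) ((c.μ + 1 / 100) / 2) := by
    refine Le.sqrt hK (((Ctx.le_m hK).cmul hK (C := 4) (by norm_num) (by norm_num)).of_le ?_)
    have := Ctx.a2_le_m hK
    change 2 * a2 c.F + 2 * c.m ≤ 4 * c.m
    linarith
  have e1 : Le c.p.K (√(2 * a2 c.F + 2 * c.S.card) * a4 c.F) (c.μ + 9998) :=
    (lph.mul hK l4 a40).mono hK (by linarith)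
  have e2 : Le c.p.K (a4 c.F * P2) (c.μ + 9998) := (l4.mul hK lQ hP20).mono hK (by linarith)
  have e3a : Le c.p.K (c.R + 2 * P2 + 1) (2526 + 1 / 100 + 1 / 100) :=
    (lR.add hK (lQ.cmul hK (C := 2) (by norm_num) (by norm_num)) (g := 2526) (by linarith)
      (by linarith)).add hK Le.one le_rfl (by norm_num)
  have e3 : Le c.p.K (a4 c.F * (c.R + 2 * P2 + 1)) (c.μ + 9998) :=
    (l4.mul hK e3a (by positivity)).mono hK (by linarith)
  have e4 : Le c.p.K (c.L * (√(2 * a2 c.F + 2 * c.S.card) * P)) (c.μ + 9998) :=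
    (lL.mul hK (lph.mul hK lP hP0) (by positivity)).mono hK (by linarith)
  have e5 : Le c.p.K (c.L * (√(a4 c.F) * P)) (c.μ + 9998) :=
    (lL.mul hK ((l4.sqrt hK).mul hK lP hP0) (by positivity)).mono hK (by linarith)
  have e6 : Le c.p.K (c.L * (P * (√P2 * √P))) (c.μ + 9998) :=
    (lL.mul hK (lP.mul hK ((lQ.sqrt hK).mul hK (lP.sqrt hK) (Real.sqrt_nonneg _))
      (by positivity)) (by positivity)).mono hK (by linarith)
  have e7 : Le c.p.K (c.R * (P * P2)) (c.μ + 9998) :=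
    (lR.mul hK (lP.mul hK lQ hP20) (by positivity)).mono hK (by linarith)
  have e8 : Le c.p.K (c.R * ∑ a ∈ c.S, vr c.F a) (c.μ + 9998) :=
    (lR.mul hK (((Ctx.le_m hK).cmul hK (C := 2) (by norm_num) (by norm_num)).of_le
      (Ctx.sum_vr_le hK)) (sum_nonneg fun a _ => vr_nonneg hF a)).mono hK (by linarith)
  unfold Le at e1 e2 e3 e4 e5 e6 e7 e8
  linarith

theorem main_le : |∑ u, ∑ v, c.w u v * main3 c.σ c.F u v - 6 * ((a2 c.F - c.m) * a3 c.F)|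
    ≤ 30 * c.p.K ^ (c.μ + 9998) := by
  obtain ⟨t1', t2, r1, r2⟩ := exps c
  have μ1 := Ctx.μ_lo hK
  have μ2 := Ctx.μ_hi hK
  have hF := c.oF.mat
  have l4 := la4 hK
  have l2 := la2 hK
  have a40 := hF.a4_nonneg
  have lε := Ctx.le_eps hK
  have lm := (Ctx.le_m hK).sqrt hK
  have ε0 := c.eps_nonneg'
  -- the product x_v (F³)_uu
  have g1 := c.G6 (fun a => (c.F * c.F * c.F) a a) (fun a => rr c.F a - 1)
  rw [F3_diag_sum hF, x_sum hF] at g1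
  have b1 : Le c.p.K (c.p.eps c.m * √c.m * √(∑ v ∈ c.S, (rr c.F v - 1) ^ 2)
      * ∑ u ∈ c.S, |(c.F * c.F * c.F) u u|) (c.μ + 9998) := by
    have lX : Le c.p.K (∑ v ∈ c.S, (rr c.F v - 1) ^ 2) (c.μ + 13 + 1 / 100) := Ctx.le_X2 hK
    have l3 : Le c.p.K (∑ u ∈ c.S, |(c.F * c.F * c.F) u u|) (c.μ / 2 + (c.τ + 1 / 100) / 2) :=
      ((l2.sqrt hK).mul hK (l4.sqrt hK) (Real.sqrt_nonneg _)).of_le (F3_abs_sum hF)
    exact (((lε.mul hK lm (Real.sqrt_nonneg _)).mul hK (lX.sqrt hK) (Real.sqrt_nonneg _)).mul hK l3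
      (sum_nonneg fun a _ => abs_nonneg _)).mono hK (by linarith)
  -- the array F⁴
  have g2 := c.G7 (c.F * c.F * c.F * c.F) (F4_sum0 hF)
  rw [F4_diag_sum hF] at g2
  have b2 : Le c.p.K (√(c.p.Gam2 c.m * c.m)
      * √(∑ u ∈ c.S, ∑ v ∈ c.S, (c.F * c.F * c.F * c.F) u v ^ 2)) (c.μ + 9998) := by
    have l5 := l4.of_le (F4_frob' hF)
    by_cases hI : c.p.phI c.m
    · have := (Ctx.phI_iff hK).1 hI
      exact ((((Ctx.le_Gam2_I hK).mul hK (Ctx.le_m hK) c.m_nonneg').sqrt hK).mul hK l5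
        (Real.sqrt_nonneg _)).mono hK (by linarith)
    · exact ((((Ctx.le_Gam2 hK hI).mul hK (Ctx.le_m hK) c.m_nonneg').sqrt hK).mul hK l5
        (Real.sqrt_nonneg _)).mono hK (by linarith)
  have b3 : Le c.p.K (a4 c.F) (c.μ + 9998) := l4.mono hK (by linarith)
  -- the product D_v (F⁴)_uu
  have g3 := c.G6 (fun a => (c.F * c.F * c.F * c.F) a a) (fun a => c.F a a)
  rw [F4_diag_sum hF, ← hF.t1_eq] at g3
  have b4 : Le c.p.K (c.p.eps c.m * √c.m * √(∑ v ∈ c.S, c.F v v ^ 2)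
      * ∑ u ∈ c.S, |(c.F * c.F * c.F * c.F) u u|) (c.μ + 9998) := by
    have lD : Le c.p.K (∑ v ∈ c.S, c.F v v ^ 2) (450 + c.ϱ + 1 / 100) :=
      (Ctx.sz_TD hK).2.of_le c.oF.D2_T
    have l5 : Le c.p.K (∑ u ∈ c.S, |(c.F * c.F * c.F * c.F) u u|) (c.τ + 1 / 100) := by
      refine l4.of_le (le_of_eq ?_)
      rw [← F4_diag_sum hF]
      exact sum_congr rfl fun a _ => abs_of_nonneg (F4_diag_nonneg hF a)
    exact (((lε.mul hK lm (Real.sqrt_nonneg _)).mul hK (lD.sqrt hK) (Real.sqrt_nonneg _)).mul hK l5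
      (sum_nonneg fun a _ => abs_nonneg _)).mono hK (by linarith)
  have b5 : Le c.p.K (a4 c.F * |t1 c.F|) (c.μ + 9998) := by
    by_cases hI : c.p.phI c.m
    · have := (Ctx.phI_iff hK).1 hI
      exact (l4.mul hK (Ctx.le_t hK) (abs_nonneg _)).mono hK (by linarith)
    · exact (l4.mul hK ((Ctx.sz_kt hK).2.of_le (Ctx.le_t' hK hI)) (abs_nonneg _)).mono hK
        (by linarith)
  have key : ∑ u, ∑ v, c.w u v * main3 c.σ c.F u v
      = 6 * ∑ u, ∑ v, c.w u v * ((c.F * c.F * c.F) u u * (rr c.F v - 1))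
        + 6 * c.σ * ∑ u, ∑ v, c.w u v * (c.F * c.F * c.F * c.F) u v
        + 6 * ∑ u, ∑ v, c.w u v * ((c.F * c.F * c.F * c.F) u u * c.F v v) := by
    have s1 := c.sum_comm' (fun u v => (c.F * c.F * c.F) u u * (rr c.F v - 1))
    have s2 := c.sum_comm' (fun u v => (c.F * c.F * c.F * c.F) u u * c.F v v)
    have s3 : ∑ u, ∑ v, c.w u v * main3 c.σ c.F u v
        = 3 * ∑ u, ∑ v, c.w u v * ((c.F * c.F * c.F) v v * (rr c.F u - 1))
          + 3 * ∑ u, ∑ v, c.w u v * ((c.F * c.F * c.F) u u * (rr c.F v - 1))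
          + 6 * c.σ * ∑ u, ∑ v, c.w u v * (c.F * c.F * c.F * c.F) u v
          + 3 * ∑ u, ∑ v, c.w u v * ((c.F * c.F * c.F * c.F) u u * c.F v v)
          + 3 * ∑ u, ∑ v, c.w u v * ((c.F * c.F * c.F * c.F) v v * c.F u u) := by
      simp only [mul_sum, ← sum_add_distrib]
      exact sum_congr rfl fun u _ => sum_congr rfl fun v _ => by unfold main3; ring
    rw [s3, ← s1, ← s2]
    ring
  rw [key]
  unfold Le at b1 b2 b3 b4 b5
  set B := c.p.K ^ (c.μ + 9998)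
  set A1 := ∑ u, ∑ v, c.w u v * ((c.F * c.F * c.F) u u * (rr c.F v - 1))
  set A2 := ∑ u, ∑ v, c.w u v * (c.F * c.F * c.F * c.F) u v
  set A3 := ∑ u, ∑ v, c.w u v * ((c.F * c.F * c.F * c.F) u u * c.F v v)
  have g1' := abs_le.1 (g1.trans b1)
  have g2' := abs_le.1 (g2.trans b2)
  have g3' := abs_le.1 (g3.trans b4)
  have b5' : |a4 c.F * t1 c.F| ≤ B := by rw [abs_mul, abs_of_nonneg a40]; exact b5
  have b5'' := abs_le.1 b5'
  have hm : c.m = (c.S.card : ℝ) := rfl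
  rw [hm]
  rcases c.sg with hs | hs <;> rw [hs] <;> rw [abs_le] <;> constructor <;>
    nlinarith [g1'.1, g1'.2, g2'.1, g2'.2, g3'.1, g3'.2, b5''.1, b5''.2]

theorem drift_le {C : ℝ} (hC0 : 0 ≤ C)
    (hC : ∀ u v, c.w u v ≠ 0 →
      |a3 (c.F' u v) - a3 c.F - main3 c.σ c.F u v| ≤ C * err3 c.L c.R c.S c.F u v) :
    |∑ u, ∑ v, c.w u v * (a3 (c.F' u v) - a3 c.F) - 6 * ((a2 c.F - c.m) * a3 c.F)|
      ≤ (30 + 14 * C) * c.p.K ^ (c.μ + 9998) := by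
  have hF := c.oF.mat
  have hL0 : 0 ≤ c.L := le_trans zero_le_one (Ctx.one_le_L hK)
  have hR0 := (R_pos hK).le
  have h0 : ∀ u ∈ c.S, ∀ v ∈ c.S, 0 ≤ C * err3 c.L c.R c.S c.F u v := fun u _ v _ =>
    mul_nonneg hC0 (err3_nonneg hF hL0 hR0 u v)
  have h1 := c.sum_le_crude (fun u v h => (abs_le.1 (hC u v h)).2) h0
  have h2 := c.sum_le_crude (X := fun u v => -(a3 (c.F' u v) - a3 c.F - main3 c.σ c.F u v))
    (fun u v h => by linarith [(abs_le.1 (hC u v h)).1]) h0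
  have h3 := err_le hK
  have h4 := abs_le.1 (main_le hK)
  have hB : 0 < c.p.K ^ (c.μ + 9998) := Real.rpow_pos_of_pos hK.pos _
  have h5 : ∑ u ∈ c.S, ∑ v ∈ c.S, C * err3 c.L c.R c.S c.F u v
      ≤ C * (12 * c.p.K ^ (c.μ + 9998)) := by
    simp only [← mul_sum]
    exact mul_le_mul_of_nonneg_left h3 hC0
  have h6 : ∑ u, ∑ v, c.w u v * (a3 (c.F' u v) - a3 c.F - main3 c.σ c.F u v)
      = ∑ u, ∑ v, c.w u v * (a3 (c.F' u v) - a3 c.F) - ∑ u, ∑ v, c.w u v * main3 c.σ c.F u v := by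
    simp only [← sum_sub_distrib]
    exact sum_congr rfl fun u _ => sum_congr rfl fun v _ => by ring
  have h7 : ∑ u, ∑ v, c.w u v * -(a3 (c.F' u v) - a3 c.F - main3 c.σ c.F u v)
      = -∑ u, ∑ v, c.w u v * (a3 (c.F' u v) - a3 c.F - main3 c.σ c.F u v) := by
    simp only [mul_neg, sum_neg_distrib]
  rw [h7, h6] at h2
  rw [h6] at h1
  have hCB := mul_nonneg hC0 hB.le
  rw [abs_le]
  constructor <;> nlinarith [h4.1, h4.2]

theorem var_le {C : ℝ}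
    (hC : ∀ u v, c.w u v ≠ 0 → |a3 (c.F' u v) - a3 c.F| ≤ C * crude3 c.L c.R c.S c.F u v) :
    ∑ u, ∑ v, c.w u v * (a3 (c.F' u v) - a3 c.F) ^ 2 ≤ 18 * C ^ 2 * c.p.K ^ (c.μ + 19997) := by
  obtain ⟨t1', t2, r1, r2⟩ := exps c
  have μ1 := Ctx.μ_lo hK
  have μ2 := Ctx.μ_hi hK
  have hF := c.oF.mat
  have hL0 : 0 ≤ c.L := le_trans zero_le_one (Ctx.one_le_L hK)
  have hR0 := (R_pos hK).le
  have h1 := c.sum_le_crude (X := fun u v => (a3 (c.F' u v) - a3 c.F) ^ 2)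
    (Y := fun u v => C ^ 2 * crude3 c.L c.R c.S c.F u v ^ 2)
    (fun u v h => by
      rw [← mul_pow, ← sq_abs]
      exact pow_le_pow_left₀ (abs_nonneg _) (hC u v h) 2)
    (fun u _ v _ => by positivity)
  have h2 := crude3_sum hF c.L c.R
  set P := ∑ a ∈ c.S, vr c.F a ^ 2 with hP
  set P2 := ∑ a ∈ c.S, pd c.S c.F a ^ 2 with hP2
  have hP0 : 0 ≤ P := sum_nonneg fun a _ => sq_nonneg _
  have hP20 : 0 ≤ P2 := sum_nonneg fun a _ => sq_nonneg _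
  have lP : Le c.p.K P (c.μ + 13 + 1 / 50) := Ctx.le_P hK
  have lQ : Le c.p.K P2 (450 + c.ϱ + 1 / 100 + 1 / 100) := lP2 hK
  have l4 := la4 hK
  have lL : Le c.p.K c.L 3327 := (Ctx.sz_L hK).2.mono hK (by linarith)
  have lR : Le c.p.K c.R 3327 := (Ctx.sz_R hK).2.mono hK (by linarith)
  have e1 : Le c.p.K (a4 c.F ^ 2) (c.μ + 19997) :=
    (l4.pow hK hF.a4_nonneg 2).mono hK (by push_cast; linarith)
  have e2 : Le c.p.K ((c.L + c.R) ^ 2 * P ^ 2) (c.μ + 19997) :=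
    (((lL.add hK lR le_rfl le_rfl).pow hK (by positivity) 2).mul hK (lP.pow hK hP0 2)
      (by positivity)).mono hK (by push_cast; linarith)
  have e3 : Le c.p.K ((c.L ^ 2 + c.R ^ 2) ^ 2 * (P * P2)) (c.μ + 19997) :=
    ((((lL.pow hK hL0 2).add hK (lR.pow hK hR0 2) le_rfl le_rfl).pow hK (by positivity) 2).mul hK
      (lP.mul hK lQ hP20) (by positivity)).mono hK (by push_cast; linarith)
  unfold Le at e1 e2 e3
  have hB : 0 < c.p.K ^ (c.μ + 19997) := Real.rpow_pos_of_pos hK.pos _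
  have h5 : ∑ u ∈ c.S, ∑ v ∈ c.S, C ^ 2 * crude3 c.L c.R c.S c.F u v ^ 2
      ≤ C ^ 2 * (16 * c.p.K ^ (c.μ + 19997)) := by
    simp only [← mul_sum]
    exact mul_le_mul_of_nonneg_left (by linarith) (sq_nonneg _)
  have hCB := mul_nonneg (sq_nonneg C) hB.le
  nlinarith

/-- The common end of both estimates. -/
theorem finish {Z D1 D2' : ℝ} {Δ : ι → ι → ℝ} (hZ : Z ≤ c.p.k3)
    (h1 : Le c.p.K (4 * D1) (2 / 5)) (h2 : Le c.p.K (2 * D2') (2 / 5))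
    (hdrift : 0 < Z → ∑ u, ∑ v, c.w u v * Δ u v ≤ D1 * c.p.K ^ (c.μ + 9998))
    (hvar : ∑ u, ∑ v, c.w u v * Δ u v ^ 2 ≤ D2' * c.p.K ^ (c.μ + 19997)) :
    ∑ u, ∑ v, c.w u v * (pp (Z + Δ u v) / c.p.k3 ^ 2) ≤ c.Ω * (pp Z / c.p.k3 ^ 2 + c.η) := by
  have gk := (Ctx.sz_k3 hK).1
  have hk : 0 < c.p.k3 := gk.pos hK
  have hη : 0 < c.η := (Ctx.ge_η hK).pos hK
  have gΩ := Ctx.ge_Ωη hK
  have hB1 : 0 < c.p.K ^ (c.μ + 9998) := Real.rpow_pos_of_pos hK.pos _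
  have hB2 : 0 < c.p.K ^ (c.μ + 19997) := Real.rpow_pos_of_pos hK.pos _
  have q1 : 4 * D1 * c.p.K ^ (c.μ + 9998) ≤ c.Ω * c.η * c.p.k3 :=
    (h1.mul hK (show Le c.p.K (c.p.K ^ (c.μ + 9998)) (c.μ + 9998) from le_rfl) hB1.le).le_of_ge hK
      (gΩ.mul hK gk) (by linarith)
  have q2 : 2 * D2' * c.p.K ^ (c.μ + 19997) ≤ c.Ω * c.η * c.p.k3 ^ 2 :=
    (h2.mul hK (show Le c.p.K (c.p.K ^ (c.μ + 19997)) (c.μ + 19997) from le_rfl) hB2.le).le_of_ge hK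
      (gΩ.mul hK (gk.pow hK 2)) (by push_cast; linarith)
  have := c.sq_lemma (Z := Z) (k := c.p.k3) (k' := c.p.k3) (lam := 0) (β := c.η * c.p.k3 / 4)
    (Vr := c.η * c.p.k3 ^ 2 / 2) (e := 0) (Δ := Δ) hk hk hZ (by positivity)
    (fun h => by have := hdrift h; linarith) (by linarith) (by linarith) le_rfl
  refine this.trans (le_of_eq ?_)
  congr 2
  field_simp
  ring

end ctx
end T3

theorem tr3 : TrOne (fun p m => True) (fun _ _ _ p S F => p3 p F) := by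
  obtain ⟨C, hC0, hC⟩ := pt3
  obtain ⟨C', -, hC'⟩ := pt3c
  obtain ⟨K1, hK1⟩ := exists_const (4 * (30 + 14 * C) + 2 * (18 * C' ^ 2)) (2 / 5) (by norm_num)
  refine ⟨K1, fun ι _ _ c hKK _ _ => ?_⟩
  obtain ⟨hK, hc⟩ := hK1 _ hKK
  have hd := T3.drift_le hK hC0 fun u v h =>
    hC ι c.σ c.L c.R c.S c.F u v (Ctx.loc hK h) (Ctx.one_le_L hK) (Ctx.opB hK) (T3.vr_le hK u)
      (T3.vr_le hK v)
  have hv := T3.var_le hK fun u v h =>
    hC' ι c.σ c.L c.R c.S c.F u v (Ctx.loc hK h) (Ctx.one_le_L hK) (Ctx.opB hK) (T3.vr_le hK u)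
      (T3.vr_le hK v)
  have := T3.finish hK (Z := a3 c.F - c.p.a) (Δ := fun u v => a3 (c.F' u v) - a3 c.F)
    (D1 := 30 + 14 * C) (D2' := 18 * C' ^ 2)
    (by linarith [c.oF.a3_hi]) (hc.of_le (by nlinarith [sq_nonneg C']))
    (hc.of_le (by linarith)) (fun hZ => ?_) hv
  · refine le_trans (le_of_eq ?_) this
    refine sum_congr rfl fun u _ => sum_congr rfl fun v _ => ?_
    have e : a3 c.F - c.p.a + (a3 (c.F' u v) - a3 c.F) = a3 (c.F' u v) - c.p.a := by ring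
    simp only [p3, e]
  · have h1 := (abs_le.1 hd).2
    have hN : 0 < c.p.N := (Ctx.sz_N hK).1.pos hK
    have ha : 0 < a3 c.F := by linarith [c.ok.a1]
    have h2 : (a2 c.F - c.m) * a3 c.F ≤ 0 :=
      mul_nonpos_of_nonpos_of_nonneg (by linarith [Ctx.a2_le_m hK]) ha.le
    linarith

theorem tr3' : TrOne (fun p m => p.phI m) (fun _ _ _ p S F => p3' p F) := by
  obtain ⟨C, hC0, hC⟩ := pt3
  obtain ⟨C', -, hC'⟩ := pt3c
  obtain ⟨K1, hK1⟩ := exists_const (4 * (60 + 14 * C) + 2 * (18 * C' ^ 2)) (2 / 5) (by norm_num)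
  refine ⟨K1, fun ι _ _ c hKK hI _ => ?_⟩
  obtain ⟨hK, hc⟩ := hK1 _ hKK
  have hd := T3.drift_le hK hC0 fun u v h =>
    hC ι c.σ c.L c.R c.S c.F u v (Ctx.loc hK h) (Ctx.one_le_L hK) (Ctx.opB hK) (T3.vr_le hK u)
      (T3.vr_le hK v)
  have hv := T3.var_le hK fun u v h =>
    hC' ι c.σ c.L c.R c.S c.F u v (Ctx.loc hK h) (Ctx.one_le_L hK) (Ctx.opB hK) (T3.vr_le hK u)
      (T3.vr_le hK v)
  have := T3.finish hK (Z := c.p.a - a3 c.F) (Δ := fun u v => -(a3 (c.F' u v) - a3 c.F))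
    (D1 := 60 + 14 * C) (D2' := 18 * C' ^ 2)
    (by linarith [c.oF.a3_I hI]) (hc.of_le (by nlinarith [sq_nonneg C']))
    (hc.of_le (by linarith)) (fun hZ => ?_) (by simpa only [neg_sq] using hv)
  · refine le_trans (le_of_eq ?_) this
    refine sum_congr rfl fun u _ => sum_congr rfl fun v _ => ?_
    have e : c.p.a - a3 c.F + -(a3 (c.F' u v) - a3 c.F) = c.p.a - a3 (c.F' u v) := by ring
    simp only [p3', e]
  · have h1 := (abs_le.1 hd).1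
    have hμ := (Ctx.phI_iff hK).1 hI
    have hX : c.p.phX c.m := (Ctx.phX_iff hK).2 (by linarith)
    have hN := Ctx.sz_N hK
    have hN0 : 0 < c.p.N := hN.1.pos hK
    have hlo : c.m - 5 * c.p.W ≤ a2 c.F := c.oF.a2_lo hX
    have hhi := Ctx.a2_le_m hK
    have ha0 : 0 < c.p.a := by linarith [c.ok.a1]
    have hWa : Le c.p.K (c.p.W * (c.p.K * c.p.N)) (c.μ + 9998) :=
      ((Le.K_pow 6700).mul hK (Le.self.mul hK hN.2 hN0.le) (mul_pos hK.pos hN0).le).mono hK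
        (by push_cast; linarith)
    unfold Le at hWa
    have h2 : (c.m - a2 c.F) * a3 c.F ≤ 5 * c.p.W * (c.p.K * c.p.N) :=
      calc (c.m - a2 c.F) * a3 c.F ≤ (c.m - a2 c.F) * (c.p.K * c.p.N) :=
            mul_le_mul_of_nonneg_left (by linarith [c.ok.a2]) (by linarith)
        _ ≤ 5 * c.p.W * (c.p.K * c.p.N) :=
            mul_le_mul_of_nonneg_right (by linarith) (mul_pos hK.pos hN0).le
    simp only [mul_neg, sum_neg_distrib]
    linarith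

end Crest.Agent.R62
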