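import Crest.Agent.R62.Pt4B

/-! The vector form of `pt4`. -/

set_option autoImplicit false
set_option linter.unusedSectionVars false

open Finset Matrix

namespace Crest.Agent.R62.P4

variable {ι : Type} [Fintype ι] [DecidableEq ι]

theorem sym_dot {F : Matrix ι ι ℝ} (hF : Fᵀ = F) (a b : ι → ℝ) :
    a ⬝ᵥ F *ᵥ b = (F *ᵥ a) ⬝ᵥ b := by
  rw [dotProduct_mulVec, ← mulVec_transpose, hF]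

/-- one-matrix bounds -/
structure V1 (F : Matrix ι ι ℝ) (e f : ι → ℝ) (α β s t L pu pv φ : ℝ) : Prop where
  sym : Fᵀ = F
  y : vn (F *ᵥ e) ≤ α
  z : vn (F *ᵥ f) ≤ β
  yy : vn (F *ᵥ (F *ᵥ e)) ≤ s
  zz : vn (F *ᵥ (F *ᵥ f)) ≤ t
  op : ∀ x, vn (F *ᵥ x) ≤ L * vn x
  ye : |(F *ᵥ e) ⬝ᵥ e| ≤ pu
  zf : |(F *ᵥ f) ⬝ᵥ f| ≤ pv
  yf : |(F *ᵥ e) ⬝ᵥ f| ≤ φ
  ze : |(F *ᵥ f) ⬝ᵥ e| ≤ φ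

structure V2 (F G : Matrix ι ι ℝ) (e f : ι → ℝ) (α β s t L pu pv φ ε o o3 : ℝ) : Prop where
  hF : V1 F e f α β s t L pu pv φ
  hG : V1 G e f α β s t L pu pv φ
  e1 : vn e ≤ 1
  f1 : vn f ≤ 1
  ee : |e ⬝ᵥ e - 1| ≤ ε
  ff : |f ⬝ᵥ f - 1| ≤ ε
  ef : |e ⬝ᵥ f| ≤ ε
  Gy : vn (G *ᵥ (F *ᵥ e)) ≤ s
  Fy : vn (F *ᵥ (G *ᵥ e)) ≤ s
  Gz : vn (G *ᵥ (F *ᵥ f)) ≤ t
  Fz : vn (F *ᵥ (G *ᵥ f)) ≤ t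
  oFF : |(F *ᵥ e) ⬝ᵥ (F *ᵥ f)| ≤ o
  oFG : |(F *ᵥ e) ⬝ᵥ (G *ᵥ f)| ≤ o
  oGF : |(G *ᵥ e) ⬝ᵥ (F *ᵥ f)| ≤ o
  oGG : |(G *ᵥ e) ⬝ᵥ (G *ᵥ f)| ≤ o
  p1 : |(F *ᵥ e) ⬝ᵥ (F *ᵥ (G *ᵥ f))| ≤ o3
  p2 : |(G *ᵥ e) ⬝ᵥ (G *ᵥ (F *ᵥ f))| ≤ o3
  p3 : |(F *ᵥ f) ⬝ᵥ (F *ᵥ (G *ᵥ e))| ≤ o3
  p4 : |(G *ᵥ f) ⬝ᵥ (G *ᵥ (F *ᵥ e))| ≤ o3

section
variable {F G : Matrix ι ι ℝ} {e f : ι → ℝ} {α β s t ρ L pu pv φ ε o o3 E : ℝ}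

theorem V2.swap (h : V2 F G e f α β s t L pu pv φ ε o o3) : V2 G F e f α β s t L pu pv φ ε o o3 :=
  ⟨h.hG, h.hF, h.e1, h.f1, h.ee, h.ff, h.ef, h.Fy, h.Gy, h.Fz, h.Gz, h.oGG, h.oGF, h.oFG, h.oFF,
    h.p2, h.p1, h.p4, h.p3⟩

theorem cm {a b : ι → ℝ} {x : ℝ} (h : |a ⬝ᵥ b| ≤ x) : |b ⬝ᵥ a| ≤ x := by
  rw [dotProduct_comm]; exact h

/-- the error hypotheses -/
structure Er (α β s t ρ L pu pv φ ε o o3 E : ℝ) : Prop where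
  r : Rng α β s t ρ L pu pv φ ε
  H : Half α β s t ρ L pu pv φ ε E
  H' : Half β α t s ρ L pv pu φ ε E
  E1 : o * (s * t) ≤ E
  E2 : o3 * o3 ≤ E
  E3 : L * φ * (s * t) ≤ E

theorem lin_bd (v : V2 F G e f α β s t L pu pv φ ε o o3) (r : Er α β s t ρ L pu pv φ ε o o3 E)
    {σ n n' w κ Du Dv : ℝ} (c : Co σ n n' w κ pu pv φ ε)
    (hn : |n - Dv| ≤ 3 * (ε + pv * φ + pv ^ 2)) (hn' : |n' - Du| ≤ 3 * (ε + pu * φ + pu ^ 2)) :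
    fi (F * G) (Dm σ n n' w κ (F *ᵥ e) (F *ᵥ f) e f (F *ᵥ e) (F *ᵥ f) e f * G)
      - (Dv * ((F *ᵥ (F *ᵥ e)) ⬝ᵥ (G *ᵥ (G *ᵥ (F *ᵥ e))))
        + Du * ((F *ᵥ (F *ᵥ f)) ⬝ᵥ (G *ᵥ (G *ᵥ (F *ᵥ f))))
        + σ * ((F *ᵥ (F *ᵥ e)) ⬝ᵥ (G *ᵥ (G *ᵥ (F *ᵥ f)))
          + (F *ᵥ (F *ᵥ f)) ⬝ᵥ (G *ᵥ (G *ᵥ (F *ᵥ e))))
        - ((F *ᵥ (F *ᵥ e)) ⬝ᵥ (G *ᵥ (G *ᵥ e)) + (G *ᵥ (F *ᵥ e)) ⬝ᵥ (G *ᵥ (F *ᵥ e)))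
        - ((F *ᵥ (F *ᵥ f)) ⬝ᵥ (G *ᵥ (G *ᵥ f)) + (G *ᵥ (F *ᵥ f)) ⬝ᵥ (G *ᵥ (F *ᵥ f))))
      ≤ 60 * E := by
  have hL : 0 ≤ L := by linarith [r.r.L1]
  have k : ∀ a b : ι → ℝ, a ⬝ᵥ (F * G) *ᵥ b = (F *ᵥ a) ⬝ᵥ (G *ᵥ b) := fun a b => by
    rw [← mulVec_mulVec, sym_dot v.hF.sym]
  have op : ∀ {x : ι → ℝ} {a : ℝ}, vn x ≤ a → vn (G *ᵥ x) ≤ L * a := fun {x a} h =>
    (v.hG.op x).trans (mul_le_mul_of_nonneg_left h hL)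
  have k2 : ∀ a : ι → ℝ, (F *ᵥ a) ⬝ᵥ (G *ᵥ (G *ᵥ (F *ᵥ a)))
      = (G *ᵥ (F *ᵥ a)) ⬝ᵥ (G *ᵥ (F *ᵥ a)) := fun a => sym_dot v.hG.sym _ _
  rw [Dm_mul _ _ _ _ _ _ _ _ _ _ _ _ _ v.hG.sym, fi_mat_Dm]
  simp only [k]
  have h1 := lin_half r.r r.H r.H' r.E3 c.sg c.n1 hn c.w1 c.k1
    ((dot_bd v.hF.yy (op v.Gy)).trans_eq (by ring)) ((dot_bd v.hF.yy (op v.Gz)).trans_eq (by ring))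
    ((dot_bd v.hF.yy v.hG.yy).trans_eq (by ring))
    (Wey := (F *ᵥ e) ⬝ᵥ (G *ᵥ (G *ᵥ (F *ᵥ e))))
    (by rw [k2]; exact (dot_bd v.Gy v.Gy).trans_eq (by ring))
    ((dot_bd v.hF.yy (op v.hG.z)).trans_eq (by ring))
    ((dot_bd v.hF.z (op v.Gy)).trans_eq (by ring))
    ((dot_bd v.hF.z (op v.hG.z)).trans_eq (by ring))
    ((dot_bd v.hF.y (op v.hG.z)).trans_eq (by ring))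
  have h2 := lin_half r.r.swap r.H' r.H (by rw [mul_comm t s]; exact r.E3) c.sg c.n1' hn'
    (by rw [mul_comm pv pu]; exact c.w1) c.k1
    ((dot_bd v.hF.zz (op v.Gz)).trans_eq (by ring)) ((dot_bd v.hF.zz (op v.Gy)).trans_eq (by ring))
    ((dot_bd v.hF.zz v.hG.zz).trans_eq (by ring))
    (Wey := (F *ᵥ f) ⬝ᵥ (G *ᵥ (G *ᵥ (F *ᵥ f))))
    (by rw [k2]; exact (dot_bd v.Gz v.Gz).trans_eq (by ring))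
    ((dot_bd v.hF.zz (op v.hG.y)).trans_eq (by ring))
    ((dot_bd v.hF.y (op v.Gz)).trans_eq (by ring))
    ((dot_bd v.hF.y (op v.hG.y)).trans_eq (by ring))
    ((dot_bd v.hF.z (op v.hG.y)).trans_eq (by ring))
  rw [← k2, ← k2]
  linear_combination h1 + h2

theorem split_bd (r : Er α β s t ρ L pu pv φ ε o o3 E) {A A' B B' : Matrix ι ι ℝ}
    (hA : fn A ≤ 2 * N0 α β s t) (hA' : fn A' ≤ 2 * N0 α β s t)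
    (hB : fn B ≤ 6 * NE α β s t pu pv φ) (hB' : fn B' ≤ 6 * NE α β s t pu pv φ) :
    fi (A + B) (A' + B') ≤ fi A A' + 2544 * E := by
  have h1 := fi_bd hA hB'
  have h2 := fi_bd hB hA'
  have h3 := fi_bd hB hB'
  have i1 := I1 r.r r.H r.H'
  have i2 := I2 r.r r.H r.H'
  rw [fi_add_left, fi_add_right, fi_add_right]
  linear_combination h1 + h2 + h3 + 24 * i1 + 36 * i2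

theorem sq_bd (v : V2 F G e f α β s t L pu pv φ ε o o3) (r : Er α β s t ρ L pu pv φ ε o o3 E)
    {σ n n' w κ : ℝ} (c : Co σ n n' w κ pu pv φ ε) :
    fi (Dm σ n n' w κ (F *ᵥ e) (F *ᵥ f) e f (F *ᵥ e) (F *ᵥ f) e f * G)
        (Dm σ n n' w κ (F *ᵥ e) (F *ᵥ f) e f (F *ᵥ e) (F *ᵥ f) e f * G)
      - (((F *ᵥ e) ⬝ᵥ (F *ᵥ e)) * ((G *ᵥ (F *ᵥ f)) ⬝ᵥ (G *ᵥ (F *ᵥ f)))
        + ((F *ᵥ f) ⬝ᵥ (F *ᵥ f)) * ((G *ᵥ (F *ᵥ e)) ⬝ᵥ (G *ᵥ (F *ᵥ e)))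
        + (G *ᵥ (F *ᵥ e)) ⬝ᵥ (G *ᵥ (F *ᵥ e)) + (G *ᵥ (F *ᵥ f)) ⬝ᵥ (G *ᵥ (F *ᵥ f)))
      ≤ 2558 * E := by
  have hs2 : σ * σ = 1 := by rcases c.sg with h | h <;> simp [h]
  have hA := Am_bd (c.more r.r).1 r.r v.hF.y v.hF.z v.e1 v.f1 v.Gy v.Gz
  have hB := Em_bd c r.r v.hF.y v.hF.z v.e1 v.f1 v.Gy v.Gz v.hG.y v.hG.z
  rw [Dm_mul _ _ _ _ _ _ _ _ _ _ _ _ _ v.hG.sym, Dm_eq c.sg]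
  have h1 := split_bd r hA hA hB hB
  rw [fi_Am_Am] at h1
  have h2 := aa_bd r.r r.H r.H' r.E3 r.E1 (yy := (F *ᵥ e) ⬝ᵥ (F *ᵥ e)) (zz := (F *ᵥ f) ⬝ᵥ (F *ᵥ f))
    c.sg c.sg v.oFF (cm v.oFF) v.hF.ye (cm v.hF.ye) v.hF.zf (cm v.hF.zf) v.hF.yf (cm v.hF.yf)
    v.hF.ze (cm v.hF.ze) v.ee v.ff v.ef (cm v.ef)
    ((dot_bd v.Gy v.Gy).trans_eq (by ring)) ((dot_bd v.Gz v.Gz).trans_eq (by ring))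
    (dot_bd v.Gy v.Gz) ((dot_bd v.Gz v.Gy).trans_eq (by ring))
  rw [hs2] at h1 h2
  linear_combination h1 + h2

theorem main_bd (v : V2 F G e f α β s t L pu pv φ ε o o3) (r : Er α β s t ρ L pu pv φ ε o o3 E)
    {σ n n' w κ Du Dv σ' m m' w' κ' Gu Gv : ℝ} (c : Co σ n n' w κ pu pv φ ε)
    (c' : Co σ' m m' w' κ' pu pv φ ε)
    (hn : |n - Dv| ≤ 3 * (ε + pv * φ + pv ^ 2)) (hn' : |n' - Du| ≤ 3 * (ε + pu * φ + pu ^ 2))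
    (hm : |m - Gv| ≤ 3 * (ε + pv * φ + pv ^ 2)) (hm' : |m' - Gu| ≤ 3 * (ε + pu * φ + pu ^ 2))
    {D T : Matrix ι ι ℝ} (hD : D = Dm σ n n' w κ (F *ᵥ e) (F *ᵥ f) e f (F *ᵥ e) (F *ᵥ f) e f)
    (hT : T = Dm σ' m m' w' κ' (G *ᵥ e) (G *ᵥ f) e f (G *ᵥ e) (G *ᵥ f) e f) :
    fi ((F + D) * (G + T)) ((F + D) * (G + T)) - fi (F * G) (F * G)
      + ((G *ᵥ (F *ᵥ e)) ⬝ᵥ (G *ᵥ (F *ᵥ e)) + (F *ᵥ (G *ᵥ e)) ⬝ᵥ (F *ᵥ (G *ᵥ e))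
          + 2 * ((F *ᵥ (F *ᵥ e)) ⬝ᵥ (G *ᵥ (G *ᵥ e)))
        + ((G *ᵥ (F *ᵥ f)) ⬝ᵥ (G *ᵥ (F *ᵥ f)) + (F *ᵥ (G *ᵥ f)) ⬝ᵥ (F *ᵥ (G *ᵥ f))
          + 2 * ((F *ᵥ (F *ᵥ f)) ⬝ᵥ (G *ᵥ (G *ᵥ f)))))
      - (((F *ᵥ e) ⬝ᵥ (F *ᵥ e)) * ((G *ᵥ (F *ᵥ f)) ⬝ᵥ (G *ᵥ (F *ᵥ f)))
        + ((F *ᵥ f) ⬝ᵥ (F *ᵥ f)) * ((G *ᵥ (F *ᵥ e)) ⬝ᵥ (G *ᵥ (F *ᵥ e)))
        + ((G *ᵥ e) ⬝ᵥ (G *ᵥ e)) * ((F *ᵥ (G *ᵥ f)) ⬝ᵥ (F *ᵥ (G *ᵥ f)))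
        + ((G *ᵥ f) ⬝ᵥ (G *ᵥ f)) * ((F *ᵥ (G *ᵥ e)) ⬝ᵥ (F *ᵥ (G *ᵥ e)))
        + 2 * σ * σ' * (((F *ᵥ e) ⬝ᵥ (F *ᵥ (G *ᵥ e))) * ((G *ᵥ f) ⬝ᵥ (G *ᵥ (F *ᵥ f)))
          + ((F *ᵥ f) ⬝ᵥ (F *ᵥ (G *ᵥ f))) * ((G *ᵥ e) ⬝ᵥ (G *ᵥ (F *ᵥ e))))
        + 2 * σ * σ' * (((F *ᵥ e) ⬝ᵥ (G *ᵥ e)) * ((F *ᵥ (F *ᵥ f)) ⬝ᵥ (G *ᵥ (G *ᵥ f)))
          + ((F *ᵥ f) ⬝ᵥ (G *ᵥ f)) * ((F *ᵥ (F *ᵥ e)) ⬝ᵥ (G *ᵥ (G *ᵥ e)))))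
      - (2 * σ * ((F *ᵥ (F *ᵥ e)) ⬝ᵥ (G *ᵥ (G *ᵥ (F *ᵥ f)))
          + (F *ᵥ (F *ᵥ f)) ⬝ᵥ (G *ᵥ (G *ᵥ (F *ᵥ e))))
        + 2 * (Dv * ((F *ᵥ (F *ᵥ e)) ⬝ᵥ (G *ᵥ (G *ᵥ (F *ᵥ e))))
          + Du * ((F *ᵥ (F *ᵥ f)) ⬝ᵥ (G *ᵥ (G *ᵥ (F *ᵥ f)))))
        + 2 * σ' * ((G *ᵥ (G *ᵥ e)) ⬝ᵥ (F *ᵥ (F *ᵥ (G *ᵥ f)))
          + (G *ᵥ (G *ᵥ f)) ⬝ᵥ (F *ᵥ (F *ᵥ (G *ᵥ e))))
        + 2 * (Gv * ((G *ᵥ (G *ᵥ e)) ⬝ᵥ (F *ᵥ (F *ᵥ (G *ᵥ e))))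
          + Gu * ((G *ᵥ (G *ᵥ f)) ⬝ᵥ (F *ᵥ (F *ᵥ (G *ᵥ f))))))
      ≤ 20000000 * E := by
  have hE : 0 ≤ E := le_trans (mul_self_nonneg o3) r.E2
  have sD : Dᵀ = D := by rw [hD]; exact Dm_symm ..
  have sT : Tᵀ = T := by rw [hT]; exact Dm_symm ..
  rw [expand v.hF.sym v.hG.sym sD sT]
  have l1 := lin_bd v r c hn hn'
  have l2 := lin_bd v.swap r c' hm hm'
  have s1 := sq_bd v r c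
  have s2 := sq_bd v.swap r c'
  rw [← hD] at l1 s1
  rw [← hT] at l2 s2
  rw [dotProduct_comm (G *ᵥ (G *ᵥ e)) (F *ᵥ (F *ᵥ e)),
    dotProduct_comm (G *ᵥ (G *ᵥ f)) (F *ᵥ (F *ᵥ f))] at l2
  have aDG := Am_bd (c.more r.r).1 r.r v.hF.y v.hF.z v.e1 v.f1 v.Gy v.Gz
  have bDG := Em_bd c r.r v.hF.y v.hF.z v.e1 v.f1 v.Gy v.Gz v.hG.y v.hG.z
  have aTF := Am_bd (c'.more r.r).1 r.r v.hG.y v.hG.z v.e1 v.f1 v.Fy v.Fz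
  have bTF := Em_bd c' r.r v.hG.y v.hG.z v.e1 v.f1 v.Fy v.Fz v.hF.y v.hF.z
  have aDF := Am_bd (c.more r.r).1 r.r v.hF.y v.hF.z v.e1 v.f1 v.hF.yy v.hF.zz
  have bDF := Em_bd c r.r v.hF.y v.hF.z v.e1 v.f1 v.hF.yy v.hF.zz v.hF.y v.hF.z
  have aTG := Am_bd (c'.more r.r).1 r.r v.hG.y v.hG.z v.e1 v.f1 v.hG.yy v.hG.zz
  have bTG := Em_bd c' r.r v.hG.y v.hG.z v.e1 v.f1 v.hG.yy v.hG.zz v.hG.y v.hG.z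
  have eDG : D * G = _ := (congrArg (· * G) hD).trans
    ((Dm_mul _ _ _ _ _ _ _ _ _ _ _ _ _ v.hG.sym).trans (Dm_eq c.sg ..))
  have eTF : T * F = _ := (congrArg (· * F) hT).trans
    ((Dm_mul _ _ _ _ _ _ _ _ _ _ _ _ _ v.hF.sym).trans (Dm_eq c'.sg ..))
  have eDF : D * F = _ := (congrArg (· * F) hD).trans
    ((Dm_mul _ _ _ _ _ _ _ _ _ _ _ _ _ v.hF.sym).trans (Dm_eq c.sg ..))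
  have eTG : T * G = _ := (congrArg (· * G) hT).trans
    ((Dm_mul _ _ _ _ _ _ _ _ _ _ _ _ _ v.hG.sym).trans (Dm_eq c'.sg ..))
  -- the term ⟨D F, T G⟩
  have x1 := split_bd r aDF aTG bDF bTG
  rw [← eDF, ← eTG, fi_Am_Am] at x1
  have x2 := aa_bd r.r r.H r.H' r.E3 r.E1 (yy := (F *ᵥ e) ⬝ᵥ (G *ᵥ e))
    (zz := (F *ᵥ f) ⬝ᵥ (G *ᵥ f))
    c.sg c'.sg v.oFG (cm v.oGF) v.hF.ye (cm v.hG.ye) v.hF.zf (cm v.hG.zf) v.hF.yf (cm v.hG.yf)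
    v.hF.ze (cm v.hG.ze) v.ee v.ff v.ef (cm v.ef)
    ((dot_bd v.hF.yy v.hG.yy).trans_eq (by ring)) ((dot_bd v.hF.zz v.hG.zz).trans_eq (by ring))
    (dot_bd v.hF.yy v.hG.zz) ((dot_bd v.hF.zz v.hG.yy).trans_eq (by ring))
  -- the term ⟨D G, F T⟩
  have y1 := split_bd r aDG ((fn_transpose _).trans_le aTF) bDG ((fn_transpose _).trans_le bTF)
  rw [← transpose_add, ← eDG, ← eTF, fi_Am_AmT] at y1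
  have kF : ∀ {a b : ι → ℝ} {x y : ℝ}, vn (F *ᵥ a) ≤ x → vn b ≤ y → |a ⬝ᵥ F *ᵥ b| ≤ x * y :=
    fun ha hb => by rw [sym_dot v.hF.sym]; exact dot_bd ha hb
  have kG : ∀ {a b : ι → ℝ} {x y : ℝ}, vn a ≤ x → vn (G *ᵥ b) ≤ y → |(G *ᵥ a) ⬝ᵥ b| ≤ x * y :=
    fun ha hb => by rw [← sym_dot v.hG.sym]; exact dot_bd ha hb
  have y2 := at_bd r.r r.H r.H' r.E2 c.sg c'.sg v.p1 (cm v.p2) v.p3 (cm v.p4)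
    (kF v.hF.yy v.hG.y) (kF v.hF.yy v.hG.z) (kF v.hF.zz v.hG.y) (kF v.hF.zz v.hG.z)
    (dot_bd v.Gy v.hG.y) (dot_bd v.Gy v.hG.z) (dot_bd v.Gz v.hG.y) (dot_bd v.Gz v.hG.z)
    (kF v.hF.y v.hG.y) (kF v.hF.y v.hG.z) ((kF v.hF.z v.hG.y).trans_eq (mul_comm _ _))
    (kF v.hF.z v.hG.z) (kG v.hF.y v.hG.y) (kG v.hF.y v.hG.z)
    ((kG v.hF.z v.hG.y).trans_eq (mul_comm _ _)) (kG v.hF.z v.hG.z)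
  rw [dotProduct_comm (G *ᵥ (F *ᵥ f)) (G *ᵥ f), dotProduct_comm (G *ᵥ (F *ᵥ e)) (G *ᵥ e)] at y1 y2
  -- higher order terms
  have nD : fn D ≤ 20 * ND α β pu pv := by rw [hD]; exact Dm_bd c r.r v.hF.y v.hF.z v.e1 v.f1
  have nT : fn T ≤ 20 * ND α β pu pv := by rw [hT]; exact Dm_bd c' r.r v.hG.y v.hG.z v.e1 v.f1
  have nDT : fn (D * T) ≤ 400 * ND α β pu pv ^ 2 :=
    (fn_mul D T).trans ((mul_le_mul nD nT (fn_nonneg _) ((fn_nonneg _).trans nD)).trans_eq (by ring))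
  have N0n : 0 ≤ N0 α β s t := le_trans (fn_nonneg _) aDG |> fun h => by linarith
  have nDG : fn (D * G) ≤ 6 * (N0 α β s t + NE α β s t pu pv φ) := by
    rw [eDG]; exact (bd_add aDG bDG).trans (by linarith)
  have nTF : fn (T * F)ᵀ ≤ 6 * (N0 α β s t + NE α β s t pu pv φ) := by
    rw [fn_transpose, eTF]; exact (bd_add aTF bTF).trans (by linarith)
  have z1 := fi_bd nDG nDT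
  have z2 := fi_bd nTF nDT
  have z3 := fi_bd nDT nDT
  have i3 := I3 r.r r.H r.H'
  have i4 := I4 r.r r.H r.H'
  linear_combination 2 * l1 + 2 * l2 + s1 + s2 + 2 * x1 + 2 * x2 + 2 * y1 + 2 * y2 + 2 * z1 + 2 * z2
    + z3 + 9600 * i3 + 160000 * i4 + 6333212 * hE

end

end Crest.Agent.R62.P4
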