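import Crest.Agent.R62.Upd
import Crest.Agent.R62.GenM
import Crest.Agent.R62.Pt4C

set_option autoImplicit false

open Finset Matrix

namespace Crest.Agent.R62

variable {ι V : Type} [Fintype ι] [DecidableEq ι] [Fintype V] [DecidableEq V]

namespace P4

def col (A : Matrix ι ι ℝ) (u : ι) : ι → ℝ := fun a => A a u

theorem mv_col (X A : Matrix ι ι ℝ) (u : ι) : X *ᵥ col A u = col (X * A) u := GenMX.mul_col X A u

theorem dot_col (A B : Matrix ι ι ℝ) (u v : ι) : col A u ⬝ᵥ col B v = (Aᵀ * B) u v :=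
  (GenMX.gram_dot A B u v).symm

theorem vn_le {x : ι → ℝ} {q : ℝ} (h : x ⬝ᵥ x ≤ q) : vn x ≤ √q := Real.sqrt_le_sqrt h

theorem vn_op {L : ℝ} {F : Matrix ι ι ℝ} (hL : 1 ≤ L) (h : OpB L F) (x : ι → ℝ) :
    vn (F *ᵥ x) ≤ L * vn x := by
  refine le_of_sq_le_sq ?_ (mul_nonneg (by linarith) (vn_nonneg x))
  rw [mul_pow, vn_sq, vn_sq]; exact h x

section
variable {σ σ' L R : ℝ} {S : Finset ι} {F G : Matrix ι ι ℝ} {u v : ι}

theorem upd_Dm (h : Loc σ S F u v) : upd σ S F u v = F + Dm σ (n1 σ S F u v) (n1 σ S F v u)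
    (n2 σ S F u v) (σ / ((S.card : ℝ) - 2)) (F *ᵥ col (prj S) u) (F *ᵥ col (prj S) v)
    (col (prj S) u) (col (prj S) v) (F *ᵥ col (prj S) u) (F *ᵥ col (prj S) v)
    (col (prj S) u) (col (prj S) v) := by
  rw [h.upd_eq, mv_col, mv_col, h.mat.mul_prj]
  ext a b
  simp only [Dm, col, hat, Matrix.add_apply, Matrix.sub_apply, Matrix.smul_apply, vecMulVec_apply,
    smul_eq_mul]
  generalize σ / ((S.card : ℝ) - 2) = κ
  rcases h.sg with rfl | rfl <;> ring

theorem diag_nn (hF : Mat S F) (hG : Mat S G) (a : ι) : 0 ≤ (F * G * G * F) a a := by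
  have h := diag_gram_nonneg (G * F) a
  rw [transpose_mul, hF.transpose, hG.transpose] at h
  simpa only [Matrix.mul_assoc] using h

theorem dd2 (hF : Mat S F) (hG : Mat S G) (a : ι) :
    (G *ᵥ (F *ᵥ col (prj S) a)) ⬝ᵥ (G *ᵥ (F *ᵥ col (prj S) a)) = (F * G * G * F) a a := by
  simp only [mv_col, hF.mul_prj, dot_col, transpose_mul, hF.transpose, hG.transpose,
    Matrix.mul_assoc]

theorem dd1 (hF : Mat S F) (hG : Mat S G) (a b : ι) :
    (F *ᵥ col (prj S) a) ⬝ᵥ (G *ᵥ col (prj S) b) = (F * G) a b := by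
  simp only [mv_col, hF.mul_prj, hG.mul_prj, dot_col, hF.transpose]

theorem dd0 (hF : Mat S F) (a b : ι) : (F *ᵥ col (prj S) a) ⬝ᵥ col (prj S) b = F a b := by
  simp only [mv_col, hF.mul_prj, dot_col, hF.transpose]

theorem dd3 (hF : Mat S F) (hG : Mat S G) (a b : ι) :
    (F *ᵥ col (prj S) a) ⬝ᵥ (F *ᵥ (G *ᵥ col (prj S) b)) = (F * F * G) a b := by
  simp only [mv_col, hF.mul_prj, hG.mul_prj, dot_col, hF.transpose, Matrix.mul_assoc]

theorem dd4 (hF : Mat S F) (hG : Mat S G) (a : ι) :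
    (F *ᵥ (F *ᵥ col (prj S) a)) ⬝ᵥ (G *ᵥ (G *ᵥ col (prj S) a)) = (F * F * G * G) a a := by
  simp only [mv_col, hF.mul_prj, hG.mul_prj, dot_col, transpose_mul, hF.transpose,
    Matrix.mul_assoc]

theorem dd5 (hF : Mat S F) (hG : Mat S G) (a b : ι) :
    (F *ᵥ (F *ᵥ col (prj S) a)) ⬝ᵥ (G *ᵥ (G *ᵥ (F *ᵥ col (prj S) b))) = (F * F * G * G * F) a b := by
  simp only [mv_col, hF.mul_prj, dot_col, transpose_mul, hF.transpose, Matrix.mul_assoc]

theorem tr5 (hF : Mat S F) (hG : Mat S G) (a b : ι) :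
    (F * F * G * G * F) a b = (F * G * G * F * F) b a := by
  rw [← transpose_apply (F * G * G * F * F)]
  simp only [transpose_mul, hF.transpose, hG.transpose, Matrix.mul_assoc]

theorem tr4 (hF : Mat S F) (hG : Mat S G) (a : ι) :
    (G * G * F * F) a a = (F * F * G * G) a a := by
  rw [← transpose_apply (F * F * G * G)]
  simp only [transpose_mul, hF.transpose, hG.transpose, Matrix.mul_assoc]

theorem ddP {a b : ι} (ha : a ∈ S) (hb : b ∈ S) :
    col (prj S : Matrix ι ι ℝ) a ⬝ᵥ col (prj S) b = (if a = b then 1 else 0) - 1 / (S.card : ℝ) := by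
  rw [dot_col, (mat_prj S).transpose, prj_mul_prj]; simp [prj, ha, hb]

theorem v1_of (h : Loc σ S F u v) (hL : 1 ≤ L) (hO : OpB L F) {a b q r pu pv φ : ℝ}
    (ha : rr F u ≤ a) (hb : rr F v ≤ b) (hq : (F * F * F * F) u u ≤ q)
    (hr : (F * F * F * F) v v ≤ r) (h1 : |F u u| ≤ pu) (h2 : |F v v| ≤ pv) (h3 : |F u v| ≤ φ) :
    V1 F (col (prj S) u) (col (prj S) v) √a √b √q √r L pu pv φ :=
  ⟨h.mat.transpose, vn_le (by rw [dd1 h.mat h.mat]; exact ha), vn_le (by rw [dd1 h.mat h.mat]; exact hb),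
    vn_le (by rw [dd2 h.mat h.mat]; exact hq), vn_le (by rw [dd2 h.mat h.mat]; exact hr),
    vn_op hL hO, by rw [dd0 h.mat]; exact h1, by rw [dd0 h.mat]; exact h2,
    by rw [dd0 h.mat]; exact h3, by rw [dd0 h.mat, h.mat.symm]; exact h3⟩

theorem co_of (h : Loc σ S F u v) {pu pv φ : ℝ} (h1 : pd S F u ≤ pu) (h2 : pd S F v ≤ pv)
    (h3 : ph S F u v ≤ φ) :
    Co σ (n1 σ S F u v) (n1 σ S F v u) (n2 σ S F u v) (σ / ((S.card : ℝ) - 2)) pu pv φ
        (1 / (S.card : ℝ)) ∧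
      |n1 σ S F u v - F v v| ≤ 3 * (1 / (S.card : ℝ) + pv * φ + pv ^ 2) ∧
      |n1 σ S F v u - F u u| ≤ 3 * (1 / (S.card : ℝ) + pu * φ + pu ^ 2) := by
  obtain ⟨a, -, c, -, e, -⟩ := h.small
  have hs : |σ| = 1 := by rcases h.sg with h | h <;> simp [h]
  have hb := h.big
  have e3 : ph S F v u = ph S F u v := by simp only [ph, h.mat.symm v u]
  refine ⟨⟨h.sg, h.n1_le.trans (by linarith), h.swap.n1_le.trans (by linarith),
    h.n2_bd.trans ?_, ?_⟩, h.n1_bd.trans ?_, h.swap.n1_bd.trans ?_⟩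
  · unfold ph0; gcongr; linarith
  · rw [abs_div, hs, abs_of_pos (by linarith : (0 : ℝ) < S.card - 2), mul_one_div,
      div_le_div_iff₀ (by linarith) (by linarith)]
    linarith
  · unfold pe; gcongr; linarith
  · unfold pe; rw [e3]; gcongr; linarith

theorem half_eq (L : ℝ) (S : Finset ι) (u v : ι) (ha : 0 ≤ ro F G u) (hb : 0 ≤ ro F G v)
    (hq : 0 ≤ qq F G u) (hr : 0 ≤ qq F G v) (hR : 0 ≤ R) :
    half4 L R S F G u v = hv √(ro F G u) √(ro F G v) √(qq F G u) √(qq F G v) √R L (pb S F G u)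
      (pb S F G v) (phb S F G u v) (1 / (S.card : ℝ)) := by
  have key : ∀ a b q r R α β s t ρ L pu pv φ ε m : ℝ, a = α ^ 2 → b = β ^ 2 → q = s ^ 2 →
      r = t ^ 2 → R = ρ ^ 2 → ε = 1 / m →
      (s * a + a ^ 2) * b ^ 2 + φ * a * r + pv * a * (s * t) + ρ * pv * b * (q + a ^ 2)
        + (R + L) * pv ^ 2 * q + L * (φ + pu + pv) * (s + α) * (α * β) + L * (1 / m + pv * φ) * q
        + a * r / R + R ^ 3 * pv ^ 2 * a ^ 2 + (L ^ 2 + R ^ 2) * a / m
        = hv α β s t ρ L pu pv φ ε := by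
    intro a b q r R α β s t ρ L pu pv φ ε m h1 h2 h3 h4 h5 h6
    subst h1 h2 h3 h4 h5 h6
    unfold hv; ring
  unfold half4
  rw [Real.sqrt_mul hq, Real.sqrt_mul ha]
  exact key _ _ _ _ _ _ _ _ _ _ _ _ _ _ _ _ (Real.sq_sqrt ha).symm (Real.sq_sqrt hb).symm
    (Real.sq_sqrt hq).symm (Real.sq_sqrt hr).symm (Real.sq_sqrt hR).symm rfl

end

end P4

open P4

/-- Pointwise upper bound on the change of `tr (F F G G) = ‖F G‖²`. -/
theorem pt4 : ∃ C : ℝ, 0 ≤ C ∧ ∀ (ι : Type) [Fintype ι] [DecidableEq ι] (σ σ' L R : ℝ) (S : Finset ι)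
    (F G : Matrix ι ι ℝ) (u v : ι), Loc σ S F u v → Loc σ' S G u v → 1 ≤ L → OpB L F → OpB L G →
    ro F G u ≤ R → ro F G v ≤ R →
    c22 (upd σ S F u v) (upd σ' S G u v) - c22 F G + rem4 F G u v - quad4 σ σ' F G u v
      - lin4 σ σ' F G u v ≤ C * err4 L R S F G u v := by
  refine ⟨20000000, by norm_num, ?_⟩
  intro ι _ _ σ σ' L R S F G u v hF hG hL oF oG hu hv'
  have mF := hF.mat
  have mG := hG.mat
  have r1 := mF.rr_nonneg u
  have r2 := mF.rr_nonneg v
  have r3 := mG.rr_nonneg u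
  have r4 := mG.rr_nonneg v
  have a1 : 1 ≤ ro F G u := by unfold ro rb; linarith
  have b1 : 1 ≤ ro F G v := by unfold ro rb; linarith
  have q1 := diag_nn mF mF
  have q2 := diag_nn mF mG
  have q3 := diag_nn mG mF
  have q4 := diag_nn mG mG
  have q0 : ∀ a, 0 ≤ qq F G a := fun a => by
    unfold qq; linarith [q1 a, q2 a, q3 a, q4 a]
  obtain ⟨i0, i1⟩ := hF.inv_card
  have f1 := abs_nonneg (F u u)
  have f2 := abs_nonneg (F v v)
  have f3 := abs_nonneg (F u v)
  have g1 := abs_nonneg (G u u)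
  have g2 := abs_nonneg (G v v)
  have g3 := abs_nonneg (G u v)
  have rng : Rng √(ro F G u) √(ro F G v) √(qq F G u) √(qq F G v) √R L (pb S F G u)
      (pb S F G v) (phb S F G u v) (1 / (S.card : ℝ)) := by
    have := hF.du; have := hF.dv; have := hF.f; have := hG.du; have := hG.dv; have := hG.f
    refine ⟨Real.one_le_sqrt.2 a1, Real.one_le_sqrt.2 b1, Real.sqrt_le_sqrt hu,
      Real.sqrt_le_sqrt hv', Real.sqrt_nonneg _, Real.sqrt_nonneg _, hL, ?_, ?_, ?_, i0, ?_, ?_, ?_,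
      ?_, ?_, ?_⟩ <;> simp only [pb, phb] <;> linarith
  have e1 := half_eq (R := R) L S u v (by linarith) (by linarith) (q0 u) (q0 v) (by linarith)
  have e2 := half_eq (R := R) L S v u (by linarith) (by linarith) (q0 v) (q0 u) (by linarith)
  have e3 : phb S F G v u = phb S F G u v := by simp only [phb, mF.symm v u, mG.symm v u]
  rw [e3] at e2
  have n1' := hv_nonneg rng
  have n2' := hv_nonneg rng.swap
  have n3 : 0 ≤ o2 F G u v * (√(qq F G u) * √(qq F G v)) := by unfold o2; positivity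
  have n4 : 0 ≤ o3 F G u v * o3 F G u v := mul_self_nonneg _
  have n5 : 0 ≤ L * phb S F G u v * (√(qq F G u) * √(qq F G v)) := by
    have := rng.φ0
    have : 0 ≤ L := by linarith
    positivity
  have eE : err4 L R S F G u v = half4 L R S F G u v + half4 L R S F G v u
      + o2 F G u v * (√(qq F G u) * √(qq F G v)) + o3 F G u v * o3 F G u v
      + L * phb S F G u v * (√(qq F G u) * √(qq F G v)) := by
    unfold err4
    rw [Real.sqrt_mul (q0 u), sq]
  rw [e1, e2] at eE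
  have er : Er √(ro F G u) √(ro F G v) √(qq F G u) √(qq F G v) √R L (pb S F G u)
      (pb S F G v) (phb S F G u v) (1 / (S.card : ℝ)) (o2 F G u v) (o3 F G u v)
      (err4 L R S F G u v) :=
    ⟨rng, half_of rng (by rw [eE]; linarith), half_of rng.swap (by rw [eE]; linarith),
      by rw [eE]; linarith, by rw [eE]; linarith, by rw [eE]; linarith⟩
  have vF := v1_of hF hL oF (a := ro F G u) (b := ro F G v) (q := qq F G u) (r := qq F G v)
    (pu := pb S F G u) (pv := pb S F G v) (φ := phb S F G u v)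
    (by unfold ro rb; linarith) (by unfold ro rb; linarith)
    (by unfold qq; linarith [q2 u, q3 u, q4 u]) (by unfold qq; linarith [q2 v, q3 v, q4 v])
    (by unfold pb; linarith) (by unfold pb; linarith) (by unfold phb; linarith)
  have vG := v1_of hG hL oG (a := ro F G u) (b := ro F G v) (q := qq F G u) (r := qq F G v)
    (pu := pb S F G u) (pv := pb S F G v) (φ := phb S F G u v)
    (by unfold ro rb; linarith) (by unfold ro rb; linarith)
    (by unfold qq; linarith [q2 u, q3 u, q1 u]) (by unfold qq; linarith [q2 v, q3 v, q1 v])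
    (by unfold pb; linarith) (by unfold pb; linarith) (by unfold phb; linarith)
  have s0 : √(1 : ℝ) = 1 := Real.sqrt_one
  have o1 := abs_nonneg ((F * F) u v)
  have o2' := abs_nonneg ((F * G) u v)
  have o3' := abs_nonneg ((G * F) u v)
  have o4 := abs_nonneg ((G * G) u v)
  have o5 := abs_nonneg ((F * F * G) u v)
  have o6 := abs_nonneg ((F * F * G) v u)
  have o7 := abs_nonneg ((G * G * F) u v)
  have o8 := abs_nonneg ((G * G * F) v u)
  have v2 : V2 F G (P4.col (prj S) u) (P4.col (prj S) v) √(ro F G u) √(ro F G v) √(qq F G u) √(qq F G v)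
      L (pb S F G u) (pb S F G v) (phb S F G u v) (1 / (S.card : ℝ)) (o2 F G u v) (o3 F G u v) := by
    refine ⟨vF, vG, (vn_le ?_).trans_eq s0, (vn_le ?_).trans_eq s0, ?_, ?_, ?_, vn_le ?_, vn_le ?_,
      vn_le ?_, vn_le ?_, ?_, ?_, ?_, ?_, ?_, ?_, ?_, ?_⟩
    · rw [ddP hF.hu hF.hu, if_pos rfl]; linarith
    · rw [ddP hF.hv hF.hv, if_pos rfl]; linarith
    · rw [ddP hF.hu hF.hu, if_pos rfl, abs_le]; constructor <;> linarith
    · rw [ddP hF.hv hF.hv, if_pos rfl, abs_le]; constructor <;> linarith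
    · rw [ddP hF.hu hF.hv, if_neg hF.ne, abs_le]; constructor <;> linarith
    · rw [dd2 mF mG]; unfold qq; linarith [q1 u, q3 u, q4 u]
    · rw [dd2 mG mF]; unfold qq; linarith [q1 u, q2 u, q4 u]
    · rw [dd2 mF mG]; unfold qq; linarith [q1 v, q3 v, q4 v]
    · rw [dd2 mG mF]; unfold qq; linarith [q1 v, q2 v, q4 v]
    · rw [dd1 mF mF]; unfold o2; linarith
    · rw [dd1 mF mG]; unfold o2; linarith
    · rw [dd1 mG mF]; unfold o2; linarith
    · rw [dd1 mG mG]; unfold o2; linarith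
    · rw [dd3 mF mG]; unfold o3; linarith
    · rw [dd3 mG mF]; unfold o3; linarith
    · rw [dd3 mF mG]; unfold o3; linarith
    · rw [dd3 mG mF]; unfold o3; linarith
  obtain ⟨cF, c1, c2⟩ := co_of hF (pu := pb S F G u) (pv := pb S F G v) (φ := phb S F G u v)
    (by unfold pd pb; linarith) (by unfold pd pb; linarith) (by unfold ph phb; linarith)
  obtain ⟨cG, c3, c4⟩ := co_of hG (pu := pb S F G u) (pv := pb S F G v) (φ := phb S F G u v)
    (by unfold pd pb; linarith) (by unfold pd pb; linarith) (by unfold ph phb; linarith)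
  have main := main_bd v2 er cF cG c1 c2 c3 c4 rfl rfl
  rw [← upd_Dm hF, ← upd_Dm hG, fi_eq_trace, fi_eq_trace, ← hF.mat_upd.c22_eq hG.mat_upd,
    ← mF.c22_eq mG] at main
  simp only [dd2 mF mG, dd2 mG mF, dd4 mF mG, dd5 mF mG, dd5 mG mF, dd3 mF mG, dd3 mG mF,
    dd1 mF mF, dd1 mG mG, dd1 mF mG] at main
  unfold rem4 quad4 lin4 rr
  rw [tr4 mF mG, tr4 mF mG, ← tr5 mF mG u v, ← tr5 mF mG v u, ← tr5 mF mG u u, ← tr5 mF mG v v]
  linear_combination main

end Crest.Agent.R62
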