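import Crest.Agent.R62.Err4H

set_option autoImplicit false
set_option linter.unusedSectionVars false

open Finset Matrix

namespace Crest.Agent.R62

variable {ι : Type} [Fintype ι] [DecidableEq ι]

namespace Tr4aX
open GenMX Err4X

variable {S : Finset ι} {F H : Matrix ι ι ℝ} {L : ℝ}

theorem gram4 (hF : Mat S F) : (F * F)ᵀ * (F * F) = F * F * F * F := gram_eq hF hF

theorem c_nonneg (hF : Mat S F) (a : ι) : 0 ≤ (F * F * F * F) a a := fggf_nonneg hF hF a

theorem sum_c (hF : Mat S F) : ∑ a ∈ S, (F * F * F * F) a a = a4 F := sum_fggf hF hF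

theorem sum_abs_c (hF : Mat S F) : ∑ a ∈ S, |(F * F * F * F) a a| = a4 F := by
  rw [← sum_c hF]
  exact sum_congr rfl fun a _ => abs_of_nonneg (c_nonneg hF a)

theorem five_entry (hF : Mat S F) (hL : OpB L F) (h0 : 0 ≤ L) (u v : ι) :
    |(F * F * F * F * F) u v| ≤ L * (√((F * F * F * F) u u) * √((F * F * F * F) v v)) := by
  have h := hL.entry (F * F) (F * F) u v
  rw [gram4 hF, hF.sq_transpose, ← Matrix.mul_assoc] at h
  refine abs_le_of_sq_le_sq' ?_ (by positivity) |> abs_le.2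
  rw [mul_pow, mul_pow, Real.sq_sqrt (c_nonneg hF u), Real.sq_sqrt (c_nonneg hF v)]
  exact h

theorem five_diag (hF : Mat S F) (hL : OpB L F) (h0 : 0 ≤ L) (u : ι) :
    |(F * F * F * F * F) u u| ≤ L * (F * F * F * F) u u := by
  have h := five_entry hF hL h0 u u
  rwa [Real.mul_self_sqrt (c_nonneg hF u)] at h

theorem sum_five_diag (hF : Mat S F) (hL : OpB L F) (h0 : 0 ≤ L) :
    ∑ u ∈ S, |(F * F * F * F * F) u u| ≤ L * a4 F := by
  rw [← sum_c hF, mul_sum]
  exact sum_le_sum fun u _ => five_diag hF hL h0 u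

theorem c_le (hF : Mat S F) (hL : OpB L F) (u : ι) : (F * F * F * F) u u ≤ L ^ 2 * rr F u := by
  have h := hL.diag F u
  rwa [gram4 hF, hF.transpose] at h

theorem cube_sq (hF : Mat S F) (u : ι) :
    (F * F * F) u u ^ 2 ≤ rr F u * (F * F * F * F) u u := by
  have h := entry_sq_le F (F * F) u u
  rwa [gram4 hF, hF.transpose, ← Matrix.mul_assoc] at h

theorem sum_cube (hF : Mat S F) : ∑ u ∈ S, (F * F * F) u u = a3 F := by
  unfold a3
  rw [Matrix.mul_assoc, hF.trace_mul]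

theorem sum_abs_cube (hF : Mat S F) : ∑ u ∈ S, |(F * F * F) u u| ≤ √(a2 F) * √(a4 F) := by
  have h := cs S (fun u => √(rr F u)) (fun u => √((F * F * F * F) u u)) (X := a2 F) (Y := a4 F)
    (by simp only [Real.sq_sqrt (hF.rr_nonneg _)]; exact hF.a2_eq.ge)
    (by simp only [Real.sq_sqrt (c_nonneg hF _)]; exact (sum_c hF).le)
  refine le_trans (sum_le_sum fun u _ => ?_) h
  rw [← Real.sqrt_mul (hF.rr_nonneg u)]
  exact Real.abs_le_sqrt (cube_sq hF u)

theorem sum_cube_sq (hF : Mat S F) (hL : OpB L F) :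
    ∑ u ∈ S, (F * F * F) u u ^ 2 ≤ L ^ 2 * R2 S F := by
  unfold R2
  rw [mul_sum]
  refine sum_le_sum fun u _ => (cube_sq hF u).trans ?_
  have := mul_le_mul_of_nonneg_left (c_le hF hL u) (hF.rr_nonneg u)
  nlinarith

theorem sum_cube_sq' (hF : Mat S F) (hL : OpB L F) :
    ∑ u ∈ S, (F * F * F) u u ^ 2 ≤ a4 F + L ^ 2 * (√(X2 S F) * √(R2 S F)) := by
  have h := sum_mul_le_sqrt S (fun u => rr F u - 1) (fun u => rr F u)
  refine le_trans ?_ (add_le_add le_rfl (mul_le_mul_of_nonneg_left h (sq_nonneg L)))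
  rw [← sum_c hF, mul_sum, ← sum_add_distrib]
  refine sum_le_sum fun u _ => (cube_sq hF u).trans ?_
  have h1 := mul_le_mul_of_nonneg_left (c_le hF hL u) (abs_nonneg (rr F u - 1))
  have h2 := mul_le_mul_of_nonneg_right (le_abs_self (rr F u - 1)) (c_nonneg hF u)
  rw [abs_of_nonneg (hF.rr_nonneg u)]
  nlinarith

theorem frob5 (hF : Mat S F) (hL : OpB L F) :
    ∑ u ∈ S, ∑ v ∈ S, (F * F * F * F * F) u v ^ 2 ≤ L ^ 2 * (L ^ 2 * (L ^ 2 * a4 F)) := by
  have h0 := frob S (F * F * F * F * F)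
  have h1 := op_frob hL (F * (F * (F * F)))
  have h2 := op_frob hL (F * (F * F))
  have h3 := op_frob hL (F * F)
  rw [gram4 hF] at h3
  have e : F * F * F * F * F = F * (F * (F * (F * F))) := by simp only [Matrix.mul_assoc]
  rw [e] at h0 ⊢
  refine h0.trans (h1.trans (mul_le_mul_of_nonneg_left (h2.trans
    (mul_le_mul_of_nonneg_left h3 (sq_nonneg L))) (sq_nonneg L)))

theorem five_symm (hF : Mat S F) (u v : ι) : (F * F * F * F * F) v u = (F * F * F * F * F) u v := by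
  have h : (F * F * F * F * F)ᵀ = F * F * F * F * F := by
    simp only [Matrix.transpose_mul, hF.transpose, Matrix.mul_assoc]
  exact (congrFun (congrFun h u) v)

theorem six (hF : Mat S F) (hH : Mat S H) (hL : OpB L F) (hL' : OpB L H) :
    |∑ u ∈ S, ∑ v ∈ S, H u v * (F * F * F * F * F) u v| ≤ L ^ 2 * a4 F := by
  have e1 : ∑ u ∈ S, ∑ v ∈ S, H u v * (F * F * F * F * F) u v
      = (H * (F * F * F * F * F)).trace := by
    rw [hH.trace_mul]
    refine sum_congr rfl fun u _ => ?_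
    rw [Matrix.mul_apply]
    simp only [five_symm hF u]
    exact sum_subset (subset_univ S) fun v _ hv => by rw [hH.supp' u v hv, zero_mul]
  have e2 : (H * (F * F * F * F * F)).trace = ((F * F)ᵀ * H * (F * (F * F))).trace := by
    rw [hF.sq_transpose, Matrix.mul_assoc (F * F) H, Matrix.trace_mul_comm (F * F)]
    simp only [Matrix.mul_assoc]
  rw [e1, e2, trace_eq]
  refine (abs_sum_le_sum_abs _ _).trans ?_
  unfold a4
  rw [trace_eq, mul_sum]
  refine sum_le_sum fun u _ => ?_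
  have h1 := hL'.entry (F * F) (F * (F * F)) u u
  have h2 := hL.diag (F * F) u
  rw [gram4 hF] at h1 h2
  have h3 := c_nonneg hF u
  refine abs_le.2 (abs_le_of_sq_le_sq' (h1.trans ?_) (by positivity))
  have h4 := mul_le_mul_of_nonneg_left (mul_le_mul_of_nonneg_left h2 h3) (sq_nonneg L)
  refine h4.trans (le_of_eq ?_)
  ring

theorem ker5 (hF : Mat S F) (hH : Mat S H) (hL : OpB L F) (h0 : 0 ≤ L) {R : ℝ}
    (hR : ∀ a, rr H a ≤ R) :
    ∑ u ∈ S, ∑ v ∈ S, H u v ^ 2 * |(F * F * F * F * F) u v| ≤ L * (R * a4 F) := by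
  have h := hH.kernel hR (fun u => √((F * F * F * F) u u)) (fun u => √((F * F * F * F) u u))
  simp only [Real.sq_sqrt (c_nonneg hF _), sum_c hF, abs_of_nonneg (Real.sqrt_nonneg _),
    Real.mul_self_sqrt hF.a4_nonneg] at h
  refine le_trans ?_ (mul_le_mul_of_nonneg_left h h0)
  rw [mul_sum]
  refine sum_le_sum fun u _ => ?_
  rw [mul_sum]
  refine sum_le_sum fun v _ => ?_
  have := mul_le_mul_of_nonneg_left (five_entry hF hL h0 u v) (sq_nonneg (H u v))
  linarith

theorem ratio {K4 m W : ℝ} (h0 : 0 ≤ K4) (hm : 100 ≤ m) (hW : 0 < W) :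
    K4 * m ^ 2 / (m + W) ^ 3 * (1 - 4 / m + 6 / (m + W) - 24 / m ^ 2)
      ≤ K4 * (m - 2) ^ 2 / (m - 2 + W) ^ 3 := by
  have hm0 : 0 < m := by linarith
  have hs : 0 < m + W := by linarith
  have hs2 : 0 < m - 2 + W := by linarith
  have a1 : m ^ 2 * (1 - 4 / m) ≤ (m - 2) ^ 2 := by
    have : m ^ 2 * (1 - 4 / m) = m ^ 2 - 4 * m := by field_simp
    rw [this]; nlinarith
  have a2 : (1 + 6 / (m + W)) / (m + W) ^ 3 ≤ 1 / (m - 2 + W) ^ 3 := by
    have e : (1 + 6 / (m + W)) / (m + W) ^ 3 = (m + W + 6) / (m + W) ^ 4 := by field_simp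
    rw [e, div_le_div_iff₀ (by positivity) (by positivity)]
    have : m - 2 + W = (m + W) - 2 := by ring
    rw [this]
    have h100 : 100 ≤ m + W := by linarith
    generalize m + W = s at h100
    nlinarith [mul_nonneg (show 0 ≤ s by linarith) (show 0 ≤ s - 100 by linarith)]
  have a3 : 1 - 4 / m + 6 / (m + W) - 24 / m ^ 2 ≤ (1 - 4 / m) * (1 + 6 / (m + W)) := by
    have : 4 / m * (6 / (m + W)) ≤ 24 / m ^ 2 := by
      rw [div_mul_div_comm, div_le_div_iff₀ (by positivity) (by positivity)]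
      nlinarith [mul_pos hm0 hW]
    nlinarith
  have a4 : 0 ≤ 1 - 4 / m := by
    rw [sub_nonneg, div_le_one hm0]; linarith
  calc K4 * m ^ 2 / (m + W) ^ 3 * (1 - 4 / m + 6 / (m + W) - 24 / m ^ 2)
      ≤ K4 * m ^ 2 / (m + W) ^ 3 * ((1 - 4 / m) * (1 + 6 / (m + W))) :=
        mul_le_mul_of_nonneg_left a3 (by positivity)
    _ = K4 * ((m ^ 2 * (1 - 4 / m)) * ((1 + 6 / (m + W)) / (m + W) ^ 3)) := by ring
    _ ≤ K4 * ((m - 2) ^ 2 * (1 / (m - 2 + W) ^ 3)) :=
        mul_le_mul_of_nonneg_left (mul_le_mul a1 a2 (by positivity) (sq_nonneg _)) h0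
    _ = _ := by ring

end Tr4aX

end Crest.Agent.R62
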