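import Crest.Agent.R62.Der
import Crest.Agent.R62.Pt4
import Crest.Agent.R62.Tr4aAux

set_option autoImplicit false
set_option linter.unusedSectionVars false

open Finset Matrix

namespace Crest.Agent.R62

variable {ι V : Type} [Fintype ι] [DecidableEq ι] [Fintype V] [DecidableEq V]

namespace Tr4aX
open GenMX Err4X

variable {c : Ctx ι} (hK : Big c.p.K)
include hK

theorem L0 : 0 ≤ c.L := le_trans zero_le_one (Ctx.one_le_L hK)

theorem le_a4 : Le c.p.K (a4 c.F) (c.τ + 1 / 100) := (Ctx.sz_T4 hK).2.of_le c.oF.a4_T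

theorem E2 : Le c.p.K (∑ u, ∑ v, c.w u v * ((c.F * c.F * c.F * c.F) u u * rr c.F v)
    - a4 c.F * a2 c.F) (c.μ + c.τ - 1) := by
  have h := (abs_le.1 (c.G6 (fun u => (c.F * c.F * c.F * c.F) u u) (rr c.F))).2
  rw [sum_c c.oF.mat, sum_abs_c c.oF.mat, ← c.oF.mat.a2_eq] at h
  refine ((Le.mul hK (Le.mul hK (Le.mul hK (Ctx.le_eps hK) ((Ctx.le_m hK).sqrt hK)
    (Real.sqrt_nonneg _)) ((Ctx.le_R2 hK).sqrt hK) (Real.sqrt_nonneg _)) (le_a4 hK)
    c.oF.mat.a4_nonneg).of_le h).mono hK (by linarith)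

theorem E3 : Le c.p.K (∑ u, ∑ v, c.w u v * ((c.F * c.F * c.F) u u * (c.F * c.F * c.F) v v)
    - a3 c.F ^ 2) (c.μ + c.τ - 1) := by
  have h := (abs_le.1 (c.G6 (fun u => (c.F * c.F * c.F) u u) (fun u => (c.F * c.F * c.F) u u))).2
  rw [sum_cube c.oF.mat, ← sq (a3 c.F)] at h
  have μ1 := Ctx.μ_lo hK
  have μ2 := Ctx.μ_hi hK
  have lm := Ctx.le_m hK
  have lL := (Ctx.sz_L hK).2
  have h1 : Le c.p.K (∑ u ∈ c.S, |(c.F * c.F * c.F) u u|) (c.μ / 2 + (c.τ + 1 / 100) / 2) :=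
    (Le.mul hK ((lm.of_le (Ctx.a2_le_m hK)).sqrt hK) ((le_a4 hK).sqrt hK)
      (Real.sqrt_nonneg _)).of_le (sum_abs_cube c.oF.mat)
  have h0 : 0 ≤ ∑ u ∈ c.S, |(c.F * c.F * c.F) u u| := sum_nonneg fun _ _ => abs_nonneg _
  by_cases hI : c.p.phI c.m
  · have hI' := (Ctx.phI_iff hK).1 hI
    have hX : c.p.phX c.m := (Ctx.phX_iff hK).2 (by linarith)
    have lX : Le c.p.K (X2 c.S c.F) (13403 - c.μ + 1 / 100) :=
      (Ctx.sz_TX hK).2.of_le (c.oF.X2_T hX)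
    have h2 : Le c.p.K (∑ u ∈ c.S, (c.F * c.F * c.F) u u ^ 2) (c.τ + 2290 + 1 / 100) := by
      refine (Le.add hK (le_a4 hK) (Le.mul hK (lL.pow hK (L0 hK) 2) (Le.mul hK (lX.sqrt hK)
        ((Ctx.le_R2 hK).sqrt hK) (Real.sqrt_nonneg _)) (by positivity)) (by linarith) ?_).of_le
        (sum_cube_sq' c.oF.mat (Ctx.opB hK))
      push_cast
      rcases c.cases_W with ⟨a1, a2, a3⟩ | ⟨a1, a2, a3⟩ <;> linarith
    exact ((Le.mul hK (Le.mul hK (Le.mul hK (Ctx.le_eps_I hK hI) (lm.sqrt hK)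
      (Real.sqrt_nonneg _)) (h2.sqrt hK) (Real.sqrt_nonneg _)) h1 h0).of_le h).mono hK
      (by linarith)
  · have hI' : c.μ ≤ 7195 := not_lt.1 fun h' => hI ((Ctx.phI_iff hK).2 h')
    have h2 : Le c.p.K (∑ u ∈ c.S, (c.F * c.F * c.F) u u ^ 2) (c.τ + 1590) := by
      refine ((Le.mul hK (lL.pow hK (L0 hK) 2) (Ctx.le_R2 hK)
        (sum_nonneg fun _ _ => sq_nonneg _)).of_le (sum_cube_sq c.oF.mat (Ctx.opB hK))).mono hK ?_
      push_cast
      rcases c.cases_W with ⟨a1, a2, a3⟩ | ⟨a1, a2, a3⟩ <;> linarith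
    exact ((Le.mul hK (Le.mul hK (Le.mul hK (Ctx.le_eps hK) (lm.sqrt hK)
      (Real.sqrt_nonneg _)) (h2.sqrt hK) (Real.sqrt_nonneg _)) h1 h0).of_le h).mono hK
      (by linarith)

theorem le_La : Le c.p.K (∑ u ∈ c.S, |(c.F * c.F * c.F * c.F * c.F) u u|)
    (c.τ / 4 + 1 / 100 + (c.τ + 1 / 100)) :=
  (Le.mul hK (Ctx.sz_L hK).2 (le_a4 hK) c.oF.mat.a4_nonneg).of_le
    (sum_five_diag c.oF.mat (Ctx.opB hK) (L0 hK))

theorem E5 : Le c.p.K (∑ u, ∑ v, c.w u v * ((c.F * c.F * c.F * c.F * c.F) u u * c.F v v))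
    (c.μ + c.τ - 1) := by
  have h := (abs_le.1 (c.G6 (fun u => (c.F * c.F * c.F * c.F * c.F) u u) (fun v => c.F v v))).2
  rw [← c.oF.mat.t1_eq] at h
  have μ1 := Ctx.μ_lo hK
  have μ2 := Ctx.μ_hi hK
  have lm := Ctx.le_m hK
  have h1 := le_La hK
  have h0 : 0 ≤ ∑ u ∈ c.S, |(c.F * c.F * c.F * c.F * c.F) u u| :=
    sum_nonneg fun _ _ => abs_nonneg _
  have lD : Le c.p.K (∑ v ∈ c.S, c.F v v ^ 2) (450 + c.ϱ + 1 / 100) :=
    (Ctx.sz_TD hK).2.of_le c.oF.D2_T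
  have h2 : (∑ u ∈ c.S, (c.F * c.F * c.F * c.F * c.F) u u) * t1 c.F
      ≤ (∑ u ∈ c.S, |(c.F * c.F * c.F * c.F * c.F) u u|) * |t1 c.F| := by
    refine (le_abs_self _).trans ?_
    rw [abs_mul]
    exact mul_le_mul_of_nonneg_right (abs_sum_le_sum_abs _ _) (abs_nonneg _)
  have h3 : Le c.p.K ((∑ u ∈ c.S, |(c.F * c.F * c.F * c.F * c.F) u u|) * |t1 c.F|)
      (c.μ + c.τ - 2) := by
    by_cases hI : c.p.phI c.m
    · have hI' := (Ctx.phI_iff hK).1 hI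
      refine (Le.mul hK h1 (Ctx.le_t hK) (abs_nonneg _)).mono hK ?_
      rcases c.cases_W with ⟨a1, a2, a3⟩ | ⟨a1, a2, a3⟩ <;> linarith
    · refine (Le.mul hK h1 ((Ctx.sz_kt hK).2.of_le (Ctx.le_t' hK hI)) (abs_nonneg _)).mono hK ?_
      rcases c.cases_W with ⟨a1, a2, a3⟩ | ⟨a1, a2, a3⟩ <;> linarith
  refine ((Le.add hK h3 (Le.mul hK (Le.mul hK (Le.mul hK (Ctx.le_eps hK) (lm.sqrt hK)
      (Real.sqrt_nonneg _)) (lD.sqrt hK) (Real.sqrt_nonneg _)) h1 h0) (g := c.μ + c.τ - 2) le_rfl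
      ?_).of_le (by linarith)).mono hK (by linarith)
  rcases c.cases_W with ⟨a1, a2, a3⟩ | ⟨a1, a2, a3⟩ <;> linarith

theorem io_le (H : Matrix ι ι ℝ) : |io H| ≤ 1 := by
  unfold io; split_ifs <;> simp

theorem E4 : Le c.p.K |∑ u, ∑ v, c.w u v * (c.F * c.F * c.F * c.F * c.F) u v| (c.μ + c.τ - 1) := by
  have μ1 := Ctx.μ_lo hK
  have μ2 := Ctx.μ_hi hK
  have lm := Ctx.le_m hK
  have lL := (Ctx.sz_L hK).2
  have lL2 := lL.pow hK (L0 hK) 2
  have ha0 := c.oF.mat.a4_nonneg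
  have hL0 := L0 hK
  have h1 := le_La hK
  have h0 : ∑ u ∈ c.S, ∑ v ∈ c.S, (c.F * c.F * c.F * c.F * c.F) u v = 0 := by
    have := c.oF.mat.sum_sum_mul c.oF.mat (c.F * c.F * c.F)
    simpa only [Matrix.mul_assoc] using this
  have lfr : Le c.p.K (√(∑ u ∈ c.S, ∑ v ∈ c.S, (c.F * c.F * c.F * c.F * c.F) u v ^ 2))
      (5 / 4 * c.τ + 1 / 10) := by
    refine (((Le.mul hK lL2 (Le.mul hK lL2 (Le.mul hK lL2 (le_a4 hK) ha0) (by positivity))
      (by positivity)).of_le (frob5 c.oF.mat (Ctx.opB hK))).sqrt hK).mono hK ?_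
    push_cast; linarith
  have htr : |∑ u ∈ c.S, (c.F * c.F * c.F * c.F * c.F) u u|
      ≤ ∑ u ∈ c.S, |(c.F * c.F * c.F * c.F * c.F) u u| := abs_sum_le_sum_abs _ _
  set X := c.F * c.F * c.F * c.F * c.F with hX
  by_cases hI : c.p.phI c.m
  · have hI' := (Ctx.phI_iff hK).1 hI
    have h := c.G8 hI X h0
    have hσ : |c.σ| = 1 := by rcases c.sg with h | h <;> simp [h]
    have g0 : 0 < c.p.gam := pow_pos hK.pos _
    have lg : Le c.p.K c.p.gam 600 := by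
      have := Le.K_pow (K := c.p.K) 600
      exact_mod_cast this
    have x1 : |∑ u ∈ c.S, ∑ v ∈ c.S, xi c.σ c.F c.G u v * X u v| ≤ 2 * (c.L ^ 2 * a4 c.F) := by
      have e : ∑ u ∈ c.S, ∑ v ∈ c.S, xi c.σ c.F c.G u v * X u v
          = c.σ * (io c.F * ∑ u ∈ c.S, ∑ v ∈ c.S, c.F u v * X u v
            - io c.G * ∑ u ∈ c.S, ∑ v ∈ c.S, c.G u v * X u v) := by
        simp only [mul_sum, ← sum_sub_distrib]
        refine sum_congr rfl fun u _ => sum_congr rfl fun v _ => ?_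
        unfold xi; ring
      rw [e, abs_mul, hσ, one_mul]
      refine (abs_sub _ _).trans ?_
      rw [abs_mul, abs_mul]
      have s1 := six c.oF.mat c.oF.mat (Ctx.opB hK) (Ctx.opB hK)
      have s2 := six c.oF.mat c.oG.mat (Ctx.opB hK) (Ctx.opB_G hK)
      have s3 := mul_le_mul (io_le hK c.F) s1 (abs_nonneg _) zero_le_one
      have s4 := mul_le_mul (io_le hK c.G) s2 (abs_nonneg _) zero_le_one
      linarith
    have x2 : |∑ u ∈ c.S, xi c.σ c.F c.G u u * X u u| ≤ 2 * ∑ u ∈ c.S, |X u u| := by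
      refine (abs_sum_le_sum_abs _ _).trans ?_
      rw [mul_sum]
      refine sum_le_sum fun u _ => ?_
      rw [abs_mul]
      refine mul_le_mul_of_nonneg_right ?_ (abs_nonneg _)
      unfold xi
      rw [abs_mul, hσ, one_mul]
      refine (abs_sub _ _).trans ?_
      rw [abs_mul, abs_mul]
      have s3 := mul_le_mul (io_le hK c.F) (c.oF.ent u u) (abs_nonneg _) zero_le_one
      have s4 := mul_le_mul (io_le hK c.G) (c.oG.ent u u) (abs_nonneg _) zero_le_one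
      linarith
    have x3 : ∑ u ∈ c.S, ∑ v ∈ c.S, (c.F u v ^ 2 + c.G u v ^ 2) * |X u v|
        ≤ 2 * (c.L * (c.R * a4 c.F)) := by
      have r1 : ∀ a, rr c.F a ≤ c.R := fun a => by
        have := Ctx.ro_le hK a
        have := c.oG.mat.rr_nonneg a
        linarith
      have r2 : ∀ a, rr c.G a ≤ c.R := fun a => by
        have := Ctx.ro_le hK a
        have := c.oF.mat.rr_nonneg a
        linarith
      have s1 := ker5 c.oF.mat c.oF.mat (Ctx.opB hK) hL0 r1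
      have s2 := ker5 c.oF.mat c.oG.mat (Ctx.opB hK) hL0 r2
      simp only [add_mul, sum_add_distrib]
      linarith
    have hR0 : 0 < c.R := (Ctx.sz_R hK).1.pos hK
    obtain ⟨a1, a2, a3⟩ : 6700 ≤ c.μ ∧ c.ϱ = 0 ∧ c.τ = 20004 - c.μ := by
      rcases c.cases_W with h | h
      · exact h
      · exfalso; linarith [h.1]
    have b1 : Le c.p.K (∑ u ∈ c.S, |X u u|) (c.μ + c.τ - 2) := h1.mono hK (by linarith)
    have b2 : Le c.p.K (c.p.gam * (c.L ^ 2 * a4 c.F)) (c.μ + c.τ - 2) := by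
      refine (Le.mul hK lg (Le.mul hK lL2 (le_a4 hK) ha0) (by positivity)).mono hK ?_
      push_cast; linarith
    have b3 : Le c.p.K (c.p.gam * ∑ u ∈ c.S, |X u u|) (c.μ + c.τ - 2) :=
      (Le.mul hK lg h1 (sum_nonneg fun _ _ => abs_nonneg _)).mono hK (by linarith)
    have b4 : Le c.p.K (10 * (10 * (10 * (c.p.gam ^ 2 * (c.L * (c.R * a4 c.F))))))
        (c.μ + c.τ - 2) := by
      refine (Le.cmul hK (Le.cmul hK (Le.cmul hK (Le.mul hK (lg.pow hK g0.le 2) (Le.mul hK lL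
        (Le.mul hK (Ctx.sz_R hK).2 (le_a4 hK) ha0) (by positivity)) (by positivity))
        (by norm_num) le_rfl) (by norm_num) le_rfl) (by norm_num) le_rfl).mono hK ?_
      push_cast; linarith
    have b5 : Le c.p.K (√(c.p.K ^ 35 * c.m) * √(∑ u ∈ c.S, ∑ v ∈ c.S, X u v ^ 2))
        (c.μ + c.τ - 2) := by
      refine (Le.mul hK ((Le.mul hK (Le.K_pow 35) lm (Ctx.m_pos hK).le).sqrt hK) lfr
        (Real.sqrt_nonneg _)).mono hK ?_
      push_cast; linarith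
    have fin := Le.cmul hK (show Le c.p.K (c.p.K ^ (c.μ + c.τ - 2)) (c.μ + c.τ - 2) from le_rfl)
      (C := 10) (by norm_num) le_rfl
    refine (fin.of_le ?_).mono hK (by linarith)
    unfold Le at b1 b2 b3 b4 b5
    have y1 := mul_le_mul_of_nonneg_left x3 (show 0 ≤ 1000 * c.p.gam ^ 2 by positivity)
    have y2 := abs_le.1 h
    have y3 := abs_le.1 htr
    have y4 := abs_le.1 x1
    have y5 := abs_le.1 x2
    have z1 := mul_le_mul_of_nonneg_left y4.1 g0.le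
    have z2 := mul_le_mul_of_nonneg_left y4.2 g0.le
    have z3 := mul_le_mul_of_nonneg_left y5.1 g0.le
    have z4 := mul_le_mul_of_nonneg_left y5.2 g0.le
    have hp := Real.rpow_pos_of_pos hK.pos (c.μ + c.τ - 2)
    rw [mul_sub] at y2
    refine abs_le.2 ⟨?_, ?_⟩ <;> nlinarith [y2.1, y2.2, y3.1, y3.2]
  · have hI' : c.μ ≤ 7195 := not_lt.1 fun h' => hI ((Ctx.phI_iff hK).2 h')
    have h := c.G7 X h0
    have b5 : Le c.p.K (√(c.p.Gam2 c.m * c.m) * √(∑ u ∈ c.S, ∑ v ∈ c.S, X u v ^ 2))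
        (c.μ + c.τ - 2) := by
      refine (Le.mul hK ((Le.mul hK (Ctx.le_Gam2 hK hI) lm (Ctx.m_pos hK).le).sqrt hK) lfr
        (Real.sqrt_nonneg _)).mono hK ?_
      rcases c.cases_W with ⟨a1, a2, a3⟩ | ⟨a1, a2, a3⟩ <;> linarith
    refine ((Le.add hK h1 b5 (g := c.μ + c.τ - 2) ?_ le_rfl).of_le ?_).mono hK (by linarith)
    · rcases c.cases_W with ⟨a1, a2, a3⟩ | ⟨a1, a2, a3⟩ <;> linarith
    · have y2 := abs_le.1 h
      have y3 := abs_le.1 htr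
      refine abs_le.2 ⟨?_, ?_⟩ <;> linarith [y2.1, y2.2, y3.1, y3.2]

theorem sym2 (X : ι → ι → ℝ) :
    ∑ u, ∑ v, c.w u v * (X u v + X v u) = 2 * ∑ u, ∑ v, c.w u v * X u v := by
  simp only [mul_add, Finset.sum_add_distrib]
  rw [← c.sum_comm' X]; ring

theorem le_ema : Le c.p.K (c.p.eps c.m * c.m * a4 c.F) (c.μ + c.τ - 1) :=
  (Le.mul hK (Le.mul hK (Ctx.le_eps hK) (Ctx.le_m hK) c.m_nonneg') (le_a4 hK)
    c.oF.mat.a4_nonneg).mono hK (by linarith)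

theorem drift : ∑ u, ∑ v, c.w u v * (-rem4 c.F c.F u v + quad4 c.σ c.σ c.F c.F u v
    + lin4 c.σ c.σ c.F c.F u v)
      ≤ -8 * c.m * a4 c.F + 8 * (a4 c.F * a2 c.F) + 4 * a3 c.F ^ 2
        + 36 * c.p.K ^ (c.μ + c.τ - 1) := by
  have hF := c.oF.mat
  have hσ : c.σ * c.σ = 1 := by rcases c.sg with h | h <;> simp [h]
  have hσ' : |c.σ| = 1 := by rcases c.sg with h | h <;> simp [h]
  have e : ∑ u, ∑ v, c.w u v * (-rem4 c.F c.F u v + quad4 c.σ c.σ c.F c.F u v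
      + lin4 c.σ c.σ c.F c.F u v)
      = -4 * ∑ u, ∑ v, c.w u v * ((c.F * c.F * c.F * c.F) u u + (c.F * c.F * c.F * c.F) v v)
        + 4 * ∑ u, ∑ v, c.w u v * ((c.F * c.F * c.F * c.F) u u * rr c.F v
          + (c.F * c.F * c.F * c.F) v v * rr c.F u)
        + 4 * ∑ u, ∑ v, c.w u v * ((c.F * c.F * c.F) u u * (c.F * c.F * c.F) v v)
        + 4 * c.σ * ∑ u, ∑ v, c.w u v * ((c.F * c.F * c.F * c.F * c.F) u v
          + (c.F * c.F * c.F * c.F * c.F) v u)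
        + 4 * ∑ u, ∑ v, c.w u v * ((c.F * c.F * c.F * c.F * c.F) u u * c.F v v
          + (c.F * c.F * c.F * c.F * c.F) v v * c.F u u) := by
    simp only [Finset.mul_sum, ← Finset.sum_add_distrib]
    refine sum_congr rfl fun u _ => sum_congr rfl fun v _ => ?_
    unfold rem4 quad4 lin4 rr
    have e2 : 2 * c.σ * c.σ = 2 := by linarith
    rw [e2]; ring
  rw [e, sym2 hK fun u _ => (c.F * c.F * c.F * c.F) u u,
    sym2 hK fun u v => (c.F * c.F * c.F * c.F) u u * rr c.F v,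
    sym2 hK fun u v => (c.F * c.F * c.F * c.F * c.F) u v,
    sym2 hK fun u v => (c.F * c.F * c.F * c.F * c.F) u u * c.F v v]
  have h1 := (abs_le.1 (c.G6one fun u => (c.F * c.F * c.F * c.F) u u)).1
  rw [sum_c hF, sum_abs_c hF] at h1
  have h1' := le_ema hK
  have h2 := E2 hK
  have h3 := E3 hK
  have h4 := E4 hK
  have h5 := E5 hK
  have h4' : c.σ * ∑ u, ∑ v, c.w u v * (c.F * c.F * c.F * c.F * c.F) u v
      ≤ c.p.K ^ (c.μ + c.τ - 1) := by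
    refine (le_abs_self _).trans ?_
    rw [abs_mul, hσ', one_mul]; exact h4
  unfold Le at h1' h2 h3 h5
  linarith

theorem main_le : (4 * c.m - 6 * (c.m ^ 2 / (c.m + c.p.W)) + 24) * a4 c.F
    + (-8 * c.m * a4 c.F + 8 * (a4 c.F * a2 c.F) + 4 * a3 c.F ^ 2)
      ≤ 52 * c.p.K ^ (c.μ + c.τ - 9 / 10) := by
  have hF := c.oF.mat
  have a0 := hF.a4_nonneg
  have K0 := hK.pos
  have m0 := Ctx.m_pos hK
  have W0 := Ctx.W_pos hK
  have μ1 := Ctx.μ_lo hK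
  have hs : 0 < c.m + c.p.W := by linarith
  have h2 : a2 c.F ≤ c.m ^ 2 / (c.m + c.p.W) + c.m * (1 / c.p.K) := by
    have h := c.oF.a2_hi
    have e1 : c.p.a2s c.S.card = c.m ^ 2 / (c.m + c.p.W) := by
      show c.m * (c.m / (c.m + c.p.W)) = _
      field_simp
    have e2 : c.p.k2 c.S.card ≤ c.m * (1 / c.p.K) := by
      show c.p.W / c.p.K * (c.m / (c.m + c.p.W)) ≤ _
      have : c.p.W / c.p.K * (c.m / (c.m + c.p.W))
          = c.m * (1 / c.p.K) * (c.p.W / (c.m + c.p.W)) := by field_simp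
      rw [this]
      exact mul_le_of_le_one_right (by positivity) ((div_le_one hs).2 (by linarith))
    linarith
  have b1 : Le c.p.K (c.m * (1 / c.p.K) * a4 c.F) (c.μ + c.τ - 9 / 10) :=
    (Le.mul hK (Le.mul hK (Ctx.le_m hK) (Le.inv hK Ge.self) (by positivity)) (le_a4 hK) a0).mono hK
      (by linarith)
  have b2 : Le c.p.K (a4 c.F) (c.μ + c.τ - 9 / 10) := (le_a4 hK).mono hK (by linarith)
  have h3 := mul_le_mul_of_nonneg_left h2 a0
  have s1 : c.m ^ 2 / (c.m + c.p.W) ≤ c.m := by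
    rw [div_le_iff₀ hs]; nlinarith
  have hp := Real.rpow_pos_of_pos K0 (c.μ + c.τ - 9 / 10)
  rcases c.cases_W with ⟨a1, a2, a3⟩ | ⟨a1, a2, a3⟩
  · have N0 := Ctx.N_pos hK
    have b3 : Le c.p.K ((c.p.K * c.p.N) ^ 2) (c.μ + c.τ - 9 / 10) := by
      refine ((Le.mul hK Le.self (Ctx.sz_N hK).2 N0.le).pow hK (by positivity) 2).mono hK ?_
      push_cast; linarith
    have h4 : R62.a3 c.F ^ 2 ≤ (2 * c.p.K * c.p.N) ^ 2 := by
      rw [← sq_abs]; exact pow_le_pow_left₀ (abs_nonneg _) (Ctx.abs_a3_le hK) 2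
    have s2 := mul_le_mul_of_nonneg_left s1 a0
    have s3 := mul_nonneg m0.le a0
    unfold Le at b1 b2 b3
    nlinarith
  · have hW : c.m ≤ c.p.W := by
      rw [Ctx.W_eq hK]; exact (Ctx.le_m hK).mono hK a1
    have s2 : c.m ^ 2 / (c.m + c.p.W) ≤ c.m / 2 := by
      rw [div_le_iff₀ hs]; nlinarith
    have s3 := mul_le_mul_of_nonneg_left s2 a0
    have s4 := mul_nonneg m0.le a0
    have h4 := hF.a3_sq_le
    unfold Le at b1 b2
    nlinarith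

end Tr4aX

open Tr4aX Err4X in
theorem tr4 : TrOne (fun p m => True) (fun _ _ _ p S F => p4 p S F) := by
  obtain ⟨C, hC0, hC⟩ := pt4
  obtain ⟨K1, hK1⟩ := exists_const C (1 / 100) (by norm_num)
  refine ⟨K1, fun ι _ _ c hK _ _ => ?_⟩
  obtain ⟨hK, hCK⟩ := hK1 _ hK
  have K0 := hK.pos
  have mB : (1000 : ℝ) ≤ c.m := le_trans (by norm_num) (Ctx.m_big hK)
  have m0 := Ctx.m_pos hK
  have W0 := Ctx.W_pos hK
  have hs : 0 < c.m + c.p.W := by linarith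
  have a0 := c.oF.mat.a4_nonneg
  have hT := (Ctx.sz_T4 hK).1
  have T0 : 0 < c.p.T4 c.m := hT.pos hK
  set δ : ℝ := 4 / c.m - 6 / (c.m + c.p.W) + 24 / c.m ^ 2 with hδ
  have hTT : c.p.T4 c.m * (1 - δ) ≤ c.p.T4 (c.m - 2) := by
    have h := ratio (K4 := c.p.K ^ 4 * c.p.N ^ 2) (m := c.m) (W := c.p.W) (by positivity)
      (by linarith) W0
    have e : 1 - δ = 1 - 4 / c.m + 6 / (c.m + c.p.W) - 24 / c.m ^ 2 := by rw [hδ]; ring
    rw [e]; exact h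
  have d1 : 24 / c.m ^ 2 ≤ 1 / c.m := by
    rw [div_le_div_iff₀ (by positivity) m0]; nlinarith
  have d2 : 6 / (c.m + c.p.W) ≤ 6 / c.m :=
    div_le_div_of_nonneg_left (by norm_num) m0 (by linarith)
  have d3 : 0 ≤ 6 / (c.m + c.p.W) := by positivity
  have d4 : 0 ≤ 24 / c.m ^ 2 := by positivity
  have d5 : 1 / c.m ≤ 1 / 1000 := div_le_div_of_nonneg_left (by norm_num) (by norm_num) mB
  have d6 : 0 ≤ 1 / c.m := by positivity
  have d7 : 4 / c.m = 4 * (1 / c.m) := by ring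
  have d8 : 6 / c.m = 6 * (1 / c.m) := by ring
  have δ1 : |δ| ≤ 6 * (1 / c.m) := abs_le.2 ⟨by linarith, by linarith⟩
  have δ2 : δ ≤ 1 / 2 := by linarith
  have hT2 : c.p.T4 c.m / 2 ≤ c.p.T4 (c.m - 2) := by nlinarith
  have T0' : 0 < c.p.T4 (c.m - 2) := by linarith
  have e1 : ∑ u, ∑ v, c.w u v * p4 c.p (rem c.S u v) (c.F' u v)
      ≤ ∑ u, ∑ v, c.w u v * ((a4 c.F + (-rem4 c.F c.F u v + quad4 c.σ c.σ c.F c.F u v
        + lin4 c.σ c.σ c.F c.F u v) + C * err4 c.L c.R c.S c.F c.F u v) / c.p.T4 (c.m - 2)) := by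
    refine c.sum_le_sum' fun u v h => ?_
    unfold p4
    rw [Ctx.card_rem' hK h]
    have l1 := Ctx.loc hK h
    have h1 := hC ι c.σ c.σ c.L c.R c.S c.F c.F u v l1 l1 (Ctx.one_le_L hK) (Ctx.opB hK)
      (Ctx.opB hK) (ro_le_R hK (fx_F hK) (fx_F hK) u) (ro_le_R hK (fx_F hK) (fx_F hK) v)
    rw [c22_self, c22_self] at h1
    refine div_le_div_of_nonneg_right ?_ T0'.le
    unfold Ctx.F'
    linarith
  refine e1.trans ?_
  have e2 : ∑ u, ∑ v, c.w u v * ((a4 c.F + (-rem4 c.F c.F u v + quad4 c.σ c.σ c.F c.F u v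
        + lin4 c.σ c.σ c.F c.F u v) + C * err4 c.L c.R c.S c.F c.F u v) / c.p.T4 (c.m - 2))
      = (c.Ω * a4 c.F + ∑ u, ∑ v, c.w u v * (-rem4 c.F c.F u v
          + quad4 c.σ c.σ c.F c.F u v + lin4 c.σ c.σ c.F c.F u v)
        + (∑ u, ∑ v, c.w u v * err4 c.L c.R c.S c.F c.F u v) * C) / c.p.T4 (c.m - 2) := by
    simp only [Ctx.Ω, Finset.sum_mul, ← Finset.sum_add_distrib, Finset.sum_div]
    exact sum_congr rfl fun u _ => sum_congr rfl fun v _ => by ring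
  have h1 := Tr4aX.drift hK
  have h2 : Le c.p.K ((∑ u, ∑ v, c.w u v * err4 c.L c.R c.S c.F c.F u v) * C)
      (c.μ + c.τ - 9 / 10) := by
    have g1 := c.sum_le_crude (X := err4 c.L c.R c.S c.F c.F) (fun u v _ => le_rfl)
      (fun u _ v _ => err4_nonneg hK (fx_F hK) (fx_F hK) u v)
    exact ((((err4_sum hK (fx_F hK) (fx_F hK)).cmul hK (C := 11 / 10) (by norm_num)
      (by norm_num)).of_le g1).mul hK hCK hC0).mono hK (by linarith)
  have h3 := main_le hK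
  have h4 : Le c.p.K (c.p.K ^ (c.μ + c.τ - 1)) (c.μ + c.τ - 9 / 10) :=
    (show Le c.p.K (c.p.K ^ (c.μ + c.τ - 1)) (c.μ + c.τ - 1) from le_rfl).mono hK (by linarith)
  have h5 := (le_ema hK).mono hK (show _ ≤ c.μ + c.τ - 9 / 10 by linarith)
  have hp := Real.rpow_pos_of_pos K0 (c.μ + c.τ - 9 / 10)
  have h6 : Le c.p.K (2 * (10 * (10 * c.p.K ^ (c.μ + c.τ - 9 / 10))))
      (c.μ + c.τ - 9 / 10 + 1 / 100 + 1 / 100 + 1 / 100) :=
    (((show Le c.p.K (c.p.K ^ (c.μ + c.τ - 9 / 10)) (c.μ + c.τ - 9 / 10) from le_rfl).cmul hK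
      (by norm_num) le_rfl).cmul hK (by norm_num) le_rfl).cmul hK (by norm_num) (by norm_num)
  have h7 := h6.le_of_ge hK ((Ctx.ge_Ωη hK).mul hK hT) (by linarith)
  have Ωη : 0 ≤ c.Ω * c.η := ((Ctx.ge_Ωη hK).pos hK).le
  have h8 := mul_le_mul_of_nonneg_left hT2 Ωη
  have Ω0 := c.Ω_nonneg'
  -- `Ω δ`
  have o1 : c.Ω * δ ≤ 4 * c.m - 6 * (c.m ^ 2 / (c.m + c.p.W)) + 24 + 6 * (c.p.eps c.m * c.m) := by
    have e : c.m ^ 2 * δ = 4 * c.m - 6 * (c.m ^ 2 / (c.m + c.p.W)) + 24 := by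
      rw [hδ]; field_simp
    have g1 : (c.Ω - c.m ^ 2) * δ ≤ c.p.eps c.m * c.m ^ 2 * (6 * (1 / c.m)) := by
      refine (le_abs_self _).trans ?_
      rw [abs_mul]
      exact mul_le_mul c.G4 δ1 (abs_nonneg _) (mul_nonneg c.eps_nonneg' (sq_nonneg _))
    have g2 : c.p.eps c.m * c.m ^ 2 * (6 * (1 / c.m)) = 6 * (c.p.eps c.m * c.m) := by
      field_simp
    linarith
  have o2 := mul_le_mul_of_nonneg_right o1 a0
  have o3 : a4 c.F * (1 - δ) ≤ p4 c.p c.S c.F * c.p.T4 (c.m - 2) := by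
    have e : p4 c.p c.S c.F = a4 c.F / c.p.T4 c.m := rfl
    have g := mul_le_mul_of_nonneg_left hTT (div_nonneg a0 T0.le)
    have e' : a4 c.F / c.p.T4 c.m * (c.p.T4 c.m * (1 - δ)) = a4 c.F * (1 - δ) := by field_simp
    rw [e]; linarith
  have o4 := mul_le_mul_of_nonneg_left o3 Ω0
  rw [e2, div_le_iff₀ T0']
  unfold Le at h2 h4 h5
  show _ ≤ c.Ω * (p4 c.p c.S c.F + c.η) * c.p.T4 (c.m - 2)
  nlinarith

end Crest.Agent.R62
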