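import Crest.Agent.R62.Der

set_option autoImplicit false
set_option linter.unusedVariables false

open Finset Matrix

namespace Crest.Agent.R62

variable {ι : Type} [Fintype ι] [DecidableEq ι]

namespace E4

section abs
variable {K : ℝ} {S : Finset ι}

omit [Fintype ι] [DecidableEq ι] in
theorem csLe (hK : Big K) {f g : ι → ℝ} {a b : ℝ} (hf : Le K (∑ x ∈ S, f x ^ 2) a)
    (hg : Le K (∑ x ∈ S, g x ^ 2) b) : Le K (∑ x ∈ S, f x * g x) (a / 2 + b / 2) :=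
  ((hf.sqrt hK).mul hK (hg.sqrt hK) (Real.sqrt_nonneg _)).of_le
    (Real.sum_mul_le_sqrt_mul_sqrt S f g)

omit [Fintype ι] [DecidableEq ι] in
theorem csLe2 (hK : Big K) {f g : ι → ι → ℝ} {a b : ℝ}
    (hf : Le K (∑ u ∈ S, ∑ v ∈ S, f u v ^ 2) a) (hg : Le K (∑ u ∈ S, ∑ v ∈ S, g u v ^ 2) b) :
    Le K (∑ u ∈ S, ∑ v ∈ S, f u v * g u v) (a / 2 + b / 2) := by
  have h := Real.sum_mul_le_sqrt_mul_sqrt (S ×ˢ S) (fun x => f x.1 x.2) (fun x => g x.1 x.2)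
  simp only [Finset.sum_product] at h
  exact ((hf.sqrt hK).mul hK (hg.sqrt hK) (Real.sqrt_nonneg _)).of_le h

omit [Fintype ι] [DecidableEq ι] in
theorem prodLe (hK : Big K) {f g : ι → ℝ} {a b : ℝ} (hf : Le K (∑ x ∈ S, f x) a)
    (hg : Le K (∑ x ∈ S, g x) b) (h0 : ∀ x, 0 ≤ g x) :
    Le K (∑ u ∈ S, ∑ v ∈ S, f u * g v) (a + b) := by
  rw [← Finset.sum_mul_sum]
  exact hf.mul hK hg (sum_nonneg fun x _ => h0 x)

omit [Fintype ι] [DecidableEq ι] in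
theorem cLe (hK : Big K) {C e a : ℝ} {X : ι → ι → ℝ} (hC : Le K C e) (h0 : 0 ≤ C)
    (hX : Le K (∑ u ∈ S, ∑ v ∈ S, X u v) a) :
    Le K (∑ u ∈ S, ∑ v ∈ S, C * X u v) (a + e) := by
  simp only [← Finset.mul_sum]
  rw [mul_comm]
  exact hX.mul hK hC h0

omit [Fintype ι] [DecidableEq ι] in
/-- `Σ_u Σ_v q_u * (X u v)` with uniformly bounded inner sums -/
theorem rowLe (hK : Big K) {q : ι → ℝ} {X : ι → ι → ℝ} {a b : ℝ} (hq : Le K (∑ x ∈ S, q x) a)
    (h0 : ∀ x, 0 ≤ q x) (hX : ∀ u ∈ S, Le K (∑ v ∈ S, X u v) b) :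
    Le K (∑ u ∈ S, ∑ v ∈ S, q u * X u v) (a + b) := by
  have h1 : ∑ u ∈ S, ∑ v ∈ S, q u * X u v ≤ (∑ u ∈ S, q u) * K ^ b := by
    rw [Finset.sum_mul]
    refine sum_le_sum fun u hu => ?_
    rw [← Finset.mul_sum]
    exact mul_le_mul_of_nonneg_left (hX u hu) (h0 u)
  exact (hq.mul hK (show Le K (K ^ b) b from le_rfl) (Real.rpow_pos_of_pos hK.pos b).le).of_le h1

omit [Fintype ι] [DecidableEq ι] in
theorem congrLe {X Y : ι → ι → ℝ} {a : ℝ} (h : Le K (∑ u ∈ S, ∑ v ∈ S, Y u v) a)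
    (e : ∀ u v, X u v = Y u v) : Le K (∑ u ∈ S, ∑ v ∈ S, X u v) a := by
  simp only [e]; exact h

omit [Fintype ι] [DecidableEq ι] in
theorem swapLe {X : ι → ι → ℝ} {a : ℝ} (h : Le K (∑ u ∈ S, ∑ v ∈ S, X u v) a) :
    Le K (∑ u ∈ S, ∑ v ∈ S, X v u) a := by
  rw [Finset.sum_comm]; exact h

theorem hund (hK : Big K) {x g : ℝ} (h : x ≤ 100 * K ^ g) : Le K x (g + 1 / 50) := by
  have h1 : Le K (K ^ g) g := le_rfl
  have h2 := (h1.cmul hK (C := 10) (by norm_num) le_rfl).cmul hK (C := 10) (by norm_num) le_rfl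
  refine (h2.mono hK (by linarith)).of_le ?_
  linarith

omit [Fintype ι] [DecidableEq ι] in
/-- the sum of `half4` in abstract form -/
theorem half_abs (hK : Big K) {ro q pb : ι → ℝ} {ph : ι → ι → ℝ} {L R μ τ ϱ p g : ℝ}
    (hm0 : (0 : ℝ) < S.card) (hm : Le K S.card μ)
    (ro0 : ∀ a, 0 ≤ ro a) (q0 : ∀ a, 0 ≤ q a) (pb0 : ∀ a, 0 ≤ pb a)
    (phs : ∀ u v, ph u v = ph v u) (roR : ∀ a, ro a ≤ R) (L0 : 0 ≤ L)
    (hrow : ∀ v ∈ S, ∑ u ∈ S, ph u v ^ 2 ≤ 3 * ro v)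
    (hS1 : Le K (∑ a ∈ S, ro a) (μ + 1 / 100)) (hP : Le K (∑ a ∈ S, ro a ^ 2) p)
    (hQ : Le K (∑ a ∈ S, q a) (τ + 1 / 50)) (hD : Le K (∑ a ∈ S, pb a ^ 2) (450 + ϱ + 3 / 100))
    (hL : Le K L (τ / 4 + 1 / 100)) (hR : Le K R (2525 + ϱ / 2 + 1 / 100))
    (hR' : Ge K R (2525 + ϱ / 2 - 1 / 100))
    (hW : (6700 ≤ μ ∧ ϱ = 0 ∧ τ = 20004 - μ) ∨ (μ ≤ 6700 ∧ ϱ = μ - 6700 ∧ τ = 2 * μ - 96))
    (hμ : 3340 < μ) (hμ' : μ ≤ 10000 + 1 / 100) (hp : p ≤ μ + 14) (hpτ : p ≤ τ)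
    (hg : μ + τ - 146 ≤ g) (hg1 : τ / 2 + 3 * p / 2 + 1 / 10 ≤ g) (hg2 : 2 * p ≤ g) :
    ∑ u ∈ S, ∑ v ∈ S, ((√(q u) * ro u + ro u ^ 2) * ro v ^ 2 + ph u v * ro u * q v
      + pb v * ro u * √(q u * q v)
      + √R * pb v * ro v * (q u + ro u ^ 2)
      + (R + L) * pb v ^ 2 * q u
      + L * (ph u v + pb u + pb v) * (√(q u) + √(ro u)) * √(ro u * ro v)
      + L * (1 / S.card + pb v * ph u v) * q u
      + ro u * q v / R + R ^ 3 * pb v ^ 2 * ro u ^ 2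
      + (L ^ 2 + R ^ 2) * ro u / S.card) ≤ 15 * K ^ g := by
  have R0 : 0 < R := hR'.pos hK
  have hsq : Le K (∑ a ∈ S, √(q a) ^ 2) (τ + 1 / 50) := by
    simp only [Real.sq_sqrt (q0 _)]; exact hQ
  have hsr : Le K (∑ a ∈ S, √(ro a) ^ 2) (μ + 1 / 100) := by
    simp only [Real.sq_sqrt (ro0 _)]; exact hS1
  have hone : Le K (∑ _a ∈ S, (1 : ℝ) ^ 2) μ := by simpa using hm
  have hinv : Le K (∑ _a ∈ S, (1 / S.card : ℝ)) 0 := by
    rw [Finset.sum_const, nsmul_eq_mul, mul_one_div_cancel hm0.ne']; exact Le.one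
  have hrowL : ∀ v ∈ S, Le K (∑ u ∈ S, ph u v ^ 2) (2525 + ϱ / 2 + 1 / 50) := fun v hv =>
    ((hR.cmul hK (C := 3) (by norm_num) (by norm_num)).mono hK (by linarith)).of_le
      ((hrow v hv).trans (by linarith [roR v]))
  -- h1
  have t1 : Le K (∑ u ∈ S, ∑ v ∈ S, √(q u) * ro u * ro v ^ 2) g :=
    (prodLe hK (csLe hK hsq hP) hP (fun _ => sq_nonneg _)).mono hK (by linarith)
  have t2 : Le K (∑ u ∈ S, ∑ v ∈ S, ro u ^ 2 * ro v ^ 2) g :=
    (prodLe hK hP hP (fun _ => sq_nonneg _)).mono hK (by linarith)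
  have t3 : Le K (∑ u ∈ S, ∑ v ∈ S, ph u v * ro u * q v) g := by
    have h := rowLe hK (X := fun v u => ph u v * ro u) hQ q0
      (fun v hv => csLe hK (hrowL v hv) hP)
    refine (congrLe (swapLe h) (fun u v => by ring)).mono hK ?_
    rcases hW with ⟨a, b, c⟩ | ⟨a, b, c⟩ <;> linarith
  have t4 : Le K (∑ u ∈ S, ∑ v ∈ S, pb v * ro u * √(q u * q v)) g := by
    have h := prodLe hK (csLe hK hP hsq) (csLe hK hD hsq)
      (fun x => mul_nonneg (pb0 x) (Real.sqrt_nonneg _))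
    refine (congrLe h (fun u v => by rw [Real.sqrt_mul (q0 u)]; ring)).mono hK ?_
    rcases hW with ⟨a, b, c⟩ | ⟨a, b, c⟩ <;> linarith
  have t5 : Le K (∑ u ∈ S, ∑ v ∈ S, √R * pb v * ro v * (q u + ro u ^ 2)) g := by
    have h1 : Le K (∑ u ∈ S, (q u + ro u ^ 2)) (τ + 1 / 50 + 1 / 100) := by
      rw [Finset.sum_add_distrib]
      exact hQ.add hK hP le_rfl (by linarith)
    have h := cLe hK (hR.sqrt hK) (Real.sqrt_nonneg _) (prodLe hK h1 (csLe hK hD hP)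
      (fun x => mul_nonneg (pb0 x) (ro0 x)))
    refine (congrLe h (fun u v => by ring)).mono hK ?_
    rcases hW with ⟨a, b, c⟩ | ⟨a, b, c⟩ <;> linarith
  have t6 : Le K (∑ u ∈ S, ∑ v ∈ S, R * pb v ^ 2 * q u) g := by
    have h := cLe hK hR R0.le (prodLe hK hQ hD (fun x => sq_nonneg _))
    refine (congrLe h (fun u v => by ring)).mono hK ?_
    rcases hW with ⟨a, b, c⟩ | ⟨a, b, c⟩ <;> linarith
  have t6' : Le K (∑ u ∈ S, ∑ v ∈ S, L * pb v ^ 2 * q u) g := by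
    have h := cLe hK hL L0 (prodLe hK hQ hD (fun x => sq_nonneg _))
    refine (congrLe h (fun u v => by ring)).mono hK ?_
    rcases hW with ⟨a, b, c⟩ | ⟨a, b, c⟩ <;> linarith
  -- h7
  have hA : Le K (∑ u ∈ S, ((√(q u) + √(ro u)) * √(ro u)) ^ 2) (2525 + ϱ / 2 + τ + 1 / 20) := by
    have h1 : Le K ((∑ u ∈ S, q u) * R + ∑ u ∈ S, ro u ^ 2) (2525 + ϱ / 2 + τ + 3 / 100 + 1 / 100) :=
      (hQ.mul hK hR R0.le).add hK hP (by linarith)
        (by rcases hW with ⟨a, b, c⟩ | ⟨a, b, c⟩ <;> linarith)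
    refine ((h1.cmul hK (C := 2) (by norm_num) (by norm_num)).mono hK (by linarith)).of_le ?_
    rw [Finset.sum_mul, ← Finset.sum_add_distrib, Finset.mul_sum]
    refine sum_le_sum fun u _ => ?_
    rw [mul_pow, Real.sq_sqrt (ro0 u)]
    have e1 := Real.sq_sqrt (q0 u)
    have e2 := Real.sq_sqrt (ro0 u)
    have h2 : (√(q u) + √(ro u)) ^ 2 ≤ 2 * (q u + ro u) := by
      nlinarith [sq_nonneg (√(q u) - √(ro u))]
    have h3 := mul_le_mul_of_nonneg_right h2 (ro0 u)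
    have h4 := mul_le_mul_of_nonneg_left (roR u) (q0 u)
    nlinarith
  have A0 : ∀ u, 0 ≤ (√(q u) + √(ro u)) * √(ro u) := fun u => by positivity
  have t7a : Le K (∑ u ∈ S, ∑ v ∈ S, L * ph u v * (√(q u) + √(ro u)) * √(ro u * ro v)) g := by
    have h1 : Le K (∑ u ∈ S, ∑ v ∈ S, (ph u v * √(ro v)) ^ 2) (p + 1 / 100) := by
      refine (hP.cmul hK (C := 3) (by norm_num) (by norm_num)).of_le ?_
      rw [Finset.sum_comm, Finset.mul_sum]
      refine sum_le_sum fun v hv => ?_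
      simp only [mul_pow, Real.sq_sqrt (ro0 v)]
      rw [← Finset.sum_mul]
      have := mul_le_mul_of_nonneg_right (hrow v hv) (ro0 v)
      nlinarith
    have h2 : Le K (∑ u ∈ S, ∑ _v ∈ S, ((√(q u) + √(ro u)) * √(ro u)) ^ 2)
        (2525 + ϱ / 2 + τ + 1 / 20 + μ) :=
      congrLe (prodLe hK hA hone (fun _ => sq_nonneg _)) (fun u v => by ring)
    have h := cLe hK hL L0 (csLe2 hK h1 h2)
    refine (congrLe h (fun u v => by rw [Real.sqrt_mul (ro0 u)]; ring)).mono hK ?_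
    rcases hW with ⟨a, b, c⟩ | ⟨a, b, c⟩ <;> linarith
  have t7b : Le K (∑ u ∈ S, ∑ v ∈ S, L * pb u * (√(q u) + √(ro u)) * √(ro u * ro v)) g := by
    have h := cLe hK hL L0 (prodLe hK (csLe hK hD hA) (csLe hK hone hsr)
      (fun x => mul_nonneg zero_le_one (Real.sqrt_nonneg _)))
    refine (congrLe h (fun u v => by rw [Real.sqrt_mul (ro0 u)]; ring)).mono hK ?_
    rcases hW with ⟨a, b, c⟩ | ⟨a, b, c⟩ <;> linarith
  have t7c : Le K (∑ u ∈ S, ∑ v ∈ S, L * pb v * (√(q u) + √(ro u)) * √(ro u * ro v)) g := by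
    have h := cLe hK hL L0 (prodLe hK (csLe hK hone hA) (csLe hK hD hsr)
      (fun x => mul_nonneg (pb0 x) (Real.sqrt_nonneg _)))
    refine (congrLe h (fun u v => by rw [Real.sqrt_mul (ro0 u)]; ring)).mono hK ?_
    rcases hW with ⟨a, b, c⟩ | ⟨a, b, c⟩ <;> linarith
  have t8a : Le K (∑ u ∈ S, ∑ _v ∈ S, L * (1 / S.card) * q u) g := by
    have h := cLe hK hL L0 (prodLe hK hQ hinv (fun x => by positivity))
    refine (congrLe h (fun u v => by ring)).mono hK ?_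
    rcases hW with ⟨a, b, c⟩ | ⟨a, b, c⟩ <;> linarith
  have t8b : Le K (∑ u ∈ S, ∑ v ∈ S, L * (pb v * ph u v) * q u) g := by
    have h := cLe hK hL L0 (rowLe hK (X := fun u v => pb v * ph v u) hQ q0
      (fun u hu => csLe hK hD (hrowL u hu)))
    refine (congrLe h (fun u v => by rw [phs u v]; ring)).mono hK ?_
    rcases hW with ⟨a, b, c⟩ | ⟨a, b, c⟩ <;> linarith
  have t9 : Le K (∑ u ∈ S, ∑ v ∈ S, ro u * q v / R) g := by
    have h := cLe hK (Le.inv hK hR') (by positivity) (prodLe hK hS1 hQ q0)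
    refine (congrLe h (fun u v => by ring)).mono hK ?_
    rcases hW with ⟨a, b, c⟩ | ⟨a, b, c⟩ <;> linarith
  have t10 : Le K (∑ u ∈ S, ∑ v ∈ S, R ^ 3 * pb v ^ 2 * ro u ^ 2) g := by
    have h := cLe hK (hR.pow hK R0.le 3) (by positivity) (prodLe hK hP hD (fun x => sq_nonneg _))
    refine (congrLe h (fun u v => by ring)).mono hK ?_
    push_cast
    rcases hW with ⟨a, b, c⟩ | ⟨a, b, c⟩ <;> linarith
  have t11 : Le K (∑ u ∈ S, ∑ _v ∈ S, (L ^ 2 + R ^ 2) * ro u / S.card) g := by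
    have h1 : Le K (L ^ 2 + R ^ 2) (τ - 200 + 1 / 100) :=
      (hL.pow hK L0 2).add hK (hR.pow hK R0.le 2)
        (by push_cast; rcases hW with ⟨a, b, c⟩ | ⟨a, b, c⟩ <;> linarith)
        (by push_cast; rcases hW with ⟨a, b, c⟩ | ⟨a, b, c⟩ <;> linarith)
    have h := cLe hK h1 (by positivity) (prodLe hK hS1 hinv (fun x => by positivity))
    exact (congrLe h (fun u v => by ring)).mono hK (by linarith)
  have e : ∀ u v, ((√(q u) * ro u + ro u ^ 2) * ro v ^ 2 + ph u v * ro u * q v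
      + pb v * ro u * √(q u * q v)
      + √R * pb v * ro v * (q u + ro u ^ 2)
      + (R + L) * pb v ^ 2 * q u
      + L * (ph u v + pb u + pb v) * (√(q u) + √(ro u)) * √(ro u * ro v)
      + L * (1 / S.card + pb v * ph u v) * q u
      + ro u * q v / R + R ^ 3 * pb v ^ 2 * ro u ^ 2
      + (L ^ 2 + R ^ 2) * ro u / S.card)
      = √(q u) * ro u * ro v ^ 2 + ro u ^ 2 * ro v ^ 2 + ph u v * ro u * q v
        + pb v * ro u * √(q u * q v) + √R * pb v * ro v * (q u + ro u ^ 2)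
        + R * pb v ^ 2 * q u + L * pb v ^ 2 * q u
        + L * ph u v * (√(q u) + √(ro u)) * √(ro u * ro v)
        + L * pb u * (√(q u) + √(ro u)) * √(ro u * ro v)
        + L * pb v * (√(q u) + √(ro u)) * √(ro u * ro v)
        + L * (1 / S.card) * q u + L * (pb v * ph u v) * q u + ro u * q v / R
        + R ^ 3 * pb v ^ 2 * ro u ^ 2 + (L ^ 2 + R ^ 2) * ro u / S.card := fun u v => by ring
  simp only [e, Finset.sum_add_distrib]
  unfold Le at t1 t2 t3 t4 t5 t6 t6' t7a t7b t7c t8a t8b t9 t10 t11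
  linarith
end abs

section mat
variable {S : Finset ι} {F G : Matrix ι ι ℝ} {L : ℝ}

theorem sumS_sq_le (S : Finset ι) (A : Matrix ι ι ℝ) :
    ∑ u ∈ S, ∑ v ∈ S, A u v ^ 2 ≤ (Aᵀ * A).trace := by
  rw [Matrix.trace_mul_comm, ← sum_sq_eq_trace]
  calc ∑ u ∈ S, ∑ v ∈ S, A u v ^ 2 ≤ ∑ u ∈ S, ∑ v, A u v ^ 2 :=
        sum_le_sum fun u _ => sum_le_sum_of_subset_of_nonneg (subset_univ S)
          fun _ _ _ => sq_nonneg _
    _ ≤ ∑ u, ∑ v, A u v ^ 2 := sum_le_sum_of_subset_of_nonneg (subset_univ S)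
          fun _ _ _ => sum_nonneg fun _ _ => sq_nonneg _

theorem sumS_sq_le' (S : Finset ι) (A : Matrix ι ι ℝ) :
    ∑ u ∈ S, ∑ v ∈ S, A v u ^ 2 ≤ (Aᵀ * A).trace := by
  rw [Finset.sum_comm]; exact sumS_sq_le S A

theorem sumS_diag_le (S : Finset ι) (A : Matrix ι ι ℝ) :
    ∑ u ∈ S, (Aᵀ * A) u u ≤ (Aᵀ * A).trace :=
  sum_le_sum_of_subset_of_nonneg (subset_univ S) fun u _ _ => diag_gram_nonneg A u

theorem frob (h : OpB L F) (A : Matrix ι ι ℝ) :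
    ((F * A)ᵀ * (F * A)).trace ≤ L ^ 2 * (Aᵀ * A).trace := by
  rw [GenMX.trace_eq, GenMX.trace_eq, Finset.mul_sum]
  exact sum_le_sum fun u _ => h.diag A u

theorem gram2 (hF : Mat S F) (hG : Mat S G) : (G * F)ᵀ * (G * F) = F * G * G * F := by
  rw [Matrix.transpose_mul, hF.transpose, hG.transpose]
  simp only [Matrix.mul_assoc]

theorem diag4_nonneg (hF : Mat S F) (hG : Mat S G) (a : ι) : 0 ≤ (F * G * G * F) a a := by
  rw [← gram2 hF hG]; exact diag_gram_nonneg _ a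

theorem tr_gram2 (hF : Mat S F) (hG : Mat S G) : ((G * F)ᵀ * (G * F)).trace = c22 F G := by
  rw [← hG.c22_eq hF, c22_comm]

omit [DecidableEq ι] in
theorem c22_self (F : Matrix ι ι ℝ) : c22 F F = a4 F := rfl

theorem sum_diag4_le (hF : Mat S F) (hG : Mat S G) :
    ∑ a ∈ S, (F * G * G * F) a a ≤ c22 F G := by
  rw [← tr_gram2 hF hG, ← gram2 hF hG]; exact sumS_diag_le S _

theorem c22_le (hF : Mat S F) (hG : Mat S G) {T : ℝ} (h1 : a4 F ≤ T) (h2 : a4 G ≤ T) :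
    c22 F G ≤ T := by
  have h0 := hF.a4_nonneg
  have h := hF.c22_sq_le hG
  have h3 : a4 F * a4 G ≤ T * T := mul_le_mul h1 h2 hG.a4_nonneg (h0.trans h1)
  exact le_of_sq_le_sq (by nlinarith) (h0.trans h1)

theorem qq_nonneg (hF : Mat S F) (hG : Mat S G) (a : ι) : 0 ≤ qq F G a := by
  have h1 := diag4_nonneg hF hF a
  have h2 := diag4_nonneg hF hG a
  have h3 := diag4_nonneg hG hF a
  have h4 := diag4_nonneg hG hG a
  unfold qq; linarith

theorem sum_qq_le (hF : Mat S F) (hG : Mat S G) {T : ℝ} (h1 : a4 F ≤ T) (h2 : a4 G ≤ T) :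
    ∑ a ∈ S, qq F G a ≤ 4 * T := by
  have a1 := (sum_diag4_le hF hF).trans (c22_le hF hF h1 h1)
  have a2 := (sum_diag4_le hF hG).trans (c22_le hF hG h1 h2)
  have a3 := (sum_diag4_le hG hF).trans (c22_le hG hF h2 h1)
  have a4 := (sum_diag4_le hG hG).trans (c22_le hG hG h2 h2)
  simp only [qq, Finset.sum_add_distrib]
  linarith

theorem sum_o2_le (hF : Mat S F) (hG : Mat S G) {T : ℝ} (h1 : a4 F ≤ T) (h2 : a4 G ≤ T) :
    ∑ u ∈ S, ∑ v ∈ S, o2 F G u v ^ 2 ≤ 16 * T := by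
  have a1 := (sumS_sq_le S (F * F)).trans ((tr_gram2 hF hF).le.trans (c22_le hF hF h1 h1))
  have a2 := (sumS_sq_le S (F * G)).trans ((tr_gram2 hG hF).le.trans (c22_le hG hF h2 h1))
  have a3 := (sumS_sq_le S (G * F)).trans ((tr_gram2 hF hG).le.trans (c22_le hF hG h1 h2))
  have a4 := (sumS_sq_le S (G * G)).trans ((tr_gram2 hG hG).le.trans (c22_le hG hG h2 h2))
  have h : ∑ u ∈ S, ∑ v ∈ S, o2 F G u v ^ 2 ≤ ∑ u ∈ S, ∑ v ∈ S, 4 * ((F * F) u v ^ 2
      + (F * G) u v ^ 2 + (G * F) u v ^ 2 + (G * G) u v ^ 2) := by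
    refine sum_le_sum fun u _ => sum_le_sum fun v _ => ?_
    unfold o2
    rw [← sq_abs ((F * F) u v), ← sq_abs ((F * G) u v), ← sq_abs ((G * F) u v),
      ← sq_abs ((G * G) u v)]
    generalize |(F * F) u v| = a
    generalize |(F * G) u v| = b
    generalize |(G * F) u v| = c
    generalize |(G * G) u v| = d
    nlinarith [sq_nonneg (a - b), sq_nonneg (a - c), sq_nonneg (a - d), sq_nonneg (b - c),
      sq_nonneg (b - d), sq_nonneg (c - d)]
  simp only [← Finset.mul_sum, Finset.sum_add_distrib] at h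
  linarith

theorem tr_gram3 (hF : Mat S F) (hG : Mat S G) {X : Matrix ι ι ℝ} (hX : OpB L X) :
    ((X * F * G)ᵀ * (X * F * G)).trace ≤ L ^ 2 * c22 F G := by
  have h := frob hX (F * G)
  rw [tr_gram2 hG hF, c22_comm, ← Matrix.mul_assoc X F G] at h
  exact h

theorem sum_o3_le (hF : Mat S F) (hG : Mat S G) (oF : OpB L F) (oG : OpB L G) {T : ℝ}
    (h1 : a4 F ≤ T) (h2 : a4 G ≤ T) :
    ∑ u ∈ S, ∑ v ∈ S, o3 F G u v ^ 2 ≤ 16 * (L ^ 2 * T) := by
  have b1 := (tr_gram3 hF hG oF).trans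
    (mul_le_mul_of_nonneg_left (c22_le hF hG h1 h2) (sq_nonneg L))
  have b2 := (tr_gram3 hG hF oG).trans
    (mul_le_mul_of_nonneg_left (c22_le hG hF h2 h1) (sq_nonneg L))
  have a1 := (sumS_sq_le S (F * F * G)).trans b1
  have a2 := (sumS_sq_le' S (F * F * G)).trans b1
  have a3 := (sumS_sq_le S (G * G * F)).trans b2
  have a4 := (sumS_sq_le' S (G * G * F)).trans b2
  have h : ∑ u ∈ S, ∑ v ∈ S, o3 F G u v ^ 2 ≤ ∑ u ∈ S, ∑ v ∈ S, 4 * ((F * F * G) u v ^ 2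
      + (F * F * G) v u ^ 2 + (G * G * F) u v ^ 2 + (G * G * F) v u ^ 2) := by
    refine sum_le_sum fun u _ => sum_le_sum fun v _ => ?_
    unfold o3
    rw [← sq_abs ((F * F * G) u v), ← sq_abs ((F * F * G) v u), ← sq_abs ((G * G * F) u v),
      ← sq_abs ((G * G * F) v u)]
    generalize |(F * F * G) u v| = a
    generalize |(F * F * G) v u| = b
    generalize |(G * G * F) u v| = c
    generalize |(G * G * F) v u| = d
    nlinarith [sq_nonneg (a - b), sq_nonneg (a - c), sq_nonneg (a - d), sq_nonneg (b - c),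
      sq_nonneg (b - d), sq_nonneg (c - d)]
  simp only [← Finset.mul_sum, Finset.sum_add_distrib] at h
  linarith

theorem col_le (hF : Mat S F) (v : ι) : ∑ u ∈ S, F u v ^ 2 ≤ rr F v := by
  rw [hF.rr_eq]
  simp only [hF.symm v]
  exact sum_le_sum_of_subset_of_nonneg (subset_univ S) fun _ _ _ => sq_nonneg _

theorem phb_row (hF : Mat S F) (hG : Mat S G) (hm : (1 : ℝ) ≤ S.card) (v : ι) :
    ∑ u ∈ S, phb S F G u v ^ 2 ≤ 3 * ro F G v := by
  have h1 := col_le hF v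
  have h2 := col_le hG v
  have h3 : ∑ _u ∈ S, (1 / (S.card : ℝ)) ^ 2 ≤ 1 := by
    rw [Finset.sum_const, nsmul_eq_mul, div_pow, one_pow, mul_one_div,
      div_le_one (by positivity)]
    nlinarith
  have h : ∑ u ∈ S, phb S F G u v ^ 2
      ≤ ∑ u ∈ S, 3 * (F u v ^ 2 + G u v ^ 2 + (1 / (S.card : ℝ)) ^ 2) := by
    refine sum_le_sum fun u _ => ?_
    unfold phb
    rw [← sq_abs (F u v), ← sq_abs (G u v)]
    generalize |F u v| = a
    generalize |G u v| = b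
    generalize 1 / (S.card : ℝ) = c
    nlinarith [sq_nonneg (a - b), sq_nonneg (a - c), sq_nonneg (b - c)]
  simp only [← Finset.mul_sum, Finset.sum_add_distrib] at h
  unfold ro rb
  linarith
end mat

/-- the facts about one of the two matrices of a context -/
structure Fa (c : Ctx ι) (H : Matrix ι ι ℝ) : Prop where
  mat : Mat c.S H
  op : OpB c.L H
  a4 : a4 H ≤ c.p.T4 c.m
  s1 : ∑ a ∈ c.S, vr H a ≤ 2 * c.m
  P : Le c.p.K (∑ a ∈ c.S, vr H a ^ 2) (c.μ + 13 + 1 / 50)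
  PX : c.p.phX c.m → ∑ a ∈ c.S, vr H a ^ 2 ≤ 10 * c.m
  P2 : ∑ a ∈ c.S, pd c.S H a ^ 2 ≤ 4 * c.p.TD c.m
  r : ∀ a, 3 * rr H a ≤ c.R

theorem faF (c : Ctx ι) (hK : Big c.p.K) : Fa c c.F where
  mat := c.oF.mat
  op := Ctx.opB hK
  a4 := c.oF.a4_T
  s1 := Ctx.sum_vr_le hK
  P := Ctx.le_P hK
  PX := Ctx.P_le_X hK
  P2 := Ctx.P2_le hK
  r := fun a => by
    have h0 := c.oF.mat.rr_nonneg a
    have h1 : rr c.F a ≤ √(√(c.p.TR4 c.m)) := by
      by_cases ha : a ∈ c.S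
      · refine Real.le_sqrt_of_sq_le (Real.le_sqrt_of_sq_le ?_)
        refine le_trans ?_ c.oF.R4_T
        rw [← pow_mul]
        exact Finset.single_le_sum (f := fun a => rr c.F a ^ 4) (fun b _ => by positivity) ha
      · rw [show rr c.F a = 0 from c.oF.mat.mul_supp _ a a ha]
        exact Real.sqrt_nonneg _
    show 3 * rr c.F a ≤ 3 * √(√(c.p.TR4 c.m))
    linarith

theorem faG (c : Ctx ι) (hK : Big c.p.K) : Fa c c.G := by
  have h := faF c.swap hK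
  exact ⟨h.mat, h.op, h.a4, h.s1, h.P, h.PX, h.P2, h.r⟩

theorem fa (c : Ctx ι) (hK : Big c.p.K) {G : Matrix ι ι ℝ} (hG : G = c.F ∨ G = c.G) : Fa c G := by
  rcases hG with rfl | rfl
  · exact faF c hK
  · exact faG c hK

theorem three_le_R (c : Ctx ι) (hK : Big c.p.K) : 3 ≤ c.R := by
  have h1 := (Ctx.sz_R hK).1
  have h2 := Ctx.μ_lo hK
  refine le_trans (by norm_num : (3 : ℝ) ≤ 10) (Le.le_of_ge hK hK.ten h1 ?_)
  rcases c.cases_W with ⟨a, b, d⟩ | ⟨a, b, d⟩ <;> linarith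

theorem core (c : Ctx ι) (hK : Big c.p.K) {G : Matrix ι ι ℝ} (hG : Fa c G) {p g : ℝ}
    (hP : Le c.p.K (∑ a ∈ c.S, ro c.F G a ^ 2) p) (hp : p ≤ c.μ + 14) (hpτ : p ≤ c.τ)
    (hg : c.μ + c.τ - 146 ≤ g) (hg1 : c.τ / 2 + 3 * p / 2 + 1 / 10 ≤ g) (hg2 : 2 * p ≤ g)
    (hg3 : 3 * c.τ / 2 + 1 / 10 ≤ g) (hg4 : 5 * c.τ / 4 + c.μ / 2 + 1 / 10 ≤ g) :
    Le c.p.K (∑ u, ∑ v, c.w u v * err4 c.L c.R c.S c.F G u v) (g + 1 / 50) := by
  have hF := faF c hK
  have hm1 : (1 : ℝ) ≤ c.S.card := le_trans (by norm_num) (Ctx.m_big hK)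
  have hm0 : (0 : ℝ) < c.S.card := by linarith
  have hm : Le c.p.K c.S.card c.μ := Ctx.le_m hK
  have ro0 : ∀ a, 0 ≤ ro c.F G a := fun a => by
    have := hF.mat.rr_nonneg a
    have := hG.mat.rr_nonneg a
    unfold ro rb; linarith
  have q0 := qq_nonneg hF.mat hG.mat
  have pb0 : ∀ a, 0 ≤ pb c.S c.F G a := fun a => by unfold pb; positivity
  have ph0 : ∀ u v, 0 ≤ phb c.S c.F G u v := fun u v => by unfold phb; positivity
  have phs : ∀ u v, phb c.S c.F G u v = phb c.S c.F G v u := fun u v => by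
    unfold phb; rw [hF.mat.symm u v, hG.mat.symm u v]
  have hR3 := three_le_R c hK
  have roR : ∀ a, ro c.F G a ≤ c.R := fun a => by
    have := hF.r a
    have := hG.r a
    unfold ro rb; linarith
  have L0 : 0 ≤ c.L := le_trans zero_le_one (Ctx.one_le_L hK)
  have hrow := fun v (_ : v ∈ c.S) => phb_row hF.mat hG.mat hm1 v
  have hS1' : ∑ a ∈ c.S, ro c.F G a ≤ 4 * c.m := by
    have h : ∑ a ∈ c.S, ro c.F G a ≤ ∑ a ∈ c.S, (vr c.F a + vr G a) :=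
      sum_le_sum fun a _ => by unfold ro rb vr; linarith
    rw [Finset.sum_add_distrib] at h
    linarith [hF.s1, hG.s1]
  have hS1 : Le c.p.K (∑ a ∈ c.S, ro c.F G a) (c.μ + 1 / 100) :=
    ((Ctx.le_m hK).cmul hK (C := 4) (by norm_num) (by norm_num)).of_le hS1'
  have hT4 := (Ctx.sz_T4 hK).2
  have hQ : Le c.p.K (∑ a ∈ c.S, qq c.F G a) (c.τ + 1 / 50) :=
    ((hT4.cmul hK (C := 4) (by norm_num) (by norm_num)).mono hK (by linarith)).of_le
      (sum_qq_le hF.mat hG.mat hF.a4 hG.a4)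
  have hD : Le c.p.K (∑ a ∈ c.S, pb c.S c.F G a ^ 2) (450 + c.ϱ + 3 / 100) := by
    have h1 := (((Ctx.sz_TD hK).2.cmul hK (C := 4) (by norm_num) (by norm_num)).cmul hK (C := 4)
      (by norm_num) (by norm_num)).mono hK (show _ ≤ 450 + c.ϱ + 3 / 100 by linarith)
    refine h1.of_le ?_
    have h : ∑ a ∈ c.S, pb c.S c.F G a ^ 2
        ≤ ∑ a ∈ c.S, 2 * (pd c.S c.F a ^ 2 + pd c.S G a ^ 2) := by
      refine sum_le_sum fun a _ => ?_
      have h2 : pb c.S c.F G a ≤ pd c.S c.F a + pd c.S G a := by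
        have : (0 : ℝ) ≤ 1 / c.S.card := by positivity
        unfold pb pd; linarith
      have h3 := pow_le_pow_left₀ (pb0 a) h2 2
      nlinarith [sq_nonneg (pd c.S c.F a - pd c.S G a)]
    simp only [← Finset.mul_sum, Finset.sum_add_distrib] at h
    linarith [hF.P2, hG.P2]
  have hL := (Ctx.sz_L hK).2
  have hh := half_abs hK hm0 hm ro0 q0 pb0 phs roR L0 hrow hS1 hP hQ hD hL (Ctx.sz_R hK).2
    (Ctx.sz_R hK).1 c.cases_W (Ctx.μ_lo hK) (Ctx.μ_hi hK) hp hpτ hg hg1 hg2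
  have hh1 : ∑ u ∈ c.S, ∑ v ∈ c.S, half4 c.L c.R c.S c.F G u v ≤ 15 * c.p.K ^ g := hh
  have hh2 : ∑ u ∈ c.S, ∑ v ∈ c.S, half4 c.L c.R c.S c.F G v u ≤ 15 * c.p.K ^ g := by
    rw [Finset.sum_comm]; exact hh
  have hqq : Le c.p.K (∑ u ∈ c.S, ∑ v ∈ c.S, √(qq c.F G u * qq c.F G v) ^ 2)
      (c.τ + 1 / 50 + (c.τ + 1 / 50)) :=
    congrLe (prodLe hK hQ hQ q0) fun u v => Real.sq_sqrt (mul_nonneg (q0 u) (q0 v))
  have e1 : Le c.p.K (∑ u ∈ c.S, ∑ v ∈ c.S, o2 c.F G u v * √(qq c.F G u * qq c.F G v)) g := by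
    have h1 : Le c.p.K (∑ u ∈ c.S, ∑ v ∈ c.S, o2 c.F G u v ^ 2) (c.τ + 3 / 100) :=
      (((hT4.cmul hK (C := 4) (by norm_num) (by norm_num)).cmul hK (C := 4) (by norm_num)
        (by norm_num)).mono hK (by linarith)).of_le
        ((sum_o2_le hF.mat hG.mat hF.a4 hG.a4).trans (by linarith))
    exact (csLe2 hK h1 hqq).mono hK (by linarith)
  have T40 : 0 ≤ c.p.T4 c.m := hF.mat.a4_nonneg.trans hF.a4
  have e2 : Le c.p.K (∑ u ∈ c.S, ∑ v ∈ c.S, o3 c.F G u v ^ 2) g := by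
    have h1 := (((hL.pow hK L0 2).mul hK hT4 T40).cmul hK (C := 4) (by norm_num)
      (by norm_num)).cmul hK (C := 4) (by norm_num) (by norm_num)
    refine (h1.mono hK (by push_cast; linarith)).of_le ?_
    exact (sum_o3_le hF.mat hG.mat hF.op hG.op hF.a4 hG.a4).trans (by linarith)
  have e3 : Le c.p.K (∑ u ∈ c.S, ∑ v ∈ c.S,
      c.L * phb c.S c.F G u v * √(qq c.F G u * qq c.F G v)) g := by
    have h1 : Le c.p.K (∑ u ∈ c.S, ∑ v ∈ c.S, phb c.S c.F G u v ^ 2) (c.μ + 1 / 100 + 1 / 100) := by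
      refine (hS1.cmul hK (C := 3) (by norm_num) (by norm_num)).of_le ?_
      rw [Finset.sum_comm, Finset.mul_sum]
      exact sum_le_sum hrow
    have h := cLe hK hL L0 (csLe2 hK h1 hqq)
    exact (congrLe h (fun u v => by ring)).mono hK (by linarith)
  have R0 : 0 ≤ c.R := by linarith
  have hh0 : ∀ u v, 0 ≤ half4 c.L c.R c.S c.F G u v := fun u v => by
    have := ro0 u
    have := ro0 v
    have := q0 u
    have := q0 v
    have := pb0 u
    have := pb0 v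
    have := ph0 u v
    unfold half4
    positivity
  have h := c.sum_le_crude (X := fun u v => err4 c.L c.R c.S c.F G u v)
    (Y := fun u v => err4 c.L c.R c.S c.F G u v) (fun _ _ _ => le_rfl) (fun u _ v _ => by
      have := hh0 u v
      have := hh0 v u
      have := ph0 u v
      have : 0 ≤ o2 c.F G u v := by unfold o2; positivity
      unfold err4
      positivity)
  refine hund hK (h.trans ?_)
  simp only [err4, Finset.sum_add_distrib]
  unfold Le at e1 e2 e3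
  have := Real.rpow_pos_of_pos hK.pos g
  linarith

theorem P_le (c : Ctx ι) {G : Matrix ι ι ℝ} (hF : Fa c c.F) (hG : Fa c G) :
    ∑ a ∈ c.S, ro c.F G a ^ 2
      ≤ 2 * (∑ a ∈ c.S, vr c.F a ^ 2 + ∑ a ∈ c.S, vr G a ^ 2) := by
  rw [← Finset.sum_add_distrib, Finset.mul_sum]
  refine sum_le_sum fun a _ => ?_
  have h1 := hF.mat.rr_nonneg a
  have h2 := hG.mat.rr_nonneg a
  unfold ro rb vr
  nlinarith [sq_nonneg (rr c.F a - rr G a)]

theorem P_X (c : Ctx ι) (hK : Big c.p.K) {G : Matrix ι ι ℝ} (hG : Fa c G) (hX : c.p.phX c.m) :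
    Le c.p.K (∑ a ∈ c.S, ro c.F G a ^ 2) (c.μ + 1 / 50) := by
  have hF := faF c hK
  have h1 := (((Ctx.le_m hK).cmul hK (C := 10) (by norm_num) (by norm_num)).cmul hK (C := 4)
    (by norm_num) (by norm_num)).mono hK (show _ ≤ c.μ + 1 / 50 by linarith)
  refine h1.of_le ((P_le c hF hG).trans ?_)
  linarith [hF.PX hX, hG.PX hX]

end E4

namespace Ctx
variable {c : Ctx ι} (hK : Big c.p.K) {G : Matrix ι ι ℝ} (hG : G = c.F ∨ G = c.G)
include hK hG

/-- `ro ≤ R` also for the pair `(F, F)` -/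
theorem ro_le' (a : ι) : ro c.F G a ≤ c.R := by
  have h1 := (E4.faF c hK).r a
  have h2 := (E4.fa c hK hG).r a
  have h3 := E4.three_le_R c hK
  unfold ro rb; linarith

/-- the weighted sum of `err4`, all phases, target `μ + τ` -/
theorem err4_sum :
    Le c.p.K (∑ u, ∑ v, c.w u v * err4 c.L c.R c.S c.F G u v) (c.μ + c.τ - 1) := by
  have hG' := E4.fa c hK hG
  have h1 := μ_lo hK
  have h2 := μ_hi hK
  have hW := c.cases_W
  by_cases hX : c.p.phX c.m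
  · have h3 := (phX_iff hK).1 hX
    refine (E4.core c hK hG' (g := c.μ + c.τ - 1 - 1 / 50) (E4.P_X c hK hG' hX)
      ?_ ?_ ?_ ?_ ?_ ?_ ?_).mono hK (by linarith) <;>
    rcases hW with ⟨a, b, d⟩ | ⟨a, b, d⟩ <;> linarith
  · have h3 : ¬ 6710 < c.μ := fun h => hX ((phX_iff hK).2 h)
    have hF := E4.faF c hK
    have hP : Le c.p.K (∑ a ∈ c.S, ro c.F G a ^ 2) (c.μ + 13 + 1 / 50 + 1 / 100 + 1 / 100) :=
      ((hF.P.add hK hG'.P le_rfl le_rfl).cmul hK (C := 2) (by norm_num) (by norm_num)).of_le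
        (E4.P_le c hF hG')
    refine (E4.core c hK hG' (g := c.μ + c.τ - 1 - 1 / 50) hP
      ?_ ?_ ?_ ?_ ?_ ?_ ?_).mono hK (by linarith) <;>
    rcases hW with ⟨a, b, d⟩ | ⟨a, b, d⟩ <;> linarith

/-- the weighted sum of `err4`, phase I, target `μ + T22` -/
theorem err4_sum_I (hI : c.p.phI c.m) :
    Le c.p.K (∑ u, ∑ v, c.w u v * err4 c.L c.R c.S c.F G u v)
      (c.μ + max 10004 (19860 - c.μ) - 1) := by
  have hG' := E4.fa c hK hG
  have h1 := (phI_iff hK).1 hI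
  have h2 := μ_hi hK
  have hW := c.cases_W
  have hX : c.p.phX c.m := (phX_iff hK).2 (by linarith)
  have m1 := le_max_left 10004 (19860 - c.μ)
  have m2 := le_max_right 10004 (19860 - c.μ)
  refine (E4.core c hK hG' (g := c.μ + max 10004 (19860 - c.μ) - 1 - 1 / 50)
    (E4.P_X c hK hG' hX) ?_ ?_ ?_ ?_ ?_ ?_ ?_).mono hK (by linarith) <;>
  rcases hW with ⟨a, b, d⟩ | ⟨a, b, d⟩ <;> linarith
end Ctx

end Crest.Agent.R62
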