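import Crest.Agent.R62.Der
import Crest.Agent.R62.Pt4
import Crest.Agent.R62.Err4

set_option autoImplicit false
set_option linter.unusedVariables false

open Finset Matrix

namespace Crest.Agent.R62

variable {ι V : Type} [Fintype ι] [DecidableEq ι] [Fintype V] [DecidableEq V]

namespace T4c
open E4

section mat
variable {S : Finset ι} {F G H : Matrix ι ι ℝ} {L : ℝ}

theorem trS (hF : Mat S F) {A : Matrix ι ι ℝ} (M : Matrix ι ι ℝ) (e : A = F * M) :
    ∑ a ∈ S, A a a = A.trace := by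
  rw [e]; exact (hF.trace_mul M).symm

theorem tr_A (hF : Mat S F) (hG : Mat S G) : ∑ a ∈ S, (F * G * G * F) a a = c22 F G := by
  rw [trS hF (G * G * F) (by simp only [Matrix.mul_assoc]), ← gram2 hF hG, tr_gram2 hF hG]

theorem tr_C (hF : Mat S F) : ∑ a ∈ S, (F * F * G * G) a a = c22 F G :=
  trS hF (F * G * G) (by simp only [Matrix.mul_assoc])

theorem abs_C (hF : Mat S F) (hG : Mat S G) (a : ι) :
    2 * |(F * F * G * G) a a| ≤ (F * F * F * F) a a + (G * G * G * G) a a := by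
  have h := entry_sq_le (F * F) (G * G) a a
  rw [hF.sq_transpose, hG.sq_transpose] at h
  simp only [← Matrix.mul_assoc] at h
  have h1 := diag4_nonneg hF hF a
  have h2 := diag4_nonneg hG hG a
  have h3 : |(F * F * G * G) a a| ≤ ((F * F * F * F) a a + (G * G * G * G) a a) / 2 :=
    abs_le_of_sq_le_sq (by nlinarith [sq_nonneg ((F * F * F * F) a a - (G * G * G * G) a a)])
      (by linarith)
  linarith

theorem sq3 (hF : Mat S F) (hG : Mat S G) (a : ι) :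
    (F * F * G) a a ^ 2 ≤ rr F a * (G * F * F * G) a a := by
  have h := entry_sq_le F (F * G) a a
  rw [hF.transpose, gram2 hG hF, ← Matrix.mul_assoc] at h
  exact h

theorem A_le (hF : Mat S F) (hG : Mat S G) (oG : OpB L G) (a : ι) :
    (F * G * G * F) a a ≤ L ^ 2 * rr F a := by
  have h := oG.diag F a
  rw [gram2 hF hG, hF.transpose] at h
  exact h

theorem tr_GFF (hF : Mat S F) (hG : Mat S G) (oF : OpB L F) :
    ((G * F * F)ᵀ * (G * F * F)).trace ≤ L ^ 2 * c22 F G := by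
  have h := tr_gram3 hF hG oF
  have e1 : (G * F * F)ᵀ = F * F * G := by
    simp only [Matrix.transpose_mul, hF.transpose, hG.transpose, Matrix.mul_assoc]
  have e2 : (F * F * G)ᵀ = G * F * F := by
    simp only [Matrix.transpose_mul, hF.transpose, hG.transpose, Matrix.mul_assoc]
  rw [e2, Matrix.trace_mul_comm] at h
  rw [e1]; exact h

theorem M_entry (hF : Mat S F) (hG : Mat S G) (u v : ι) :
    |(F * G * G * F * F) u v|
      ≤ √((F * G * G * F) u u) * √(((G * F * F)ᵀ * (G * F * F)) v v) := by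
  have h := entry_sq_le (F * G) (G * F * F) u v
  have e1 : F * G * (F * G)ᵀ = F * G * G * F := by
    simp only [Matrix.transpose_mul, hF.transpose, hG.transpose, Matrix.mul_assoc]
  have e2 : F * G * (G * F * F) = F * G * G * F * F := by simp only [Matrix.mul_assoc]
  rw [e1, e2] at h
  rw [← Real.sqrt_mul (diag4_nonneg hF hG u)]
  exact Real.abs_le_sqrt h

theorem sum2_tr (hH : Mat S H) (M : Matrix ι ι ℝ) :
    ∑ u ∈ S, ∑ v ∈ S, H u v * M u v = (H * M).trace := by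
  rw [hH.trace_mul, Finset.sum_comm]
  refine sum_congr rfl fun v _ => ?_
  rw [Matrix.mul_apply]
  simp only [hH.symm v]
  exact Finset.sum_subset (subset_univ S) fun a _ ha => by rw [hH.supp a v ha, zero_mul]

theorem tr_HM (hF : Mat S F) (hG : Mat S G) (oF : OpB L F) (hH : Mat S H) (oH : OpB L H) :
    |∑ u ∈ S, ∑ v ∈ S, H u v * (F * G * G * F * F) u v| ≤ L ^ 2 * c22 F G := by
  rw [sum2_tr hH]
  have h := trace_sq_le (H * F * G) (G * F * F)
  have e : H * F * G * (G * F * F) = H * (F * G * G * F * F) := by simp only [Matrix.mul_assoc]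
  rw [e, Matrix.trace_mul_comm (H * F * G)] at h
  have h1 := tr_gram3 hF hG oH
  have h2 := tr_GFF hF hG oF
  have h0 : 0 ≤ L ^ 2 * c22 F G := mul_nonneg (sq_nonneg L) (hF.c22_nonneg hG)
  have h3 : 0 ≤ ((G * F * F)ᵀ * (G * F * F)).trace :=
    sum_nonneg fun u _ => diag_gram_nonneg _ u
  refine abs_le_of_sq_le_sq (h.trans ?_) h0
  rw [sq (L ^ 2 * c22 F G)]
  exact mul_le_mul h1 h2 h3 h0

theorem M_swap (hF : Mat S F) (hG : Mat S G) (u v : ι) :
    (G * G * F * F * G) u v = (G * F * F * G * G) v u := by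
  have e : (G * F * F * G * G)ᵀ = G * G * F * F * G := by
    simp only [Matrix.transpose_mul, hF.transpose, hG.transpose, Matrix.mul_assoc]
  rw [← e, Matrix.transpose_apply]
end mat

/-- half of `lin4` -/
noncomputable def linH (σ : ℝ) (F G : Matrix ι ι ℝ) (u v : ι) : ℝ :=
  2 * σ * ((F * G * G * F * F) u v + (F * G * G * F * F) v u)
    + 2 * ((F * G * G * F * F) u u * F v v + (F * G * G * F * F) v v * F u u)

theorem sym2 (c : Ctx ι) (X : ι → ι → ℝ) :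
    ∑ u, ∑ v, c.w u v * (X u v + X v u) = 2 * ∑ u, ∑ v, c.w u v * X u v := by
  simp only [mul_add, Finset.sum_add_distrib]
  rw [← c.sum_comm' X]; ring

/-- exponent of `T22` -/
noncomputable def tt (c : Ctx ι) : ℝ := max 10004 (19860 - c.μ)
/-- the unit of error -/
noncomputable def gg (c : Ctx ι) : ℝ := c.μ + tt c - 9 / 10

section ctx
variable {c : Ctx ι} (hK : Big c.p.K) (hI : c.p.phI c.m)
include hK hI

theorem ex : 7195 < c.μ ∧ c.μ ≤ 10000 + 1 / 100 ∧ c.ϱ = 0 ∧ c.τ = 20004 - c.μ ∧ 10004 ≤ tt c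
    ∧ 19860 - c.μ ≤ tt c ∧ gg c = c.μ + tt c - 9 / 10 := by
  have h1 := (Ctx.phI_iff hK).1 hI
  refine ⟨h1, Ctx.μ_hi hK, ?_, ?_, le_max_left _ _, le_max_right _ _, rfl⟩ <;>
  rcases c.cases_W with ⟨a, b, d⟩ | ⟨a, b, d⟩ <;> linarith

theorem lc : Le c.p.K (c22 c.F c.G) (tt c + 1 / 100) :=
  (Ctx.sz_T22 hK).2.of_le (c.two.c22_T hI)

theorem hX : c.p.phX c.m := (Ctx.phX_iff hK).2 (by linarith [(ex hK hI).1])

theorem lR2 : Le c.p.K (R2 c.S c.F) (c.μ + 1 / 100) :=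
  ((Ctx.le_m hK).cmul hK (C := 4) (by norm_num) (by norm_num)).of_le (Ctx.R2_le_X hK (hX hK hI))

/-- the error of `G6` -/
theorem g6 (g k : ι → ℝ) {a b : ℝ} (hk : Le c.p.K (∑ v ∈ c.S, k v ^ 2) a)
    (hg : Le c.p.K (∑ u ∈ c.S, |g u|) b) (h : -1150 + c.μ / 2 + a / 2 + b ≤ gg c) :
    |∑ u, ∑ v, c.w u v * (g u * k v) - (∑ u ∈ c.S, g u) * ∑ v ∈ c.S, k v| ≤ c.p.K ^ gg c := by
  have h1 := ((((Ctx.le_eps_I hK hI).mul hK ((Ctx.le_m hK).sqrt hK) (Real.sqrt_nonneg _)).mul hK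
    (hk.sqrt hK) (Real.sqrt_nonneg _)).mul hK hg
    (sum_nonneg fun _ _ => abs_nonneg _)).mono hK h
  exact (c.G6 g k).trans h1

theorem lq : Le c.p.K (∑ a ∈ c.S, qq c.F c.G a) (c.τ + 1 / 50) :=
  (((Ctx.sz_T4 hK).2.cmul hK (C := 4) (by norm_num) (by norm_num)).mono hK (by linarith)).of_le
    (sum_qq_le c.oF.mat c.oG.mat c.oF.a4_T c.oG.a4_T)

theorem part_rem :
    8 * c.m * c22 c.F c.G - 2 * c.p.K ^ gg c ≤ ∑ u, ∑ v, c.w u v * rem4 c.F c.G u v := by
  obtain ⟨e1, e2, e3, e4, e5, e6, e7⟩ := ex hK hI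
  have hF := c.oF.mat
  have hG := c.oG.mat
  set g : ι → ℝ := fun a => (c.F * c.G * c.G * c.F) a a + (c.G * c.F * c.F * c.G) a a
    + 2 * (c.F * c.F * c.G * c.G) a a with hg
  have h1 : ∑ u, ∑ v, c.w u v * rem4 c.F c.G u v = 2 * ∑ u, ∑ v, c.w u v * g u :=
    sym2 c fun u _ => g u
  have h2 : ∑ a ∈ c.S, g a = 4 * c22 c.F c.G := by
    simp only [hg, Finset.sum_add_distrib, ← Finset.mul_sum]
    rw [tr_A hF hG, tr_A hG hF, tr_C hF, c22_comm c.G]; ring
  have h3 : ∑ a ∈ c.S, |g a| ≤ ∑ a ∈ c.S, qq c.F c.G a := by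
    refine sum_le_sum fun a _ => ?_
    have a1 := abs_C hF hG a
    have a2 := diag4_nonneg hF hG a
    have a3 := diag4_nonneg hG hF a
    have a4 := le_abs_self ((c.F * c.F * c.G * c.G) a a)
    have a5 := neg_abs_le ((c.F * c.F * c.G * c.G) a a)
    unfold qq
    rw [abs_le]; constructor <;> simp only [hg] <;> linarith
  have h4 := (((Ctx.le_eps_I hK hI).mul hK (Ctx.le_m hK) c.m_nonneg').mul hK
    ((lq hK hI).of_le h3) (sum_nonneg fun _ _ => abs_nonneg _)).mono hK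
    (show _ ≤ gg c by linarith)
  have h5 := (abs_le.1 ((c.G6one g).trans h4)).1
  rw [h1, h2] at *
  linarith

theorem part_A :
    ∑ u, ∑ v, c.w u v * ((c.F * c.G * c.G * c.F) u u * rr c.F v
      + (c.F * c.G * c.G * c.F) v v * rr c.F u) ≤ 2 * (c.m * c22 c.F c.G) + 2 * c.p.K ^ gg c := by
  obtain ⟨e1, e2, e3, e4, e5, e6, e7⟩ := ex hK hI
  have hF := c.oF.mat
  have hG := c.oG.mat
  rw [sym2 c fun u v => (c.F * c.G * c.G * c.F) u u * rr c.F v]
  have h1 : Le c.p.K (∑ u ∈ c.S, |(c.F * c.G * c.G * c.F) u u|) (tt c + 1 / 100) := by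
    simp only [abs_of_nonneg (diag4_nonneg hF hG _)]
    rw [tr_A hF hG]; exact lc hK hI
  have h := (abs_le.1 (g6 hK hI (fun u => (c.F * c.G * c.G * c.F) u u) (rr c.F) (lR2 hK hI) h1
    (by linarith))).2
  rw [tr_A hF hG, ← hF.a2_eq] at h
  have h2 := mul_le_mul_of_nonneg_left (Ctx.a2_le_m hK) (hF.c22_nonneg hG)
  linarith

theorem part_B :
    -(2 * (c.m * c22 c.F c.G)) - 2 * c.p.K ^ gg c
      ≤ ∑ u, ∑ v, c.w u v * ((c.F * c.F * c.G) u u * (c.G * c.G * c.F) v v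
        + (c.F * c.F * c.G) v v * (c.G * c.G * c.F) u u) := by
  obtain ⟨e1, e2, e3, e4, e5, e6, e7⟩ := ex hK hI
  have hF := c.oF.mat
  have hG := c.oG.mat
  have L0 : 0 ≤ c.L := le_trans zero_le_one (Ctx.one_le_L hK)
  rw [sym2 c fun u v => (c.F * c.F * c.G) u u * (c.G * c.G * c.F) v v]
  have lB : Le c.p.K (∑ a ∈ c.S, √((c.G * c.F * c.F * c.G) a a) ^ 2) (tt c + 1 / 100) := by
    simp only [Real.sq_sqrt (diag4_nonneg hG hF _)]
    rw [tr_A hG hF, c22_comm]; exact lc hK hI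
  have lr : Le c.p.K (∑ a ∈ c.S, √(rr c.F a) ^ 2) c.μ := by
    simp only [Real.sq_sqrt (hF.rr_nonneg _)]
    rw [← hF.a2_eq]; exact (Ctx.le_m hK).of_le (Ctx.a2_le_m hK)
  have h1 : Le c.p.K (∑ u ∈ c.S, |(c.F * c.F * c.G) u u|) (c.μ / 2 + (tt c + 1 / 100) / 2) := by
    refine (csLe hK lr lB).of_le (sum_le_sum fun a _ => ?_)
    rw [← Real.sqrt_mul (hF.rr_nonneg a)]
    exact Real.abs_le_sqrt (sq3 hF hG a)
  have lA2 : Le c.p.K (∑ a ∈ c.S, (c.F * c.G * c.G * c.F) a a ^ 2)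
      ((4 : ℕ) * (c.τ / 4 + 1 / 100) + (c.μ + 1 / 100)) := by
    refine (((Ctx.sz_L hK).2.pow hK L0 4).mul hK (lR2 hK hI)
      (sum_nonneg fun _ _ => sq_nonneg _)).of_le ?_
    unfold R2
    rw [Finset.mul_sum]
    refine sum_le_sum fun a _ => ?_
    have := pow_le_pow_left₀ (diag4_nonneg hF hG a) (A_le hF hG (Ctx.opB_G hK) a) 2
    calc _ ≤ _ := this
      _ = _ := by ring
  have lX : Le c.p.K (∑ a ∈ c.S, (rr c.G a - 1) ^ 2) (13403 - c.μ + 1 / 100) :=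
    (Ctx.sz_TX hK).2.of_le (c.oG.X2_T (hX hK hI))
  have h2 : Le c.p.K (∑ v ∈ c.S, (c.G * c.G * c.F) v v ^ 2) (tt c + 2200 + 1 / 100) := by
    refine ((lc hK hI).add hK (csLe hK lX lA2) (by linarith) (by push_cast; linarith)).of_le ?_
    rw [← tr_A hF hG, ← Finset.sum_add_distrib]
    refine sum_le_sum fun a _ => ?_
    have := sq3 hG hF a
    linarith
  have h := (abs_le.1 (g6 hK hI (fun u => (c.F * c.F * c.G) u u) (fun v => (c.G * c.G * c.F) v v)
    h2 h1 (by linarith))).1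
  rw [trS hF (c.F * c.G) (Matrix.mul_assoc _ _ _), trS hG (c.G * c.F) (Matrix.mul_assoc _ _ _)] at h
  have c0 := hF.c22_nonneg hG
  have b1 := (hF.c21_sq_le hG).trans (mul_le_mul_of_nonneg_right (Ctx.a2_le_m hK) c0)
  have b2 := hG.c21_sq_le hF
  rw [c22_comm] at b2
  have b3 := b2.trans (mul_le_mul_of_nonneg_right (Ctx.a2_le_m (c := c.swap) hK) c0)
  have b4 : c.swap.m = c.m := rfl
  rw [b4] at b3
  nlinarith [sq_nonneg ((c.F * c.F * c.G).trace + (c.G * c.G * c.F).trace)]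

theorem part_C :
    -(4 * c.p.K ^ gg c)
      ≤ ∑ u, ∑ v, c.w u v * ((c.G * c.G * c.F * c.F) u u * (c.F * c.G) v v
        + (c.G * c.G * c.F * c.F) v v * (c.F * c.G) u u) := by
  obtain ⟨e1, e2, e3, e4, e5, e6, e7⟩ := ex hK hI
  have hF := c.oF.mat
  have hG := c.oG.mat
  rw [sym2 c fun u v => (c.G * c.G * c.F * c.F) u u * (c.F * c.G) v v]
  have h1 : Le c.p.K (∑ u ∈ c.S, |(c.G * c.G * c.F * c.F) u u|) (c.τ + 1 / 50) := by
    refine (lq hK hI).of_le (sum_le_sum fun a _ => ?_)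
    have a1 := abs_C hG hF a
    have a2 := diag4_nonneg hF hG a
    have a3 := diag4_nonneg hG hF a
    have a4 := abs_nonneg ((c.G * c.G * c.F * c.F) a a)
    unfold qq
    linarith
  have h2 : Le c.p.K (∑ v ∈ c.S, (c.F * c.G) v v ^ 2) (c.μ + 1 / 100 + 1 / 100) := by
    refine ((lR2 hK hI).add hK (lR2 (c := c.swap) hK hI) le_rfl le_rfl).of_le ?_
    show _ ≤ R2 c.S c.F + R2 c.S c.G
    unfold R2
    rw [← Finset.sum_add_distrib]
    refine sum_le_sum fun a _ => ?_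
    have h := entry_sq_le c.F c.G a a
    rw [hF.transpose, hG.transpose] at h
    have h' : (c.F * c.G) a a ^ 2 ≤ rr c.F a * rr c.G a := h
    nlinarith [sq_nonneg (rr c.F a - rr c.G a), sq_nonneg (rr c.F a), sq_nonneg (rr c.G a)]
  have h := (abs_le.1 (g6 hK hI (fun u => (c.G * c.G * c.F * c.F) u u) (fun v => (c.F * c.G) v v)
    h2 h1 (by linarith))).1
  rw [tr_C hG, c22_comm, trS hF c.G rfl] at h
  have c0 := hF.c22_nonneg hG
  have b1 : -c.p.kc c.m ≤ (c.F * c.G).trace := c.two.c11_lo hI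
  have b2 := mul_le_mul_of_nonneg_left b1 c0
  have b3 := ((Ctx.sz_kc hK).2.mul hK (lc hK hI) c0).mono hK (show _ ≤ gg c by linarith)
  unfold Le at b3
  linarith

theorem part_lin :
    ∑ u, ∑ v, c.w u v * linH c.σ c.F c.G u v ≤ 36 * c.p.K ^ gg c := by
  obtain ⟨e1, e2, e3, e4, e5, e6, e7⟩ := ex hK hI
  have hF := c.oF.mat
  have hG := c.oG.mat
  have L0 : 0 ≤ c.L := le_trans zero_le_one (Ctx.one_le_L hK)
  have c0 := hF.c22_nonneg hG
  have K0 := hK.pos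
  set M := c.F * c.G * c.G * c.F * c.F with hM
  set α : ι → ℝ := fun u => √((c.F * c.G * c.G * c.F) u u) with hα
  set β : ι → ℝ := fun v => √(((c.G * c.F * c.F)ᵀ * (c.G * c.F * c.F)) v v) with hβ
  have ent : ∀ u v, |M u v| ≤ α u * β v := M_entry hF hG
  have α0 : ∀ u, 0 ≤ α u := fun u => Real.sqrt_nonneg _
  have β0 : ∀ u, 0 ≤ β u := fun u => Real.sqrt_nonneg _
  have lL2c : Le c.p.K (c.L ^ 2 * c22 c.F c.G) (c.τ / 2 + tt c + 3 / 100) :=
    (((Ctx.sz_L hK).2.pow hK L0 2).mul hK (lc hK hI) c0).mono hK (by push_cast; linarith)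
  have lα : Le c.p.K (∑ u ∈ c.S, α u ^ 2) (tt c + 1 / 100) := by
    simp only [hα, Real.sq_sqrt (diag4_nonneg hF hG _)]
    rw [tr_A hF hG]; exact lc hK hI
  have lβ : Le c.p.K (∑ u ∈ c.S, β u ^ 2) (c.τ / 2 + tt c + 3 / 100) := by
    simp only [hβ, Real.sq_sqrt (diag_gram_nonneg _ _)]
    exact lL2c.of_le ((sumS_diag_le c.S _).trans (tr_GFF hF hG (Ctx.opB hK)))
  have ld : Le c.p.K (∑ u ∈ c.S, |M u u|) (c.τ / 4 + tt c + 1 / 50) :=
    ((csLe hK lα lβ).mono hK (by linarith)).of_le (sum_le_sum fun u _ => ent u u)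
  have d0 : 0 ≤ ∑ u ∈ c.S, |M u u| := sum_nonneg fun _ _ => abs_nonneg _
  have ld' : |∑ u ∈ c.S, M u u| ≤ ∑ u ∈ c.S, |M u u| := abs_sum_le_sum_abs _ _
  have lγ : Le c.p.K c.p.gam 600 := by
    have := Le.K_pow (K := c.p.K) 600
    exact_mod_cast this
  have γ0 : 0 ≤ c.p.gam := by unfold Par.gam; positivity
  have hσ : |c.σ| = 1 := by rcases c.sg with h | h <;> simp [h]
  have io01 : ∀ X : Matrix ι ι ℝ, |io X| ≤ 1 := fun X => by
    unfold io; split_ifs <;> simp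
  -- the off-diagonal array
  have z : ∑ u ∈ c.S, ∑ v ∈ c.S, M u v = 0 := by
    have := hF.sum_sum_mul hF (c.G * c.G * c.F)
    simpa only [hM, Matrix.mul_assoc] using this
  have g8 := c.G8 hI M z
  have p1 : |∑ u ∈ c.S, M u u| ≤ c.p.K ^ gg c := ld'.trans (ld.mono hK (by linarith))
  have p2 : c.p.gam * |∑ u ∈ c.S, ∑ v ∈ c.S, xi c.σ c.F c.G u v * M u v|
      ≤ 2 * c.p.K ^ gg c := by
    have a1 := tr_HM hF hG (Ctx.opB hK) hF (Ctx.opB hK)
    have a2 := tr_HM hF hG (Ctx.opB hK) hG (Ctx.opB_G hK)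
    have e : ∑ u ∈ c.S, ∑ v ∈ c.S, xi c.σ c.F c.G u v * M u v
        = c.σ * (io c.F * ∑ u ∈ c.S, ∑ v ∈ c.S, c.F u v * M u v
          - io c.G * ∑ u ∈ c.S, ∑ v ∈ c.S, c.G u v * M u v) := by
      simp only [Finset.mul_sum, ← Finset.sum_sub_distrib]
      exact sum_congr rfl fun u _ => sum_congr rfl fun v _ => by unfold xi; ring
    have a3 : |∑ u ∈ c.S, ∑ v ∈ c.S, xi c.σ c.F c.G u v * M u v|
        ≤ 2 * (c.L ^ 2 * c22 c.F c.G) := by
      rw [e, abs_mul, hσ, one_mul]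
      refine (abs_sub _ _).trans ?_
      rw [abs_mul, abs_mul]
      have b1 := mul_le_mul (io01 c.F) a1 (abs_nonneg _) zero_le_one
      have b2 := mul_le_mul (io01 c.G) a2 (abs_nonneg _) zero_le_one
      linarith
    have a4 := (lγ.mul hK lL2c (mul_nonneg (sq_nonneg _) c0)).mono hK
      (show _ ≤ gg c by linarith)
    have a5 := mul_le_mul_of_nonneg_left a3 γ0
    unfold Le at a4
    linarith
  have p3 : c.p.gam * |∑ u ∈ c.S, xi c.σ c.F c.G u u * M u u| ≤ 2 * c.p.K ^ gg c := by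
    have a3 : |∑ u ∈ c.S, xi c.σ c.F c.G u u * M u u| ≤ 2 * ∑ u ∈ c.S, |M u u| := by
      refine (abs_sum_le_sum_abs _ _).trans ?_
      rw [Finset.mul_sum]
      refine sum_le_sum fun u _ => ?_
      rw [abs_mul]
      refine mul_le_mul_of_nonneg_right ?_ (abs_nonneg _)
      unfold xi
      rw [abs_mul, hσ, one_mul]
      refine (abs_sub _ _).trans ?_
      rw [abs_mul, abs_mul]
      have b1 := mul_le_mul (io01 c.F) (c.oF.ent u u) (abs_nonneg _) zero_le_one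
      have b2 := mul_le_mul (io01 c.G) (c.oG.ent u u) (abs_nonneg _) zero_le_one
      linarith
    have a4 := (lγ.mul hK ld d0).mono hK (show _ ≤ gg c by linarith)
    have a5 := mul_le_mul_of_nonneg_left a3 γ0
    unfold Le at a4
    linarith
  have lαβ : Le c.p.K (√(∑ u ∈ c.S, α u ^ 2) * √(∑ u ∈ c.S, β u ^ 2))
      (c.τ / 4 + tt c + 1 / 50) :=
    ((lα.sqrt hK).mul hK (lβ.sqrt hK) (Real.sqrt_nonneg _)).mono hK (by linarith)
  have αβ0 : 0 ≤ √(∑ u ∈ c.S, α u ^ 2) * √(∑ u ∈ c.S, β u ^ 2) := by positivity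
  have p4 : 1000 * c.p.gam ^ 2 * ∑ u ∈ c.S, ∑ v ∈ c.S, (c.F u v ^ 2 + c.G u v ^ 2) * |M u v|
      ≤ c.p.K ^ gg c := by
    have rF : ∀ a, rr c.F a ≤ c.R := fun a => by
      linarith [Ctx.ro_le hK a, hG.rr_nonneg a]
    have rG : ∀ a, rr c.G a ≤ c.R := fun a => by
      linarith [Ctx.ro_le hK a, hF.rr_nonneg a]
    have k1 := hF.kernel rF α β
    have k2 := hG.kernel rG α β
    have a1 : ∑ u ∈ c.S, ∑ v ∈ c.S, (c.F u v ^ 2 + c.G u v ^ 2) * |M u v|
        ≤ 2 * (c.R * (√(∑ u ∈ c.S, α u ^ 2) * √(∑ u ∈ c.S, β u ^ 2))) := by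
      refine le_trans ?_ ((add_le_add k1 k2).trans (le_of_eq (by ring)))
      simp only [← Finset.sum_add_distrib]
      refine sum_le_sum fun u _ => sum_le_sum fun v _ => ?_
      rw [← add_mul, abs_of_nonneg (α0 u), abs_of_nonneg (β0 v)]
      exact mul_le_mul_of_nonneg_left (ent u v) (by positivity)
    have R0 : 0 ≤ c.R := (hF.rr_nonneg (Classical.choice (α := ι) ?_)).trans (rF _)
    · have a2 := (lγ.pow hK γ0 2).mul hK ((Ctx.sz_R hK).2.mul hK lαβ αβ0) (mul_nonneg R0 αβ0)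
      have a3 := ((((a2.cmul hK (C := 10) (by norm_num) le_rfl).cmul hK (C := 10) (by norm_num)
        le_rfl).cmul hK (C := 10) (by norm_num) le_rfl).cmul hK (C := 2) (by norm_num)
        (by norm_num)).mono hK (show _ ≤ gg c by push_cast; linarith)
      have a4 := mul_le_mul_of_nonneg_left a1
        (show 0 ≤ 1000 * c.p.gam ^ 2 by positivity)
      unfold Le at a3
      linarith
    · have hm : (1 : ℝ) ≤ c.S.card := le_trans (by norm_num) (Ctx.m_big hK)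
      obtain ⟨a, _⟩ : c.S.Nonempty := Finset.card_pos.1 (by exact_mod_cast hm)
      exact ⟨a⟩
  have p5 : √(c.p.K ^ 35 * c.m) * √(∑ u ∈ c.S, ∑ v ∈ c.S, M u v ^ 2) ≤ c.p.K ^ gg c := by
    have a1 : Le c.p.K (∑ u ∈ c.S, ∑ v ∈ c.S, M u v ^ 2)
        (tt c + 1 / 100 + (c.τ / 2 + tt c + 3 / 100)) := by
      refine (prodLe hK lα lβ fun _ => sq_nonneg _).of_le ?_
      refine sum_le_sum fun u _ => sum_le_sum fun v _ => ?_
      rw [← mul_pow, ← sq_abs (M u v)]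
      exact pow_le_pow_left₀ (abs_nonneg _) (ent u v) 2
    exact (((((Le.K_pow 35).mul hK (Ctx.le_m hK) c.m_nonneg').sqrt hK).mul hK (a1.sqrt hK)
      (Real.sqrt_nonneg _)).mono hK (show _ ≤ gg c by push_cast; linarith) :)
  have q1 : |∑ u, ∑ v, c.w u v * M u v| ≤ 7 * c.p.K ^ gg c := by
    have a1 := abs_le.1 (g8.trans (add_le_add p4 p5))
    have a2 := abs_le.1 p1
    have a3 := mul_le_mul_of_nonneg_left
      (le_abs_self (∑ u ∈ c.S, ∑ v ∈ c.S, xi c.σ c.F c.G u v * M u v)) γ0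
    have a3' := mul_le_mul_of_nonneg_left
      (neg_abs_le (∑ u ∈ c.S, ∑ v ∈ c.S, xi c.σ c.F c.G u v * M u v)) γ0
    have a4 := mul_le_mul_of_nonneg_left
      (le_abs_self (∑ u ∈ c.S, xi c.σ c.F c.G u u * M u u)) γ0
    have a4' := mul_le_mul_of_nonneg_left
      (neg_abs_le (∑ u ∈ c.S, xi c.σ c.F c.G u u * M u u)) γ0
    rw [mul_sub] at a1
    rw [mul_neg] at a3' a4'
    rw [abs_le]; constructor <;> linarith [a1.1, a1.2, a2.1, a2.2]
  -- the diagonal terms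
  have q2 : ∑ u, ∑ v, c.w u v * (M u u * c.F v v) ≤ 2 * c.p.K ^ gg c := by
    have lD : Le c.p.K (∑ v ∈ c.S, c.F v v ^ 2) (450 + c.ϱ + 1 / 100) :=
      (Ctx.sz_TD hK).2.of_le c.oF.D2_T
    have h := (abs_le.1 (g6 hK hI (fun u => M u u) (fun v => c.F v v) lD ld (by linarith))).2
    rw [← hF.t1_eq] at h
    have a1 := (ld.mul hK (Ctx.le_t hK) (abs_nonneg _)).mono hK (show _ ≤ gg c by linarith)
    have a2 : (∑ u ∈ c.S, M u u) * t1 c.F ≤ (∑ u ∈ c.S, |M u u|) * |t1 c.F| := by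
      refine (le_abs_self _).trans ?_
      rw [abs_mul]
      exact mul_le_mul_of_nonneg_right ld' (abs_nonneg _)
    unfold Le at a1
    linarith
  have e : ∑ u, ∑ v, c.w u v * linH c.σ c.F c.G u v
      = 2 * c.σ * ∑ u, ∑ v, c.w u v * (M u v + M v u)
        + 2 * ∑ u, ∑ v, c.w u v * (M u u * c.F v v + M v v * c.F u u) := by
    simp only [Finset.mul_sum, ← Finset.sum_add_distrib]
    exact sum_congr rfl fun u _ => sum_congr rfl fun v _ => by unfold linH; ring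
  rw [e, sym2 c M, sym2 c fun u v => M u u * c.F v v]
  have q3 : c.σ * ∑ u, ∑ v, c.w u v * M u v ≤ 7 * c.p.K ^ gg c := by
    refine (le_abs_self _).trans ?_
    rw [abs_mul, hσ, one_mul]; exact q1
  linarith

theorem drift : ∑ u, ∑ v, c.w u v * (-rem4 c.F c.G u v + quad4 c.σ (-c.σ) c.F c.G u v
    + lin4 c.σ (-c.σ) c.F c.G u v) ≤ 90 * c.p.K ^ gg c := by
  have hF := c.oF.mat
  have hG := c.oG.mat
  have h1 := part_rem hK hI
  have h2 := part_A hK hI
  have h3 : ∑ u, ∑ v, c.w u v * ((c.G * c.F * c.F * c.G) u u * rr c.G v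
      + (c.G * c.F * c.F * c.G) v v * rr c.G u) ≤ 2 * (c.m * c22 c.G c.F) + 2 * c.p.K ^ gg c :=
    part_A (c := c.swap) hK hI
  rw [c22_comm] at h3
  have h4 := part_B hK hI
  have h5 := part_C hK hI
  have h6 := part_lin hK hI
  have h7 : ∑ u, ∑ v, c.w u v * linH (-c.σ) c.G c.F u v ≤ 36 * c.p.K ^ gg c :=
    part_lin (c := c.swap) hK hI
  have hσ : c.σ * c.σ = 1 := by rcases c.sg with h | h <;> simp [h]
  have e : ∑ u, ∑ v, c.w u v * (-rem4 c.F c.G u v + quad4 c.σ (-c.σ) c.F c.G u v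
      + lin4 c.σ (-c.σ) c.F c.G u v)
      = -(∑ u, ∑ v, c.w u v * rem4 c.F c.G u v)
        + ∑ u, ∑ v, c.w u v * ((c.F * c.G * c.G * c.F) u u * rr c.F v
          + (c.F * c.G * c.G * c.F) v v * rr c.F u)
        + ∑ u, ∑ v, c.w u v * ((c.G * c.F * c.F * c.G) u u * rr c.G v
          + (c.G * c.F * c.F * c.G) v v * rr c.G u)
        - 2 * ∑ u, ∑ v, c.w u v * ((c.F * c.F * c.G) u u * (c.G * c.G * c.F) v v
          + (c.F * c.F * c.G) v v * (c.G * c.G * c.F) u u)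
        - 2 * ∑ u, ∑ v, c.w u v * ((c.G * c.G * c.F * c.F) u u * (c.F * c.G) v v
          + (c.G * c.G * c.F * c.F) v v * (c.F * c.G) u u)
        + ∑ u, ∑ v, c.w u v * linH c.σ c.F c.G u v
        + ∑ u, ∑ v, c.w u v * linH (-c.σ) c.G c.F u v := by
    simp only [Finset.mul_sum, ← Finset.sum_add_distrib, ← Finset.sum_sub_distrib,
      ← Finset.sum_neg_distrib]
    refine sum_congr rfl fun u _ => sum_congr rfl fun v _ => ?_
    unfold quad4 lin4 linH
    rw [M_swap hF hG u v, M_swap hF hG v u, M_swap hF hG u u, M_swap hF hG v v]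
    have e2 : 2 * c.σ * -c.σ = -2 := by linarith
    rw [e2]; ring
  rw [e]
  linarith
end ctx

end T4c

open T4c in
theorem tr22 : TrTwo (fun _ _ _ p S F G => p22 p S F G) := by
  obtain ⟨C, hC0, hC⟩ := pt4
  obtain ⟨K1, hK1⟩ := exists_const C (1 / 100) (by norm_num)
  refine ⟨K1, fun ι _ _ c hK hI _ => ?_⟩
  obtain ⟨hK, hCK⟩ := hK1 _ hK
  have K0 := hK.pos
  have mB : (1000 : ℝ) ≤ c.m := le_trans (by norm_num) (Ctx.m_big hK)
  have hT := (Ctx.sz_T22 hK).1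
  have T0 : 0 < c.p.T22 c.m := hT.pos hK
  have hTT : c.p.T22 c.m ≤ c.p.T22 (c.m - 2) := by
    unfold Par.T22
    have : c.p.N ^ 2 / (c.m * c.p.K ^ 140) ≤ c.p.N ^ 2 / ((c.m - 2) * c.p.K ^ 140) :=
      div_le_div_of_nonneg_left (sq_nonneg _) (mul_pos (by linarith) (by positivity))
        (mul_le_mul_of_nonneg_right (by linarith) (by positivity))
    linarith
  have e1 : ∑ u, ∑ v, c.w u v * p22 c.p (rem c.S u v) (c.F' u v) (c.G' u v)
      ≤ ∑ u, ∑ v, c.w u v * ((c22 c.F c.G + (-rem4 c.F c.G u v + quad4 c.σ (-c.σ) c.F c.G u v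
        + lin4 c.σ (-c.σ) c.F c.G u v) + C * err4 c.L c.R c.S c.F c.G u v) / c.p.T22 c.m) := by
    refine c.sum_le_sum' fun u v h => ?_
    unfold p22
    rw [Ctx.card_rem' hK h]
    have l1 := Ctx.loc hK h
    have l2 := Ctx.loc_G hK h
    have c0 : 0 ≤ c22 (c.F' u v) (c.G' u v) := l1.mat_upd.c22_nonneg l2.mat_upd
    have h1 := hC ι c.σ (-c.σ) c.L c.R c.S c.F c.G u v l1 l2 (Ctx.one_le_L hK) (Ctx.opB hK)
      (Ctx.opB_G hK) (Ctx.ro_le' hK (Or.inr rfl) u) (Ctx.ro_le' hK (Or.inr rfl) v)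
    refine (div_le_div_of_nonneg_left c0 T0 hTT).trans ?_
    refine div_le_div_of_nonneg_right ?_ T0.le
    unfold Ctx.F' Ctx.G'
    linarith
  refine e1.trans ?_
  have e2 : ∑ u, ∑ v, c.w u v * ((c22 c.F c.G + (-rem4 c.F c.G u v + quad4 c.σ (-c.σ) c.F c.G u v
        + lin4 c.σ (-c.σ) c.F c.G u v) + C * err4 c.L c.R c.S c.F c.G u v) / c.p.T22 c.m)
      = (c.Ω * c22 c.F c.G + ∑ u, ∑ v, c.w u v * (-rem4 c.F c.G u v
          + quad4 c.σ (-c.σ) c.F c.G u v + lin4 c.σ (-c.σ) c.F c.G u v)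
        + (∑ u, ∑ v, c.w u v * err4 c.L c.R c.S c.F c.G u v) * C) / c.p.T22 c.m := by
    simp only [Ctx.Ω, Finset.sum_mul, ← Finset.sum_add_distrib, Finset.sum_div]
    exact sum_congr rfl fun u _ => sum_congr rfl fun v _ => by ring
  have h1 := drift hK hI
  have h2 := ((Ctx.err4_sum_I hK (Or.inr rfl) hI).mul hK hCK hC0).mono hK
    (show _ ≤ gg c by unfold gg tt; linarith)
  have h3 : Le c.p.K (91 * c.p.K ^ gg c) (gg c + 1 / 50) := E4.hund hK (by
    have := Real.rpow_pos_of_pos K0 (gg c); linarith)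
  have h4 := h3.le_of_ge hK ((Ctx.ge_Ωη hK).mul hK hT) (by unfold gg tt; linarith)
  unfold Le at h2
  rw [e2, div_le_iff₀ T0]
  have e3 : c.Ω * (p22 c.p c.S c.F c.G + c.η) * c.p.T22 c.m
      = c.Ω * c22 c.F c.G + c.Ω * c.η * c.p.T22 c.m := by
    have : p22 c.p c.S c.F c.G = c22 c.F c.G / c.p.T22 c.m := rfl
    rw [this]; field_simp
  rw [e3]
  linarith

end Crest.Agent.R62
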