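import Crest.Agent.R62.Der

set_option autoImplicit false

open Finset Matrix

namespace Crest.Agent.R62

variable {ι V : Type} [Fintype ι] [DecidableEq ι] [Fintype V] [DecidableEq V]

namespace TrBAux

/-- indicator of a same-vertex pair -/
noncomputable def sm (vtx : ι → V) (a b : ι) : ℝ := if a ≠ b ∧ vtx a = vtx b then 1 else 0
/-- indicator of an adjacent pair -/
noncomputable def ad (vtx : ι → V) (A : V → V → ℕ) (a b : ι) : ℝ :=
  if A (vtx a) (vtx b) ≠ 0 then 1 else 0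
/-- weight of an ordered pair -/
noncomputable def bb (k : ℝ) (vtx : ι → V) (A : V → V → ℕ) (a b : ι) : ℝ :=
  k * sm vtx a b + ad vtx A a b

omit [Fintype ι] [Fintype V] in
theorem sm_nonneg (vtx : ι → V) (a b : ι) : 0 ≤ sm vtx a b := by
  unfold sm; split_ifs <;> norm_num
omit [Fintype ι] [Fintype V] [DecidableEq ι] [DecidableEq V] in
theorem ad_nonneg (vtx : ι → V) (A : V → V → ℕ) (a b : ι) : 0 ≤ ad vtx A a b := by
  unfold ad; split_ifs <;> norm_num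
omit [Fintype ι] [Fintype V] in
theorem bb_nonneg {k : ℝ} (hk : 0 ≤ k) (vtx : ι → V) (A : V → V → ℕ) (a b : ι) :
    0 ≤ bb k vtx A a b :=
  add_nonneg (mul_nonneg hk (sm_nonneg _ _ _)) (ad_nonneg _ _ _ _)

omit [Fintype ι] [Fintype V] in
theorem same_eq (vtx : ι → V) (S : Finset ι) :
    (same vtx S : ℝ) = ∑ a ∈ S, ∑ b ∈ S, sm vtx a b := by
  unfold same sm
  rw [card_filter, ← sum_product']
  push_cast
  rfl

omit [Fintype ι] [Fintype V] [DecidableEq ι] [DecidableEq V] in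
theorem adjc_eq (vtx : ι → V) (S : Finset ι) (A : V → V → ℕ) :
    (adjc vtx S A : ℝ) = ∑ a ∈ S, ∑ b ∈ S, ad vtx A a b := by
  unfold adjc ad
  rw [card_filter, ← sum_product']
  push_cast
  rfl

omit [Fintype ι] [Fintype V] in
theorem Q_eq (k : ℝ) (vtx : ι → V) (S : Finset ι) (A : V → V → ℕ) :
    k * same vtx S + adjc vtx S A = ∑ a ∈ S, ∑ b ∈ S, bb k vtx A a b := by
  rw [same_eq, adjc_eq, mul_sum, ← sum_add_distrib]
  refine sum_congr rfl fun a _ => ?_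
  rw [mul_sum, ← sum_add_distrib]
  rfl

omit [Fintype ι] in
theorem sum_rem {S : Finset ι} {u v : ι} (h : u ≠ v) (hu : u ∈ S) (hv : v ∈ S) (g : ι → ℝ) :
    ∑ a ∈ rem S u v, g a = ∑ a ∈ S, g a - g u - g v := by
  have h1 : v ∈ S.erase u := mem_erase.2 ⟨h.symm, hv⟩
  unfold rem
  rw [sum_erase_eq_sub h1, sum_erase_eq_sub hu]

omit [Fintype ι] in
theorem sum_sum_rem {S : Finset ι} {u v : ι} (h : u ≠ v) (hu : u ∈ S) (hv : v ∈ S)
    (B : ι → ι → ℝ) (hs : ∀ a b, B a b = B b a) (hd : ∀ a, B a a = 0) :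
    ∑ a ∈ rem S u v, ∑ b ∈ rem S u v, B a b
      = ∑ a ∈ S, ∑ b ∈ S, B a b - 2 * ∑ b ∈ S, B u b - 2 * ∑ b ∈ S, B v b + 2 * B u v := by
  rw [sum_rem h hu hv]
  simp only [sum_rem h hu hv]
  rw [sum_sub_distrib, sum_sub_distrib]
  have e1 : ∑ a ∈ S, B a u = ∑ b ∈ S, B u b := sum_congr rfl fun a _ => hs _ _
  have e2 : ∑ a ∈ S, B a v = ∑ b ∈ S, B v b := sum_congr rfl fun a _ => hs _ _
  rw [e1, e2, hd u, hd v, hs v u]
  ring

omit [Fintype ι] [Fintype V] in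
theorem bb_child (k : ℝ) (vtx : ι → V) (A : V → V → ℕ) {S : Finset ι} {u v a b : ι}
    (ha : a ∈ rem S u v) (hb : b ∈ rem S u v) :
    bb k vtx (addE A (vtx u) (vtx v)) a b
      ≤ bb k vtx A a b + sm vtx u a * sm vtx v b + sm vtx v a * sm vtx u b := by
  simp only [rem, mem_erase] at ha hb
  have h1 := mul_nonneg (sm_nonneg vtx u a) (sm_nonneg vtx v b)
  have h2 := mul_nonneg (sm_nonneg vtx v a) (sm_nonneg vtx u b)
  have h0 := ad_nonneg vtx A a b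
  unfold bb
  suffices h : ad vtx (addE A (vtx u) (vtx v)) a b
      ≤ ad vtx A a b + sm vtx u a * sm vtx v b + sm vtx v a * sm vtx u b by linarith
  by_cases c1 : vtx a = vtx u ∧ vtx b = vtx v
  · have e1 : sm vtx u a = 1 := if_pos ⟨ha.2.1.symm, c1.1.symm⟩
    have e2 : sm vtx v b = 1 := if_pos ⟨hb.1.symm, c1.2.symm⟩
    have : ad vtx (addE A (vtx u) (vtx v)) a b ≤ 1 := by unfold ad; split_ifs <;> norm_num
    rw [e1, e2]; linarith
  by_cases c2 : vtx a = vtx v ∧ vtx b = vtx u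
  · have e1 : sm vtx v a = 1 := if_pos ⟨ha.1.symm, c2.1.symm⟩
    have e2 : sm vtx u b = 1 := if_pos ⟨hb.2.1.symm, c2.2.symm⟩
    have : ad vtx (addE A (vtx u) (vtx v)) a b ≤ 1 := by unfold ad; split_ifs <;> norm_num
    rw [e1, e2]; linarith
  have e : ad vtx (addE A (vtx u) (vtx v)) a b = ad vtx A a b := by
    unfold ad addE
    rw [if_neg c1, if_neg c2]
    rfl
  rw [e]; linarith

omit [Fintype ι] [Fintype V] in
theorem Q_child {k : ℝ} (vtx : ι → V) (A : V → V → ℕ) (hA : ∀ i j, A i j = A j i)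
    (hA0 : ∀ i, A i i = 0) {S : Finset ι} {u v : ι} (h : u ≠ v) (hu : u ∈ S) (hv : v ∈ S) :
    ∑ a ∈ rem S u v, ∑ b ∈ rem S u v, bb k vtx (addE A (vtx u) (vtx v)) a b
      ≤ ∑ a ∈ S, ∑ b ∈ S, bb k vtx A a b - 2 * ∑ b ∈ S, bb k vtx A u b
        - 2 * ∑ b ∈ S, bb k vtx A v b
        + (2 * bb k vtx A u v + 2 * ((∑ a ∈ S, sm vtx u a) * ∑ b ∈ S, sm vtx v b)) := by
  have hs : ∀ a b, bb k vtx A a b = bb k vtx A b a := by
    intro a b
    unfold bb sm ad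
    rw [hA (vtx a)]
    simp only [ne_comm (a := a) (b := b), eq_comm (a := vtx a) (b := vtx b)]
  have hd : ∀ a, bb k vtx A a a = 0 := by
    intro a
    simp [bb, sm, ad, hA0]
  have hsub : rem S u v ⊆ S := (erase_subset _ _).trans (erase_subset _ _)
  have hle : ∀ x, ∑ a ∈ rem S u v, sm vtx x a ≤ ∑ a ∈ S, sm vtx x a := fun x =>
    sum_le_sum_of_subset_of_nonneg hsub fun a _ _ => sm_nonneg _ _ _
  have hnn : ∀ (T : Finset ι) x, 0 ≤ ∑ a ∈ T, sm vtx x a := fun T x =>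
    sum_nonneg fun a _ => sm_nonneg _ _ _
  have hp := mul_le_mul (hle u) (hle v) (hnn _ v) (hnn _ u)
  calc ∑ a ∈ rem S u v, ∑ b ∈ rem S u v, bb k vtx (addE A (vtx u) (vtx v)) a b
      ≤ ∑ a ∈ rem S u v, ∑ b ∈ rem S u v,
          (bb k vtx A a b + sm vtx u a * sm vtx v b + sm vtx v a * sm vtx u b) :=
        sum_le_sum fun a ha => sum_le_sum fun b hb => bb_child k vtx A ha hb
    _ = ∑ a ∈ rem S u v, ∑ b ∈ rem S u v, bb k vtx A a b
          + (∑ a ∈ rem S u v, sm vtx u a) * (∑ b ∈ rem S u v, sm vtx v b)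
          + (∑ a ∈ rem S u v, sm vtx v a) * (∑ b ∈ rem S u v, sm vtx u b) := by
        rw [sum_mul_sum, sum_mul_sum, ← sum_add_distrib, ← sum_add_distrib]
        refine sum_congr rfl fun a _ => ?_
        rw [← sum_add_distrib, ← sum_add_distrib]
    _ ≤ _ := by
        rw [sum_sum_rem h hu hv _ hs hd]
        nlinarith [hp]

omit [Fintype ι] in
theorem row_le {d : ℕ} {vtx : ι → V} {S : Finset ι} {A : V → V → ℕ} (hG : Gr d vtx S A) (u : ι) :
    ∑ a ∈ S, sm vtx u a ≤ d := by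
  have h1 : fr vtx S (vtx u) ≤ d := by
    have := hG.deg (vtx u); omega
  have h2 : ∑ a ∈ S, sm vtx u a ≤ (fr vtx S (vtx u) : ℝ) := by
    unfold fr
    rw [card_filter]
    push_cast
    refine sum_le_sum fun a _ => ?_
    unfold sm
    by_cases h : u ≠ a ∧ vtx u = vtx a
    · rw [if_pos h, if_pos h.2.symm]
    · rw [if_neg h]; split_ifs <;> norm_num
  exact h2.trans (by exact_mod_cast h1)

/-- the final arithmetic -/
theorem arith {Ω Q T m ε η s K d X : ℝ} (hm : 4 ≤ m) (hT : 0 < T) (hQ0 : 0 ≤ Q) (hQ : Q ≤ T)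
    (hΩ1 : Ω ≤ (1 + ε) * m ^ 2) (hε : 0 ≤ ε) (hK : 0 < K)
    (hΩη : m / (2 * K) ≤ Ω * η) (hs : s ^ 2 ≤ d * m * (T / K ^ 4))
    (hsm : 8 * ε * m + 11 / 5 + 11 / 5 * (d * m / K ^ 4) ≤ m / (8 * K))
    (hX : X ≤ Ω * Q - 4 * ((1 - ε) * m * Q) + 11 / 10 * (2 * Q + 2 * s ^ 2)) :
    X / (T * ((m - 2) ^ 2 / m ^ 2)) ≤ Ω * (Q / T + η) := by
  have hm0 : 0 < m := by linarith
  have hr : (1 : ℝ) / 4 ≤ (m - 2) ^ 2 / m ^ 2 := by
    rw [div_le_div_iff₀ (by norm_num) (by positivity)]; nlinarith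
  have hr0 : 0 < (m - 2) ^ 2 / m ^ 2 := by linarith
  rw [div_le_iff₀ (mul_pos hT hr0)]
  have e1 : Ω * (Q / T + η) * (T * ((m - 2) ^ 2 / m ^ 2))
      = Ω * Q - Ω / m ^ 2 * (4 * m - 4) * Q + Ω * η * T * ((m - 2) ^ 2 / m ^ 2) := by
    field_simp
    ring
  rw [e1]
  have h1 : Ω / m ^ 2 ≤ 1 + ε := by rw [div_le_iff₀ (by positivity)]; exact hΩ1
  have h2 : Ω / m ^ 2 * (4 * m - 4) * Q ≤ (1 + ε) * (4 * m) * Q := by
    apply mul_le_mul_of_nonneg_right _ hQ0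
    calc Ω / m ^ 2 * (4 * m - 4) ≤ (1 + ε) * (4 * m - 4) :=
          mul_le_mul_of_nonneg_right h1 (by linarith)
      _ ≤ (1 + ε) * (4 * m) := mul_le_mul_of_nonneg_left (by linarith) (by linarith)
  have h3 : m / (2 * K) * T * (1 / 4) ≤ Ω * η * T * ((m - 2) ^ 2 / m ^ 2) :=
    mul_le_mul (mul_le_mul_of_nonneg_right hΩη hT.le) hr (by norm_num)
      (mul_nonneg (le_trans (by positivity) hΩη) hT.le)
  have e3 : m / (2 * K) * T * (1 / 4) = m / (8 * K) * T := by field_simp; ring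
  have h4 := mul_le_mul_of_nonneg_right hsm hT.le
  have e4 : d * m * (T / K ^ 4) = d * m / K ^ 4 * T := by ring
  have h5 : (8 * ε * m + 11 / 5) * Q ≤ (8 * ε * m + 11 / 5) * T :=
    mul_le_mul_of_nonneg_left hQ (by positivity)
  nlinarith [h2, h3, h4, h5, hs, hX]

end TrBAux

open TrBAux in
/-- Drift of the count of bad pairs. -/
theorem trB (d : ℕ) : ∃ K1 : ℝ, ∀ (ι V : Type) [Fintype ι] [DecidableEq ι] [Fintype V]
    [DecidableEq V] (vtx : ι → V) (A : V → V → ℕ) (c : Ctx ι), K1 ≤ c.p.K → Gr d vtx c.S A →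
    pB c.p vtx c.S A ≤ 1 →
    ∑ u, ∑ v, c.w u v * pB c.p vtx (rem c.S u v) (addE A (vtx u) (vtx v))
      ≤ c.Ω * (pB c.p vtx c.S A + c.η) := by
  refine ⟨10 ^ 100 + 100 * d, fun ι V _ _ _ _ vtx A c hK1 hG hB => ?_⟩
  have hd0 : (0 : ℝ) ≤ d := Nat.cast_nonneg d
  have hK : Big c.p.K := le_trans (by linarith) hK1
  have hK0 := hK.pos
  have hK' := hK.one_lt
  have hm0 := Ctx.m_pos hK
  have hN0 := Ctx.N_pos hK
  have hmb := Ctx.m_big hK
  have hm4 : (4 : ℝ) ≤ c.m := le_trans (by norm_num) hmb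
  set k : ℝ := c.p.K ^ 4 with hk
  have hk0 : 0 < k := pow_pos hK0 4
  set Q : ℝ := ∑ a ∈ c.S, ∑ b ∈ c.S, bb k vtx A a b with hQdef
  set T : ℝ := c.p.TB c.m with hTdef
  have hT : 0 < T := by rw [hTdef]; unfold Par.TB; positivity
  have hpB : pB c.p vtx c.S A = Q / T := by
    unfold pB; rw [Q_eq]; rfl
  have hQ0 : 0 ≤ Q := sum_nonneg fun a _ => sum_nonneg fun b _ => bb_nonneg hk0.le _ _ _ _
  have hQ : Q ≤ T := by rw [hpB, div_le_one hT] at hB; exact hB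
  set s : ℝ := ∑ a ∈ c.S, ∑ b ∈ c.S, sm vtx a b with hsdef
  have hs0 : 0 ≤ s := sum_nonneg fun a _ => sum_nonneg fun b _ => sm_nonneg _ _ _
  have hs1 : s ≤ d * c.m := by
    calc s ≤ ∑ a ∈ c.S, (d : ℝ) := sum_le_sum fun a _ => row_le hG a
      _ = d * c.m := by rw [sum_const, nsmul_eq_mul, mul_comm]; rfl
  have hs2 : s ≤ T / c.p.K ^ 4 := by
    rw [le_div_iff₀ hk0]
    have h1 := Q_eq k vtx c.S A
    rw [same_eq, ← hsdef, ← hQdef] at h1
    have h2 : (0 : ℝ) ≤ adjc vtx c.S A := Nat.cast_nonneg _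
    nlinarith
  have hs : s ^ 2 ≤ d * c.m * (T / c.p.K ^ 4) := by
    rw [sq]; exact mul_le_mul hs1 hs2 hs0 (by positivity)
  set ε := c.p.eps c.m with hε
  have hε0 : 0 ≤ ε := c.eps_nonneg'
  set β : ι → ℝ := fun u => ∑ b ∈ c.S, bb k vtx A u b with hβ
  set f : ι → ℝ := fun u => ∑ b ∈ c.S, sm vtx u b with hf
  have hβ0 : ∀ u, 0 ≤ β u := fun u => sum_nonneg fun b _ => bb_nonneg hk0.le _ _ _ _
  have hf0 : ∀ u, 0 ≤ f u := fun u => sum_nonneg fun b _ => sm_nonneg _ _ _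
  -- child values
  have hch : ∀ u v, c.w u v ≠ 0 → pB c.p vtx (rem c.S u v) (addE A (vtx u) (vtx v))
      ≤ (Q - 2 * β u - 2 * β v + (2 * bb k vtx A u v + 2 * (f u * f v)))
        / (T * ((c.m - 2) ^ 2 / c.m ^ 2)) := by
    intro u v hw
    obtain ⟨h1, h2, h3, -⟩ := c.wt.supp u v hw
    have e : c.p.TB ((rem c.S u v).card : ℝ) = T * ((c.m - 2) ^ 2 / c.m ^ 2) := by
      rw [Ctx.card_rem' hK hw, hTdef]; unfold Par.TB; field_simp
    have hr0 : 0 < (c.m - 2) ^ 2 / c.m ^ 2 := by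
      have : 0 < c.m - 2 := by linarith
      positivity
    unfold pB
    rw [e, Q_eq]
    exact div_le_div_of_nonneg_right (Q_child vtx A hG.symm hG.diag h1 h2 h3)
      (mul_pos hT hr0).le
  refine (c.sum_le_sum' hch).trans ?_
  have eX : ∑ u, ∑ v, c.w u v * ((Q - 2 * β u - 2 * β v + (2 * bb k vtx A u v + 2 * (f u * f v)))
        / (T * ((c.m - 2) ^ 2 / c.m ^ 2)))
      = (c.Ω * Q - 2 * ∑ u, ∑ v, c.w u v * β u - 2 * ∑ u, ∑ v, c.w u v * β v
          + ∑ u, ∑ v, c.w u v * (2 * bb k vtx A u v + 2 * (f u * f v)))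
        / (T * ((c.m - 2) ^ 2 / c.m ^ 2)) := by
    unfold Ctx.Ω
    simp only [sum_mul, mul_sum, ← sum_sub_distrib, ← sum_add_distrib, sum_div]
    refine sum_congr rfl fun u _ => sum_congr rfl fun v _ => ?_
    ring
  rw [eX, hpB]
  have hβs : (1 - ε) * c.m * Q ≤ ∑ u, ∑ v, c.w u v * β u := by
    have h := (abs_le.1 (c.G6one β)).1
    have e1 : ∑ u ∈ c.S, |β u| = Q := sum_congr rfl fun u _ => abs_of_nonneg (hβ0 u)
    have e2 : ∑ u ∈ c.S, β u = Q := rfl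
    rw [e1, e2] at h
    linarith
  have hβs' : ∑ u, ∑ v, c.w u v * β v = ∑ u, ∑ v, c.w u v * β u :=
    c.sum_comm' (fun _ v => β v)
  have hcr : ∑ u, ∑ v, c.w u v * (2 * bb k vtx A u v + 2 * (f u * f v))
      ≤ 11 / 10 * (2 * Q + 2 * s ^ 2) := by
    have h := c.sum_le_crude (X := fun u v => 2 * bb k vtx A u v + 2 * (f u * f v))
      (fun _ _ _ => le_rfl) (fun u _ v _ => by
        have := bb_nonneg hk0.le vtx A u v
        have := mul_nonneg (hf0 u) (hf0 v)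
        positivity)
    have e : ∑ u ∈ c.S, ∑ v ∈ c.S, (2 * bb k vtx A u v + 2 * (f u * f v)) = 2 * Q + 2 * s ^ 2 := by
      have e1 : s ^ 2 = ∑ u ∈ c.S, ∑ v ∈ c.S, f u * f v := by
        rw [sq, ← sum_mul_sum]
      have e2 : Q = ∑ u ∈ c.S, ∑ v ∈ c.S, bb k vtx A u v := rfl
      rw [e1, e2]
      simp only [mul_sum, ← sum_add_distrib]
    rwa [e] at h
  have hΩ1 : c.Ω ≤ (1 + ε) * c.m ^ 2 := by
    have := (abs_le.1 c.G4).2
    linarith
  have hsq : √c.p.K ≤ c.p.K := by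
    rw [Real.sqrt_le_left hK0.le]; nlinarith
  have hsq0 : 0 < √c.p.K := Real.sqrt_pos.2 hK0
  have hΩη : c.m / (2 * c.p.K) ≤ c.Ω * c.η := by
    have h1 := Ctx.Ω_lo hK
    have h2 : 1 / (c.p.K * c.m) ≤ c.η :=
      one_div_le_one_div_of_le (by positivity) (mul_le_mul_of_nonneg_right hsq hm0.le)
    calc c.m / (2 * c.p.K) = c.m ^ 2 / 2 * (1 / (c.p.K * c.m)) := by field_simp
      _ ≤ c.Ω * c.η := mul_le_mul h1 h2 (by positivity) c.Ω_nonneg'
  have hεk : ε ≤ 1 / k := by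
    rw [hε]; unfold Par.eps
    split_ifs
    · exact one_div_le_one_div_of_le hk0 (pow_le_pow_right₀ hK'.le (by norm_num))
    · exact one_div_le_one_div_of_le hk0 (pow_le_pow_right₀ hK'.le (by norm_num))
  have hmk : k ≤ c.m :=
    le_trans (pow_le_pow_right₀ hK'.le (by norm_num)) (Ctx.live' hK).le
  have hsm : 8 * ε * c.m + 11 / 5 + 11 / 5 * (d * c.m / c.p.K ^ 4) ≤ c.m / (8 * c.p.K) := by
    have h1 : 8 * ε * c.m ≤ 8 * (c.m / k) := by
      have := mul_le_mul_of_nonneg_right hεk hm0.le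
      have e : 1 / k * c.m = c.m / k := by ring
      linarith
    have h2 : 1 ≤ c.m / k := by rw [le_div_iff₀ hk0]; linarith
    have e3 : d * c.m / c.p.K ^ 4 = d * (c.m / k) := by rw [hk]; ring
    have h4 : (11 + 3 * d) * (c.m / k) ≤ c.m / (8 * c.p.K) := by
      have h5 : (11 + 3 * d) * (8 * c.p.K) ≤ k := by
        have h6 : (11 + 3 * (d : ℝ)) * 8 ≤ c.p.K := by
          have : (88 : ℝ) ≤ 10 ^ 100 := by norm_num
          linarith
        have h7 : c.p.K ≤ c.p.K ^ 3 := le_self_pow₀ hK'.le (by norm_num)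
        calc (11 + 3 * d) * (8 * c.p.K) = (11 + 3 * (d : ℝ)) * 8 * c.p.K := by ring
          _ ≤ c.p.K ^ 3 * c.p.K := mul_le_mul_of_nonneg_right (h6.trans h7) hK0.le
          _ = k := by rw [hk]; ring
      rw [← mul_div_assoc, div_le_div_iff₀ hk0 (by positivity)]
      nlinarith
    rw [e3]
    have h8 : 0 ≤ (d : ℝ) * (c.m / k) := by positivity
    nlinarith
  refine arith hm4 hT hQ0 hQ hΩ1 hε0 hK0 hΩη hs hsm ?_
  rw [hβs']
  linarith

end Crest.Agent.R62
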