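import Crest.Agent.R62.Upd
import Crest.Agent.R62.GenM

set_option autoImplicit false

open Finset Matrix

namespace Crest.Agent.R62

variable {ι V : Type} [Fintype ι] [DecidableEq ι] [Fintype V] [DecidableEq V]

namespace PtTX

theorem abs_mul_le {a b A B : ℝ} (ha : |a| ≤ A) (hb : |b| ≤ B) : |a * b| ≤ A * B := by
  rw [abs_mul]; exact mul_le_mul ha hb (abs_nonneg _) ((abs_nonneg _).trans ha)

theorem amgm {o r s a b : ℝ} (hr : 0 ≤ r) (hs : 0 ≤ s) (h : o ^ 2 ≤ r * s) :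
    2 * (|o| * (a * b)) ≤ r * a ^ 2 + s * b ^ 2 := by
  have h0 : 0 ≤ r * a ^ 2 + s * b ^ 2 := by positivity
  refine le_trans (le_abs_self _) (abs_le_of_sq_le_sq ?_ h0)
  have h1 : o ^ 2 * (a * b) ^ 2 ≤ r * s * (a * b) ^ 2 :=
    mul_le_mul_of_nonneg_right h (sq_nonneg _)
  have h2 : (2 * (|o| * (a * b))) ^ 2 = 4 * (o ^ 2 * (a * b) ^ 2) := by
    rw [mul_pow, mul_pow, sq_abs]; ring
  rw [h2]
  nlinarith [sq_nonneg (r * a ^ 2 - s * b ^ 2)]

/-- scalar form of the trace estimate -/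
theorem scalT {σ e x y f o r s ψ w : ℝ} (hσ : |σ| = 1) (he0 : 0 ≤ e) (he : e ≤ 1 / 1000)
    (hx : |x| ≤ 1 / 1000) (hy : |y| ≤ 1 / 1000) (hr : 0 ≤ r) (hs : 0 ≤ s) (ho : o ^ 2 ≤ r * s)
    (h1 : |ψ - 1| ≤ 2002 / 1000 * (|f| + e) + (|x| + e) * (|y| + e))
    (h2 : |w - σ * ψ| ≤ 1002 / 1000 * (|f| + e) + (|x| + e) * (|y| + e)) :
    |-((y * (r - 1) + x * (s - 1)) * (ψ - 1)) + 2 * (o * (w - σ * ψ)) + σ * (e * (r + s))
        + e * ((x + σ * e) + (y + σ * e)) - 2 * (e * (f + σ * e))|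
      ≤ 10 * ((r + s) * e + f ^ 2 * ((1 + r) + (1 + s)) + |f| * |o|
        + (|x| + e) ^ 2 * (1 + s) + (|y| + e) ^ 2 * (1 + r)) := by
  have key : ∀ t : ℝ, |t + σ * e| ≤ |t| + e := fun t =>
    (abs_add_le _ _).trans (by rw [abs_mul, hσ, one_mul, abs_of_nonneg he0])
  have hx0 := abs_nonneg x
  have hy0 := abs_nonneg y
  have hf0 := abs_nonneg f
  have ho0 := abs_nonneg o
  set p := |x| + e with hp
  set q := |y| + e with hq
  set g := |f| with hg
  have hg2 : f ^ 2 = g ^ 2 := (sq_abs f).symm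
  have hp0 : 0 ≤ p := by positivity
  have hq0 : 0 ≤ q := by positivity
  have hep : e ≤ p := by linarith
  have heq : e ≤ q := by linarith
  have hp1 : p ≤ 1 := by linarith
  have hq1 : q ≤ 1 := by linarith
  have hr1 : |r - 1| ≤ 1 + r := by rw [abs_le]; constructor <;> linarith
  have hs1 : |s - 1| ≤ 1 + s := by rw [abs_le]; constructor <;> linarith
  have a1 : |y * (r - 1)| ≤ q * (1 + r) := abs_mul_le (by linarith) hr1
  have a2 : |x * (s - 1)| ≤ p * (1 + s) := abs_mul_le (by linarith) hs1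
  have a3 : |y * (r - 1) + x * (s - 1)| ≤ q * (1 + r) + p * (1 + s) :=
    (abs_add_le _ _).trans (add_le_add a1 a2)
  have b1 := abs_mul_le a3 h1
  have b2 := abs_mul_le (le_refl |o|) h2
  have b3 : |σ * (e * (r + s))| ≤ e * (r + s) := by
    rw [abs_mul, hσ, one_mul, abs_of_nonneg (by positivity)]
  have b4 : |e * ((x + σ * e) + (y + σ * e))| ≤ e * (p + q) :=
    abs_mul_le (by rw [abs_of_nonneg he0]) ((abs_add_le _ _).trans (add_le_add (key x) (key y)))
  have b5 : |e * (f + σ * e)| ≤ e * (g + e) := abs_mul_le (by rw [abs_of_nonneg he0]) (key f)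
  -- monomial bounds
  have c1 : q * (2002 / 1000 * (g + e) + p * q) ≤ 2 * g ^ 2 + 5 * q ^ 2 := by
    have t1 : q * e ≤ q * q := mul_le_mul_of_nonneg_left heq hq0
    have t2 : p * (q * q) ≤ 1 * (q * q) := mul_le_mul_of_nonneg_right hp1 (by positivity)
    linarith [sq_nonneg (q - g), sq_nonneg g, sq_nonneg q]
  have c2 : p * (2002 / 1000 * (g + e) + p * q) ≤ 2 * g ^ 2 + 5 * p ^ 2 := by
    have t1 : p * e ≤ p * p := mul_le_mul_of_nonneg_left hep hp0
    have t2 : q * (p * p) ≤ 1 * (p * p) := mul_le_mul_of_nonneg_right hq1 (by positivity)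
    linarith [sq_nonneg (p - g), sq_nonneg g, sq_nonneg p]
  have d1 := mul_le_mul_of_nonneg_right c1 (by positivity : 0 ≤ 1 + r)
  have d2 := mul_le_mul_of_nonneg_right c2 (by positivity : 0 ≤ 1 + s)
  have d3 := amgm (a := q) (b := p) hr hs ho
  have d4 := amgm (a := 1) (b := 1) hr hs ho
  have d5 : 2 * (|o| * e) ≤ (r + s) * e := by
    linarith [mul_le_mul_of_nonneg_right d4 he0]
  have d6 : e * p ≤ p * p := mul_le_mul_of_nonneg_right hep hp0
  have d7 : e * q ≤ q * q := mul_le_mul_of_nonneg_right heq hq0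
  have d8 : e * e ≤ p * p := mul_le_mul hep hep he0 hp0
  have d9 : 2 * (e * g) ≤ e * e + g ^ 2 := by linarith [sq_nonneg (e - g)]
  have f1 : 0 ≤ (r + s) * e := by positivity
  have f2 : 0 ≤ g ^ 2 * r := by positivity
  have f3 : 0 ≤ g ^ 2 * s := by positivity
  have f4 : 0 ≤ g * |o| := by positivity
  have f5 : 0 ≤ p ^ 2 * s := by positivity
  have f6 : 0 ≤ q ^ 2 * r := by positivity
  have f7 : 0 ≤ p ^ 2 := by positivity
  have f8 : 0 ≤ q ^ 2 := by positivity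
  have f9 : 0 ≤ g ^ 2 := by positivity
  rw [hg2]
  rw [abs_le] at b1 b2 b3 b4 b5 ⊢
  constructor <;> linarith [b1.1, b1.2, b2.1, b2.2, b3.1, b3.2, b4.1, b4.2, b5.1, b5.2]

/-- scalar form of the diagonal estimate -/
theorem scal6 {σ e k p q a b n n' c x y Pu Pv φ E E' : ℝ} (hσ : σ = 1 ∨ σ = -1) (he0 : 0 ≤ e)
    (hk0 : 0 ≤ k) (hk : k ≤ 2 * e) (heφ : e ≤ φ) (hφ : φ ≤ 2 / 1000)
    (hu0 : 0 ≤ Pu) (hu : Pu ≤ 2 / 1000) (hv0 : 0 ≤ Pv) (hv : Pv ≤ 2 / 1000)
    (h1 : |n - y| ≤ 3 * E) (h2 : |n' - x| ≤ 3 * E') (h3 : |n| ≤ 2 * Pv) (h4 : |n'| ≤ 2 * Pu)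
    (h5 : |c - σ| ≤ 2 * (φ + Pu * Pv)) (ha : a = p + σ * e) (hb : b = q + σ * e) :
    |n * (a * a) + n' * (b * b) + c * (2 * (a * b)) - σ * (2 * e ^ 2 + 4 * e ^ 2 * k)
        - (y * p ^ 2 + x * q ^ 2 + 2 * σ * p * q)|
      ≤ 20 * (E * p ^ 2 + E' * q ^ 2 + (φ + Pu * Pv) * |p * q| + (|p| + |q|) * e
        + (Pu + Pv + φ) * e ^ 2) := by
  have hs : |σ| = 1 := by rcases hσ with h | h <;> simp [h]
  have hs2 : σ ^ 2 = 1 := by rcases hσ with h | h <;> simp [h]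
  have id1 : n * (a * a) + n' * (b * b) + c * (2 * (a * b)) - σ * (2 * e ^ 2 + 4 * e ^ 2 * k)
        - (y * p ^ 2 + x * q ^ 2 + 2 * σ * p * q)
      = (n - y) * p ^ 2 + (n' - x) * q ^ 2 + 2 * ((c - σ) * (p * q))
        + 2 * (n * (σ * (p * e))) + 2 * (n' * (σ * (q * e))) + n * e ^ 2 + n' * e ^ 2
        + 2 * (c * (σ * (p * e))) + 2 * (c * (σ * (q * e))) + 2 * ((c - σ) * e ^ 2)
        - 4 * (σ * (k * e ^ 2)) := by
    rw [ha, hb]
    linear_combination (n * e ^ 2 + n' * e ^ 2 + 2 * c * e ^ 2) * hs2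
  rw [id1]
  have hφ0 : 0 ≤ φ := he0.trans heφ
  have hE : 0 ≤ E := by have := (abs_nonneg _).trans h1; linarith
  have hE' : 0 ≤ E' := by have := (abs_nonneg _).trans h2; linarith
  have huv : Pu * Pv ≤ Pu := by nlinarith
  have huv0 : 0 ≤ Pu * Pv := by positivity
  have hc : |c| ≤ 2 := by
    have : |c| ≤ |c - σ| + |σ| := by
      have := abs_add_le (c - σ) σ
      simpa using this
    rw [hs] at this; linarith
  have sq' : ∀ t : ℝ, |t ^ 2| ≤ t ^ 2 := fun t => by rw [abs_of_nonneg (sq_nonneg t)]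
  have pe' : ∀ t : ℝ, |σ * (t * e)| ≤ |t| * e := fun t => by
    rw [abs_mul, hs, one_mul, abs_mul, abs_of_nonneg he0]
  have b1 := abs_mul_le h1 (sq' p)
  have b2 := abs_mul_le h2 (sq' q)
  have b3 := abs_mul_le h5 (le_refl |p * q|)
  have b4 := abs_mul_le (h3.trans (by linarith : 2 * Pv ≤ 1)) (pe' p)
  have b5 := abs_mul_le (h4.trans (by linarith : 2 * Pu ≤ 1)) (pe' q)
  have b6 := abs_mul_le h3 (sq' e)
  have b7 := abs_mul_le h4 (sq' e)
  have b8 := abs_mul_le hc (pe' p)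
  have b9 := abs_mul_le hc (pe' q)
  have b10 := abs_mul_le (h5.trans (by linarith : 2 * (φ + Pu * Pv) ≤ 2 * (φ + Pu))) (sq' e)
  have b11 : |σ * (k * e ^ 2)| ≤ 2 * φ * e ^ 2 := by
    rw [abs_mul, hs, one_mul, abs_of_nonneg (by positivity)]
    exact mul_le_mul_of_nonneg_right (by linarith) (sq_nonneg e)
  have f1 : 0 ≤ E * p ^ 2 := by positivity
  have f2 : 0 ≤ E' * q ^ 2 := by positivity
  have f3 : 0 ≤ (φ + Pu * Pv) * |p * q| := by positivity
  have f4 : 0 ≤ |p| * e := by positivity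
  have f5 : 0 ≤ |q| * e := by positivity
  have f6 : 0 ≤ Pu * e ^ 2 := by positivity
  have f7 : 0 ≤ Pv * e ^ 2 := by positivity
  have f8 : 0 ≤ φ * e ^ 2 := by positivity
  rw [abs_le] at b1 b2 b3 b4 b5 b6 b7 b8 b9 b10 b11 ⊢
  constructor <;> linarith [b1.1, b1.2, b2.1, b2.2, b3.1, b3.2, b4.1, b4.2, b5.1, b5.2, b6.1,
    b6.2, b7.1, b7.2, b8.1, b8.2, b9.1, b9.2, b10.1, b10.2, b11.1, b11.2]

variable {σ : ℝ} {S : Finset ι} {F : Matrix ι ι ℝ} {u v : ι}

omit [DecidableEq ι] in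
theorem sum_FF (h : Mat S F) (i j : ι) : ∑ a, F a i * F a j = (F * F) i j := by
  rw [Matrix.mul_apply]; exact sum_congr rfl fun a _ => by rw [h.symm a i]

theorem sum_FP (h : Mat S F) (i j : ι) :
    ∑ a, F a i * (prj S : Matrix ι ι ℝ) a j = F i j := by
  conv_rhs => rw [← h.mul_prj]
  rw [Matrix.mul_apply]; exact sum_congr rfl fun a _ => by rw [h.symm a i]

theorem sum_PP (S : Finset ι) (i j : ι) :
    ∑ a, (prj S : Matrix ι ι ℝ) a i * (prj S : Matrix ι ι ℝ) a j = (prj S : Matrix ι ι ℝ) i j :=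
  sum_FP (mat_prj S) i j

theorem sum_hat (h : Mat S F) (σ : ℝ) (i j k l : ι) :
    ∑ a, hat σ S F i j a * hat σ S F k l a
      = (F * F) i k - σ * F i l - σ * F k j + σ ^ 2 * (prj S : Matrix ι ι ℝ) j l := by
  rw [← sum_FF h, ← sum_FP h i l, ← sum_FP h k j, ← sum_PP S j l, mul_sum, mul_sum, mul_sum,
    ← sum_sub_distrib, ← sum_sub_distrib, ← sum_add_distrib]
  exact sum_congr rfl fun a _ => by simp only [hat]; ring

theorem t1_upd (h : Loc σ S F u v) :
    t1 (upd σ S F u v) - t1 F =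
      (dd σ S F v * (rr F u - 2 * σ * F u v + 1 - 1 / S.card)
        + dd σ S F u * (rr F v - 2 * σ * F u v + 1 - 1 / S.card)
        + 2 * ww σ S F u v * ((F * F) u v - σ * F u u - σ * F v v - 1 / S.card))
        / psi σ S F u v := by
  have hs2 : σ ^ 2 = 1 := by rcases h.sg with h | h <;> simp [h]
  have hm : (S.card : ℝ) ≠ 0 := by have := h.big; intro h0; linarith
  have hm2 : (S.card : ℝ) - 2 ≠ 0 := by have := h.big; intro h0; linarith
  have p1 : (prj S : Matrix ι ι ℝ) u u = 1 - 1 / S.card := by simp [prj, h.hu]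
  have p1' : (prj S : Matrix ι ι ℝ) v v = 1 - 1 / S.card := by simp [prj, h.hv]
  have p2 : (prj S : Matrix ι ι ℝ) u v = - (1 / S.card) := by simp [prj, h.hu, h.hv, h.ne]
  have p3 : (prj S : Matrix ι ι ℝ) v u = - (1 / S.card) := by rw [UpdX.prj_symm, p2]
  have e1 : ∀ a, upd σ S F u v a a = F a a
      + (dd σ S F v / psi σ S F u v) * (hat σ S F u v a * hat σ S F u v a)
      + (dd σ S F u / psi σ S F u v) * (hat σ S F v u a * hat σ S F v u a)
      + (2 * ww σ S F u v / psi σ S F u v) * (hat σ S F u v a * hat σ S F v u a)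
      - (2 * σ + 2 * σ / ((S.card : ℝ) - 2)) * ((prj S : Matrix ι ι ℝ) a u * prj S a v)
      - (σ / ((S.card : ℝ) - 2)) * ((prj S : Matrix ι ι ℝ) a u * prj S a u)
      - (σ / ((S.card : ℝ) - 2)) * ((prj S : Matrix ι ι ℝ) a v * prj S a v) := fun a => by
    simp only [upd]; ring
  have e2 : (2 * σ + 2 * σ / ((S.card : ℝ) - 2)) * (-(1 / S.card))
      + (σ / ((S.card : ℝ) - 2)) * (1 - 1 / S.card)
      + (σ / ((S.card : ℝ) - 2)) * (1 - 1 / S.card) = 0 := by
    field_simp; ring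
  simp only [t1, GenMX.trace_eq, e1, sum_sub_distrib, sum_add_distrib, ← mul_sum,
    sum_hat h.mat, sum_PP, p1, p1', p2, p3, hs2, rr, h.mat.symm v u]
  linear_combination (-1 : ℝ) * e2

end PtTX
open PtTX

/-- Pointwise change of the trace. Use `Loc.upd_eq`; `hat u v ⬝ᵥ hat u v = r_u - 2σ f + 1 - 1/m`,
`hat u v ⬝ᵥ hat v u = (F²)_uv - σ (D_u + D_v) - 1/m`. -/
theorem ptT : ∃ C : ℝ, 0 ≤ C ∧ ∀ (ι : Type) [Fintype ι] [DecidableEq ι] (σ : ℝ) (S : Finset ι) (F : Matrix ι ι ℝ)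
    (u v : ι), Loc σ S F u v →
    |t1 (upd σ S F u v) - t1 F - mainT σ F u v| ≤ C * errT S F u v := by
  refine ⟨20, by norm_num, fun ι _ _ σ S F u v h => ?_⟩
  have hs : |σ| = 1 := by rcases h.sg with h | h <;> simp [h]
  have hs2 : σ ^ 2 = 1 := by rcases h.sg with h | h <;> simp [h]
  have hp := h.psi_ge
  have hp0 : 0 < psi σ S F u v := by linarith
  have ho : (F * F) u v ^ 2 ≤ rr F u * rr F v := by
    have := entry_sq_le F F u v
    rwa [h.mat.transpose] at this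
  have hc := h.core
  have hm := scalT (w := ww σ S F u v) (ψ := psi σ S F u v) (f := F u v) hs h.inv_card.1
    h.inv_card.2 h.du h.dv (h.mat.rr_nonneg u) (h.mat.rr_nonneg v) ho hc.1 hc.2
  have hE : errT S F u v = (rr F u + rr F v) * (1 / S.card)
      + F u v ^ 2 * ((1 + rr F u) + (1 + rr F v)) + |F u v| * |(F * F) u v|
        + (|F u u| + 1 / S.card) ^ 2 * (1 + rr F v) + (|F v v| + 1 / S.card) ^ 2 * (1 + rr F u) := by
    simp only [errT, vr, pd]; ring
  rw [← hE] at hm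
  have hE0 : 0 ≤ errT S F u v := by have := (abs_nonneg _).trans hm; linarith
  have e1 : t1 (upd σ S F u v) - t1 F - mainT σ F u v =
      (-((F v v * (rr F u - 1) + F u u * (rr F v - 1)) * (psi σ S F u v - 1))
        + 2 * ((F * F) u v * (ww σ S F u v - σ * psi σ S F u v))
        + σ * (1 / S.card * (rr F u + rr F v))
        + 1 / S.card * ((F u u + σ * (1 / S.card)) + (F v v + σ * (1 / S.card)))
        - 2 * (1 / S.card * (F u v + σ * (1 / S.card)))) / psi σ S F u v := by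
    rw [t1_upd h, eq_div_iff hp0.ne', sub_mul, div_mul_cancel₀ _ hp0.ne']
    simp only [mainT, dd, ww]
    generalize psi σ S F u v = ψ
    rw [div_eq_mul_one_div σ]
    generalize 1 / (S.card : ℝ) = e
    rcases h.sg with h | h <;> subst h <;> ring
  rw [e1, abs_div, abs_of_pos hp0, div_le_iff₀ hp0]
  refine hm.trans ?_
  nlinarith

/-- Pointwise change of a diagonal entry (`prj S a u = -1/m` for `a ∈ rem S u v`). -/
theorem pt6 : ∃ C : ℝ, 0 ≤ C ∧ ∀ (ι : Type) [Fintype ι] [DecidableEq ι] (σ : ℝ) (S : Finset ι) (F : Matrix ι ι ℝ)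
    (u v a : ι), Loc σ S F u v → a ∈ rem S u v →
    |upd σ S F u v a a - F a a - main6 σ F u v a| ≤ C * err6 S F u v a := by
  refine ⟨20, by norm_num, fun ι _ _ σ S F u v a h ha => ?_⟩
  obtain ⟨haS, hau, hav⟩ := mem_rem.1 ha
  have p1 : (prj S : Matrix ι ι ℝ) a u = - (1 / S.card) := by simp [prj, h.hu, haS, hau]
  have p2 : (prj S : Matrix ι ι ℝ) a v = - (1 / S.card) := by simp [prj, h.hv, haS, hav]
  obtain ⟨s1, s2, s3, s4, s5, s6⟩ := h.small
  have hb := h.big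
  have hk0 : 0 ≤ 1 / ((S.card : ℝ) - 2) := by
    have : 0 < (S.card : ℝ) - 2 := by linarith
    positivity
  have hk : 1 / ((S.card : ℝ) - 2) ≤ 2 * (1 / (S.card : ℝ)) := by
    rw [mul_one_div, div_le_div_iff₀ (by linarith) (by linarith)]; linarith
  have heφ : 1 / (S.card : ℝ) ≤ ph S F u v := by
    have := abs_nonneg (F u v); rw [ph]; linarith
  have hm := scal6 (p := F a u) (q := F a v) (a := hat σ S F u v a) (b := hat σ S F v u a)
    h.sg h.inv_card.1 hk0 hk heφ s2 s3 s4 s5 s6 h.n1_bd h.swap.n1_bd h.n1_le h.swap.n1_le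
    h.n2_bd (by rw [hat, p2]; ring) (by rw [hat, p1]; ring)
  have e1 : upd σ S F u v a a - F a a - main6 σ F u v a =
      n1 σ S F u v * (hat σ S F u v a * hat σ S F u v a)
        + n1 σ S F v u * (hat σ S F v u a * hat σ S F v u a)
        + n2 σ S F u v * (2 * (hat σ S F u v a * hat σ S F v u a))
        - σ * (2 * (1 / (S.card : ℝ)) ^ 2 + 4 * (1 / (S.card : ℝ)) ^ 2 * (1 / ((S.card : ℝ) - 2)))
        - (F v v * F a u ^ 2 + F u u * F a v ^ 2 + 2 * σ * F a u * F a v) := by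
    simp only [upd, n1, n2, h.psi_swap, main6, p1, p2]; ring
  have e2 : err6 S F u v a = pe S F u v * F a u ^ 2 + pe S F v u * F a v ^ 2
      + (ph S F u v + pd S F u * pd S F v) * |F a u * F a v| + (|F a u| + |F a v|) * (1 / S.card)
      + (pd S F u + pd S F v + ph S F u v) * (1 / (S.card : ℝ)) ^ 2 := by
    simp only [err6, ph0]; ring
  rw [e1, e2]
  exact hm

end Crest.Agent.R62
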