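import Crest.Agent.R62.Der
import Crest.Agent.R62.PtT

set_option autoImplicit false
set_option linter.unusedSectionVars false

open Finset Matrix

namespace Crest.Agent.R62

variable {ι : Type} [Fintype ι] [DecidableEq ι]

namespace TrD2X

/-- the nonnegative remainder in the expansion of a new diagonal entry squared -/
noncomputable def restR (C K k e d x y p q pe pe' f0 pu pv : ℝ) : ℝ :=
  2 * C * (|d| * (pe * p ^ 2) + |d| * (pe' * q ^ 2) + |d| * (f0 * (|p| * |q|))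
      + 3 * e * k * d ^ 2 + K * e * (p ^ 2 + q ^ 2) + K * e ^ 3)
    + 99 / 160 * (y ^ 2 * p ^ 2 + x ^ 2 * q ^ 2) + (88 + 110 * C ^ 2) * (p ^ 2 * q ^ 2)
    + 110 * C ^ 2 * ((4 * e ^ 2 + 32 * k ^ 2 * pv ^ 2) * p ^ 2
      + (4 * e ^ 2 + 32 * k ^ 2 * pu ^ 2) * q ^ 2 + e ^ 4)

theorem five_sq (a b c d e : ℝ) :
    (a + b + c + d + e) ^ 2 ≤ 5 * (a ^ 2 + b ^ 2 + c ^ 2 + d ^ 2 + e ^ 2) := by
  nlinarith [sq_nonneg (a - b), sq_nonneg (a - c), sq_nonneg (a - d), sq_nonneg (a - e),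
    sq_nonneg (b - c), sq_nonneg (b - d), sq_nonneg (b - e), sq_nonneg (c - d), sq_nonneg (c - e),
    sq_nonneg (d - e)]

theorem amgm' {K k a b : ℝ} (hK : 0 < K) (hk : k * K = 1) : a * b ≤ k * a ^ 2 + K * b ^ 2 := by
  have hk0 : 0 < k := by
    by_contra h
    have := mul_nonpos_of_nonpos_of_nonneg (not_lt.1 h) hK.le
    linarith
  have h1 : 0 ≤ k * (a - K * b) ^ 2 := by positivity
  have h2 : k * (a - K * b) ^ 2 = k * a ^ 2 - 2 * (k * K) * (a * b) + (k * K) * (K * b ^ 2) := by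
    ring
  rw [hk] at h2
  have h3 : 0 ≤ k * a ^ 2 + K * b ^ 2 := by positivity
  linarith

theorem scal_lin {K k e d p q pe pe' f0 s : ℝ} (he : 0 ≤ e) (hK : 0 < K) (hk : k * K = 1)
    (hs1 : s ≤ 1) :
    |d| * (pe * p ^ 2 + pe' * q ^ 2 + f0 * (|p| * |q|) + (|p| + |q|) * e + s * e ^ 2)
      ≤ |d| * (pe * p ^ 2) + |d| * (pe' * q ^ 2) + |d| * (f0 * (|p| * |q|))
      + 3 * e * k * d ^ 2 + K * e * (p ^ 2 + q ^ 2) + K * e ^ 3 := by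
  have l2 : |d| * |p| ≤ k * d ^ 2 + K * p ^ 2 := by
    have := amgm' (a := |d|) (b := |p|) hK hk
    rwa [sq_abs, sq_abs] at this
  have l3 : |d| * |q| ≤ k * d ^ 2 + K * q ^ 2 := by
    have := amgm' (a := |d|) (b := |q|) hK hk
    rwa [sq_abs, sq_abs] at this
  have l4 : |d| * e ≤ k * d ^ 2 + K * e ^ 2 := by
    have := amgm' (a := |d|) (b := e) hK hk
    rwa [sq_abs] at this
  have h1 : s * e ^ 2 ≤ 1 * e ^ 2 := mul_le_mul_of_nonneg_right hs1 (sq_nonneg _)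
  have h2 := mul_le_mul_of_nonneg_left h1 (abs_nonneg d)
  have h3 := mul_le_mul_of_nonneg_left l4 he
  have h4 := mul_le_mul_of_nonneg_left l2 he
  have h5 := mul_le_mul_of_nonneg_left l3 he
  linarith

theorem scal_sq {k e p q pe pe' f0 pu pv s : ℝ} (hp2 : p ^ 2 ≤ 9 / 16) (hq2 : q ^ 2 ≤ 9 / 16)
    (hpe : pe ^ 2 ≤ 2 * e ^ 2 + 32 * k ^ 2 * pv ^ 2)
    (hpe' : pe' ^ 2 ≤ 2 * e ^ 2 + 32 * k ^ 2 * pu ^ 2)
    (hf0 : 0 ≤ f0) (hf1 : f0 ≤ 1) (hs0 : 0 ≤ s) (hs1 : s ≤ 1) :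
    (pe * p ^ 2 + pe' * q ^ 2 + f0 * (|p| * |q|) + (|p| + |q|) * e + s * e ^ 2) ^ 2
      ≤ 5 * (p ^ 2 * q ^ 2 + ((4 * e ^ 2 + 32 * k ^ 2 * pv ^ 2) * p ^ 2
      + (4 * e ^ 2 + 32 * k ^ 2 * pu ^ 2) * q ^ 2 + e ^ 4)) := by
  refine (five_sq _ _ _ _ _).trans (mul_le_mul_of_nonneg_left ?_ (by norm_num))
  have b : ∀ t : ℝ, t ^ 2 ≤ 9 / 16 → (t ^ 2) ^ 2 ≤ t ^ 2 := fun t ht => by
    rw [sq (t ^ 2)]
    exact mul_le_of_le_one_left (sq_nonneg _) (by linarith)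
  have a1 : (pe * p ^ 2) ^ 2 ≤ (2 * e ^ 2 + 32 * k ^ 2 * pv ^ 2) * p ^ 2 := by
    rw [mul_pow]
    exact mul_le_mul hpe (b p hp2) (sq_nonneg _) (by positivity)
  have a2 : (pe' * q ^ 2) ^ 2 ≤ (2 * e ^ 2 + 32 * k ^ 2 * pu ^ 2) * q ^ 2 := by
    rw [mul_pow]
    exact mul_le_mul hpe' (b q hq2) (sq_nonneg _) (by positivity)
  have a3 : (f0 * (|p| * |q|)) ^ 2 ≤ p ^ 2 * q ^ 2 := by
    rw [mul_pow, mul_pow, sq_abs, sq_abs]
    exact mul_le_of_le_one_left (by positivity) (pow_le_one₀ hf0 hf1)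
  have a4 : ((|p| + |q|) * e) ^ 2 ≤ 2 * e ^ 2 * p ^ 2 + 2 * e ^ 2 * q ^ 2 := by
    have h1 : (|p| + |q|) ^ 2 ≤ 2 * p ^ 2 + 2 * q ^ 2 := by
      nlinarith [sq_abs p, sq_abs q, sq_nonneg (|p| - |q|)]
    have h2 := mul_le_mul_of_nonneg_right h1 (sq_nonneg e)
    rw [mul_pow]; linarith
  have a5 : (s * e ^ 2) ^ 2 ≤ e ^ 4 := by
    rw [show (s * e ^ 2) ^ 2 = s ^ 2 * e ^ 4 by ring]
    exact mul_le_of_le_one_left (by positivity) (pow_le_one₀ hs0 hs1)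
  linarith

theorem scal_jump {x y p q σ E : ℝ} (hσ : σ = 1 ∨ σ = -1) (hp2 : p ^ 2 ≤ 9 / 16)
    (hq2 : q ^ 2 ≤ 9 / 16) :
    (y * p ^ 2 + x * q ^ 2 + (2 * σ * p * q + E)) ^ 2
      ≤ 99 / 160 * (y ^ 2 * p ^ 2 + x ^ 2 * q ^ 2) + 11 / 10 * ((x ^ 2 + y ^ 2) * (p ^ 2 * q ^ 2))
        + 88 * (p ^ 2 * q ^ 2) + 22 * E ^ 2 := by
  have hσ2 : σ ^ 2 = 1 := by rcases hσ with h | h <;> simp [h]
  have j1 : ∀ a b : ℝ, (a + b) ^ 2 ≤ 11 / 10 * a ^ 2 + 11 * b ^ 2 := fun a b => by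
    nlinarith [sq_nonneg (a - 10 * b)]
  have j2 := j1 (y * p ^ 2 + x * q ^ 2) (2 * σ * p * q + E)
  have j3 : (y * p ^ 2 + x * q ^ 2) ^ 2
      ≤ 9 / 16 * (y ^ 2 * p ^ 2 + x ^ 2 * q ^ 2) + (x ^ 2 + y ^ 2) * (p ^ 2 * q ^ 2) := by
    have h1 := mul_le_mul_of_nonneg_left hp2 (show 0 ≤ y ^ 2 * p ^ 2 by positivity)
    have h2 := mul_le_mul_of_nonneg_left hq2 (show 0 ≤ x ^ 2 * q ^ 2 by positivity)
    have h3 : 0 ≤ (x - y) ^ 2 * (p ^ 2 * q ^ 2) := by positivity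
    linarith
  have j4 : (2 * σ * p * q + E) ^ 2 ≤ 8 * (p ^ 2 * q ^ 2) + 2 * E ^ 2 := by
    have h1 : (2 * σ * p * q) ^ 2 = 4 * (p ^ 2 * q ^ 2) := by
      rw [mul_pow, mul_pow, mul_pow, hσ2]; ring
    have h2 : ∀ a b : ℝ, (a + b) ^ 2 ≤ 2 * a ^ 2 + 2 * b ^ 2 := fun a b => by
      nlinarith [sq_nonneg (a - b)]
    have h3 := h2 (2 * σ * p * q) E
    rw [h1] at h3
    linarith
  linarith

theorem scal {C K k e d x y p q pe pe' f0 pu pv s σ E : ℝ} (hσ : σ = 1 ∨ σ = -1) (hC : 0 ≤ C)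
    (he : 0 ≤ e) (hK : 0 < K) (hk : k * K = 1) (hp : |p| ≤ 3 / 4) (hq : |q| ≤ 3 / 4)
    (hpe : pe ^ 2 ≤ 2 * e ^ 2 + 32 * k ^ 2 * pv ^ 2)
    (hpe' : pe' ^ 2 ≤ 2 * e ^ 2 + 32 * k ^ 2 * pu ^ 2)
    (hf0 : 0 ≤ f0) (hf1 : f0 ≤ 1) (hs0 : 0 ≤ s) (hs1 : s ≤ 1)
    (hE : |E| ≤ C * (pe * p ^ 2 + pe' * q ^ 2 + f0 * (|p| * |q|) + (|p| + |q|) * e + s * e ^ 2)) :
    (d + (y * p ^ 2 + x * q ^ 2 + 2 * σ * p * q) + E) ^ 2
      ≤ d ^ 2 + 2 * (d * (y * p ^ 2 + x * q ^ 2 + 2 * σ * p * q))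
        + restR C K k e d x y p q pe pe' f0 pu pv + 11 / 10 * ((x ^ 2 + y ^ 2) * (p ^ 2 * q ^ 2)) := by
  have hp2 : p ^ 2 ≤ 9 / 16 := by
    have := pow_le_pow_left₀ (abs_nonneg p) hp 2
    rw [sq_abs] at this; linarith
  have hq2 : q ^ 2 ≤ 9 / 16 := by
    have := pow_le_pow_left₀ (abs_nonneg q) hq 2
    rw [sq_abs] at this; linarith
  have l6 := scal_lin (d := d) (p := p) (q := q) (pe := pe) (pe' := pe') (f0 := f0) he hK hk hs1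
  have j6 := scal_sq hp2 hq2 hpe hpe' hf0 hf1 hs0 hs1
  have j2 := scal_jump (x := x) (y := y) (E := E) hσ hp2 hq2
  generalize pe * p ^ 2 + pe' * q ^ 2 + f0 * (|p| * |q|) + (|p| + |q|) * e + s * e ^ 2 = e6
    at hE l6 j6
  have l1 : d * E ≤ |d| * (C * e6) :=
    (le_abs_self _).trans (by rw [abs_mul]; exact mul_le_mul_of_nonneg_left hE (abs_nonneg _))
  have l7 := mul_le_mul_of_nonneg_left l6 hC
  have j5 : E ^ 2 ≤ C ^ 2 * e6 ^ 2 := by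
    have := pow_le_pow_left₀ (abs_nonneg E) hE 2
    rwa [sq_abs, mul_pow] at this
  have j7 := mul_le_mul_of_nonneg_left j6 (sq_nonneg C)
  have e0 : (d + (y * p ^ 2 + x * q ^ 2 + 2 * σ * p * q) + E) ^ 2
      = d ^ 2 + 2 * (d * (y * p ^ 2 + x * q ^ 2 + 2 * σ * p * q)) + 2 * (d * E)
        + (y * p ^ 2 + x * q ^ 2 + (2 * σ * p * q + E)) ^ 2 := by ring
  rw [e0]
  unfold restR
  linarith

/-- the remainder at `(u, v, a)` -/
noncomputable def rest (C K : ℝ) (S : Finset ι) (F : Matrix ι ι ℝ) (u v a : ι) : ℝ :=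
  restR C K (1 / K) (1 / S.card) (F a a) (F u u) (F v v) (F a u) (F a v) (pe S F u v)
    (pe S F v u) (ph0 S F u v) (pd S F u) (pd S F v)

theorem pd_nonneg (S : Finset ι) (F : Matrix ι ι ℝ) (a : ι) : 0 ≤ pd S F a := by
  unfold pd; positivity
theorem ph_nonneg (S : Finset ι) (F : Matrix ι ι ℝ) (u v : ι) : 0 ≤ ph S F u v := by
  unfold ph; positivity
theorem pe_nonneg (S : Finset ι) (F : Matrix ι ι ℝ) (u v : ι) : 0 ≤ pe S F u v := by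
  have := pd_nonneg S F v
  have := ph_nonneg S F u v
  unfold pe; positivity
theorem ph0_nonneg (S : Finset ι) (F : Matrix ι ι ℝ) (u v : ι) : 0 ≤ ph0 S F u v := by
  have := pd_nonneg S F v
  have := pd_nonneg S F u
  have := ph_nonneg S F u v
  unfold ph0; positivity

theorem rest_nonneg {C K : ℝ} (hC : 0 ≤ C) (hK : 0 < K) (S : Finset ι) (F : Matrix ι ι ℝ)
    (u v a : ι) : 0 ≤ rest C K S F u v a := by
  have := pe_nonneg S F u v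
  have := pe_nonneg S F v u
  have := ph0_nonneg S F u v
  unfold rest restR
  positivity

theorem sum_rem {S : Finset ι} {u v : ι} (h : u ≠ v) (hu : u ∈ S) (hv : v ∈ S) (g : ι → ℝ) :
    ∑ a ∈ rem S u v, g a = ∑ a ∈ S, g a - g u - g v := by
  have h1 : v ∈ S.erase u := mem_erase.2 ⟨h.symm, hv⟩
  rw [rem, ← add_sum_erase _ _ hu, ← add_sum_erase _ _ h1]
  ring

theorem corr {σ k x y f : ℝ} (hσ : σ = 1 ∨ σ = -1) (hk : k ≤ 1) (hx : |x| ≤ k) (hy : |y| ≤ k)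
    (hf : |f| ≤ k) : -(4 * k * x ^ 2) ≤ x * (y * x ^ 2 + x * f ^ 2 + 2 * σ * x * f) := by
  have hk0 : 0 ≤ k := (abs_nonneg _).trans hx
  have h1 : |x * y| ≤ k := by
    rw [abs_mul]
    exact (mul_le_mul hx (hy.trans hk) (abs_nonneg _) hk0).trans (by rw [mul_one])
  have h2 : |σ * f| ≤ k := by
    rw [abs_mul]; rcases hσ with h | h <;> simpa [h] using hf
  have h3 := (abs_le.1 h1).1
  have h4 := (abs_le.1 h2).1
  have h5 : 0 ≤ x ^ 2 * (x * y + f ^ 2 + 2 * (σ * f) + 4 * k) :=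
    mul_nonneg (sq_nonneg _) (by nlinarith [sq_nonneg f])
  nlinarith

variable {c : Ctx ι}

theorem pe_sq (hK : Big c.p.K) {u v : ι} (hf : |c.F u v| ≤ 1 / c.p.K) :
    pe c.S c.F u v ^ 2 ≤ 2 * (1 / (c.S.card : ℝ)) ^ 2 + 32 * (1 / c.p.K) ^ 2 * pd c.S c.F v ^ 2 := by
  have h1 := Ctx.pd_le hK v
  have h2 : 1 / c.m ≤ 1 / c.p.K := one_div_le_one_div_of_le hK.pos (Ctx.K_le_m hK)
  have h3 : ph c.S c.F u v ≤ 2 * (1 / c.p.K) := by
    unfold ph; unfold Ctx.m at h2; linarith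
  have h4 : pd c.S c.F v ≤ 2 * (1 / c.p.K) := by rw [mul_one_div]; exact h1
  have h5 := pd_nonneg c.S c.F v
  have h6 : pe c.S c.F u v ≤ 1 / (c.S.card : ℝ) + 4 * (1 / c.p.K) * pd c.S c.F v := by
    unfold pe
    nlinarith [mul_le_mul_of_nonneg_left h3 h5, mul_le_mul_of_nonneg_left h4 h5]
  have h7 := pow_le_pow_left₀ (pe_nonneg _ _ _ _) h6 2
  nlinarith [sq_nonneg (1 / (c.S.card : ℝ) - 4 * (1 / c.p.K) * pd c.S c.F v)]

/-- the pointwise bound for the new `D2` -/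
theorem D2_child (hK : Big c.p.K) {C : ℝ} (hC : 0 ≤ C) {u v : ι} (hw : c.w u v ≠ 0)
    (h6 : ∀ a ∈ rem c.S u v,
      |c.F' u v a a - c.F a a - main6 c.σ c.F u v a| ≤ C * err6 c.S c.F u v a) :
    D2 (rem c.S u v) (c.F' u v) ≤ D2 c.S c.F - (1 - 10 * (1 / c.p.K)) * (c.F u u ^ 2 + c.F v v ^ 2)
      + 2 * ∑ a ∈ c.S, c.F a a * main6 c.σ c.F u v a + ∑ a ∈ c.S, rest C c.p.K c.S c.F u v a := by
  obtain ⟨hne, hu, hv, hf, -, hh1, -⟩ := c.wt.supp u v hw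
  have hK0 := hK.pos
  have hk := Ctx.inv_K_le hK
  obtain ⟨s1, s2, s3, s4, s5, s6⟩ := (Ctx.loc hK hw).small
  have hf' : |c.F v u| ≤ 1 / c.p.K := by rw [c.oF.mat.symm]; exact hf
  have step1 : D2 (rem c.S u v) (c.F' u v) ≤ ∑ a ∈ rem c.S u v, (c.F a a ^ 2
      + 2 * (c.F a a * main6 c.σ c.F u v a) + rest C c.p.K c.S c.F u v a
      + 11 / 10 * ((c.F u u ^ 2 + c.F v v ^ 2) * (c.F a u ^ 2 * c.F a v ^ 2))) := by
    refine sum_le_sum fun a ha => ?_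
    have hE := h6 a ha
    have e1 : err6 c.S c.F u v a = pe c.S c.F u v * c.F a u ^ 2 + pe c.S c.F v u * c.F a v ^ 2
        + ph0 c.S c.F u v * (|c.F a u| * |c.F a v|) + (|c.F a u| + |c.F a v|) * (1 / c.S.card)
        + (pd c.S c.F u + pd c.S c.F v + ph c.S c.F u v) * (1 / (c.S.card : ℝ)) ^ 2 := by
      simp only [err6, abs_mul]; ring
    rw [e1] at hE
    have h := scal (d := c.F a a) (x := c.F u u) (y := c.F v v) (K := c.p.K) (k := 1 / c.p.K)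
      c.sg hC (by positivity) hK0 (by field_simp) (c.oF.ent a u) (c.oF.ent a v) (pe_sq hK hf)
      (pe_sq hK hf') (ph0_nonneg _ _ _ _) (by unfold ph0; nlinarith) (by positivity)
      (by linarith) hE
    refine le_trans (le_of_eq ?_) h
    simp only [main6]; ring
  refine step1.trans ?_
  rw [sum_add_distrib, sum_add_distrib, sum_add_distrib, sum_rem hne hu hv, ← mul_sum,
    sum_rem hne hu hv, ← mul_sum, ← mul_sum]
  have a1 : ∑ a ∈ rem c.S u v, rest C c.p.K c.S c.F u v a ≤ ∑ a ∈ c.S, rest C c.p.K c.S c.F u v a :=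
    sum_le_sum_of_subset_of_nonneg (fun a ha => (mem_rem.1 ha).1)
      fun a _ _ => rest_nonneg hC hK0 _ _ _ _ _
  have a2 : ∑ a ∈ rem c.S u v, c.F a u ^ 2 * c.F a v ^ 2 ≤ 1 / c.p.K := by
    refine le_trans (sum_le_sum_of_subset_of_nonneg (subset_univ _) fun a _ _ => by positivity)
      (le_trans hh1 ?_)
    refine one_div_le_one_div_of_le hK0 ?_
    have := pow_le_pow_right₀ hK.one_lt.le (show 1 ≤ 20 by norm_num)
    rwa [pow_one] at this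
  have a3 := mul_le_mul_of_nonneg_left a2 (show 0 ≤ c.F u u ^ 2 + c.F v v ^ 2 by positivity)
  have a4 := corr c.sg (k := 1 / c.p.K) (by linarith) (Ctx.diag_le hK u) (Ctx.diag_le hK v) hf
  have a5 := corr c.sg (k := 1 / c.p.K) (by linarith) (Ctx.diag_le hK v) (Ctx.diag_le hK u) hf'
  have a6 : 0 ≤ (c.F u u ^ 2 + c.F v v ^ 2) * (1 / c.p.K) := by positivity
  have b4 : main6 c.σ c.F u v u = c.F v v * c.F u u ^ 2 + c.F u u * c.F u v ^ 2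
      + 2 * c.σ * c.F u u * c.F u v := rfl
  have b5 : main6 c.σ c.F u v v = c.F u u * c.F v v ^ 2 + c.F v v * c.F v u ^ 2
      + 2 * c.σ * c.F v v * c.F v u := by simp only [main6]; ring
  rw [← b4] at a4
  rw [← b5] at a5
  unfold D2
  nlinarith

section sums
variable {S : Finset ι} {F : Matrix ι ι ℝ}

theorem row_sq (h : Mat S F) (a : ι) : ∑ u ∈ S, F a u ^ 2 = rr F a := by
  rw [h.rr_eq]
  exact sum_subset (subset_univ S) fun u _ hu => by rw [h.supp' a u hu]; norm_num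

/-- move the innermost sum outside -/
theorem rot (S : Finset ι) (g : ι → ι → ι → ℝ) :
    ∑ u ∈ S, ∑ v ∈ S, ∑ a ∈ S, g u v a = ∑ a ∈ S, ∑ u ∈ S, ∑ v ∈ S, g u v a := by
  rw [sum_comm (s := S) (t := S) (f := fun a u => ∑ v ∈ S, g u v a)]
  exact sum_congr rfl fun u _ => sum_comm

theorem swp (S : Finset ι) (g : ι → ι → ι → ℝ) :
    ∑ u ∈ S, ∑ v ∈ S, ∑ a ∈ S, g u v a = ∑ u ∈ S, ∑ v ∈ S, ∑ a ∈ S, g v u a := sum_comm

theorem T1 (h : Mat S F) {B : ℝ} (hB : ∀ u, ∑ v ∈ S, pe S F u v ≤ B) :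
    ∑ u ∈ S, ∑ v ∈ S, ∑ a ∈ S, |F a a| * (pe S F u v * F a u ^ 2)
      ≤ B * ∑ a ∈ S, |F a a| * rr F a := by
  rw [rot, mul_sum]
  refine sum_le_sum fun a _ => ?_
  rw [← row_sq h, mul_sum, mul_sum]
  refine sum_le_sum fun u _ => ?_
  rw [← mul_sum, ← sum_mul]
  have := mul_le_mul_of_nonneg_right (hB u) (show 0 ≤ |F a a| * F a u ^ 2 by positivity)
  linarith

theorem T2 (h : Mat S F) :
    ∑ u ∈ S, ∑ v ∈ S, ∑ a ∈ S, |F a a| * (ph0 S F u v * (|F a u| * |F a v|))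
      ≤ √(∑ u ∈ S, ∑ v ∈ S, ph0 S F u v ^ 2) * ∑ a ∈ S, |F a a| * rr F a := by
  rw [rot, mul_sum]
  refine sum_le_sum fun a _ => ?_
  simp only [← mul_sum]
  rw [mul_left_comm]
  refine mul_le_mul_of_nonneg_left ?_ (abs_nonneg _)
  have h1 := sum2_mul_le_sqrt S (fun u v => ph0 S F u v) (fun u v => F a u * F a v)
  have h2 : ∑ u ∈ S, ∑ v ∈ S, (F a u * F a v) ^ 2 = rr F a ^ 2 := by
    rw [← row_sq h, sq (∑ u ∈ S, F a u ^ 2), sum_mul_sum]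
    simp only [mul_pow]
  rw [h2, Real.sqrt_sq (h.rr_nonneg a)] at h1
  refine le_trans (le_of_eq ?_) h1
  refine sum_congr rfl fun u _ => sum_congr rfl fun v _ => ?_
  rw [abs_of_nonneg (ph0_nonneg _ _ _ _), abs_mul]

theorem T3 (h : Mat S F) (g : ι → ℝ) :
    ∑ u ∈ S, ∑ v ∈ S, ∑ a ∈ S, g v * F a u ^ 2 = (∑ v ∈ S, g v) * a2 F := by
  rw [rot, h.a2_eq, mul_sum]
  refine sum_congr rfl fun a _ => ?_
  rw [← row_sq h, mul_sum]
  exact sum_congr rfl fun u _ => by rw [sum_mul]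

theorem T4 (h : Mat S F) :
    ∑ u ∈ S, ∑ v ∈ S, ∑ a ∈ S, F a u ^ 2 * F a v ^ 2 = R2 S F := by
  rw [rot, R2]
  refine sum_congr rfl fun a _ => ?_
  rw [← row_sq h, sq (∑ u ∈ S, F a u ^ 2), sum_mul_sum]

theorem rest_sum (h : Mat S F) (hm : (0 : ℝ) < S.card) {C K B : ℝ} (hC : 0 ≤ C)
    (hB : ∀ u, ∑ v ∈ S, pe S F u v ≤ B) :
    ∑ u ∈ S, ∑ v ∈ S, ∑ a ∈ S, rest C K S F u v a
      ≤ 2 * C * (2 * (B * ∑ a ∈ S, |F a a| * rr F a)
          + √(∑ u ∈ S, ∑ v ∈ S, ph0 S F u v ^ 2) * ∑ a ∈ S, |F a a| * rr F a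
          + 3 * (1 / K * S.card * D2 S F) + 2 * (K * a2 F) + K)
        + 99 / 80 * (a2 F * D2 S F) + (88 + 110 * C ^ 2) * R2 S F
        + 110 * C ^ 2 * (8 * (a2 F / S.card) + 64 * ((1 / K) ^ 2 * (∑ a ∈ S, pd S F a ^ 2) * a2 F)
          + 1 / S.card) := by
  have a1 := T1 h hB
  have a1' := a1
  rw [swp] at a1'
  have a2' := T2 h
  have a3 := T3 h (fun _ => K * (1 / S.card))
  have a3' := a3
  rw [swp] at a3'
  have a4 := T3 h (fun v => F v v ^ 2)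
  have a4' := a4
  rw [swp] at a4'
  have a5 := T3 h (fun v => 4 * (1 / (S.card : ℝ)) ^ 2 + 32 * (1 / K) ^ 2 * pd S F v ^ 2)
  have a5' := a5
  rw [swp] at a5'
  have a6 := T4 h
  have a7 : ∑ u ∈ S, ∑ v ∈ S, ∑ a ∈ S, 3 * (1 / (S.card : ℝ)) * (1 / K) * F a a ^ 2
      = 3 * (1 / K * S.card * D2 S F) := by
    rw [← mul_sum, sum_const, sum_const, nsmul_eq_mul, nsmul_eq_mul, D2]
    field_simp
  have a8 : ∑ u ∈ S, ∑ v ∈ S, ∑ a ∈ S, K * (1 / (S.card : ℝ)) ^ 3 = K := by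
    rw [sum_const, sum_const, sum_const, nsmul_eq_mul, nsmul_eq_mul, nsmul_eq_mul]
    field_simp
  have a9 : ∑ u ∈ S, ∑ v ∈ S, ∑ a ∈ S, (1 / (S.card : ℝ)) ^ 4 = 1 / (S.card : ℝ) := by
    rw [sum_const, sum_const, sum_const, nsmul_eq_mul, nsmul_eq_mul, nsmul_eq_mul]
    field_simp
  have b3 : (∑ v ∈ S, K * (1 / (S.card : ℝ))) * a2 F = K * a2 F := by
    rw [sum_const, nsmul_eq_mul]; field_simp
  have b5 : (∑ v ∈ S, (4 * (1 / (S.card : ℝ)) ^ 2 + 32 * (1 / K) ^ 2 * pd S F v ^ 2)) * a2 F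
      = 4 * (a2 F / S.card) + 32 * ((1 / K) ^ 2 * (∑ a ∈ S, pd S F a ^ 2) * a2 F) := by
    rw [sum_add_distrib, ← mul_sum _ _ (32 * (1 / K) ^ 2), sum_const, nsmul_eq_mul]
    field_simp
  rw [b3] at a3 a3'
  rw [b5] at a5 a5'
  have e : ∑ u ∈ S, ∑ v ∈ S, ∑ a ∈ S, rest C K S F u v a
      = 2 * C * (∑ u ∈ S, ∑ v ∈ S, ∑ a ∈ S, |F a a| * (pe S F u v * F a u ^ 2)
        + ∑ u ∈ S, ∑ v ∈ S, ∑ a ∈ S, |F a a| * (pe S F v u * F a v ^ 2)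
        + ∑ u ∈ S, ∑ v ∈ S, ∑ a ∈ S, |F a a| * (ph0 S F u v * (|F a u| * |F a v|))
        + ∑ u ∈ S, ∑ v ∈ S, ∑ a ∈ S, 3 * (1 / (S.card : ℝ)) * (1 / K) * F a a ^ 2
        + (∑ u ∈ S, ∑ v ∈ S, ∑ a ∈ S, K * (1 / (S.card : ℝ)) * F a u ^ 2
          + ∑ u ∈ S, ∑ v ∈ S, ∑ a ∈ S, K * (1 / (S.card : ℝ)) * F a v ^ 2)
        + ∑ u ∈ S, ∑ v ∈ S, ∑ a ∈ S, K * (1 / (S.card : ℝ)) ^ 3)
      + 99 / 160 * (∑ u ∈ S, ∑ v ∈ S, ∑ a ∈ S, F v v ^ 2 * F a u ^ 2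
        + ∑ u ∈ S, ∑ v ∈ S, ∑ a ∈ S, F u u ^ 2 * F a v ^ 2)
      + (88 + 110 * C ^ 2) * ∑ u ∈ S, ∑ v ∈ S, ∑ a ∈ S, F a u ^ 2 * F a v ^ 2
      + 110 * C ^ 2 * (∑ u ∈ S, ∑ v ∈ S, ∑ a ∈ S,
          (4 * (1 / (S.card : ℝ)) ^ 2 + 32 * (1 / K) ^ 2 * pd S F v ^ 2) * F a u ^ 2
        + ∑ u ∈ S, ∑ v ∈ S, ∑ a ∈ S,
          (4 * (1 / (S.card : ℝ)) ^ 2 + 32 * (1 / K) ^ 2 * pd S F u ^ 2) * F a v ^ 2
        + ∑ u ∈ S, ∑ v ∈ S, ∑ a ∈ S, (1 / (S.card : ℝ)) ^ 4) := by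
    simp only [mul_sum, ← sum_add_distrib]
    refine sum_congr rfl fun u _ => sum_congr rfl fun v _ => sum_congr rfl fun a _ => ?_
    unfold rest restR
    ring
  rw [e, a3, a3', a4, a4', a5, a5', a6, a7, a8, a9]
  have b1 := mul_le_mul_of_nonneg_left (add_le_add (add_le_add a1 a1') a2') hC
  unfold D2
  linarith

theorem pe_row (h : Mat S F) (hm : (1 : ℝ) ≤ S.card) (u : ι) :
    ∑ v ∈ S, pe S F u v ≤ 2 + rr F u + 2 * ∑ a ∈ S, pd S F a ^ 2 := by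
  have hm0 : (0 : ℝ) < S.card := by linarith
  have h1 : ∑ v ∈ S, pe S F u v
      ≤ ∑ v ∈ S, (2 * (1 / (S.card : ℝ)) + F u v ^ 2 + 2 * pd S F v ^ 2) := by
    refine sum_le_sum fun v _ => ?_
    have e1 : 1 / (S.card : ℝ) ≤ 1 := by rw [div_le_one hm0]; exact hm
    have e0 : 0 ≤ 1 / (S.card : ℝ) := by positivity
    unfold pe ph
    generalize 1 / (S.card : ℝ) = e at e0 e1
    generalize pd S F v = p
    nlinarith [sq_abs (F u v), sq_nonneg (p - (|F u v| + e)), sq_nonneg (|F u v| - e),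
      mul_le_mul_of_nonneg_left e1 e0, sq_nonneg p]
  refine h1.trans (le_of_eq ?_)
  rw [sum_add_distrib, sum_add_distrib, row_sq h, ← mul_sum, ← mul_sum, sum_const, nsmul_eq_mul]
  field_simp

theorem ph0_sq_sum (h : Mat S F) (hm : (0 : ℝ) < S.card) :
    ∑ u ∈ S, ∑ v ∈ S, ph0 S F u v ^ 2 ≤ 4 * a2 F + 4 + 2 * (∑ a ∈ S, pd S F a ^ 2) ^ 2 := by
  have h1 : ∑ u ∈ S, ∑ v ∈ S, ph0 S F u v ^ 2 ≤ ∑ u ∈ S, ∑ v ∈ S,
      (4 * F u v ^ 2 + 4 * (1 / (S.card : ℝ)) ^ 2 + 2 * (pd S F u ^ 2 * pd S F v ^ 2)) := by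
    refine sum_le_sum fun u _ => sum_le_sum fun v _ => ?_
    unfold ph0 ph
    generalize 1 / (S.card : ℝ) = e
    rw [← mul_pow]
    generalize pd S F u * pd S F v = p
    nlinarith [sq_abs (F u v), sq_nonneg (p - (|F u v| + e)), sq_nonneg (|F u v| - e)]
  refine h1.trans (le_of_eq ?_)
  simp only [sum_add_distrib, ← mul_sum, row_sq h, sum_const, nsmul_eq_mul, ← sum_mul]
  rw [← h.a2_eq]
  field_simp

theorem row_zero (h : Mat S F) (a : ι) : ∑ u ∈ S, F a u = 0 := by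
  rw [← h.row a]
  exact sum_subset (subset_univ S) fun u _ hu => h.supp' a u hu

theorem ff_zero (h : Mat S F) (a : ι) : ∑ u ∈ S, ∑ v ∈ S, F a u * F a v = 0 := by
  rw [← sum_mul_sum, row_zero h, zero_mul]

theorem ff_diag (h : Mat S F) (a : ι) : ∑ u ∈ S, F a u * F a u = rr F a := by
  rw [← row_sq h]; simp only [sq]

theorem ff_sq (h : Mat S F) (a : ι) : √(∑ u ∈ S, ∑ v ∈ S, (F a u * F a v) ^ 2) = rr F a := by
  have h2 : ∑ u ∈ S, ∑ v ∈ S, (F a u * F a v) ^ 2 = rr F a ^ 2 := by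
    rw [← row_sq h, sq (∑ u ∈ S, F a u ^ 2), sum_mul_sum]
    simp only [mul_pow]
  rw [h2, Real.sqrt_sq (h.rr_nonneg a)]

theorem quad_bd (h : Mat S F) {M : Matrix ι ι ℝ} {L : ℝ} (hM : OpB L M) (hL : 0 ≤ L) (a : ι) :
    |∑ u ∈ S, ∑ v ∈ S, M u v * (F a u * F a v)| ≤ L * rr F a := by
  have e : ∑ u ∈ S, ∑ v ∈ S, M u v * (F a u * F a v) = (Fᵀ * M * F) a a := by
    rw [sum_subset (subset_univ S) fun u _ hu => sum_eq_zero fun v _ => by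
      rw [h.supp' a u hu]; ring]
    rw [sum_comm, sum_subset (subset_univ S) fun v _ hv => sum_eq_zero fun u _ => by
      rw [h.supp' a v hv]; ring]
    simp only [mul_apply, transpose_apply, sum_mul]
    refine sum_congr rfl fun v _ => sum_congr rfl fun u _ => ?_
    rw [h.symm u a, h.symm v a]; ring
  have h1 := hM.entry F F a a
  rw [e]
  have h2 : (Fᵀ * F) a a = rr F a := by rw [h.transpose]; rfl
  rw [h2] at h1
  refine abs_le_of_sq_le_sq (h1.trans (le_of_eq (by ring))) (mul_nonneg hL (h.rr_nonneg a))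

theorem ker_bd (h : Mat S F) {M : Matrix ι ι ℝ} (hM : Mat S M) {R : ℝ} (hR : ∀ a, rr M a ≤ R)
    (a : ι) : ∑ u ∈ S, ∑ v ∈ S, M u v ^ 2 * |F a u * F a v| ≤ R * rr F a := by
  have h1 := hM.kernel hR (fun u => F a u) (fun u => F a u)
  rw [row_sq h, Real.mul_self_sqrt (h.rr_nonneg a)] at h1
  simpa only [abs_mul] using h1

end sums

theorem io_abs (F : Matrix ι ι ℝ) : |io F| ≤ 1 := by
  unfold io; split_ifs <;> simp

theorem ff_G7 (c : Ctx ι) (a : ι) :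
    |∑ u, ∑ v, c.w u v * (c.F a u * c.F a v)| ≤ (1 + √(c.p.Gam2 c.m * c.m)) * rr c.F a := by
  have h := c.G7 (fun u v => c.F a u * c.F a v) (ff_zero c.oF.mat a)
  rw [ff_diag c.oF.mat, ff_sq c.oF.mat] at h
  have h0 := c.oF.mat.rr_nonneg a
  obtain ⟨h1, h2⟩ := abs_le.1 h
  have h3 := mul_nonneg (Real.sqrt_nonneg (c.p.Gam2 c.m * c.m)) h0
  rw [abs_le]; constructor <;> linarith

theorem ff_G8 (hK : Big c.p.K) (hI : c.p.phI c.m) (a : ι) :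
    |∑ u, ∑ v, c.w u v * (c.F a u * c.F a v)|
      ≤ (1 + c.p.gam * (2 * c.L + 2) + 2000 * (c.p.gam ^ 2 * c.R) + √(c.p.K ^ 35 * c.m))
        * rr c.F a := by
  have h := c.G8 hI (fun u v => c.F a u * c.F a v) (ff_zero c.oF.mat a)
  rw [ff_diag c.oF.mat, ff_sq c.oF.mat] at h
  have h0 := c.oF.mat.rr_nonneg a
  have hL : 0 ≤ c.L := le_trans zero_le_one (Ctx.one_le_L hK)
  have hγ : 0 ≤ c.p.gam := (pow_pos hK.pos _).le
  have hσ : |c.σ| = 1 := by rcases c.sg with h | h <;> simp [h]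
  have q1 := quad_bd c.oF.mat (Ctx.opB hK) hL a
  have q2 := quad_bd c.oF.mat (Ctx.opB_G hK) hL a
  have q3 : |∑ u ∈ c.S, ∑ v ∈ c.S, xi c.σ c.F c.G u v * (c.F a u * c.F a v)|
      ≤ 2 * c.L * rr c.F a := by
    have e : ∑ u ∈ c.S, ∑ v ∈ c.S, xi c.σ c.F c.G u v * (c.F a u * c.F a v)
        = c.σ * (io c.F * ∑ u ∈ c.S, ∑ v ∈ c.S, c.F u v * (c.F a u * c.F a v)
          - io c.G * ∑ u ∈ c.S, ∑ v ∈ c.S, c.G u v * (c.F a u * c.F a v)) := by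
      simp only [mul_sum, ← sum_sub_distrib]
      refine sum_congr rfl fun u _ => sum_congr rfl fun v _ => ?_
      unfold xi; ring
    rw [e, abs_mul, hσ, one_mul]
    refine (abs_sub _ _).trans ?_
    have := PtTX.abs_mul_le (io_abs c.F) q1
    have := PtTX.abs_mul_le (io_abs c.G) q2
    linarith
  have q4 : |∑ u ∈ c.S, xi c.σ c.F c.G u u * (c.F a u * c.F a u)| ≤ 2 * rr c.F a := by
    rw [← ff_diag c.oF.mat, mul_sum]
    refine (abs_sum_le_sum_abs _ _).trans (sum_le_sum fun u _ => ?_)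
    rw [abs_mul, abs_mul_self]
    refine mul_le_mul_of_nonneg_right ?_ (mul_self_nonneg _)
    unfold xi
    rw [abs_mul, hσ, one_mul]
    refine (abs_sub _ _).trans ?_
    have := PtTX.abs_mul_le (io_abs c.F) (c.oF.ent u u)
    have := PtTX.abs_mul_le (io_abs c.G) (c.oG.ent u u)
    linarith
  have hRF : ∀ b, rr c.F b ≤ c.R := fun b => by
    have := Ctx.ro_le hK b
    have := c.oG.mat.rr_nonneg b
    linarith
  have hRG : ∀ b, rr c.G b ≤ c.R := fun b => by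
    have := Ctx.ro_le hK b
    have := c.oF.mat.rr_nonneg b
    linarith
  have q5 : ∑ u ∈ c.S, ∑ v ∈ c.S, (c.F u v ^ 2 + c.G u v ^ 2) * |c.F a u * c.F a v|
      ≤ 2 * (c.R * rr c.F a) := by
    have k1 := ker_bd c.oF.mat c.oF.mat hRF a
    have k2 := ker_bd c.oF.mat c.oG.mat hRG a
    simp only [add_mul, sum_add_distrib]
    linarith
  have q6 := mul_le_mul_of_nonneg_left q5 (show 0 ≤ 1000 * c.p.gam ^ 2 by positivity)
  obtain ⟨h1, h2⟩ := abs_le.1 h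
  obtain ⟨h3, h4⟩ := abs_le.1 q3
  obtain ⟨h5, h6⟩ := abs_le.1 q4
  have h7 := mul_le_mul_of_nonneg_left (add_le_add h3 (neg_le_neg h6)) hγ
  have h8 := mul_le_mul_of_nonneg_left (add_le_add h4 (neg_le_neg h5)) hγ
  rw [abs_le]; constructor <;> linarith

/-- the linear main term -/
theorem main_lin (c : Ctx ι) {B : ℝ}
    (hB : ∀ a, |∑ u, ∑ v, c.w u v * (c.F a u * c.F a v)| ≤ B * rr c.F a) :
    ∑ u, ∑ v, c.w u v * ∑ a ∈ c.S, c.F a a * main6 c.σ c.F u v a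
      ≤ 2 * (|t1 c.F| + c.p.eps c.m * √c.m * √(D2 c.S c.F) + B)
        * ∑ a ∈ c.S, |c.F a a| * rr c.F a := by
  have e : ∑ u, ∑ v, c.w u v * ∑ a ∈ c.S, c.F a a * main6 c.σ c.F u v a
      = ∑ a ∈ c.S, c.F a a * (∑ u, ∑ v, c.w u v * (c.F a u ^ 2 * c.F v v)
        + ∑ u, ∑ v, c.w u v * (c.F a v ^ 2 * c.F u u)
        + 2 * c.σ * ∑ u, ∑ v, c.w u v * (c.F a u * c.F a v)) := by
    simp only [mul_sum, ← sum_add_distrib]
    rw [sum_comm (s := c.S) (t := univ)]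
    refine sum_congr rfl fun u _ => ?_
    rw [sum_comm (s := c.S) (t := univ)]
    refine sum_congr rfl fun v _ => sum_congr rfl fun a _ => ?_
    unfold main6; ring
  rw [e, mul_sum]
  refine sum_le_sum fun a _ => ?_
  rw [← c.sum_comm' (fun u v => c.F a u ^ 2 * c.F v v), mul_left_comm]
  refine (le_abs_self _).trans ?_
  rw [abs_mul]
  refine mul_le_mul_of_nonneg_left ?_ (abs_nonneg _)
  have h1 := c.G6 (fun u => c.F a u ^ 2) (fun v => c.F v v)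
  simp only [abs_pow, sq_abs] at h1
  rw [row_sq c.oF.mat, ← c.oF.mat.t1_eq] at h1
  have h0 := c.oF.mat.rr_nonneg a
  have h2 : |rr c.F a * t1 c.F| = |t1 c.F| * rr c.F a := by
    rw [abs_mul, abs_of_nonneg h0, mul_comm]
  have h3 := neg_abs_le (rr c.F a * t1 c.F)
  have h4 := le_abs_self (rr c.F a * t1 c.F)
  rw [h2] at h3 h4
  obtain ⟨h5, h6⟩ := abs_le.1 h1
  have h7 : |c.σ * ∑ u, ∑ v, c.w u v * (c.F a u * c.F a v)| ≤ B * rr c.F a := by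
    have hσ : |c.σ| = 1 := by rcases c.sg with h | h <;> simp [h]
    rw [abs_mul, hσ, one_mul]; exact hB a
  obtain ⟨h8, h9⟩ := abs_le.1 h7
  unfold D2
  rw [abs_le]; constructor <;> linarith

end TrD2X

end Crest.Agent.R62
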