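import Crest.Agent.R62.Der
import Crest.Agent.R62.PtT
import Crest.Agent.R62.TrD2Aux

set_option autoImplicit false

open Finset Matrix

namespace Crest.Agent.R62

variable {ι V : Type} [Fintype ι] [DecidableEq ι] [Fintype V] [DecidableEq V]

namespace TrD2X

theorem scale {m W Ω ε D κ : ℝ} (hm : 100 ≤ m) (hW : 0 < W) (hΩ : Ω ≤ (1 + ε) * m ^ 2)
    (hε : 0 ≤ ε) (hD : 0 ≤ D) (hκ : 0 < κ) :
    Ω * D - 2 * (m * D) - 2 * (ε * m * D) + 9 / 5 * (m * (m / (m + W)) * D)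
      ≤ Ω * (D / (κ * (m / (m + W)))) * (κ * ((m - 2) / (m - 2 + W))) := by
  have h1 : 0 < m := by linarith
  have h2 : 0 < m + W := by linarith
  have h3 : 0 < m - 2 + W := by linarith
  have e : Ω * (D / (κ * (m / (m + W)))) * (κ * ((m - 2) / (m - 2 + W)))
      = Ω * D - Ω * (2 * W / (m * (m - 2 + W))) * D := by
    field_simp; ring
  have h4 : W / (m - 2 + W) ≤ 1 - 9 / 10 * (m / (m + W)) := by
    have a1 : W / (m - 2 + W) = 1 - (m - 2) / (m - 2 + W) := by field_simp; ring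
    have a2 : (m - 2) / (m + W) ≤ (m - 2) / (m - 2 + W) :=
      div_le_div_of_nonneg_left (by linarith) h3 (by linarith)
    have a3 : 9 / 10 * (m / (m + W)) ≤ (m - 2) / (m + W) := by
      rw [← mul_div_assoc]; exact div_le_div_of_nonneg_right (by linarith) h2.le
    linarith
  have h5 : Ω * (2 * W / (m * (m - 2 + W))) ≤ (1 + ε) * (2 * m) * (W / (m - 2 + W)) := by
    refine (mul_le_mul_of_nonneg_right hΩ (by positivity)).trans (le_of_eq ?_)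
    field_simp
  have h6 := mul_le_mul_of_nonneg_left h4 (show 0 ≤ (1 + ε) * (2 * m) by positivity)
  have h7 : 0 ≤ ε * (m * (m / (m + W))) := by positivity
  have h8 : Ω * (2 * W / (m * (m - 2 + W))) ≤ 2 * m + 2 * (ε * m) - 9 / 5 * (m * (m / (m + W))) := by
    linarith
  have h9 := mul_le_mul_of_nonneg_right h8 hD
  rw [e]; linarith

variable {c : Ctx ι}

theorem le_R2' (hK : Big c.p.K) : Le c.p.K (R2 c.S c.F) (c.μ + c.ϱ + 13 + 1 / 100) := by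
  by_cases h : c.p.phX c.m
  · have h1 := (Ctx.phX_iff hK).1 h
    refine (Ctx.le_R2 hK).mono hK ?_
    rcases c.cases_W with ⟨_, h2, _⟩ | ⟨_, h2, _⟩ <;> linarith
  · refine ((Ctx.sz_TR hK).2.of_le (c.oF.R2_T h)).mono hK ?_
    rcases c.cases_W with ⟨_, h2, _⟩ | ⟨_, h2, _⟩ <;> linarith

theorem le_A (hK : Big c.p.K) :
    Le c.p.K (∑ a ∈ c.S, |c.F a a| * rr c.F a) (c.μ / 2 + c.ϱ + 23152 / 100) := by
  have h1 := sum_mul_le_sqrt c.S (fun a => c.F a a) (fun a => rr c.F a)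
  simp only [fun a => abs_of_nonneg (c.oF.mat.rr_nonneg a)] at h1
  have h2 : Le c.p.K (D2 c.S c.F) (450 + c.ϱ + 1 / 100) := (Ctx.sz_TD hK).2.of_le c.oF.D2_T
  have h3 := Le.mul hK (h2.sqrt hK) ((le_R2' hK).sqrt hK) (Real.sqrt_nonneg _)
  exact (h3.of_le h1).mono hK (by linarith)

theorem le_t' (hK : Big c.p.K) : Le c.p.K |t1 c.F| (c.μ / 2 + 217) := by
  by_cases h : c.p.phI c.m
  · have h1 := (Ctx.phI_iff hK).1 h
    exact (Ctx.le_t hK).mono hK (by linarith)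
  · refine ((Ctx.sz_kt hK).2.of_le (Ctx.le_t' hK h)).mono hK ?_
    rcases c.cases_W with ⟨_, h2, _⟩ | ⟨_, h2, _⟩ <;> linarith

theorem le_ff (hK : Big c.p.K) : ∃ B, Le c.p.K B (c.μ / 2 + 217) ∧
    ∀ a, |∑ u, ∑ v, c.w u v * (c.F a u * c.F a v)| ≤ B * rr c.F a := by
  have hμ := Ctx.μ_lo hK
  by_cases h : c.p.phI c.m
  · refine ⟨_, ?_, ff_G8 hK h⟩
    have h1 := (Ctx.phI_iff hK).1 h
    have hγ : Le c.p.K c.p.gam 600 := (Le.K_pow 600).mono hK (by norm_num)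
    have hγ0 : 0 ≤ c.p.gam := (pow_pos hK.pos _).le
    have hL1 := Ctx.one_le_L hK
    have hR0 : 0 ≤ c.R := ((Ctx.sz_R hK).1.pos hK).le
    have hϱ := Ctx.ϱ_hi hK
    have hτ : c.τ = 20004 - c.μ := by
      rcases c.cases_W with ⟨_, _, h2⟩ | ⟨_, _, h2⟩ <;> linarith
    have a1 : Le c.p.K (c.p.gam * (2 * c.L + 2)) (600 + (c.τ / 4 + 1 / 100 + 1 / 100)) :=
      Le.mul hK hγ ((Le.cmul hK (Ctx.sz_L hK).2 (C := 4) (by norm_num) (by norm_num)).of_le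
        (by linarith)) (by linarith)
    have a2 := Le.mul hK (hγ.pow hK hγ0 2) (Ctx.sz_R hK).2 hR0
    have a3 := Le.cmul hK (Le.cmul hK (Le.cmul hK (Le.cmul hK a2 (C := 10) (by norm_num) le_rfl)
      (C := 10) (by norm_num) le_rfl) (C := 10) (by norm_num) le_rfl) (C := 2) (by norm_num)
      (by norm_num)
    have a3' : Le c.p.K (2000 * (c.p.gam ^ 2 * c.R)) (c.μ / 2 + 216) :=
      (a3.of_le (le_of_eq (by ring))).mono hK (by push_cast; linarith)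
    have a4 := (Le.mul hK (Le.K_pow (K := c.p.K) 35) (Ctx.le_m hK) (Ctx.m_pos hK).le).sqrt hK
    have b1 := Le.add hK Le.one a1 (g := c.μ / 2 + 216) (by linarith) (by rw [hτ]; linarith)
    have b2 := Le.add hK b1 a3' (g := c.μ / 2 + 216 + 1 / 100) le_rfl (by linarith)
    have b3 := Le.add hK b2 a4 (g := c.μ / 2 + 216 + 1 / 100 + 1 / 100) le_rfl
      (by push_cast; linarith)
    exact b3.mono hK (by linarith)
  · refine ⟨_, ?_, ff_G7 c⟩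
    have a4 := (Le.mul hK (Ctx.le_Gam2 hK h) (Ctx.le_m hK) (Ctx.m_pos hK).le).sqrt hK
    exact (Le.add hK Le.one a4 (g := c.μ / 2 + 216) (by linarith) (by linarith)).mono hK
      (by linarith)

theorem le_pe (hK : Big c.p.K) : ∃ B, Le c.p.K B (c.μ / 2 + 217) ∧
    ∀ u, ∑ v ∈ c.S, pe c.S c.F u v ≤ B := by
  have hμ := Ctx.μ_lo hK
  have hϱ := Ctx.ϱ_hi hK
  refine ⟨2 * c.R + 8 * c.p.TD c.m, ?_, fun u => ?_⟩
  · have a1 := Le.cmul hK (Ctx.sz_R hK).2 (C := 2) (by norm_num) (by norm_num)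
    have a2 := Le.cmul hK (Ctx.sz_TD hK).2 (C := 8) (by norm_num) (by norm_num)
    refine (Le.add hK a1 a2 (g := c.μ / 2 + 216) ?_ (by linarith)).mono hK (by linarith)
    rcases c.cases_W with ⟨_, h2, _⟩ | ⟨_, h2, _⟩ <;> linarith
  · have h1 := pe_row c.oF.mat (le_trans (by norm_num) (Ctx.m_big hK)) u
    have h2 := Ctx.P2_le hK
    have h3 := Ctx.ro_le hK u
    have h4 := c.oG.mat.rr_nonneg u
    have h5 := c.oF.mat.rr_nonneg u
    linarith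

theorem le_ph0 (hK : Big c.p.K) :
    Le c.p.K (√(∑ u ∈ c.S, ∑ v ∈ c.S, ph0 c.S c.F u v ^ 2)) (c.μ / 2 + 217) := by
  have hμ := Ctx.μ_lo hK
  have hϱ := Ctx.ϱ_hi hK
  have h1 := ph0_sq_sum c.oF.mat (Ctx.m_pos hK)
  have h2 := Ctx.a2_le_m hK
  have h3 : 1 ≤ c.m := le_trans (by norm_num) (Ctx.m_big hK)
  have h4 : Le c.p.K (∑ a ∈ c.S, pd c.S c.F a ^ 2) (450 + c.ϱ + 1 / 100 + 1 / 100) :=
    (Le.cmul hK (Ctx.sz_TD hK).2 (C := 4) (by norm_num) (by norm_num)).of_le (Ctx.P2_le hK)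
  have a1 := Le.cmul hK (h4.pow hK (sum_nonneg fun _ _ => sq_nonneg _) 2) (C := 2) (by norm_num)
    (by norm_num)
  have a2 := Le.cmul hK (Ctx.le_m hK) (C := 8) (by norm_num) (by norm_num)
  have a3 := Le.add hK a2 a1 (g := c.μ + 1) (by linarith) (by push_cast; linarith)
  exact ((a3.of_le (by linarith)).sqrt hK).mono hK (by linarith)

/-- the weighted sum of the new `D2` -/
theorem total (hK : Big c.p.K) {C : ℝ} (hC : 0 ≤ C)
    (h6 : ∀ u v, c.w u v ≠ 0 → ∀ a ∈ rem c.S u v,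
      |c.F' u v a a - c.F a a - main6 c.σ c.F u v a| ≤ C * err6 c.S c.F u v a) :
    ∑ u, ∑ v, c.w u v * D2 (rem c.S u v) (c.F' u v)
      ≤ c.Ω * D2 c.S c.F - 2 * (c.m * D2 c.S c.F) - 2 * (c.p.eps c.m * c.m * D2 c.S c.F)
        + 9 / 5 * (c.m * c.p.rho c.m * D2 c.S c.F)
        + 40000 * (1 + C) ^ 2 * c.p.K ^ (c.μ + c.ϱ + 4491 / 10) := by
  have hμ := Ctx.μ_lo hK
  have hϱ := Ctx.ϱ_hi hK
  have hϱ' := Ctx.ϱ_lo hK
  have hK0 := hK.pos
  have hm := Ctx.m_pos hK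
  have hk := Ctx.inv_K_le hK
  have hk0 : 0 ≤ 1 / c.p.K := by positivity
  have hε := Ctx.eps_pos hK
  have hD0 : 0 ≤ D2 c.S c.F := sum_nonneg fun _ _ => sq_nonneg _
  have hD : Le c.p.K (D2 c.S c.F) (450 + c.ϱ + 1 / 100) := (Ctx.sz_TD hK).2.of_le c.oF.D2_T
  obtain ⟨B, hB, hB'⟩ := le_ff hK
  obtain ⟨B2, hB2, hB2'⟩ := le_pe hK
  have s1 := c.sum_le_sum' fun u v hw => D2_child hK hC hw (h6 u v hw)
  have e : ∑ u, ∑ v, c.w u v * (D2 c.S c.F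
      - (1 - 10 * (1 / c.p.K)) * (c.F u u ^ 2 + c.F v v ^ 2)
      + 2 * ∑ a ∈ c.S, c.F a a * main6 c.σ c.F u v a + ∑ a ∈ c.S, rest C c.p.K c.S c.F u v a)
      = c.Ω * D2 c.S c.F - (1 - 10 * (1 / c.p.K)) * (∑ u, ∑ v, c.w u v * c.F u u ^ 2
          + ∑ u, ∑ v, c.w u v * c.F v v ^ 2)
        + 2 * ∑ u, ∑ v, c.w u v * ∑ a ∈ c.S, c.F a a * main6 c.σ c.F u v a
        + ∑ u, ∑ v, c.w u v * ∑ a ∈ c.S, rest C c.p.K c.S c.F u v a := by
    unfold Ctx.Ω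
    rw [← sum_add_distrib, sum_mul, mul_sum, mul_sum, ← sum_sub_distrib, ← sum_add_distrib,
      ← sum_add_distrib]
    refine sum_congr rfl fun u _ => ?_
    rw [← sum_add_distrib, sum_mul, mul_sum, mul_sum, ← sum_sub_distrib, ← sum_add_distrib,
      ← sum_add_distrib]
    refine sum_congr rfl fun v _ => ?_
    ring
  rw [e, ← c.sum_comm' (fun u v => c.F u u ^ 2)] at s1
  have s2 := (abs_le.1 (c.G6one fun u => c.F u u ^ 2)).1
  simp only [abs_pow, sq_abs] at s2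
  have s3 := main_lin c hB'
  have s4 := c.sum_le_crude (X := fun u v => ∑ a ∈ c.S, rest C c.p.K c.S c.F u v a)
    (fun u v _ => le_rfl) fun u _ v _ => sum_nonneg fun a _ => rest_nonneg hC hK0 _ _ _ _ _
  have s5 := rest_sum (K := c.p.K) c.oF.mat hm hC hB2'
  have hA := le_A hK
  have hA0 : 0 ≤ ∑ a ∈ c.S, |c.F a a| * rr c.F a :=
    sum_nonneg fun a _ => mul_nonneg (abs_nonneg _) (c.oF.mat.rr_nonneg a)
  change -(c.p.eps c.m * c.m * D2 c.S c.F) ≤ _ - c.m * D2 c.S c.F at s2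
  generalize ∑ a ∈ c.S, |c.F a a| * rr c.F a = A at hA hA0 s3 s5
  set Z := c.p.K ^ (c.μ + c.ϱ + 4491 / 10) with hZ
  have z1 : |t1 c.F| * A ≤ Z := (Le.mul hK (le_t' hK) hA hA0).mono hK (by linarith)
  have z2 : c.p.eps c.m * √c.m * √(D2 c.S c.F) * A ≤ Z :=
    (Le.mul hK (Le.mul hK (Le.mul hK (Ctx.le_eps hK) ((Ctx.le_m hK).sqrt hK) (Real.sqrt_nonneg _))
      (hD.sqrt hK) (Real.sqrt_nonneg _)) hA hA0).mono hK (by linarith)
  have z3 : B * A ≤ Z := (Le.mul hK hB hA hA0).mono hK (by linarith)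
  have z4 : B2 * A ≤ Z := (Le.mul hK hB2 hA hA0).mono hK (by linarith)
  have z5 : √(∑ u ∈ c.S, ∑ v ∈ c.S, ph0 c.S c.F u v ^ 2) * A ≤ Z :=
    (Le.mul hK (le_ph0 hK) hA hA0).mono hK (by linarith)
  have z6 : 1 / c.p.K * c.m * D2 c.S c.F ≤ Z :=
    (Le.mul hK (Le.mul hK (Le.inv hK Ge.self) (Ctx.le_m hK) hm.le) hD hD0).mono hK (by linarith)
  have ha0 := c.oF.mat.a2_nonneg
  have z7 : c.p.K * a2 c.F ≤ Z :=
    (Le.mul hK Le.self ((Ctx.sz_T2 hK).2.of_le c.oF.a2_T) ha0).mono hK (by linarith)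
  have z8 : c.p.K ≤ Z := Le.mono hK Le.self (by linarith)
  have z9 : R2 c.S c.F ≤ Z := (le_R2' hK).mono hK (by linarith)
  have z10 : (1 : ℝ) ≤ Z := Le.mono hK Le.one (by linarith)
  have z11 : a2 c.F / c.m ≤ Z := le_trans ((div_le_one hm).2 (Ctx.a2_le_m hK)) z10
  have z12 : 1 / c.m ≤ Z :=
    le_trans ((div_le_one hm).2 (le_trans (by norm_num) (Ctx.m_big hK))) z10
  have h4 : Le c.p.K (∑ a ∈ c.S, pd c.S c.F a ^ 2) (450 + c.ϱ + 1 / 100 + 1 / 100) :=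
    (Le.cmul hK (Ctx.sz_TD hK).2 (C := 4) (by norm_num) (by norm_num)).of_le (Ctx.P2_le hK)
  have z13 : (1 / c.p.K) ^ 2 * (∑ a ∈ c.S, pd c.S c.F a ^ 2) * a2 c.F ≤ Z :=
    (Le.mul hK (Le.mul hK ((Le.inv hK Ge.self).pow hK hk0 2) h4
      (sum_nonneg fun _ _ => sq_nonneg _)) ((Ctx.le_m hK).of_le (Ctx.a2_le_m hK)) ha0).mono hK
      (by push_cast; linarith)
  have z14 : c.p.eps c.m * c.m * D2 c.S c.F ≤ Z :=
    (Le.mul hK (Le.mul hK (Ctx.le_eps hK) (Ctx.le_m hK) hm.le) hD hD0).mono hK (by linarith)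
  have z15 : a2 c.F ≤ c.m * c.p.rho c.m + 1 / c.p.K * c.m := by
    have h1 : a2 c.F ≤ c.p.a2s c.m + c.p.k2 c.m := c.oF.a2_hi
    have h2 : c.p.W * c.p.rho c.m ≤ c.m := by
      have hW := Ctx.W_pos hK
      unfold Par.rho
      rw [← mul_div_assoc, div_le_iff₀ (by linarith)]
      nlinarith [mul_pos hm hm]
    have h3 : c.p.k2 c.m = 1 / c.p.K * (c.p.W * c.p.rho c.m) := by unfold Par.k2; ring
    have h5 := mul_le_mul_of_nonneg_left h2 hk0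
    unfold Par.a2s at h1
    linarith
  have z16 := mul_le_mul_of_nonneg_right z15 hD0
  have z17 : 0 ≤ c.m * c.p.rho c.m * D2 c.S c.F := by
    have := Ctx.rho_pos hK
    positivity
  have z18 := mul_le_mul_of_nonneg_left s2 (show 0 ≤ 1 - 10 * (1 / c.p.K) by linarith)
  have z19 : 0 ≤ 1 / c.p.K * (c.p.eps c.m * c.m * D2 c.S c.F) := by positivity
  change _ ≤ 2 * C * (2 * (B2 * A) + _ + 3 * (1 / c.p.K * c.m * _) + _ + _) + _ + _
    + 110 * C ^ 2 * (8 * (a2 c.F / c.m) + _ + 1 / c.m) at s5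
  have y1 : 2 * C * (2 * (B2 * A) + √(∑ u ∈ c.S, ∑ v ∈ c.S, ph0 c.S c.F u v ^ 2) * A
      + 3 * (1 / c.p.K * c.m * D2 c.S c.F) + 2 * (c.p.K * a2 c.F) + c.p.K) ≤ 2 * C * (9 * Z) :=
    mul_le_mul_of_nonneg_left (by linarith) (by linarith)
  have y2 : (88 + 110 * C ^ 2) * R2 c.S c.F ≤ (88 + 110 * C ^ 2) * Z :=
    mul_le_mul_of_nonneg_left z9 (by positivity)
  have y3 : 110 * C ^ 2 * (8 * (a2 c.F / c.m)
      + 64 * ((1 / c.p.K) ^ 2 * (∑ a ∈ c.S, pd c.S c.F a ^ 2) * a2 c.F) + 1 / c.m)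
      ≤ 110 * C ^ 2 * (73 * Z) :=
    mul_le_mul_of_nonneg_left (by linarith) (by positivity)
  have y4 : 0 ≤ C * Z := mul_nonneg hC (by linarith)
  have y5 : 0 ≤ C ^ 2 * Z := mul_nonneg (sq_nonneg _) (by linarith)
  linarith

end TrD2X

open TrD2X in
theorem trD2 : TrOne (fun p m => True) (fun _ _ _ p S F => pD2 p S F) := by
  obtain ⟨C, hC, h6⟩ := pt6
  obtain ⟨K1, hK1⟩ := exists_const (40000 * (1 + C) ^ 2) (3 / 10) (by norm_num)
  refine ⟨K1, fun ι _ _ c hK' _ _ => ?_⟩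
  obtain ⟨hK, hCK⟩ := hK1 _ hK'
  have ht := total hK hC fun u v hw a ha => h6 ι c.σ c.S c.F u v a (Ctx.loc hK hw) ha
  have hm : 100 ≤ c.m := le_trans (by norm_num) (Ctx.m_big hK)
  have hW := Ctx.W_pos hK
  have hκ : 0 < c.p.K ^ 450 := pow_pos hK.pos _
  have hD0 : 0 ≤ D2 c.S c.F := sum_nonneg fun _ _ => sq_nonneg _
  have hΩ : c.Ω ≤ (1 + c.p.eps c.m) * c.m ^ 2 := by
    have := (abs_le.1 c.G4).2
    linarith
  have hs := scale hm hW hΩ c.eps_nonneg' hD0 hκ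
  have hT : c.p.TD c.m / 2 ≤ c.p.TD (c.m - 2) := by
    unfold Par.TD Par.rho
    rw [mul_div_assoc]
    refine mul_le_mul_of_nonneg_left ?_ hκ.le
    rw [div_div, div_le_div_iff₀ (by linarith) (by linarith)]
    nlinarith
  have hT1 : Ge c.p.K (c.p.TD (c.m - 2)) (450 + c.ϱ - 1 / 100 - 1 / 100) :=
    (Ge.div hK (Ctx.sz_TD hK).1 (hK.ten.of_le (by norm_num)) (by norm_num)).of_le hT
  have hT0 := hT1.pos hK
  have hE : 40000 * (1 + C) ^ 2 * c.p.K ^ (c.μ + c.ϱ + 4491 / 10)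
      ≤ c.Ω * c.η * c.p.TD (c.m - 2) :=
    Le.le_of_ge hK (Le.mul hK hCK (show Le c.p.K _ _ from le_rfl)
      (Real.rpow_pos_of_pos hK.pos _).le) ((Ctx.ge_Ωη hK).mul hK hT1) (by linarith)
  have e : ∑ u, ∑ v, c.w u v * pD2 c.p (rem c.S u v) (c.F' u v)
      = (∑ u, ∑ v, c.w u v * D2 (rem c.S u v) (c.F' u v)) / c.p.TD (c.m - 2) := by
    rw [sum_div]
    refine sum_congr rfl fun u _ => ?_
    rw [sum_div]
    refine sum_congr rfl fun v _ => ?_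
    by_cases hw : c.w u v = 0
    · simp [hw]
    · rw [pD2, Ctx.card_rem' hK hw, mul_div_assoc]
  change ∑ u, ∑ v, c.w u v * pD2 c.p (rem c.S u v) (c.F' u v) ≤ c.Ω * (pD2 c.p c.S c.F + c.η)
  rw [e, div_le_iff₀ hT0]
  change _ ≤ c.Ω * (D2 c.S c.F / c.p.TD c.m) * c.p.TD (c.m - 2) at hs
  change _ ≤ c.Ω * (D2 c.S c.F / c.p.TD c.m + c.η) * _
  change _ ≤ _ - _ - _ + 9 / 5 * (c.m * (c.m / (c.m + c.p.W)) * _) + _ at ht
  linarith

end Crest.Agent.R62
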