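import Crest.Agent.R62.Der
import Crest.Agent.R62.PtT

set_option autoImplicit false
set_option linter.unusedSectionVars false
set_option linter.unusedVariables false

open Finset Matrix

namespace Crest.Agent.R62

variable {ι V : Type} [Fintype ι] [DecidableEq ι] [Fintype V] [DecidableEq V]

namespace TrD4X

theorem four4 (a b c d : ℝ) : (a + b + c + d) ^ 4 ≤ 64 * (a ^ 4 + b ^ 4 + c ^ 4 + d ^ 4) := by
  have h : ∀ a b c d : ℝ, (a + b + c + d) ^ 2 ≤ 4 * (a ^ 2 + b ^ 2 + c ^ 2 + d ^ 2) := by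
    intro a b c d
    nlinarith [sq_nonneg (a - b), sq_nonneg (a - c), sq_nonneg (a - d), sq_nonneg (b - c),
      sq_nonneg (b - d), sq_nonneg (c - d)]
  have h1 := pow_le_pow_left₀ (sq_nonneg _) (h a b c d) 2
  have h2 := h (a ^ 2) (b ^ 2) (c ^ 2) (d ^ 2)
  calc (a + b + c + d) ^ 4 = ((a + b + c + d) ^ 2) ^ 2 := by ring
    _ ≤ (4 * (a ^ 2 + b ^ 2 + c ^ 2 + d ^ 2)) ^ 2 := h1
    _ = 16 * (a ^ 2 + b ^ 2 + c ^ 2 + d ^ 2) ^ 2 := by ring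
    _ ≤ 16 * (4 * ((a ^ 2) ^ 2 + (b ^ 2) ^ 2 + (c ^ 2) ^ 2 + (d ^ 2) ^ 2)) := by linarith
    _ = 64 * (a ^ 4 + b ^ 4 + c ^ 4 + d ^ 4) := by ring

/-- two majorants of `err6` (`x`, `y` are absolute values) -/
theorem err_bd {x y pu pv g e k : ℝ} (hx0 : 0 ≤ x) (hy0 : 0 ≤ y) (hx : x ≤ 1) (hy : y ≤ 1)
    (he : 0 ≤ e) (hu : e ≤ pu) (hv : e ≤ pv) (hu' : pu ≤ 2 * k) (hv' : pv ≤ 2 * k) (hg0 : 0 ≤ g)
    (hg : g + e ≤ 2 * k) (hk : k ≤ 1 / 100) :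
    (e + pv * (g + e) + pv ^ 2) * x ^ 2 + (e + pu * (g + e) + pu ^ 2) * y ^ 2
        + (g + e + pu * pv) * (x * y) + (x + y) * e + (pu + pv + (g + e)) * e ^ 2
      ≤ 4 * (pv * x ^ 2 + pu * y ^ 2 + g * (x * y) + (x + y) * e + e ^ 2) ∧
    (e + pv * (g + e) + pv ^ 2) * x ^ 2 + (e + pu * (g + e) + pu ^ 2) * y ^ 2
        + (g + e + pu * pv) * (x * y) + (x + y) * e + (pu + pv + (g + e)) * e ^ 2
      ≤ 5 * (k * pv * x ^ 2 + k * pu * y ^ 2 + x * y + e) ∧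
    pv * x ^ 2 + pu * y ^ 2 + g * (x * y) + (x + y) * e + e ^ 2 ≤ 1 := by
  have pu0 : 0 ≤ pu := he.trans hu
  have pv0 : 0 ≤ pv := he.trans hv
  have k0 : 0 ≤ k := by linarith
  have x2 : x ^ 2 ≤ 1 := pow_le_one₀ hx0 hx
  have y2 : y ^ 2 ≤ 1 := pow_le_one₀ hy0 hy
  have xy : x * y ≤ 1 := mul_le_one₀ hx hy0 hy
  have xy0 : 0 ≤ x * y := mul_nonneg hx0 hy0
  have a1 : pv * (g + e) + pv ^ 2 ≤ 4 * k * pv := by nlinarith
  have a2 : pu * (g + e) + pu ^ 2 ≤ 4 * k * pu := by nlinarith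
  have a3 : 4 * k * pv ≤ pv := by nlinarith
  have a4 : 4 * k * pu ≤ pu := by nlinarith
  have a5 : (pu + pv + (g + e)) * e ^ 2 ≤ 1 * e ^ 2 :=
    mul_le_mul_of_nonneg_right (by linarith) (sq_nonneg e)
  have a6 : e ^ 2 ≤ e := by nlinarith
  have b1 : (e + pv * (g + e) + pv ^ 2) * x ^ 2 ≤ (2 * pv) * x ^ 2 :=
    mul_le_mul_of_nonneg_right (by linarith) (sq_nonneg x)
  have b2 : (e + pu * (g + e) + pu ^ 2) * y ^ 2 ≤ (2 * pu) * y ^ 2 :=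
    mul_le_mul_of_nonneg_right (by linarith) (sq_nonneg y)
  have b3 : e * (x * y) ≤ x * e := by
    have := mul_le_mul_of_nonneg_left hy (mul_nonneg hx0 he); linarith
  have b4 : pu * pv * (x * y) ≤ pv * x ^ 2 + pu * y ^ 2 := by
    have c1 : pv * (pv * x ^ 2) ≤ 1 * (pv * x ^ 2) :=
      mul_le_mul_of_nonneg_right (by linarith) (by positivity)
    have c2 : pu * (pu * y ^ 2) ≤ 1 * (pu * y ^ 2) :=
      mul_le_mul_of_nonneg_right (by linarith) (by positivity)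
    have c3 : 0 ≤ pu * pv * (x * y) := by positivity
    linarith [sq_nonneg (pv * x - pu * y)]
  have c1 : (pv * (g + e) + pv ^ 2) * x ^ 2 ≤ (4 * k * pv) * x ^ 2 :=
    mul_le_mul_of_nonneg_right a1 (sq_nonneg x)
  have c2 : (pu * (g + e) + pu ^ 2) * y ^ 2 ≤ (4 * k * pu) * y ^ 2 :=
    mul_le_mul_of_nonneg_right a2 (sq_nonneg y)
  have c3 : e * x ^ 2 ≤ e * 1 := mul_le_mul_of_nonneg_left x2 he
  have c4 : e * y ^ 2 ≤ e * 1 := mul_le_mul_of_nonneg_left y2 he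
  have c5 : (g + e + pu * pv) * (x * y) ≤ 1 * (x * y) :=
    mul_le_mul_of_nonneg_right (by nlinarith) xy0
  have c6 : (x + y) * e ≤ 2 * e := mul_le_mul_of_nonneg_right (by linarith) he
  have d1 : pv * x ^ 2 ≤ pv * 1 := mul_le_mul_of_nonneg_left x2 pv0
  have d2 : pu * y ^ 2 ≤ pu * 1 := mul_le_mul_of_nonneg_left y2 pu0
  have d3 : g * (x * y) ≤ g * 1 := mul_le_mul_of_nonneg_left xy hg0
  have f1 : 0 ≤ pv * x ^ 2 := by positivity
  have f2 : 0 ≤ pu * y ^ 2 := by positivity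
  have f3 : 0 ≤ g * (x * y) := by positivity
  have f4 : 0 ≤ x * e := by positivity
  have f5 : 0 ≤ y * e := by positivity
  have f6 : 0 ≤ e ^ 2 := by positivity
  have f7 : 0 ≤ k * pv * x ^ 2 := by positivity
  have f8 : 0 ≤ k * pu * y ^ 2 := by positivity
  refine ⟨?_, ?_, ?_⟩
  · linarith only [a5, b1, b2, b3, b4, f1, f2, f3, f4, f5, f6]
  · linarith only [a5, a6, c1, c2, c3, c4, c5, c6, xy0, f7, f8]
  · linarith only [d1, d2, d3, c6, a6, hu', hv', hg, hk, hu, he, hg0]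

/-- the constant of the pointwise estimate -/
noncomputable def C1 (C : ℝ) : ℝ := 36 * (1 + 4 * C) ^ 2 + 128 + (32 + 30240000 * (2 + C) ^ 4)

theorem C1_nonneg (C : ℝ) : 0 ≤ C1 C := by unfold C1; positivity

/-- scalar form of the fourth-power estimate -/
theorem scal {σ C D x y Du Dv ε B z1 z2 e κ : ℝ} (hσ : σ = 1 ∨ σ = -1) (hC : 0 ≤ C)
    (hD : |D| ≤ 1) (hx : |x| ≤ 3 / 4) (hy : |y| ≤ 3 / 4) (hDu : |Du| ≤ 1) (hDv : |Dv| ≤ 1)
    (hB1 : B ≤ 1) (hB : |Dv * x ^ 2 + Du * y ^ 2| ≤ B) (hε : |ε| ≤ C * (4 * B))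
    (hz1 : 0 ≤ z1) (hz2 : 0 ≤ z2) (he : 0 ≤ e)
    (hε' : |ε| ≤ C * (5 * (z1 * x ^ 2 + z2 * y ^ 2 + |x| * |y| + e))) (hκ : x ^ 2 * y ^ 2 ≤ κ) :
    (D + (Dv * x ^ 2 + Du * y ^ 2 + 2 * σ * x * y + ε)) ^ 4 ≤ D ^ 4 + 8 * σ * (D ^ 3 * (x * y))
      + 57 / 100 * (Dv ^ 4 * x ^ 2 + Du ^ 4 * y ^ 2)
      + C1 C * (D ^ 2 * B + D ^ 2 * (x ^ 2 * y ^ 2)
        + (z1 ^ 4 * x ^ 2 + z2 ^ 4 * y ^ 2 + κ * (x ^ 2 * y ^ 2) + e ^ 4)) := by
  have hs : |σ| = 1 := by rcases hσ with h | h <;> simp [h]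
  have hs2 : σ ^ 2 = 1 := by rcases hσ with h | h <;> simp [h]
  have B0 : 0 ≤ B := (abs_nonneg _).trans hB
  set y0 := Dv * x ^ 2 + Du * y ^ 2 with hy0
  have h1 := four_add_le D (y0 + 2 * σ * x * y + ε)
  have l0 : |y0 + ε| ≤ (1 + 4 * C) * B := (abs_add_le _ _).trans (by linarith)
  have c1 : 1 ≤ 1 + 4 * C := by linarith
  -- linear part
  have l1 : D ^ 3 * (y0 + ε) ≤ (1 + 4 * C) ^ 2 * (D ^ 2 * B) := by
    have a1 : |D ^ 3| ≤ D ^ 2 := by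
      rw [abs_pow, ← sq_abs D, pow_succ]
      exact mul_le_of_le_one_right (sq_nonneg _) hD
    have a2 := (le_abs_self _).trans (PtTX.abs_mul_le a1 l0)
    have a3 : (1 + 4 * C) * (D ^ 2 * B) ≤ (1 + 4 * C) ^ 2 * (D ^ 2 * B) :=
      mul_le_mul_of_nonneg_right (by nlinarith) (by positivity)
    linarith
  -- quadratic part
  have l2 : D ^ 2 * (y0 + 2 * σ * x * y + ε) ^ 2
      ≤ 2 * ((1 + 4 * C) ^ 2 * (D ^ 2 * B)) + 8 * (D ^ 2 * (x ^ 2 * y ^ 2)) := by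
    have a1 : (y0 + ε) ^ 2 ≤ ((1 + 4 * C) * B) ^ 2 := by
      rw [← sq_abs]; exact pow_le_pow_left₀ (abs_nonneg _) l0 2
    have a2 : (1 + 4 * C) ^ 2 * (B * B) ≤ (1 + 4 * C) ^ 2 * (B * 1) :=
      mul_le_mul_of_nonneg_left (mul_le_mul_of_nonneg_left hB1 B0) (sq_nonneg _)
    have a3 : (2 * σ * x * y) ^ 2 = 4 * (x ^ 2 * y ^ 2) := by
      linear_combination (4 * x ^ 2 * y ^ 2) * hs2
    have a4 : (y0 + 2 * σ * x * y + ε) ^ 2 ≤ 2 * ((1 + 4 * C) ^ 2 * B) + 8 * (x ^ 2 * y ^ 2) := by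
      linarith only [a1, a2, a3, sq_nonneg (y0 + ε - 2 * σ * x * y)]
    linarith only [mul_le_mul_of_nonneg_left a4 (sq_nonneg D)]
  -- quartic part
  have x2 : x ^ 2 ≤ 9 / 16 := by
    have := pow_le_pow_left₀ (abs_nonneg _) hx 2
    rw [sq_abs] at this; linarith
  have y2 : y ^ 2 ≤ 9 / 16 := by
    have := pow_le_pow_left₀ (abs_nonneg _) hy 2
    rw [sq_abs] at this; linarith
  have x6 : (x ^ 2) ^ 3 ≤ 729 / 4096 := (pow_le_pow_left₀ (sq_nonneg _) x2 3).trans (by norm_num)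
  have y6 : (y ^ 2) ^ 3 ≤ 729 / 4096 := (pow_le_pow_left₀ (sq_nonneg _) y2 3).trans (by norm_num)
  have xyκ : (x ^ 2 * y ^ 2) * (x ^ 2 * y ^ 2) ≤ κ * (x ^ 2 * y ^ 2) :=
    mul_le_mul_of_nonneg_right hκ (by positivity)
  have l3 : y0 ^ 4 ≤ 3 / 2 * (729 / 4096) * (Dv ^ 4 * x ^ 2 + Du ^ 4 * y ^ 2)
      + 15 * (κ * (x ^ 2 * y ^ 2)) := by
    have a1 := four_pq_le (Dv * x ^ 2) (Du * y ^ 2)
    have a2 : (x ^ 2) ^ 3 * (Dv ^ 4 * x ^ 2) ≤ 729 / 4096 * (Dv ^ 4 * x ^ 2) :=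
      mul_le_mul_of_nonneg_right x6 (by positivity)
    have a3 : (y ^ 2) ^ 3 * (Du ^ 4 * y ^ 2) ≤ 729 / 4096 * (Du ^ 4 * y ^ 2) :=
      mul_le_mul_of_nonneg_right y6 (by positivity)
    have a4 : Dv ^ 2 * Du ^ 2 ≤ 1 := by
      rw [← sq_abs Dv, ← sq_abs Du]
      exact mul_le_one₀ (pow_le_one₀ (abs_nonneg _) hDv) (sq_nonneg _)
        (pow_le_one₀ (abs_nonneg _) hDu)
    have a5 : Dv ^ 2 * Du ^ 2 * ((x ^ 2 * y ^ 2) * (x ^ 2 * y ^ 2))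
        ≤ 1 * ((x ^ 2 * y ^ 2) * (x ^ 2 * y ^ 2)) := mul_le_mul_of_nonneg_right a4 (by positivity)
    rw [hy0]
    linarith only [a1, a2, a3, a5, xyκ]
  have l4 : (2 * σ * x * y + ε) ^ 4 ≤ 40000 * (2 + C) ^ 4
      * (z1 ^ 4 * x ^ 2 + z2 ^ 4 * y ^ 2 + κ * (x ^ 2 * y ^ 2) + e ^ 4) := by
    have a0 : |2 * σ * x * y| = 2 * (|x| * |y|) := by
      rw [abs_mul, abs_mul, abs_mul, hs, abs_two]; ring
    have a1 : |2 * σ * x * y + ε| ≤ 5 * (2 + C) * (z1 * x ^ 2 + z2 * y ^ 2 + |x| * |y| + e) := by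
      refine (abs_add_le _ _).trans ?_
      rw [a0]
      have : 0 ≤ z1 * x ^ 2 := by positivity
      have : 0 ≤ z2 * y ^ 2 := by positivity
      have : 0 ≤ |x| * |y| := by positivity
      linarith
    have a2 := pow_le_pow_left₀ (abs_nonneg _) a1 4
    rw [(by norm_num : Even 4).pow_abs, mul_pow] at a2
    have a3 := four4 (z1 * x ^ 2) (z2 * y ^ 2) (|x| * |y|) e
    have a4 : (x ^ 2) ^ 3 * (z1 ^ 4 * x ^ 2) ≤ 1 * (z1 ^ 4 * x ^ 2) :=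
      mul_le_mul_of_nonneg_right (by linarith) (by positivity)
    have a5 : (y ^ 2) ^ 3 * (z2 ^ 4 * y ^ 2) ≤ 1 * (z2 ^ 4 * y ^ 2) :=
      mul_le_mul_of_nonneg_right (by linarith) (by positivity)
    have a6 : (|x| * |y|) ^ 4 = (x ^ 2 * y ^ 2) * (x ^ 2 * y ^ 2) := by
      rw [← sq_abs x, ← sq_abs y]; ring
    have a7 : (z1 * x ^ 2 + z2 * y ^ 2 + |x| * |y| + e) ^ 4
        ≤ 64 * (z1 ^ 4 * x ^ 2 + z2 ^ 4 * y ^ 2 + κ * (x ^ 2 * y ^ 2) + e ^ 4) := by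
      rw [a6] at a3
      linarith only [a3, a4, a5, xyκ]
    have a8 := mul_le_mul_of_nonneg_left a7 (by positivity : 0 ≤ (5 * (2 + C)) ^ 4)
    calc _ ≤ _ := a2
      _ ≤ _ := a8
      _ = _ := by ring
  have l5 := four_small_le y0 (2 * σ * x * y + ε)
  rw [← add_assoc] at l5
  have κ0 : 0 ≤ κ := le_trans (by positivity) hκ
  have n1 : 0 ≤ D ^ 2 * B := by positivity
  have n2 : 0 ≤ D ^ 2 * (x ^ 2 * y ^ 2) := by positivity
  have n3 : 0 ≤ z1 ^ 4 * x ^ 2 + z2 ^ 4 * y ^ 2 + e ^ 4 := by positivity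
  have n4 : 0 ≤ κ * (x ^ 2 * y ^ 2) := by positivity
  have n5 : 0 ≤ Dv ^ 4 * x ^ 2 + Du ^ 4 * y ^ 2 := by positivity
  have e1 : D ^ 3 * (y0 + 2 * σ * x * y + ε) = D ^ 3 * (y0 + ε) + 2 * σ * (D ^ 3 * (x * y)) := by
    ring
  have p1 : 0 ≤ (1 + 4 * C) ^ 2 := by positivity
  have p2 : 0 ≤ (2 + C) ^ 4 := by positivity
  unfold C1
  generalize (1 + 4 * C) ^ 2 = c2 at *
  generalize (2 + C) ^ 4 = c4 at *
  generalize D ^ 2 * B = E1 at *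
  generalize D ^ 2 * (x ^ 2 * y ^ 2) = E2 at *
  have e2 : z1 ^ 4 * x ^ 2 + z2 ^ 4 * y ^ 2 + κ * (x ^ 2 * y ^ 2) + e ^ 4
      = (z1 ^ 4 * x ^ 2 + z2 ^ 4 * y ^ 2 + e ^ 4) + κ * (x ^ 2 * y ^ 2) := by ring
  rw [e2] at l4 ⊢
  generalize z1 ^ 4 * x ^ 2 + z2 ^ 4 * y ^ 2 + e ^ 4 = E3 at *
  generalize κ * (x ^ 2 * y ^ 2) = E4 at *
  generalize Dv ^ 4 * x ^ 2 + Du ^ 4 * y ^ 2 = J at *
  have m1 := mul_nonneg p1 n2
  have m2 := mul_nonneg p1 n3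
  have m3 := mul_nonneg p1 n4
  have m4 := mul_nonneg p2 n1
  have m5 := mul_nonneg p2 n2
  have h2 : 4 * D ^ 3 * (y0 + 2 * σ * x * y + ε) = 4 * (D ^ 3 * (y0 + ε))
      + 8 * σ * (D ^ 3 * (x * y)) := by ring
  have h3 : 16 * D ^ 2 * (y0 + 2 * σ * x * y + ε) ^ 2
      = 16 * (D ^ 2 * (y0 + 2 * σ * x * y + ε) ^ 2) := by ring
  rw [h2, h3] at h1
  generalize D ^ 3 * (y0 + ε) = A1 at *
  generalize D ^ 2 * (y0 + 2 * σ * x * y + ε) ^ 2 = A2 at *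
  generalize (D + (y0 + 2 * σ * x * y + ε)) ^ 4 = A0 at *
  generalize (y0 + 2 * σ * x * y + ε) ^ 4 = A3 at *
  generalize (2 * σ * x * y + ε) ^ 4 = A4 at *
  generalize y0 ^ 4 = A5 at *
  generalize 8 * σ * (D ^ 3 * (x * y)) = A6 at *
  linarith only [h1, l1, l2, l3, l4, l5, n1, n2, n3, n4, n5, m1, m2, m3, m4, m5]

/-- first majorant of the change of a diagonal entry -/
noncomputable def Bq (S : Finset ι) (F : Matrix ι ι ℝ) (u v a : ι) : ℝ :=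
  pd S F v * F a u ^ 2 + pd S F u * F a v ^ 2 + |F u v| * |F a u * F a v|
    + (|F a u| + |F a v|) * (1 / S.card) + (1 / (S.card : ℝ)) ^ 2

/-- the error term -/
noncomputable def Eq' (S : Finset ι) (F : Matrix ι ι ℝ) (k κ : ℝ) (u v a : ι) : ℝ :=
  F a a ^ 2 * Bq S F u v a + F a a ^ 2 * (F a u ^ 2 * F a v ^ 2)
    + ((k * pd S F v) ^ 4 * F a u ^ 2 + (k * pd S F u) ^ 4 * F a v ^ 2
      + κ * (F a u ^ 2 * F a v ^ 2) + (1 / (S.card : ℝ)) ^ 4)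

theorem Eq'_nonneg (S : Finset ι) (F : Matrix ι ι ℝ) (k : ℝ) {κ : ℝ} (hκ : 0 ≤ κ) (u v a : ι) :
    0 ≤ Eq' S F k κ u v a := by
  unfold Eq' Bq pd; positivity

variable {S : Finset ι} {F : Matrix ι ι ℝ}

theorem sum_sq (h : Mat S F) (a : ι) : ∑ u ∈ S, F a u ^ 2 = rr F a := by
  rw [h.rr_eq]
  exact sum_subset (subset_univ S) fun b _ hb => by rw [h.supp' a b hb]; ring

theorem sum_le_sqrt (S : Finset ι) (g : ι → ℝ) :
    ∑ u ∈ S, |g u| ≤ √(S.card : ℝ) * √(∑ u ∈ S, g u ^ 2) := by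
  have := sum_mul_le_sqrt S (fun _ => (1 : ℝ)) g
  simpa using this

theorem inner_Bq (h : Mat S F) {R : ℝ} (hm : (0 : ℝ) < S.card) (ha2 : a2 F ≤ S.card) (hR : 1 ≤ R)
    (a : ι) (ha : rr F a ≤ R) :
    ∑ u ∈ S, ∑ v ∈ S, Bq S F u v a
      ≤ (2 * (√(S.card : ℝ) * √(∑ u ∈ S, pd S F u ^ 2)) + 3 * √(S.card : ℝ) + 1) * R := by
  have r0 := h.rr_nonneg a
  have h1 := sum2_mul_le_sqrt S F (fun u v => F a u * F a v)
  have e1 : ∑ u ∈ S, ∑ v ∈ S, (F a u * F a v) ^ 2 = rr F a * rr F a := by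
    simp only [mul_pow, ← mul_sum, ← sum_mul, sum_sq h]
  have e2 : ∑ u ∈ S, ∑ v ∈ S, F u v ^ 2 = a2 F := by
    simp only [sum_sq h, h.a2_eq]
  rw [e1, e2, Real.sqrt_mul_self r0] at h1
  have h2 : √(a2 F) * rr F a ≤ √(S.card : ℝ) * R :=
    mul_le_mul (Real.sqrt_le_sqrt ha2) ha r0 (Real.sqrt_nonneg _)
  have h3 := sum_le_sqrt S (F a)
  rw [sum_sq h] at h3
  have h4 : √(S.card : ℝ) * √(rr F a) ≤ √(S.card : ℝ) * R :=
    mul_le_mul_of_nonneg_left (by rw [Real.sqrt_le_left (by linarith)]; nlinarith)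
      (Real.sqrt_nonneg _)
  have h5 := sum_le_sqrt S (pd S F)
  have p0 : ∀ u, 0 ≤ pd S F u := fun u => by unfold pd; positivity
  simp only [fun u => abs_of_nonneg (p0 u)] at h5
  have h6 : (∑ u ∈ S, pd S F u) * rr F a ≤ (√(S.card : ℝ) * √(∑ u ∈ S, pd S F u ^ 2)) * R :=
    mul_le_mul h5 ha r0 (by positivity)
  have e3 : ∑ u ∈ S, ∑ v ∈ S, Bq S F u v a = 2 * ((∑ u ∈ S, pd S F u) * rr F a)
      + ∑ u ∈ S, ∑ v ∈ S, |F u v| * |F a u * F a v| + 2 * ∑ u ∈ S, |F a u| + 1 := by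
    simp only [Bq, sum_add_distrib, add_mul, ← mul_sum, ← sum_mul, sum_sq h, sum_const,
      nsmul_eq_mul]
    field_simp
    ring
  rw [e3]
  linarith

theorem sum_Eq' (h : Mat S F) {R k κ : ℝ} (hm : (1 : ℝ) ≤ S.card) (ha2 : a2 F ≤ S.card)
    (hR : 1 ≤ R) (ha : ∀ a, rr F a ≤ R) :
    ∑ u ∈ S, ∑ v ∈ S, ∑ a ∈ S, Eq' S F k κ u v a
      ≤ D2 S F * ((2 * (√(S.card : ℝ) * √(∑ u ∈ S, pd S F u ^ 2)) + 3 * √(S.card : ℝ) + 1 + R) * R)
        + 2 * (k ^ 4 * (∑ u ∈ S, pd S F u ^ 4) * S.card) + κ * R2 S F + 1 := by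
  have hm0 : (0 : ℝ) < S.card := by linarith
  rw [sum_congr rfl fun u _ => sum_comm, sum_comm]
  set M := (2 * (√(S.card : ℝ) * √(∑ u ∈ S, pd S F u ^ 2)) + 3 * √(S.card : ℝ) + 1) with hM
  have h1 : ∀ a ∈ S, ∑ u ∈ S, ∑ v ∈ S, Eq' S F k κ u v a ≤ F a a ^ 2 * ((M + R) * R)
      + 2 * (k ^ 4 * (∑ u ∈ S, pd S F u ^ 4)) * rr F a + κ * rr F a ^ 2
      + (1 / (S.card : ℝ)) ^ 2 := fun a _ => by
    have a1 := mul_le_mul_of_nonneg_left (inner_Bq h hm0 ha2 hR a (ha a)) (sq_nonneg (F a a))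
    have a2 : F a a ^ 2 * (rr F a * rr F a) ≤ F a a ^ 2 * (R * R) :=
      mul_le_mul_of_nonneg_left (mul_le_mul (ha a) (ha a) (h.rr_nonneg a) (by linarith))
        (sq_nonneg _)
    have e1 : ∑ u ∈ S, ∑ v ∈ S, Eq' S F k κ u v a
        = F a a ^ 2 * ∑ u ∈ S, ∑ v ∈ S, Bq S F u v a + F a a ^ 2 * (rr F a * rr F a)
          + 2 * (k ^ 4 * (∑ u ∈ S, pd S F u ^ 4)) * rr F a + κ * rr F a ^ 2
          + (1 / (S.card : ℝ)) ^ 2 := by
      simp only [Eq', sum_add_distrib, mul_pow, ← mul_sum, ← sum_mul, sum_sq h, sum_const,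
        nsmul_eq_mul]
      field_simp
      ring
    rw [e1]
    rw [← hM] at a1
    linarith
  refine (sum_le_sum h1).trans ?_
  simp only [sum_add_distrib, ← mul_sum, ← sum_mul, sum_const, nsmul_eq_mul, ← h.a2_eq]
  have a1 : (S.card : ℝ) * (1 / (S.card : ℝ)) ^ 2 ≤ 1 := by
    rw [show (S.card : ℝ) * (1 / (S.card : ℝ)) ^ 2 = 1 / S.card by field_simp, div_le_one hm0]
    exact hm
  have a3 : 2 * (k ^ 4 * (∑ u ∈ S, pd S F u ^ 4)) * a2 F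
      ≤ 2 * (k ^ 4 * (∑ u ∈ S, pd S F u ^ 4)) * S.card :=
    mul_le_mul_of_nonneg_left ha2 (by positivity)
  unfold D2 R2
  linarith

/-- the estimate for one pair -/
theorem pair {C : ℝ} (hC : 0 ≤ C) {c : Ctx ι} (hK : Big c.p.K) {u v : ι} (hw : c.w u v ≠ 0)
    (h6 : ∀ a ∈ rem c.S u v, |upd c.σ c.S c.F u v a a - c.F a a - main6 c.σ c.F u v a|
      ≤ C * err6 c.S c.F u v a) :
    D4 (rem c.S u v) (c.F' u v) ≤ D4 c.S c.F - 9 / 10 * (c.F u u ^ 4 + c.F v v ^ 4)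
      + 8 * c.σ * ∑ a ∈ c.S, c.F a a ^ 3 * (c.F a u * c.F a v)
      + (57 / 100 * (c.F v v ^ 4 * rr c.F u + c.F u u ^ 4 * rr c.F v)
        + C1 C * ∑ a ∈ c.S, Eq' c.S c.F (1 / c.p.K) (1 / c.p.K ^ 20) u v a) := by
  obtain ⟨hne, hu, hv, hf, -, hh1, -⟩ := c.wt.supp u v hw
  have hM := c.oF.mat
  have K0 := hK.pos
  have k1 := Ctx.inv_K_le hK
  have hd : ∀ a, |c.F a a| ≤ 1 := fun a => (c.oF.ent a a).trans (by norm_num)
  have e0 : (0 : ℝ) ≤ 1 / (c.S.card : ℝ) := by positivity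
  have ek : 1 / (c.S.card : ℝ) ≤ 1 / c.p.K := one_div_le_one_div_of_le K0 (Ctx.K_le_m hK)
  have hp : ∀ a, pd c.S c.F a ≤ 2 * (1 / c.p.K) := fun a => by
    rw [mul_one_div]; exact Ctx.pd_le hK a
  have hp' : ∀ a, 1 / (c.S.card : ℝ) ≤ pd c.S c.F a := fun a => by
    unfold pd; linarith [abs_nonneg (c.F a a)]
  have hp'' : ∀ a, |c.F a a| ≤ pd c.S c.F a := fun a => by unfold pd; linarith
  have h1 : ∀ a ∈ rem c.S u v, c.F' u v a a ^ 4 ≤ c.F a a ^ 4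
      + 8 * c.σ * (c.F a a ^ 3 * (c.F a u * c.F a v))
      + (57 / 100 * (c.F v v ^ 4 * c.F a u ^ 2 + c.F u u ^ 4 * c.F a v ^ 2)
        + C1 C * Eq' c.S c.F (1 / c.p.K) (1 / c.p.K ^ 20) u v a) := fun a ha => by
    obtain ⟨b1, b2, b3⟩ := err_bd (x := |c.F a u|) (y := |c.F a v|) (g := |c.F u v|)
      (abs_nonneg _) (abs_nonneg _) ((c.oF.ent a u).trans (by norm_num))
      ((c.oF.ent a v).trans (by norm_num)) e0 (hp' u) (hp' v) (hp u) (hp v) (abs_nonneg _)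
      (by linarith) (by linarith)
    simp only [sq_abs] at b1 b2 b3
    have e6 : err6 c.S c.F u v a = (1 / (c.S.card : ℝ) + pd c.S c.F v * (|c.F u v| + 1 / c.S.card)
          + pd c.S c.F v ^ 2) * c.F a u ^ 2
        + (1 / (c.S.card : ℝ) + pd c.S c.F u * (|c.F u v| + 1 / c.S.card) + pd c.S c.F u ^ 2)
          * c.F a v ^ 2
        + (|c.F u v| + 1 / c.S.card + pd c.S c.F u * pd c.S c.F v) * (|c.F a u| * |c.F a v|)
        + (|c.F a u| + |c.F a v|) * (1 / c.S.card)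
        + (pd c.S c.F u + pd c.S c.F v + (|c.F u v| + 1 / c.S.card)) * (1 / (c.S.card : ℝ)) ^ 2 := by
      simp only [err6, pe, ph0, ph, hM.symm v u, abs_mul]; ring
    rw [← e6] at b1 b2
    have eB : Bq c.S c.F u v a = pd c.S c.F v * c.F a u ^ 2 + pd c.S c.F u * c.F a v ^ 2
        + |c.F u v| * (|c.F a u| * |c.F a v|) + (|c.F a u| + |c.F a v|) * (1 / c.S.card)
        + (1 / (c.S.card : ℝ)) ^ 2 := by simp only [Bq, abs_mul]
    rw [← eB] at b1 b3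
    have hB : |c.F v v * c.F a u ^ 2 + c.F u u * c.F a v ^ 2| ≤ Bq c.S c.F u v a := by
      refine (abs_add_le _ _).trans ?_
      rw [abs_mul, abs_mul, abs_of_nonneg (sq_nonneg (c.F a u)),
        abs_of_nonneg (sq_nonneg (c.F a v)), eB]
      have t1 := mul_le_mul_of_nonneg_right (hp'' v) (sq_nonneg (c.F a u))
      have t2 := mul_le_mul_of_nonneg_right (hp'' u) (sq_nonneg (c.F a v))
      have t3 : 0 ≤ |c.F u v| * (|c.F a u| * |c.F a v|) := by positivity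
      have t4 : 0 ≤ (|c.F a u| + |c.F a v|) * (1 / (c.S.card : ℝ)) := by positivity
      have t5 := sq_nonneg (1 / (c.S.card : ℝ))
      linarith
    have hκ : c.F a u ^ 2 * c.F a v ^ 2 ≤ 1 / c.p.K ^ 20 :=
      (single_le_sum (f := fun a => c.F a u ^ 2 * c.F a v ^ 2) (fun _ _ => by positivity)
        (mem_univ a)).trans hh1
    have pn : ∀ b, 0 ≤ 1 / c.p.K * pd c.S c.F b := fun b =>
      mul_nonneg (by positivity) (e0.trans (hp' b))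
    have key := scal (ε := upd c.σ c.S c.F u v a a - c.F a a - main6 c.σ c.F u v a) c.sg hC (hd a)
      (c.oF.ent a u) (c.oF.ent a v) (hd u) (hd v) b3 hB
      ((h6 a ha).trans (mul_le_mul_of_nonneg_left b1 hC)) (pn v) (pn u) e0
      ((h6 a ha).trans (mul_le_mul_of_nonneg_left b2 hC)) hκ
    have e7 : c.F' u v a a = c.F a a + (c.F v v * c.F a u ^ 2 + c.F u u * c.F a v ^ 2
        + 2 * c.σ * c.F a u * c.F a v
        + (upd c.σ c.S c.F u v a a - c.F a a - main6 c.σ c.F u v a)) := by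
      simp only [Ctx.F', main6]; ring
    rw [e7, Eq']
    linarith only [key]
  have hsplit : ∀ g : ι → ℝ, ∑ a ∈ c.S, g a = ∑ a ∈ rem c.S u v, g a + g u + g v := fun g => by
    rw [← sum_erase_add c.S g hu, ← sum_erase_add (c.S.erase u) g (mem_erase.2 ⟨hne.symm, hv⟩), rem]
    ring
  have h2 : ∑ a ∈ rem c.S u v, (57 / 100 * (c.F v v ^ 4 * c.F a u ^ 2 + c.F u u ^ 4 * c.F a v ^ 2)
        + C1 C * Eq' c.S c.F (1 / c.p.K) (1 / c.p.K ^ 20) u v a)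
      ≤ 57 / 100 * (c.F v v ^ 4 * rr c.F u + c.F u u ^ 4 * rr c.F v)
        + C1 C * ∑ a ∈ c.S, Eq' c.S c.F (1 / c.p.K) (1 / c.p.K ^ 20) u v a := by
    refine (sum_le_sum_of_subset_of_nonneg (t := c.S) (fun a ha => (mem_rem.1 ha).1)
      fun a _ _ => ?_).trans (le_of_eq ?_)
    · have := mul_nonneg (C1_nonneg C)
        (Eq'_nonneg c.S c.F (1 / c.p.K) (κ := 1 / c.p.K ^ 20) (by positivity) u v a)
      positivity
    · simp only [sum_add_distrib, ← mul_sum, fun a => hM.symm a u, fun a => hM.symm a v, sum_sq hM]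
  have h3 := sum_le_sum h1
  rw [sum_add_distrib, sum_add_distrib, ← mul_sum] at h3
  have h4 := hsplit fun a => c.F a a ^ 4
  have h5 := hsplit fun a => c.F a a ^ 3 * (c.F a u * c.F a v)
  have hσf : |c.σ * c.F u v| ≤ 1 / 1000 := by
    have hs : |c.σ| = 1 := by rcases c.sg with h | h <;> simp [h]
    rw [abs_mul, hs, one_mul]; linarith
  have h7 : -(1 / 1000) * (c.F u u ^ 4 + c.F v v ^ 4)
      ≤ c.σ * c.F u v * (c.F u u ^ 4 + c.F v v ^ 4) :=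
    mul_le_mul_of_nonneg_right (abs_le.1 hσf).1 (by positivity)
  have h8 : 0 ≤ c.F u u ^ 4 + c.F v v ^ 4 := by positivity
  unfold D4
  rw [h4, h5, hM.symm v u]
  linarith only [h2, h3, h7, h8]

/-- the off-diagonal linear term -/
theorem lin (c : Ctx ι) {R : ℝ} (hR : ∀ a, rr c.F a ≤ R) :
    |∑ u, ∑ v, c.w u v * ∑ a ∈ c.S, c.F a a ^ 3 * (c.F a u * c.F a v)|
      ≤ D2 c.S c.F * ((1 + √(c.p.Gam2 c.m * c.m)) * R) := by
  have hM := c.oF.mat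
  have e1 : ∑ u, ∑ v, c.w u v * ∑ a ∈ c.S, c.F a a ^ 3 * (c.F a u * c.F a v)
      = ∑ a ∈ c.S, c.F a a ^ 3 * ∑ u, ∑ v, c.w u v * (c.F a u * c.F a v) := by
    simp only [mul_sum]
    rw [sum_congr rfl fun u _ => sum_comm, sum_comm]
    exact sum_congr rfl fun a _ => sum_congr rfl fun u _ => sum_congr rfl fun v _ => by ring
  rw [e1, D2, sum_mul]
  refine (abs_sum_le_sum_abs _ _).trans (sum_le_sum fun a _ => ?_)
  have r0 := hM.rr_nonneg a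
  have hrow : ∑ u ∈ c.S, c.F a u = 0 := by
    rw [← hM.row a]; exact sum_subset (subset_univ _) fun b _ hb => hM.supp' a b hb
  have h7 := c.G7 (fun u v => c.F a u * c.F a v) (by simp only [← mul_sum, hrow]; simp)
  have e2 : ∑ u ∈ c.S, ∑ v ∈ c.S, (c.F a u * c.F a v) ^ 2 = rr c.F a * rr c.F a := by
    simp only [mul_pow, ← mul_sum, ← sum_mul, sum_sq hM]
  simp only [← sq, sum_sq hM] at h7
  rw [e2, Real.sqrt_mul_self r0] at h7
  have a1 : |c.F a a ^ 3| ≤ c.F a a ^ 2 := by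
    rw [abs_pow, ← sq_abs (c.F a a), pow_succ]
    exact mul_le_of_le_one_right (sq_nonneg _) ((c.oF.ent a a).trans (by norm_num))
  refine PtTX.abs_mul_le a1 ?_
  have a2 := mul_le_mul_of_nonneg_left (hR a) (Real.sqrt_nonneg (c.p.Gam2 c.m * c.m))
  have a3 := hR a
  rw [abs_le] at h7 ⊢
  constructor <;> linarith [h7.1, h7.2]

/-- the exponent count -/
theorem expo {c : Ctx ι} (hK : Big c.p.K) {C : ℝ} (hC0 : 0 ≤ C) (hC : Le c.p.K C (1 / 100)) :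
    c.p.K ^ 4 * (8 * (D2 c.S c.F * ((1 + √(c.p.Gam2 c.m * c.m)) * c.R)) + 2 * (C *
      (D2 c.S c.F * ((2 * (√c.m * √(∑ u ∈ c.S, pd c.S c.F u ^ 2)) + 3 * √c.m + 1 + c.R) * c.R)
        + 2 * ((1 / c.p.K) ^ 4 * (∑ u ∈ c.S, pd c.S c.F u ^ 4) * c.m)
        + 1 / c.p.K ^ 20 * R2 c.S c.F + 1))) ≤ c.Ω * c.η := by
  have K0 := hK.pos
  have m0 := Ctx.m_pos hK
  have hμ := Ctx.μ_lo hK
  have hϱ := Ctx.ϱ_hi hK
  have R0 : 0 ≤ c.R := ((Ctx.sz_R hK).1.pos hK).le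
  have hR := (Ctx.sz_R hK).2
  have hD : Le c.p.K (D2 c.S c.F) (450 + c.ϱ + 1 / 100) := (Ctx.sz_TD hK).2.of_le c.oF.D2_T
  have hm := Ctx.le_m hK
  have hsm := Le.sqrt hK hm
  have G0 : 0 ≤ √(c.p.Gam2 c.m * c.m) := Real.sqrt_nonneg _
  have t1 : Le c.p.K (D2 c.S c.F * ((1 + √(c.p.Gam2 c.m * c.m)) * c.R)) (c.μ - 6) := by
    by_cases hI : c.p.phI c.m
    · have h1 := (Ctx.phI_iff hK).1 hI
      have g1 := Le.sqrt hK (Le.mul hK (Ctx.le_Gam2_I hK) hm m0.le)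
      have g2 := Le.add hK Le.one g1 (g := (1201 + c.μ) / 2) (by linarith) le_rfl
      refine (Le.mul hK hD (Le.mul hK g2 hR R0) (by positivity)).mono hK ?_
      linarith
    · have g1 := Le.sqrt hK (Le.mul hK (Ctx.le_Gam2 hK hI) hm m0.le)
      have g2 := Le.add hK Le.one g1 (g := (36 + c.μ) / 2) (by linarith) le_rfl
      refine (Le.mul hK hD (Le.mul hK g2 hR R0) (by positivity)).mono hK ?_
      rcases c.cases_W with ⟨h, h', _⟩ | ⟨h, h', _⟩ <;> rw [h'] <;> linarith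
  have hP2 := Le.sqrt hK ((Le.cmul hK (Ctx.sz_TD hK).2 (C := 4) (by norm_num) (by norm_num)).of_le
    (Ctx.P2_le hK))
  have u1 := Le.cmul hK (Le.mul hK hsm hP2 (Real.sqrt_nonneg _)) (C := 2) (by norm_num)
    (by norm_num)
  have u2 := Le.cmul hK hsm (C := 3) (by norm_num) (by norm_num)
  have u3 := Le.add hK u1 u2 (g := c.μ / 2 + 226) (by linarith) (by linarith)
  have u4 := Le.add hK u3 Le.one (g := c.μ / 2 + 227) (by linarith) (by linarith)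
  have t2 : Le c.p.K (D2 c.S c.F * ((2 * (√c.m * √(∑ u ∈ c.S, pd c.S c.F u ^ 2)) + 3 * √c.m + 1
      + c.R) * c.R)) (c.μ - 7) := by
    rcases c.cases_W with ⟨h, h', _⟩ | ⟨h, h', _⟩
    · have u5 := Le.add hK u4 hR (g := c.μ / 2 + 228) (by linarith) (by linarith)
      refine (Le.mul hK hD (Le.mul hK u5 hR R0) (by positivity)).mono hK ?_
      linarith
    · have u5 := Le.add hK u4 hR (g := c.μ / 2 + 228) (by linarith) (by linarith)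
      refine (Le.mul hK hD (Le.mul hK u5 hR R0) (by positivity)).mono hK ?_
      linarith
  have t3 : Le c.p.K (2 * ((1 / c.p.K) ^ 4 * (∑ u ∈ c.S, pd c.S c.F u ^ 4) * c.m)) (c.μ - 7) := by
    have v1 : Le c.p.K ((1 / c.p.K) ^ 4) (-4) := by
      rw [_root_.one_div_pow]; exact_mod_cast Ctx.le_inv_pow hK 4
    have v2 : Le c.p.K (∑ u ∈ c.S, pd c.S c.F u ^ 4) (-4 + 1 / 100 + 1 / 100) := by
      refine (Le.cmul hK (Le.cmul hK v1 (C := 4) (by norm_num) (by norm_num)) (C := 4)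
        (by norm_num) (by norm_num)).of_le ((Ctx.P4_le hK).trans (le_of_eq ?_))
      rw [_root_.one_div_pow]; ring
    refine (Le.cmul hK (Le.mul hK (Le.mul hK v1 v2 (by positivity)) hm m0.le) (C := 2)
      (by norm_num) (by norm_num)).mono hK ?_
    linarith
  have t4 : Le c.p.K (1 / c.p.K ^ 20 * R2 c.S c.F) (c.μ - 7) := by
    refine (Le.mul hK (Ctx.le_inv_pow hK 20) (Ctx.le_R2 hK) (by unfold R2; positivity)).mono hK ?_
    push_cast; linarith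
  have w1 := Le.add hK t2 t3 le_rfl le_rfl
  have w2 := Le.add hK w1 t4 le_rfl (by linarith)
  have w3 := Le.add hK w2 Le.one le_rfl (by linarith)
  have D0 : 0 ≤ D2 c.S c.F := by unfold D2; positivity
  have R20 : 0 ≤ R2 c.S c.F := by unfold R2; positivity
  have w4 := Le.cmul hK (Le.mul hK hC w3 (by positivity)) (C := 2) (by norm_num) (by norm_num)
  have w5 := Le.add hK (Le.cmul hK t1 (C := 8) (by norm_num) (by norm_num)) w4 le_rfl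
    (by linarith)
  have w6 := Le.mul hK (Le.K_pow 4) w5 (by positivity)
  refine w6.le_of_ge hK (Ctx.ge_Ωη hK) ?_
  push_cast; linarith

end TrD4X
open TrD4X

theorem trD4 : TrOne (fun p m => True) (fun _ _ _ p S F => pD4 p S F) := by
  obtain ⟨C, hC, h6⟩ := pt6
  obtain ⟨K1, hK1⟩ := exists_const (C1 C) (1 / 100) (by norm_num)
  refine ⟨K1, fun ι _ _ c hK1' _ _ => ?_⟩
  obtain ⟨hK, hC1⟩ := hK1 _ hK1'
  have hM := c.oF.mat
  have K0 := hK.pos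
  have m0 := Ctx.m_pos hK
  have hr : ∀ a, rr c.F a ≤ c.R ∧ 1 ≤ c.R := fun a => by
    have h1 := Ctx.ro_le hK a
    have h2 := hM.rr_nonneg a
    have h3 := c.oG.mat.rr_nonneg a
    constructor <;> linarith
  have hm1 : (1 : ℝ) ≤ c.S.card := le_trans (by norm_num) (Ctx.m_big hK)
  obtain ⟨a0, -⟩ : c.S.Nonempty := card_pos.1 (Nat.cast_pos.1 (lt_of_lt_of_le one_pos hm1))
  have D0 : 0 ≤ D4 c.S c.F := by unfold D4; positivity
  have s1 := c.sum_le_sum' fun u v hw =>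
    pair hC hK hw fun a ha => h6 ι c.σ c.S c.F u v a (Ctx.loc hK hw) ha
  have s2 : 9 / 10 * (c.m * D4 c.S c.F) ≤ ∑ u, ∑ v, c.w u v * c.F u u ^ 4 := by
    have h1 := (abs_le.1 (c.G6one fun u => c.F u u ^ 4)).1
    simp only [(by norm_num : Even 4).pow_abs, abs_pow] at h1
    have h2 := mul_le_mul_of_nonneg_right (Ctx.eps_le_half hK) (mul_nonneg m0.le D0)
    unfold D4 at *
    linarith
  have s2' : 9 / 10 * (c.m * D4 c.S c.F) ≤ ∑ u, ∑ v, c.w u v * c.F v v ^ 4 := by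
    rw [c.sum_comm']; exact s2
  have s3 := lin c fun a => (hr a).1
  have s3' : c.σ * ∑ u, ∑ v, c.w u v * ∑ a ∈ c.S, c.F a a ^ 3 * (c.F a u * c.F a v)
      ≤ D2 c.S c.F * ((1 + √(c.p.Gam2 c.m * c.m)) * c.R) := by
    have hs : |c.σ| = 1 := by rcases c.sg with h | h <;> simp [h]
    refine (le_abs_self _).trans ?_
    rw [abs_mul, hs, one_mul]; exact s3
  have s4 := c.sum_le_crude (Y := fun u v =>
      57 / 100 * (c.F v v ^ 4 * rr c.F u + c.F u u ^ 4 * rr c.F v)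
        + C1 C * ∑ a ∈ c.S, Eq' c.S c.F (1 / c.p.K) (1 / c.p.K ^ 20) u v a)
    (fun u v _ => le_rfl) (fun u _ v _ => by
      have h1 := hM.rr_nonneg u
      have h2 := hM.rr_nonneg v
      have h3 := mul_nonneg (C1_nonneg C) (sum_nonneg fun a (_ : a ∈ c.S) =>
        Eq'_nonneg c.S c.F (1 / c.p.K) (κ := 1 / c.p.K ^ 20) (by positivity) u v a)
      positivity)
  have e4 : ∑ u ∈ c.S, ∑ v ∈ c.S, (57 / 100 * (c.F v v ^ 4 * rr c.F u + c.F u u ^ 4 * rr c.F v)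
        + C1 C * ∑ a ∈ c.S, Eq' c.S c.F (1 / c.p.K) (1 / c.p.K ^ 20) u v a)
      = 57 / 50 * (a2 c.F * D4 c.S c.F)
        + C1 C * ∑ u ∈ c.S, ∑ v ∈ c.S, ∑ a ∈ c.S, Eq' c.S c.F (1 / c.p.K) (1 / c.p.K ^ 20) u v a := by
    simp only [sum_add_distrib, ← mul_sum, ← sum_mul, ← hM.a2_eq, D4]
    ring
  rw [e4] at s4
  have s5 := mul_le_mul_of_nonneg_left (sum_Eq' (k := 1 / c.p.K) (κ := 1 / c.p.K ^ 20) hM hm1
    (Ctx.a2_le_m hK) (hr a0).2 fun a => (hr a).1) (C1_nonneg C)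
  have s6 := mul_le_mul_of_nonneg_right (Ctx.a2_le_m hK) D0
  have s7 := expo hK (C1_nonneg C) hC1
  have s8 : 0 ≤ C1 C * ∑ u ∈ c.S, ∑ v ∈ c.S, ∑ a ∈ c.S,
      Eq' c.S c.F (1 / c.p.K) (1 / c.p.K ^ 20) u v a :=
    mul_nonneg (C1_nonneg C) (sum_nonneg fun u _ => sum_nonneg fun v _ => sum_nonneg fun a _ =>
      Eq'_nonneg c.S c.F (1 / c.p.K) (by positivity) u v a)
  have e1 : ∑ u, ∑ v, c.w u v * (D4 c.S c.F - 9 / 10 * (c.F u u ^ 4 + c.F v v ^ 4)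
      + 8 * c.σ * ∑ a ∈ c.S, c.F a a ^ 3 * (c.F a u * c.F a v)
      + (57 / 100 * (c.F v v ^ 4 * rr c.F u + c.F u u ^ 4 * rr c.F v)
        + C1 C * ∑ a ∈ c.S, Eq' c.S c.F (1 / c.p.K) (1 / c.p.K ^ 20) u v a))
      = c.Ω * D4 c.S c.F - 9 / 10 * (∑ u, ∑ v, c.w u v * c.F u u ^ 4
          + ∑ u, ∑ v, c.w u v * c.F v v ^ 4)
        + 8 * (c.σ * ∑ u, ∑ v, c.w u v * ∑ a ∈ c.S, c.F a a ^ 3 * (c.F a u * c.F a v))
        + ∑ u, ∑ v, c.w u v * (57 / 100 * (c.F v v ^ 4 * rr c.F u + c.F u u ^ 4 * rr c.F v)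
          + C1 C * ∑ a ∈ c.S, Eq' c.S c.F (1 / c.p.K) (1 / c.p.K ^ 20) u v a) := by
    rw [Ctx.Ω, sum_mul, ← sum_add_distrib, mul_sum, mul_sum, mul_sum, ← sum_sub_distrib,
      ← sum_add_distrib, ← sum_add_distrib]
    refine sum_congr rfl fun u _ => ?_
    rw [sum_mul, ← sum_add_distrib, mul_sum, mul_sum, mul_sum, ← sum_sub_distrib,
      ← sum_add_distrib, ← sum_add_distrib]
    exact sum_congr rfl fun v _ => by ring
  rw [e1] at s1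
  have e2 : ∑ u, ∑ v, c.w u v * pD4 c.p (rem c.S u v) (c.F' u v)
      = c.p.K ^ 4 * ∑ u, ∑ v, c.w u v * D4 (rem c.S u v) (c.F' u v) := by
    simp only [mul_sum, pD4]
    exact sum_congr rfl fun u _ => sum_congr rfl fun v _ => by ring
  have hmD : 0 ≤ c.m * D4 c.S c.F := mul_nonneg m0.le D0
  have s9 : ∑ u, ∑ v, c.w u v * D4 (rem c.S u v) (c.F' u v) ≤ c.Ω * D4 c.S c.F
      + (8 * (D2 c.S c.F * ((1 + √(c.p.Gam2 c.m * c.m)) * c.R)) + 2 * (C1 C *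
      (D2 c.S c.F * ((2 * (√c.m * √(∑ u ∈ c.S, pd c.S c.F u ^ 2)) + 3 * √c.m + 1 + c.R) * c.R)
        + 2 * ((1 / c.p.K) ^ 4 * (∑ u ∈ c.S, pd c.S c.F u ^ 4) * c.m)
        + 1 / c.p.K ^ 20 * R2 c.S c.F + 1))) := by
    unfold Ctx.m at *
    linarith only [s1, s2, s2', s3', s4, s5, s6, s8, hmD]
  have s10 := mul_le_mul_of_nonneg_left s9 (pow_nonneg K0.le 4)
  show ∑ u, ∑ v, c.w u v * pD4 c.p (rem c.S u v) (c.F' u v) ≤ c.Ω * (pD4 c.p c.S c.F + c.η)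
  rw [e2, pD4]
  linarith only [s10, s7]

end Crest.Agent.R62
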