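import Crest.Agent.R62.Upd
import Crest.Agent.R62.GenM

set_option autoImplicit false
set_option linter.unusedSectionVars false
set_option linter.unusedVariables false

open Finset Matrix

namespace Crest.Agent.R62

variable {ι V : Type} [Fintype ι] [DecidableEq ι] [Fintype V] [DecidableEq V]

namespace Pt5X

theorem sq3 (a b c : ℝ) : (a + b + c) ^ 2 ≤ 3 * (a ^ 2 + b ^ 2 + c ^ 2) := by
  nlinarith [sq_nonneg (a - b), sq_nonneg (b - c), sq_nonneg (a - c)]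

theorem sq4 (a b c d : ℝ) : ((a + c) + (b + d)) ^ 2 ≤ 4 * (a ^ 2 + b ^ 2 + c ^ 2 + d ^ 2) := by
  nlinarith [sq_nonneg (a - b), sq_nonneg (a - c), sq_nonneg (a - d), sq_nonneg (b - c),
    sq_nonneg (b - d), sq_nonneg (c - d)]

theorem sum_split {S : Finset ι} {u v : ι} (h : u ≠ v) (hu : u ∈ S) (hv : v ∈ S) (g : ι → ℝ)
    (hg : ∀ b, b ∉ S → g b = 0) : ∑ b, g b = ∑ b ∈ rem S u v, g b + g u + g v := by
  have h1 : v ∈ S.erase u := mem_erase.2 ⟨h.symm, hv⟩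
  rw [← sum_subset (subset_univ S) (fun b _ hb => hg b hb), ← sum_erase_add S g hu,
    ← sum_erase_add (S.erase u) g h1, rem]
  ring

/-- coefficient of `F e_u` in the column `a` of the update -/
noncomputable def al (σ : ℝ) (S : Finset ι) (F : Matrix ι ι ℝ) (u v a : ι) : ℝ :=
  n1 σ S F u v * (F a u + σ * (1 / S.card)) + n2 σ S F u v * (F a v + σ * (1 / S.card))

/-- exact formula for the new `r_a` -/
theorem rr_upd {σ : ℝ} {S : Finset ι} {F : Matrix ι ι ℝ} {u v a : ι} (h : Loc σ S F u v)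
    (ha : a ∈ rem S u v) :
    rr (upd σ S F u v) a = rr F a + 2 * al σ S F u v a * (F * F) a u
      + 2 * al σ S F v u a * (F * F) a v + al σ S F u v a ^ 2 * rr F u
      + al σ S F v u a ^ 2 * rr F v + 2 * al σ S F u v a * al σ S F v u a * (F * F) u v
      - (F a u + (al σ S F u v a * F u u + al σ S F v u a * F u v)) ^ 2
      - (F a v + (al σ S F v u a * F v v + al σ S F u v a * F u v)) ^ 2
      - 1 / ((S.card : ℝ) - 2) * ((F a u + (al σ S F u v a * F u u + al σ S F v u a * F u v))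
        + (F a v + (al σ S F v u a * F v v + al σ S F u v a * F u v))) ^ 2 := by
  set α := al σ S F u v a with hα
  set β := al σ S F v u a with hβ
  have hm2 : (S.card : ℝ) - 2 ≠ 0 := by have := h.big; intro h0; linarith
  have hP : ∀ b ∈ rem S u v, (prj S : Matrix ι ι ℝ) b u = -(1 / S.card) ∧
      (prj S : Matrix ι ι ℝ) b v = -(1 / S.card) := fun b hb => by
    obtain ⟨h1, h2, h3⟩ := mem_rem.1 hb
    simp [prj, h1, h2, h3, h.hu, h.hv]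
  set g : ι → ℝ := fun b => F a b + α * F b u + β * F b v with hg
  obtain ⟨c, hc⟩ : ∃ c, ∀ b ∈ rem S u v, upd σ S F u v a b = g b + c := by
    refine ⟨(α + β) * (σ * (1 / S.card)) - σ * (2 * (1 / S.card) ^ 2
      + 4 * (1 / S.card) ^ 2 / ((S.card : ℝ) - 2)), fun b hb => ?_⟩
    simp only [hg, hα, hβ, al, upd, hat, n1, n2, (hP a ha).1, (hP a ha).2, (hP b hb).1,
      (hP b hb).2, h.psi_swap, h.ww_swap]
    ring
  have hM := h.mat_upd
  have hgs : ∀ b, b ∉ S → g b = 0 := fun b hb => by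
    simp only [hg, h.mat.supp' a b hb, h.mat.supp b _ hb]; ring
  have hg0 : ∑ b, g b = 0 := by
    simp only [hg, sum_add_distrib, ← mul_sum, h.mat.row, fun b => h.mat.symm b u,
      fun b => h.mat.symm b v]
    ring
  have s1 := sum_split h.ne h.hu h.hv g hgs
  have s2 := sum_split h.ne h.hu h.hv (fun b => g b ^ 2) (fun b hb => by simp [hgs b hb])
  have hcard := card_rem_real h.ne h.hu h.hv
  have r0 : ∑ b ∈ rem S u v, (g b + c) = 0 := by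
    rw [← hM.row a, ← sum_subset (subset_univ (rem S u v)) (fun b _ hb => hM.supp' a b hb)]
    exact sum_congr rfl fun b hb => (hc b hb).symm
  rw [sum_add_distrib, sum_const, nsmul_eq_mul, hcard] at r0
  have r1 : rr (upd σ S F u v) a = ∑ b ∈ rem S u v, g b ^ 2 + 2 * c * ∑ b ∈ rem S u v, g b
      + ((S.card : ℝ) - 2) * c ^ 2 := by
    rw [hM.rr_eq, ← sum_subset (subset_univ (rem S u v))
      (fun b _ hb => by rw [hM.supp' a b hb]; ring), sum_congr rfl fun b hb => by rw [hc b hb],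
      mul_sum, ← hcard, ← nsmul_eq_mul, ← sum_const, ← sum_add_distrib, ← sum_add_distrib]
    exact sum_congr rfl fun b _ => by ring
  have r2 : ∑ b, g b ^ 2 = rr F a + 2 * α * (F * F) a u + 2 * β * (F * F) a v + α ^ 2 * rr F u
      + β ^ 2 * rr F v + 2 * α * β * (F * F) u v := by
    simp only [rr, mul_apply, mul_sum, ← sum_add_distrib]
    refine sum_congr rfl fun b _ => ?_
    simp only [hg, h.mat.symm b a, h.mat.symm u b, h.mat.symm v b]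
    ring
  have gu : g u = F a u + (α * F u u + β * F u v) := by simp only [hg]; ring
  have gv : g v = F a v + (β * F v v + α * F u v) := by simp only [hg, h.mat.symm v u]; ring
  rw [← gu, ← gv, ← r2, r1]
  have c1 : c = 1 / ((S.card : ℝ) - 2) * (g u + g v) := by
    field_simp; linarith
  have c2 : ∑ b ∈ rem S u v, g b = -(g u + g v) := by linarith
  rw [c2, s2, c1]
  field_simp
  ring

/-- size of the coefficient `α` -/
theorem al_bd {σ e fu fv n1 n2 Dv φ0 pv pe : ℝ} (hσ : σ = 1 ∨ σ = -1) (he : 0 ≤ e)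
    (h2 : |n2 - σ| ≤ 2 * φ0) (hφ : φ0 ≤ 1 / 100) (h1 : |n1| ≤ 2 * pv) (hp : pv ≤ 1 / 100)
    (h3 : |n1 - Dv| ≤ 3 * pe) :
    |n1 * (fu + σ * e) + n2 * (fv + σ * e) - σ * fv| ≤ 2 * (φ0 * |fv| + pv * |fu| + e) ∧
    |n1 * (fu + σ * e) + n2 * (fv + σ * e) - σ * fv - Dv * fu|
      ≤ 3 * pe * |fu| + 2 * φ0 * |fv| + 2 * e ∧
    |n1 * (fu + σ * e) + n2 * (fv + σ * e)| ≤ 2 * (|fv| + pv * |fu| + e) := by
  have hs : |σ| = 1 := by rcases hσ with h | h <;> simp [h]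
  have k1 : |n1 + n2| ≤ 2 := by
    have : n1 + n2 = n1 + (n2 - σ) + σ := by ring
    rw [this]
    have := abs_add_le (n1 + (n2 - σ)) σ
    have := abs_add_le n1 (n2 - σ)
    linarith
  have k2 : |σ * e * (n1 + n2)| ≤ 2 * e := by
    rw [abs_mul, abs_mul, hs, one_mul, abs_of_nonneg he]; nlinarith
  have k3 : |(n2 - σ) * fv| ≤ 2 * φ0 * |fv| := by
    rw [abs_mul]; exact mul_le_mul_of_nonneg_right h2 (abs_nonneg _)
  have k4 : |n1 * fu| ≤ 2 * pv * |fu| := by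
    rw [abs_mul]; exact mul_le_mul_of_nonneg_right h1 (abs_nonneg _)
  have k5 : |(n1 - Dv) * fu| ≤ 3 * pe * |fu| := by
    rw [abs_mul]; exact mul_le_mul_of_nonneg_right h3 (abs_nonneg _)
  have k6 : |σ * fv| = |fv| := by rw [abs_mul, hs, one_mul]
  have k7 : φ0 * |fv| ≤ 1 / 100 * |fv| := mul_le_mul_of_nonneg_right hφ (abs_nonneg _)
  have k8 := abs_nonneg fv
  have k9 := le_abs_self (σ * fv)
  have k10 := neg_abs_le (σ * fv)
  rw [abs_le] at k2 k3 k4 k5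
  refine ⟨abs_le.2 ⟨?_, ?_⟩, abs_le.2 ⟨?_, ?_⟩, abs_le.2 ⟨?_, ?_⟩⟩ <;>
    linarith [k2.1, k2.2, k3.1, k3.2, k4.1, k4.2, k5.1, k5.2]

theorem T2_bd {σ α fv r ϱ x e φ0 pv : ℝ} (hσ : σ = 1 ∨ σ = -1) (he : 0 ≤ e) (hx : 0 ≤ x)
    (hφ0 : 0 ≤ φ0) (hφ : φ0 ≤ 1) (hp : 0 ≤ pv) (hr : 0 ≤ r) (hϱ : r ≤ ϱ)
    (h : |α - σ * fv| ≤ 2 * (φ0 * |fv| + pv * x + e)) :
    |(α ^ 2 - fv ^ 2) * r| ≤ 16 * (φ0 * |fv| ^ 2 * ϱ) + 4 * (x * |fv| * pv * ϱ) + 4 * (e * |fv| * ϱ)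
      + 12 * (x ^ 2 * pv ^ 2 * ϱ) + 12 * (e ^ 2 * r) := by
  have hs : |σ| = 1 := by rcases hσ with h | h <;> simp [h]
  have hs2 : σ ^ 2 = 1 := by rcases hσ with h | h <;> simp [h]
  set y := |fv| with hy
  have y0 : 0 ≤ y := abs_nonneg _
  set ρ := α - σ * fv with hρ
  have e1 : α ^ 2 - fv ^ 2 = 2 * (σ * fv * ρ) + ρ ^ 2 := by
    rw [hρ]; linear_combination (fv ^ 2) * hs2
  have k1 : |σ * fv * ρ| ≤ y * (2 * (φ0 * y + pv * x + e)) := by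
    rw [abs_mul, abs_mul, hs, one_mul]; exact mul_le_mul_of_nonneg_left h y0
  have k2 : ρ ^ 2 ≤ 12 * (φ0 * y ^ 2 + pv ^ 2 * x ^ 2 + e ^ 2) := by
    have a1 : ρ ^ 2 ≤ (2 * (φ0 * y + pv * x + e)) ^ 2 := by
      rw [← sq_abs ρ]; exact pow_le_pow_left₀ (abs_nonneg _) h 2
    have a2 := sq3 (φ0 * y) (pv * x) e
    have a3 : φ0 * (φ0 * y ^ 2) ≤ 1 * (φ0 * y ^ 2) :=
      mul_le_mul_of_nonneg_right hφ (by positivity)
    nlinarith
  have k3 : |α ^ 2 - fv ^ 2| ≤ (16 * (φ0 * y ^ 2) + 4 * (x * y * pv) + 4 * (e * y)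
      + 12 * (x ^ 2 * pv ^ 2)) + 12 * e ^ 2 := by
    rw [e1]
    have := sq_nonneg ρ
    rw [abs_le] at k1 ⊢
    constructor <;> nlinarith [k1.1, k1.2]
  rw [abs_mul, abs_of_nonneg hr]
  have k4 := mul_le_mul_of_nonneg_right k3 hr
  have k5 : (16 * (φ0 * y ^ 2) + 4 * (x * y * pv) + 4 * (e * y) + 12 * (x ^ 2 * pv ^ 2)) * r
      ≤ (16 * (φ0 * y ^ 2) + 4 * (x * y * pv) + 4 * (e * y) + 12 * (x ^ 2 * pv ^ 2)) * ϱ :=
    mul_le_mul_of_nonneg_left hϱ (by positivity)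
  linarith

theorem T3_bd {α β o x y e pu pv s ϱ : ℝ} (he : 0 ≤ e) (hx : 0 ≤ x) (hy : 0 ≤ y)
    (hpu : 0 ≤ pu) (hpu1 : pu ≤ 1) (hpv : 0 ≤ pv) (hpv1 : pv ≤ 1) (ho : |o| ≤ s) (hs : s ≤ ϱ)
    (hα : |α| ≤ 2 * (y + pv * x + e)) (hβ : |β| ≤ 2 * (x + pu * y + e)) :
    |2 * α * β * o| ≤ 16 * (x * y * |o|) + 8 * (y ^ 2 * pu * |o|) + 8 * (x ^ 2 * pv * |o|)
      + 16 * ((x + y) * ϱ * e) + 8 * (s * e ^ 2) := by
  set O := |o| with hO
  have O0 : 0 ≤ O := abs_nonneg _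
  have k1 : |2 * α * β * o| ≤ 2 * (2 * (y + pv * x + e)) * (2 * (x + pu * y + e)) * O := by
    rw [abs_mul, abs_mul, abs_mul, abs_two]
    gcongr
  have k2 : pu * pv ≤ 1 := mul_le_one₀ hpu1 hpv hpv1
  have k3 : pu * pv * (x * y * O) ≤ 1 * (x * y * O) := mul_le_mul_of_nonneg_right k2 (by positivity)
  have k4 : pv * (e * x * O) ≤ 1 * (e * x * O) := mul_le_mul_of_nonneg_right hpv1 (by positivity)
  have k5 : pu * (e * y * O) ≤ 1 * (e * y * O) := mul_le_mul_of_nonneg_right hpu1 (by positivity)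
  have k6 : (x + y) * e * O ≤ (x + y) * e * ϱ :=
    mul_le_mul_of_nonneg_left (ho.trans hs) (by positivity)
  have k7 : e ^ 2 * O ≤ e ^ 2 * s := mul_le_mul_of_nonneg_left ho (by positivity)
  linarith

theorem T4_bd {α β fu D f y e pu pv φ0 r : ℝ} (he : 0 ≤ e) (hy : 0 ≤ y)
    (hpu : 0 ≤ pu) (hpu1 : pu ≤ 1) (hpv : 0 ≤ pv) (hφ1 : φ0 ≤ 1) (hpp : pu * pv ≤ φ0)
    (hD : |D| ≤ pu) (hf : |f| ≤ φ0) (hDr : D ^ 2 ≤ r) (hfr : f ^ 2 ≤ r)
    (hα : |α| ≤ 2 * (y + pv * |fu| + e)) (hβ : |β| ≤ 2 * (|fu| + pu * y + e)) :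
    |fu * (α * D + β * f)| ≤ 4 * (|fu| * y * pu) + 4 * (φ0 * |fu| ^ 2) + 4 * (e * |fu|) ∧
    (α * D + β * f) ^ 2 ≤ 48 * (y ^ 2 * pu ^ 2) + 24 * (|fu| ^ 2 * pv ^ 2) + 24 * (φ0 * |fu| ^ 2)
      + 48 * (e ^ 2 * r) := by
  set x := |fu| with hx
  have x0 : 0 ≤ x := abs_nonneg _
  have φ00 : 0 ≤ φ0 := (abs_nonneg _).trans hf
  constructor
  · have k1 : |fu * (α * D + β * f)| ≤
        x * (2 * (y + pv * x + e) * pu + 2 * (x + pu * y + e) * φ0) := by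
      rw [abs_mul]
      refine mul_le_mul_of_nonneg_left ((abs_add_le _ _).trans ?_) x0
      rw [abs_mul, abs_mul]
      gcongr
    have k2 : pu * pv * x ^ 2 ≤ φ0 * x ^ 2 := mul_le_mul_of_nonneg_right hpp (by positivity)
    have k3 : pu * (e * x) ≤ 1 * (e * x) := mul_le_mul_of_nonneg_right hpu1 (by positivity)
    have k4 : φ0 * (e * x) ≤ 1 * (e * x) := mul_le_mul_of_nonneg_right hφ1 (by positivity)
    have k5 : φ0 * (x * y * pu) ≤ 1 * (x * y * pu) := mul_le_mul_of_nonneg_right hφ1 (by positivity)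
    linarith
  · have a1 : α ^ 2 ≤ 12 * (y ^ 2 + pv ^ 2 * x ^ 2 + e ^ 2) := by
      have a1 : α ^ 2 ≤ (2 * (y + pv * x + e)) ^ 2 := by
        rw [← sq_abs α]; exact pow_le_pow_left₀ (abs_nonneg _) hα 2
      have a2 := sq3 y (pv * x) e
      nlinarith
    have a2 : β ^ 2 ≤ 12 * (x ^ 2 + pu ^ 2 * y ^ 2 + e ^ 2) := by
      have a1 : β ^ 2 ≤ (2 * (x + pu * y + e)) ^ 2 := by
        rw [← sq_abs β]; exact pow_le_pow_left₀ (abs_nonneg _) hβ 2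
      have a2 := sq3 x (pu * y) e
      nlinarith
    have a3 : (α * D + β * f) ^ 2 ≤ 2 * (α ^ 2 * D ^ 2) + 2 * (β ^ 2 * f ^ 2) := by
      nlinarith [sq_nonneg (α * D - β * f)]
    have a4 := mul_le_mul_of_nonneg_right a1 (sq_nonneg D)
    have a5 := mul_le_mul_of_nonneg_right a2 (sq_nonneg f)
    have d1 : D ^ 2 ≤ pu ^ 2 := by rw [← sq_abs D]; exact pow_le_pow_left₀ (abs_nonneg _) hD 2
    have d2 : D ^ 2 ≤ 1 := d1.trans (pow_le_one₀ hpu hpu1)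
    have f1 : f ^ 2 ≤ φ0 := by
      have : f ^ 2 ≤ φ0 ^ 2 := by rw [← sq_abs f]; exact pow_le_pow_left₀ (abs_nonneg _) hf 2
      nlinarith
    have f2 : f ^ 2 ≤ 1 := f1.trans hφ1
    have b1 : y ^ 2 * D ^ 2 ≤ y ^ 2 * pu ^ 2 := mul_le_mul_of_nonneg_left d1 (by positivity)
    have b2 : pv ^ 2 * x ^ 2 * D ^ 2 ≤ pv ^ 2 * x ^ 2 * 1 :=
      mul_le_mul_of_nonneg_left d2 (by positivity)
    have b3 : e ^ 2 * D ^ 2 ≤ e ^ 2 * r := mul_le_mul_of_nonneg_left hDr (by positivity)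
    have b4 : x ^ 2 * f ^ 2 ≤ x ^ 2 * φ0 := mul_le_mul_of_nonneg_left f1 (by positivity)
    have b5 : pu ^ 2 * y ^ 2 * f ^ 2 ≤ pu ^ 2 * y ^ 2 * 1 :=
      mul_le_mul_of_nonneg_left f2 (by positivity)
    have b6 : e ^ 2 * f ^ 2 ≤ e ^ 2 * r := mul_le_mul_of_nonneg_left hfr (by positivity)
    linarith

set_option maxHeartbeats 2000000 in
/-- the scalar core -/
theorem core {σ α β fu fv Yu Yv ru rv o Du Dv f e t pu pv φ0 peu pev : ℝ}
    (hσ : σ = 1 ∨ σ = -1) (he : 0 ≤ e) (he1 : e ≤ 1 / 8) (ht0 : 0 ≤ t) (ht : t ≤ 2 * e)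
    (hpu : 0 ≤ pu) (hpu1 : pu ≤ 1) (hpv : 0 ≤ pv) (hpv1 : pv ≤ 1) (hφ1 : φ0 ≤ 1)
    (hpp : pu * pv ≤ φ0) (heφ : e ≤ φ0) (hpeu : 0 ≤ peu) (hpev : 0 ≤ pev)
    (hDu : |Du| ≤ pu) (hDv : |Dv| ≤ pv) (hf : |f| ≤ φ0) (hDru : Du ^ 2 ≤ ru) (hDrv : Dv ^ 2 ≤ rv)
    (hfu : f ^ 2 ≤ ru) (hfv : f ^ 2 ≤ rv) (ho : |o| ≤ ru + rv)
    (a1 : |α - σ * fv| ≤ 2 * (φ0 * |fv| + pv * |fu| + e))
    (a2 : |α - σ * fv - Dv * fu| ≤ 3 * peu * |fu| + 2 * φ0 * |fv| + 2 * e)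
    (a3 : |α| ≤ 2 * (|fv| + pv * |fu| + e))
    (b1 : |β - σ * fu| ≤ 2 * (φ0 * |fu| + pu * |fv| + e))
    (b2 : |β - σ * fu - Du * fv| ≤ 3 * pev * |fv| + 2 * φ0 * |fu| + 2 * e)
    (b3 : |β| ≤ 2 * (|fu| + pu * |fv| + e)) :
    |2 * α * Yu + 2 * β * Yv + α ^ 2 * ru + β ^ 2 * rv + 2 * α * β * o
      - (fu + (α * Du + β * f)) ^ 2 - (fv + (β * Dv + α * f)) ^ 2
      - t * ((fu + (α * Du + β * f)) + (fv + (β * Dv + α * f))) ^ 2
      - (fu ^ 2 * (rv - 1) + fv ^ 2 * (ru - 1) + 2 * σ * (fv * Yu + fu * Yv)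
        + 2 * Dv * fu * Yu + 2 * Du * fv * Yv)|
    ≤ 200 * (φ0 * (|fu| ^ 2 * (1 + rv) + |fv| ^ 2 * (1 + ru) + |fv| * |Yu| + |fu| * |Yv|)
      + peu * (|fu| * |Yu|) + pev * (|fv| * |Yv|)
      + |fu| * |fv| * (|o| + pv * (1 + ru) + pu * (1 + rv))
      + |fu| ^ 2 * (pv * |o| + pv ^ 2 * (1 + ru)) + |fv| ^ 2 * (pu * |o| + pu ^ 2 * (1 + rv))
      + (|Yu| + |Yv| + (|fu| + |fv|) * ((1 + ru) + (1 + rv))) * e + (ru + rv) * e ^ 2) := by
  have ru0 : 0 ≤ ru := (sq_nonneg _).trans hfu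
  have rv0 : 0 ≤ rv := (sq_nonneg _).trans hfv
  have φ00 : 0 ≤ φ0 := he.trans heφ
  have x0 := abs_nonneg fu
  have y0 := abs_nonneg fv
  have t1u : |(α - σ * fv - Dv * fu) * Yu| ≤ (3 * peu * |fu| + 2 * φ0 * |fv| + 2 * e) * |Yu| := by
    rw [abs_mul]; exact mul_le_mul_of_nonneg_right a2 (abs_nonneg _)
  have t1v : |(β - σ * fu - Du * fv) * Yv| ≤ (3 * pev * |fv| + 2 * φ0 * |fu| + 2 * e) * |Yv| := by
    rw [abs_mul]; exact mul_le_mul_of_nonneg_right b2 (abs_nonneg _)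
  have t2u := T2_bd (ϱ := 1 + ru) hσ he x0 φ00 hφ1 hpv ru0 (by linarith) a1
  have t2v := T2_bd (ϱ := 1 + rv) hσ he y0 φ00 hφ1 hpu rv0 (by linarith) b1
  have t3 := T3_bd (ϱ := (1 + ru) + (1 + rv)) he x0 y0 hpu hpu1 hpv hpv1 ho (by linarith) a3 b3
  obtain ⟨t4u, t5u⟩ := T4_bd he y0 hpu hpu1 hpv hφ1 hpp hDu hf hDru hfu a3 b3
  obtain ⟨t4v, t5v⟩ := T4_bd he x0 hpv hpv1 hpu hφ1 (by rw [mul_comm]; exact hpp) hDv hf hDrv hfv
    b3 a3
  set hu := α * Du + β * f with hhu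
  set hv := β * Dv + α * f with hhv
  have t6 : t * ((fu + hu) + (fv + hv)) ^ 2 ≤ 8 * (φ0 * |fu| ^ 2) + 8 * (φ0 * |fv| ^ 2)
      + hu ^ 2 + hv ^ 2 := by
    have c1 := sq4 fu fv hu hv
    have c2 : t * ((fu + hu) + (fv + hv)) ^ 2 ≤ 2 * e * (4 * (fu ^ 2 + fv ^ 2 + hu ^ 2 + hv ^ 2)) :=
      mul_le_mul ht c1 (sq_nonneg _) (by positivity)
    have c3 : e * (fu ^ 2 + fv ^ 2) ≤ φ0 * (fu ^ 2 + fv ^ 2) :=
      mul_le_mul_of_nonneg_right heφ (by positivity)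
    have c4 : e * (hu ^ 2 + hv ^ 2) ≤ 1 / 8 * (hu ^ 2 + hv ^ 2) :=
      mul_le_mul_of_nonneg_right he1 (by positivity)
    rw [sq_abs, sq_abs]
    linarith only [c2, c3, c4]
  have t7 : 0 ≤ t * ((fu + hu) + (fv + hv)) ^ 2 := by positivity
  have e1 : 2 * α * Yu + 2 * β * Yv + α ^ 2 * ru + β ^ 2 * rv + 2 * α * β * o
      - (fu + hu) ^ 2 - (fv + hv) ^ 2 - t * ((fu + hu) + (fv + hv)) ^ 2
      - (fu ^ 2 * (rv - 1) + fv ^ 2 * (ru - 1) + 2 * σ * (fv * Yu + fu * Yv)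
        + 2 * Dv * fu * Yu + 2 * Du * fv * Yv)
      = 2 * ((α - σ * fv - Dv * fu) * Yu) + 2 * ((β - σ * fu - Du * fv) * Yv)
        + (α ^ 2 - fv ^ 2) * ru + (β ^ 2 - fu ^ 2) * rv + 2 * α * β * o
        - 2 * (fu * hu) - 2 * (fv * hv) - hu ^ 2 - hv ^ 2 - t * ((fu + hu) + (fv + hv)) ^ 2 := by
    ring
  rw [e1]
  have q1 := sq_nonneg hu
  have q2 := sq_nonneg hv
  generalize (α - σ * fv - Dv * fu) * Yu = A1 at *
  generalize (β - σ * fu - Du * fv) * Yv = A2 at *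
  generalize (α ^ 2 - fv ^ 2) * ru = A3 at *
  generalize (β ^ 2 - fu ^ 2) * rv = A4 at *
  generalize 2 * α * β * o = A5 at *
  generalize fu * hu = A6 at *
  generalize fv * hv = A7 at *
  generalize t * ((fu + hu) + (fv + hv)) ^ 2 = A10 at *
  generalize hu ^ 2 = A8 at *
  generalize hv ^ 2 = A9 at *
  have U0 := abs_nonneg Yu
  have V0 := abs_nonneg Yv
  have O0 := abs_nonneg o
  generalize |fu| = x at *
  generalize |fv| = y at *
  generalize |Yu| = U at *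
  generalize |Yv| = V at *
  generalize |o| = O at *
  have m1 : 0 ≤ φ0 * x ^ 2 := by positivity
  have m1' : 0 ≤ φ0 * x ^ 2 * rv := by positivity
  have m2 : 0 ≤ φ0 * y ^ 2 := by positivity
  have m2' : 0 ≤ φ0 * y ^ 2 * ru := by positivity
  have m3 : 0 ≤ φ0 * y * U := by positivity
  have m4 : 0 ≤ φ0 * x * V := by positivity
  have m5 : 0 ≤ peu * x * U := by positivity
  have m6 : 0 ≤ pev * y * V := by positivity
  have m7 : 0 ≤ x * y * O := by positivity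
  have m8 : 0 ≤ x * y * pv := by positivity
  have m8' : 0 ≤ x * y * pv * ru := by positivity
  have m9 : 0 ≤ x * y * pu := by positivity
  have m9' : 0 ≤ x * y * pu * rv := by positivity
  have m10 : 0 ≤ x ^ 2 * pv * O := by positivity
  have m11 : 0 ≤ x ^ 2 * pv ^ 2 := by positivity
  have m11' : 0 ≤ x ^ 2 * pv ^ 2 * ru := by positivity
  have m12 : 0 ≤ y ^ 2 * pu * O := by positivity
  have m13 : 0 ≤ y ^ 2 * pu ^ 2 := by positivity
  have m13' : 0 ≤ y ^ 2 * pu ^ 2 * rv := by positivity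
  have m14 : 0 ≤ U * e := by positivity
  have m15 : 0 ≤ V * e := by positivity
  have m16 : 0 ≤ x * e := by positivity
  have m16' : 0 ≤ x * e * ru := by positivity
  have m16'' : 0 ≤ x * e * rv := by positivity
  have m17 : 0 ≤ y * e := by positivity
  have m17' : 0 ≤ y * e * ru := by positivity
  have m17'' : 0 ≤ y * e * rv := by positivity
  have m18 : 0 ≤ ru * e ^ 2 := by positivity
  have m19 : 0 ≤ rv * e ^ 2 := by positivity
  rw [abs_le] at t1u t1v t2u t2v t3 t4u t4v ⊢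
  obtain ⟨t1u, t1u'⟩ := t1u
  obtain ⟨t1v, t1v'⟩ := t1v
  obtain ⟨t2u, t2u'⟩ := t2u
  obtain ⟨t2v, t2v'⟩ := t2v
  obtain ⟨t3, t3'⟩ := t3
  obtain ⟨t4u, t4u'⟩ := t4u
  obtain ⟨t4v, t4v'⟩ := t4v
  constructor
  · linarith only [t1u, t1v, t2u, t2v, t3, t4u', t4v', t5u, t5v, t6, m1, m1', m2, m2', m3, m4, m5,
      m6, m7, m8, m8', m9, m9', m10, m11, m11', m12, m13, m13', m14, m15, m16, m16', m16'', m17,
      m17', m17'', m18, m19]
  · linarith only [t1u', t1v', t2u', t2v', t3', t4u, t4v, q1, q2, t7, m1, m1', m2, m2', m3, m4, m5,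
      m6, m7, m8, m8', m9, m9', m10, m11, m11', m12, m13, m13', m14, m15, m16, m16', m16'', m17,
      m17', m17'', m18, m19]

end Pt5X
open Pt5X

/-- Pointwise change of `r_a = (F²)_aa`. -/
theorem pt5 : ∃ C : ℝ, 0 ≤ C ∧ ∀ (ι : Type) [Fintype ι] [DecidableEq ι] (σ : ℝ) (S : Finset ι) (F : Matrix ι ι ℝ)
    (u v a : ι), Loc σ S F u v → a ∈ rem S u v →
    |rr (upd σ S F u v) a - rr F a - main5 σ F u v a| ≤ C * err5 S F u v a := by
  refine ⟨200, by norm_num, fun ι _ _ σ S F u v a h ha => ?_⟩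
  obtain ⟨s1, s2, s3, s4, s5, s6⟩ := h.small
  obtain ⟨i1, i2⟩ := h.inv_card
  have hb := h.big
  have hsw : ph0 S F v u = ph0 S F u v := by simp only [ph0, ph, h.mat.symm v u]; ring
  have hpp : pd S F u * pd S F v ≤ 2 / 1000 * (2 / 1000) := mul_le_mul s4 s6 s5 (by norm_num)
  have hpp0 : 0 ≤ pd S F u * pd S F v := mul_nonneg s3 s5
  have hφ : ph0 S F u v ≤ 1 / 100 := by rw [ph0]; linarith
  obtain ⟨a1, a2, a3⟩ := al_bd (fu := F a u) (fv := F a v) h.sg i1 h.n2_bd hφ h.n1_le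
    (by linarith) h.n1_bd
  obtain ⟨b1, b2, b3⟩ := al_bd (fu := F a v) (fv := F a u) h.sg i1 h.swap.n2_bd (hsw ▸ hφ)
    h.swap.n1_le (by linarith) h.swap.n1_bd
  rw [hsw] at b1 b2
  have ht : 1 / ((S.card : ℝ) - 2) ≤ 2 * (1 / (S.card : ℝ)) := by
    rw [mul_one_div, div_le_div_iff₀ (by linarith) (by linarith)]; linarith
  have ho : |(F * F) u v| ≤ rr F u + rr F v := by
    have h1 := entry_sq_le F F u v
    rw [h.mat.transpose] at h1
    have h2 := h.mat.rr_nonneg u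
    have h3 := h.mat.rr_nonneg v
    refine abs_le_of_sq_le_sq' ?_ (by linarith) |> abs_le.2
    simp only [rr] at *
    nlinarith [mul_nonneg h2 h3]
  have hpe : ∀ x y, 0 ≤ pe S F x y := fun x y => by simp only [pe, pd, ph]; positivity
  have key := core (Yu := (F * F) a u) (Yv := (F * F) a v) (t := 1 / ((S.card : ℝ) - 2))
    (Du := F u u) (Dv := F v v) (f := F u v) h.sg i1 (by linarith)
    (by have : (0 : ℝ) < S.card - 2 := by linarith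
        positivity) ht s3 (by linarith) s5 (by linarith) (by linarith)
    (by rw [ph0]; linarith) (by rw [ph0, ph]; linarith [abs_nonneg (F u v)]) (hpe u v) (hpe v u)
    (by rw [pd]; linarith) (by rw [pd]; linarith) (by rw [ph0, ph]; linarith)
    (h.mat.sq_le_rr u u) (h.mat.sq_le_rr v v) (h.mat.sq_le_rr u v)
    (by rw [h.mat.symm]; exact h.mat.sq_le_rr v u) ho a1 a2 a3 b1 b2 b3
  rw [rr_upd h ha]
  refine le_of_eq_of_le ?_ (key.trans_eq ?_)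
  · congr 1
    simp only [main5, al]
    ring
  · simp only [err5, vr, abs_mul, sq_abs]
    ring

end Crest.Agent.R62
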