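import Crest.Agent.R62.TrRAux3

set_option autoImplicit false
set_option linter.unusedSectionVars false

open Finset Matrix

namespace Crest.Agent.R62
namespace TrRX

variable {ι : Type} [Fintype ι] [DecidableEq ι]

noncomputable def jh (c : Ctx ι) (a u v : ι) : ℝ := c.F a u ^ 2 * (rr c.F v - 1)
noncomputable def nh (c : Ctx ι) (a u v : ι) : ℝ :=
  2 * c.σ * ((c.F * c.F) a u * c.F a v) + 2 * (c.F a u * (c.F * c.F) a u * c.F v v)

theorem main5_eq (c : Ctx ι) (a u v : ι) :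
    main5 c.σ c.F u v a = jh c a u v + jh c a v u + nh c a u v + nh c a v u := by
  unfold main5 jh nh; ring

theorem main5_symm (c : Ctx ι) (a u v : ι) : main5 c.σ c.F v u a = main5 c.σ c.F u v a := by
  unfold main5; ring

variable {c : Ctx ι}

theorem σ_sq : c.σ ^ 2 = 1 := by rcases c.sg with h | h <;> rw [h] <;> norm_num
theorem σ_abs : |c.σ| = 1 := by rcases c.sg with h | h <;> rw [h] <;> norm_num

theorem swap_a (X : ι → ι → ι → ℝ) (g : ι → ℝ) :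
    ∑ u, ∑ v, c.w u v * ∑ a ∈ c.S, g a * X a u v
      = ∑ a ∈ c.S, g a * ∑ u, ∑ v, c.w u v * X a u v := by
  simp only [mul_sum]
  rw [sum_congr rfl fun u _ => sum_comm, sum_comm]
  exact sum_congr rfl fun a _ => sum_congr rfl fun u _ => sum_congr rfl fun v _ => by ring

theorem corr_scalar {k σ Du Dv f o ru rv : ℝ} (hk : k ≤ 1) (hσ : |σ| = 1) (h1 : |Du| ≤ k)
    (h2 : |Dv| ≤ k) (h3 : |f| ≤ k) (hru : 0 ≤ ru) (hrv : 0 ≤ rv) (ho : o ^ 2 ≤ ru * rv) :
    ru * |Du ^ 2 * (rv - 1) + f ^ 2 * (ru - 1) + 2 * σ * (f * ru + Du * o) + 2 * Dv * Du * ru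
      + 2 * Du * f * o| ≤ 9 * k * (ru + ru ^ 2 + rv ^ 2) := by
  have hk0 : 0 ≤ k := le_trans (abs_nonneg _) h1
  have hoo : |o| ≤ (ru + rv) / 2 := by
    apply abs_le_of_sq_le_sq' _ (by positivity) |> fun h => abs_le.2 h
    nlinarith [sq_nonneg (ru - rv)]
  have hkk : k * k ≤ k := mul_le_of_le_one_left hk0 hk
  have sq' : ∀ x : ℝ, |x| ≤ k → x ^ 2 ≤ k := fun x hx => by
    rw [← sq_abs, sq]; exact le_trans (mul_le_mul hx hx (abs_nonneg _) hk0) hkk
  have xr : ∀ x : ℝ, 0 ≤ x → |x - 1| ≤ 1 + x := fun x hx => abs_le.2 ⟨by linarith, by linarith⟩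
  have t1 : |Du ^ 2 * (rv - 1)| ≤ k * (1 + rv) := by
    rw [abs_mul, abs_of_nonneg (sq_nonneg _)]
    exact mul_le_mul (sq' _ h1) (xr _ hrv) (abs_nonneg _) hk0
  have t2 : |f ^ 2 * (ru - 1)| ≤ k * (1 + ru) := by
    rw [abs_mul, abs_of_nonneg (sq_nonneg _)]
    exact mul_le_mul (sq' _ h3) (xr _ hru) (abs_nonneg _) hk0
  have t3 : |2 * σ * (f * ru + Du * o)| ≤ 2 * (k * ru + k * ((ru + rv) / 2)) := by
    rw [abs_mul, abs_mul, hσ, abs_two, mul_one]
    refine mul_le_mul_of_nonneg_left (le_trans (abs_add_le _ _) (add_le_add ?_ ?_)) (by norm_num)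
    · rw [abs_mul, abs_of_nonneg hru]; exact mul_le_mul_of_nonneg_right h3 hru
    · rw [abs_mul]; exact mul_le_mul h1 hoo (abs_nonneg _) hk0
  have t4 : |2 * Dv * Du * ru| ≤ 2 * (k * ru) := by
    rw [abs_mul, abs_mul, abs_mul, abs_two, abs_of_nonneg hru, mul_assoc, mul_assoc, ← mul_assoc |Dv|]
    refine mul_le_mul_of_nonneg_left (mul_le_mul_of_nonneg_right ?_ hru) (by norm_num)
    exact le_trans (mul_le_mul h2 h1 (abs_nonneg _) hk0) hkk
  have t5 : |2 * Du * f * o| ≤ 2 * (k * ((ru + rv) / 2)) := by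
    rw [abs_mul, abs_mul, abs_mul, abs_two, mul_assoc, mul_assoc, ← mul_assoc |Du|]
    refine mul_le_mul_of_nonneg_left (mul_le_mul ?_ hoo (abs_nonneg _) hk0) (by norm_num)
    exact le_trans (mul_le_mul h1 h3 (abs_nonneg _) hk0) hkk
  have t : |Du ^ 2 * (rv - 1) + f ^ 2 * (ru - 1) + 2 * σ * (f * ru + Du * o) + 2 * Dv * Du * ru
      + 2 * Du * f * o| ≤ k * (2 + 7 * ru + 3 * rv) := by
    have a1 := abs_add_le (Du ^ 2 * (rv - 1) + f ^ 2 * (ru - 1) + 2 * σ * (f * ru + Du * o)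
      + 2 * Dv * Du * ru) (2 * Du * f * o)
    have a2 := abs_add_le (Du ^ 2 * (rv - 1) + f ^ 2 * (ru - 1) + 2 * σ * (f * ru + Du * o))
      (2 * Dv * Du * ru)
    have a3 := abs_add_le (Du ^ 2 * (rv - 1) + f ^ 2 * (ru - 1)) (2 * σ * (f * ru + Du * o))
    have a4 := abs_add_le (Du ^ 2 * (rv - 1)) (f ^ 2 * (ru - 1))
    linarith
  refine le_trans (mul_le_mul_of_nonneg_left t hru) ?_
  have h4 : ru * (2 + 7 * ru + 3 * rv) ≤ 9 * (ru + ru ^ 2 + rv ^ 2) := by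
    nlinarith [sq_nonneg (ru - rv), sq_nonneg ru, sq_nonneg rv]
  have := mul_le_mul_of_nonneg_left h4 hk0
  linarith

variable (h : Sc c)
include h

/-- (P3) -/
theorem Sc.w_nn : Wd c (fun a u v => nh c a u v ^ 2) 18 := by
  have w := ((h.w_Yf zero_le_one h.K1).add h.w_rfp).cmul (b := 8) (by norm_num)
  refine le_trans (w.mono fun u v _ a => ?_ : Wd c (fun a u v => nh c a u v ^ 2) _)
    (mul_le_mul_of_nonneg_right (by norm_num) (mul_nonneg h.k0 h.T0))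
  have h1 : c.F v v ^ 2 ≤ pd c.S c.F v ^ 2 := by
    rw [← sq_abs]
    refine pow_le_pow_left₀ (abs_nonneg _) ?_ 2
    have : (0 : ℝ) ≤ 1 / (c.S.card : ℝ) := by positivity
    unfold pd; linarith
  have h2 : (c.F * c.F) a u ^ 2 ≤ c.R * rr c.F a := by
    rw [mul_comm c.R]
    exact le_trans (Ysq a u) (mul_le_mul_of_nonneg_left (h.rR u) (r0 a))
  have h3 : (c.F * c.F) a u ^ 2 * c.F v v ^ 2 ≤ c.R * rr c.F a * pd c.S c.F v ^ 2 :=
    mul_le_mul h2 h1 (sq_nonneg _) (mul_nonneg h.R0 (r0 a))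
  have h4 := mul_le_mul_of_nonneg_left h3 (sq_nonneg (c.F a u))
  have k : ∀ x y : ℝ, (x + y) ^ 2 ≤ 2 * x ^ 2 + 2 * y ^ 2 := fun x y => by
    nlinarith [sq_nonneg (x - y)]
  refine le_trans (k _ _) ?_
  simp only [mul_pow, σ_sq]
  linarith

/-- (P4a) -/
theorem Sc.w_f1 : Wd c (fun a u _ => c.F a u ^ 2 * 1) (11 / 10 * 1) :=
  Wd.au_uv (c := c) (k := 1) (fun a u => c.F a u ^ 2) (fun _ _ => 1) (fun _ _ => sq_nonneg _)
    (fun _ _ => zero_le_one) (Q := c.m) h.m0.le sum_ff.le (fun _ => sum_one.le)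
    (by rw [one_mul, mul_comm]; exact h.ma2)

/-- (P4b) -/
theorem Sc.w_fr : ∑ u, ∑ v, c.w u v * ∑ a ∈ c.S, c.F a u ^ 2 * rr c.F v ^ 2
    ≤ 11 / 10 * (c.m * R2 c.S c.F) := by
  refine le_trans (c.sum_le_crude (fun _ _ _ => le_rfl)
    fun u _ v _ => sum_nonneg fun a _ => by positivity) ?_
  refine mul_le_mul_of_nonneg_left ?_ (by norm_num)
  simp only [← sum_mul, ← mul_sum]
  rw [sum_comm, sum_ff]
  exact mul_le_mul_of_nonneg_right (Ctx.a2_le_m h.big) R20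

/-- (P5b) -/
theorem Sc.w_ffr : Wd c (fun a u v => c.F a u ^ 2 * c.F a v ^ 2 * rr c.F u ^ 2) (11 / 10 * 1) := by
  have hK := h.K0
  unfold Wd
  refine le_trans (c.sum_le_crude (Y := fun u _ => rr c.F u ^ 2 / c.p.K) (fun u v hw => ?_)
    fun u _ v _ => by positivity) ?_
  · obtain ⟨-, -, -, -, -, h6, -⟩ := c.wt.supp u v hw
    rw [← sum_mul]
    have h1 : ∑ a ∈ c.S, c.F a u ^ 2 * c.F a v ^ 2 ≤ hh c.F u v :=
      sum_le_sum_of_subset_of_nonneg (subset_univ _) fun _ _ _ => by positivity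
    have h2 : 1 / c.p.K ^ 20 ≤ 1 / c.p.K := by
      apply one_div_le_one_div_of_le hK
      calc c.p.K = c.p.K ^ 1 := (pow_one _).symm
        _ ≤ _ := pow_le_pow_right₀ h.K1 (by norm_num)
    have := mul_le_mul_of_nonneg_right (le_trans h1 (le_trans h6 h2)) (sq_nonneg (rr c.F u))
    calc _ ≤ _ := this
      _ = _ := by ring
  · rw [sum_sum_const, ← sum_div, mul_assoc, one_mul]
    refine mul_le_mul_of_nonneg_left ?_ (by norm_num)
    have := h.kR2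
    calc _ = κ c * R2 c.S c.F := by unfold κ R2; ring
      _ ≤ _ := this

/-- (P6) -/
theorem Sc.w_corr : ∑ u, ∑ v, c.w u v * (2 * rr c.F u * |main5 c.σ c.F u v u|)
    ≤ 60 * (κ c * T c) := by
  have hK := h.K0
  refine le_trans (c.sum_le_crude
    (Y := fun u v => 18 * (1 / c.p.K) * (rr c.F u + rr c.F u ^ 2 + rr c.F v ^ 2)) (fun u v hw => ?_)
    fun u _ v _ => by have := r0 (c := c) u; positivity) ?_
  · obtain ⟨-, -, -, h4, -⟩ := c.wt.supp u v hw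
    have := corr_scalar (le_trans h.invK (by norm_num)) (σ_abs (c := c)) (Ctx.diag_le h.big u)
      (Ctx.diag_le h.big v) h4 (r0 (c := c) u) (r0 v) (Ysq u v)
    unfold main5
    change 2 * rr c.F u * |_ + _ + 2 * c.σ * (_ * rr c.F u + _) + _ * rr c.F u + _| ≤ _
    linarith
  · simp only [← mul_sum, sum_add_distrib]
    rw [sum_sum_const, sum_sum_const, sum_comm, sum_sum_const, sum_r]
    have h1 := h.kR2
    have h2 := h.ka2
    have h3 := mul_nonneg h.k0 h.T0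
    calc _ = 11 / 10 * 18 * (κ c * a2 c.F + 2 * (κ c * R2 c.S c.F)) := by unfold κ R2; ring
      _ ≤ _ := by linarith

/-- (P7) -/
theorem Sc.w_j : ∑ u, ∑ v, c.w u v * ∑ a ∈ c.S, rr c.F a * jh c a u v
    ≤ R2 c.S c.F * (a2 c.F - c.m) + κ c * T c := by
  have h1 := (abs_le.1 (c.G6 (fun u => ∑ a ∈ c.S, rr c.F a * c.F a u ^ 2)
    (fun v => rr c.F v - 1))).2
  have e1 : ∑ u ∈ c.S, ∑ a ∈ c.S, rr c.F a * c.F a u ^ 2 = R2 c.S c.F := by
    rw [sum_comm, sum_rff]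
  have e2 : ∑ u ∈ c.S, |∑ a ∈ c.S, rr c.F a * c.F a u ^ 2| = R2 c.S c.F := by
    rw [← e1]
    exact sum_congr rfl fun u _ => abs_of_nonneg
      (sum_nonneg fun a _ => mul_nonneg (r0 a) (sq_nonneg _))
  have e3 : ∑ v ∈ c.S, (rr c.F v - 1) = a2 c.F - c.m := by
    rw [sum_sub_distrib, sum_r, sum_one]
  have e4 : ∀ u v, ∑ a ∈ c.S, rr c.F a * jh c a u v
      = (∑ a ∈ c.S, rr c.F a * c.F a u ^ 2) * (rr c.F v - 1) := fun u v => by
    rw [sum_mul]; exact sum_congr rfl fun a _ => by unfold jh; ring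
  simp only [e4]
  rw [e1, e2, e3] at h1
  have h2 := mul_le_mul h.eX h.R2T R20 h.k0
  unfold X2 at h2
  linarith

theorem Sc.w_n1 (a : ι) : |∑ u, ∑ v, c.w u v * ((c.F * c.F) a u * c.F a v)|
    ≤ 2 * (κ c * rr c.F a) := by
  have hL : 0 ≤ c.L := le_trans zero_le_one h.L1
  have hr := r0 (c := c) a
  have h0 : ∑ v ∈ c.S, c.F a v = 0 := by
    rw [← c.oF.mat.row a]
    exact sum_subset (subset_univ _) fun b _ hb => c.oF.mat.supp' a b hb
  have h1 := c.G7 (fun u v => (c.F * c.F) a u * c.F a v)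
    (by rw [← sum_mul_sum, h0, mul_zero])
  have h2 : √(∑ u ∈ c.S, ∑ v ∈ c.S, ((c.F * c.F) a u * c.F a v) ^ 2) ≤ c.L * rr c.F a := by
    rw [Real.sqrt_le_left (mul_nonneg hL hr)]
    simp only [mul_pow]
    rw [← sum_mul_sum, sumf2]
    have := mul_le_mul_of_nonneg_right (h.sumY2 a) hr
    linarith
  have h3 : |∑ u ∈ c.S, (c.F * c.F) a u * c.F a u| ≤ c.L * rr c.F a := by
    refine le_trans (abs_sum_le_sum_abs _ _) (le_trans (le_of_eq ?_) (h.sum_fY a))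
    exact sum_congr rfl fun u _ => by rw [mul_comm]
  have h4 := mul_le_mul_of_nonneg_left h2 (Real.sqrt_nonneg (c.p.Gam2 c.m * c.m))
  have h5 := mul_le_mul_of_nonneg_right h.G hr
  have h6 := mul_le_mul_of_nonneg_right h.Lk hr
  have h7 := abs_le.1 h1
  have h8 := abs_le.1 h3
  exact abs_le.2 ⟨by linarith, by linarith⟩

theorem Sc.w_n2 (a : ι) : ∑ u, ∑ v, c.w u v * (c.F a u * (c.F * c.F) a u * c.F v v)
    ≤ 2 * (κ c * rr c.F a) := by
  have hL : 0 ≤ c.L := le_trans zero_le_one h.L1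
  have hr := r0 (c := c) a
  have h1 := (abs_le.1 (c.G6 (fun u => c.F a u * (c.F * c.F) a u) (fun v => c.F v v))).2
  rw [← c.oF.mat.t1_eq] at h1
  have h2 := h.sum_fY a
  have h3 : (∑ u ∈ c.S, c.F a u * (c.F * c.F) a u) * t1 c.F ≤ c.L * rr c.F a * |t1 c.F| := by
    refine le_trans (le_abs_self _) ?_
    rw [abs_mul]
    exact mul_le_mul_of_nonneg_right (le_trans (abs_sum_le_sum_abs _ _) h2) (abs_nonneg _)
  have h4 := mul_le_mul_of_nonneg_left h2
    (show 0 ≤ c.p.eps c.m * √c.m * √(∑ v ∈ c.S, c.F v v ^ 2) by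
      have := (Ctx.eps_pos h.big).le; positivity)
  have h5 := mul_le_mul_of_nonneg_right h.Lt hr
  have h6 := mul_le_mul_of_nonneg_right h.eD hr
  unfold D2 at h6
  linarith

/-- (P8) -/
theorem Sc.w_n : ∑ u, ∑ v, c.w u v * ∑ a ∈ c.S, rr c.F a * nh c a u v ≤ 8 * (κ c * T c) := by
  rw [swap_a]
  have h1 : ∀ a, ∑ u, ∑ v, c.w u v * nh c a u v ≤ 8 * (κ c * rr c.F a) := fun a => by
    have e : ∑ u, ∑ v, c.w u v * nh c a u v
        = 2 * (c.σ * ∑ u, ∑ v, c.w u v * ((c.F * c.F) a u * c.F a v))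
          + 2 * ∑ u, ∑ v, c.w u v * (c.F a u * (c.F * c.F) a u * c.F v v) := by
      simp only [mul_sum, ← sum_add_distrib]
      exact sum_congr rfl fun u _ => sum_congr rfl fun v _ => by unfold nh; ring
    have h2 := le_abs_self (c.σ * ∑ u, ∑ v, c.w u v * ((c.F * c.F) a u * c.F a v))
    rw [abs_mul, σ_abs, one_mul] at h2
    have h3 := h.w_n1 a
    have h4 := h.w_n2 a
    rw [e]; linarith
  refine le_trans (sum_le_sum fun a _ => mul_le_mul_of_nonneg_left (h1 a) (r0 a)) ?_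
  have h2 := h.kR2
  calc _ = 8 * (κ c * R2 c.S c.F) := by
        rw [← sum_rr, mul_sum, mul_sum]
        exact sum_congr rfl fun a _ => by ring
    _ ≤ _ := by linarith

/-- (P9) -/
theorem Sc.w_rem : (1 - c.p.eps c.m) * (c.m * R2 c.S c.F) ≤ ∑ u, ∑ v, c.w u v * rr c.F u ^ 2 := by
  have h1 := (abs_le.1 (c.G6one (fun u => rr c.F u ^ 2))).1
  simp only [abs_pow, sq_abs] at h1
  unfold R2
  linarith

end TrRX
end Crest.Agent.R62
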