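import Crest.Agent.R62.Der
import Crest.Agent.R62.Pt5
import Crest.Agent.R62.TrRAux4

set_option autoImplicit false

open Finset Matrix

namespace Crest.Agent.R62

variable {ι V : Type} [Fintype ι] [DecidableEq ι] [Fintype V] [DecidableEq V]

namespace TrRX

theorem pt_scalar {C r r' fu fv ru rv n1 n2 e1 e2 : ℝ} (hC : 0 ≤ C) (hr : 0 ≤ r)
    (hru : 0 ≤ ru) (hrv : 0 ≤ rv) (hfu : |fu| ≤ 3 / 4) (hfv : |fv| ≤ 3 / 4)
    (h : |r' - r - (fu ^ 2 * (rv - 1) + fv ^ 2 * (ru - 1) + n1 + n2)| ≤ C * (e1 + e2)) :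
    r' ^ 2 ≤ r ^ 2 + 2 * r * (fu ^ 2 * (rv - 1) + fv ^ 2 * (ru - 1) + n1 + n2)
      + (2 * C * (r * e1) + 11 / 10 * (9 / 16) * (fu ^ 2 * 1) + 11 / 10 * (fu ^ 2 * fv ^ 2)
          + 11 / 10 * (fu ^ 2 * fv ^ 2 * ru ^ 2) + 44 * n1 ^ 2 + 44 * C ^ 2 * e1 ^ 2
          + 11 / 10 * (9 / 16) * (fu ^ 2 * rv ^ 2))
      + (2 * C * (r * e2) + 11 / 10 * (9 / 16) * (fv ^ 2 * 1) + 11 / 10 * (fv ^ 2 * fu ^ 2)
          + 11 / 10 * (fv ^ 2 * fu ^ 2 * rv ^ 2) + 44 * n2 ^ 2 + 44 * C ^ 2 * e2 ^ 2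
          + 11 / 10 * (9 / 16) * (fv ^ 2 * ru ^ 2)) := by
  obtain ⟨E, rfl⟩ : ∃ E, r' = r + (fu ^ 2 * (rv - 1) + fv ^ 2 * (ru - 1) + n1 + n2) + E :=
    ⟨r' - r - (fu ^ 2 * (rv - 1) + fv ^ 2 * (ru - 1) + n1 + n2), by ring⟩
  have hE : |E| ≤ C * e1 + C * e2 := by
    rw [← mul_add]
    refine le_trans (le_of_eq ?_) h
    congr 1; ring
  have k : ∀ x y : ℝ, (x + y) ^ 2 ≤ 2 * x ^ 2 + 2 * y ^ 2 := fun x y => by
    nlinarith [sq_nonneg (x - y)]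
  have a1 : r * E ≤ r * (C * e1 + C * e2) :=
    mul_le_mul_of_nonneg_left (le_trans (le_abs_self _) hE) hr
  have a2 : E ^ 2 ≤ 2 * (C * e1) ^ 2 + 2 * (C * e2) ^ 2 := by
    rw [← sq_abs E]
    exact le_trans (pow_le_pow_left₀ (abs_nonneg _) hE 2) (k _ _)
  have a3 := k (n1 + n2) E
  have a4 := k n1 n2
  have a5 : ∀ J B : ℝ, (J + B) ^ 2 ≤ 11 / 10 * J ^ 2 + 11 * B ^ 2 := fun J B => by
    nlinarith [sq_nonneg (J - 10 * B)]
  have a6 := a5 (fu ^ 2 * (rv - 1) + fv ^ 2 * (ru - 1)) (n1 + n2 + E)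
  have f4 : ∀ f x : ℝ, |f| ≤ 3 / 4 → 0 ≤ x →
      (f ^ 2 * (x - 1)) ^ 2 ≤ 9 / 16 * (f ^ 2 * 1) + 9 / 16 * (f ^ 2 * x ^ 2) := by
    intro f x hf hx
    have h1 : f ^ 2 ≤ 9 / 16 := by
      rw [← sq_abs]
      exact le_trans (pow_le_pow_left₀ (abs_nonneg _) hf 2) (by norm_num)
    have h2 : (x - 1) ^ 2 ≤ 1 + x ^ 2 := by nlinarith
    have h3 : f ^ 2 * (x - 1) ^ 2 ≤ 9 / 16 * (1 + x ^ 2) :=
      mul_le_mul h1 h2 (sq_nonneg _) (by norm_num)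
    have h4 := mul_le_mul_of_nonneg_left h3 (sq_nonneg f)
    linarith
  have a7 := f4 fu rv hfu hrv
  have a8 := f4 fv ru hfv hru
  have a9 : 2 * ((rv - 1) * (ru - 1)) ≤ 2 + ru ^ 2 + rv ^ 2 := by
    nlinarith [sq_nonneg (ru - rv)]
  have a10 := mul_le_mul_of_nonneg_left a9 (show 0 ≤ fu ^ 2 * fv ^ 2 by positivity)
  have e1' : (r + (fu ^ 2 * (rv - 1) + fv ^ 2 * (ru - 1) + n1 + n2) + E) ^ 2
      = r ^ 2 + 2 * r * (fu ^ 2 * (rv - 1) + fv ^ 2 * (ru - 1) + n1 + n2) + 2 * (r * E)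
        + (fu ^ 2 * (rv - 1) + fv ^ 2 * (ru - 1) + (n1 + n2 + E)) ^ 2 := by ring
  have e2' : (fu ^ 2 * (rv - 1) + fv ^ 2 * (ru - 1)) ^ 2
      = (fu ^ 2 * (rv - 1)) ^ 2 + (fv ^ 2 * (ru - 1)) ^ 2
        + fu ^ 2 * fv ^ 2 * (2 * ((rv - 1) * (ru - 1))) := by ring
  rw [e1']
  rw [e2'] at a6
  generalize (fu ^ 2 * (rv - 1) + fv ^ 2 * (ru - 1) + (n1 + n2 + E)) ^ 2 = A at *
  generalize (fu ^ 2 * (rv - 1)) ^ 2 = B at *
  generalize (fv ^ 2 * (ru - 1)) ^ 2 = B' at *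
  generalize (n1 + n2 + E) ^ 2 = D at *
  generalize (n1 + n2) ^ 2 = D' at *
  generalize fu ^ 2 * fv ^ 2 * (2 * ((rv - 1) * (ru - 1))) = G at *
  linarith

noncomputable def H0 (C : ℝ) (c : Ctx ι) (a u v : ι) : ℝ :=
  2 * C * (rr c.F a * eh c a u v) + 11 / 10 * (9 / 16) * (c.F a u ^ 2 * 1)
    + 11 / 10 * (c.F a u ^ 2 * c.F a v ^ 2) + 11 / 10 * (c.F a u ^ 2 * c.F a v ^ 2 * rr c.F u ^ 2)
    + 44 * nh c a u v ^ 2 + 44 * C ^ 2 * eh c a u v ^ 2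

noncomputable def H (C : ℝ) (c : Ctx ι) (a u v : ι) : ℝ :=
  H0 C c a u v + 11 / 10 * (9 / 16) * (c.F a u ^ 2 * rr c.F v ^ 2)

theorem H_nonneg {C : ℝ} (hC : 0 ≤ C) (c : Ctx ι) (a u v : ι) : 0 ≤ H C c a u v := by
  have h1 := r0 (c := c) a
  have h2 := eh0 c a u v
  unfold H H0
  positivity

noncomputable def Z (C : ℝ) (c : Ctx ι) (u v : ι) : ℝ :=
  -rr c.F u ^ 2 + 2 * ∑ a ∈ c.S, rr c.F a * jh c a u v + 2 * ∑ a ∈ c.S, rr c.F a * nh c a u v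
    + 2 * rr c.F u * |main5 c.σ c.F u v u| + ∑ a ∈ c.S, H0 C c a u v
    + 11 / 10 * (9 / 16) * ∑ a ∈ c.S, c.F a u ^ 2 * rr c.F v ^ 2

theorem sum_rem {S : Finset ι} {u v : ι} (h : u ≠ v) (hu : u ∈ S) (hv : v ∈ S) (g : ι → ℝ) :
    ∑ a ∈ rem S u v, g a = ∑ a ∈ S, g a - g u - g v := by
  unfold rem
  rw [sum_erase_eq_sub (mem_erase.2 ⟨h.symm, hv⟩), sum_erase_eq_sub hu]

theorem point {C : ℝ} (hC : 0 ≤ C) {c : Ctx ι} {u v : ι} (hw : c.w u v ≠ 0)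
    (hp : ∀ a ∈ rem c.S u v, |rr (c.F' u v) a - rr c.F a - main5 c.σ c.F u v a|
      ≤ C * err5 c.S c.F u v a) :
    R2 (rem c.S u v) (c.F' u v) ≤ R2 c.S c.F + Z C c u v + Z C c v u := by
  obtain ⟨h1, h2, h3, -⟩ := c.wt.supp u v hw
  have a1 : R2 (rem c.S u v) (c.F' u v) ≤ ∑ a ∈ rem c.S u v,
      (rr c.F a ^ 2 + 2 * rr c.F a * main5 c.σ c.F u v a + (H C c a u v + H C c a v u)) := by
    refine sum_le_sum fun a ha => ?_
    have h4 := hp a ha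
    rw [err5_eq, main5_eq] at h4
    have := pt_scalar hC (r0 a) (r0 u) (r0 v) (c.oF.ent a u) (c.oF.ent a v) h4
    rw [main5_eq]
    unfold H H0 jh
    linarith
  rw [sum_add_distrib, sum_rem h1 h2 h3] at a1
  have a2 : ∑ a ∈ rem c.S u v, (H C c a u v + H C c a v u)
      ≤ ∑ a ∈ c.S, (H C c a u v + H C c a v u) :=
    sum_le_sum_of_subset_of_nonneg (fun a ha => (mem_rem.1 ha).1)
      fun a _ _ => add_nonneg (H_nonneg hC c a u v) (H_nonneg hC c a v u)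
  have a3 : -(rr c.F u * main5 c.σ c.F u v u) ≤ rr c.F u * |main5 c.σ c.F u v u| := by
    rw [← mul_neg]; exact mul_le_mul_of_nonneg_left (neg_le_abs _) (r0 u)
  have a4 : -(rr c.F v * main5 c.σ c.F u v v) ≤ rr c.F v * |main5 c.σ c.F v u v| := by
    rw [← mul_neg, main5_symm c v u v]; exact mul_le_mul_of_nonneg_left (neg_le_abs _) (r0 v)
  have a5 : ∑ a ∈ c.S, (rr c.F a ^ 2 + 2 * rr c.F a * main5 c.σ c.F u v a)
      = R2 c.S c.F + 2 * ∑ a ∈ c.S, rr c.F a * jh c a u v + 2 * ∑ a ∈ c.S, rr c.F a * jh c a v u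
        + 2 * ∑ a ∈ c.S, rr c.F a * nh c a u v + 2 * ∑ a ∈ c.S, rr c.F a * nh c a v u := by
    unfold R2
    simp only [mul_sum, ← sum_add_distrib]
    exact sum_congr rfl fun a _ => by rw [main5_eq]; ring
  have a6 : ∀ u v, ∑ a ∈ c.S, H C c a u v = ∑ a ∈ c.S, H0 C c a u v
      + 11 / 10 * (9 / 16) * ∑ a ∈ c.S, c.F a u ^ 2 * rr c.F v ^ 2 := fun u v => by
    rw [mul_sum, ← sum_add_distrib]; rfl
  rw [sum_add_distrib (s := c.S), a6, a6] at a2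
  rw [a5] at a1
  unfold Z
  linarith

theorem w_H0 {C : ℝ} (hC : 0 ≤ C) {c : Ctx ι} (h : Sc c) :
    Wd c (H0 C c) (800 + 200 * C + 44000 * C ^ 2) := by
  obtain ⟨k1, hk1, w1⟩ := h.w_re
  obtain ⟨k2, hk2, w2⟩ := h.w_ee
  have w := (((((w1.cmul (b := 2 * C) (by positivity)).add
    (h.w_f1.cmul (b := 11 / 10 * (9 / 16)) (by norm_num))).add
    (h.w_ff.cmul (b := 11 / 10) (by norm_num))).add
    (h.w_ffr.cmul (b := 11 / 10) (by norm_num))).add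
    (h.w_nn.cmul (b := 44) (by norm_num))).add (w2.cmul (b := 44 * C ^ 2) (by positivity))
  refine le_trans w (mul_le_mul_of_nonneg_right ?_ (mul_nonneg h.k0 h.T0))
  have h1 := mul_le_mul_of_nonneg_left hk1 hC
  have h2 := mul_le_mul_of_nonneg_left hk2 (sq_nonneg C)
  linarith

theorem w_Z {C : ℝ} (hC : 0 ≤ C) {c : Ctx ι} (h : Sc c) :
    ∑ u, ∑ v, c.w u v * Z C c u v ≤ -((1 - c.p.eps c.m) * (c.m * R2 c.S c.F))
      + 2 * (R2 c.S c.F * (a2 c.F - c.m)) + 7 / 10 * (c.m * R2 c.S c.F)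
      + (900 + 200 * C + 44000 * C ^ 2) * (κ c * T c) := by
  have e : ∑ u, ∑ v, c.w u v * Z C c u v = -(∑ u, ∑ v, c.w u v * rr c.F u ^ 2)
      + 2 * ∑ u, ∑ v, c.w u v * ∑ a ∈ c.S, rr c.F a * jh c a u v
      + 2 * ∑ u, ∑ v, c.w u v * ∑ a ∈ c.S, rr c.F a * nh c a u v
      + ∑ u, ∑ v, c.w u v * (2 * rr c.F u * |main5 c.σ c.F u v u|)
      + ∑ u, ∑ v, c.w u v * ∑ a ∈ c.S, H0 C c a u v
      + 11 / 10 * (9 / 16) * ∑ u, ∑ v, c.w u v * ∑ a ∈ c.S, c.F a u ^ 2 * rr c.F v ^ 2 := by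
    simp only [mul_sum univ, ← sum_neg_distrib, ← sum_add_distrib]
    exact sum_congr rfl fun u _ => sum_congr rfl fun v _ => by unfold Z; ring
  have h1 := h.w_rem
  have h2 := h.w_j
  have h3 := h.w_n
  have h4 := h.w_corr
  have h5 : _ ≤ _ := w_H0 hC h
  have h6 := h.w_fr
  have h7 := mul_nonneg h.k0 h.T0
  have h8 := mul_nonneg h.m0.le (R20 (c := c))
  rw [e]
  linarith

theorem final_scalar {m W k ε a Ω R T E η S : ℝ} (hm : 10000 ≤ m) (hW : 0 < W) (hk0 : 0 ≤ k)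
    (hk : k ≤ 1 / 1000) (hε0 : 0 ≤ ε) (hε : ε ≤ 1 / 1000)
    (ha : a ≤ m - (1 - k) * (W * (m / (m + W)))) (hΩ : Ω ≤ m ^ 2 + ε * m ^ 2) (hΩ0 : 0 ≤ Ω)
    (hR : 0 ≤ R) (hT : 0 < T) (hE0 : 0 ≤ E) (hE : 2 * E ≤ Ω * η)
    (hS : S ≤ Ω * R + 2 * (-((1 - ε) * (m * R)) + 2 * (R * (a - m)) + 7 / 10 * (m * R)) + E * T) :
    S / (T * (1 - 2 * (W / (m - 2 + W)) / m) ^ 2) ≤ Ω * (R / T + η) := by
  have hm0 : 0 < m := by linarith
  have hs : 0 < m - 2 + W := by linarith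
  set A := W / (m - 2 + W) with hA
  set B := W / (m + W) with hB
  have hA0 : 0 ≤ A := by positivity
  have hA1 : A ≤ 1 := by rw [hA, div_le_one hs]; linarith
  have hB0 : 0 ≤ B := by positivity
  have hB1 : B ≤ 1 := by rw [hB, div_le_one (by linarith)]; linarith
  have hAB : A - B ≤ 1 / 1000 := by
    have e : A - B = A * (2 / (m + W)) := by rw [hA, hB]; field_simp; ring
    have h1 : 2 / (m + W) ≤ 1 / 1000 := by
      rw [div_le_div_iff₀ (by linarith) (by norm_num)]; linarith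
    rw [e]
    exact le_trans (mul_le_of_le_one_left (by positivity) hA1) h1
  set δ := 2 * A / m with hδ
  have hδ0 : 0 ≤ δ := by positivity
  have hδm : δ * m = 2 * A := by rw [hδ]; field_simp
  have hδ1 : δ ≤ 1 / 4 := by rw [hδ, div_le_iff₀ hm0]; linarith
  have hq : 1 - 2 * δ ≤ (1 - δ) ^ 2 := by nlinarith [sq_nonneg δ]
  have hq0 : 0 < (1 - δ) ^ 2 := by linarith
  rw [div_le_iff₀ (mul_pos hT hq0)]
  have e1 : Ω * (R / T + η) * (T * (1 - δ) ^ 2)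
      = Ω * R * (1 - δ) ^ 2 + Ω * η * T * (1 - δ) ^ 2 := by field_simp
  rw [e1]
  have b1 : E * T ≤ Ω * η * T * (1 - δ) ^ 2 := by
    have h1 : E ≤ Ω * η * (1 - δ) ^ 2 := by
      have := mul_le_mul hE (show (1 : ℝ) / 2 ≤ (1 - δ) ^ 2 by linarith) (by norm_num)
        (by linarith)
      linarith
    have := mul_le_mul_of_nonneg_right h1 hT.le
    linarith
  have b2 : Ω * R * (1 - 2 * δ) ≤ Ω * R * (1 - δ) ^ 2 :=
    mul_le_mul_of_nonneg_left hq (mul_nonneg hΩ0 hR)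
  have b3 : δ * Ω ≤ 2 * A * (1 + ε) * m := by
    have := mul_le_mul_of_nonneg_left hΩ hδ0
    have e : δ * (m ^ 2 + ε * m ^ 2) = δ * m * (1 + ε) * m := by ring
    rw [e, hδm] at this
    exact this
  have b4 : a - m ≤ -((1 - k) * B * m) := by
    have e : W * (m / (m + W)) = B * m := by rw [hB]; ring
    rw [e] at ha
    linarith
  have b5 : -(2 * (1 - ε)) - 4 * ((1 - k) * B) + 7 / 5 + 4 * A * (1 + ε) ≤ 0 := by
    have h1 : A * ε ≤ 1 / 1000 := le_trans (mul_le_of_le_one_left hε0 hA1) hε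
    have h2 : k * B ≤ 1 / 1000 := le_trans (mul_le_of_le_one_right hk0 hB1) hk
    linarith
  have b6 := mul_le_mul_of_nonneg_right b5 (mul_nonneg hm0.le hR)
  have b7 := mul_le_mul_of_nonneg_left b3 hR
  have b8 := mul_le_mul_of_nonneg_left b4 hR
  linarith

end TrRX

open TrRX in
theorem trR : TrOne (fun p m => ¬ p.phX m) (fun _ _ _ p S F => pR p S F) := by
  obtain ⟨C, hC, hpt⟩ := pt5
  obtain ⟨K1, hK1⟩ := exists_const (4 * (900 + 200 * C + 44000 * C ^ 2)) (1 / 100) (by norm_num)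
  refine ⟨K1, fun ι _ _ c hK hX _ => ?_⟩
  obtain ⟨hB, hC'⟩ := hK1 _ hK
  have h := sc hB hX
  have hm := h.m0
  have hW := Ctx.W_pos hB
  have hm4 : 10000 ≤ c.m := le_trans (by norm_num) (Ctx.m_big hB)
  have hT : 0 < T c := (Ctx.sz_TR hB).1.pos hB
  have eT : c.p.TR (c.m - 2) = T c * (1 - 2 * (c.p.W / (c.m - 2 + c.p.W)) / c.m) ^ 2 := by
    unfold T Par.TR Par.rho
    rw [mul_assoc _ (_ ^ 2), ← mul_pow]
    congr 2
    have h1 : 0 < c.m - 2 + c.p.W := by linarith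
    generalize c.p.W = W at hW h1 ⊢
    field_simp
    ring
  have hT' : 0 < c.p.TR (c.m - 2) := by
    have h1 : 0 < c.m - 2 := by linarith
    have := hB.pos
    unfold Par.TR Par.rho
    positivity
  have s1 : ∑ u, ∑ v, c.w u v * pR c.p (rem c.S u v) (c.F' u v)
      ≤ ∑ u, ∑ v, c.w u v * ((R2 c.S c.F + Z C c u v + Z C c v u) / c.p.TR (c.m - 2)) := by
    refine c.sum_le_sum' fun u v hw => ?_
    unfold pR
    rw [Ctx.card_rem' hB hw]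
    exact div_le_div_of_nonneg_right
      (point hC hw fun a ha => hpt ι c.σ c.S c.F u v a (Ctx.loc hB hw) ha) hT'.le
  have s2 : ∑ u, ∑ v, c.w u v * ((R2 c.S c.F + Z C c u v + Z C c v u) / c.p.TR (c.m - 2))
      = (c.Ω * R2 c.S c.F + 2 * ∑ u, ∑ v, c.w u v * Z C c u v) / c.p.TR (c.m - 2) := by
    simp only [← mul_div_assoc, ← sum_div, mul_add, sum_add_distrib]
    rw [← c.sum_comm' (Z C c)]
    unfold Ctx.Ω
    simp only [sum_mul]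
    congr 1
    ring
  refine le_trans s1 ?_
  rw [s2, eT]
  have hε : c.p.eps c.m ≤ 1 / 1000 :=
    le_trans ((Ctx.le_eps hB).le_of_ge hB (Ge.div hB Ge.one Le.self hB.pos) (by norm_num)) h.invK
  have hE : 2 * (2 * (900 + 200 * C + 44000 * C ^ 2) * κ c) ≤ c.Ω * c.η := by
    have h1 := (hC'.mul hB (Le.div hB (Ctx.le_m hB) Ge.self) h.k0).le_of_ge hB (Ctx.ge_Ωη hB)
      (by linarith)
    unfold κ
    linarith
  have hZ := w_Z hC h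
  refine final_scalar hm4 hW (one_div_pos.2 hB.pos).le h.invK (Ctx.eps_pos hB).le hε
    (Ctx.a2_le hB) ?_ (Ctx.Ω_pos hB).le R20 hT (mul_nonneg (by positivity) h.k0) hE ?_
  · have := (abs_le.1 c.G4).2
    linarith
  · linarith

end Crest.Agent.R62
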