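import Crest.Agent.R62.TrXAux

/-! Pointwise estimates for the drift of `R4 = Σ r⁴`. -/

set_option autoImplicit false
set_option linter.unusedSectionVars false

open Finset Matrix

namespace Crest.Agent.R62

namespace TrR4X

theorem sq5 (a b c d e : ℝ) :
    (a + b + c + d + e) ^ 2 ≤ 5 * (a ^ 2 + b ^ 2 + c ^ 2 + d ^ 2 + e ^ 2) := by
  nlinarith [sq_nonneg (a - b), sq_nonneg (a - c), sq_nonneg (a - d), sq_nonneg (a - e),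
    sq_nonneg (b - c), sq_nonneg (b - d), sq_nonneg (b - e), sq_nonneg (c - d), sq_nonneg (c - e),
    sq_nonneg (d - e)]

theorem four5 (a b c d e : ℝ) :
    (a + b + c + d + e) ^ 4 ≤ 125 * (a ^ 4 + b ^ 4 + c ^ 4 + d ^ 4 + e ^ 4) := by
  have h1 := sq5 a b c d e
  have h2 := sq5 (a ^ 2) (b ^ 2) (c ^ 2) (d ^ 2) (e ^ 2)
  have h3 : ((a + b + c + d + e) ^ 2) ^ 2 ≤ (5 * (a ^ 2 + b ^ 2 + c ^ 2 + d ^ 2 + e ^ 2)) ^ 2 :=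
    pow_le_pow_left₀ (sq_nonneg _) h1 2
  calc (a + b + c + d + e) ^ 4 = ((a + b + c + d + e) ^ 2) ^ 2 := by ring
    _ ≤ 25 * (a ^ 2 + b ^ 2 + c ^ 2 + d ^ 2 + e ^ 2) ^ 2 := by linarith
    _ ≤ _ := by linarith

theorem four2 (x y : ℝ) : (x + y) ^ 4 ≤ 8 * (x ^ 4 + y ^ 4) := by
  have e : 8 * (x ^ 4 + y ^ 4) - (x + y) ^ 4
      = (x - y) ^ 2 * (5 * (x + y) ^ 2 + 2 * x ^ 2 + 2 * y ^ 2) := by ring
  have : 0 ≤ (x - y) ^ 2 * (5 * (x + y) ^ 2 + 2 * x ^ 2 + 2 * y ^ 2) := by positivity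
  linarith

theorem sub_one_sq {r : ℝ} (hr : 0 ≤ r) : (r - 1) ^ 2 ≤ (1 + r) ^ 2 := by nlinarith

theorem sub_one_four {r : ℝ} (hr : 0 ≤ r) : (r - 1) ^ 4 ≤ 1 + r ^ 4 := by
  have e : 1 + r ^ 4 - (r - 1) ^ 4 = 2 * r * (2 * (r - 3 / 4) ^ 2 + 7 / 8) := by ring
  have : 0 ≤ 2 * r * (2 * (r - 3 / 4) ^ 2 + 7 / 8) := by positivity
  linarith

/-- the bound on the small part of the jump -/
noncomputable def U (κ R e rv fu fv Yv pv : ℝ) : ℝ :=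
  κ * fu ^ 2 * (1 + rv) + |fu * Yv| + pv * |fu| * R + R * |fu * fv| + R * e

/-- the harmless terms -/
noncomputable def H (κ R e r rv fu fv Yv pv : ℝ) : ℝ :=
  fu ^ 2 * (r ^ 2 * Yv ^ 2 + (R ^ 2 * r ^ 2 + R ^ 4 * κ ^ 20) * fv ^ 2
      + r ^ 2 * ((1 + rv) ^ 2 + R ^ 2 * pv ^ 2) + (κ * (1 + rv ^ 4) + R ^ 4 * pv ^ 4))
    + (R ^ 2 * r ^ 2 * e ^ 2 + R ^ 4 * e ^ 4)

theorem H_nonneg {κ : ℝ} (hκ : 0 ≤ κ) (R e r rv fu fv Yv pv : ℝ) :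
    0 ≤ H κ R e r rv fu fv Yv pv := by
  unfold H; positivity

theorem U_sq {κ R e r rv fu fv Yv pv : ℝ} (hκ : 0 ≤ κ) (hκ1 : κ ≤ 1) (hf : fu ^ 2 ≤ 1) :
    r ^ 2 * U κ R e rv fu fv Yv pv ^ 2 ≤ 5 * H κ R e r rv fu fv Yv pv := by
  have h1 := mul_le_mul_of_nonneg_left
    (sq5 (κ * fu ^ 2 * (1 + rv)) |fu * Yv| (pv * |fu| * R) (R * |fu * fv|) (R * e)) (sq_nonneg r)
  simp only [mul_pow, sq_abs] at h1
  have h2 : κ ^ 2 * fu ^ 2 ≤ 1 := mul_le_one₀ (pow_le_one₀ hκ hκ1) (sq_nonneg _) hf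
  have h3 := mul_le_mul_of_nonneg_right h2
    (by positivity : 0 ≤ r ^ 2 * fu ^ 2 * (1 + rv) ^ 2)
  have h4 : 0 ≤ fu ^ 2 * (R ^ 4 * κ ^ 20 * fv ^ 2) := by positivity
  have h5 : 0 ≤ fu ^ 2 * (κ * (1 + rv ^ 4) + R ^ 4 * pv ^ 4) := by positivity
  have h6 : 0 ≤ R ^ 4 * e ^ 4 := by positivity
  unfold U H
  linarith

theorem U_four {κ R e r rv fu fv Yv pv : ℝ} (hκ : 0 ≤ κ) (hκ1 : κ ≤ 1) (hf : fu ^ 2 ≤ 1)
    (hr : 0 ≤ r) (hrv : 0 ≤ rv) (hY : Yv ^ 2 ≤ r * rv) (hh : fu ^ 2 * fv ^ 2 ≤ κ ^ 20) :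
    U κ R e rv fu fv Yv pv ^ 4 ≤ 1000 * H κ R e r rv fu fv Yv pv := by
  have h1 := four5 (κ * fu ^ 2 * (1 + rv)) |fu * Yv| (pv * |fu| * R) (R * |fu * fv|) (R * e)
  have a4 : ∀ t : ℝ, |t| ^ 4 = t ^ 4 := fun t => by
    rw [← abs_pow, abs_of_nonneg (by positivity)]
  have hf0 := sq_nonneg fu
  have hf4 : fu ^ 4 ≤ fu ^ 2 := by nlinarith
  -- A1
  have b1 : (κ * fu ^ 2 * (1 + rv)) ^ 4 ≤ 8 * (fu ^ 2 * (κ * (1 + rv ^ 4))) := by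
    have t1 : κ ^ 3 * (fu ^ 2) ^ 3 ≤ 1 :=
      mul_le_one₀ (pow_le_one₀ hκ hκ1) (by positivity) (pow_le_one₀ hf0 hf)
    have t2 := four2 1 rv
    have t3 : κ ^ 3 * (fu ^ 2) ^ 3 * (1 + rv) ^ 4 ≤ 1 * (8 * (1 ^ 4 + rv ^ 4)) :=
      mul_le_mul t1 t2 (by positivity) (by norm_num)
    have t4 := mul_le_mul_of_nonneg_left t3 (by positivity : 0 ≤ κ * fu ^ 2)
    calc (κ * fu ^ 2 * (1 + rv)) ^ 4 = κ * fu ^ 2 * (κ ^ 3 * (fu ^ 2) ^ 3 * (1 + rv) ^ 4) := by ring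
      _ ≤ _ := t4
      _ = _ := by ring
  -- A2
  have b2 : |fu * Yv| ^ 4 ≤ fu ^ 2 * (r ^ 2 * (1 + rv) ^ 2) := by
    have t1 : (Yv ^ 2) ^ 2 ≤ (r * (1 + rv)) ^ 2 :=
      pow_le_pow_left₀ (sq_nonneg _) (hY.trans (by nlinarith)) 2
    rw [a4]
    calc (fu * Yv) ^ 4 = fu ^ 4 * (Yv ^ 2) ^ 2 := by ring
      _ ≤ fu ^ 2 * (r * (1 + rv)) ^ 2 := mul_le_mul hf4 t1 (by positivity) hf0
      _ = _ := by ring
  -- A3
  have b3 : (pv * |fu| * R) ^ 4 ≤ fu ^ 2 * (R ^ 4 * pv ^ 4) := by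
    rw [mul_pow, mul_pow, a4]
    have := mul_le_mul_of_nonneg_right hf4 (by positivity : 0 ≤ R ^ 4 * pv ^ 4)
    linarith
  -- A4
  have b4 : (R * |fu * fv|) ^ 4 ≤ fu ^ 2 * (R ^ 4 * κ ^ 20 * fv ^ 2) := by
    rw [mul_pow, a4]
    have := mul_le_mul_of_nonneg_right hh (by positivity : 0 ≤ R ^ 4 * (fu ^ 2 * fv ^ 2))
    linarith
  have b5 : (R * e) ^ 4 = R ^ 4 * e ^ 4 := by ring
  have c1 : 0 ≤ fu ^ 2 * (r ^ 2 * Yv ^ 2) := by positivity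
  have c2 : 0 ≤ fu ^ 2 * (R ^ 2 * r ^ 2 * fv ^ 2) := by positivity
  have c3 : 0 ≤ fu ^ 2 * (R ^ 4 * κ ^ 20 * fv ^ 2) := by positivity
  have c4 : 0 ≤ fu ^ 2 * (r ^ 2 * (1 + rv) ^ 2) := by positivity
  have c5 : 0 ≤ fu ^ 2 * (r ^ 2 * (R ^ 2 * pv ^ 2)) := by positivity
  have c6 : 0 ≤ fu ^ 2 * (R ^ 4 * pv ^ 4) := by positivity
  have c7 : 0 ≤ R ^ 2 * r ^ 2 * e ^ 2 := by positivity
  have c8 : 0 ≤ R ^ 4 * e ^ 4 := by positivity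
  have e1 : H κ R e r rv fu fv Yv pv = fu ^ 2 * (r ^ 2 * Yv ^ 2) + fu ^ 2 * (R ^ 2 * r ^ 2 * fv ^ 2)
      + fu ^ 2 * (R ^ 4 * κ ^ 20 * fv ^ 2) + fu ^ 2 * (r ^ 2 * (1 + rv) ^ 2)
      + fu ^ 2 * (r ^ 2 * (R ^ 2 * pv ^ 2)) + fu ^ 2 * (κ * (1 + rv ^ 4))
      + fu ^ 2 * (R ^ 4 * pv ^ 4) + R ^ 2 * r ^ 2 * e ^ 2 + R ^ 4 * e ^ 4 := by
    unfold H; ring
  rw [e1, U]
  rw [b5] at h1
  generalize fu ^ 2 * (r ^ 2 * Yv ^ 2) = x1 at *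
  generalize fu ^ 2 * (R ^ 2 * r ^ 2 * fv ^ 2) = x2 at *
  generalize fu ^ 2 * (R ^ 4 * κ ^ 20 * fv ^ 2) = x3 at *
  generalize fu ^ 2 * (r ^ 2 * (1 + rv) ^ 2) = x4 at *
  generalize fu ^ 2 * (r ^ 2 * (R ^ 2 * pv ^ 2)) = x5 at *
  generalize fu ^ 2 * (κ * (1 + rv ^ 4)) = x6 at *
  generalize fu ^ 2 * (R ^ 4 * pv ^ 4) = x7 at *
  generalize R ^ 2 * r ^ 2 * e ^ 2 = x8 at *
  generalize R ^ 4 * e ^ 4 = x9 at *
  generalize (κ * fu ^ 2 * (1 + rv)) ^ 4 = y1 at *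
  generalize |fu * Yv| ^ 4 = y2 at *
  generalize (pv * |fu| * R) ^ 4 = y3 at *
  generalize (R * |fu * fv|) ^ 4 = y4 at *
  linarith

theorem p_sq {κ R e r rv fu fv Yv pv : ℝ} (hκ : 0 ≤ κ) (hf : fu ^ 2 ≤ 1) (hrv : 0 ≤ rv) :
    r ^ 2 * (fu ^ 2 * (rv - 1)) ^ 2 ≤ H κ R e r rv fu fv Yv pv := by
  have t1 : fu ^ 2 * (rv - 1) ^ 2 ≤ 1 * (1 + rv) ^ 2 :=
    mul_le_mul hf (sub_one_sq hrv) (sq_nonneg _) (by norm_num)
  have t2 := mul_le_mul_of_nonneg_left t1 (by positivity : 0 ≤ r ^ 2 * fu ^ 2)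
  have c1 : 0 ≤ fu ^ 2 * (r ^ 2 * Yv ^ 2 + (R ^ 2 * r ^ 2 + R ^ 4 * κ ^ 20) * fv ^ 2
      + r ^ 2 * (R ^ 2 * pv ^ 2) + (κ * (1 + rv ^ 4) + R ^ 4 * pv ^ 4))
    + (R ^ 2 * r ^ 2 * e ^ 2 + R ^ 4 * e ^ 4) := by positivity
  unfold H
  linarith

theorem pq_sq {κ R e r ru rv fu fv Yv pv : ℝ} (hκ : 0 ≤ κ) (hru : 0 ≤ ru) (hrv : 0 ≤ rv)
    (hRu : 1 + ru ≤ R) (hRv : 1 + rv ≤ R) (hh : fu ^ 2 * fv ^ 2 ≤ κ ^ 20) :
    (fu ^ 2 * (rv - 1)) ^ 2 * (fv ^ 2 * (ru - 1)) ^ 2 ≤ H κ R e r rv fu fv Yv pv := by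
  have t1 : (rv - 1) ^ 2 ≤ R ^ 2 := (sub_one_sq hrv).trans (pow_le_pow_left₀ (by linarith) hRv 2)
  have t2 : (ru - 1) ^ 2 ≤ R ^ 2 := (sub_one_sq hru).trans (pow_le_pow_left₀ (by linarith) hRu 2)
  have t3 : (rv - 1) ^ 2 * (ru - 1) ^ 2 ≤ R ^ 2 * R ^ 2 :=
    mul_le_mul t1 t2 (sq_nonneg _) (sq_nonneg _)
  have t4 : fu ^ 2 * fv ^ 2 * ((rv - 1) ^ 2 * (ru - 1) ^ 2) ≤ κ ^ 20 * (R ^ 2 * R ^ 2) :=
    mul_le_mul hh t3 (by positivity) (by positivity)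
  have t5 := mul_le_mul_of_nonneg_left t4 (by positivity : 0 ≤ fu ^ 2 * fv ^ 2)
  have c1 : 0 ≤ fu ^ 2 * (r ^ 2 * Yv ^ 2 + (R ^ 2 * r ^ 2) * fv ^ 2
      + r ^ 2 * ((1 + rv) ^ 2 + R ^ 2 * pv ^ 2) + (κ * (1 + rv ^ 4) + R ^ 4 * pv ^ 4))
    + (R ^ 2 * r ^ 2 * e ^ 2 + R ^ 4 * e ^ 4) := by positivity
  unfold H
  linarith

theorem p_four {rv fu : ℝ} (hf : fu ^ 2 ≤ 9 / 16) (hrv : 0 ≤ rv) :
    (fu ^ 2 * (rv - 1)) ^ 4 ≤ 178 / 1000 * (fu ^ 2 * (1 + rv ^ 4)) := by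
  have t1 : (fu ^ 2) ^ 3 ≤ 178 / 1000 :=
    (pow_le_pow_left₀ (sq_nonneg _) hf 3).trans (by norm_num)
  have t2 : (fu ^ 2) ^ 3 * (rv - 1) ^ 4 ≤ 178 / 1000 * (1 + rv ^ 4) :=
    mul_le_mul t1 (sub_one_four hrv) (by positivity) (by norm_num)
  have t3 := mul_le_mul_of_nonneg_left t2 (sq_nonneg fu)
  calc (fu ^ 2 * (rv - 1)) ^ 4 = fu ^ 2 * ((fu ^ 2) ^ 3 * (rv - 1) ^ 4) := by ring
    _ ≤ _ := t3
    _ = _ := by ring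

/-- abstract form of the fourth-power expansion -/
theorem expand {r Δ p q c U U' H H' J J' : ℝ} (hc : 0 ≤ c) (hρ : |Δ - (p + q)| ≤ c * (U + U'))
    (hH : 0 ≤ H) (hH' : 0 ≤ H')
    (h1 : r ^ 2 * U ^ 2 ≤ 5 * H) (h1' : r ^ 2 * U' ^ 2 ≤ 5 * H')
    (h2 : U ^ 4 ≤ 1000 * H) (h2' : U' ^ 4 ≤ 1000 * H')
    (h3 : r ^ 2 * p ^ 2 ≤ H) (h3' : r ^ 2 * q ^ 2 ≤ H') (h4 : p ^ 2 * q ^ 2 ≤ H)
    (h5 : p ^ 4 ≤ 178 / 1000 * J) (h5' : q ^ 4 ≤ 178 / 1000 * J') :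
    (r + Δ) ^ 4 ≤ r ^ 4 + 4 * r ^ 3 * Δ + 5607 / 10000 * (J + J')
      + (80 + 480 * c ^ 2 + 6048000 * c ^ 4) * (H + H') := by
  obtain ⟨ρ, rfl⟩ : ∃ ρ, Δ = (p + q) + ρ := ⟨Δ - (p + q), by ring⟩
  rw [add_sub_cancel_left] at hρ
  have e1 := four_add_le r (p + q + ρ)
  have e2 := four_small_le (p + q) ρ
  have e3 := four_pq_le p q
  have a2 : ρ ^ 2 ≤ (c * (U + U')) ^ 2 := by
    rw [← sq_abs]; exact pow_le_pow_left₀ (abs_nonneg _) hρ 2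
  have a4 : ρ ^ 4 ≤ (c * (U + U')) ^ 4 := by
    rw [← abs_of_nonneg (by positivity : 0 ≤ ρ ^ 4), abs_pow]
    exact pow_le_pow_left₀ (abs_nonneg _) hρ 4
  have b2 : r ^ 2 * ρ ^ 2 ≤ 10 * (c ^ 2 * (H + H')) := by
    have t1 : (U + U') ^ 2 ≤ 2 * (U ^ 2 + U' ^ 2) := by nlinarith [sq_nonneg (U - U')]
    have t2 : r ^ 2 * (U + U') ^ 2 ≤ 10 * (H + H') := by
      have := mul_le_mul_of_nonneg_left t1 (sq_nonneg r)
      linarith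
    have t3 := mul_le_mul_of_nonneg_left t2 (sq_nonneg c)
    have t4 := mul_le_mul_of_nonneg_left a2 (sq_nonneg r)
    linarith
  have b4 : ρ ^ 4 ≤ 8000 * (c ^ 4 * (H + H')) := by
    have t1 := four2 U U'
    have t2 : (U + U') ^ 4 ≤ 8000 * (H + H') := by linarith
    have t3 := mul_le_mul_of_nonneg_left t2 (by positivity : 0 ≤ c ^ 4)
    rw [mul_pow] at a4
    linarith
  have d2 : r ^ 2 * (p + q + ρ) ^ 2 ≤ 3 * (r ^ 2 * p ^ 2 + r ^ 2 * q ^ 2 + r ^ 2 * ρ ^ 2) := by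
    have t1 : (p + q + ρ) ^ 2 ≤ 3 * (p ^ 2 + q ^ 2 + ρ ^ 2) := by
      nlinarith [sq_nonneg (p - q), sq_nonneg (p - ρ), sq_nonneg (q - ρ)]
    have := mul_le_mul_of_nonneg_left t1 (sq_nonneg r)
    linarith
  have e4 : (80 + 480 * c ^ 2 + 6048000 * c ^ 4) * (H + H')
      = 80 * (H + H') + 480 * (c ^ 2 * (H + H')) + 6048000 * (c ^ 4 * (H + H')) := by ring
  have e5 : 16 * r ^ 2 * (p + q + ρ) ^ 2 = 16 * (r ^ 2 * (p + q + ρ) ^ 2) := by ring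
  have e6 : 15 * p ^ 2 * q ^ 2 = 15 * (p ^ 2 * q ^ 2) := by ring
  rw [e4]
  rw [e5] at e1
  rw [e6] at e3
  generalize r ^ 2 * (p + q + ρ) ^ 2 = x1 at *
  generalize (r + (p + q + ρ)) ^ 4 = x2 at *
  generalize 4 * r ^ 3 * (p + q + ρ) = x3 at *
  generalize (p + q + ρ) ^ 4 = x4 at *
  generalize (p + q) ^ 4 = x5 at *
  generalize c ^ 2 * (H + H') = x6 at *
  generalize c ^ 4 * (H + H') = x7 at *
  linarith

/-- `jb` against `U` -/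
theorem jb_real {κ R e r ru rv fu fv Yu o pu pv ph : ℝ} (hκ : 0 ≤ κ) (hκ1 : κ ≤ 1 / 4)
    (he : 0 ≤ e) (he1 : e ≤ 1) (hru : 0 ≤ ru) (hrv : 0 ≤ rv) (hr : 0 ≤ r)
    (hR : 1 + r ≤ R) (hRu : 1 + ru ≤ R) (hRv : 1 + rv ≤ R) (hf : |fu| ≤ 1)
    (hY : Yu ^ 2 ≤ r * ru) (ho : o ^ 2 ≤ ru * rv) (hpu : pu ≤ 2 * κ)
    (hpv0 : 0 ≤ pv) (hpv : pv ≤ 2 * κ) (hph : ph ≤ 2 * κ) :
    pv * |fu * Yu| + (ph + pu * pv) * fu ^ 2
      + fu ^ 2 * |rv - 1| * κ + |fu * fv| * |o|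
      + |fu * fv| * (pv * (1 + ru)) + fu ^ 2 * (pv * |o|)
      + fu ^ 2 * (pv ^ 2 * (1 + ru)) + |Yu| * e + |fu| * (1 + ru) * e
      + |fu| * (1 + rv) * e + ru * e ^ 2
      ≤ 4 * (κ * fu ^ 2 * (1 + rv) + pv * |fu| * R + R * |fu * fv| + R * e) := by
  have hR0 : 0 ≤ R := by linarith
  have hYR : |Yu| ≤ R := abs_le_of_sq_le_sq (hY.trans (by
    rw [sq]; exact mul_le_mul (by linarith) (by linarith) hru hR0)) hR0
  have hoR : |o| ≤ R := abs_le_of_sq_le_sq (ho.trans (by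
    rw [sq]; exact mul_le_mul (by linarith) (by linarith) hrv hR0)) hR0
  have hf0 := abs_nonneg fu
  have hff := abs_nonneg (fu * fv)
  have hf2 : fu ^ 2 ≤ |fu| := by rw [← sq_abs]; nlinarith
  have hpv1 : pv ≤ 1 := by linarith
  have b1 : pv * |fu * Yu| ≤ pv * |fu| * R := by
    rw [abs_mul, ← mul_assoc]; exact mul_le_mul_of_nonneg_left hYR (by positivity)
  have b2 : (ph + pu * pv) * fu ^ 2 ≤ 3 * (κ * fu ^ 2 * (1 + rv)) := by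
    have t1 : pu * pv ≤ 2 * κ * (2 * κ) := mul_le_mul hpu hpv hpv0 (by linarith)
    have t2 : ph + pu * pv ≤ 3 * κ * (1 + rv) := by nlinarith [mul_nonneg hκ hrv]
    have := mul_le_mul_of_nonneg_right t2 (sq_nonneg fu)
    linarith
  have b3 : fu ^ 2 * |rv - 1| * κ ≤ κ * fu ^ 2 * (1 + rv) := by
    have t1 : |rv - 1| ≤ 1 + rv := by rw [abs_le]; constructor <;> linarith
    have := mul_le_mul_of_nonneg_left t1 (by positivity : 0 ≤ κ * fu ^ 2)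
    linarith
  have b4 : |fu * fv| * |o| ≤ R * |fu * fv| := by
    have := mul_le_mul_of_nonneg_left hoR hff
    linarith
  have b5 : |fu * fv| * (pv * (1 + ru)) ≤ R * |fu * fv| := by
    have t1 : pv * (1 + ru) ≤ 1 * R := mul_le_mul hpv1 hRu (by linarith) (by norm_num)
    have := mul_le_mul_of_nonneg_left t1 hff
    linarith
  have b6 : fu ^ 2 * (pv * |o|) ≤ pv * |fu| * R := by
    have t1 : fu ^ 2 * |o| ≤ |fu| * R := mul_le_mul hf2 hoR (abs_nonneg _) hf0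
    have := mul_le_mul_of_nonneg_left t1 hpv0
    linarith
  have b7 : fu ^ 2 * (pv ^ 2 * (1 + ru)) ≤ pv * |fu| * R := by
    have t0 : pv * (1 + ru) ≤ 1 * R := mul_le_mul hpv1 hRu (by linarith) (by norm_num)
    have t1 : fu ^ 2 * (pv * (1 + ru)) ≤ |fu| * (1 * R) :=
      mul_le_mul hf2 t0 (by positivity) hf0
    have := mul_le_mul_of_nonneg_left t1 hpv0
    linarith
  have b8 : |Yu| * e ≤ R * e := mul_le_mul_of_nonneg_right hYR he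
  have b9 : |fu| * (1 + ru) * e ≤ 1 * R * e :=
    mul_le_mul_of_nonneg_right (mul_le_mul hf hRu (by linarith) (by norm_num)) he
  have b10 : |fu| * (1 + rv) * e ≤ 1 * R * e :=
    mul_le_mul_of_nonneg_right (mul_le_mul hf hRv (by linarith) (by norm_num)) he
  have b11 : ru * e ^ 2 ≤ R * e := by
    have t1 : e ^ 2 ≤ e := by nlinarith
    exact mul_le_mul (by linarith) t1 (sq_nonneg _) hR0
  have c1 : 0 ≤ pv * |fu| * R := by positivity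
  have c2 : 0 ≤ R * |fu * fv| := by positivity
  linarith

/-- the main term at `a = u` -/
theorem diag_real {σ κ ru rv Du Dv f o : ℝ} (hσ : |σ| = 1) (hκ : 0 ≤ κ) (hκ1 : κ ≤ 1)
    (hru : 0 ≤ ru) (hrv : 0 ≤ rv) (ho : o ^ 2 ≤ ru * rv) (hu : |Du| ≤ κ) (hv : |Dv| ≤ κ)
    (hf : |f| ≤ κ) :
    |Du ^ 2 * (rv - 1) + f ^ 2 * (ru - 1) + 2 * σ * (f * ru + Du * o) + 2 * Dv * Du * ru
      + 2 * Du * f * o| ≤ 10 * (κ * (1 + ru + rv)) := by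
  have am : ∀ {a b A B : ℝ}, |a| ≤ A → |b| ≤ B → |a * b| ≤ A * B := fun ha hb => by
    rw [abs_mul]; exact mul_le_mul ha hb (abs_nonneg _) ((abs_nonneg _).trans ha)
  have hs : |ru| ≤ 1 + ru + rv := by rw [abs_of_nonneg hru]; linarith
  have hx : |rv - 1| ≤ 1 + ru + rv := by rw [abs_le]; constructor <;> linarith
  have hy : |ru - 1| ≤ 1 + ru + rv := by rw [abs_le]; constructor <;> linarith
  have hz : |o| ≤ 1 + ru + rv := abs_le_of_sq_le_sq (ho.trans (by nlinarith)) (by linarith)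
  have hσ' : |σ| ≤ 1 := hσ.le
  have b1 := am (hu.trans hκ1) (am hu hx)
  have b2 := am (hf.trans hκ1) (am hf hy)
  have b3 := am hσ' (am hf hs)
  have b4 := am hσ' (am hu hz)
  have b5 := am (hv.trans hκ1) (am hu hs)
  have b6 := am (hu.trans hκ1) (am hf hz)
  have h0 : 0 ≤ κ * (1 + ru + rv) := by positivity
  rw [abs_le] at b1 b2 b3 b4 b5 b6 ⊢
  constructor <;> linarith [b1.1, b1.2, b2.1, b2.2, b3.1, b3.2, b4.1, b4.2, b5.1, b5.2, b6.1, b6.2]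

variable {ι : Type} [Fintype ι] [DecidableEq ι]

theorem sum_rem {S : Finset ι} {u v : ι} (h : u ≠ v) (hu : u ∈ S) (hv : v ∈ S) (φ : ι → ℝ) :
    ∑ a ∈ rem S u v, φ a = ∑ a ∈ S, φ a - φ u - φ v := by
  have h1 : v ∈ S.erase u := mem_erase.2 ⟨h.symm, hv⟩
  have h2 := sum_erase_eq_sub (f := φ) h1
  have h3 := sum_erase_eq_sub (f := φ) hu
  unfold rem
  rw [h2, h3]

theorem rem_subset (S : Finset ι) (u v : ι) : rem S u v ⊆ S := fun _ ha => (mem_rem.1 ha).1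

variable (c : Ctx ι)

noncomputable def Hc (u v a : ι) : ℝ :=
  H (1 / c.p.K) c.R (1 / c.m) (rr c.F a) (rr c.F v) (c.F a u) (c.F a v) ((c.F * c.F) a v)
    (pd c.S c.F v)
noncomputable def Uc (u v a : ι) : ℝ :=
  U (1 / c.p.K) c.R (1 / c.m) (rr c.F v) (c.F a u) (c.F a v) ((c.F * c.F) a v) (pd c.S c.F v)
noncomputable def Jc (u v a : ι) : ℝ := c.F a u ^ 2 * (1 + rr c.F v ^ 4)

variable {c} (hK : Big c.p.K)
include hK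

theorem κ_nonneg : 0 ≤ 1 / c.p.K := by have := hK.pos; positivity
theorem Hc_nonneg (u v a : ι) : 0 ≤ Hc c u v a := H_nonneg (κ_nonneg hK) _ _ _ _ _ _ _ _
theorem Jc_nonneg (u v a : ι) : 0 ≤ Jc c u v a := by unfold Jc; positivity
theorem vr_le (a : ι) : 1 + rr c.F a ≤ c.R := by
  have h1 := Ctx.ro_le hK a
  have h2 := c.oG.mat.rr_nonneg a
  linarith
theorem f_sq (a b : ι) : c.F a b ^ 2 ≤ 9 / 16 := by
  have h := c.oF.ent a b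
  rw [← sq_abs]
  exact (pow_le_pow_left₀ (abs_nonneg _) h 2).trans (by norm_num)
theorem hh_pt {u v : ι} (h : c.w u v ≠ 0) (a : ι) :
    c.F a u ^ 2 * c.F a v ^ 2 ≤ (1 / c.p.K) ^ 20 := by
  obtain ⟨-, -, -, -, -, h6, -⟩ := c.wt.supp u v h
  rw [_root_.one_div_pow]
  refine le_trans ?_ h6
  exact single_le_sum (f := fun a => c.F a u ^ 2 * c.F a v ^ 2) (fun _ _ => by positivity)
    (mem_univ a)
theorem inv_m_le : 1 / c.m ≤ 1 / c.p.K := one_div_le_one_div_of_le hK.pos (Ctx.K_le_m hK)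

theorem jb_le {u v : ι} (h : c.w u v ≠ 0) (a : ι) :
    jb c.S c.F c.p.K u v a ≤ |c.F a v * (c.F * c.F) a u|
      + 4 * (1 / c.p.K * c.F a u ^ 2 * (1 + rr c.F v) + pd c.S c.F v * |c.F a u| * c.R
        + c.R * |c.F a u * c.F a v| + c.R * (1 / c.m)) := by
  obtain ⟨-, -, -, h4, -⟩ := c.wt.supp u v h
  have hκ := Ctx.inv_K_le hK
  have hm := inv_m_le hK
  have hm0 : 0 ≤ 1 / c.m := by have := Ctx.m_pos hK; positivity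
  have hp : ∀ b, pd c.S c.F b ≤ 2 * (1 / c.p.K) := fun b => by
    have := Ctx.pd_le hK b; rwa [mul_one_div]
  have hp0 : 0 ≤ pd c.S c.F v := by unfold pd; positivity
  have hph : ph c.S c.F u v ≤ 2 * (1 / c.p.K) := by
    have : ph c.S c.F u v = |c.F u v| + 1 / c.m := rfl
    linarith
  have key := jb_real (fv := c.F a v) (κ_nonneg hK) (by linarith) hm0 (by linarith)
    (c.oF.mat.rr_nonneg u) (c.oF.mat.rr_nonneg v) (c.oF.mat.rr_nonneg a) (vr_le hK a) (vr_le hK u)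
    (vr_le hK v) ((c.oF.ent a u).trans (by norm_num)) (Ctx.Y_sq_le hK a u) (Ctx.Y_sq_le hK u v)
    (hp u) hp0 (hp v) hph
  refine le_trans (le_of_eq ?_) (add_le_add le_rfl key)
  simp only [jb, ph0, vr, Ctx.m]
  ring

theorem jb_sum_le {u v : ι} (h : c.w u v ≠ 0) (a : ι) :
    jb c.S c.F c.p.K u v a + jb c.S c.F c.p.K v u a ≤ 4 * (Uc c u v a + Uc c v u a) := by
  have h1 := jb_le hK h a
  have h2 := jb_le hK (by rw [c.wt.symm]; exact h) a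
  have h3 := abs_nonneg (c.F a v * (c.F * c.F) a u)
  have h4 := abs_nonneg (c.F a u * (c.F * c.F) a v)
  unfold Uc U
  linarith

/-- pointwise bound on the fourth power -/
theorem pt_four {C : ℝ} (hC : 0 ≤ C) {u v a : ι} (h : c.w u v ≠ 0) {r' : ℝ}
    (h1 : |r' - rr c.F a - main5 c.σ c.F u v a| ≤ C * err5 c.S c.F u v a)
    (h2 : |r' - rr c.F a - (c.F a u ^ 2 * (rr c.F v - 1) + c.F a v ^ 2 * (rr c.F u - 1))|
      ≤ C * (jb c.S c.F c.p.K u v a + jb c.S c.F c.p.K v u a)) :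
    r' ^ 4 ≤ rr c.F a ^ 4 + 4 * (rr c.F a ^ 3 * main5 c.σ c.F u v a)
      + (4 * C * (rr c.F a ^ 3 * err5 c.S c.F u v a)
        + 5607 / 10000 * (Jc c u v a + Jc c v u a)
        + (80 + 480 * (4 * C) ^ 2 + 6048000 * (4 * C) ^ 4) * (Hc c u v a + Hc c v u a)) := by
  have h' : c.w v u ≠ 0 := by rw [c.wt.symm]; exact h
  have hκ0 := κ_nonneg hK
  have hκ1 : 1 / c.p.K ≤ 1 := (Ctx.inv_K_le hK).trans (by norm_num)
  have hf : ∀ b, c.F a b ^ 2 ≤ 1 := fun b => (f_sq hK a b).trans (by norm_num)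
  have hr := c.oF.mat.rr_nonneg
  have h3 : |r' - rr c.F a - (c.F a u ^ 2 * (rr c.F v - 1) + c.F a v ^ 2 * (rr c.F u - 1))|
      ≤ 4 * C * (Uc c u v a + Uc c v u a) := by
    have := mul_le_mul_of_nonneg_left (jb_sum_le hK h a) hC
    linarith
  have key := expand (r := rr c.F a) (by positivity : 0 ≤ 4 * C) h3 (Hc_nonneg hK u v a)
    (Hc_nonneg hK v u a) (U_sq hκ0 hκ1 (hf u)) (U_sq hκ0 hκ1 (hf v))
    (U_four hκ0 hκ1 (hf u) (hr a) (hr v) (Ctx.Y_sq_le hK a v) (hh_pt hK h a))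
    (U_four hκ0 hκ1 (hf v) (hr a) (hr u) (Ctx.Y_sq_le hK a u) (hh_pt hK h' a))
    (p_sq hκ0 (hf u) (hr v)) (p_sq hκ0 (hf v) (hr u))
    (pq_sq hκ0 (hr u) (hr v) (vr_le hK u) (vr_le hK v) (hh_pt hK h a))
    (p_four (f_sq hK a u) (hr v)) (p_four (f_sq hK a v) (hr u))
  rw [add_sub_cancel] at key
  have h4 := mul_le_mul_of_nonneg_left (abs_le.1 h1).2 (pow_nonneg (hr a) 3)
  unfold Jc
  linarith

theorem main5_diag_pt {u v : ι} (h : c.w u v ≠ 0) :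
    |main5 c.σ c.F u v u| ≤ 10 * (1 / c.p.K * (1 + rr c.F u + rr c.F v)) := by
  obtain ⟨-, -, -, h4, -⟩ := c.wt.supp u v h
  have hs : |c.σ| = 1 := by rcases c.sg with h | h <;> simp [h]
  exact diag_real hs (κ_nonneg hK) ((Ctx.inv_K_le hK).trans (by norm_num)) (c.oF.mat.rr_nonneg u)
    (c.oF.mat.rr_nonneg v) (Ctx.Y_sq_le hK u v) (Ctx.diag_le hK u) (Ctx.diag_le hK v) h4

end TrR4X

end Crest.Agent.R62
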