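import Crest.Agent.R62.Der
import Crest.Agent.R62.Pt5
import Crest.Agent.R62.TrR4Aux

set_option autoImplicit false
set_option linter.unusedSectionVars false

open Finset Matrix

namespace Crest.Agent.R62

variable {ι V : Type} [Fintype ι] [DecidableEq ι] [Fintype V] [DecidableEq V]

namespace TrR4X

theorem ratio {m W : ℝ} (hm : 100 ≤ m) (hW : 0 < W) :
    ∃ δ : ℝ, (m - 2) / (m - 2 + W) = m / (m + W) * (1 - δ) ∧ 0 ≤ δ ∧ δ ≤ 1 / 4 ∧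
      δ * m ^ 2 ≤ 3 * (W * (m / (m + W))) := by
  have h1 : 0 < m - 2 + W := by linarith
  have h2 : 0 < m + W := by linarith
  have h3 : 0 < m := by linarith
  refine ⟨2 * W / (m * (m - 2 + W)), ?_, by positivity, ?_, ?_⟩
  · field_simp; ring
  · rw [div_le_iff₀ (by positivity)]; nlinarith
  · have e1 : 2 * W / (m * (m - 2 + W)) * m ^ 2 = (W * m) * (2 / (m - 2 + W)) := by
      field_simp
    have e2 : 3 * (W * (m / (m + W))) = (W * m) * (3 / (m + W)) := by field_simp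
    rw [e1, e2]
    refine mul_le_mul_of_nonneg_left ?_ (by positivity)
    rw [div_le_div_iff₀ h1 h2]; linarith

theorem tri_swap (S : Finset ι) (Φ : ι → ι → ι → ℝ) :
    ∑ u ∈ S, ∑ v ∈ S, ∑ a ∈ S, Φ u v a = ∑ a ∈ S, ∑ u ∈ S, ∑ v ∈ S, Φ u v a := by
  calc ∑ u ∈ S, ∑ v ∈ S, ∑ a ∈ S, Φ u v a = ∑ u ∈ S, ∑ a ∈ S, ∑ v ∈ S, Φ u v a :=
        sum_congr rfl fun u _ => sum_comm
    _ = _ := sum_comm

/-- the allowed size of an error term -/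
noncomputable def ZZ (c : Ctx ι) : ℝ := c.p.K ^ (c.μ + (10100 + 2 * c.ϱ) - 9 / 10)
noncomputable def S3 (c : Ctx ι) : ℝ := ∑ a ∈ c.S, rr c.F a ^ 3

variable {c : Ctx ι} (hK : Big c.p.K)
include hK

theorem le_Z {x e : ℝ} (h : Le c.p.K x e) (he : e ≤ c.μ + (10100 + 2 * c.ϱ) - 9 / 10) :
    x ≤ ZZ c := h.mono hK he
theorem Z_pos : 0 < ZZ c := Real.rpow_pos_of_pos hK.pos _
theorem L_nn : 0 ≤ c.L := le_trans zero_le_one (Ctx.one_le_L hK)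
theorem R_nn : 0 ≤ c.R := ((Ctx.sz_R hK).1.pos hK).le
theorem Q_nn : 0 ≤ R4 c.S c.F := sum_nonneg fun _ _ => by positivity
theorem R2_nn : 0 ≤ R2 c.S c.F := sum_nonneg fun _ _ => by positivity
theorem S3_nn : 0 ≤ S3 c := sum_nonneg fun a _ => pow_nonneg (c.oF.mat.rr_nonneg a) 3
theorem le_Q : Le c.p.K (R4 c.S c.F) (10100 + 2 * c.ϱ + 1 / 100) :=
  (Ctx.sz_TR4 hK).2.of_le c.oF.R4_T
theorem le_a : Le c.p.K (a2 c.F) c.μ := (Ctx.le_m hK).of_le (Ctx.a2_le_m hK)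
theorem le_κ : Le c.p.K (1 / c.p.K) (-1) := Le.inv hK Ge.self
theorem le_L2 : Le c.p.K (c.L ^ 2) (c.τ / 2 + 2 / 100) :=
  (Le.pow hK (Ctx.sz_L hK).2 (L_nn hK) 2).mono hK (by push_cast; linarith)
theorem le_Rsq : Le c.p.K (c.R ^ 2) (5050 + c.ϱ + 2 / 100) :=
  (Le.pow hK (Ctx.sz_R hK).2 (R_nn hK) 2).mono hK (by push_cast; linarith)
theorem le_Rfour : Le c.p.K (c.R ^ 4) (10100 + 2 * c.ϱ + 4 / 100) :=
  (Le.pow hK (Ctx.sz_R hK).2 (R_nn hK) 4).mono hK (by push_cast; linarith)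
theorem le_P2 : Le c.p.K (∑ a ∈ c.S, pd c.S c.F a ^ 2) (450 + c.ϱ + 1 / 100 + 1 / 100) :=
  (Le.cmul hK (Ctx.sz_TD hK).2 (C := 4) (by norm_num) (by norm_num)).of_le (Ctx.P2_le hK)
theorem le_P4 : Le c.p.K (∑ a ∈ c.S, pd c.S c.F a ^ 4) (-3) := by
  have h1 := Le.cmul hK (Le.cmul hK (Ctx.le_inv_pow hK 4) (C := 4) (by norm_num) (by norm_num))
    (C := 4) (by norm_num) (by norm_num)
  refine (h1.of_le ((Ctx.P4_le hK).trans (le_of_eq (by ring)))).mono hK (by norm_num)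
theorem le_R2' : Le c.p.K (R2 c.S c.F) (c.μ + 13 + c.ϱ + 1 / 100) := by
  rcases c.cases_W with ⟨h1, h2, h3⟩ | ⟨h1, h2, h3⟩
  · exact (Ctx.le_R2 hK).mono hK (by linarith)
  · have h : ¬ c.p.phX c.m := fun h => by have := (Ctx.phX_iff hK).1 h; linarith
    exact ((Ctx.sz_TR hK).2.of_le (c.oF.R2_T h)).mono hK (by linarith)
theorem le_S3 : Le c.p.K (S3 c) (10100 + 2 * c.ϱ - 40) := by
  have h1 := sum_mul_le_sqrt c.S (fun a => rr c.F a) (fun a => rr c.F a ^ 2)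
  have h2 : S3 c ≤ √(R2 c.S c.F) * √(R4 c.S c.F) := by
    refine le_trans (le_of_eq ?_) (h1.trans (le_of_eq ?_))
    · refine sum_congr rfl fun a _ => ?_
      rw [abs_of_nonneg (c.oF.mat.rr_nonneg a), abs_of_nonneg (sq_nonneg _)]; ring
    · unfold R2 R4
      congr 2
      exact sum_congr rfl fun a _ => by ring
  have h3 := Ctx.μ_hi hK
  refine ((Le.mul hK ((le_R2' hK).sqrt hK) ((le_Q hK).sqrt hK) (Real.sqrt_nonneg _)).of_le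
    h2).mono hK ?_
  rcases c.cases_W with ⟨h1, h2, h3⟩ | ⟨h1, h2, h3⟩ <;> linarith
theorem le_mQ : Le c.p.K (c.m + R4 c.S c.F) (10100 + 2 * c.ϱ + 1 / 100 + 1 / 100) := by
  have h3 := Ctx.μ_hi hK
  have h4 := Ctx.μ_lo hK
  refine Le.add hK (Ctx.le_m hK) (le_Q hK) ?_ le_rfl
  rcases c.cases_W with ⟨h1, h2, h3⟩ | ⟨h1, h2, h3⟩ <;> linarith
theorem card_eq : (c.S.card : ℝ) = c.m := rfl

theorem sum_J : ∑ u ∈ c.S, ∑ v ∈ c.S, ∑ a ∈ c.S, Jc c u v a = a2 c.F * (c.m + R4 c.S c.F) := by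
  rw [tri_swap, c.oF.mat.a2_eq, sum_mul]
  refine sum_congr rfl fun a _ => ?_
  simp only [Jc, ← mul_sum, ← sum_mul, Ctx.sum_f_sq hK, sum_add_distrib, sum_const, nsmul_eq_mul,
    mul_one, card_eq hK, R4]

theorem sum_H : ∑ u ∈ c.S, ∑ v ∈ c.S, ∑ a ∈ c.S, Hc c u v a ≤ 10 * ZZ c := by
  have hm := Ctx.m_pos hK
  have hr := c.oF.mat.rr_nonneg
  set P := ∑ a ∈ c.S, vr c.F a ^ 2 with hP
  set P2 := ∑ a ∈ c.S, pd c.S c.F a ^ 2 with hP2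
  set P4 := ∑ a ∈ c.S, pd c.S c.F a ^ 4 with hP4
  set κ := 1 / c.p.K with hκ
  have h1 : ∀ a, ∑ u ∈ c.S, ∑ v ∈ c.S, Hc c u v a
      ≤ (c.L ^ 2 + c.R ^ 2) * rr c.F a ^ 4 + (P + c.R ^ 2 * P2) * rr c.F a ^ 3
        + (c.R ^ 4 * κ ^ 20 + c.R ^ 2) * rr c.F a ^ 2
        + (κ * (c.m + R4 c.S c.F) + c.R ^ 4 * P4) * rr c.F a + c.R ^ 4 * (1 / c.m) ^ 2 := by
    intro a
    have e1 : ∑ u ∈ c.S, ∑ v ∈ c.S, Hc c u v a
        = rr c.F a * (rr c.F a ^ 2 * cc c.F a + (c.R ^ 2 * rr c.F a ^ 2 + c.R ^ 4 * κ ^ 20) * rr c.F a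
            + rr c.F a ^ 2 * (P + c.R ^ 2 * P2) + (κ * (c.m + R4 c.S c.F) + c.R ^ 4 * P4))
          + c.m * (c.m * (c.R ^ 2 * rr c.F a ^ 2 * (1 / c.m) ^ 2 + c.R ^ 4 * (1 / c.m) ^ 4)) := by
      simp only [Hc, H, sum_add_distrib, ← mul_sum, ← sum_mul, Ctx.sum_f_sq hK, Ctx.sum_Y_sq hK,
        sum_const, nsmul_eq_mul, mul_one, card_eq hK, R4, hP, hP2, hP4, vr, hκ]
      congr 1
      ring
    have e2 : c.m * (c.m * (c.R ^ 2 * rr c.F a ^ 2 * (1 / c.m) ^ 2 + c.R ^ 4 * (1 / c.m) ^ 4))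
        = c.R ^ 2 * rr c.F a ^ 2 + c.R ^ 4 * (1 / c.m) ^ 2 := by field_simp
    have h2 := mul_le_mul_of_nonneg_left (Ctx.cc_le hK a) (pow_nonneg (hr a) 3)
    rw [e1, e2]
    linarith
  rw [tri_swap]
  refine (sum_le_sum fun a _ => h1 a).trans ?_
  have e3 : ∑ a ∈ c.S, ((c.L ^ 2 + c.R ^ 2) * rr c.F a ^ 4 + (P + c.R ^ 2 * P2) * rr c.F a ^ 3
        + (c.R ^ 4 * κ ^ 20 + c.R ^ 2) * rr c.F a ^ 2
        + (κ * (c.m + R4 c.S c.F) + c.R ^ 4 * P4) * rr c.F a + c.R ^ 4 * (1 / c.m) ^ 2)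
      = c.L ^ 2 * R4 c.S c.F + c.R ^ 2 * R4 c.S c.F + P * S3 c + c.R ^ 2 * P2 * S3 c
        + c.R ^ 4 * κ ^ 20 * R2 c.S c.F + c.R ^ 2 * R2 c.S c.F
        + κ * (c.m + R4 c.S c.F) * a2 c.F + c.R ^ 4 * P4 * a2 c.F + c.R ^ 4 * (1 / c.m) := by
    simp only [sum_add_distrib, ← mul_sum, sum_const, nsmul_eq_mul, card_eq hK, c.oF.mat.a2_eq,
      R2, S3]
    have : c.m * (1 / c.m) ^ 2 = 1 / c.m := by field_simp
    rw [this]
    unfold R4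
    ring
  rw [e3]
  have hlo := Ctx.μ_lo hK
  have hhi := Ctx.μ_hi hK
  have hP20 : 0 ≤ P2 := sum_nonneg fun _ _ => by positivity
  have hP40 : 0 ≤ P4 := sum_nonneg fun _ _ => by positivity
  have hκ0 : 0 ≤ κ := κ_nonneg hK
  have hQ := Q_nn hK
  have ha := c.oF.mat.a2_nonneg
  have t1 : c.L ^ 2 * R4 c.S c.F ≤ ZZ c := le_Z hK (Le.mul hK (le_L2 hK) (le_Q hK) hQ) (by
    rcases c.cases_W with ⟨h1, h2, h3⟩ | ⟨h1, h2, h3⟩ <;> linarith)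
  have t2 : c.R ^ 2 * R4 c.S c.F ≤ ZZ c := le_Z hK (Le.mul hK (le_Rsq hK) (le_Q hK) hQ) (by
    rcases c.cases_W with ⟨h1, h2, h3⟩ | ⟨h1, h2, h3⟩ <;> linarith)
  have t3 : P * S3 c ≤ ZZ c := le_Z hK (Le.mul hK (Ctx.le_P hK) (le_S3 hK) (S3_nn hK)) (by
    linarith)
  have t4 : c.R ^ 2 * P2 * S3 c ≤ ZZ c := le_Z hK
    (Le.mul hK (Le.mul hK (le_Rsq hK) (le_P2 hK) hP20) (le_S3 hK) (S3_nn hK)) (by
    rcases c.cases_W with ⟨h1, h2, h3⟩ | ⟨h1, h2, h3⟩ <;> linarith)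
  have t5 : c.R ^ 4 * κ ^ 20 * R2 c.S c.F ≤ ZZ c := le_Z hK
    (Le.mul hK (Le.mul hK (le_Rfour hK) (Le.pow hK (le_κ hK) hκ0 20) (by positivity))
      (Ctx.le_R2 hK) (R2_nn hK)) (by push_cast; linarith)
  have t6 : c.R ^ 2 * R2 c.S c.F ≤ ZZ c := le_Z hK
    (Le.mul hK (le_Rsq hK) (Ctx.le_R2 hK) (R2_nn hK)) (by have := Ctx.ϱ_lo hK; linarith)
  have t7 : κ * (c.m + R4 c.S c.F) * a2 c.F ≤ ZZ c := le_Z hK
    (Le.mul hK (Le.mul hK (le_κ hK) (le_mQ hK) (by positivity)) (le_a hK) ha) (by linarith)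
  have t8 : c.R ^ 4 * P4 * a2 c.F ≤ ZZ c := le_Z hK
    (Le.mul hK (Le.mul hK (le_Rfour hK) (le_P4 hK) hP40) (le_a hK) ha) (by linarith)
  have t9 : c.R ^ 4 * (1 / c.m) ≤ ZZ c := le_Z hK
    (Le.mul hK (le_Rfour hK) (Le.inv hK (Ctx.ge_m hK)) (by positivity)) (by linarith)
  have := Z_pos hK
  linarith

theorem sqrt_rc (a : ι) : √(rr c.F a * cc c.F a) ≤ c.L * rr c.F a := by
  have hr := c.oF.mat.rr_nonneg a
  rw [Real.sqrt_le_left (mul_nonneg (L_nn hK) hr)]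
  have := mul_le_mul_of_nonneg_left (Ctx.cc_le hK a) hr
  linarith

theorem sum_err : ∑ u ∈ c.S, ∑ v ∈ c.S, ∑ a ∈ c.S, rr c.F a ^ 3 * err5 c.S c.F u v a
    ≤ 7 * ZZ c := by
  obtain ⟨b, hb, -, h⟩ := Ctx.err5_sum hK
  have hm := Ctx.m_pos hK
  have hlo := Ctx.μ_lo hK
  set y := c.p.K ^ (c.μ - 98 / 100) with hy
  have hy0 : 0 ≤ y := (Real.rpow_pos_of_pos hK.pos _).le
  have y1 : c.p.K ^ (min (c.μ - 2) 6699) ≤ y :=
    Le.mono hK (le_refl _) ((min_le_left _ _).trans (by linarith))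
  have y2 : c.p.K ^ b * c.L ≤ y :=
    (Le.mul hK (le_refl _) (Ctx.sz_L hK).2 (L_nn hK)).mono hK (by linarith)
  have y3 : 2 * √c.m * c.L ≤ y :=
    (Le.mul hK (Le.cmul hK ((Ctx.le_m hK).sqrt hK) (by norm_num) (by norm_num)) (Ctx.sz_L hK).2
      (L_nn hK)).mono hK (by rcases c.cases_W with ⟨h1, h2, h3⟩ | ⟨h1, h2, h3⟩ <;> linarith)
  have y4 : c.p.K ^ (c.μ / 2 + 7) ≤ y := Le.mono hK (le_refl _) (by linarith)
  have y5 : 2 * a2 c.F / c.m ≤ y := by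
    have t1 : 2 * a2 c.F / c.m ≤ 10 := by
      rw [div_le_iff₀ hm]; have := Ctx.a2_le_m hK; linarith
    exact (hK.ten.of_le t1).mono hK (by linarith)
  have h1 : ∀ a, ∑ u ∈ c.S, ∑ v ∈ c.S, rr c.F a ^ 3 * err5 c.S c.F u v a
      ≤ 3 * (y * rr c.F a ^ 3) + 4 * (y * rr c.F a ^ 4) := by
    intro a
    have hr := c.oF.mat.rr_nonneg a
    have s1 : √(rr c.F a) ≤ 1 + rr c.F a := by
      rw [Real.sqrt_le_left (by linarith)]; nlinarith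
    have s2 : √(cc c.F a) ≤ c.L * (1 + rr c.F a) := by
      rw [Real.sqrt_le_left (mul_nonneg (L_nn hK) (by linarith)), mul_pow]
      exact (Ctx.cc_le hK a).trans (mul_le_mul_of_nonneg_left (by nlinarith) (sq_nonneg _))
    have t1 := mul_le_mul_of_nonneg_right y1 hr
    have t2 : c.p.K ^ b * √(rr c.F a * cc c.F a) ≤ y * rr c.F a := by
      have := mul_le_mul_of_nonneg_left (sqrt_rc hK a) (Real.rpow_pos_of_pos hK.pos b).le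
      have := mul_le_mul_of_nonneg_right y2 hr
      linarith
    have t3 : 2 * √c.m * √(cc c.F a) ≤ y * (1 + rr c.F a) := by
      have := mul_le_mul_of_nonneg_left s2 (by positivity : 0 ≤ 2 * √c.m)
      have := mul_le_mul_of_nonneg_right y3 (by linarith : 0 ≤ 1 + rr c.F a)
      linarith
    have t4 : c.p.K ^ (c.μ / 2 + 7) * √(rr c.F a) ≤ y * (1 + rr c.F a) :=
      mul_le_mul y4 s1 (Real.sqrt_nonneg _) hy0
    have t5 : ∑ u ∈ c.S, ∑ v ∈ c.S, err5 c.S c.F u v a ≤ 3 * y + 4 * (y * rr c.F a) := by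
      have := h a
      linarith
    have t6 := mul_le_mul_of_nonneg_left t5 (pow_nonneg hr 3)
    simp only [← mul_sum]
    linarith
  rw [tri_swap]
  refine (sum_le_sum fun a _ => h1 a).trans ?_
  simp only [sum_add_distrib, ← mul_sum]
  have t1 : y * S3 c ≤ ZZ c := le_Z hK (Le.mul hK (le_refl _) (le_S3 hK) (S3_nn hK)) (by linarith)
  have t2 : y * R4 c.S c.F ≤ ZZ c :=
    le_Z hK (Le.mul hK (le_refl _) (le_Q hK) (Q_nn hK)) (by linarith)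
  unfold S3 at t1
  unfold R4 at t2
  linarith

theorem sum_main : ∑ u, ∑ v, c.w u v * ∑ a ∈ c.S, rr c.F a ^ 3 * main5 c.σ c.F u v a
    ≤ 2 * (R4 c.S c.F * (a2 c.F - c.m)) + 2 * ZZ c := by
  obtain ⟨b, hb, -, h⟩ := Ctx.main5_drift hK
  set β := 2 * c.p.eps c.m * √c.m * √(X2 c.S c.F) with hβ
  have e1 : ∑ u, ∑ v, c.w u v * ∑ a ∈ c.S, rr c.F a ^ 3 * main5 c.σ c.F u v a
      = ∑ a ∈ c.S, rr c.F a ^ 3 * ∑ u, ∑ v, c.w u v * main5 c.σ c.F u v a := by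
    simp only [mul_sum]
    calc _ = ∑ u, ∑ a ∈ c.S, ∑ v, c.w u v * (rr c.F a ^ 3 * main5 c.σ c.F u v a) :=
          sum_congr rfl fun u _ => sum_comm
      _ = ∑ a ∈ c.S, ∑ u, ∑ v, c.w u v * (rr c.F a ^ 3 * main5 c.σ c.F u v a) := sum_comm
      _ = _ := sum_congr rfl fun a _ => sum_congr rfl fun u _ => sum_congr rfl fun v _ => by ring
  have h1 : ∀ a, rr c.F a ^ 3 * ∑ u, ∑ v, c.w u v * main5 c.σ c.F u v a
      ≤ (2 * (a2 c.F - c.m) + β + c.p.K ^ b * c.L) * rr c.F a ^ 4 := by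
    intro a
    have hr := c.oF.mat.rr_nonneg a
    have t1 := (abs_le.1 (h a)).2
    have t2 := mul_le_mul_of_nonneg_left (sqrt_rc hK a) (Real.rpow_pos_of_pos hK.pos b).le
    have t3 : ∑ u, ∑ v, c.w u v * main5 c.σ c.F u v a
        ≤ (2 * (a2 c.F - c.m) + β + c.p.K ^ b * c.L) * rr c.F a := by linarith
    have := mul_le_mul_of_nonneg_left t3 (pow_nonneg hr 3)
    linarith
  rw [e1]
  refine (sum_le_sum fun a _ => h1 a).trans ?_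
  rw [← mul_sum]
  have t1 : β * R4 c.S c.F ≤ ZZ c := le_Z hK (Le.mul hK (Le.mul hK (Le.mul hK
    (Le.cmul hK (Ctx.le_eps hK) (by norm_num) (by norm_num)) ((Ctx.le_m hK).sqrt hK)
    (Real.sqrt_nonneg _)) ((Ctx.le_X2 hK).sqrt hK) (Real.sqrt_nonneg _)) (le_Q hK) (Q_nn hK))
    (by linarith)
  have t2 : c.p.K ^ b * c.L * R4 c.S c.F ≤ ZZ c := le_Z hK (Le.mul hK
    (Le.mul hK (le_refl _) (Ctx.sz_L hK).2 (L_nn hK)) (le_Q hK) (Q_nn hK)) (by linarith)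
  change _ * R4 c.S c.F ≤ _
  linarith

theorem sum_corr : ∑ u ∈ c.S, ∑ v ∈ c.S,
    1 / c.p.K * (rr c.F u ^ 3 * (1 + rr c.F u + rr c.F v)) ≤ 3 * ZZ c := by
  have e1 : ∑ u ∈ c.S, ∑ v ∈ c.S, 1 / c.p.K * (rr c.F u ^ 3 * (1 + rr c.F u + rr c.F v))
      = 1 / c.p.K * c.m * S3 c + 1 / c.p.K * c.m * R4 c.S c.F + 1 / c.p.K * a2 c.F * S3 c := by
    have : ∀ u, ∑ v ∈ c.S, 1 / c.p.K * (rr c.F u ^ 3 * (1 + rr c.F u + rr c.F v))
        = 1 / c.p.K * c.m * rr c.F u ^ 3 + 1 / c.p.K * c.m * rr c.F u ^ 4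
          + 1 / c.p.K * a2 c.F * rr c.F u ^ 3 := fun u => by
      simp only [← mul_sum, sum_add_distrib, sum_const, nsmul_eq_mul, card_eq hK, c.oF.mat.a2_eq]
      ring
    simp only [this, sum_add_distrib, ← mul_sum, S3, R4]
  have hm := Ctx.m_pos hK
  have t1 : 1 / c.p.K * c.m * S3 c ≤ ZZ c := le_Z hK
    (Le.mul hK (Le.mul hK (le_κ hK) (Ctx.le_m hK) hm.le) (le_S3 hK) (S3_nn hK)) (by linarith)
  have t2 : 1 / c.p.K * c.m * R4 c.S c.F ≤ ZZ c := le_Z hK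
    (Le.mul hK (Le.mul hK (le_κ hK) (Ctx.le_m hK) hm.le) (le_Q hK) (Q_nn hK)) (by linarith)
  have t3 : 1 / c.p.K * a2 c.F * S3 c ≤ ZZ c := le_Z hK
    (Le.mul hK (Le.mul hK (le_κ hK) (le_a hK) c.oF.mat.a2_nonneg) (le_S3 hK) (S3_nn hK))
    (by linarith)
  rw [e1]; linarith

theorem msq_le : c.m * c.m ≤ ZZ c := by
  have h3 := Ctx.μ_hi hK
  have h4 := Ctx.μ_lo hK
  refine le_Z hK (Le.mul hK (Ctx.le_m hK) (Ctx.le_m hK) (Ctx.m_pos hK).le) ?_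
  rcases c.cases_W with ⟨h1, h2, h3⟩ | ⟨h1, h2, h3⟩ <;> linarith

/-- half of the nonnegative part of the pointwise bound -/
noncomputable def Ψ (c : Ctx ι) (C D : ℝ) (u v : ι) : ℝ :=
  40 * (1 / c.p.K * (rr c.F u ^ 3 * (1 + rr c.F u + rr c.F v)))
    + 2 * C * ∑ a ∈ c.S, rr c.F a ^ 3 * err5 c.S c.F u v a
    + 5607 / 10000 * ∑ a ∈ c.S, Jc c u v a + D * ∑ a ∈ c.S, Hc c u v a

theorem Ψ_nonneg {C D : ℝ} (hC : 0 ≤ C) (hD : 0 ≤ D) (u v : ι) : 0 ≤ Ψ c C D u v := by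
  have h1 := κ_nonneg hK
  have h2 := c.oF.mat.rr_nonneg u
  have h3 := c.oF.mat.rr_nonneg v
  have h4 : 0 ≤ ∑ a ∈ c.S, rr c.F a ^ 3 * err5 c.S c.F u v a := sum_nonneg fun a _ =>
    mul_nonneg (pow_nonneg (c.oF.mat.rr_nonneg a) 3) (Ctx.err5_nonneg hK u v a)
  have h5 : 0 ≤ ∑ a ∈ c.S, Jc c u v a := sum_nonneg fun a _ => Jc_nonneg hK u v a
  have h6 : 0 ≤ ∑ a ∈ c.S, Hc c u v a := sum_nonneg fun a _ => Hc_nonneg hK u v a
  unfold Ψ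
  positivity

theorem sum_Ψ {C D : ℝ} (hC : 0 ≤ C) (hD : 0 ≤ D) : ∑ u ∈ c.S, ∑ v ∈ c.S, Ψ c C D u v
    ≤ 5607 / 10000 * (c.m * R4 c.S c.F) + (121 + 14 * C + 10 * D) * ZZ c := by
  have h1 := sum_corr hK
  have h2 := mul_le_mul_of_nonneg_left (sum_err hK) hC
  have h3 := sum_J hK
  have h4 := mul_le_mul_of_nonneg_left (sum_H hK) hD
  have h5 := msq_le hK
  have h6 := mul_le_mul_of_nonneg_right (Ctx.a2_le_m hK) (add_nonneg (Ctx.m_pos hK).le (Q_nn hK))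
  have h7 := Z_pos hK
  have e1 : ∑ u ∈ c.S, ∑ v ∈ c.S, Ψ c C D u v
      = 40 * ∑ u ∈ c.S, ∑ v ∈ c.S, 1 / c.p.K * (rr c.F u ^ 3 * (1 + rr c.F u + rr c.F v))
        + 2 * C * ∑ u ∈ c.S, ∑ v ∈ c.S, ∑ a ∈ c.S, rr c.F a ^ 3 * err5 c.S c.F u v a
        + 5607 / 10000 * ∑ u ∈ c.S, ∑ v ∈ c.S, ∑ a ∈ c.S, Jc c u v a
        + D * ∑ u ∈ c.S, ∑ v ∈ c.S, ∑ a ∈ c.S, Hc c u v a := by
    unfold Ψ
    generalize (fun u v => 1 / c.p.K * (rr c.F u ^ 3 * (1 + rr c.F u + rr c.F v))) = g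
    simp only [sum_add_distrib]
    simp only [← mul_sum]
  rw [e1, h3]
  linarith

theorem err5_symm (u v a : ι) : err5 c.S c.F v u a = err5 c.S c.F u v a := by
  have h1 : (c.F * c.F) v u = (c.F * c.F) u v := by
    conv_lhs => rw [← c.oF.mat.sq_transpose]
    rfl
  simp only [err5, ph0, ph, c.oF.mat.symm v u, h1, mul_comm (c.F a v) (c.F a u)]
  ring

theorem R4_child {C : ℝ} (hC : 0 ≤ C) {u v : ι} (h : c.w u v ≠ 0)
    (hp : ∀ a ∈ rem c.S u v,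
      |rr (c.F' u v) a - rr c.F a - main5 c.σ c.F u v a| ≤ C * err5 c.S c.F u v a ∧
      |rr (c.F' u v) a - rr c.F a
        - (c.F a u ^ 2 * (rr c.F v - 1) + c.F a v ^ 2 * (rr c.F u - 1))|
      ≤ C * (jb c.S c.F c.p.K u v a + jb c.S c.F c.p.K v u a)) :
    R4 (rem c.S u v) (c.F' u v) ≤ R4 c.S c.F - rr c.F u ^ 4 - rr c.F v ^ 4
      + 4 * ∑ a ∈ c.S, rr c.F a ^ 3 * main5 c.σ c.F u v a
      + Ψ c C (80 + 480 * (4 * C) ^ 2 + 6048000 * (4 * C) ^ 4) u v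
      + Ψ c C (80 + 480 * (4 * C) ^ 2 + 6048000 * (4 * C) ^ 4) v u := by
  obtain ⟨huv, hu, hv, -⟩ := c.wt.supp u v h
  have h' : c.w v u ≠ 0 := by rw [c.wt.symm]; exact h
  have hD : 0 ≤ 80 + 480 * (4 * C) ^ 2 + 6048000 * (4 * C) ^ 4 := by positivity
  have h1 := sum_le_sum fun a ha => pt_four hK hC h (hp a ha).1 (hp a ha).2
  generalize 80 + 480 * (4 * C) ^ 2 + 6048000 * (4 * C) ^ 4 = D at *
  rw [sum_add_distrib, sum_add_distrib, ← mul_sum, sum_rem huv hu hv (fun a => rr c.F a ^ 4),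
    sum_rem huv hu hv (fun a => rr c.F a ^ 3 * main5 c.σ c.F u v a)] at h1
  have h2 := sum_le_sum_of_subset_of_nonneg (rem_subset c.S u v)
    (f := fun a => 4 * C * (rr c.F a ^ 3 * err5 c.S c.F u v a)
        + 5607 / 10000 * (Jc c u v a + Jc c v u a) + D * (Hc c u v a + Hc c v u a))
    (fun a _ _ => by
      have t1 := mul_nonneg (pow_nonneg (c.oF.mat.rr_nonneg a) 3) (Ctx.err5_nonneg hK u v a)
      have t2 := Jc_nonneg hK u v a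
      have t3 := Jc_nonneg hK v u a
      have t4 := Hc_nonneg hK u v a
      have t5 := Hc_nonneg hK v u a
      positivity)
  have h3 := mul_le_mul_of_nonneg_left (abs_le.1 (main5_diag_pt hK h)).1
    (pow_nonneg (c.oF.mat.rr_nonneg u) 3)
  have h4 := mul_le_mul_of_nonneg_left (abs_le.1 (main5_diag_pt hK h')).1
    (pow_nonneg (c.oF.mat.rr_nonneg v) 3)
  rw [Ctx.main5_symm hK u v v] at h4
  have h5 := h1.trans (add_le_add le_rfl h2)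
  simp only [sum_add_distrib, ← mul_sum] at h5
  simp only [Ψ, err5_symm hK u v, R4]
  linarith

theorem drift {C : ℝ} (hC : 0 ≤ C)
    (hp : ∀ u v a, c.w u v ≠ 0 → a ∈ rem c.S u v →
      |rr (c.F' u v) a - rr c.F a - main5 c.σ c.F u v a| ≤ C * err5 c.S c.F u v a ∧
      |rr (c.F' u v) a - rr c.F a
        - (c.F a u ^ 2 * (rr c.F v - 1) + c.F a v ^ 2 * (rr c.F u - 1))|
      ≤ C * (jb c.S c.F c.p.K u v a + jb c.S c.F c.p.K v u a)) :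
    ∑ u, ∑ v, c.w u v * R4 (rem c.S u v) (c.F' u v)
      ≤ c.Ω * R4 c.S c.F - 7 * (R4 c.S c.F * (c.p.W * c.p.rho c.m))
        + (300 + 31 * C + 22 * (80 + 480 * (4 * C) ^ 2 + 6048000 * (4 * C) ^ 4)) * ZZ c := by
  have hD : 0 ≤ 80 + 480 * (4 * C) ^ 2 + 6048000 * (4 * C) ^ 4 := by positivity
  have h1 := c.sum_le_sum' fun u v h => R4_child hK hC h fun a ha => hp u v a h ha
  generalize 80 + 480 * (4 * C) ^ 2 + 6048000 * (4 * C) ^ 4 = D at *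
  have e1 : ∑ u, ∑ v, c.w u v * (R4 c.S c.F - rr c.F u ^ 4 - rr c.F v ^ 4
      + 4 * ∑ a ∈ c.S, rr c.F a ^ 3 * main5 c.σ c.F u v a + Ψ c C D u v + Ψ c C D v u)
      = c.Ω * R4 c.S c.F - ∑ u, ∑ v, c.w u v * rr c.F u ^ 4 - ∑ u, ∑ v, c.w u v * rr c.F v ^ 4
        + 4 * ∑ u, ∑ v, c.w u v * ∑ a ∈ c.S, rr c.F a ^ 3 * main5 c.σ c.F u v a
        + ∑ u, ∑ v, c.w u v * Ψ c C D u v + ∑ u, ∑ v, c.w u v * Ψ c C D v u := by
    unfold Ctx.Ω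
    rw [sum_mul, mul_sum, ← sum_sub_distrib, ← sum_sub_distrib, ← sum_add_distrib,
      ← sum_add_distrib, ← sum_add_distrib]
    refine sum_congr rfl fun u _ => ?_
    rw [sum_mul, mul_sum, ← sum_sub_distrib, ← sum_sub_distrib, ← sum_add_distrib,
      ← sum_add_distrib, ← sum_add_distrib]
    exact sum_congr rfl fun v _ => by ring
  have e2 := c.sum_comm' fun u _ => rr c.F u ^ 4
  have e3 := c.sum_comm' fun u v => Ψ c C D u v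
  have h2 := (abs_le.1 (c.G6one fun u => rr c.F u ^ 4)).1
  have e4 : ∑ u ∈ c.S, |rr c.F u ^ 4| = R4 c.S c.F :=
    sum_congr rfl fun u _ => abs_of_nonneg (by positivity)
  have e5 : ∑ u ∈ c.S, rr c.F u ^ 4 = R4 c.S c.F := rfl
  rw [e4, e5] at h2
  have hQ := Q_nn hK
  have hmQ := mul_nonneg (Ctx.m_pos hK).le hQ
  have h3 := mul_le_mul_of_nonneg_right (Ctx.eps_le_half hK) hmQ
  have h4 := sum_main hK
  have h5 := c.sum_le_crude (X := Ψ c C D) (fun _ _ _ => le_rfl)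
    (fun u _ v _ => Ψ_nonneg hK hC hD u v)
  have h6 := sum_Ψ hK hC hD
  have hWρ := mul_nonneg (Ctx.W_pos hK).le (Ctx.rho_pos hK).le
  have h7 : a2 c.F - c.m ≤ -(7 / 8 * (c.p.W * c.p.rho c.m)) := by
    have t1 := Ctx.a2_le hK
    have t2 := mul_le_mul_of_nonneg_right (Ctx.inv_K_le hK) hWρ
    linarith
  have h8 := mul_le_mul_of_nonneg_left h7 hQ
  have h9 := Z_pos hK
  have h10 := mul_nonneg hC h9.le
  rw [e1, ← e2, ← e3] at h1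
  linarith

end TrR4X
open TrR4X

theorem trR4 : TrOne (fun p m => True) (fun _ _ _ p S F => pR4 p S F) := by
  obtain ⟨C, hC, hp⟩ := pt5'
  obtain ⟨K1, hK1⟩ := exists_const
    (300 + 31 * C + 22 * (80 + 480 * (4 * C) ^ 2 + 6048000 * (4 * C) ^ 4)) (1 / 10) (by norm_num)
  refine ⟨K1, fun ι _ _ c hc _ _ => ?_⟩
  obtain ⟨hK, hC1⟩ := hK1 _ hc
  have h1 := drift hK hC (hp ι c hK)
  generalize 300 + 31 * C + 22 * (80 + 480 * (4 * C) ^ 2 + 6048000 * (4 * C) ^ 4) = D at *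
  obtain ⟨δ, e1, hδ0, hδ1, hδ2⟩ := ratio ((by norm_num : (100 : ℝ) ≤ 10 ^ 100).trans (Ctx.m_big hK))
    (Ctx.W_pos hK)
  have hT : 0 < c.p.TR4 c.m := (Ctx.sz_TR4 hK).1.pos hK
  have e2 : c.p.TR4 (c.m - 2) = c.p.TR4 c.m * (1 - δ) ^ 2 := by
    unfold Par.TR4 Par.rho
    rw [e1]; ring
  have hδ3 : 1 - 2 * δ ≤ (1 - δ) ^ 2 := by nlinarith [sq_nonneg δ]
  have hT' : 0 < c.p.TR4 (c.m - 2) := by rw [e2]; exact mul_pos hT (by linarith)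
  have e3 : ∑ u, ∑ v, c.w u v * pR4 c.p (rem c.S u v) (c.F' u v)
      ≤ (∑ u, ∑ v, c.w u v * R4 (rem c.S u v) (c.F' u v)) / c.p.TR4 (c.m - 2) := by
    refine (c.sum_le_sum' (Y := fun u v => R4 (rem c.S u v) (c.F' u v) / c.p.TR4 (c.m - 2))
      fun u v h => by rw [pR4, Ctx.card_rem' hK h]).trans (le_of_eq ?_)
    simp only [sum_div, mul_div_assoc]
  refine e3.trans ?_
  rw [div_le_iff₀ hT']
  have hQ := Q_nn hK
  have hΩ := Ctx.Ω_pos hK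
  have e4 : c.Ω * (pR4 c.p c.S c.F + c.η) * c.p.TR4 (c.m - 2)
      = c.Ω * R4 c.S c.F * (1 - δ) ^ 2 + c.Ω * c.η * c.p.TR4 c.m * (1 - δ) ^ 2 := by
    have : pR4 c.p c.S c.F = R4 c.S c.F / c.p.TR4 c.m := rfl
    rw [e2, this]; field_simp
  have h2 : c.Ω ≤ 11 / 10 * c.m ^ 2 := by
    have t1 := (abs_le.1 c.G4).2
    have t2 := mul_le_mul_of_nonneg_right (Ctx.eps_le_half hK) (sq_nonneg c.m)
    linarith
  have h3 : c.Ω * δ ≤ 33 / 10 * (c.p.W * c.p.rho c.m) := by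
    have t1 := mul_le_mul_of_nonneg_right h2 hδ0
    have : c.p.rho c.m = c.m / (c.m + c.p.W) := rfl
    rw [this]; linarith
  have h4 := mul_le_mul_of_nonneg_left h3 hQ
  have h5 := mul_le_mul_of_nonneg_left hδ3 (mul_nonneg hΩ.le hQ)
  have h6 := mul_nonneg hQ (mul_nonneg (Ctx.W_pos hK).le (Ctx.rho_pos hK).le)
  have h7 : 2 * (D * ZZ c) ≤ c.Ω * c.η * c.p.TR4 c.m :=
    Le.le_of_ge hK (Le.cmul hK (Le.mul hK hC1 (le_refl _) (Z_pos hK).le) (by norm_num)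
      (by norm_num)) (Ge.mul hK (Ctx.ge_Ωη hK) (Ctx.sz_TR4 hK).1) (by linarith)
  have h8 : c.Ω * c.η * c.p.TR4 c.m * (1 / 2) ≤ c.Ω * c.η * c.p.TR4 c.m * (1 - δ) ^ 2 :=
    mul_le_mul_of_nonneg_left (by linarith)
      (mul_nonneg (mul_nonneg hΩ.le (Ctx.η_pos hK).le) hT.le)
  rw [e4]
  linarith

end Crest.Agent.R62
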