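import Crest.Agent.R62.TrXB

set_option autoImplicit false

open Finset Matrix

namespace Crest.Agent.R62

variable {ι V : Type} [Fintype ι] [DecidableEq ι] [Fintype V] [DecidableEq V]

namespace TrXY
open TrXX Ctx
variable {c : Ctx ι} (hK : Big c.p.K) (hX : c.p.phX c.m)
include hK hX

theorem exps : 6710 < c.μ ∧ c.μ ≤ 10000 + 1 / 100 ∧ c.ϱ = 0 ∧ c.τ = 20004 - c.μ := by
  have hμ := (phX_iff hK).1 hX
  obtain ⟨-, hϱ, hτ⟩ | ⟨h, -⟩ := c.cases_W
  · exact ⟨hμ, μ_hi hK, hϱ, hτ⟩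
  · linarith

theorem lX : Le c.p.K (X2 c.S c.F) (13403 - c.μ + 1 / 100) := (sz_TX hK).2.of_le (c.oF.X2_T hX)

theorem ls1 : Le c.p.K (∑ a ∈ c.S, |rr c.F a - 1| * rr c.F a) (6701 + 6 / 10) := by
  have lR2 : Le c.p.K (R2 c.S c.F) (c.μ + 1 / 100) :=
    ((le_m hK).cmul hK (by norm_num) (by norm_num)).of_le (R2_le_X hK hX)
  exact ((((lX hK hX).sqrt hK).mul hK (lR2.sqrt hK) (Real.sqrt_nonneg _)).of_le (s1_le hK)).mono hK
    (by linarith)

theorem ls2 {b : ℝ} (h1 : b + c.τ / 4 ≤ c.μ - 1) (h2 : b ≤ c.μ - 3302) :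
    Le c.p.K (c.p.K ^ b * ∑ a ∈ c.S, |rr c.F a - 1| * √(rr c.F a * cc c.F a)) (13402 + 1 / 10) := by
  obtain ⟨e1, e2, e3, e4⟩ := exps hK hX
  have hX0 : 0 ≤ X2 c.S c.F := sum_nonneg fun _ _ => sq_nonneg _
  have hb : Le c.p.K (c.p.K ^ b) b := le_rfl
  have hL0 : 0 ≤ c.L := le_trans zero_le_one (one_le_L hK)
  have l1 := (hb.mul hK ((sz_L hK).2.mul hK (lX hK hX) hX0) (by positivity)).cmul hK (C := 2)
    (by norm_num) (by norm_num)
  have l2 := (hb.mul hK (((lX hK hX).sqrt hK).mul hK ((sz_T4 hK).2.sqrt hK) (Real.sqrt_nonneg _))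
    (by positivity)).cmul hK (C := 2) (by norm_num) (by norm_num)
  refine ((l1.add hK l2 (g := 13402 + 1 / 20) (by linarith) (by linarith)).mono hK
    (by linarith)).of_le ?_
  have := mul_le_mul_of_nonneg_left (s2_le hK) (Real.rpow_pos_of_pos hK.pos b).le
  linarith

/-- the main term -/
theorem partM : ∃ E, Le c.p.K E (13402 + 2 / 10) ∧
    ∑ u, ∑ v, c.w u v * ∑ a ∈ c.S, (rr c.F a - 1) * main5 c.σ c.F u v a ≤ E := by
  obtain ⟨e1, e2, e3, e4⟩ := exps hK hX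
  obtain ⟨b, b1, b2, hb⟩ := main5_drift hK
  have hX0 : 0 ≤ X2 c.S c.F := sum_nonneg fun _ _ => sq_nonneg _
  have he := (eps_pos hK).le
  have e : ∑ u, ∑ v, c.w u v * ∑ a ∈ c.S, (rr c.F a - 1) * main5 c.σ c.F u v a
      = ∑ a ∈ c.S, (rr c.F a - 1) * ∑ u, ∑ v, c.w u v * main5 c.σ c.F u v a := by
    simp only [mul_sum]
    rw [sum_congr rfl fun u _ => sum_comm, sum_comm]
    exact sum_congr rfl fun a _ => sum_congr rfl fun u _ => sum_congr rfl fun v _ => by ring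
  refine ⟨50 * c.p.W ^ 2 + 2 * (c.p.eps c.m * √c.m * √(X2 c.S c.F)
      * ∑ a ∈ c.S, |rr c.F a - 1| * rr c.F a)
    + c.p.K ^ b * ∑ a ∈ c.S, |rr c.F a - 1| * √(rr c.F a * cc c.F a), ?_, ?_⟩
  · have lW : Le c.p.K c.p.W 6700 := (W_eq hK).le
    have l1 : Le c.p.K (50 * c.p.W ^ 2) _ := (((lW.pow hK (W_pos hK).le 2).cmul hK (C := 10)
      (by norm_num) le_rfl).cmul hK (C := 5) (by norm_num) (by norm_num)).of_le (le_of_eq (by ring))
    have l2 := ((((le_eps hK).mul hK ((le_m hK).sqrt hK) (Real.sqrt_nonneg _)).mul hK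
      ((lX hK hX).sqrt hK) (Real.sqrt_nonneg _)).mul hK (ls1 hK hX)
      (sum_nonneg fun a _ => mul_nonneg (abs_nonneg _) (c.oF.mat.rr_nonneg a))).cmul hK (C := 2)
      (by norm_num) (by norm_num)
    exact ((l1.add hK l2 (g := 13402) (by push_cast; linarith) (by linarith)).add hK
      (ls2 hK hX b1 (b2 hX)) (g := 13402 + 1 / 10) (by linarith) le_rfl).mono hK (by linarith)
  rw [e]
  have pt : ∀ a ∈ c.S, (rr c.F a - 1) * ∑ u, ∑ v, c.w u v * main5 c.σ c.F u v a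
      ≤ 2 * (a2 c.F - c.m) * (rr c.F a - 1) ^ 2 + 2 * (a2 c.F - c.m) * (rr c.F a - 1)
        + 2 * (c.p.eps c.m * √c.m * √(X2 c.S c.F)) * (|rr c.F a - 1| * rr c.F a)
        + c.p.K ^ b * (|rr c.F a - 1| * √(rr c.F a * cc c.F a)) := by
    intro a _
    have h1 := mul_le_mul_of_nonneg_left (hb a) (abs_nonneg (rr c.F a - 1))
    rw [← abs_mul] at h1
    have h2 := (le_abs_self _).trans h1
    nlinarith
  refine (sum_le_sum pt).trans ?_
  simp only [sum_add_distrib, ← mul_sum, sum_x hK]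
  have h1 := a2_le_m hK
  have h2 := c.oF.a2_lo hX
  have h3 : (a2 c.F - c.m) * X2 c.S c.F ≤ 0 := mul_nonpos_of_nonpos_of_nonneg (by linarith) hX0
  have h4 : (a2 c.F - c.m) ^ 2 ≤ (5 * c.p.W) ^ 2 := by
    have : c.m = (c.S.card : ℝ) := rfl
    exact sq_le_sq' (by linarith) (by linarith [W_pos hK])
  unfold X2 at h3
  nlinarith

/-- the correction at `a = u` -/
theorem partD : Le c.p.K (∑ u ∈ c.S, ∑ v ∈ c.S, |rr c.F u - 1| * |main5 c.σ c.F u v u|)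
    (13402 + 2 / 10) := by
  obtain ⟨e1, e2, e3, e4⟩ := exps hK hX
  have hm := m_pos hK
  have hX0 : 0 ≤ X2 c.S c.F := sum_nonneg fun _ _ => sq_nonneg _
  have hL0 : 0 ≤ c.L := le_trans zero_le_one (one_le_L hK)
  have hR0 : 0 ≤ c.R := le_trans zero_le_one (one_le_R hK)
  have hT0 := ((sz_TD hK).1.pos hK).le
  have pt : ∀ u ∈ c.S, ∑ v ∈ c.S, |rr c.F u - 1| * |main5 c.σ c.F u v u|
      ≤ (2 * c.m + 2 * c.L * √(c.m * c.R)) * (|rr c.F u - 1| * |c.F u u|)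
        + c.R * (rr c.F u - 1) ^ 2
        + (2 * √(c.m * c.R) + 2 * √(c.m * c.p.TD c.m)) * (|rr c.F u - 1| * rr c.F u)
        + 2 * (|rr c.F u - 1| * √(rr c.F u * cc c.F u)) := by
    intro u _
    rw [← mul_sum]
    have hx := abs_nonneg (rr c.F u - 1)
    have hr := c.oF.mat.rr_nonneg u
    have hD : |c.F u u| ≤ 1 := (diag_le hK u).trans ((inv_K_le hK).trans (by norm_num))
    have hD0 := abs_nonneg (c.F u u)
    have h1 : √(c.m * rr c.F u) ≤ √(c.m * c.R) :=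
      Real.sqrt_le_sqrt (mul_le_mul_of_nonneg_left (rr_le_R hK u) hm.le)
    have h2 : c.F u u ^ 2 ≤ |c.F u u| := by rw [← sq_abs]; nlinarith
    have h3 : 2 * c.m * c.F u u ^ 2 + rr c.F u * |rr c.F u - 1|
        + 2 * √(c.m * rr c.F u) * rr c.F u + 2 * c.L * √(c.m * rr c.F u) * |c.F u u|
        + 2 * √(c.m * c.p.TD c.m) * (|c.F u u| * rr c.F u) + 2 * √(rr c.F u * cc c.F u)
        ≤ (2 * c.m + 2 * c.L * √(c.m * c.R)) * |c.F u u| + c.R * |rr c.F u - 1|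
          + (2 * √(c.m * c.R) + 2 * √(c.m * c.p.TD c.m)) * rr c.F u
          + 2 * √(rr c.F u * cc c.F u) := by
      have q1 := mul_le_mul_of_nonneg_left h2 (by positivity : 0 ≤ 2 * c.m)
      have q2 := mul_le_mul_of_nonneg_right (rr_le_R hK u) hx
      have q3 := mul_le_mul_of_nonneg_right h1 (by positivity : 0 ≤ 2 * rr c.F u)
      have q4 := mul_le_mul_of_nonneg_right h1 (by positivity : 0 ≤ 2 * c.L * |c.F u u|)
      have q5 := mul_le_mul_of_nonneg_right hD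
        (by positivity : 0 ≤ 2 * √(c.m * c.p.TD c.m) * rr c.F u)
      linarith
    have h4 := mul_le_mul_of_nonneg_left ((main5_diag hK u).trans h3) hx
    have h5 := sq_abs (rr c.F u - 1)
    refine h4.trans (le_of_eq ?_)
    rw [← h5]; ring
  have sD : ∑ u ∈ c.S, |rr c.F u - 1| * |c.F u u| ≤ √(X2 c.S c.F) * √(c.p.TD c.m) :=
    (sum_mul_le_sqrt c.S (fun a => rr c.F a - 1) (fun a => c.F a a)).trans
      (mul_le_mul_of_nonneg_left (Real.sqrt_le_sqrt c.oF.D2_T) (Real.sqrt_nonneg _))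
  have lmR := ((le_m hK).mul hK (sz_R hK).2 hR0).sqrt hK
  have lmT := ((le_m hK).mul hK (sz_TD hK).2 hT0).sqrt hK
  have k1 : Le c.p.K (2 * c.m + 2 * c.L * √(c.m * c.R)) (c.μ / 2 + 5001) :=
    (((le_m hK).cmul hK (C := 2) (by norm_num) (by norm_num)).add hK
      (((sz_L hK).2.cmul hK (C := 2) (by norm_num) (by norm_num)).mul hK lmR (Real.sqrt_nonneg _))
      (g := c.μ / 2 + 5000 + 1 / 10) (by linarith) (by linarith)).mono hK (by linarith)
  have l1 := k1.mul hK ((((lX hK hX).sqrt hK).mul hK ((sz_TD hK).2.sqrt hK)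
    (Real.sqrt_nonneg _)).of_le sD) (sum_nonneg fun _ _ => by positivity)
  have l2 := (sz_R hK).2.mul hK (lX hK hX) hX0
  have l3 := ((lmR.cmul hK (C := 2) (by norm_num) (by norm_num)).add hK
    (lmT.cmul hK (C := 2) (by norm_num) (by norm_num)) le_rfl (by linarith)).mul hK (ls1 hK hX)
    (sum_nonneg fun a _ => mul_nonneg (abs_nonneg _) (c.oF.mat.rr_nonneg a))
  have l4 := (ls2 hK hX (b := 0) (by linarith) (by linarith)).cmul hK (C := 2) (by norm_num)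
    (by norm_num)
  rw [Real.rpow_zero, one_mul] at l4
  have m1 := l1.add hK l2 (g := 13402) (by linarith) (by linarith)
  have m2 := m1.add hK l3 le_rfl (by linarith)
  have m3 := m2.add hK l4 (by linarith) le_rfl
  refine (m3.mono hK (by linarith)).of_le ((sum_le_sum pt).trans (le_of_eq ?_))
  simp only [sum_add_distrib, ← mul_sum, X2]

/-- the error term -/
theorem partE : Le c.p.K (∑ u ∈ c.S, ∑ v ∈ c.S, ∑ a ∈ c.S, |rr c.F a - 1| * err5 c.S c.F u v a)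
    (13402 + 2 / 10) := by
  obtain ⟨e1, e2, e3, e4⟩ := exps hK hX
  obtain ⟨b, b1, b2, hb⟩ := err5_sum hK
  have hm := m_pos hK
  have e : ∑ u ∈ c.S, ∑ v ∈ c.S, ∑ a ∈ c.S, |rr c.F a - 1| * err5 c.S c.F u v a
      = ∑ a ∈ c.S, |rr c.F a - 1| * ∑ u ∈ c.S, ∑ v ∈ c.S, err5 c.S c.F u v a := by
    simp only [mul_sum]
    rw [sum_congr rfl fun u _ => sum_comm, sum_comm]
  have pt : ∀ a ∈ c.S, |rr c.F a - 1| * ∑ u ∈ c.S, ∑ v ∈ c.S, err5 c.S c.F u v a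
      ≤ c.p.K ^ (min (c.μ - 2) 6699) * (|rr c.F a - 1| * rr c.F a)
        + c.p.K ^ b * (|rr c.F a - 1| * √(rr c.F a * cc c.F a))
        + 2 * √c.m * (|rr c.F a - 1| * √(cc c.F a))
        + c.p.K ^ (c.μ / 2 + 7) * (|rr c.F a - 1| * |√(rr c.F a)|) + 2 * |rr c.F a - 1| := by
    intro a _
    have h1 := mul_le_mul_of_nonneg_left (hb a) (abs_nonneg (rr c.F a - 1))
    have h2 : 2 * a2 c.F / c.m ≤ 2 := by rw [div_le_iff₀ hm]; linarith [a2_le_m hK]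
    have h3 := mul_le_mul_of_nonneg_left h2 (abs_nonneg (rr c.F a - 1))
    rw [abs_of_nonneg (Real.sqrt_nonneg _)]
    linarith
  have s4 : ∑ a ∈ c.S, |rr c.F a - 1| * |√(rr c.F a)| ≤ √(X2 c.S c.F) * √c.m := by
    refine (sum_mul_le_sqrt c.S (fun a => rr c.F a - 1) (fun a => √(rr c.F a))).trans ?_
    simp only [Real.sq_sqrt (c.oF.mat.rr_nonneg _), ← c.oF.mat.a2_eq]
    exact mul_le_mul_of_nonneg_left (Real.sqrt_le_sqrt (a2_le_m hK)) (Real.sqrt_nonneg _)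
  have l1 := (show Le c.p.K (c.p.K ^ (min (c.μ - 2) 6699)) _ from le_rfl).mul hK (ls1 hK hX)
    (sum_nonneg fun a _ => mul_nonneg (abs_nonneg _) (c.oF.mat.rr_nonneg a))
  have l2 := ls2 hK hX b1 (b2 hX)
  have l3 := (((le_m hK).sqrt hK).cmul hK (C := 2) (by norm_num) (by norm_num)).mul hK
    ((((lX hK hX).sqrt hK).mul hK ((sz_T4 hK).2.sqrt hK) (Real.sqrt_nonneg _)).of_le (s3_le hK))
    (sum_nonneg fun _ _ => by positivity)
  have l4 := (show Le c.p.K (c.p.K ^ (c.μ / 2 + 7)) _ from le_rfl).mul hK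
    ((((lX hK hX).sqrt hK).mul hK ((le_m hK).sqrt hK) (Real.sqrt_nonneg _)).of_le s4)
    (sum_nonneg fun _ _ => by positivity)
  have l5 := (((le_m hK).cmul hK (C := 2) (by norm_num) (by norm_num)).of_le (sum_absx hK)).cmul hK
    (C := 2) (by norm_num) (by norm_num)
  have m1 := l1.add hK l2 (by linarith [min_le_right (c.μ - 2) 6699]) le_rfl
  have m2 := m1.add hK l3 le_rfl (by linarith)
  have m3 := m2.add hK l4 le_rfl (by linarith)
  have m4 := m3.add hK l5 le_rfl (by linarith)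
  rw [e]
  refine (m4.mono hK (by linarith)).of_le ((sum_le_sum pt).trans (le_of_eq ?_))
  simp only [sum_add_distrib, ← mul_sum]
end TrXY

open TrXY Ctx in
theorem trX : TrOne (fun p m => p.phX m) (fun _ _ _ p S F => pX p S F) := by
  obtain ⟨C, hC, hpt⟩ := pt5'
  obtain ⟨K1, hK1⟩ := exists_const (300 * C ^ 2 + C + 2) (1 / 100) (by norm_num)
  refine ⟨K1, fun ι _ _ c hK hX _ => ?_⟩
  obtain ⟨hK, hCK⟩ := hK1 _ hK
  obtain ⟨e1, e2, e3, e4⟩ := exps hK hX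
  have hm := m_pos hK
  have hK0 := hK.pos
  have hX0 : 0 ≤ X2 c.S c.F := sum_nonneg fun _ _ => sq_nonneg _
  set X := X2 c.S c.F with hXd
  have hT : 0 < c.p.TX c.m := (sz_TX hK).1.pos hK
  let Y : ι → ι → ℝ := fun u v => 2 * (|rr c.F u - 1| * |main5 c.σ c.F u v u|)
    + C * ∑ a ∈ c.S, |rr c.F a - 1| * err5 c.S c.F u v a
    + 5 / 8 * (rr c.F u * (rr c.F v - 1) ^ 2)
    + 2 / c.p.K ^ 20 * (|rr c.F u - 1| * |rr c.F v - 1|) + 300 * C ^ 2 * JB c u v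
  have Y0 : ∀ u v, 0 ≤ Y u v := fun u v => by
    have h1 : 0 ≤ ∑ a ∈ c.S, |rr c.F a - 1| * err5 c.S c.F u v a :=
      sum_nonneg fun a _ => mul_nonneg (abs_nonneg _) (err5_nonneg hK u v a)
    have h2 := JB_nonneg hK u v
    have h3 := c.oF.mat.rr_nonneg u
    simp only [Y]; positivity
  have k1 : ∑ u, ∑ v, c.w u v * X2 (rem c.S u v) (c.F' u v)
      ≤ ∑ u, ∑ v, c.w u v * (X - (rr c.F u - 1) ^ 2 - (rr c.F v - 1) ^ 2
        + 2 * ∑ a ∈ c.S, (rr c.F a - 1) * main5 c.σ c.F u v a + (Y u v + Y v u)) :=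
    c.sum_le_sum' fun u v h => pointwise hK hC h fun a ha => hpt ι c hK u v a h ha
  have k2 : ∑ u, ∑ v, c.w u v * (X - (rr c.F u - 1) ^ 2 - (rr c.F v - 1) ^ 2
        + 2 * ∑ a ∈ c.S, (rr c.F a - 1) * main5 c.σ c.F u v a + (Y u v + Y v u))
      = c.Ω * X - 2 * ∑ u, ∑ v, c.w u v * (rr c.F u - 1) ^ 2
        + 2 * ∑ u, ∑ v, c.w u v * ∑ a ∈ c.S, (rr c.F a - 1) * main5 c.σ c.F u v a
        + 2 * ∑ u, ∑ v, c.w u v * Y u v := by
    have s1 := c.sum_comm' fun u _ => (rr c.F u - 1) ^ 2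
    have s2 := c.sum_comm' Y
    have s3 : c.Ω * X = ∑ u, ∑ v, c.w u v * X := by simp only [Ctx.Ω, sum_mul]
    have : ∀ u v, c.w u v * (X - (rr c.F u - 1) ^ 2 - (rr c.F v - 1) ^ 2
        + 2 * ∑ a ∈ c.S, (rr c.F a - 1) * main5 c.σ c.F u v a + (Y u v + Y v u))
        = c.w u v * X - c.w u v * (rr c.F u - 1) ^ 2 - c.w u v * (rr c.F v - 1) ^ 2
          + 2 * (c.w u v * ∑ a ∈ c.S, (rr c.F a - 1) * main5 c.σ c.F u v a)
          + c.w u v * Y u v + c.w u v * Y v u := fun u v => by ring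
    simp only [this, sum_add_distrib, sum_sub_distrib, ← mul_sum (a := (2 : ℝ))]
    rw [s3, ← s1, ← s2]; ring
  have k3 : 9 / 10 * (c.m * X) ≤ ∑ u, ∑ v, c.w u v * (rr c.F u - 1) ^ 2 := by
    have h1 := c.G6one fun u => (rr c.F u - 1) ^ 2
    simp only [abs_of_nonneg (sq_nonneg (rr c.F _ - 1))] at h1
    have h2 := mul_le_mul_of_nonneg_right (eps_le_half hK) (mul_nonneg hm.le hX0)
    have e : X = ∑ a ∈ c.S, (rr c.F a - 1) ^ 2 := rfl
    rw [← e, abs_le] at h1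
    nlinarith
  obtain ⟨E, lE, k4⟩ := partM hK hX
  have k5 := c.sum_le_crude (X := Y) (fun _ _ _ => le_rfl) fun u _ v _ => Y0 u v
  have t3 : ∑ u ∈ c.S, ∑ v ∈ c.S, rr c.F u * (rr c.F v - 1) ^ 2 ≤ c.m * X := by
    rw [← sum_mul_sum, ← c.oF.mat.a2_eq]
    exact mul_le_mul_of_nonneg_right (a2_le_m hK) hX0
  have t4 : ∑ u ∈ c.S, ∑ v ∈ c.S, |rr c.F u - 1| * |rr c.F v - 1| ≤ c.m * X := by
    rw [← sum_mul_sum]
    have h1 := TrXX.sum_abs_le c.S fun a => rr c.F a - 1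
    have h0 : 0 ≤ ∑ a ∈ c.S, |rr c.F a - 1| := sum_nonneg fun _ _ => abs_nonneg _
    refine (mul_le_mul h1 h1 h0 (by positivity)).trans (le_of_eq ?_)
    have q1 := Real.mul_self_sqrt hm.le
    have q2 := Real.mul_self_sqrt hX0
    show √c.m * √X * (√c.m * √X) = _
    calc _ = √c.m * √c.m * (√X * √X) := by ring
      _ = _ := by rw [q1, q2]
  have t5 : 2 / c.p.K ^ 20 ≤ 1 / 100 := by
    have h1 : c.p.K ≤ c.p.K ^ 20 := le_self_pow₀ hK.one_lt.le (by norm_num)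
    have h2 : (200 : ℝ) ≤ c.p.K := le_trans (by norm_num) hK
    rw [div_le_iff₀ (by positivity)]; linarith
  set A1 := ∑ u ∈ c.S, ∑ v ∈ c.S, |rr c.F u - 1| * |main5 c.σ c.F u v u|
  set A2 := ∑ u ∈ c.S, ∑ v ∈ c.S, ∑ a ∈ c.S, |rr c.F a - 1| * err5 c.S c.F u v a
  set A3 := ∑ u ∈ c.S, ∑ v ∈ c.S, JB c u v
  have A10 : 0 ≤ A1 := sum_nonneg fun _ _ => sum_nonneg fun _ _ => by positivity
  have A20 : 0 ≤ A2 := sum_nonneg fun u _ => sum_nonneg fun v _ => sum_nonneg fun a _ =>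
    mul_nonneg (abs_nonneg _) (err5_nonneg hK u v a)
  have A30 : 0 ≤ A3 := sum_nonneg fun u _ => sum_nonneg fun v _ => JB_nonneg hK u v
  have k6 : ∑ u ∈ c.S, ∑ v ∈ c.S, Y u v
      ≤ (300 * C ^ 2 + C + 2) * (A1 + A2 + A3) + 7 / 10 * (c.m * X) := by
    have eY : ∑ u ∈ c.S, ∑ v ∈ c.S, Y u v = 2 * A1 + C * A2
        + 5 / 8 * ∑ u ∈ c.S, ∑ v ∈ c.S, rr c.F u * (rr c.F v - 1) ^ 2
        + 2 / c.p.K ^ 20 * ∑ u ∈ c.S, ∑ v ∈ c.S, |rr c.F u - 1| * |rr c.F v - 1|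
        + 300 * C ^ 2 * A3 := by
      simp only [Y, A1, A2, A3, sum_add_distrib, mul_sum]
    rw [eY]
    have h0 : 0 ≤ ∑ u ∈ c.S, ∑ v ∈ c.S, |rr c.F u - 1| * |rr c.F v - 1| :=
      sum_nonneg fun _ _ => sum_nonneg fun _ _ => by positivity
    have h1 := mul_le_mul t5 t4 h0 (by norm_num)
    have h2 := mul_nonneg hm.le hX0
    nlinarith [mul_nonneg (sq_nonneg C) A10, mul_nonneg (sq_nonneg C) A20, mul_nonneg hC A10,
      mul_nonneg hC A30]
  have lA : Le c.p.K (2 * E + 3 * ((300 * C ^ 2 + C + 2) * (A1 + A2 + A3))) (13402 + 3 / 10) := by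
    have m1 := ((partD hK hX).add hK (partE hK hX) le_rfl le_rfl).add hK (JB_sum hK hX) le_rfl
      (by linarith)
    exact ((lE.cmul hK (C := 2) (by norm_num) (by norm_num)).add hK
      ((hCK.mul hK m1 (by positivity)).cmul hK (C := 3) (by norm_num) (by norm_num))
      (by linarith) le_rfl).mono hK (by linarith)
  have k7 : 2 * E + 3 * ((300 * C ^ 2 + C + 2) * (A1 + A2 + A3)) ≤ c.Ω * c.η * c.p.TX c.m :=
    lA.le_of_ge hK ((ge_Ωη hK).mul hK (sz_TX hK).1) (by linarith)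
  have k8 : ∑ u, ∑ v, c.w u v * X2 (rem c.S u v) (c.F' u v) ≤ c.Ω * X + c.Ω * c.η * c.p.TX c.m := by
    have : 0 ≤ (300 * C ^ 2 + C + 2) * (A1 + A2 + A3) := by positivity
    have := mul_nonneg hm.le hX0
    linarith
  have k9 : ∑ u, ∑ v, c.w u v * pX c.p (rem c.S u v) (c.F' u v)
      ≤ ∑ u, ∑ v, c.w u v * (X2 (rem c.S u v) (c.F' u v) / c.p.TX c.m) := by
    refine c.sum_le_sum' fun u v h => ?_
    unfold pX
    rw [card_rem' hK h]
    refine div_le_div_of_nonneg_left (sum_nonneg fun _ _ => sq_nonneg _) hT ?_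
    have : (3 : ℝ) ≤ c.m := le_trans (by norm_num) (m_big hK)
    unfold Par.TX
    exact div_le_div_of_nonneg_left (by positivity) (by linarith) (by linarith)
  refine k9.trans ?_
  simp only [← mul_div_assoc, ← sum_div]
  rw [div_le_iff₀ hT]
  refine k8.trans (le_of_eq ?_)
  show _ = c.Ω * (X / c.p.TX c.m + c.η) * c.p.TX c.m
  field_simp

end Crest.Agent.R62
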