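import Crest.Agent.R62.Mono
import Crest.Agent.R62.GenM

set_option autoImplicit false
set_option linter.unusedSectionVars false

open Finset Matrix

namespace Crest.Agent.R62

variable {ι V : Type} [Fintype ι] [DecidableEq ι] [Fintype V] [DecidableEq V]

namespace WtX

theorem hh_nonneg (F : Matrix ι ι ℝ) (u v : ι) : 0 ≤ hh F u v := by
  unfold hh; positivity

theorem hh_symm (F : Matrix ι ι ℝ) (u v : ι) : hh F u v = hh F v u := by
  unfold hh
  exact Finset.sum_congr rfl fun a _ => mul_comm _ _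

theorem hh_row {S : Finset ι} {F : Matrix ι ι ℝ} (h : Mat S F) (u : ι) :
    ∑ v ∈ S, hh F u v ≤ ∑ a, F a u ^ 2 * rr F a := by
  calc ∑ v ∈ S, hh F u v ≤ ∑ v, hh F u v :=
        Finset.sum_le_sum_of_subset_of_nonneg (subset_univ S) fun v _ _ => hh_nonneg F u v
    _ = ∑ a, F a u ^ 2 * rr F a := by
        unfold hh
        rw [Finset.sum_comm]
        refine Finset.sum_congr rfl fun a _ => ?_
        rw [h.rr_eq, Finset.mul_sum]

theorem col_sq {S : Finset ι} {F : Matrix ι ι ℝ} (h : Mat S F) (u : ι) :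
    ∑ a, F a u ^ 2 = rr F u := by
  rw [h.rr_eq]
  exact Finset.sum_congr rfl fun a _ => by rw [h.symm]

theorem row_sq {S : Finset ι} {F : Matrix ι ι ℝ} (h : Mat S F) (u : ι) :
    ∑ v ∈ S, F u v ^ 2 ≤ rr F u := by
  rw [h.rr_eq]
  exact Finset.sum_le_sum_of_subset_of_nonneg (subset_univ S) fun v _ _ => sq_nonneg _

theorem hh_tot {S : Finset ι} {F : Matrix ι ι ℝ} (h : Mat S F) :
    ∑ u ∈ S, ∑ v ∈ S, hh F u v ≤ R2 S F := by
  rw [← h.sum_hh]
  calc ∑ u ∈ S, ∑ v ∈ S, hh F u v ≤ ∑ u ∈ S, ∑ v, hh F u v :=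
        Finset.sum_le_sum fun u _ =>
          Finset.sum_le_sum_of_subset_of_nonneg (subset_univ S) fun v _ _ => hh_nonneg F u v
    _ ≤ ∑ u, ∑ v, hh F u v :=
        Finset.sum_le_sum_of_subset_of_nonneg (subset_univ S) fun u _ _ =>
          Finset.sum_nonneg fun v _ => hh_nonneg F u v

theorem sq_tot {S : Finset ι} {F : Matrix ι ι ℝ} (h : Mat S F) :
    ∑ u ∈ S, ∑ v ∈ S, F u v ^ 2 ≤ a2 F := by
  rw [h.a2_eq]
  exact Finset.sum_le_sum fun u _ => row_sq h u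

open Classical in
theorem bad_row {d : ℕ} {vtx : ι → V} {S : Finset ι} {A : V → V → ℕ} (h : Gr d vtx S A) (u : ι) :
    ∑ v ∈ S, (if bad vtx A u v then (1 : ℝ) else 0) ≤ d + d ^ 2 := by
  have hfr : ∀ j, fr vtx S j ≤ d := fun j => by have := h.deg j; omega
  have hA : ∑ j, A (vtx u) j ≤ d := by have := h.deg (vtx u); omega
  have h1 : ∀ v ∈ S, (if bad vtx A u v then (1 : ℝ) else 0)
      ≤ (if vtx v = vtx u then (1 : ℝ) else 0)
        + ∑ j, (if vtx v = j then (1 : ℝ) else 0) * (A (vtx u) j : ℝ) := by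
    intro v _
    have h2 : ∑ j, (if vtx v = j then (1 : ℝ) else 0) * (A (vtx u) j : ℝ)
        = A (vtx u) (vtx v) := by simp
    rw [h2]
    have h3 : (0 : ℝ) ≤ A (vtx u) (vtx v) := Nat.cast_nonneg _
    by_cases hb : bad vtx A u v
    · rw [if_pos hb]
      rcases hb with hb | hb
      · rw [if_pos hb.symm]; linarith
      · have h4 : (1 : ℝ) ≤ A (vtx u) (vtx v) := by
          exact_mod_cast Nat.one_le_iff_ne_zero.2 hb
        split_ifs <;> linarith
    · rw [if_neg hb]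
      split_ifs <;> linarith
  have h5 : ∀ j, ∑ v ∈ S, (if vtx v = j then (1 : ℝ) else 0) ≤ d := fun j => by
    have : ∑ v ∈ S, (if vtx v = j then (1 : ℝ) else 0) = fr vtx S j := by
      unfold fr
      rw [Finset.sum_boole]
    rw [this]
    exact_mod_cast hfr j
  refine (Finset.sum_le_sum h1).trans ?_
  rw [Finset.sum_add_distrib, Finset.sum_comm]
  refine add_le_add (h5 _) ?_
  calc ∑ j, ∑ v ∈ S, (if vtx v = j then (1 : ℝ) else 0) * (A (vtx u) j : ℝ)
      = ∑ j, (∑ v ∈ S, (if vtx v = j then (1 : ℝ) else 0)) * (A (vtx u) j : ℝ) := by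
        refine Finset.sum_congr rfl fun j _ => ?_
        rw [Finset.sum_mul]
    _ ≤ ∑ j, (d : ℝ) * (A (vtx u) j : ℝ) :=
        Finset.sum_le_sum fun j _ => mul_le_mul_of_nonneg_right (h5 j) (Nat.cast_nonneg _)
    _ = d * ((∑ j, A (vtx u) j : ℕ) : ℝ) := by rw [← Finset.mul_sum]; push_cast; rfl
    _ ≤ d * d := mul_le_mul_of_nonneg_left (by exact_mod_cast hA) (Nat.cast_nonneg _)
    _ = d ^ 2 := by ring

theorem bad_symm {d : ℕ} {vtx : ι → V} {S : Finset ι} {A : V → V → ℕ} (h : Gr d vtx S A)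
    {u v : ι} (hb : bad vtx A u v) : bad vtx A v u := by
  rcases hb with hb | hb
  · exact Or.inl hb.symm
  · exact Or.inr (by rwa [h.symm])

theorem xi_abs (F G : Matrix ι ι ℝ) (u v : ι) : |xi 1 F G u v| ≤ |F u v| + |G u v| := by
  unfold xi io
  rw [one_mul]
  have h1 := abs_nonneg (F u v)
  have h2 := abs_nonneg (G u v)
  have h3 := abs_sub (F u v) (G u v)
  split_ifs <;> simp only [one_mul, zero_mul, sub_zero, zero_sub, abs_neg, sub_self, abs_zero] <;>
    linarith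

section sizes
variable {p : Par ℝ} {S : Finset ι} {F : Matrix ι ι ℝ}

theorem m_pos (hK : Big p.K) (hl : p.live S.card) : (0 : ℝ) < S.card :=
  lt_trans (pow_pos hK.pos _) hl

theorem rho_facts (hK : Big p.K) (hl : p.live S.card) :
    0 < p.rho S.card ∧ p.rho S.card ≤ 1 ∧ p.W * p.rho S.card ≤ S.card
      ∧ S.card * p.rho S.card + p.W * p.rho S.card = S.card := by
  have hm := m_pos hK hl
  have hW : 0 < p.W := pow_pos hK.pos _
  have h0 : 0 < p.rho S.card := div_pos hm (add_pos hm hW)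
  have h1 : S.card * p.rho S.card + p.W * p.rho S.card = S.card := by
    unfold Par.rho
    field_simp
  refine ⟨h0, ?_, ?_, h1⟩
  · unfold Par.rho
    rw [div_le_one (add_pos hm hW)]; linarith
  · have := mul_pos hm h0
    linarith

theorem a2_le (hK : Big p.K) (hl : p.live S.card) (h : One p S F) : a2 F ≤ S.card := by
  obtain ⟨h0, -, -, h1⟩ := rho_facts hK hl
  have hW : 0 < p.W := pow_pos hK.pos _
  have h2 := h.a2_hi
  unfold Par.a2s Par.k2 at h2
  have h3 : p.W / p.K ≤ p.W := div_le_self hW.le hK.one_lt.le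
  have h4 := mul_le_mul_of_nonneg_right h3 h0.le
  linarith

theorem r_sq (hK : Big p.K) (hp : p.OK) (hl : p.live S.card) (h : One p S F) (a : ι) :
    rr F a ^ 2 ≤ 2 * p.K ^ 5050 * p.rho S.card := by
  obtain ⟨h0, -, -, -⟩ := rho_facts hK hl
  have hK0 := hK.pos
  by_cases ha : a ∈ S
  · have h1 : rr F a ^ 4 ≤ R4 S F :=
      Finset.single_le_sum (f := fun a => rr F a ^ 4) (fun b _ => by positivity) ha
    have h2 := h.R4_T
    unfold Par.TR4 at h2
    have h3 : p.K ^ 100 * p.N * p.rho S.card ^ 2 ≤ (2 * p.K ^ 5050 * p.rho S.card) ^ 2 := by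
      calc p.K ^ 100 * p.N * p.rho S.card ^ 2
          ≤ p.K ^ 100 * (4 * p.K ^ 10000) * p.rho S.card ^ 2 := by
            have h4 := hp.N2
            have h5 : 0 < p.K ^ 10000 := pow_pos hK0 _
            have h6 : p.N ≤ 4 * p.K ^ 10000 := by linarith
            gcongr
        _ = _ := by ring
    have h4 : (rr F a ^ 2) ^ 2 ≤ (2 * p.K ^ 5050 * p.rho S.card) ^ 2 := by
      calc (rr F a ^ 2) ^ 2 = rr F a ^ 4 := by ring
        _ ≤ _ := by linarith
    exact (pow_le_pow_iff_left₀ (by positivity) (by positivity) two_ne_zero).1 h4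
  · have : rr F a = 0 := h.mat.mul_supp F a a ha
    rw [this]
    have : 0 ≤ 2 * p.K ^ 5050 * p.rho S.card := by positivity
    simpa using this

theorem pw_le (hK : Big p.K) {a b : ℕ} (h : a ≤ b) : p.K ^ a ≤ p.K ^ b :=
  pow_le_pow_right₀ hK.one_lt.le h

theorem pw_big (hK : Big p.K) {a b : ℕ} (h : a < b) : 10000 * p.K ^ a ≤ p.K ^ b := by
  have h1 : (10000 : ℝ) ≤ p.K := le_trans (by norm_num) hK
  have h2 : 0 < p.K ^ a := pow_pos hK.pos _
  calc 10000 * p.K ^ a ≤ p.K * p.K ^ a := mul_le_mul_of_nonneg_right h1 h2.le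
    _ = p.K ^ (a + 1) := by ring
    _ ≤ p.K ^ b := pw_le hK h

theorem R2_le (hK : Big p.K) (hl : p.live S.card) (h : One p S F) :
    R2 S F ≤ p.K ^ 13 * S.card := by
  obtain ⟨h0, h1, h2, -⟩ := rho_facts hK hl
  have hm := m_pos hK hl
  have hK0 := hK.pos
  by_cases hX : p.phX S.card
  · have h3 := h.X2_T hX
    have h4 : R2 S F ≤ 2 * S.card + 2 * X2 S F := by
      unfold R2 X2
      calc ∑ a ∈ S, rr F a ^ 2 ≤ ∑ a ∈ S, (2 + 2 * (rr F a - 1) ^ 2) :=
            Finset.sum_le_sum fun a _ => by nlinarith [sq_nonneg (rr F a - 2)]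
        _ = _ := by
            rw [Finset.sum_add_distrib, ← Finset.mul_sum]
            simp [mul_comm]
    have h5 : p.TX S.card ≤ S.card := by
      unfold Par.TX Par.W
      rw [div_le_iff₀ hm]
      have h6 : p.K ^ 6710 < S.card := hX
      have h7 : 0 < p.K ^ 6710 := pow_pos hK0 _
      calc p.K ^ 3 * (p.K ^ 6700) ^ 2 = p.K ^ 13403 := by ring
        _ ≤ p.K ^ 13420 := pw_le hK (by norm_num)
        _ = p.K ^ 6710 * p.K ^ 6710 := by ring
        _ ≤ S.card * S.card := mul_le_mul h6.le h6.le h7.le hm.le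
    have h6 : 10000 * p.K ^ 0 ≤ p.K ^ 13 := pw_big hK (by norm_num)
    rw [pow_zero] at h6
    have h7 := mul_le_mul_of_nonneg_right h6 hm.le
    linarith
  · have h3 := h.R2_T hX
    unfold Par.TR at h3
    have hW : 0 < p.W := pow_pos hK0 _
    have h4 : p.W * p.rho S.card ^ 2 ≤ S.card := by
      have : p.W * p.rho S.card * p.rho S.card ≤ p.W * p.rho S.card :=
        mul_le_of_le_one_right (by positivity) h1
      nlinarith
    have h5 := mul_le_mul_of_nonneg_left h4 (pow_pos hK0 13).le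
    nlinarith

theorem rowI (hK : Big p.K) (hp : p.OK) (hl : p.live S.card) (h : One p S F)
    (hI : p.phI S.card) (u : ι) :
    402 * p.gam ^ 2 * ∑ v ∈ S, F u v ^ 2 + p.K ^ 20 * ∑ v ∈ S, hh F u v ≤ p.K ^ 4430 := by
  obtain ⟨h0, h1, h2, -⟩ := rho_facts hK hl
  have hm := m_pos hK hl
  have hK0 := hK.pos
  have hI' : p.K ^ 7195 < S.card := hI
  have hX : p.phX S.card := lt_of_le_of_lt (pw_le hK (by norm_num)) hI'
  have hr0 := h.mat.rr_nonneg u
  have hr : rr F u ≤ 2 * p.K ^ 2525 := by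
    have h3 := r_sq hK hp hl h u
    have h4 : 0 < p.K ^ 5050 := pow_pos hK0 _
    have h5 : 2 * p.K ^ 5050 * p.rho S.card ≤ 2 * p.K ^ 5050 :=
      mul_le_of_le_one_right (by positivity) h1
    have h6 : rr F u ^ 2 ≤ (2 * p.K ^ 2525) ^ 2 := by
      calc rr F u ^ 2 ≤ 4 * p.K ^ 5050 := by linarith
        _ = _ := by ring
    exact (pow_le_pow_iff_left₀ hr0 (by positivity) two_ne_zero).1 h6
  have hX2 : X2 S F ≤ p.K ^ 6208 := by
    refine (h.X2_T hX).trans ?_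
    unfold Par.TX Par.W
    rw [div_le_iff₀ hm]
    calc p.K ^ 3 * (p.K ^ 6700) ^ 2 = p.K ^ 6208 * p.K ^ 7195 := by ring
      _ ≤ _ := mul_le_mul_of_nonneg_left hI'.le (by positivity)
  have ht : 0 < p.K ^ 1800 := pow_pos hK0 _
  have hJ : ∑ a, F a u ^ 2 * rr F a ≤ rr F u + p.K ^ 1800 * rr F u + X2 S F / p.K ^ 1800 := by
    have h3 : ∑ a, F a u ^ 2 * rr F a = ∑ a ∈ S, F a u ^ 2 * rr F a := by
      symm
      exact Finset.sum_subset (subset_univ S) fun a _ ha => by rw [h.mat.supp a u ha]; ring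
    have h4 : ∑ a ∈ S, F a u ^ 2 ≤ rr F u := by
      rw [← col_sq h.mat]
      exact Finset.sum_le_sum_of_subset_of_nonneg (subset_univ S) fun v _ _ => sq_nonneg _
    rw [h3]
    calc ∑ a ∈ S, F a u ^ 2 * rr F a
        ≤ ∑ a ∈ S, ((1 + p.K ^ 1800) * F a u ^ 2 + (rr F a - 1) ^ 2 / p.K ^ 1800) := by
          refine Finset.sum_le_sum fun a _ => ?_
          have h5 : F a u ^ 2 ≤ 1 := by
            have h6 := h.ent a u
            have h7 := sq_abs (F a u)
            have h8 := abs_nonneg (F a u)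
            nlinarith
          have h6 : 0 ≤ F a u ^ 2 := sq_nonneg _
          generalize F a u ^ 2 = y at h5 h6
          generalize p.K ^ 1800 = t at ht
          have h7 : y * (rr F a - 1) ≤ t * y + (rr F a - 1) ^ 2 / t := by
            generalize rr F a - 1 = x
            rw [← sub_le_iff_le_add', le_div_iff₀ ht]
            have h8 : y * y ≤ y := by nlinarith
            have h9 : t ^ 2 * (y * y) ≤ t ^ 2 * y := mul_le_mul_of_nonneg_left h8 (sq_nonneg t)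
            nlinarith [sq_nonneg (x - t * y), sq_nonneg x, mul_nonneg (sq_nonneg t) h6]
          nlinarith
      _ = (1 + p.K ^ 1800) * ∑ a ∈ S, F a u ^ 2 + X2 S F / p.K ^ 1800 := by
          unfold X2
          rw [Finset.sum_add_distrib, ← Finset.mul_sum, Finset.sum_div]
      _ ≤ (1 + p.K ^ 1800) * rr F u + X2 S F / p.K ^ 1800 := by gcongr
      _ = _ := by ring
  have hJ2 : ∑ v ∈ S, hh F u v ≤ 5 * p.K ^ 4408 := by
    have h3 : X2 S F / p.K ^ 1800 ≤ p.K ^ 4408 := by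
      rw [div_le_iff₀ ht]
      calc X2 S F ≤ p.K ^ 6208 := hX2
        _ = _ := by ring
    have h4 : p.K ^ 1800 * rr F u ≤ 2 * p.K ^ 4408 := by
      calc p.K ^ 1800 * rr F u ≤ p.K ^ 1800 * (2 * p.K ^ 2525) :=
            mul_le_mul_of_nonneg_left hr ht.le
        _ = 2 * p.K ^ 4325 := by ring
        _ ≤ 2 * p.K ^ 4408 := by
            have := pw_le hK (show 4325 ≤ 4408 by norm_num)
            linarith
    have h5 := pw_le hK (show 2525 ≤ 4408 by norm_num)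
    have h6 := hh_row h.mat u
    linarith
  have h3 : 402 * p.gam ^ 2 * ∑ v ∈ S, F u v ^ 2 ≤ 804 * p.K ^ 3725 := by
    calc 402 * p.gam ^ 2 * ∑ v ∈ S, F u v ^ 2 ≤ 402 * p.gam ^ 2 * (2 * p.K ^ 2525) :=
          mul_le_mul_of_nonneg_left ((row_sq h.mat u).trans hr)
            (mul_nonneg (by norm_num) (sq_nonneg _))
      _ = _ := by
          unfold Par.gam
          rw [← pow_mul, show 3725 = 600 * 2 + 2525 by norm_num, pow_add]
          generalize p.K ^ (600 * 2) = x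
          generalize p.K ^ 2525 = y
          ring
  have h4 : p.K ^ 20 * ∑ v ∈ S, hh F u v ≤ 5 * p.K ^ 4428 := by
    calc p.K ^ 20 * ∑ v ∈ S, hh F u v ≤ p.K ^ 20 * (5 * p.K ^ 4408) :=
          mul_le_mul_of_nonneg_left hJ2 (by positivity)
      _ = _ := by ring
  have h5 := pw_big hK (show 3725 < 4430 by norm_num)
  have h6 := pw_big hK (show 4428 < 4430 by norm_num)
  have h7 : 0 < p.K ^ 4430 := pow_pos hK0 _
  linarith

theorem rowN (hK : Big p.K) (hp : p.OK) (hl : p.live S.card) (h : One p S F) (u : ι) :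
    p.K ^ 1600 * (p.K ^ 2 * ∑ v ∈ S, F u v ^ 2 + p.K ^ 20 * ∑ v ∈ S, hh F u v)
      ≤ S.card / 10 := by
  obtain ⟨h0, h1, h2, -⟩ := rho_facts hK hl
  have hm := m_pos hK hl
  have hK0 := hK.pos
  have hl' : p.K ^ 3340 < S.card := hl
  set B : ℝ := 2 * p.K ^ 5050 * p.rho S.card with hB
  have hB0 : 0 ≤ B := by positivity
  have hr : ∀ a, rr F a ≤ √B := fun a => Real.le_sqrt_of_sq_le (r_sq hK hp hl h a)
  have hJ : ∑ v ∈ S, hh F u v ≤ B := by
    calc ∑ v ∈ S, hh F u v ≤ ∑ a, F a u ^ 2 * rr F a := hh_row h.mat u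
      _ ≤ ∑ a, F a u ^ 2 * √B :=
          Finset.sum_le_sum fun a _ => mul_le_mul_of_nonneg_left (hr a) (sq_nonneg _)
      _ = rr F u * √B := by rw [← Finset.sum_mul, col_sq h.mat]
      _ ≤ √B * √B := mul_le_mul_of_nonneg_right (hr u) (Real.sqrt_nonneg _)
      _ = B := Real.mul_self_sqrt hB0
  have hr2 : ∑ v ∈ S, F u v ^ 2 ≤ 1 + B := by
    have h3 := r_sq hK hp hl h u
    have h4 := row_sq h.mat u
    nlinarith [sq_nonneg (rr F u - 1)]
  have hBm : p.K ^ 1650 * B ≤ 2 * S.card := by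
    calc p.K ^ 1650 * B = 2 * (p.W * p.rho S.card) := by rw [hB]; unfold Par.W; ring
      _ ≤ _ := by linarith
  have h3 := mul_le_mul_of_nonneg_right (pw_big hK (show 1602 < 1650 by norm_num)) hB0
  have h4 := mul_le_mul_of_nonneg_right (pw_big hK (show 1620 < 1650 by norm_num)) hB0
  have h5 := pw_big hK (show 1602 < 3340 by norm_num)
  calc p.K ^ 1600 * (p.K ^ 2 * ∑ v ∈ S, F u v ^ 2 + p.K ^ 20 * ∑ v ∈ S, hh F u v)
      ≤ p.K ^ 1600 * (p.K ^ 2 * (1 + B) + p.K ^ 20 * B) := by gcongr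
    _ = p.K ^ 1602 + p.K ^ 1602 * B + p.K ^ 1620 * B := by ring
    _ ≤ _ := by linarith

end sizes

open Classical in
/-- the weights with tilt `g` and cutoff `θ` -/
noncomputable def wt (g θ K : ℝ) (vtx : ι → V) (A : V → V → ℕ) (S : Finset ι)
    (F G : Matrix ι ι ℝ) (u v : ι) : ℝ :=
  if u ≠ v ∧ u ∈ S ∧ v ∈ S ∧ |F u v| ≤ θ ∧ |G u v| ≤ θ ∧ hh F u v ≤ 1 / K ^ 20
    ∧ hh G u v ≤ 1 / K ^ 20 ∧ ¬ bad vtx A u v then 1 - g * xi 1 F G u v else 0

section wt
variable {g θ K : ℝ} {vtx : ι → V} {A : V → V → ℕ} {S : Finset ι} {F G : Matrix ι ι ℝ}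

theorem tilt_le (hg : 0 ≤ g) (hgθ : g * θ ≤ 1 / 20) {u v : ι} (h1 : |F u v| ≤ θ)
    (h2 : |G u v| ≤ θ) : |g * xi 1 F G u v| ≤ 1 / 10 := by
  rw [abs_mul, abs_of_nonneg hg]
  have h3 := xi_abs F G u v
  have h4 : g * |xi 1 F G u v| ≤ g * (2 * θ) := mul_le_mul_of_nonneg_left (by linarith) hg
  linarith

theorem wt_nn (hg : 0 ≤ g) (hgθ : g * θ ≤ 1 / 20) (u v : ι) : 0 ≤ wt g θ K vtx A S F G u v := by
  unfold wt
  split_ifs with h
  · have := abs_le.1 (tilt_le hg hgθ h.2.2.2.1 h.2.2.2.2.1)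
    linarith [this.2]
  · exact le_rfl

theorem wt_le (hg : 0 ≤ g) (hgθ : g * θ ≤ 1 / 20) (u v : ι) :
    wt g θ K vtx A S F G u v ≤ 11 / 10 := by
  unfold wt
  split_ifs with h
  · have := abs_le.1 (tilt_le hg hgθ h.2.2.2.1 h.2.2.2.2.1)
    linarith [this.1]
  · norm_num

theorem wt_symm {d : ℕ} (hF : Mat S F) (hG : Mat S G) (hA : Gr d vtx S A) (u v : ι) :
    wt g θ K vtx A S F G u v = wt g θ K vtx A S F G v u := by
  unfold wt
  have hx : xi 1 F G u v = xi 1 F G v u := by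
    unfold xi; rw [hF.symm u v, hG.symm u v]
  have key : ∀ u v, (u ≠ v ∧ u ∈ S ∧ v ∈ S ∧ |F u v| ≤ θ ∧ |G u v| ≤ θ ∧ hh F u v ≤ 1 / K ^ 20
      ∧ hh G u v ≤ 1 / K ^ 20 ∧ ¬ bad vtx A u v) → (v ≠ u ∧ v ∈ S ∧ u ∈ S ∧ |F v u| ≤ θ
      ∧ |G v u| ≤ θ ∧ hh F v u ≤ 1 / K ^ 20 ∧ hh G v u ≤ 1 / K ^ 20 ∧ ¬ bad vtx A v u) := by
    rintro u v ⟨h1, h2, h3, h4, h5, h6, h7, h8⟩
    exact ⟨h1.symm, h3, h2, by rwa [hF.symm], by rwa [hG.symm], by rwa [hh_symm],
      by rwa [hh_symm], fun h => h8 (bad_symm hA h)⟩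
  by_cases h : u ≠ v ∧ u ∈ S ∧ v ∈ S ∧ |F u v| ≤ θ ∧ |G u v| ≤ θ ∧ hh F u v ≤ 1 / K ^ 20
      ∧ hh G u v ≤ 1 / K ^ 20 ∧ ¬ bad vtx A u v
  · rw [if_pos h, if_pos (key u v h), hx]
  · rw [if_neg h, if_neg (fun h' => h (key v u h'))]

theorem wt_supp {u v : ι} (h : wt g θ K vtx A S F G u v ≠ 0) :
    u ≠ v ∧ u ∈ S ∧ v ∈ S ∧ |F u v| ≤ θ ∧ |G u v| ≤ θ ∧ hh F u v ≤ 1 / K ^ 20
      ∧ hh G u v ≤ 1 / K ^ 20 ∧ ¬ bad vtx A u v := by
  by_contra h'
  exact h (by unfold wt; rw [if_neg h'])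

theorem one_le_of_gt {x c : ℝ} (hθ : 0 < θ) (hc : 1 ≤ c * θ ^ 2) (h : θ < |x|) :
    1 ≤ c * x ^ 2 := by
  have h0 : 0 ≤ c := by
    by_contra h0
    have : c * θ ^ 2 ≤ 0 := mul_nonpos_of_nonpos_of_nonneg (le_of_not_ge h0) (sq_nonneg _)
    linarith
  have h1 : θ ^ 2 ≤ x ^ 2 := by
    rw [← sq_abs x]
    exact pow_le_pow_left₀ hθ.le h.le 2
  exact hc.trans (mul_le_mul_of_nonneg_left h1 h0)

theorem one_le_of_hh {x : ℝ} (hK : 0 < K) (h : ¬ x ≤ 1 / K ^ 20) : 1 ≤ K ^ 20 * x := by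
  rw [not_le, div_lt_iff₀ (pow_pos hK _)] at h
  linarith

open Classical in
theorem wt_sq {c : ℝ} (hK : 0 < K) (hθ : 0 < θ) (hc : 1 ≤ c * θ ^ 2) (hc' : 2 * g ^ 2 ≤ c)
    {u v : ι} (hu : u ∈ S) (hv : v ∈ S) :
    (wt g θ K vtx A S F G u v - 1) ^ 2 ≤ (c * F u v ^ 2 + K ^ 20 * hh F u v)
      + (c * G u v ^ 2 + K ^ 20 * hh G u v) + (if bad vtx A u v then (1 : ℝ) else 0) := by
  have c0 : 0 ≤ c := le_trans (by positivity) hc'
  have e1 : 0 ≤ c * F u v ^ 2 := by positivity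
  have e2 : 0 ≤ c * G u v ^ 2 := by positivity
  have e3 : 0 ≤ K ^ 20 * hh F u v := mul_nonneg (by positivity) (hh_nonneg F u v)
  have e4 : 0 ≤ K ^ 20 * hh G u v := mul_nonneg (by positivity) (hh_nonneg G u v)
  have e5 : 0 ≤ (if bad vtx A u v then (1 : ℝ) else 0) := by split_ifs <;> norm_num
  unfold wt
  by_cases h : u ≠ v ∧ u ∈ S ∧ v ∈ S ∧ |F u v| ≤ θ ∧ |G u v| ≤ θ ∧ hh F u v ≤ 1 / K ^ 20
    ∧ hh G u v ≤ 1 / K ^ 20 ∧ ¬ bad vtx A u v
  · rw [if_pos h]
    have h1 : xi 1 F G u v ^ 2 ≤ 2 * (F u v ^ 2 + G u v ^ 2) := by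
      have h2 := xi_abs F G u v
      have h3 : |xi 1 F G u v| ^ 2 ≤ (|F u v| + |G u v|) ^ 2 :=
        pow_le_pow_left₀ (abs_nonneg _) h2 2
      rw [sq_abs] at h3
      have h4 := sq_abs (F u v)
      have h5 := sq_abs (G u v)
      nlinarith [sq_nonneg (|F u v| - |G u v|)]
    have h2 := mul_le_mul_of_nonneg_left h1 (sq_nonneg g)
    have h3 := mul_le_mul_of_nonneg_right hc' (add_nonneg (sq_nonneg (F u v)) (sq_nonneg (G u v)))
    nlinarith
  · rw [if_neg h]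
    have h0 : ((0 : ℝ) - 1) ^ 2 = 1 := by norm_num
    rw [h0]
    by_cases hb : bad vtx A u v
    · rw [if_pos hb]; linarith
    by_cases h1 : |F u v| ≤ θ
    swap
    · have := one_le_of_gt hθ hc (not_le.1 h1)
      linarith
    by_cases h2 : |G u v| ≤ θ
    swap
    · have := one_le_of_gt hθ hc (not_le.1 h2)
      linarith
    by_cases h3 : hh F u v ≤ 1 / K ^ 20
    swap
    · have := one_le_of_hh hK h3
      linarith
    by_cases h4 : hh G u v ≤ 1 / K ^ 20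
    swap
    · have := one_le_of_hh hK h4
      linarith
    exact absurd ⟨fun e => hb (Or.inl (by rw [e])), hu, hv, h1, h2, h3, h4, hb⟩ h

theorem wt_row {c : ℝ} {d : ℕ} (hA : Gr d vtx S A) (hK : 0 < K) (hθ : 0 < θ)
    (hc : 1 ≤ c * θ ^ 2) (hc' : 2 * g ^ 2 ≤ c) {u : ι} (hu : u ∈ S) :
    ∑ v ∈ S, (wt g θ K vtx A S F G u v - 1) ^ 2
      ≤ (c * ∑ v ∈ S, F u v ^ 2 + K ^ 20 * ∑ v ∈ S, hh F u v)
        + (c * ∑ v ∈ S, G u v ^ 2 + K ^ 20 * ∑ v ∈ S, hh G u v) + (d + d ^ 2) := by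
  refine (Finset.sum_le_sum fun v hv => wt_sq hK hθ hc hc' hu hv).trans ?_
  simp only [Finset.sum_add_distrib, ← Finset.mul_sum]
  have := bad_row hA u
  linarith

theorem wt_tot {c : ℝ} {d : ℕ} (hF : Mat S F) (hG : Mat S G) (hA : Gr d vtx S A) (hK : 0 < K)
    (hθ : 0 < θ) (hc : 1 ≤ c * θ ^ 2) (hc' : 2 * g ^ 2 ≤ c) :
    ∑ u ∈ S, ∑ v ∈ S.erase u, (wt g θ K vtx A S F G u v - 1) ^ 2
      ≤ c * (a2 F + a2 G) + K ^ 20 * (R2 S F + R2 S G) + (d + d ^ 2) * S.card := by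
  have c0 : 0 ≤ c := le_trans (by positivity) hc'
  calc ∑ u ∈ S, ∑ v ∈ S.erase u, (wt g θ K vtx A S F G u v - 1) ^ 2
      ≤ ∑ u ∈ S, ((c * ∑ v ∈ S, F u v ^ 2 + K ^ 20 * ∑ v ∈ S, hh F u v)
        + (c * ∑ v ∈ S, G u v ^ 2 + K ^ 20 * ∑ v ∈ S, hh G u v) + (d + d ^ 2)) := by
        refine Finset.sum_le_sum fun u hu => le_trans ?_ (wt_row hA hK hθ hc hc' hu)
        exact Finset.sum_le_sum_of_subset_of_nonneg (erase_subset u S) fun v _ _ => sq_nonneg _
    _ ≤ _ := by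
        simp only [Finset.sum_add_distrib, ← Finset.mul_sum, Finset.sum_const, nsmul_eq_mul]
        have h1 := mul_le_mul_of_nonneg_left (sq_tot hF) c0
        have h2 := mul_le_mul_of_nonneg_left (sq_tot hG) c0
        have h3 := mul_le_mul_of_nonneg_left (hh_tot hF) (pow_pos hK 20).le
        have h4 := mul_le_mul_of_nonneg_left (hh_tot hG) (pow_pos hK 20).le
        linarith

open Classical in
noncomputable def chi (K : ℝ) (vtx : ι → V) (A : V → V → ℕ) (F G : Matrix ι ι ℝ) (u v : ι) : ℝ :=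
  if hh F u v ≤ 1 / K ^ 20 ∧ hh G u v ≤ 1 / K ^ 20 ∧ ¬ bad vtx A u v then 0 else 2

open Classical in
theorem chi_sq (hK : 0 < K) (u v : ι) : chi K vtx A F G u v ^ 2
    ≤ 4 * (K ^ 20 * hh F u v + K ^ 20 * hh G u v + (if bad vtx A u v then (1 : ℝ) else 0)) := by
  have e3 : 0 ≤ K ^ 20 * hh F u v := mul_nonneg (by positivity) (hh_nonneg F u v)
  have e4 : 0 ≤ K ^ 20 * hh G u v := mul_nonneg (by positivity) (hh_nonneg G u v)
  have e5 : 0 ≤ (if bad vtx A u v then (1 : ℝ) else 0) := by split_ifs <;> norm_num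
  unfold chi
  by_cases h : hh F u v ≤ 1 / K ^ 20 ∧ hh G u v ≤ 1 / K ^ 20 ∧ ¬ bad vtx A u v
  · rw [if_pos h]; nlinarith
  · rw [if_neg h]
    by_cases hb : bad vtx A u v
    · rw [if_pos hb]; linarith
    by_cases h3 : hh F u v ≤ 1 / K ^ 20
    swap
    · have := one_le_of_hh hK h3
      linarith
    by_cases h4 : hh G u v ≤ 1 / K ^ 20
    swap
    · have := one_le_of_hh hK h4
      linarith
    exact absurd ⟨h3, h4, hb⟩ h

theorem chi_tot {d : ℕ} (hF : Mat S F) (hG : Mat S G) (hA : Gr d vtx S A) (hK : 0 < K) :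
    ∑ u ∈ S, ∑ v ∈ S, chi K vtx A F G u v ^ 2
      ≤ 4 * (K ^ 20 * (R2 S F + R2 S G) + (d + d ^ 2) * S.card) := by
  calc ∑ u ∈ S, ∑ v ∈ S, chi K vtx A F G u v ^ 2
      ≤ ∑ u ∈ S, 4 * (K ^ 20 * ∑ v ∈ S, hh F u v + K ^ 20 * ∑ v ∈ S, hh G u v + (d + d ^ 2)) := by
        refine Finset.sum_le_sum fun u _ => ?_
        refine (Finset.sum_le_sum fun v _ => chi_sq hK u v).trans ?_
        simp only [Finset.sum_add_distrib, ← Finset.mul_sum]
        have := bad_row hA u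
        linarith
    _ ≤ _ := by
        simp only [Finset.sum_add_distrib, ← Finset.mul_sum, Finset.sum_const, nsmul_eq_mul]
        have h3 := mul_le_mul_of_nonneg_left (hh_tot hF) (pow_pos hK 20).le
        have h4 := mul_le_mul_of_nonneg_left (hh_tot hG) (pow_pos hK 20).le
        linarith

theorem wt_ref (hg : 0 < g) {u v : ι} (hu : u ∈ S) (hv : v ∈ S) (huv : u ≠ v) :
    |wt g (1 / (20 * g)) K vtx A S F G u v - 1 + g * xi 1 F G u v|
      ≤ 1000 * g ^ 2 * (F u v ^ 2 + G u v ^ 2) + chi K vtx A F G u v := by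
  have e1 : 0 ≤ chi K vtx A F G u v := by unfold chi; split_ifs <;> norm_num
  have e2 : 0 ≤ g ^ 2 * F u v ^ 2 := by positivity
  have e3 : 0 ≤ g ^ 2 * G u v ^ 2 := by positivity
  have hθ : 0 < 1 / (20 * g) := by positivity
  have hc : 1 ≤ 400 * g ^ 2 * (1 / (20 * g)) ^ 2 := by
    apply le_of_eq; field_simp; norm_num
  have hx : |(0 : ℝ) - 1 + g * xi 1 F G u v| ≤ 1 + g * |F u v| + g * |G u v| := by
    have h1 := abs_add_le ((0 : ℝ) - 1) (g * xi 1 F G u v)
    have h2 : |(0 : ℝ) - 1| = 1 := by norm_num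
    rw [h2, abs_mul, abs_of_pos hg] at h1
    have h3 := mul_le_mul_of_nonneg_left (xi_abs F G u v) hg.le
    linarith
  have hf : g * |F u v| ≤ 1 / 2 + g ^ 2 * F u v ^ 2 / 2 := by
    have := sq_abs (F u v)
    nlinarith [sq_nonneg (g * |F u v| - 1)]
  have hg' : g * |G u v| ≤ 1 / 2 + g ^ 2 * G u v ^ 2 / 2 := by
    have := sq_abs (G u v)
    nlinarith [sq_nonneg (g * |G u v| - 1)]
  unfold wt
  split_ifs with h
  · have : 1 - g * xi 1 F G u v - 1 + g * xi 1 F G u v = 0 := by ring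
    rw [this, abs_zero]
    nlinarith
  · by_cases h1 : |F u v| ≤ 1 / (20 * g)
    swap
    · have := one_le_of_gt hθ hc (not_le.1 h1)
      nlinarith
    by_cases h2 : |G u v| ≤ 1 / (20 * g)
    swap
    · have := one_le_of_gt hθ hc (not_le.1 h2)
      nlinarith
    have h3 : chi K vtx A F G u v = 2 := by
      unfold chi
      rw [if_neg]
      exact fun h' => h ⟨huv, hu, hv, h1, h2, h'⟩
    have h4 : g * (1 / (20 * g)) = 1 / 20 := by field_simp
    have h5 := mul_le_mul_of_nonneg_left h1 hg.le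
    have h6 := mul_le_mul_of_nonneg_left h2 hg.le
    nlinarith

end wt

end WtX

open WtX in
/-- Existence of the weights. -/
theorem exists_wt (d : ℕ) : ∃ K1 : ℝ, ∀ (ι V : Type) [Fintype ι] [DecidableEq ι] [Fintype V]
    [DecidableEq V] (vtx : ι → V) (A : V → V → ℕ) (p : Par ℝ) (S : Finset ι)
    (F G : Matrix ι ι ℝ), K1 ≤ p.K → p.OK → (S.card : ℝ) ≤ p.N → p.live S.card →
    One p S F → One p S G → Gr d vtx S A →
    ∃ w, Wt p 1 S F G w ∧ ∀ u v, w u v ≠ 0 → ¬ bad vtx A u v := by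
  refine ⟨max (10 ^ 100) ((d : ℝ) + d ^ 2), fun ι V _ _ _ _ vtx A p S F G hK1 hp _ hl hF hG hA => ?_⟩
  have hK : Big p.K := le_trans (le_max_left _ _) hK1
  have hd : (d : ℝ) + d ^ 2 ≤ p.K ^ 1 := by
    rw [pow_one]; exact le_trans (le_max_right _ _) hK1
  have hK0 := hK.pos
  have hm := m_pos hK hl
  have hl' : p.K ^ 3340 < S.card := hl
  have a1 := a2_le hK hl hF
  have a2' := a2_le hK hl hG
  have r1 := R2_le hK hl hF
  have r2 := R2_le hK hl hG
  have hR : p.K ^ 20 * (R2 S F + R2 S G) ≤ 2 * p.K ^ 33 * S.card := by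
    calc p.K ^ 20 * (R2 S F + R2 S G) ≤ p.K ^ 20 * (p.K ^ 13 * S.card + p.K ^ 13 * S.card) := by
          gcongr
      _ = _ := by ring
  have hdm := mul_le_mul_of_nonneg_right hd hm.le
  by_cases hI : p.phI S.card
  · have hI' : p.K ^ 7195 < S.card := hI
    have hg : 0 < p.gam := pow_pos hK0 _
    have hθ : 0 < 1 / (20 * p.gam) := by positivity
    have hgθ : p.gam * (1 / (20 * p.gam)) ≤ 1 / 20 := by apply le_of_eq; field_simp
    have hc : 1 ≤ 402 * p.gam ^ 2 * (1 / (20 * p.gam)) ^ 2 := by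
      have : 402 * p.gam ^ 2 * (1 / (20 * p.gam)) ^ 2 = 402 / 400 := by field_simp; norm_num
      rw [this]; norm_num
    have hc' : 2 * p.gam ^ 2 ≤ 402 * p.gam ^ 2 := by nlinarith [sq_nonneg p.gam]
    have hθK : 1 / (20 * p.gam) ≤ 1 / p.K := by
      apply one_div_le_one_div_of_le hK0
      have h1 : p.K ^ 1 ≤ p.gam := pw_le hK (show 1 ≤ 600 by norm_num)
      rw [pow_one] at h1
      linarith
    refine ⟨wt p.gam (1 / (20 * p.gam)) p.K vtx A S F G, ⟨wt_nn hg.le hgθ, wt_le hg.le hgθ,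
      wt_symm hF.mat hG.mat hA, fun u v h => ?_, fun u hu => ?_, ?_, fun _ => ?_⟩,
      fun u v h => (wt_supp h).2.2.2.2.2.2.2⟩
    · obtain ⟨h1, h2, h3, h4, h5, h6, h7, -⟩ := wt_supp h
      exact ⟨h1, h2, h3, h4.trans hθK, h5.trans hθK, h6, h7⟩
    · refine (wt_row hA hK0 hθ hc hc' hu).trans ?_
      have h1 := rowI hK hp hl hF hI u
      have h2 := rowI hK hp hl hG hI u
      have h3 := pw_le hK (show 1 ≤ 4430 by norm_num)
      have h4 := pw_big hK (show 4430 < 4895 by norm_num)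
      have h5 : p.K ^ 4895 ≤ p.eps S.card ^ 2 * S.card := by
        unfold Par.eps
        rw [if_pos hI]
        calc p.K ^ 4895 = (1 / p.K ^ 1150) ^ 2 * p.K ^ 7195 := by field_simp
          _ ≤ _ := mul_le_mul_of_nonneg_left hI'.le (by positivity)
      have h6 : 0 < p.K ^ 4430 := pow_pos hK0 _
      linarith
    · refine (wt_tot hF.mat hG.mat hA hK0 hθ hc hc').trans ?_
      unfold Par.Gam2
      rw [if_pos hI]
      have h1 : 402 * p.gam ^ 2 * (a2 F + a2 G) ≤ 804 * p.K ^ 1200 * S.card := by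
        calc 402 * p.gam ^ 2 * (a2 F + a2 G) ≤ 402 * p.gam ^ 2 * (S.card + S.card) := by gcongr
          _ = _ := by unfold Par.gam; ring
      have h2 := mul_le_mul_of_nonneg_right (pw_big hK (show 1200 < 1201 by norm_num)) hm.le
      have h3 := mul_le_mul_of_nonneg_right (pw_big hK (show 33 < 1201 by norm_num)) hm.le
      have h4 := mul_le_mul_of_nonneg_right (pw_big hK (show 1 < 1201 by norm_num)) hm.le
      have h5 : 0 < p.K ^ 1201 * S.card := by positivity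
      linarith
    · refine ⟨chi p.K vtx A F G, (chi_tot hF.mat hG.mat hA hK0).trans ?_,
        fun u hu v hv huv => wt_ref hg hu hv huv⟩
      have h3 := mul_le_mul_of_nonneg_right (pw_big hK (show 33 < 35 by norm_num)) hm.le
      have h4 := mul_le_mul_of_nonneg_right (pw_big hK (show 1 < 35 by norm_num)) hm.le
      have h5 : 0 < p.K ^ 35 * S.card := by positivity
      linarith
  · have hθ : 0 < 1 / p.K := by positivity
    have hgθ : (0 : ℝ) * (1 / p.K) ≤ 1 / 20 := by norm_num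
    have hc : 1 ≤ p.K ^ 2 * (1 / p.K) ^ 2 := by apply le_of_eq; field_simp
    have hc' : 2 * (0 : ℝ) ^ 2 ≤ p.K ^ 2 := by nlinarith [sq_nonneg p.K]
    refine ⟨wt 0 (1 / p.K) p.K vtx A S F G, ⟨wt_nn le_rfl hgθ, wt_le le_rfl hgθ,
      wt_symm hF.mat hG.mat hA, fun u v h => ?_, fun u hu => ?_, ?_, fun h => absurd h hI⟩,
      fun u v h => (wt_supp h).2.2.2.2.2.2.2⟩
    · obtain ⟨h1, h2, h3, h4, h5, h6, h7, -⟩ := wt_supp h
      exact ⟨h1, h2, h3, h4, h5, h6, h7⟩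
    · refine (wt_row hA hK0 hθ hc hc' hu).trans ?_
      have h1 := rowN hK hp hl hF u
      have h2 := rowN hK hp hl hG u
      have h3 : p.K ^ 1600 * ((d : ℝ) + d ^ 2) ≤ S.card / 10 := by
        have h4 := pw_big hK (show 1601 < 3340 by norm_num)
        calc p.K ^ 1600 * ((d : ℝ) + d ^ 2) ≤ p.K ^ 1600 * p.K ^ 1 := by gcongr
          _ = p.K ^ 1601 := by ring
          _ ≤ _ := by
            have : 0 < p.K ^ 1601 := pow_pos hK0 _
            linarith
      have h5 : p.eps S.card ^ 2 * S.card = S.card / p.K ^ 1600 := by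
        unfold Par.eps
        rw [if_neg hI]
        field_simp
      rw [h5, le_div_iff₀ (pow_pos hK0 _)]
      linarith
    · refine (wt_tot hF.mat hG.mat hA hK0 hθ hc hc').trans ?_
      unfold Par.Gam2
      rw [if_neg hI]
      have h1 : p.K ^ 2 * (a2 F + a2 G) ≤ 2 * p.K ^ 2 * S.card := by
        calc p.K ^ 2 * (a2 F + a2 G) ≤ p.K ^ 2 * (S.card + S.card) := by gcongr
          _ = _ := by ring
      have h2 := mul_le_mul_of_nonneg_right (pw_big hK (show 2 < 36 by norm_num)) hm.le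
      have h3 := mul_le_mul_of_nonneg_right (pw_big hK (show 33 < 36 by norm_num)) hm.le
      have h4 := mul_le_mul_of_nonneg_right (pw_big hK (show 1 < 36 by norm_num)) hm.le
      have h5 : 0 < p.K ^ 36 * S.card := by positivity
      linarith

end Crest.Agent.R62
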