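import Crest.Agent.R62.TrT
import Crest.Agent.R62.Tr2a
import Crest.Agent.R62.Tr2b
import Crest.Agent.R62.Tr2c
import Crest.Agent.R62.Tr3
import Crest.Agent.R62.Tr4a
import Crest.Agent.R62.Tr4c
import Crest.Agent.R62.TrX
import Crest.Agent.R62.TrR
import Crest.Agent.R62.TrR4
import Crest.Agent.R62.TrD2
import Crest.Agent.R62.TrD4
import Crest.Agent.R62.TrB
import Crest.Agent.R62.Wt
import Crest.Agent.R62.Facts

set_option autoImplicit false

open Finset Matrix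

namespace Crest.Agent.R62

/-- all one-matrix terms are at most one -/
def Terms {ι : Type} [Fintype ι] [DecidableEq ι] (p : Par ℝ) (S : Finset ι) (X : Matrix ι ι ℝ) :
    Prop :=
  pT p S X ≤ 1 ∧ pT' p S X ≤ 1 ∧ p2 p S X ≤ 1
    ∧ p2l p S X ≤ 1 ∧ p3 p X ≤ 1 ∧ p4 p S X ≤ 1 ∧ pR4 p S X ≤ 1
    ∧ pD2 p S X ≤ 1 ∧ pD4 p S X ≤ 1
    ∧ (p.phX S.card → p2' p S X ≤ 1 ∧ pX p S X ≤ 1)
    ∧ (¬ p.phX S.card → pR p S X ≤ 1) ∧ (p.phI S.card → p3' p X ≤ 1)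

theorem Ctx.Ω_nonneg {ι : Type} [Fintype ι] [DecidableEq ι] (c : Ctx ι) : 0 ≤ c.Ω :=
  sum_nonneg fun u _ => sum_nonneg fun v _ => c.wt.nn u v

theorem Ctx.η_nonneg {ι : Type} [Fintype ι] [DecidableEq ι] (c : Ctx ι) : 0 ≤ c.η := by
  unfold Ctx.η Ctx.m; positivity

theorem tr_xi1 : ∃ K1 : ℝ, ∀ (ι : Type) [Fintype ι] [DecidableEq ι] (c : Ctx ι), K1 ≤ c.p.K →
    Terms c.p c.S c.F →
    ∑ u, ∑ v, c.w u v * Xi1 c.p (rem c.S u v) (c.F' u v) c.m
      ≤ c.Ω * (Xi1 c.p c.S c.F c.m + 12 * c.η) := by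
  obtain ⟨k1, h1⟩ := trT
  obtain ⟨k2, h2⟩ := trT'
  obtain ⟨k3, h3⟩ := tr2
  obtain ⟨k4, h4⟩ := tr2l
  obtain ⟨k5, h5⟩ := tr3
  obtain ⟨k6, h6⟩ := tr4
  obtain ⟨k7, h7⟩ := trR4
  obtain ⟨k8, h8⟩ := trD2
  obtain ⟨k9, h9⟩ := trD4
  obtain ⟨k10, h10⟩ := tr2'
  obtain ⟨k11, h11⟩ := trX
  obtain ⟨k12, h12⟩ := trR
  obtain ⟨k13, h13⟩ := tr3'
  refine ⟨max (max (max (max k1 k2) (max k3 k4)) (max (max k5 k6) (max k7 k8)))
    (max (max (max k9 k10) (max k11 k12)) k13), fun ι _ _ c hK hT => ?_⟩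
  simp only [max_le_iff] at hK
  obtain ⟨⟨⟨⟨a1, a2⟩, a3, a4⟩, ⟨a5, a6⟩, a7, a8⟩, ⟨⟨a9, a10⟩, a11, a12⟩, a13⟩ := hK
  obtain ⟨t1, t2, t3, t4, t5, t6, t7, t8, t9, t10, t12, t13⟩ := hT
  have b1 := h1 ι c a1 trivial t1
  have b2 := h2 ι c a2 trivial t2
  have b3 := h3 ι c a3 trivial t3
  have b4 := h4 ι c a4 trivial t4
  have b5 := h5 ι c a5 trivial t5
  have b6 := h6 ι c a6 trivial t6
  have b7 := h7 ι c a7 trivial t7
  have b8 := h8 ι c a8 trivial t8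
  have b9 := h9 ι c a9 trivial t9
  have hΩη : 0 ≤ c.Ω * c.η := mul_nonneg c.Ω_nonneg c.η_nonneg
  have bX : ∑ u, ∑ v, c.w u v * (if c.p.phX c.m then p2' c.p (rem c.S u v) (c.F' u v)
        + pX c.p (rem c.S u v) (c.F' u v) else pR c.p (rem c.S u v) (c.F' u v))
      ≤ c.Ω * ((if c.p.phX c.m then p2' c.p c.S c.F + pX c.p c.S c.F else pR c.p c.S c.F)
        + 2 * c.η) := by
    by_cases hX : c.p.phX c.m
    · have b10 := h10 ι c a10 hX (t10 hX).1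
      have b11 := h11 ι c a11 hX (t10 hX).2
      simp only [if_pos hX, mul_add, sum_add_distrib] at b10 b11 ⊢
      linarith
    · have b12 := h12 ι c a12 hX (t12 hX)
      simp only [if_neg hX, mul_add] at b12 ⊢
      linarith
  have bI : ∑ u, ∑ v, c.w u v * (if c.p.phI c.m then p3' c.p (c.F' u v) else 0)
      ≤ c.Ω * ((if c.p.phI c.m then p3' c.p c.F else 0) + c.η) := by
    by_cases hI : c.p.phI c.m
    · simpa only [if_pos hI] using h13 ι c a13 hI (t13 hI)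
    · simp only [if_neg hI, mul_zero, sum_const_zero, zero_add]; exact hΩη
  simp only [Xi1, mul_add, sum_add_distrib] at *
  linarith

/-- Some admissible pair increases the potential (phase of the parent) by at most `30 η`. -/
theorem drift (d : ℕ) : ∃ K1 : ℝ, ∀ (ι V : Type) [Fintype ι] [DecidableEq ι] [Fintype V]
    [DecidableEq V] (vtx : ι → V) (p : Par ℝ) (st : St ι V ℝ) (x s : ℝ), K1 ≤ p.K → p.OK →
    (st.S.card : ℝ) ≤ p.N → p.live st.S.card → 0 ≤ s → s ^ 2 ≤ 1 / 2 → Gr d vtx st.S st.A →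
    Link 1 x s d vtx st.S st.A st.F → Link (-1) x s d vtx st.S st.A st.G → Xi p vtx st ≤ 1 →
    ∃ u v, ok p vtx st u v ∧
      XiAt p vtx st.S.card (child vtx st u v) ≤ Xi p vtx st + 30 / (√p.K * st.S.card) := by
  obtain ⟨k1, h1⟩ := tr_xi1
  obtain ⟨k2, h2⟩ := tr11
  obtain ⟨k3, h3⟩ := tr22
  obtain ⟨k4, h4⟩ := trB d
  obtain ⟨k5, h5⟩ := exists_wt d
  refine ⟨max (max (max k1 k2) (max k3 k4)) (max k5 (10 ^ 100)),
    fun ι V _ _ _ _ vtx p st x s hK hp hN hl hs0 hs hGr hF hG hΞ => ?_⟩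
  simp only [max_le_iff] at hK
  obtain ⟨⟨⟨a1, a2⟩, a3, a4⟩, a5, hB⟩ := hK
  have hB : Big p.K := hB
  have hm : (1000 : ℝ) ≤ st.S.card := by
    have h1 : p.K ≤ p.K ^ 3340 := le_self_pow₀ hB.one_lt.le (by norm_num)
    have h2 : (1000 : ℝ) ≤ p.K := le_trans (by norm_num) hB
    have h3 : p.K ^ 3340 < st.S.card := hl
    linarith
  obtain ⟨oF, oG, two, hpB, hT, hT2⟩ := facts hB hp hm hs0 hs hF hG hΞ
  obtain ⟨w, wt, hw⟩ := h5 ι V vtx st.A p st.S st.F st.G a5 hp hN hl oF oG hGr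
  let c : Ctx ι := ⟨p, 1, st.S, st.F, st.G, w, Or.inl rfl, hp, hN, hl, oF, oG, two, wt⟩
  have b1 := h1 ι c a1 (hT _ (Or.inl rfl))
  have b2 := h1 ι c.swap a1 (hT _ (Or.inr rfl))
  have b4 := h4 ι V vtx st.A c a4 hGr hpB
  have hΩη : 0 ≤ c.Ω * c.η := mul_nonneg c.Ω_nonneg c.η_nonneg
  have bI : ∑ u, ∑ v, c.w u v * (if p.phI c.m then p11 p (rem st.S u v) (c.F' u v) (c.G' u v)
        + p22 p (rem st.S u v) (c.F' u v) (c.G' u v) else 0)
      ≤ c.Ω * ((if p.phI c.m then p11 p st.S st.F st.G + p22 p st.S st.F st.G else 0)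
        + 2 * c.η) := by
    by_cases hI : p.phI c.m
    · have e1 := h2 ι c a2 hI (hT2 hI).1
      have e2 := h3 ι c a3 hI (hT2 hI).2
      simp only [if_pos hI, mul_add, sum_add_distrib] at e1 e2 ⊢
      linarith
    · simp only [if_neg hI, mul_zero, sum_const_zero, zero_add]; linarith
  have key : ∑ u, ∑ v, w u v * XiAt p vtx st.S.card (child vtx st u v)
      ≤ c.Ω * (Xi p vtx st + 27 * c.η) := by
    have e : ∀ u v, XiAt p vtx st.S.card (child vtx st u v)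
        = Xi1 c.p (rem c.S u v) (c.F' u v) c.m + Xi1 c.swap.p (rem c.swap.S u v) (c.swap.F' u v) c.swap.m
          + (if p.phI c.m then p11 p (rem st.S u v) (c.F' u v) (c.G' u v)
            + p22 p (rem st.S u v) (c.F' u v) (c.G' u v) else 0)
          + pB c.p vtx (rem c.S u v) (addE st.A (vtx u) (vtx v)) := fun u v => rfl
    have e0 : Xi p vtx st = Xi1 c.p c.S c.F c.m + Xi1 c.swap.p c.swap.S c.swap.F c.swap.m
          + (if p.phI c.m then p11 p st.S st.F st.G + p22 p st.S st.F st.G else 0)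
          + pB c.p vtx c.S st.A := rfl
    have eΩ : c.swap.Ω = c.Ω := rfl
    have eη : c.swap.η = c.η := rfl
    have ew : c.swap.w = w := rfl
    have ew' : c.w = w := rfl
    simp only [e, e0, mul_add, sum_add_distrib]
    rw [eΩ, eη, ew] at b2
    rw [ew'] at b1 b4 bI
    simp only [mul_add] at b1 b2 b4 bI
    linarith
  have hΩ : 0 < c.Ω := Ctx.Ω_pos hB
  have hη : 30 / (√p.K * st.S.card) = 30 * c.η := by
    show _ = 30 * (1 / (√p.K * (st.S.card : ℝ))); ring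
  by_contra hno
  push Not at hno
  have hlt : ∀ u v, w u v ≠ 0 → Xi p vtx st + 30 * c.η < XiAt p vtx st.S.card (child vtx st u v) := by
    intro u v h
    obtain ⟨q1, q2, q3, q4, q5, -⟩ := wt.supp u v h
    rw [← hη]
    exact hno u v ⟨q1, q2, q3, hw u v h, q4, q5⟩
  have hle : ∑ u, ∑ v, w u v * (Xi p vtx st + 30 * c.η)
      ≤ ∑ u, ∑ v, w u v * XiAt p vtx st.S.card (child vtx st u v) :=
    c.sum_le_sum' fun u v h => (hlt u v h).le
  have hs : ∑ u, ∑ v, w u v * (Xi p vtx st + 30 * c.η) = c.Ω * (Xi p vtx st + 30 * c.η) := by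
    simp only [← sum_mul]; rfl
  have hηpos : 0 < c.η := Ge.pos hB (Ctx.ge_η (c := c) hB)
  have : 0 < c.Ω * c.η := mul_pos hΩ hηpos
  nlinarith

end Crest.Agent.R62
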