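import Crest.Agent.R62.LinkFact

set_option autoImplicit false
set_option linter.unusedSectionVars false
set_option linter.unusedSimpArgs false

open Finset Matrix

namespace Crest.Agent.R62

variable {ι V : Type} [Fintype ι] [DecidableEq ι] [Fintype V] [DecidableEq V]

namespace EndX

theorem sum_fr (vtx : ι → V) (S : Finset ι) (g : V → ℝ) :
    ∑ i, (fr vtx S i : ℝ) * g i = ∑ a ∈ S, g (vtx a) := by
  rw [← Finset.sum_fiberwise (s := S) (g := vtx)]
  refine Finset.sum_congr rfl fun i _ => ?_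
  rw [Finset.sum_congr rfl (g := fun _ => g i)]
  · simp [fr]
  · intro a ha
    rw [(Finset.mem_filter.1 ha).2]

theorem fr_eq (vtx : ι → V) (S : Finset ι) (i : V) :
    (fr vtx S i : ℝ) = ∑ a ∈ S, if vtx a = i then (1 : ℝ) else 0 := by
  simp [fr, Finset.sum_ite]

theorem fr_rem (vtx : ι → V) {S : Finset ι} {u v : ι} (huv : u ≠ v) (hu : u ∈ S) (hv : v ∈ S)
    (i : V) : fr vtx (rem S u v) i + (if vtx u = i then 1 else 0) + (if vtx v = i then 1 else 0)
      = fr vtx S i := by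
  have e : ∀ T : Finset ι, fr vtx T i = ∑ a ∈ T, if vtx a = i then 1 else 0 := by
    intro T; simp [fr, Finset.sum_ite]
  rw [e, e, rem]
  have hv' : v ∈ S.erase u := Finset.mem_erase.2 ⟨huv.symm, hv⟩
  rw [← Finset.add_sum_erase S _ hu, ← Finset.add_sum_erase (S.erase u) _ hv']
  ring

theorem sum_rem {S : Finset ι} {u v : ι} (huv : u ≠ v) (hu : u ∈ S) (hv : v ∈ S) (g : ι → ℝ) :
    ∑ a ∈ S, g a = g u + g v + ∑ a ∈ rem S u v, g a := by
  have hv' : v ∈ S.erase u := Finset.mem_erase.2 ⟨huv.symm, hv⟩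
  rw [rem, ← Finset.add_sum_erase S _ hu, ← Finset.add_sum_erase (S.erase u) _ hv']
  ring

theorem RP (vtx : ι → V) (S : Finset ι) (i : V) (b : ι) :
    (Rm vtx * (prj S : Matrix ι ι ℝ)) i b
      = if b ∈ S then (if vtx b = i then 1 else 0) - (fr vtx S i : ℝ) / S.card else 0 := by
  rw [Matrix.mul_apply]
  by_cases hb : b ∈ S
  · rw [if_pos hb, fr_eq]
    have : ∀ a, Rm vtx i a * (prj S : Matrix ι ι ℝ) a b
        = (if a = b then (if vtx b = i then (1 : ℝ) else 0) else 0)
          - (if a ∈ S then (if vtx a = i then (1 : ℝ) else 0) else 0) / S.card := by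
      intro a
      by_cases ha : a ∈ S <;> by_cases hab : a = b
      · subst hab; simp only [Rm, prj, ha, and_self, if_true]; split_ifs <;> ring
      · simp only [Rm, prj, ha, hb, hab, and_self, if_true, if_false]; split_ifs <;> ring
      · subst hab; exact absurd hb ha
      · simp [Rm, prj, ha, hab]
    rw [Finset.sum_congr rfl fun a _ => this a, Finset.sum_sub_distrib, ← Finset.sum_div]
    simp only [Finset.sum_ite_eq', Finset.mem_univ, if_true]
    rw [Finset.sum_ite_mem, Finset.univ_inter]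
  · rw [if_neg hb]
    refine Finset.sum_eq_zero fun a _ => ?_
    simp [prj, hb]

theorem RPR (vtx : ι → V) (S : Finset ι) (i j : V) :
    (Rm vtx * (prj S : Matrix ι ι ℝ) * (Rm vtx)ᵀ) i j
      = (if i = j then (fr vtx S i : ℝ) else 0) - (fr vtx S i : ℝ) * fr vtx S j / S.card := by
  rw [Matrix.mul_apply]
  have : ∀ b, (Rm vtx * (prj S : Matrix ι ι ℝ)) i b * (Rm vtx)ᵀ b j
      = if b ∈ S then ((if i = j then (if vtx b = i then (1 : ℝ) else 0) else 0)
          - (fr vtx S i : ℝ) / S.card * (if vtx b = j then (1 : ℝ) else 0)) else 0 := by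
    intro b
    rw [RP, Matrix.transpose_apply]
    by_cases hb : b ∈ S
    · simp only [hb, if_true, Rm]
      by_cases h1 : vtx b = i <;> by_cases h2 : vtx b = j <;> by_cases h3 : i = j <;>
        simp_all
    · simp [hb]
  rw [Finset.sum_congr rfl fun b _ => this b, Finset.sum_ite_mem, Finset.univ_inter,
    Finset.sum_sub_distrib, ← Finset.mul_sum, ← fr_eq]
  by_cases h3 : i = j
  · simp only [h3, if_true, ← fr_eq]; ring
  · simp only [h3, if_false, Finset.sum_const_zero]; ring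

/-- the endgame matrix -/
noncomputable def Em (σ x s : ℝ) (d : ℕ) (vtx : ι → V) (S : Finset ι) (A : V → V → ℕ) :
    Matrix V V ℝ :=
  Hm σ x s d vtx S A - (1 - s) • (Rm vtx * (prj S : Matrix ι ι ℝ) * (Rm vtx)ᵀ)

theorem Em_apply (σ x s : ℝ) (d : ℕ) (vtx : ι → V) (S : Finset ι) (A : V → V → ℕ) (i j : V) :
    Em σ x s d vtx S A i j = (if i = j then x - fr vtx S i else 0) - σ * A i j
      + (1 - σ) * (fr vtx S i * fr vtx S j / S.card) + (σ - s) * d / Fintype.card V := by
  simp only [Em, Matrix.sub_apply, Matrix.smul_apply, RPR, Hm, smul_eq_mul]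
  split_ifs <;> ring

theorem Em_quad (σ x s : ℝ) (d : ℕ) (vtx : ι → V) (S : Finset ι) (A : V → V → ℕ) (y : V → ℝ) :
    y ⬝ᵥ (Em σ x s d vtx S A *ᵥ y) = x * (y ⬝ᵥ y) - ∑ a ∈ S, y (vtx a) ^ 2
      - σ * (∑ i, ∑ j, y i * (A i j : ℝ) * y j)
      + (1 - σ) * ((∑ a ∈ S, y (vtx a)) ^ 2 / S.card)
      + (σ - s) * d / Fintype.card V * (∑ i, y i) ^ 2 := by
  rw [← sum_fr vtx S (fun i => y i ^ 2), ← sum_fr vtx S y]
  simp only [dotProduct, Matrix.mulVec, Em_apply]
  have e1 : ∀ i, y i * ∑ j, ((if i = j then x - (fr vtx S i : ℝ) else 0) - σ * A i j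
      + (1 - σ) * (fr vtx S i * fr vtx S j / S.card) + (σ - s) * d / Fintype.card V) * y j
      = x * (y i * y i) - (fr vtx S i : ℝ) * y i ^ 2 - σ * ∑ j, y i * (A i j : ℝ) * y j
        + (1 - σ) * (((fr vtx S i : ℝ) * y i) * (∑ j, (fr vtx S j : ℝ) * y j) / S.card)
        + (σ - s) * d / Fintype.card V * (y i * ∑ j, y j) := by
    intro i
    simp only [add_mul, sub_mul, Finset.sum_add_distrib, Finset.sum_sub_distrib, ite_mul, zero_mul,
      Finset.sum_ite_eq, Finset.mem_univ, if_true, mul_add, mul_sub, Finset.mul_sum,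
      Finset.sum_div]
    refine congrArg₂ (· + ·) (congrArg₂ (· + ·) (congrArg₂ (· - ·) (by ring) ?_) ?_) ?_
    · exact Finset.sum_congr rfl fun j _ => by ring
    · refine congrArg₂ (· - ·) ?_ ?_ <;> exact Finset.sum_congr rfl fun j _ => by ring
    · exact Finset.sum_congr rfl fun j _ => by ring
  rw [Finset.sum_congr rfl fun i _ => e1 i]
  simp only [Finset.sum_add_distrib, Finset.sum_sub_distrib, ← Finset.mul_sum, ← Finset.sum_div,
    ← Finset.sum_mul]
  ring

theorem addE_quad (A : V → V → ℕ) (p q : V) (y : V → ℝ) :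
    ∑ i, ∑ j, y i * (addE A p q i j : ℝ) * y j = ∑ i, ∑ j, y i * (A i j : ℝ) * y j
      + 2 * y p * y q := by
  have : ∀ i j, y i * (addE A p q i j : ℝ) * y j = y i * (A i j : ℝ) * y j
      + (if i = p then (if j = q then y p * y q else 0) else 0)
      + (if i = q then (if j = p then y p * y q else 0) else 0) := by
    intro i j
    simp only [addE]
    push_cast
    by_cases h1 : i = p <;> by_cases h2 : j = q <;> by_cases h3 : i = q <;> by_cases h4 : j = p <;>
      simp_all <;> ring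
  simp only [this, Finset.sum_add_distrib]
  simp
  ring

end EndX

open EndX

section
variable {σ x s : ℝ} {d : ℕ} {vtx : ι → V} {S : Finset ι} {A : V → V → ℕ} {F : Matrix ι ι ℝ}

theorem Link.ei (h : Link σ x s d vtx S A F) (hs0 : 0 ≤ s) (hs1 : s < 1) (h2 : a2 F < 1) :
    EI σ x s d vtx S A := by
  have hM : Mat S F := h.mat
  obtain ⟨hH, hF⟩ := h
  set H := Hm σ x s d vtx S A with hHdef
  set P : Matrix ι ι ℝ := prj S with hP
  set R : Matrix V ι ℝ := Rm vtx with hR
  have hPt : Pᵀ = P := (mat_prj S).transpose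
  have hPP : P * P = P := prj_mul_prj S
  have hHt : Hᵀ = H := by
    have := hH.1
    rwa [Matrix.IsHermitian, Matrix.conjTranspose_eq_transpose_of_trivial] at this
  refine Matrix.PosDef.of_dotProduct_mulVec_pos ?_ fun y hy => ?_
  · rw [Matrix.IsHermitian, Matrix.conjTranspose_eq_transpose_of_trivial, Matrix.transpose_sub,
      Matrix.transpose_smul, Matrix.transpose_mul, Matrix.transpose_mul,
      Matrix.transpose_transpose, hPt, hHt, Matrix.mul_assoc]
  · rw [star_trivial]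
    set z : ι → ℝ := P *ᵥ (Rᵀ *ᵥ y) with hz
    have hPz : P *ᵥ z = z := by rw [hz, Matrix.mulVec_mulVec, hPP]
    set b : V → ℝ := R *ᵥ z with hb
    have hyb : y ⬝ᵥ b = z ⬝ᵥ z := by
      rw [hb, Matrix.dotProduct_mulVec, ← Matrix.mulVec_transpose]
      conv_lhs => rw [← hPz, Matrix.dotProduct_mulVec, ← Matrix.mulVec_transpose, hPt]
    have e1 : y ⬝ᵥ ((H - (1 - s) • (R * P * Rᵀ)) *ᵥ y) = y ⬝ᵥ (H *ᵥ y) - (1 - s) * (z ⬝ᵥ z) := by
      rw [Matrix.sub_mulVec, dotProduct_sub, Matrix.smul_mulVec, dotProduct_smul, ← hyb, hb, hz,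
        Matrix.mulVec_mulVec, Matrix.mulVec_mulVec, smul_eq_mul]
    rw [e1]
    have hyH : 0 < y ⬝ᵥ (H *ᵥ y) := by simpa using hH.dotProduct_mulVec_pos hy
    by_cases hz0 : z = 0
    · simp [hz0, hyH]
    have hzz : 0 < z ⬝ᵥ z := by
      rcases (GenMX.dot_self_nonneg z).lt_or_eq with h | h
      · exact h
      · exact absurd (dotProduct_self_eq_zero.1 h.symm) hz0
    set c : V → ℝ := H⁻¹ *ᵥ b with hc
    have hHc : H *ᵥ c = b := by
      rw [hc, Matrix.mulVec_mulVec,
        Matrix.mul_nonsing_inv _ ((Matrix.isUnit_iff_isUnit_det _).1 hH.isUnit), Matrix.one_mulVec]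
    -- zᵀ F z
    have hFz : z ⬝ᵥ (F *ᵥ z) = (1 - s ^ 2) * (b ⬝ᵥ c) - s * (z ⬝ᵥ z) := by
      rw [hF, Matrix.sub_mulVec, dotProduct_sub, Matrix.smul_mulVec, Matrix.smul_mulVec,
        dotProduct_smul, dotProduct_smul, hPz, smul_eq_mul, smul_eq_mul]
      congr 2
      rw [← Matrix.mulVec_mulVec, hPz, ← Matrix.mulVec_mulVec, ← hb, ← Matrix.mulVec_mulVec, ← hc,
        ← Matrix.mulVec_mulVec, Matrix.dotProduct_mulVec, ← Matrix.mulVec_transpose, hPt, hPz,
        Matrix.dotProduct_mulVec, ← Matrix.mulVec_transpose, Matrix.transpose_transpose]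
    have hlt : z ⬝ᵥ (F *ᵥ z) < z ⬝ᵥ z := by
      have h3 := GenMX.dot_sq_le z (F *ᵥ z)
      have h4 := GenMX.mulVec_sq_le F z
      rw [← hM.a2_eq_sum] at h4
      have h5 : (z ⬝ᵥ (F *ᵥ z)) ^ 2 < (z ⬝ᵥ z) ^ 2 := by
        have : (z ⬝ᵥ z) * (a2 F * (z ⬝ᵥ z)) < (z ⬝ᵥ z) ^ 2 := by nlinarith [mul_pos hzz hzz]
        nlinarith [mul_le_mul_of_nonneg_left h4 hzz.le]
      exact lt_of_pow_lt_pow_left₀ 2 hzz.le h5
    have hq : (1 - s) * (b ⬝ᵥ c) < z ⬝ᵥ z := by
      have : (1 + s) * ((1 - s) * (b ⬝ᵥ c)) < (1 + s) * (z ⬝ᵥ z) := by nlinarith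
      exact lt_of_mul_lt_mul_left this (by linarith)
    have hw := hH.posSemidef.dotProduct_mulVec_nonneg (y - (1 - s) • c)
    rw [star_trivial, Matrix.mulVec_sub, Matrix.mulVec_smul, hHc, sub_dotProduct, dotProduct_sub,
      dotProduct_sub, smul_dotProduct, dotProduct_smul, dotProduct_smul, smul_dotProduct, hyb,
      Matrix.dotProduct_mulVec c, ← Matrix.mulVec_transpose, hHt, hHc, dotProduct_comm b y, hyb,
      dotProduct_comm c b] at hw
    simp only [smul_eq_mul] at hw
    nlinarith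

theorem EI.step (h : EI σ x s d vtx S A) (hσ : σ = 1 ∨ σ = -1) {u v : ι} (huv : u ≠ v)
    (hu : u ∈ S) (hv : v ∈ S) : EI σ x s d vtx (rem S u v) (addE A (vtx u) (vtx v)) := by
  have h' : (Em σ x s d vtx S A).PosDef := h
  change (Em σ x s d vtx (rem S u v) (addE A (vtx u) (vtx v))).PosDef
  have hA : ∀ i j, (A i j : ℝ) = A j i := by
    intro i j
    have e := h'.1.apply i j
    rw [star_trivial, Em_apply, Em_apply] at e
    have hσ0 : σ ≠ 0 := by rcases hσ with h | h <;> simp [h]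
    by_cases hij : i = j
    · rw [hij]
    · rw [if_neg hij, if_neg (Ne.symm hij)] at e
      have : σ * (A i j : ℝ) = σ * A j i := by linear_combination e
      exact mul_left_cancel₀ hσ0 this
  refine Matrix.PosDef.of_dotProduct_mulVec_pos ?_ fun y hy => ?_
  · refine Matrix.IsHermitian.ext fun i j => ?_
    rw [star_trivial, Em_apply, Em_apply]
    have e : (addE A (vtx u) (vtx v) j i : ℝ) = addE A (vtx u) (vtx v) i j := by
      simp only [addE]
      push_cast
      rw [hA j i]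
      simp only [and_comm]
      ring
    rw [e]
    by_cases hij : i = j
    · subst hij; rfl
    · rw [if_neg hij, if_neg (Ne.symm hij)]; ring
  · have hp := h'.dotProduct_mulVec_pos hy
    rw [star_trivial] at hp ⊢
    rw [Em_quad] at hp ⊢
    rw [addE_quad, card_rem_real huv hu hv]
    rw [sum_rem huv hu hv (fun a => y (vtx a) ^ 2), sum_rem huv hu hv (fun a => y (vtx a))] at hp
    set α := y (vtx u)
    set β := y (vtx v)
    set a := ∑ a ∈ rem S u v, y (vtx a) with ha
    rcases hσ with h1 | h1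
    · subst h1
      nlinarith [sq_nonneg (α - β)]
    · subst h1
      have key : (α + β + a) ^ 2 / (S.card : ℝ) ≤ a ^ 2 / ((S.card : ℝ) - 2) + (α + β) ^ 2 / 2 := by
        have hc := card_rem_real huv hu hv
        rcases (rem S u v).eq_empty_or_nonempty with he | he
        · have h2 : (S.card : ℝ) = 2 := by rw [he] at hc; simp at hc; linarith
          have : a = 0 := by rw [ha, he]; simp
          rw [this, h2]; simp
        · have h2 : (0 : ℝ) < (S.card : ℝ) - 2 := by
            rw [← hc]; exact_mod_cast he.card_pos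
          rw [div_add_div _ _ h2.ne' two_ne_zero, div_le_div_iff₀ (by linarith) (by positivity)]
          nlinarith [sq_nonneg (2 * a - ((S.card : ℝ) - 2) * (α + β))]
      nlinarith

theorem EI.final (h1 : EI 1 x s d vtx (∅ : Finset ι) A) (h2 : EI (-1) x s d vtx (∅ : Finset ι) A)
    (y : V → ℝ) (hy : ∑ i, y i = 0) (hy0 : y ≠ 0) :
    |y ⬝ᵥ ((Matrix.of fun i j => (A i j : ℝ)) *ᵥ y)| < x * (y ⬝ᵥ y) := by
  have h1' : (Em 1 x s d vtx (∅ : Finset ι) A).PosDef := h1
  have h2' : (Em (-1) x s d vtx (∅ : Finset ι) A).PosDef := h2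
  have p1 := h1'.dotProduct_mulVec_pos hy0
  have p2 := h2'.dotProduct_mulVec_pos hy0
  rw [star_trivial, Em_quad, hy] at p1 p2
  have e : y ⬝ᵥ ((Matrix.of fun i j => (A i j : ℝ)) *ᵥ y) = ∑ i, ∑ j, y i * (A i j : ℝ) * y j := by
    simp only [dotProduct, Matrix.mulVec, Matrix.of_apply, Finset.mul_sum, mul_assoc]
  rw [e, abs_lt]
  simp only [Finset.sum_empty, ne_eq, OfNat.ofNat_ne_zero, not_false_eq_true, zero_pow, zero_div,
    mul_zero, add_zero, sub_zero] at p1 p2
  constructor <;> linarith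

theorem Gr.step (h : Gr d vtx S A) {u v : ι} (huv : u ≠ v) (hu : u ∈ S) (hv : v ∈ S)
    (hb : ¬ bad vtx A u v) : Gr d vtx (rem S u v) (addE A (vtx u) (vtx v)) := by
  simp only [bad, not_or, not_not] at hb
  obtain ⟨hne, h0⟩ := hb
  have h0' : A (vtx v) (vtx u) = 0 := by rw [h.symm, h0]
  refine ⟨fun i j => ?_, fun i j => ?_, fun i => ?_, fun i => ?_⟩
  · simp only [addE, h.symm i j, and_comm]; ring
  · simp only [addE]
    have := h.le i j
    split_ifs with h1 h2 h2
    · exact absurd (h1.1.symm.trans h2.1) hne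
    · rw [h1.1, h1.2, h0]
    · rw [h2.1, h2.2, h0']
    · simpa using this
  · simp only [addE, h.diag]
    rw [if_neg fun h => hne (h.1.symm.trans h.2), if_neg fun h => hne (h.2.symm.trans h.1)]
  · have e := fr_rem vtx huv hu hv i
    have e2 := h.deg i
    simp only [addE, Finset.sum_add_distrib]
    have s1 : ∑ j, (if i = vtx u ∧ j = vtx v then 1 else 0) = if vtx u = i then 1 else 0 := by
      by_cases hi : i = vtx u
      · simp [hi]
      · simp [hi, Ne.symm hi]
    have s2 : ∑ j, (if i = vtx v ∧ j = vtx u then 1 else 0) = if vtx v = i then 1 else 0 := by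
      by_cases hi : i = vtx v
      · simp [hi]
      · simp [hi, Ne.symm hi]
    rw [s1, s2]
    omega

theorem not_bad_of_zero (h1 : same vtx S = 0) (h2 : adjc vtx S A = 0) {u v : ι} (huv : u ≠ v)
    (hu : u ∈ S) (hv : v ∈ S) : ¬ bad vtx A u v := by
  simp only [same, adjc, Finset.card_eq_zero, Finset.filter_eq_empty_iff] at h1 h2
  have m : (u, v) ∈ S ×ˢ S := Finset.mem_product.2 ⟨hu, hv⟩
  rintro (h | h)
  · exact h1 m ⟨huv, h⟩
  · exact h2 m h

theorem zero_step (h1 : same vtx S = 0) (h2 : adjc vtx S A = 0) {u v : ι} (huv : u ≠ v)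
    (hu : u ∈ S) (hv : v ∈ S) :
    same vtx (rem S u v) = 0 ∧ adjc vtx (rem S u v) (addE A (vtx u) (vtx v)) = 0 := by
  simp only [same, adjc, Finset.card_eq_zero, Finset.filter_eq_empty_iff] at h1 h2 ⊢
  refine ⟨fun x hx => h1 ?_, fun x hx => ?_⟩
  · obtain ⟨a, b⟩ := Finset.mem_product.1 hx
    exact Finset.mem_product.2 ⟨(mem_rem.1 a).1, (mem_rem.1 b).1⟩
  · obtain ⟨a, b⟩ := Finset.mem_product.1 hx
    obtain ⟨a1, a2, a3⟩ := mem_rem.1 a
    have e0 := h2 (Finset.mem_product.2 ⟨a1, (mem_rem.1 b).1⟩ : x ∈ S ×ˢ S)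
    have e1 := h1 (Finset.mem_product.2 ⟨a1, hu⟩ : (x.1, u) ∈ S ×ˢ S)
    have e2 := h1 (Finset.mem_product.2 ⟨a1, hv⟩ : (x.1, v) ∈ S ×ˢ S)
    simp only [not_not] at e0
    simp only [addE, e0, not_not]
    rw [if_neg fun h => e1 ⟨a2, h.1⟩, if_neg fun h => e2 ⟨a3, h.1⟩]
end

theorem gr_init (n d : ℕ) : Gr d (Prod.fst : Fin n × Fin d → Fin n) univ (fun _ _ => 0) := by
  refine ⟨fun _ _ => rfl, fun _ _ => Nat.zero_le _, fun _ => rfl, fun i => ?_⟩
  have : (univ.filter fun a : Fin n × Fin d => a.1 = i) = {i} ×ˢ univ := by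
    ext ⟨a, b⟩; simp [eq_comm]
  simp [fr, this]

/-- A simple graph with adjacency given by a finished `A` is `d`-regular with adjacency matrix `A`. -/
theorem Gr.final {n d : ℕ} {A : Fin n → Fin n → ℕ}
    (h : Gr d (Prod.fst : Fin n × Fin d → Fin n) ∅ A) (Γ : SimpleGraph (Fin n))
    [DecidableRel Γ.Adj] (hΓ : ∀ i j, Γ.Adj i j ↔ i ≠ j ∧ A i j ≠ 0 ∧ A j i ≠ 0) :
    Γ.IsRegularOfDegree d ∧ Γ.adjMatrix ℝ = Matrix.of fun i j => (A i j : ℝ) := by
  have key : ∀ i j, A i j = if Γ.Adj i j then 1 else 0 := by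
    intro i j
    have := h.le i j
    split_ifs with ha
    · have := ((hΓ i j).1 ha).2.1
      omega
    · rw [hΓ] at ha
      by_contra h0
      refine ha ⟨?_, h0, by rwa [h.symm j i]⟩
      rintro rfl
      exact h0 (h.diag i)
  refine ⟨fun i => ?_, ?_⟩
  · have e := h.deg i
    simp only [fr, Finset.filter_empty, Finset.card_empty, add_zero, key] at e
    rw [← e, ← SimpleGraph.card_neighborFinset_eq_degree, SimpleGraph.neighborFinset_eq_filter,
      Finset.card_filter]
  · ext i j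
    rw [SimpleGraph.adjMatrix_apply, Matrix.of_apply, key]
    split_ifs <;> simp

end Crest.Agent.R62
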