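import Crest.Agent.R62.GenM

set_option autoImplicit false
set_option linter.unusedSectionVars false

open Finset Matrix

namespace Crest.Agent.R62.Err4X

variable {ι : Type}

theorem cs (S : Finset ι) (f g : ι → ℝ) {X Y : ℝ} (hf : ∑ a ∈ S, f a ^ 2 ≤ X)
    (hg : ∑ a ∈ S, g a ^ 2 ≤ Y) : ∑ a ∈ S, f a * g a ≤ √X * √Y :=
  (Real.sum_mul_le_sqrt_mul_sqrt S f g).trans
    (mul_le_mul (Real.sqrt_le_sqrt hf) (Real.sqrt_le_sqrt hg) (Real.sqrt_nonneg _)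
      (Real.sqrt_nonneg _))

theorem cs2 (S : Finset ι) (f g : ι → ι → ℝ) {X Y : ℝ} (hf : ∑ u ∈ S, ∑ v ∈ S, f u v ^ 2 ≤ X)
    (hg : ∑ u ∈ S, ∑ v ∈ S, g u v ^ 2 ≤ Y) : ∑ u ∈ S, ∑ v ∈ S, f u v * g u v ≤ √X * √Y := by
  have h := cs (S ×ˢ S) (fun x => f x.1 x.2) (fun x => g x.1 x.2) (X := X) (Y := Y)
    (by simpa only [Finset.sum_product] using hf) (by simpa only [Finset.sum_product] using hg)
  simpa only [Finset.sum_product] using h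

theorem prod_le (S : Finset ι) (f g : ι → ℝ) {X Y : ℝ} (hf : ∑ a ∈ S, f a ≤ X)
    (hg : ∑ a ∈ S, g a ≤ Y) (hf0 : ∀ a, 0 ≤ f a) (hg0 : ∀ a, 0 ≤ g a) :
    ∑ u ∈ S, ∑ v ∈ S, f u * g v ≤ X * Y := by
  rw [← Finset.sum_mul_sum]
  exact mul_le_mul hf hg (sum_nonneg fun a _ => hg0 a) ((sum_nonneg fun a _ => hf0 a).trans hf)

/-- Abstract data of the error sum. -/
structure Dat (S : Finset ι) (q ro pb : ι → ℝ) (ph : ι → ι → ℝ) (m R Q P P2 A : ℝ) : Prop where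
  m_eq : (S.card : ℝ) = m
  m_pos : 0 < m
  R_pos : 0 < R
  q0 : ∀ a, 0 ≤ q a
  ro0 : ∀ a, 0 ≤ ro a
  pb0 : ∀ a, 0 ≤ pb a
  ph0 : ∀ u v, 0 ≤ ph u v
  hq : ∑ a ∈ S, q a ≤ Q
  hro1 : ∑ a ∈ S, ro a ≤ 3 * m
  hro2 : ∑ a ∈ S, ro a ^ 2 ≤ P
  hroR : ∀ a, ro a ≤ R
  hpb : ∑ a ∈ S, pb a ^ 2 ≤ P2
  hcol : ∀ v, ∑ u ∈ S, ph u v ^ 2 ≤ 3 * R
  hrow : ∀ u, ∑ v ∈ S, ph u v ^ 2 ≤ 3 * R
  hph : ∑ u ∈ S, ∑ v ∈ S, ph u v ^ 2 ≤ A

namespace Dat
variable {S : Finset ι} {q ro pb : ι → ℝ} {ph : ι → ι → ℝ} {m R Q P P2 A : ℝ}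
variable (d : Dat S q ro pb ph m R Q P P2 A)
include d

theorem Q0 : 0 ≤ Q := (sum_nonneg fun a _ => d.q0 a).trans d.hq
theorem P0 : 0 ≤ P := (sum_nonneg fun a _ => sq_nonneg _).trans d.hro2
theorem P20 : 0 ≤ P2 := (sum_nonneg fun a _ => sq_nonneg _).trans d.hpb
theorem sq_q : ∑ a ∈ S, √(q a) ^ 2 ≤ Q := by
  simpa only [Real.sq_sqrt (d.q0 _)] using d.hq
theorem sq_ro : ∑ a ∈ S, √(ro a) ^ 2 ≤ 3 * m := by
  simpa only [Real.sq_sqrt (d.ro0 _)] using d.hro1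
theorem sq_one : ∑ _a ∈ S, (1 : ℝ) ^ 2 ≤ m := by
  simp [d.m_eq]

theorem t1 : ∑ u ∈ S, ∑ v ∈ S, (√(q u) * ro u + ro u ^ 2) * ro v ^ 2 ≤ (√Q * √P + P) * P := by
  refine prod_le S (fun u => √(q u) * ro u + ro u ^ 2) (fun v => ro v ^ 2) ?_ d.hro2
    (fun a => add_nonneg (mul_nonneg (Real.sqrt_nonneg _) (d.ro0 a)) (sq_nonneg _))
    (fun a => sq_nonneg _)
  rw [sum_add_distrib]
  exact add_le_add (cs S _ _ d.sq_q d.hro2) d.hro2

theorem t2 : ∑ u ∈ S, ∑ v ∈ S, ph u v * ro u * q v ≤ √(3 * R) * √P * Q := by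
  rw [sum_comm]
  calc ∑ v ∈ S, ∑ u ∈ S, ph u v * ro u * q v ≤ ∑ v ∈ S, √(3 * R) * √P * q v := by
        refine sum_le_sum fun v _ => ?_
        rw [← sum_mul]
        exact mul_le_mul_of_nonneg_right (cs S _ _ (d.hcol v) d.hro2) (d.q0 v)
    _ ≤ _ := by
        rw [← mul_sum]
        exact mul_le_mul_of_nonneg_left d.hq (by positivity)

theorem t3 : ∑ u ∈ S, ∑ v ∈ S, pb v * ro u * √(q u * q v) ≤ (√Q * √P) * (√P2 * √Q) := by
  have h := prod_le S (fun u => √(q u) * ro u) (fun v => pb v * √(q v))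
    (cs S _ _ d.sq_q d.hro2) (cs S _ _ d.hpb d.sq_q)
    (fun a => mul_nonneg (Real.sqrt_nonneg _) (d.ro0 a))
    (fun a => mul_nonneg (d.pb0 a) (Real.sqrt_nonneg _))
  refine le_trans (le_of_eq ?_) h
  refine sum_congr rfl fun u _ => sum_congr rfl fun v _ => ?_
  rw [Real.sqrt_mul (d.q0 u)]; ring

theorem t4 : ∑ u ∈ S, ∑ v ∈ S, √R * pb v * ro v * (q u + ro u ^ 2)
    ≤ √R * ((Q + P) * (√P2 * √P)) := by
  have h := prod_le S (fun u => q u + ro u ^ 2) (fun v => pb v * ro v) (X := Q + P)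
    (by rw [sum_add_distrib]; exact add_le_add d.hq d.hro2) (cs S _ _ d.hpb d.hro2)
    (fun a => add_nonneg (d.q0 a) (sq_nonneg _)) (fun a => mul_nonneg (d.pb0 a) (d.ro0 a))
  refine le_trans (le_of_eq ?_) (mul_le_mul_of_nonneg_left h (Real.sqrt_nonneg R))
  rw [mul_sum]
  refine sum_congr rfl fun u _ => ?_
  rw [mul_sum]
  exact sum_congr rfl fun v _ => by ring

theorem t5 {C : ℝ} (hC : 0 ≤ C) : ∑ u ∈ S, ∑ v ∈ S, C * pb v ^ 2 * q u ≤ C * (Q * P2) := by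
  have h := prod_le S q (fun v => pb v ^ 2) d.hq d.hpb d.q0 (fun a => sq_nonneg _)
  refine le_trans (le_of_eq ?_) (mul_le_mul_of_nonneg_left h hC)
  rw [mul_sum]
  refine sum_congr rfl fun u _ => ?_
  rw [mul_sum]
  exact sum_congr rfl fun v _ => by ring

theorem sq_h : ∑ u ∈ S, ((√(q u) + √(ro u)) * √(ro u)) ^ 2 ≤ 2 * (R * Q + P) := by
  have h1 : ∀ u, ((√(q u) + √(ro u)) * √(ro u)) ^ 2 ≤ 2 * (R * q u) + 2 * ro u ^ 2 := by
    intro u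
    have a1 := Real.sq_sqrt (d.q0 u)
    have a2 := Real.sq_sqrt (d.ro0 u)
    have a3 : (√(q u) + √(ro u)) ^ 2 ≤ 2 * q u + 2 * ro u := by
      nlinarith [sq_nonneg (√(q u) - √(ro u))]
    rw [mul_pow, a2]
    have a4 := mul_le_mul_of_nonneg_right a3 (d.ro0 u)
    have a5 := mul_le_mul_of_nonneg_left (d.hroR u) (d.q0 u)
    nlinarith
  refine (sum_le_sum fun u _ => h1 u).trans ?_
  rw [sum_add_distrib, ← mul_sum, ← mul_sum, ← mul_sum]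
  have := mul_le_mul_of_nonneg_left d.hq d.R_pos.le
  have := d.hro2
  linarith

theorem t6 {L : ℝ} (hL : 0 ≤ L) :
    ∑ u ∈ S, ∑ v ∈ S, L * (ph u v + pb u + pb v) * (√(q u) + √(ro u)) * √(ro u * ro v)
      ≤ L * (√A * √(2 * (R * Q + P) * (3 * m))
        + (√P2 * √(2 * (R * Q + P))) * (√m * √(3 * m))
        + (√m * √(2 * (R * Q + P))) * (√P2 * √(3 * m))) := by
  set h : ι → ℝ := fun u => (√(q u) + √(ro u)) * √(ro u) with hh
  have h0 : ∀ u, 0 ≤ h u := fun u => by simp only [hh]; positivity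
  have hs : ∑ u ∈ S, h u ^ 2 ≤ 2 * (R * Q + P) := d.sq_h
  have a1 : ∑ u ∈ S, ∑ v ∈ S, ph u v * (h u * √(ro v)) ≤ √A * √(2 * (R * Q + P) * (3 * m)) := by
    refine cs2 S _ _ d.hph ?_
    simp only [mul_pow]
    exact prod_le S (fun u => h u ^ 2) (fun v => √(ro v) ^ 2) hs d.sq_ro (fun _ => sq_nonneg _)
      (fun _ => sq_nonneg _)
  have a2 := prod_le S (fun u => pb u * h u) (fun v => 1 * √(ro v)) (cs S _ _ d.hpb hs)
    (cs S _ _ d.sq_one d.sq_ro) (fun a => mul_nonneg (d.pb0 a) (h0 a)) (fun a => by positivity)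
  have a3 := prod_le S (fun u => 1 * h u) (fun v => pb v * √(ro v)) (cs S _ _ d.sq_one hs)
    (cs S _ _ d.hpb d.sq_ro) (fun a => by simpa using h0 a)
    (fun a => mul_nonneg (d.pb0 a) (Real.sqrt_nonneg _))
  refine le_trans (le_of_eq ?_) (mul_le_mul_of_nonneg_left (add_le_add (add_le_add a1 a2) a3) hL)
  rw [← sum_add_distrib, ← sum_add_distrib, mul_sum]
  refine sum_congr rfl fun u _ => ?_
  rw [← sum_add_distrib, ← sum_add_distrib, mul_sum]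
  refine sum_congr rfl fun v _ => ?_
  rw [Real.sqrt_mul (d.ro0 u)]
  simp only [hh]
  ring

theorem t7 {L : ℝ} (hL : 0 ≤ L) :
    ∑ u ∈ S, ∑ v ∈ S, L * (1 / m + pb v * ph u v) * q u ≤ L * ((1 + √P2 * √(3 * R)) * Q) := by
  calc ∑ u ∈ S, ∑ v ∈ S, L * (1 / m + pb v * ph u v) * q u
      ≤ ∑ u ∈ S, L * ((1 + √P2 * √(3 * R)) * q u) := by
        refine sum_le_sum fun u _ => ?_
        rw [← sum_mul, ← mul_sum, mul_assoc]
        refine mul_le_mul_of_nonneg_left (mul_le_mul_of_nonneg_right ?_ (d.q0 u)) hL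
        rw [sum_add_distrib, sum_const, nsmul_eq_mul, d.m_eq, mul_one_div_cancel d.m_pos.ne']
        exact add_le_add le_rfl (cs S _ _ d.hpb (d.hrow u))
    _ ≤ _ := by
        rw [← mul_sum, ← mul_sum]
        exact mul_le_mul_of_nonneg_left (mul_le_mul_of_nonneg_left d.hq (by positivity)) hL

theorem t8 : ∑ u ∈ S, ∑ v ∈ S, ro u * q v / R ≤ 3 * m * Q / R := by
  have h := prod_le S ro q d.hro1 d.hq d.ro0 d.q0
  refine le_trans (le_of_eq ?_) (div_le_div_of_nonneg_right h d.R_pos.le)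
  rw [sum_div]
  exact sum_congr rfl fun u _ => by rw [sum_div]

theorem t9 : ∑ u ∈ S, ∑ v ∈ S, R ^ 3 * pb v ^ 2 * ro u ^ 2 ≤ R ^ 3 * (P * P2) := by
  have h := prod_le S (fun u => ro u ^ 2) (fun v => pb v ^ 2) d.hro2 d.hpb (fun a => sq_nonneg _)
    (fun a => sq_nonneg _)
  refine le_trans (le_of_eq ?_) (mul_le_mul_of_nonneg_left h (pow_pos d.R_pos 3).le)
  rw [mul_sum]
  refine sum_congr rfl fun u _ => ?_
  rw [mul_sum]
  exact sum_congr rfl fun v _ => by ring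

theorem t10 {C : ℝ} (hC : 0 ≤ C) : ∑ u ∈ S, ∑ _v ∈ S, C * ro u / m ≤ C * (3 * m) := by
  have e : ∀ u, ∑ _v ∈ S, C * ro u / m = C * ro u := fun u => by
    rw [sum_const, nsmul_eq_mul, d.m_eq]
    field_simp [d.m_pos.ne']
  simp only [e]
  rw [← mul_sum]
  exact mul_le_mul_of_nonneg_left d.hro1 hC

theorem sq_qq : ∑ u ∈ S, ∑ v ∈ S, √(q u * q v) ^ 2 ≤ Q ^ 2 := by
  have h := prod_le S q q d.hq d.hq d.q0 d.q0
  rw [sq Q]
  refine le_trans (le_of_eq ?_) h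
  exact sum_congr rfl fun u _ => sum_congr rfl fun v _ =>
    Real.sq_sqrt (mul_nonneg (d.q0 u) (d.q0 v))

theorem t11 {o : ι → ι → ℝ} {O : ℝ} (ho : ∑ u ∈ S, ∑ v ∈ S, o u v ^ 2 ≤ O) :
    ∑ u ∈ S, ∑ v ∈ S, o u v * √(q u * q v) ≤ √O * Q := by
  have h := cs2 S o (fun u v => √(q u * q v)) ho d.sq_qq
  rwa [Real.sqrt_sq d.Q0] at h

theorem t13 {L : ℝ} (hL : 0 ≤ L) :
    ∑ u ∈ S, ∑ v ∈ S, L * ph u v * √(q u * q v) ≤ L * (√A * Q) := by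
  refine le_trans (le_of_eq ?_) (mul_le_mul_of_nonneg_left (d.t11 d.hph) hL)
  rw [mul_sum]
  refine sum_congr rfl fun u _ => ?_
  rw [mul_sum]
  exact sum_congr rfl fun v _ => by ring

end Dat

end Crest.Agent.R62.Err4X
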