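import Crest.Agent.R62.Der
import Crest.Agent.R62.Err4A

set_option autoImplicit false
set_option linter.unusedSectionVars false

open Finset Matrix

namespace Crest.Agent.R62

variable {ι : Type} [Fintype ι] [DecidableEq ι]

namespace Err4X
open GenMX

theorem frob (S : Finset ι) (A : Matrix ι ι ℝ) :
    ∑ u ∈ S, ∑ v ∈ S, A u v ^ 2 ≤ (Aᵀ * A).trace := by
  rw [trace_eq, sum_comm]
  simp only [gram_diag]
  refine le_trans (sum_le_sum fun v _ => sum_le_univ_sum_of_nonneg fun u => sq_nonneg _) ?_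
  exact sum_le_univ_sum_of_nonneg fun v => sum_nonneg fun u _ => sq_nonneg _

theorem frob' (S : Finset ι) (A : Matrix ι ι ℝ) :
    ∑ u ∈ S, ∑ v ∈ S, A v u ^ 2 ≤ (Aᵀ * A).trace := by
  rw [sum_comm]; exact frob S A

theorem op_frob {L : ℝ} {F : Matrix ι ι ℝ} (h : OpB L F) (A : Matrix ι ι ℝ) :
    ((F * A)ᵀ * (F * A)).trace ≤ L ^ 2 * (Aᵀ * A).trace := by
  rw [trace_eq, trace_eq, mul_sum]
  exact sum_le_sum fun u _ => h.diag A u

variable {S : Finset ι} {F G : Matrix ι ι ℝ}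

theorem gram_eq (hF : Mat S F) (hG : Mat S G) : (G * F)ᵀ * (G * F) = F * G * G * F := by
  rw [Matrix.transpose_mul, hF.transpose, hG.transpose]
  simp only [Matrix.mul_assoc]

theorem fggf_nonneg (hF : Mat S F) (hG : Mat S G) (a : ι) : 0 ≤ (F * G * G * F) a a := by
  rw [← gram_eq hF hG]; exact diag_gram_nonneg _ a

theorem tr_fggf (hF : Mat S F) (hG : Mat S G) : (F * G * G * F).trace = c22 F G := by
  rw [← gram_eq hF hG, ← hG.c22_eq hF, c22_comm]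

theorem sum_fggf (hF : Mat S F) (hG : Mat S G) : ∑ a ∈ S, (F * G * G * F) a a = c22 F G := by
  rw [← tr_fggf hF hG, Matrix.mul_assoc, Matrix.mul_assoc, hF.trace_mul]

theorem c22_self (F : Matrix ι ι ℝ) : c22 F F = a4 F := rfl

theorem qq_nonneg (hF : Mat S F) (hG : Mat S G) (a : ι) : 0 ≤ qq F G a :=
  add_nonneg (add_nonneg (add_nonneg (fggf_nonneg hF hF a) (fggf_nonneg hF hG a))
    (fggf_nonneg hG hF a)) (fggf_nonneg hG hG a)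

theorem sum_qq (hF : Mat S F) (hG : Mat S G) :
    ∑ a ∈ S, qq F G a = a4 F + c22 F G + c22 F G + a4 G := by
  unfold qq
  rw [sum_add_distrib, sum_add_distrib, sum_add_distrib, sum_fggf hF hF, sum_fggf hF hG,
    sum_fggf hG hF, sum_fggf hG hG, c22_comm G F]
  rfl

theorem c22_le (hF : Mat S F) (hG : Mat S G) {T : ℝ} (h1 : a4 F ≤ T) (h2 : a4 G ≤ T) :
    c22 F G ≤ T := by
  have h0 := hF.a4_nonneg
  have h3 := hF.c22_sq_le hG
  have h4 : a4 F * a4 G ≤ T * T := mul_le_mul h1 h2 hG.a4_nonneg (h0.trans h1)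
  exact le_of_sq_le_sq (by nlinarith) (h0.trans h1)

theorem ro_nonneg (hF : Mat S F) (hG : Mat S G) (a : ι) : 0 ≤ ro F G a := by
  have := hF.rr_nonneg a
  have := hG.rr_nonneg a
  unfold ro rb; linarith

theorem row_le (hF : Mat S F) (u : ι) : ∑ v ∈ S, F u v ^ 2 ≤ rr F u := by
  rw [hF.rr_eq]
  exact sum_le_univ_sum_of_nonneg fun v => sq_nonneg _

theorem sq3 (x y z : ℝ) : (|x| + |y| + z) ^ 2 ≤ 3 * x ^ 2 + 3 * y ^ 2 + 3 * z ^ 2 := by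
  rw [← sq_abs x, ← sq_abs y]
  nlinarith [sq_nonneg (|x| - |y|), sq_nonneg (|x| - z), sq_nonneg (|y| - z)]

theorem sq4 (x y z t : ℝ) :
    (|x| + |y| + |z| + |t|) ^ 2 ≤ 4 * x ^ 2 + 4 * y ^ 2 + 4 * z ^ 2 + 4 * t ^ 2 := by
  rw [← sq_abs x, ← sq_abs y, ← sq_abs z, ← sq_abs t]
  nlinarith [sq_nonneg (|x| - |y|), sq_nonneg (|x| - |z|), sq_nonneg (|x| - |t|),
    sq_nonneg (|y| - |z|), sq_nonneg (|y| - |t|), sq_nonneg (|z| - |t|)]

theorem phb_symm (hF : Mat S F) (hG : Mat S G) (u v : ι) : phb S F G u v = phb S F G v u := by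
  unfold phb; rw [hF.symm u v, hG.symm u v]

theorem sum4 (S : Finset ι) (f g h k : ι → ι → ℝ) :
    ∑ u ∈ S, ∑ v ∈ S, (4 * f u v + 4 * g u v + 4 * h u v + 4 * k u v)
      = 4 * ∑ u ∈ S, ∑ v ∈ S, f u v + 4 * ∑ u ∈ S, ∑ v ∈ S, g u v
        + 4 * ∑ u ∈ S, ∑ v ∈ S, h u v + 4 * ∑ u ∈ S, ∑ v ∈ S, k u v := by
  simp only [sum_add_distrib, mul_sum]

theorem o2_sum (hF : Mat S F) (hG : Mat S G) {T : ℝ} (h1 : a4 F ≤ T) (h2 : a4 G ≤ T) :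
    ∑ u ∈ S, ∑ v ∈ S, o2 F G u v ^ 2 ≤ 16 * T := by
  refine le_trans (sum_le_sum fun u _ => sum_le_sum fun v _ => sq4 _ _ _ _) ?_
  rw [sum4 S (fun u v => (F * F) u v ^ 2) (fun u v => (F * G) u v ^ 2) (fun u v => (G * F) u v ^ 2)
    (fun u v => (G * G) u v ^ 2)]
  have a1 := frob S (F * F)
  have a2 := frob S (F * G)
  have a3 := frob S (G * F)
  have a4' := frob S (G * G)
  rw [← hF.c22_eq hF, c22_self] at a1
  rw [← hF.c22_eq hG] at a2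
  rw [← hG.c22_eq hF, c22_comm] at a3
  rw [← hG.c22_eq hG, c22_self] at a4'
  have := c22_le hF hG h1 h2
  linarith

theorem o3_sum (hF : Mat S F) (hG : Mat S G) {T L : ℝ} (h1 : a4 F ≤ T) (h2 : a4 G ≤ T)
    (oF : OpB L F) (oG : OpB L G) :
    ∑ u ∈ S, ∑ v ∈ S, o3 F G u v ^ 2 ≤ L ^ 2 * (16 * T) := by
  refine le_trans (sum_le_sum fun u _ => sum_le_sum fun v _ => sq4 _ _ _ _) ?_
  rw [sum4 S (fun u v => (F * F * G) u v ^ 2) (fun u v => (F * F * G) v u ^ 2)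
    (fun u v => (G * G * F) u v ^ 2) (fun u v => (G * G * F) v u ^ 2)]
  have a1 := frob S (F * F * G)
  have a2 := frob' S (F * F * G)
  have a3 := frob S (G * G * F)
  have a4' := frob' S (G * G * F)
  have b1 := op_frob oF (F * G)
  have b2 := op_frob oG (G * F)
  rw [← hF.c22_eq hG, ← Matrix.mul_assoc F F G] at b1
  rw [← hG.c22_eq hF, c22_comm, ← Matrix.mul_assoc G G F] at b2
  have b3 := mul_le_mul_of_nonneg_left (c22_le hF hG h1 h2) (sq_nonneg L)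
  linarith

/-- The facts on one matrix used in the error sum. -/
structure Fx (c : Ctx ι) (H : Matrix ι ι ℝ) : Prop where
  mat : Mat c.S H
  op : OpB c.L H
  a2m : a2 H ≤ c.m
  a4T : a4 H ≤ c.p.T4 c.m
  R2l : Le c.p.K (R2 c.S H) (c.μ + 13)
  R2X : c.p.phX c.m → R2 c.S H ≤ 4 * c.m
  D2T : D2 c.S H ≤ c.p.TD c.m
  rr4 : ∀ a, rr H a ≤ √(√(c.p.TR4 c.m))

variable {c : Ctx ι}

theorem fx_F (hK : Big c.p.K) : Fx c c.F :=
  ⟨c.oF.mat, Ctx.opB hK, Ctx.a2_le_m hK, c.oF.a4_T, Ctx.le_R2 hK, Ctx.R2_le_X hK, c.oF.D2_T,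
    Ctx.rr_le_of hK c.oF⟩

theorem fx_G (hK : Big c.p.K) : Fx c c.G :=
  ⟨c.oG.mat, Ctx.opB_G hK, Ctx.a2_le_m (c := c.swap) hK, c.oG.a4_T, Ctx.le_R2 (c := c.swap) hK,
    Ctx.R2_le_X (c := c.swap) hK, c.oG.D2_T, Ctx.rr_le_of hK c.oG⟩

theorem ro_le_R (hK : Big c.p.K) (hF : Fx c F) (hG : Fx c G) (a : ι) : ro F G a ≤ c.R := by
  have h1 := hF.rr4 a
  have h2 := hG.rr4 a
  have h3 : 1 ≤ √(√(c.p.TR4 c.m)) := by
    apply Ctx.le_sqrt_sqrt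
    rw [one_pow]
    have := Ctx.ϱ_lo hK
    exact Le.le_of_ge hK Le.one (Ctx.sz_TR4 hK).1 (by linarith)
  unfold ro rb Ctx.R Par.R
  linarith

theorem inv_m_le (hK : Big c.p.K) : 1 / c.m ≤ c.p.TD c.m := by
  have := Ctx.μ_lo hK
  refine Le.le_of_ge hK (Le.inv hK (Ctx.ge_m hK)) (Ctx.sz_TD hK).1 ?_
  rcases c.cases_W with ⟨_, h, _⟩ | ⟨_, h, _⟩ <;> rw [h] <;> linarith

theorem dat (hK : Big c.p.K) (hF : Fx c F) (hG : Fx c G) :
    Dat c.S (qq F G) (ro F G) (pb c.S F G) (phb c.S F G) c.m c.R (4 * c.p.T4 c.m)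
      (3 * (c.m + R2 c.S F + R2 c.S G)) (9 * c.p.TD c.m) (9 * c.m) := by
  have hm := Ctx.m_pos hK
  have hm1 : 1 ≤ c.m := le_trans (by norm_num) (Ctx.m_big hK)
  have hcard : (c.S.card : ℝ) = c.m := rfl
  have hinv : (c.S.card : ℝ) * (3 * (1 / c.m) ^ 2) = 3 * (1 / c.m) := by
    rw [hcard]; field_simp
  have hinv1 : 1 / c.m ≤ 1 := by rw [div_le_one hm]; exact hm1
  have hrow : ∀ u, ∑ v ∈ c.S, phb c.S F G u v ^ 2 ≤ 3 * rr F u + 3 * rr G u + 3 * (1 / c.m) := by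
    intro u
    refine le_trans (sum_le_sum fun v _ => sq3 _ _ _) ?_
    rw [sum_add_distrib, sum_add_distrib, ← mul_sum, ← mul_sum, sum_const, nsmul_eq_mul, hcard]
    rw [hcard] at hinv
    rw [hinv]
    have := row_le hF.mat u
    have := row_le hG.mat u
    linarith
  have hrow' : ∀ u, ∑ v ∈ c.S, phb c.S F G u v ^ 2 ≤ 3 * c.R := by
    intro u
    have h1 := hrow u
    have h2 := ro_le_R hK hF hG u
    unfold ro rb at h2
    linarith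
  refine ⟨rfl, hm, (Ctx.sz_R hK).1.pos hK, qq_nonneg hF.mat hG.mat, ro_nonneg hF.mat hG.mat,
    fun a => ?_, fun u v => ?_, ?_, ?_, ?_, ro_le_R hK hF hG, ?_, fun v => ?_, hrow', ?_⟩
  · unfold pb; rw [hcard]; positivity
  · unfold phb; rw [hcard]; positivity
  · rw [sum_qq hF.mat hG.mat]
    have := c22_le hF.mat hG.mat hF.a4T hG.a4T
    have := hF.a4T
    have := hG.a4T
    linarith
  · unfold ro rb
    rw [sum_add_distrib, sum_add_distrib, ← hF.mat.a2_eq, ← hG.mat.a2_eq, sum_const, nsmul_eq_mul,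
      hcard]
    have := hF.a2m
    have := hG.a2m
    linarith
  · have h1 : ∀ a, ro F G a ^ 2 ≤ 3 * (1 + rr F a ^ 2 + rr G a ^ 2) := fun a => by
      unfold ro rb
      nlinarith [sq_nonneg (1 - rr F a), sq_nonneg (1 - rr G a), sq_nonneg (rr F a - rr G a)]
    refine le_trans (sum_le_sum fun a _ => h1 a) (le_of_eq ?_)
    rw [← mul_sum, sum_add_distrib, sum_add_distrib, sum_const, nsmul_eq_mul, hcard, mul_one]
    rfl
  · refine le_trans (sum_le_sum fun a _ => sq3 _ _ _) ?_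
    rw [sum_add_distrib, sum_add_distrib, ← mul_sum, ← mul_sum, sum_const, nsmul_eq_mul, hcard]
    rw [hcard] at hinv
    rw [hinv]
    have h1 := hF.D2T
    have h2 := hG.D2T
    have h3 := inv_m_le hK
    unfold D2 at h1 h2
    linarith
  · simp only [phb_symm hF.mat hG.mat _ v]
    exact hrow' v
  · refine le_trans (sum_le_sum fun u _ => hrow u) ?_
    rw [sum_add_distrib, sum_add_distrib, ← mul_sum, ← mul_sum, ← hF.mat.a2_eq, ← hG.mat.a2_eq,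
      sum_const, nsmul_eq_mul, hcard]
    have h1 := hF.a2m
    have h2 := hG.a2m
    have h3 : c.m * (3 * (1 / c.m)) = 3 := by field_simp
    rw [h3]
    linarith

theorem half4_nonneg (hK : Big c.p.K) (hF : Fx c F) (hG : Fx c G) (u v : ι) :
    0 ≤ half4 c.L c.R c.S F G u v := by
  have d := dat hK hF hG
  have h1 := d.q0 u
  have h2 := d.q0 v
  have h3 := d.ro0 u
  have h4 := d.ro0 v
  have h5 := d.pb0 u
  have h6 := d.pb0 v
  have h7 := d.ph0 u v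
  have h8 := d.R_pos
  have h9 : 0 ≤ c.L := le_trans zero_le_one (Ctx.one_le_L hK)
  unfold half4
  positivity

theorem err4_nonneg (hK : Big c.p.K) (hF : Fx c F) (hG : Fx c G) (u v : ι) :
    0 ≤ err4 c.L c.R c.S F G u v := by
  have d := dat hK hF hG
  have h1 := half4_nonneg hK hF hG u v
  have h2 := half4_nonneg hK hF hG v u
  have h7 := d.ph0 u v
  have h9 : 0 ≤ c.L := le_trans zero_le_one (Ctx.one_le_L hK)
  have h3 : 0 ≤ o2 F G u v := by unfold o2; positivity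
  unfold err4
  positivity

theorem err4_gen (hK : Big c.p.K) (hF : Fx c F) (hG : Fx c G) {π g : ℝ}
    (hP : Le c.p.K (3 * (c.m + R2 c.S F + R2 c.S G)) π) (hπ : π ≤ c.μ + 14)
    (h1 : c.τ / 2 + 3 / 2 * π + 1 / 10 ≤ g) (h2 : 2 * π + 1 / 10 ≤ g)
    (h3 : (7195 < c.μ ∧ c.μ + c.τ - 146 ≤ g) ∨ c.μ + c.τ - 2 ≤ g) :
    Le c.p.K (∑ u ∈ c.S, ∑ v ∈ c.S, err4 c.L c.R c.S F G u v) (g + 1 / 50) := by
  have d := dat hK hF hG
  have hL0 : 0 ≤ c.L := le_trans zero_le_one (Ctx.one_le_L hK)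
  have hR0 := d.R_pos
  have hm0 := d.m_pos
  have hQ0 := d.Q0
  have hP0 := d.P0
  have hP20 := d.P20
  have hT0 : 0 < c.p.T4 c.m := (Ctx.sz_T4 hK).1.pos hK
  have lQ : Le c.p.K (4 * c.p.T4 c.m) (c.τ + 1 / 100 + 1 / 100) :=
    Le.cmul hK (Ctx.sz_T4 hK).2 (by norm_num) (by norm_num)
  have lT : Le c.p.K (16 * c.p.T4 c.m) (c.τ + 1 / 100 + 1 / 100 + 1 / 100) :=
    (Le.cmul hK lQ (C := 4) (by norm_num) (by norm_num)).of_le (by linarith)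
  have lP2 : Le c.p.K (9 * c.p.TD c.m) (450 + c.ϱ + 1 / 100 + 1 / 100) :=
    Le.cmul hK (Ctx.sz_TD hK).2 (by norm_num) (by norm_num)
  have lm := Ctx.le_m hK
  have lA : Le c.p.K (9 * c.m) (c.μ + 1 / 100) := Le.cmul hK lm (by norm_num) (by norm_num)
  have l3m : Le c.p.K (3 * c.m) (c.μ + 1 / 100) := Le.cmul hK lm (by norm_num) (by norm_num)
  have lR := (Ctx.sz_R hK).2
  have gR := (Ctx.sz_R hK).1
  have l3R : Le c.p.K (3 * c.R) (2525 + c.ϱ / 2 + 1 / 100 + 1 / 100) :=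
    Le.cmul hK lR (by norm_num) (by norm_num)
  have lL := (Ctx.sz_L hK).2
  have μ1 := Ctx.μ_lo hK
  have μ2 := Ctx.μ_hi hK
  have hc : ((6700 ≤ c.μ ∧ c.ϱ = 0 ∧ c.τ = 20004 - c.μ) ∧ 7195 < c.μ ∧ c.μ + c.τ - 146 ≤ g)
      ∨ ((6700 ≤ c.μ ∧ c.ϱ = 0 ∧ c.τ = 20004 - c.μ) ∧ c.μ + c.τ - 2 ≤ g)
      ∨ ((c.μ ≤ 6700 ∧ c.ϱ = c.μ - 6700 ∧ c.τ = 2 * c.μ - 96) ∧ c.μ + c.τ - 2 ≤ g) := by
    rcases c.cases_W with h | h <;> rcases h3 with h3 | h3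
    · exact Or.inl ⟨h, h3⟩
    · exact Or.inr (Or.inl ⟨h, h3⟩)
    · exfalso; linarith [h.1, h3.1]
    · exact Or.inr (Or.inr ⟨h, h3⟩)
  set Q := 4 * c.p.T4 c.m with hQ
  set P := 3 * (c.m + R2 c.S F + R2 c.S G) with hPd
  set P2 := 9 * c.p.TD c.m with hP2
  have lH : Le c.p.K (2 * (c.R * Q + P)) (2525 + c.ϱ / 2 + c.τ + 1 / 10) := by
    refine (Le.cmul hK (Le.add hK (Le.mul hK lR lQ hQ0) hP (g := 2525 + c.ϱ / 2 + c.τ + 1 / 20)
      (by linarith) ?_) (by norm_num) (by norm_num)).mono hK (by linarith)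
    rcases hc with ⟨⟨a1, a2, a3⟩, a4, a5⟩ | ⟨⟨a1, a2, a3⟩, a4⟩ | ⟨⟨a1, a2, a3⟩, a4⟩ <;> linarith
  have b1 : Le c.p.K ((√Q * √P + P) * P) g :=
    (Le.mul hK (Le.add hK (Le.mul hK (lQ.sqrt hK) (hP.sqrt hK) (Real.sqrt_nonneg _)) hP
      (g := g - π - 1 / 100) (by linarith) (by linarith)) hP hP0).mono hK (by linarith)
  have b2 : Le c.p.K (√(3 * c.R) * √P * Q) g := by
    refine (Le.mul hK (Le.mul hK (l3R.sqrt hK) (hP.sqrt hK) (Real.sqrt_nonneg _)) lQ hQ0).mono hK ?_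
    rcases hc with ⟨⟨a1, a2, a3⟩, a4, a5⟩ | ⟨⟨a1, a2, a3⟩, a4⟩ | ⟨⟨a1, a2, a3⟩, a4⟩ <;> linarith
  have b3 : Le c.p.K ((√Q * √P) * (√P2 * √Q)) g := by
    refine (Le.mul hK (Le.mul hK (lQ.sqrt hK) (hP.sqrt hK) (Real.sqrt_nonneg _))
      (Le.mul hK (lP2.sqrt hK) (lQ.sqrt hK) (Real.sqrt_nonneg _)) (by positivity)).mono hK ?_
    rcases hc with ⟨⟨a1, a2, a3⟩, a4, a5⟩ | ⟨⟨a1, a2, a3⟩, a4⟩ | ⟨⟨a1, a2, a3⟩, a4⟩ <;> linarith
  have b4 : Le c.p.K (√c.R * ((Q + P) * (√P2 * √P))) g := by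
    refine (Le.mul hK (lR.sqrt hK) (Le.mul hK (Le.add hK lQ hP (g := c.τ + 14) (by linarith) ?_)
      (Le.mul hK (lP2.sqrt hK) (hP.sqrt hK) (Real.sqrt_nonneg _)) (by positivity))
      (by positivity)).mono hK ?_ <;>
    rcases hc with ⟨⟨a1, a2, a3⟩, a4, a5⟩ | ⟨⟨a1, a2, a3⟩, a4⟩ | ⟨⟨a1, a2, a3⟩, a4⟩ <;> linarith
  have b5 : Le c.p.K ((c.R + c.L) * (Q * P2)) g := by
    refine (Le.mul hK (Le.add hK lR lL (g := g - c.τ - 451 - c.ϱ) ?_ ?_)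
      (Le.mul hK lQ lP2 hP20) (by positivity)).mono hK (by linarith) <;>
    rcases hc with ⟨⟨a1, a2, a3⟩, a4, a5⟩ | ⟨⟨a1, a2, a3⟩, a4⟩ | ⟨⟨a1, a2, a3⟩, a4⟩ <;> linarith
  have b6 : Le c.p.K (c.L * (√(9 * c.m) * √(2 * (c.R * Q + P) * (3 * c.m))
        + (√P2 * √(2 * (c.R * Q + P))) * (√c.m * √(3 * c.m))
        + (√c.m * √(2 * (c.R * Q + P))) * (√P2 * √(3 * c.m)))) g := by
    refine (Le.mul hK lL (Le.add hK (Le.add hK
      (Le.mul hK (lA.sqrt hK) ((Le.mul hK lH l3m (by positivity)).sqrt hK) (Real.sqrt_nonneg _))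
      (Le.mul hK (Le.mul hK (lP2.sqrt hK) (lH.sqrt hK) (Real.sqrt_nonneg _))
        (Le.mul hK (lm.sqrt hK) (l3m.sqrt hK) (Real.sqrt_nonneg _)) (by positivity))
      (g := g - c.τ / 4 - 1) ?_ ?_)
      (Le.mul hK (Le.mul hK (lm.sqrt hK) (lH.sqrt hK) (Real.sqrt_nonneg _))
        (Le.mul hK (lP2.sqrt hK) (l3m.sqrt hK) (Real.sqrt_nonneg _)) (by positivity))
      (g := g - c.τ / 4 - 1 / 2) (by linarith) ?_) (by positivity)).mono hK (by linarith) <;>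
    rcases hc with ⟨⟨a1, a2, a3⟩, a4, a5⟩ | ⟨⟨a1, a2, a3⟩, a4⟩ | ⟨⟨a1, a2, a3⟩, a4⟩ <;> linarith
  have b7 : Le c.p.K (c.L * ((1 + √P2 * √(3 * c.R)) * Q)) g := by
    refine (Le.mul hK lL (Le.mul hK (Le.add hK Le.one
      (Le.mul hK (lP2.sqrt hK) (l3R.sqrt hK) (Real.sqrt_nonneg _)) (g := g - 5 / 4 * c.τ - 1)
      ?_ ?_) lQ hQ0) (by positivity)).mono hK (by linarith) <;>
    rcases hc with ⟨⟨a1, a2, a3⟩, a4, a5⟩ | ⟨⟨a1, a2, a3⟩, a4⟩ | ⟨⟨a1, a2, a3⟩, a4⟩ <;> linarith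
  have b8 : Le c.p.K (3 * c.m * Q / c.R) g := by
    refine (Le.div hK (Le.mul hK l3m lQ hQ0) gR).mono hK ?_
    rcases hc with ⟨⟨a1, a2, a3⟩, a4, a5⟩ | ⟨⟨a1, a2, a3⟩, a4⟩ | ⟨⟨a1, a2, a3⟩, a4⟩ <;> linarith
  have b9 : Le c.p.K (c.R ^ 3 * (P * P2)) g := by
    refine (Le.mul hK (lR.pow hK hR0.le 3) (Le.mul hK hP lP2 hP20) (by positivity)).mono hK ?_
    push_cast
    rcases hc with ⟨⟨a1, a2, a3⟩, a4, a5⟩ | ⟨⟨a1, a2, a3⟩, a4⟩ | ⟨⟨a1, a2, a3⟩, a4⟩ <;> linarith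
  have b10 : Le c.p.K ((c.L ^ 2 + c.R ^ 2) * (3 * c.m)) g := by
    refine (Le.mul hK (Le.add hK (lL.pow hK hL0 2) (lR.pow hK hR0.le 2) (g := g - c.μ - 1) ?_ ?_)
      l3m (by positivity)).mono hK (by linarith) <;> push_cast <;>
    rcases hc with ⟨⟨a1, a2, a3⟩, a4, a5⟩ | ⟨⟨a1, a2, a3⟩, a4⟩ | ⟨⟨a1, a2, a3⟩, a4⟩ <;> linarith
  have b11 : Le c.p.K (√(16 * c.p.T4 c.m) * Q) g := by
    refine (Le.mul hK (lT.sqrt hK) lQ hQ0).mono hK ?_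
    rcases hc with ⟨⟨a1, a2, a3⟩, a4, a5⟩ | ⟨⟨a1, a2, a3⟩, a4⟩ | ⟨⟨a1, a2, a3⟩, a4⟩ <;> linarith
  have b12 : Le c.p.K (c.L ^ 2 * (16 * c.p.T4 c.m)) g := by
    refine (Le.mul hK (lL.pow hK hL0 2) lT (by positivity)).mono hK ?_
    push_cast
    rcases hc with ⟨⟨a1, a2, a3⟩, a4, a5⟩ | ⟨⟨a1, a2, a3⟩, a4⟩ | ⟨⟨a1, a2, a3⟩, a4⟩ <;> linarith
  have b13 : Le c.p.K (c.L * (√(9 * c.m) * Q)) g := by
    refine (Le.mul hK lL (Le.mul hK (lA.sqrt hK) lQ hQ0) (by positivity)).mono hK ?_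
    rcases hc with ⟨⟨a1, a2, a3⟩, a4, a5⟩ | ⟨⟨a1, a2, a3⟩, a4⟩ | ⟨⟨a1, a2, a3⟩, a4⟩ <;> linarith
  have hhalf : ∑ u ∈ c.S, ∑ v ∈ c.S, half4 c.L c.R c.S F G u v ≤ 10 * c.p.K ^ g := by
    have s1 := d.t1
    have s2 := d.t2
    have s3 := d.t3
    have s4 := d.t4
    have s5 := d.t5 (C := c.R + c.L) (by positivity)
    have s6 := d.t6 hL0
    have s7 := d.t7 hL0
    have s8 := d.t8
    have s9 := d.t9
    have s10 := d.t10 (C := c.L ^ 2 + c.R ^ 2) (by positivity)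
    unfold Le at b1 b2 b3 b4 b5 b6 b7 b8 b9 b10
    unfold half4
    simp only [sum_add_distrib]
    change _ + _ + _ + _ + _ + _
      + ∑ u ∈ c.S, ∑ v ∈ c.S, c.L * (1 / c.m + pb c.S F G v * phb c.S F G u v) * qq F G u
      + _ + _ + ∑ u ∈ c.S, ∑ _v ∈ c.S, (c.L ^ 2 + c.R ^ 2) * ro F G u / c.m ≤ _
    linarith
  have hhalf' : ∑ u ∈ c.S, ∑ v ∈ c.S, half4 c.L c.R c.S F G v u ≤ 10 * c.p.K ^ g := by
    rw [sum_comm]; exact hhalf
  have s11 := d.t11 (o2_sum hF.mat hG.mat hF.a4T hG.a4T)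
  have s12 := o3_sum hF.mat hG.mat hF.a4T hG.a4T hF.op hG.op
  have s13 := d.t13 hL0
  have fin := Le.cmul hK (Le.cmul hK (show Le c.p.K (c.p.K ^ g) g from le_rfl) (C := 10)
    (by norm_num) le_rfl) (C := 10) (by norm_num) le_rfl
  refine (fin.of_le ?_).mono hK (by linarith)
  have hp := Real.rpow_pos_of_pos hK.pos g
  unfold Le at b11 b12 b13
  unfold err4
  simp only [sum_add_distrib]
  linarith

theorem le_P3 (hK : Big c.p.K) (hF : Fx c F) (hG : Fx c G) :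
    Le c.p.K (3 * (c.m + R2 c.S F + R2 c.S G)) (c.μ + 13 + 1 / 20) :=
  (Le.cmul hK (Le.add hK (Le.add hK (Ctx.le_m hK) hF.R2l (g := c.μ + 13) (by linarith) le_rfl)
    hG.R2l (g := c.μ + 13 + 1 / 100) le_rfl (by linarith)) (by norm_num) (by norm_num)).mono hK
    (by linarith)

theorem le_P3X (hK : Big c.p.K) (hF : Fx c F) (hG : Fx c G) (h : c.p.phX c.m) :
    Le c.p.K (3 * (c.m + R2 c.S F + R2 c.S G)) (c.μ + 1 / 50) := by
  have h1 := hF.R2X h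
  have h2 := hG.R2X h
  have h3 := Le.cmul hK (Le.cmul hK (Ctx.le_m hK) (C := 9) (by norm_num) (by norm_num)) (C := 3)
    (by norm_num) (by norm_num)
  exact (h3.of_le (by linarith)).mono hK (by linarith)

/-- all phases: target `μ + τ` -/
theorem err4_sum (hK : Big c.p.K) (hF : Fx c F) (hG : Fx c G) :
    Le c.p.K (∑ u ∈ c.S, ∑ v ∈ c.S, err4 c.L c.R c.S F G u v) (c.μ + c.τ - 1) := by
  have μ1 := Ctx.μ_lo hK
  have μ2 := Ctx.μ_hi hK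
  by_cases h : c.p.phX c.m
  · have h' := (Ctx.phX_iff hK).1 h
    refine (err4_gen hK hF hG (le_P3X hK hF hG h) (g := c.μ + c.τ - 3 / 2) (by linarith) ?_ ?_
      (Or.inr (by linarith))).mono hK (by linarith) <;>
    rcases c.cases_W with ⟨a1, a2, a3⟩ | ⟨a1, a2, a3⟩ <;> linarith
  · have h' : c.μ ≤ 6710 := not_lt.1 fun h'' => h ((Ctx.phX_iff hK).2 h'')
    refine (err4_gen hK hF hG (le_P3 hK hF hG) (g := c.μ + c.τ - 3 / 2) (by linarith) ?_ ?_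
      (Or.inr (by linarith))).mono hK (by linarith) <;>
    rcases c.cases_W with ⟨a1, a2, a3⟩ | ⟨a1, a2, a3⟩ <;> linarith

/-- phase I: target `μ + T22` -/
theorem err4_sum_I (hK : Big c.p.K) (hF : Fx c F) (hG : Fx c G) (hI : c.p.phI c.m) :
    Le c.p.K (∑ u ∈ c.S, ∑ v ∈ c.S, err4 c.L c.R c.S F G u v)
      (c.μ + max 10004 (19860 - c.μ) - 1) := by
  have μ2 := Ctx.μ_hi hK
  have h' := (Ctx.phI_iff hK).1 hI
  have h : c.p.phX c.m := (Ctx.phX_iff hK).2 (by linarith)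
  have m1 := le_max_left (10004 : ℝ) (19860 - c.μ)
  have m2 := le_max_right (10004 : ℝ) (19860 - c.μ)
  refine (err4_gen hK hF hG (le_P3X hK hF hG h) (g := c.μ + max 10004 (19860 - c.μ) - 3 / 2)
    (by linarith) ?_ ?_ (Or.inl ⟨h', ?_⟩)).mono hK (by linarith) <;>
  rcases c.cases_W with ⟨a1, a2, a3⟩ | ⟨a1, a2, a3⟩ <;> linarith

end Err4X

end Crest.Agent.R62
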