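import Crest.Agent.R62.Mono

set_option autoImplicit false

open Finset Matrix

namespace Crest.Agent.R62

variable {ι V : Type} [Fintype ι] [DecidableEq ι] [Fintype V] [DecidableEq V]

namespace InitA

theorem K0_spec (N : ℕ) : K0 N ^ 10000 ≤ N :=
  Nat.findGreatest_spec (P := fun k => k ^ 10000 ≤ N) (Nat.zero_le N) (by
    rw [zero_pow (by norm_num)]; exact Nat.zero_le N)

theorem le_K0 {N k : ℕ} (h : k ^ 10000 ≤ N) : k ≤ K0 N :=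
  Nat.le_findGreatest ((Nat.le_self_pow (by norm_num) k).trans h) h

theorem lt_K0 (N : ℕ) : N < (K0 N + 1) ^ 10000 :=
  not_le.1 fun h => absurd (le_K0 h) (by omega)

theorem succ_pow_le {k : ℝ} (hk : 20000 ≤ k) (e : ℕ) (he : e ≤ 10000) :
    (k + 1) ^ e ≤ 2 * k ^ e := by
  have hk0 : 0 < k := by linarith
  have h1 : k + 1 ≤ k * Real.exp (1 / k) := by
    have := mul_le_mul_of_nonneg_left (Real.add_one_le_exp (1 / k)) hk0.le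
    rwa [mul_add, mul_one_div_cancel hk0.ne', mul_one, add_comm] at this
  have h2 : Real.exp (1 / k) ^ e ≤ 2 := by
    rw [← Real.exp_nat_mul]
    have h3 : (e : ℝ) * (1 / k) ≤ Real.log 2 := by
      have h4 : (e : ℝ) ≤ 10000 := by exact_mod_cast he
      have h5 := Real.log_two_gt_d9
      rw [mul_one_div, div_le_iff₀ hk0]
      nlinarith
    exact (Real.exp_le_exp.2 h3).trans_eq (Real.exp_log two_pos)
  calc (k + 1) ^ e ≤ (k * Real.exp (1 / k)) ^ e := pow_le_pow_left₀ (by linarith) h1 e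
    _ = k ^ e * Real.exp (1 / k) ^ e := mul_pow _ _ _
    _ ≤ k ^ e * 2 := mul_le_mul_of_nonneg_left h2 (pow_nonneg hk0.le e)
    _ = _ := mul_comm _ _

theorem sqrt_bounds {N W q : ℕ} (hq : 0 < q) (hqN : q ≤ N) (hW : 3 ≤ W) (hWN : 2 * W ≤ N) :
    1 - 3 * (W : ℝ) / N ≤ q * ((Nat.sqrt (N ^ 3 * (N - 2 * W) / q) : ℝ) / (N : ℝ) ^ 2) ^ 2 ∧
    q * ((Nat.sqrt (N ^ 3 * (N - 2 * W) / q) : ℝ) / (N : ℝ) ^ 2) ^ 2 ≤ 1 - 2 * (W : ℝ) / N := by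
  obtain ⟨t, rfl⟩ := Nat.exists_eq_add_of_le hWN
  rw [Nat.add_sub_cancel_left]
  generalize hN : 2 * W + t = N at *
  have hN0 : 0 < N := by omega
  have h1 := Nat.sqrt_le' (N ^ 3 * t / q)
  have h2 := Nat.lt_succ_sqrt' (N ^ 3 * t / q)
  have h3 := Nat.mul_div_le (N ^ 3 * t) q
  have h4 := Nat.lt_mul_div_succ (N ^ 3 * t) hq
  generalize Nat.sqrt (N ^ 3 * t / q) = r at *
  have h5 : q * r ^ 2 ≤ N ^ 3 * t := (Nat.mul_le_mul_left q h1).trans h3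
  have h6 : N ^ 3 * t < q * (r + 1) ^ 2 := h4.trans_le (Nat.mul_le_mul_left q h2)
  have h7 : r ≤ N ^ 2 := by
    refine (Nat.pow_le_pow_iff_left two_ne_zero).1 ?_
    calc r ^ 2 ≤ q * r ^ 2 := Nat.le_mul_of_pos_left _ hq
      _ ≤ N ^ 3 * t := h5
      _ ≤ N ^ 3 * N := Nat.mul_le_mul_left _ (by omega)
      _ = (N ^ 2) ^ 2 := by ring
  have h8 : q * (2 * r + 1) ≤ N ^ 3 * W :=
    calc q * (2 * r + 1) ≤ N * (3 * N ^ 2) := Nat.mul_le_mul hqN (by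
          have := Nat.one_le_pow 2 N hN0
          omega)
      _ = N ^ 3 * 3 := by ring
      _ ≤ N ^ 3 * W := Nat.mul_le_mul_left _ hW
  have h9 : N ^ 3 * t ≤ q * r ^ 2 + N ^ 3 * W := by nlinarith
  have hN' : (0 : ℝ) < N := by exact_mod_cast hN0
  have ht : (t : ℝ) = N - 2 * W := by rw [← hN]; push_cast; ring
  have r5 : (q : ℝ) * r ^ 2 ≤ N ^ 3 * t := by exact_mod_cast h5
  have r9 : (N : ℝ) ^ 3 * t ≤ q * r ^ 2 + N ^ 3 * W := by exact_mod_cast h9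
  rw [ht] at r5 r9
  have e1 : (q : ℝ) * ((r : ℝ) / (N : ℝ) ^ 2) ^ 2 = q * r ^ 2 / N ^ 4 := by
    field_simp
  have e2 : ∀ c : ℝ, 1 - c * (W : ℝ) / N = (N ^ 3 * (N - c * W)) / N ^ 4 := fun c => by
    field_simp
  rw [e1, e2, e2]
  constructor <;> refine div_le_div_of_nonneg_right ?_ (by positivity) <;> linarith

theorem x_le {s q η : ℝ} (hs : 0 < s) (hq : 2 ≤ q) (h0 : 0 ≤ η) (hη : η ≤ 1 / 100)
    (h1 : 1 - 3 * η ≤ q * s ^ 2) (h2 : q * s ^ 2 ≤ 1 - 2 * η) :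
    s * (q + 1) + (1 - s ^ 2) / (s * (1 + 8 * η ^ 2)) ≤ 2 * √q := by
  have ht : √q ^ 2 = q := Real.sq_sqrt (by linarith)
  have ht0 : 0 < √q := Real.sqrt_pos.2 (by linarith)
  generalize √q = t at ht ht0
  subst ht
  have hτ : t ^ 2 * s ^ 2 = (s * t) ^ 2 := by ring
  have hs2 : s ^ 2 ≤ 1 / 2 := by nlinarith
  rw [hτ] at h1 h2
  have hτ0 : 0 < s * t := mul_pos hs ht0
  have he : 0 < 1 + 8 * η ^ 2 := by positivity
  have key : (1 - s * t) ^ 2 * (1 + 8 * η ^ 2) ≤ (1 - s ^ 2) * (8 * η ^ 2) := by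
    generalize s * t = τ at h1 h2 hτ0
    have a1 : τ ≤ 1 := by nlinarith
    have a2 : 9 / 10 ≤ τ := by nlinarith
    have a3 : 1 - τ ≤ 8 / 5 * η := by nlinarith
    have a4 : (1 - τ) ^ 2 ≤ (8 / 5 * η) ^ 2 := pow_le_pow_left₀ (by linarith) a3 2
    have a5 : 1 + 8 * η ^ 2 ≤ 3 / 2 := by nlinarith
    have a6 : (1 - τ) ^ 2 * (1 + 8 * η ^ 2) ≤ (8 / 5 * η) ^ 2 * (3 / 2) :=
      mul_le_mul a4 a5 he.le (by positivity)
    nlinarith [sq_nonneg η]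
  rw [← le_sub_iff_add_le', div_le_iff₀ (mul_pos hs he)]
  nlinarith

theorem a_bounds {s q η : ℝ} (hs : 0 < s) (hq : 2 ≤ q) (h0 : 0 ≤ η) (hη : η ≤ 1 / 100)
    (h1 : 1 - 3 * η ≤ q * s ^ 2) (h2 : q * s ^ 2 ≤ 1 - 2 * η) :
    1 / 2 ≤ q * (q - 1) * s ^ 3 ∧ q * (q - 1) * s ^ 3 ≤ q := by
  have hs2 : s ^ 2 ≤ 1 / 2 := by nlinarith
  have hs1 : s ≤ 1 := by nlinarith
  have e : q * (q - 1) * s ^ 3 = q * s ^ 2 * ((q - 1) * s) := by ring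
  have h3 : 0 ≤ (q - 1) * s := mul_nonneg (by linarith) hs.le
  rw [e]
  constructor
  · have a1 : q * s ^ 2 ≤ 2 * ((q - 1) * s) ^ 2 := by
      rw [mul_pow, ← mul_assoc]
      exact mul_le_mul_of_nonneg_right (by nlinarith) (sq_nonneg s)
    have a2 : 3 / 5 ≤ (q - 1) * s := by nlinarith
    nlinarith
  · have a1 : (q - 1) * s ≤ q := by nlinarith
    nlinarith

end InitA

open InitA

/-- The parameters. -/
theorem init_par (d : ℕ) (hd : 3 ≤ d) (K1 : ℝ) : ∃ n0 : ℕ, ∀ n, n0 ≤ n →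
    K1 ≤ (par0 ℝ n d).K ∧ (par0 ℝ n d).OK ∧ 0 < s0 ℝ n d ∧ s0 ℝ n d ^ 2 ≤ 1 / 2
      ∧ 0 < phi0 ℝ n d ∧ x0 ℝ n d ≤ 2 * √((d : ℝ) - 1)
      ∧ 1 - 3 * (par0 ℝ n d).W / (par0 ℝ n d).N ≤ ((d : ℝ) - 1) * s0 ℝ n d ^ 2
      ∧ ((d : ℝ) - 1) * s0 ℝ n d ^ 2 ≤ 1 - 2 * (par0 ℝ n d).W / (par0 ℝ n d).N := by
  obtain ⟨c, hc⟩ := exists_nat_ge K1
  obtain ⟨n0, hn0⟩ : ∃ n0, ∀ N, n0 ≤ N → c + d + 20000 ≤ K0 N := ⟨_, fun N h => le_K0 h⟩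
  refine ⟨n0 + 1, fun n hn => ?_⟩
  have hnN : n ≤ n * d := Nat.le_mul_of_pos_right n (by omega)
  have hdN : d ≤ n * d := Nat.le_mul_of_pos_left d (by omega)
  have hk := hn0 (n * d) (by omega)
  have h1 := K0_spec (n * d)
  have h2 := lt_K0 (n * d)
  have hW : 100 * K0 (n * d) ^ 6700 ≤ n * d := by
    refine le_trans ?_ h1
    rw [show 10000 = 3300 + 6700 from rfl, pow_add]
    exact Nat.mul_le_mul_right _ (le_trans (by omega) (Nat.le_self_pow (by norm_num) _))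
  have hW3 : 3 ≤ K0 (n * d) ^ 6700 := le_trans (by omega) (Nat.le_self_pow (by norm_num) _)
  obtain ⟨b1, b2⟩ := sqrt_bounds (N := n * d) (W := K0 (n * d) ^ 6700) (q := d - 1) (by omega)
    (by omega) hW3 (by omega)
  have hq : ((d - 1 : ℕ) : ℝ) = (d : ℝ) - 1 := by rw [Nat.cast_sub (by omega), Nat.cast_one]
  rw [hq, Nat.cast_pow] at b1 b2
  have hd' : (3 : ℝ) ≤ d := by exact_mod_cast hd
  have hN0 : (0 : ℝ) < ((n * d : ℕ) : ℝ) := by exact_mod_cast (by omega : 0 < n * d)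
  have hk' : (c : ℝ) + d + 20000 ≤ K0 (n * d) := by exact_mod_cast hk
  have hc0 : (0 : ℝ) ≤ c := Nat.cast_nonneg c
  have r1 : (K0 (n * d) : ℝ) ^ 10000 ≤ ((n * d : ℕ) : ℝ) := by exact_mod_cast h1
  have r2 : ((n * d : ℕ) : ℝ) ≤ 2 * (K0 (n * d) : ℝ) ^ 10000 :=
    le_trans (by exact_mod_cast h2.le) (succ_pow_le (by linarith) 10000 le_rfl)
  have rW : 100 * (K0 (n * d) : ℝ) ^ 6700 ≤ ((n * d : ℕ) : ℝ) := by exact_mod_cast hW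
  have rW0 : 0 ≤ (K0 (n * d) : ℝ) ^ 6700 := pow_nonneg (Nat.cast_nonneg _) _
  have hs0 : 0 ≤ s0 ℝ n d := div_nonneg (Nat.cast_nonneg _) (sq_nonneg _)
  change _ ≤ _ * s0 ℝ n d ^ 2 at b1
  change _ * s0 ℝ n d ^ 2 ≤ _ at b2
  have hOK : 1 / 2 ≤ ((d : ℝ) - 1) * ((d : ℝ) - 1 - 1) * s0 ℝ n d ^ 3 →
      ((d : ℝ) - 1) * ((d : ℝ) - 1 - 1) * s0 ℝ n d ^ 3 ≤ (d : ℝ) - 1 → (par0 ℝ n d).OK := by
    intro a1 a2
    have e : (par0 ℝ n d).a =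
        ((n * d : ℕ) : ℝ) * (((d : ℝ) - 1) * ((d : ℝ) - 1 - 1) * s0 ℝ n d ^ 3) := by
      show ((n * d : ℕ) : ℝ) * ((d : ℝ) - 1) * ((d : ℝ) - 2) * s0 ℝ n d ^ 3 = _
      ring
    refine ⟨show (2 : ℝ) ≤ K0 (n * d) by linarith, r1, r2, ?_, ?_⟩
    · rw [e, div_eq_mul_one_div]
      exact mul_le_mul_of_nonneg_left a1 hN0.le
    · rw [e, mul_comm (par0 ℝ n d).K]
      exact mul_le_mul_of_nonneg_left (a2.trans (show _ ≤ (K0 (n * d) : ℝ) by linarith)) hN0.le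
  have hK1 : K1 ≤ (par0 ℝ n d).K := show K1 ≤ (K0 (n * d) : ℝ) by linarith
  have ephi : phi0 ℝ n d =
      s0 ℝ n d * (1 + 8 * ((K0 (n * d) : ℝ) ^ 6700 / ((n * d : ℕ) : ℝ)) ^ 2) := by
    rw [phi0, div_pow, mul_div_assoc]
  have ex : x0 ℝ n d = s0 ℝ n d * ((d : ℝ) - 1 + 1) + (1 - s0 ℝ n d ^ 2) / phi0 ℝ n d := by
    rw [x0, sub_add_cancel]
  refine ⟨hK1, ?_⟩
  show _ ∧ _ ∧ _ ∧ _ ∧ _ ∧ 1 - 3 * (K0 (n * d) : ℝ) ^ 6700 / ((n * d : ℕ) : ℝ) ≤ _ ∧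
    _ ≤ 1 - 2 * (K0 (n * d) : ℝ) ^ 6700 / ((n * d : ℕ) : ℝ)
  rw [ex, ephi]
  rw [mul_div_assoc] at b1 b2 ⊢
  rw [mul_div_assoc (2 : ℝ)]
  have hη0 := div_nonneg rW0 hN0.le
  have hη : (K0 (n * d) : ℝ) ^ 6700 / ((n * d : ℕ) : ℝ) ≤ 1 / 100 := by
    rw [div_le_div_iff₀ hN0 (by norm_num), one_mul, mul_comm]
    exact rW
  generalize (K0 (n * d) : ℝ) ^ 6700 / ((n * d : ℕ) : ℝ) = η at b1 b2 hη0 hη ⊢
  clear r1 r2 rW rW0 h1 h2 hW hW3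
  have hs : 0 < s0 ℝ n d := lt_of_le_of_ne hs0 fun h => by
    rw [← h] at b1
    nlinarith
  obtain ⟨a1, a2⟩ := a_bounds hs (by linarith) hη0 hη b1 b2
  exact ⟨hOK a1 a2, hs, by nlinarith, by positivity, x_le hs (by linarith) hη0 hη b1 b2, b1, b2⟩

end Crest.Agent.R62
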