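import Crest.Agent.R62.InitA
import Crest.Agent.R62.GenM

set_option autoImplicit false

open Finset Matrix

namespace Crest.Agent.R62

namespace InitB

section mat
variable (n d : ℕ)

def CC : Matrix (Fin n × Fin d) (Fin n × Fin d) ℝ := fun a b => if a.1 = b.1 then 1 else 0
def JJ : Matrix (Fin n × Fin d) (Fin n × Fin d) ℝ := fun _ _ => 1

theorem sum_fst (f : Fin n → ℝ) : ∑ c : Fin n × Fin d, f c.1 = d * ∑ i, f i := by
  rw [Fintype.sum_prod_type, Finset.mul_sum]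
  refine Finset.sum_congr rfl fun i _ => ?_
  show ∑ _j : Fin d, f i = _
  simp

theorem CC_CC : CC n d * CC n d = (d : ℝ) • CC n d := by
  ext a b
  simp only [Matrix.mul_apply, CC, Matrix.smul_apply, smul_eq_mul]
  rw [sum_fst n d fun i => (if a.1 = i then (1 : ℝ) else 0) * (if i = b.1 then 1 else 0)]
  simp

theorem CC_JJ : CC n d * JJ n d = (d : ℝ) • JJ n d := by
  ext a b
  simp only [Matrix.mul_apply, CC, JJ, Matrix.smul_apply, smul_eq_mul]
  rw [sum_fst n d fun i => (if a.1 = i then (1 : ℝ) else 0) * 1]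
  simp

theorem JJ_CC : JJ n d * CC n d = (d : ℝ) • JJ n d := by
  ext a b
  simp only [Matrix.mul_apply, CC, JJ, Matrix.smul_apply, smul_eq_mul]
  rw [sum_fst n d fun i => (1 : ℝ) * (if i = b.1 then 1 else 0)]
  simp

theorem JJ_JJ : JJ n d * JJ n d = ((n : ℝ) * d) • JJ n d := by
  ext a b
  simp [Matrix.mul_apply, JJ]

/-- The matrix with eigenvalue `l` on the vertex functions, `b` on their complement and `0` on
the constants. -/
noncomputable def NN (l b : ℝ) : Matrix (Fin n × Fin d) (Fin n × Fin d) ℝ :=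
  ((l - b) / d) • CC n d + b • (1 : Matrix _ _ ℝ) - (l / (n * d)) • JJ n d

variable {n d}

theorem NN_mul (hn : (n : ℝ) ≠ 0) (hd : (d : ℝ) ≠ 0) (l b l' b' : ℝ) :
    NN n d l b * NN n d l' b' = NN n d (l * l') (b * b') := by
  simp only [NN, Matrix.mul_sub, Matrix.sub_mul, Matrix.mul_add, Matrix.add_mul, Matrix.mul_smul,
    Matrix.smul_mul, CC_CC, CC_JJ, JJ_CC, JJ_JJ, Matrix.mul_one, Matrix.one_mul]
  ext x y
  simp only [Matrix.sub_apply, Matrix.add_apply, Matrix.smul_apply, smul_eq_mul]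
  field_simp
  ring

theorem NN_diag (hn : (n : ℝ) ≠ 0) (hd : (d : ℝ) ≠ 0) (l b : ℝ) (a : Fin n × Fin d) :
    NN n d l b a a = (l * (n - 1) + b * (n * (d - 1))) / (n * d) := by
  simp only [NN, Matrix.sub_apply, Matrix.add_apply, Matrix.smul_apply, smul_eq_mul, CC, JJ,
    Matrix.one_apply_eq, if_true]
  field_simp
  ring

theorem NN_trace (hn : (n : ℝ) ≠ 0) (hd : (d : ℝ) ≠ 0) (l b : ℝ) :
    (NN n d l b).trace = l * (n - 1) + b * (n * (d - 1)) := by
  simp only [Matrix.trace, Matrix.diag, NN_diag hn hd, Finset.sum_const, Finset.card_univ,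
    Fintype.card_prod, Fintype.card_fin, nsmul_eq_mul, Nat.cast_mul]
  field_simp

theorem F0_eq (hn : (n : ℝ) ≠ 0) (hd : (d : ℝ) ≠ 0) :
    F0 ℝ n d = NN n d (phi0 ℝ n d * d - s0 ℝ n d) (-s0 ℝ n d) := by
  ext a b
  simp only [F0, NN, Matrix.sub_apply, Matrix.add_apply, Matrix.smul_apply, smul_eq_mul, CC, JJ,
    Matrix.one_apply, Nat.cast_mul]
  field_simp
  ring

theorem same_le : (same (Prod.fst : Fin n × Fin d → Fin n) univ : ℝ) ≤ n * d * d := by
  have h : same (Prod.fst : Fin n × Fin d → Fin n) univ ≤ n * d * d := by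
    unfold same
    calc _ ≤ ((univ : Finset ((Fin n × Fin d) × Fin d)).image
          fun y => (y.1, (y.1.1, y.2))).card := by
          refine Finset.card_le_card fun x hx => ?_
          simp only [Finset.mem_filter] at hx
          refine Finset.mem_image.2 ⟨(x.1, x.2.2), Finset.mem_univ _, ?_⟩
          rw [hx.2.2]
      _ ≤ (univ : Finset ((Fin n × Fin d) × Fin d)).card := Finset.card_image_le
      _ = n * d * d := by simp
  exact_mod_cast h

end mat

theorem pp_zero {x : ℝ} (h : x ≤ 0) : pp x = 0 := by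
  simp [pp, max_eq_right h]

theorem pp_le {x y : ℝ} (hy : 0 ≤ y) (h : x ≤ y) : pp x ≤ y ^ 2 :=
  pow_le_pow_left₀ (le_max_right _ _) (max_le h hy) 2

/-- The traces of the powers of the initial matrix. -/
theorem traces {n d s η : ℝ} (hd : 3 ≤ d) (hn : 1 ≤ n) (hs : 0 < s) (hs2 : s ^ 2 ≤ 1 / 2)
    (h0 : 0 ≤ η) (hη : η ≤ 1 / 100) (h1 : 1 - 3 * η ≤ (d - 1) * s ^ 2)
    (h2 : (d - 1) * s ^ 2 ≤ 1 - 2 * η) (l : ℝ) (hl : l = s * (1 + 8 * η ^ 2) * d - s) :
    -d ≤ l * (n - 1) + -s * (n * (d - 1)) ∧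
    l * (n - 1) + -s * (n * (d - 1)) ≤ 8 * η ^ 2 * (n * d) ∧
    n * d - 3 * η * (n * d) - d ≤ l * l * (n - 1) + -s * -s * (n * (d - 1)) ∧
    l * l * (n - 1) + -s * -s * (n * (d - 1)) ≤ n * d - η * (n * d) ∧
    n * d * (d - 1) * (d - 2) * s ^ 3 - d ^ 3
      ≤ l * l * l * (n - 1) + -s * -s * -s * (n * (d - 1)) ∧
    l * l * l * (n - 1) + -s * -s * -s * (n * (d - 1))
      ≤ n * d * (d - 1) * (d - 2) * s ^ 3 + 96 * d ^ 2 * η ^ 2 * (n * d) ∧
    l * l * l * l * (n - 1) + -s * -s * -s * -s * (n * (d - 1)) ≤ 17 * d ^ 4 * (n * d) := by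
  obtain ⟨q, rfl⟩ : ∃ q, d = q + 1 := ⟨d - 1, by ring⟩
  obtain ⟨k, rfl⟩ : ∃ k, n = k + 1 := ⟨n - 1, by ring⟩
  have hq : 2 ≤ q := by linarith
  have hk : 0 ≤ k := by linarith
  simp only [add_sub_cancel_right] at h1 h2 ⊢
  have hs1 : s ≤ 1 := by nlinarith
  obtain ⟨e, he⟩ : ∃ e, e = 8 * η ^ 2 := ⟨_, rfl⟩
  have he0 : 0 ≤ e := by rw [he]; positivity
  have he1 : e ≤ η / 10 := by rw [he]; nlinarith
  rw [← he] at hl ⊢
  obtain ⟨g, hg⟩ : ∃ g, g = (q + 1) * e := ⟨_, rfl⟩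
  have hg0 : 0 ≤ g := by rw [hg]; positivity
  have hg1 : g ≤ q + 1 := by rw [hg]; nlinarith
  have hl' : l = s * (q + g) := by rw [hl, hg]; ring
  have hy : q + g ≤ 2 * (q + 1) := by linarith
  have hy0 : 0 ≤ q + g := by linarith
  subst hl'
  refine ⟨?_, ?_, ?_, ?_, ?_, ?_, ?_⟩
  · have e1 : s * (q + g) * k + -s * ((k + 1) * q) = s * (g * k) - s * q := by ring
    have : 0 ≤ s * (g * k) := by positivity
    rw [e1]; nlinarith
  · have e1 : s * (q + g) * k + -s * ((k + 1) * q) = s * (g * k) - s * q := by ring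
    have e2 : e * ((k + 1) * (q + 1)) = g * k + g := by rw [hg]; ring
    have h3 : s * (g * k) ≤ g * k := mul_le_of_le_one_left (by positivity) hs1
    have : 0 ≤ s * q := by positivity
    rw [e1, e2]; linarith
  · have e1 : s * (q + g) * (s * (q + g)) * k + -s * -s * ((k + 1) * q)
        = q * s ^ 2 * ((k + 1) * (q + 1)) - q * (q * s ^ 2) + s ^ 2 * (g * (2 * q + g) * k) := by
      ring
    have h3 : 0 ≤ s ^ 2 * (g * (2 * q + g) * k) := by positivity
    have h4 : (1 - 3 * η) * ((k + 1) * (q + 1)) ≤ q * s ^ 2 * ((k + 1) * (q + 1)) :=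
      mul_le_mul_of_nonneg_right h1 (by positivity)
    have h5 : q * (q * s ^ 2) ≤ q := mul_le_of_le_one_right (by linarith) (by linarith)
    rw [e1]; linarith
  · have e1 : s * (q + g) * (s * (q + g)) * k + -s * -s * ((k + 1) * q)
        = q * s ^ 2 * ((k + 1) * (q + 1)) - q * (q * s ^ 2)
          + (e * (2 * (q * s ^ 2) + (q * s ^ 2 + s ^ 2) * e)) * (k * (q + 1)) := by
      rw [hg]; ring
    have h4 : q * s ^ 2 * ((k + 1) * (q + 1)) ≤ (1 - 2 * η) * ((k + 1) * (q + 1)) :=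
      mul_le_mul_of_nonneg_right h2 (by positivity)
    have h5 : 0 ≤ q * (q * s ^ 2) := by positivity
    have h6 : (q * s ^ 2 + s ^ 2) * e ≤ 2 * 1 :=
      mul_le_mul (by linarith) (by linarith) he0 (by norm_num)
    have h7 : e * (2 * (q * s ^ 2) + (q * s ^ 2 + s ^ 2) * e) ≤ η / 10 * 4 :=
      mul_le_mul he1 (by linarith) (by positivity) (by positivity)
    have h8 : (e * (2 * (q * s ^ 2) + (q * s ^ 2 + s ^ 2) * e)) * (k * (q + 1))
        ≤ η * ((k + 1) * (q + 1)) :=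
      mul_le_mul (by linarith) (by nlinarith) (by positivity) h0
    rw [e1]; linarith
  · have e1 : s * (q + g) * (s * (q + g)) * (s * (q + g)) * k + -s * -s * -s * ((k + 1) * q)
        = (k + 1) * (q + 1) * q * (q + 1 - 2) * s ^ 3 - s ^ 3 * q ^ 3
          + s ^ 3 * (g * (3 * q ^ 2 + 3 * q * g + g ^ 2) * k) := by
      ring
    have h3 : 0 ≤ s ^ 3 * (g * (3 * q ^ 2 + 3 * q * g + g ^ 2) * k) := by positivity
    have h4 : s ^ 3 * q ^ 3 ≤ 1 * (q + 1) ^ 3 :=
      mul_le_mul (pow_le_one₀ hs.le hs1) (pow_le_pow_left₀ (by linarith) (by linarith) 3)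
        (by positivity) (by norm_num)
    rw [e1]; linarith
  · have e1 : s * (q + g) * (s * (q + g)) * (s * (q + g)) * k + -s * -s * -s * ((k + 1) * q)
        = (k + 1) * (q + 1) * q * (q + 1 - 2) * s ^ 3 - s ^ 3 * q ^ 3
          + s ^ 3 * (g * (3 * q ^ 2 + 3 * q * g + g ^ 2) * k) := by
      ring
    have h3 : 0 ≤ s ^ 3 * q ^ 3 := by positivity
    have h4 : 3 * q ^ 2 + 3 * q * g + g ^ 2 ≤ 12 * (q + 1) ^ 2 := by nlinarith
    have h5 : s ^ 3 * (g * (3 * q ^ 2 + 3 * q * g + g ^ 2) * k)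
        ≤ 1 * (g * (12 * (q + 1) ^ 2) * (k + 1)) := by
      refine mul_le_mul (pow_le_one₀ hs.le hs1) ?_ (by positivity) (by norm_num)
      gcongr
      linarith
    have e2 : 96 * (q + 1) ^ 2 * η ^ 2 * ((k + 1) * (q + 1))
        = 1 * (g * (12 * (q + 1) ^ 2) * (k + 1)) := by rw [hg, he]; ring
    rw [e1, e2]; linarith
  · have e1 : s * (q + g) * (s * (q + g)) * (s * (q + g)) * (s * (q + g)) * k
        + -s * -s * -s * -s * ((k + 1) * q) = s ^ 4 * ((q + g) ^ 4 * k + (k + 1) * q) := by ring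
    have h3 : (q + g) ^ 4 ≤ (2 * (q + 1)) ^ 4 := pow_le_pow_left₀ hy0 hy 4
    have h4 : 1 ≤ (q + 1) ^ 4 := one_le_pow₀ (by linarith)
    have h5 : (q + g) ^ 4 * k ≤ (2 * (q + 1)) ^ 4 * ((k + 1) * (q + 1)) :=
      mul_le_mul h3 (by nlinarith) hk (by positivity)
    have h6 : (k + 1) * q ≤ (q + 1) ^ 4 * ((k + 1) * (q + 1)) := by
      calc (k + 1) * q ≤ 1 * ((k + 1) * (q + 1)) := by nlinarith
        _ ≤ _ := mul_le_mul_of_nonneg_right h4 (by positivity)
    have h7 : s ^ 4 * ((q + g) ^ 4 * k + (k + 1) * q) ≤ (q + g) ^ 4 * k + (k + 1) * q :=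
      mul_le_of_le_one_left (by positivity) (pow_le_one₀ hs.le hs1)
    rw [e1]; nlinarith

/-- Consequences of `Par.OK` at `m = N`. -/
theorem par_facts (p : Par ℝ) (h : p.OK) (hK : 100 ≤ p.K) :
    p.K ≤ p.W ∧ p.W * p.K ^ 2 ≤ p.N ∧ p.K ^ 5 ≤ p.N ∧ p.phI p.N ∧ p.phX p.N
      ∧ 8 * p.W ^ 2 / p.N ≤ p.tst p.N ∧ (8 * p.W ^ 2 / p.N + p.K) ^ 2 ≤ p.N := by
  obtain ⟨K, N, a⟩ := p
  obtain ⟨-, N1, N2, a1, -⟩ := h
  simp only [Par.W, Par.phI, Par.phX, Par.tst] at *
  have hK1 : 1 ≤ K := by linarith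
  have hK0 : 0 < K := by linarith
  have mono : ∀ i j : ℕ, i ≤ j → K ^ i ≤ K ^ j := fun i j hij => pow_le_pow_right₀ hK1 hij
  have smono : ∀ i j : ℕ, i < j → 100 * K ^ i ≤ K ^ j := fun i j hij => by
    calc 100 * K ^ i ≤ K * K ^ i := mul_le_mul_of_nonneg_right hK (by positivity)
      _ = K ^ (i + 1) := by ring
      _ ≤ K ^ j := mono _ _ hij
  have hN0 : 0 < N := lt_of_lt_of_le (by positivity) N1
  have hW : 8 * (K ^ 6700) ^ 2 / N ≤ 8 * K ^ 3400 := by
    rw [div_le_iff₀ hN0]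
    calc 8 * (K ^ 6700) ^ 2 = 8 * K ^ 3400 * K ^ 10000 := by ring
      _ ≤ _ := mul_le_mul_of_nonneg_left N1 (by positivity)
  refine ⟨?_, ?_, (mono _ _ (by norm_num)).trans N1, ?_, ?_, ?_, ?_⟩
  · simpa using mono 1 6700 (by norm_num)
  · rw [← pow_add]; exact (mono _ _ (by norm_num)).trans N1
  · have := smono 7195 10000 (by norm_num)
    have : 0 < K ^ 7195 := by positivity
    linarith
  · have := smono 6710 10000 (by norm_num)
    have : 0 < K ^ 6710 := by positivity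
    linarith
  · refine hW.trans (le_trans ?_ (le_max_right _ _))
    have h1 : 1 / N ≤ 1 / (2 * K ^ 7195) := by
      refine one_div_le_one_div_of_le (by positivity) ?_
      have := smono 7195 10000 (by norm_num)
      have : 0 < K ^ 7195 := by positivity
      linarith
    have h2 : 1 / (2 * K ^ 7195) ≤ 1 / K ^ 7195 - 1 / N := by
      have : 1 / K ^ 7195 = 2 * (1 / (2 * K ^ 7195)) := by field_simp
      linarith
    have h3 : K ^ 10000 / 2 ≤ a := by linarith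
    calc 8 * K ^ 3400 ≤ K ^ 3405 / 8 := by
          have := smono 3400 3405 (by norm_num)
          have : 0 < K ^ 3400 := by positivity
          linarith
      _ = K ^ 600 * (K ^ 10000 / 2) / 2 * (1 / (2 * K ^ 7195)) := by
          field_simp
          ring
      _ ≤ _ := by
          have : 0 ≤ a := le_trans (by positivity) h3
          gcongr
  · have h1 : K ≤ K ^ 3400 := by simpa using mono 1 3400 (by norm_num)
    calc (8 * (K ^ 6700) ^ 2 / N + K) ^ 2 ≤ (9 * K ^ 3400) ^ 2 :=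
          pow_le_pow_left₀ (by positivity) (by linarith) 2
      _ = 81 * K ^ 6800 := by ring
      _ ≤ N := by
          have := smono 6800 10000 (by norm_num)
          have : 0 < K ^ 6800 := by positivity
          linarith

theorem div_le_of {x y z : ℝ} {c K : ℝ} (hz : 0 < z) (hzy : z ≤ y) (hK : 0 < K) (hc : 0 ≤ c)
    (h : x * K ≤ c * z) : x / y ≤ c / K := by
  rw [div_le_div_iff₀ (hz.trans_le hzy) hK]
  exact h.trans (mul_le_mul_of_nonneg_left hzy hc)

/-- The one-matrix potential from the traces. -/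
theorem xi1_le {ι : Type} [Fintype ι] [DecidableEq ι] (p : Par ℝ) (h : p.OK) (hK : 100 ≤ p.K)
    (d : ℝ) (hd : 1 ≤ d) (hdK : d ≤ p.K) (F : Matrix ι ι ℝ)
    (hN : ((univ : Finset ι).card : ℝ) = p.N)
    (hF : ∀ a, F a a = t1 F / p.N) (hr : ∀ a, rr F a = a2 F / p.N)
    (t_lo : -d ≤ t1 F) (t_hi : t1 F ≤ 8 * p.W ^ 2 / p.N)
    (a2_lo : p.N - 3 * p.W - d ≤ a2 F) (a2_hi : a2 F ≤ p.N - p.W)
    (a3_lo : p.a - d ^ 3 ≤ a3 F) (a3_hi : a3 F ≤ p.a + 96 * d ^ 2 * (p.W / p.N) ^ 2 * p.N)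
    (a4_hi : a4 F ≤ 17 * d ^ 4 * p.N) :
    0 ≤ a2 F ∧ Xi1 p univ F p.N ≤ 10000 * d ^ 6 / p.K := by
  obtain ⟨f1, f2, f3, f4, f5, f6, f7⟩ := par_facts p h hK
  have hK1 : 1 ≤ p.K := by linarith
  have hK0 : 0 < p.K := by linarith
  have hW0 : 0 < p.W := by linarith
  have hK2 : 100 ≤ p.K ^ 2 := by nlinarith
  have hWN : 100 * p.W ≤ p.N := by nlinarith
  have hN0 : 0 < p.N := by linarith
  have hρ : 1 / 2 ≤ p.rho p.N := by
    unfold Par.rho
    rw [div_le_div_iff₀ (by norm_num) (by linarith)]; linarith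
  have hρ2 : 1 / 4 ≤ p.rho p.N ^ 2 := by nlinarith
  have hKp : ∀ i : ℕ, i ≠ 0 → p.K ≤ p.K ^ i := fun i hi => le_self_pow₀ hK1 hi
  have hd6 : ∀ i : ℕ, i ≤ 6 → d ^ i ≤ d ^ 6 := fun i hi => pow_le_pow_right₀ hd hi
  have hd0 : 1 ≤ d ^ 6 := one_le_pow₀ hd
  have ha20 : 0 ≤ a2 F := by linarith
  refine ⟨ha20, ?_⟩
  have ht2 : t1 F ^ 2 ≤ p.N := by
    refine le_trans (sq_le_sq' ?_ ?_) f7
    · have : 0 ≤ 8 * p.W ^ 2 / p.N := by positivity
      linarith
    · linarith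
  have e1 : pT p univ F = 0 := by
    unfold pT; rw [hN, pp_zero (by linarith), zero_div]
  have e2 : pT' p univ F ≤ 4 * d ^ 6 / p.K := by
    unfold pT'; rw [hN]
    have h1 : p.K / 2 ≤ p.kt p.N := by
      unfold Par.kt
      calc p.K / 2 = p.K * (1 / 2) := by ring
        _ ≤ _ := mul_le_mul (hKp _ (by norm_num)) hρ (by norm_num) (by positivity)
    refine div_le_of (z := (p.K / 2) ^ 2) (by positivity)
      (pow_le_pow_left₀ (by positivity) h1 2) hK0 (by positivity) ?_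
    have h2 := (pp_le (x := -t1 F) (y := d) (by linarith) (by linarith)).trans (hd6 2 (by norm_num))
    calc _ ≤ d ^ 6 * p.K ^ 2 := mul_le_mul h2 (hKp _ (by norm_num)) hK0.le (by positivity)
      _ = _ := by ring
  have e3 : p2 p univ F = 0 := by
    unfold p2; rw [hN]
    have h1 : p.N - p.W ≤ p.a2s p.N := by
      unfold Par.a2s Par.rho
      rw [← mul_div_assoc, le_div_iff₀ (by linarith)]
      nlinarith
    rw [pp_zero (by linarith), zero_div]
  have e4 : p2l p univ F ≤ 2 * d ^ 6 / p.K := by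
    unfold p2l; rw [hN]
    refine div_le_of (z := p.K * p.N * (1 / 2)) (by positivity) ?_ hK0 (by positivity) ?_
    · unfold Par.T2
      exact mul_le_mul_of_nonneg_left hρ (by positivity)
    · calc a2 F * p.K ≤ p.N * p.K := mul_le_mul_of_nonneg_right (by linarith) hK0.le
        _ ≤ d ^ 6 * (p.N * p.K) := le_mul_of_one_le_left (by positivity) hd0
        _ = _ := by ring
  have e5 : p3 p F ≤ 9216 * d ^ 6 / p.K := by
    unfold p3 Par.k3
    refine div_le_of (z := (p.N / p.K) ^ 2) (by positivity) le_rfl hK0 (by positivity) ?_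
    have h1 : p.W / p.N ≤ 1 / p.K ^ 2 := by
      rw [div_le_div_iff₀ hN0 (by positivity)]; linarith
    have h2 : (p.W / p.N) ^ 2 ≤ (1 / p.K ^ 2) ^ 2 := pow_le_pow_left₀ (by positivity) h1 2
    have h3 : a3 F - p.a ≤ 96 * d ^ 2 * (1 / p.K ^ 2) ^ 2 * p.N := by
      have : 96 * d ^ 2 * (p.W / p.N) ^ 2 * p.N ≤ 96 * d ^ 2 * (1 / p.K ^ 2) ^ 2 * p.N := by
        gcongr
      linarith
    have h4 := pp_le (by positivity) h3
    calc _ ≤ (96 * d ^ 2 * (1 / p.K ^ 2) ^ 2 * p.N) ^ 2 * p.K :=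
          mul_le_mul_of_nonneg_right h4 hK0.le
      _ = 9216 * d ^ 4 * (p.N / p.K) ^ 2 * (1 / p.K ^ 5) := by field_simp; norm_num
      _ ≤ 9216 * d ^ 6 * (p.N / p.K) ^ 2 * 1 := by
          have : 1 / p.K ^ 5 ≤ 1 := by
            rw [div_le_one (by positivity)]; exact one_le_pow₀ hK1
          have := hd6 4 (by norm_num)
          gcongr
      _ = _ := mul_one _
  have e6 : p4 p univ F ≤ 136 * d ^ 6 / p.K := by
    unfold p4; rw [hN]
    refine div_le_of (z := p.K * p.N / 8) (by positivity) ?_ hK0 (by positivity) ?_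
    · unfold Par.T4
      rw [le_div_iff₀ (by positivity)]
      calc p.K * p.N / 8 * (p.N + p.W) ^ 3 ≤ p.K ^ 4 * p.N / 8 * (2 * p.N) ^ 3 := by
            have := hKp 4 (by norm_num)
            gcongr
            linarith
        _ = _ := by ring
    · calc a4 F * p.K ≤ 17 * d ^ 4 * p.N * p.K := mul_le_mul_of_nonneg_right a4_hi hK0.le
        _ ≤ 17 * d ^ 6 * p.N * p.K := by
            have := hd6 4 (by norm_num)
            gcongr
        _ = _ := by ring
  have hr1 : a2 F / p.N ≤ 1 := by rw [div_le_one hN0]; linarith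
  have e7 : pR4 p univ F ≤ 4 * d ^ 6 / p.K := by
    unfold pR4 R4
    simp only [hr, Finset.sum_const, nsmul_eq_mul, hN]
    refine div_le_of (z := p.K * p.N * (1 / 4)) (by positivity) ?_ hK0 (by positivity) ?_
    · unfold Par.TR4
      have := hKp 100 (by norm_num)
      gcongr
    · have h1 : (a2 F / p.N) ^ 4 ≤ d ^ 6 := (pow_le_one₀ (by positivity) hr1).trans hd0
      calc p.N * (a2 F / p.N) ^ 4 * p.K ≤ p.N * d ^ 6 * p.K := by gcongr
        _ = _ := by ring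
  have hD : p.N * (t1 F / p.N) ^ 2 ≤ 1 := by
    rw [div_pow, sq p.N, ← mul_div_assoc, mul_div_mul_left _ _ hN0.ne', div_le_one hN0]
    exact ht2
  have e8 : pD2 p univ F ≤ 2 * d ^ 6 / p.K := by
    unfold pD2 D2
    simp only [hF, Finset.sum_const, nsmul_eq_mul, hN]
    refine div_le_of (z := p.K * (1 / 2)) (by positivity) ?_ hK0 (by positivity) ?_
    · unfold Par.TD
      have := hKp 450 (by norm_num)
      gcongr
    · calc p.N * (t1 F / p.N) ^ 2 * p.K ≤ d ^ 6 * p.K :=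
            mul_le_mul_of_nonneg_right (hD.trans hd0) hK0.le
        _ = _ := by ring
  have e9 : pD4 p univ F ≤ d ^ 6 / p.K := by
    unfold pD4 D4
    simp only [hF, Finset.sum_const, nsmul_eq_mul, hN]
    have h1 : p.N * (t1 F / p.N) ^ 4 = (p.N * (t1 F / p.N) ^ 2) ^ 2 / p.N := by field_simp
    have h2 : (p.N * (t1 F / p.N) ^ 2) ^ 2 ≤ d ^ 6 := (pow_le_one₀ (by positivity) hD).trans hd0
    rw [h1, ← mul_div_assoc, div_le_div_iff₀ hN0 hK0]
    calc p.K ^ 4 * (p.N * (t1 F / p.N) ^ 2) ^ 2 * p.K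
        = (p.N * (t1 F / p.N) ^ 2) ^ 2 * p.K ^ 5 := by ring
      _ ≤ _ := mul_le_mul h2 f3 (by positivity) (by positivity)
  have e10 : p2' p univ F = 0 := by
    unfold p2'; rw [hN, pp_zero (by linarith), zero_div]
  have e11 : pX p univ F ≤ 16 * d ^ 6 / p.K := by
    unfold pX X2
    simp only [hr, Finset.sum_const, nsmul_eq_mul, hN]
    refine div_le_of (z := p.K * p.W ^ 2 / p.N) (by positivity) ?_ hK0 (by positivity) ?_
    · unfold Par.TX
      have := hKp 3 (by norm_num)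
      gcongr
    · have h1 : p.N * (a2 F / p.N - 1) ^ 2 = (p.N - a2 F) ^ 2 / p.N := by field_simp; ring
      have h2 : (p.N - a2 F) ^ 2 ≤ (4 * p.W) ^ 2 := pow_le_pow_left₀ (by linarith) (by linarith) 2
      rw [h1]
      calc (p.N - a2 F) ^ 2 / p.N * p.K ≤ (4 * p.W) ^ 2 / p.N * p.K := by gcongr
        _ ≤ d ^ 6 * ((4 * p.W) ^ 2 / p.N * p.K) := le_mul_of_one_le_left (by positivity) hd0
        _ = _ := by ring
  have e12 : p3' p F ≤ d ^ 6 / p.K := by
    unfold p3' Par.k3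
    have h1 : p.K ≤ p.N / p.K := by
      rw [le_div_iff₀ hK0]
      calc p.K * p.K = p.K ^ 2 := by ring
        _ ≤ p.K ^ 5 := pow_le_pow_right₀ hK1 (by norm_num)
        _ ≤ _ := f3
    refine div_le_of (z := p.K ^ 2) (by positivity) (pow_le_pow_left₀ hK0.le h1 2) hK0
      (by positivity) ?_
    have h2 := pp_le (x := p.a - a3 F) (y := d ^ 3) (by positivity) (by linarith)
    rw [← pow_mul] at h2
    exact mul_le_mul h2 (hKp _ (by norm_num)) hK0.le (by positivity)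
  unfold Xi1
  rw [if_pos f5, if_pos f4, e1, e3, e10]
  have hp : 0 ≤ d ^ 6 / p.K := by positivity
  simp only [mul_div_assoc] at *
  linarith

end InitB

open InitB

variable {ι V : Type} [Fintype ι] [DecidableEq ι] [Fintype V] [DecidableEq V]

/-- The initial potential. -/
theorem init_xi (d : ℕ) (hd : 3 ≤ d) : ∃ n0 : ℕ, ∀ n, n0 ≤ n →
    Xi (par0 ℝ n d) Prod.fst (st0 ℝ n d) ≤ 1 / 4 := by
  obtain ⟨n0, hn0⟩ := init_par d hd (100000 * (d : ℝ) ^ 6)
  refine ⟨n0 + 1, fun n hn => ?_⟩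
  obtain ⟨hK, hOK, hs, hs2, -, -, h1, h2⟩ := hn0 n (by omega)
  have hd3 : (3 : ℝ) ≤ d := by exact_mod_cast hd
  have hd1 : (1 : ℝ) ≤ d := by linarith
  have hn1 : (1 : ℝ) ≤ n := by exact_mod_cast (by omega : 1 ≤ n)
  have hn' : (n : ℝ) ≠ 0 := by linarith
  have hd' : (d : ℝ) ≠ 0 := by linarith
  have hdd : (d : ℝ) ≤ (d : ℝ) ^ 6 := le_self_pow₀ hd1 (by norm_num)
  have eN : (par0 ℝ n d).N = (n : ℝ) * d := Nat.cast_mul n d
  have ea : (par0 ℝ n d).a = (n : ℝ) * d * ((d : ℝ) - 1) * ((d : ℝ) - 2) * s0 ℝ n d ^ 3 := by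
    rw [← Nat.cast_mul]; rfl
  have ephi : phi0 ℝ n d = s0 ℝ n d * (1 + 8 * ((par0 ℝ n d).W / (par0 ℝ n d).N) ^ 2) := by
    rw [div_pow, ← mul_div_assoc]; rfl
  have eF := F0_eq hn' hd'
  have eX : Xi (par0 ℝ n d) Prod.fst (st0 ℝ n d) = XiAt (par0 ℝ n d) Prod.fst
      ((univ : Finset (Fin n × Fin d)).card : ℝ) ⟨univ, F0 ℝ n d, F0 ℝ n d, fun _ _ => 0⟩ := rfl
  rw [eX]
  generalize par0 ℝ n d = p at *
  generalize F0 ℝ n d = F at *
  have hK100 : 100 ≤ p.K := by linarith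
  have hK0 : 0 < p.K := by linarith
  obtain ⟨f1, f2, f3, f4, f5, -, -⟩ := par_facts p hOK hK100
  have hW0 : 0 < p.W := by linarith
  have hK2 : 100 ≤ p.K ^ 2 := by nlinarith
  have hWN : 100 * p.W ≤ p.N := by nlinarith
  have hN0 : 0 < p.N := by linarith
  have hN : ((univ : Finset (Fin n × Fin d)).card : ℝ) = p.N := by rw [eN]; simp
  rw [mul_div_assoc] at h1 h2
  have hη : p.W / p.N ≤ 1 / 100 := by rw [div_le_div_iff₀ hN0 (by norm_num)]; linarith
  obtain ⟨b1, b2, b3, b4, b5, b6, b7⟩ := traces hd3 hn1 hs hs2 (by positivity) hη h1 h2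
    (phi0 ℝ n d * d - s0 ℝ n d) (by rw [ephi])
  generalize phi0 ℝ n d * d - s0 ℝ n d = l at *
  generalize s0 ℝ n d = s at *
  have et : t1 F = l * (n - 1) + -s * (n * (d - 1)) := by
    rw [eF, t1, NN_trace hn' hd']
  have e2 : a2 F = l * l * (n - 1) + -s * -s * (n * (d - 1)) := by
    rw [eF, a2, NN_mul hn' hd', NN_trace hn' hd']
  have e3 : a3 F = l * l * l * (n - 1) + -s * -s * -s * (n * (d - 1)) := by
    rw [eF, a3, NN_mul hn' hd', NN_mul hn' hd', NN_trace hn' hd']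
  have e4 : a4 F = l * l * l * l * (n - 1) + -s * -s * -s * -s * (n * (d - 1)) := by
    rw [eF, a4, NN_mul hn' hd', NN_mul hn' hd', NN_mul hn' hd', NN_trace hn' hd']
  have hF : ∀ a, F a a = t1 F / p.N := fun a => by
    rw [et, eN, eF, NN_diag hn' hd']
  have hr : ∀ a, rr F a = a2 F / p.N := fun a => by
    rw [e2, eN, eF, rr, NN_mul hn' hd', NN_diag hn' hd']
  rw [← eN] at b2 b3 b4 b6 b7
  rw [← ea, ← e3] at b5
  rw [← et] at b1 b2
  rw [← e2] at b3 b4
  rw [← e4] at b7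
  have eW : p.W / p.N * p.N = p.W := div_mul_cancel₀ _ hN0.ne'
  have b6' : a3 F ≤ p.a + 96 * (d : ℝ) ^ 2 * (p.W / p.N) ^ 2 * p.N := by
    rw [ea, e3, ← eN]; exact b6
  obtain ⟨ha2, hXi⟩ := xi1_le p hOK hK100 d hd1 (by linarith) F hN hF hr b1
    (b2.trans_eq (by field_simp)) (by rw [mul_assoc, eW] at b3; exact b3)
    (by rw [eW] at b4; exact b4) b5 b6' b7
  have g1 : p11 p univ F F = 0 := by
    unfold p11
    rw [pp_zero (show -c11 F F ≤ 0 from neg_nonpos.2 ha2), zero_div]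
  have hKp : ∀ i : ℕ, i ≠ 0 → p.K ≤ p.K ^ i := fun i hi => le_self_pow₀ (by linarith) hi
  have g2 : p22 p univ F F ≤ 17 * (d : ℝ) ^ 6 / p.K := by
    unfold p22; rw [hN]
    refine div_le_of (z := p.K * p.N) (by positivity) ?_ hK0 (by positivity) ?_
    · unfold Par.T22
      have := mul_le_mul_of_nonneg_right (hKp 4 (by norm_num)) hN0.le
      have : 0 ≤ p.N ^ 2 / (p.N * p.K ^ 140) := by positivity
      linarith
    · have h3 : (d : ℝ) ^ 4 ≤ (d : ℝ) ^ 6 := pow_le_pow_right₀ hd1 (by norm_num)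
      calc c22 F F * p.K ≤ 17 * (d : ℝ) ^ 4 * p.N * p.K := mul_le_mul_of_nonneg_right b7 hK0.le
        _ ≤ 17 * (d : ℝ) ^ 6 * p.N * p.K := by gcongr
        _ = _ := by ring
  have g3 : pB p (Prod.fst : Fin n × Fin d → Fin n) univ (fun _ _ => 0) ≤ (d : ℝ) ^ 6 / p.K := by
    have h3 : adjc (Prod.fst : Fin n × Fin d → Fin n) univ (fun _ _ => 0) = 0 := by simp [adjc]
    unfold pB
    rw [h3, hN, Nat.cast_zero, add_zero]
    refine div_le_of (z := p.K ^ 5 * p.N) (by positivity) ?_ hK0 (by positivity) ?_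
    · unfold Par.TB
      rw [sq p.N, ← mul_assoc, mul_div_assoc, div_self hN0.ne', mul_one]
      exact mul_le_mul_of_nonneg_right (pow_le_pow_right₀ (by linarith) (by norm_num)) hN0.le
    · have h4 := same_le (n := n) (d := d)
      rw [← eN] at h4
      calc _ ≤ p.K ^ 4 * (p.N * d) * p.K := by gcongr
        _ ≤ p.K ^ 4 * (p.N * (d : ℝ) ^ 6) * p.K := by gcongr
        _ = _ := by ring
  unfold XiAt
  simp only [hN, if_pos f4, g1]
  have g4 : (d : ℝ) ^ 6 / p.K ≤ 1 / 100000 := by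
    rw [div_le_div_iff₀ hK0 (by norm_num)]; linarith
  simp only [mul_div_assoc] at hXi g2
  linarith

end Crest.Agent.R62
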