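import Crest.Agent.R62.Upd
import Crest.Agent.R62.GenM

set_option autoImplicit false
set_option linter.unusedSectionVars false

open Finset Matrix

namespace Crest.Agent.R62

variable {ι V : Type} [Fintype ι] [DecidableEq ι] [Fintype V] [DecidableEq V]

namespace LF

theorem prj_transpose (S : Finset ι) : (prj S : Matrix ι ι ℝ)ᵀ = prj S := (mat_prj S).transpose

/-- `P Rᵀ M R P` is positive semidefinite when `M` is. -/
theorem psd_conj (S : Finset ι) (R : Matrix V ι ℝ) {M : Matrix V V ℝ} (hM : M.PosSemidef) :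
    ((prj S : Matrix ι ι ℝ) * Rᵀ * M * R * (prj S : Matrix ι ι ℝ)).PosSemidef := by
  have h := hM.conjTranspose_mul_mul_same (R * (prj S : Matrix ι ι ℝ))
  rw [conjTranspose_eq_transpose_of_trivial, Matrix.transpose_mul, prj_transpose] at h
  simpa only [Matrix.mul_assoc] using h

omit [DecidableEq ι] in
theorem psd_symm {M : Matrix ι ι ℝ} (hM : M.PosSemidef) (a b : ι) : M a b = M b a := by
  have h := hM.isHermitian.apply a b
  simpa using h.symm

/-- Off-diagonal entries of a positive semidefinite matrix. -/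
theorem psd_ent {M : Matrix ι ι ℝ} (hM : M.PosSemidef) (a b : ι) :
    |M a b| ≤ (M a a + M b b) / 2 := by
  have key : ∀ t : ℝ, 0 ≤ M a a + t * (M a b + M b a) + t ^ 2 * M b b := by
    intro t
    have h := hM.dotProduct_mulVec_nonneg (Pi.single a 1 + t • Pi.single b 1)
    simp only [star_trivial, Matrix.mulVec_add, Matrix.mulVec_smul, add_dotProduct,
      dotProduct_add, smul_dotProduct, dotProduct_smul, Matrix.mulVec_single_one,
      single_one_dotProduct, smul_eq_mul, Matrix.col_apply] at h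
    nlinarith [h]
  have h1 := key 1
  have h2 := key (-1)
  rw [psd_symm hM b a] at h1 h2
  rw [abs_le]
  constructor <;> nlinarith

theorem mat_conj (S : Finset ι) (X : Matrix ι ι ℝ)
    (hX : ∀ a b, ((prj S : Matrix ι ι ℝ) * X * (prj S : Matrix ι ι ℝ)) a b
      = ((prj S : Matrix ι ι ℝ) * X * (prj S : Matrix ι ι ℝ)) b a) :
    Mat S ((prj S : Matrix ι ι ℝ) * X * (prj S : Matrix ι ι ℝ)) := by
  refine ⟨hX, fun a b ha => ?_, fun a => ?_⟩
  · rw [Matrix.mul_assoc]; exact (mat_prj S).mul_supp _ a b ha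
  · simp only [Matrix.mul_apply (M := (prj S : Matrix ι ι ℝ) * X)]
    rw [Finset.sum_comm]
    simp only [← Finset.mul_sum, (mat_prj S).row, mul_zero, Finset.sum_const_zero]

end LF

section
variable {σ x s : ℝ} {d : ℕ} {vtx : ι → V} {S : Finset ι} {A : V → V → ℕ} {F : Matrix ι ι ℝ}

theorem Link.mat (h : Link σ x s d vtx S A F) : Mat S F := by
  obtain ⟨hH, rfl⟩ := h
  have hP := LF.psd_conj S (Rm vtx) hH.inv.posSemidef
  have e : (prj S : Matrix ι ι ℝ) * (Rm vtx)ᵀ * (Hm σ x s d vtx S A)⁻¹ * Rm vtx * prj S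
      = (prj S : Matrix ι ι ℝ) * ((Rm vtx)ᵀ * (Hm σ x s d vtx S A)⁻¹ * Rm vtx) * prj S := by
    simp only [Matrix.mul_assoc]
  rw [e] at hP ⊢
  have hM := LF.mat_conj S _ (LF.psd_symm hP)
  have hp := mat_prj S
  refine ⟨fun a b => ?_, fun a b ha => ?_, fun a => ?_⟩
  · simp only [Matrix.sub_apply, Matrix.smul_apply, smul_eq_mul]
    rw [hM.symm a b, hp.symm a b]
  · simp only [Matrix.sub_apply, Matrix.smul_apply, smul_eq_mul]
    rw [hM.supp a b ha, hp.supp a b ha]; ring
  · simp only [Matrix.sub_apply, Matrix.smul_apply, smul_eq_mul]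
    rw [Finset.sum_sub_distrib, ← Finset.mul_sum, ← Finset.mul_sum, hM.row a, hp.row a]; ring

/-- `F + s P ⪰ 0` -/
theorem Link.psd (h : Link σ x s d vtx S A F) (hs : s ^ 2 ≤ 1) :
    (F + s • (prj S : Matrix ι ι ℝ)).PosSemidef := by
  obtain ⟨hH, rfl⟩ := h
  rw [sub_add_cancel]
  exact (LF.psd_conj S (Rm vtx) hH.inv.posSemidef).smul (by linarith)

theorem Link.ent (h : Link σ x s d vtx S A F) (hs0 : 0 ≤ s) (hs : s ^ 2 ≤ 1 / 2)
    (hm : (1000 : ℝ) ≤ S.card) (hd : ∀ a, |F a a| ≤ 1 / 100) (a b : ι) : |F a b| ≤ 3 / 4 := by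
  have hM := h.mat
  by_cases hab : a = b
  · subst hab; linarith [hd a]
  by_cases ha : a ∈ S
  swap
  · rw [hM.supp a b ha]; norm_num
  by_cases hb : b ∈ S
  swap
  · rw [hM.supp' a b hb]; norm_num
  have h1 := LF.psd_ent (h.psd (by linarith)) a b
  simp only [Matrix.add_apply, Matrix.smul_apply, smul_eq_mul, prj, ha, hb, hab, and_self,
    if_true, if_false] at h1
  have hs1 : s ≤ 71 / 100 := by nlinarith
  have hm0 : 0 ≤ 1 / (S.card : ℝ) := by positivity
  have h2 : 0 ≤ s * (1 / (S.card : ℝ)) := mul_nonneg hs0 hm0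
  have ha' := abs_le.1 (hd a)
  have hb' := abs_le.1 (hd b)
  have h3 := abs_le.1 h1
  rw [abs_le]
  constructor <;> nlinarith [h3.1, h3.2]

theorem Link.a3_lo (h : Link σ x s d vtx S A F) (hs0 : 0 ≤ s) (hs : s ^ 2 ≤ 1) : -a2 F ≤ a3 F := by
  have hM := h.mat
  have h1 := ((h.psd hs).conjTranspose_mul_mul_same F).trace_nonneg
  rw [conjTranspose_eq_transpose_of_trivial, hM.transpose, Matrix.mul_add, Matrix.add_mul,
    Matrix.mul_smul, hM.mul_prj, Matrix.smul_mul, Matrix.trace_add, Matrix.trace_smul,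
    smul_eq_mul] at h1
  have h2 := hM.a2_nonneg
  have hs1 : s ≤ 1 := by nlinarith
  unfold a2 at h2 ⊢
  unfold a3
  nlinarith
end

/-- The initial link: `Hm = ((1 - s²)/φ) • 1`. -/
theorem link_init (n d : ℕ) (σ : ℝ) (hn : 0 < n) (hd : 0 < d) (hφ : 0 < phi0 ℝ n d)
    (hs : s0 ℝ n d ^ 2 < 1) :
    Link σ (x0 ℝ n d) (s0 ℝ n d) d (Prod.fst : Fin n × Fin d → Fin n) univ (fun _ _ => 0)
      (F0 ℝ n d) := by
  have hn' : (n : ℝ) ≠ 0 := by positivity
  have hd' : (d : ℝ) ≠ 0 := by positivity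
  have hfr : ∀ i : Fin n, fr (Prod.fst : Fin n × Fin d → Fin n) univ i = d := by
    intro i
    unfold fr
    have : (univ.filter fun a : Fin n × Fin d => a.1 = i) = {i} ×ˢ univ := by
      ext ⟨a, b⟩; simp [eq_comm]
    rw [this]; simp
  set c : ℝ := (1 - s0 ℝ n d ^ 2) / phi0 ℝ n d with hc
  have hc0 : 0 < c := div_pos (by linarith) hφ
  have hH : Hm σ (x0 ℝ n d) (s0 ℝ n d) d (Prod.fst : Fin n × Fin d → Fin n) univ (fun _ _ => 0)
      = c • (1 : Matrix (Fin n) (Fin n) ℝ) := by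
    ext i j
    simp only [Hm, hfr, Matrix.smul_apply, Matrix.one_apply, smul_eq_mul, Finset.card_univ,
      Fintype.card_prod, Fintype.card_fin, x0, Nat.cast_mul, Nat.cast_zero, ← hc]
    split_ifs <;> field_simp <;> ring
  have hinv : (c • (1 : Matrix (Fin n) (Fin n) ℝ))⁻¹ = c⁻¹ • (1 : Matrix (Fin n) (Fin n) ℝ) := by
    apply Matrix.inv_eq_left_inv
    rw [Matrix.smul_mul, Matrix.one_mul, smul_smul, inv_mul_cancel₀ hc0.ne', one_smul]
  refine ⟨by rw [hH]; exact Matrix.PosDef.one.smul hc0, ?_⟩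
  rw [hH, hinv]
  have hRP : Rm (Prod.fst : Fin n × Fin d → Fin n)
        * (prj univ : Matrix (Fin n × Fin d) (Fin n × Fin d) ℝ)
      = Matrix.of fun i b => (if b.1 = i then 1 else 0) - 1 / (n : ℝ) := by
    ext i b
    rw [Matrix.mul_apply]
    simp only [Rm, prj, Finset.mem_univ, and_self, if_true, mul_sub,
      Finset.sum_sub_distrib, Matrix.of_apply, Finset.card_univ, Fintype.card_prod,
      Fintype.card_fin, Nat.cast_mul]
    congr 1
    · simp
    · rw [← Finset.sum_mul, Fintype.sum_prod_type, Finset.sum_comm]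
      simp only [Finset.sum_ite_eq', Finset.mem_univ, if_true, Finset.sum_const, Finset.card_univ,
        Fintype.card_fin, nsmul_eq_mul, mul_one]
      field_simp
  have e : (prj univ : Matrix (Fin n × Fin d) (Fin n × Fin d) ℝ) * (Rm (Prod.fst : Fin n × Fin d → Fin n))ᵀ
      * (c⁻¹ • (1 : Matrix (Fin n) (Fin n) ℝ)) * Rm (Prod.fst : Fin n × Fin d → Fin n)
      * (prj univ : Matrix (Fin n × Fin d) (Fin n × Fin d) ℝ)
      = c⁻¹ • ((Rm (Prod.fst : Fin n × Fin d → Fin n) * (prj univ : Matrix (Fin n × Fin d) (Fin n × Fin d) ℝ))ᵀ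
        * (Rm (Prod.fst : Fin n × Fin d → Fin n) * (prj univ : Matrix (Fin n × Fin d) (Fin n × Fin d) ℝ))) := by
    rw [Matrix.transpose_mul, LF.prj_transpose, Matrix.mul_smul, Matrix.mul_one, Matrix.smul_mul,
      Matrix.smul_mul]
    simp only [Matrix.mul_assoc]
  rw [e, hRP, smul_smul]
  have hcc : (1 - s0 ℝ n d ^ 2) * c⁻¹ = phi0 ℝ n d := by
    rw [hc]
    have : (1 - s0 ℝ n d ^ 2) ≠ 0 := by linarith
    field_simp
  rw [hcc]
  ext a b
  simp only [F0, Matrix.sub_apply, Matrix.smul_apply, smul_eq_mul, Matrix.mul_apply,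
    Matrix.transpose_apply, Matrix.of_apply, prj, Finset.mem_univ, and_self, if_true,
    Finset.card_univ, Fintype.card_prod, Fintype.card_fin, Nat.cast_mul]
  congr 2
  simp only [sub_mul, mul_sub, Finset.sum_sub_distrib, ite_mul, mul_ite, one_mul, mul_one,
    zero_mul, mul_zero, Finset.sum_ite_eq, Finset.mem_univ, if_true, Finset.sum_const,
    Finset.card_univ, Fintype.card_fin, nsmul_eq_mul]
  by_cases hab : a.1 = b.1
  · simp only [hab, if_true]; field_simp; ring
  · simp only [hab, Ne.symm hab, if_false]; field_simp; ring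

end Crest.Agent.R62
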