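import Crest.Agent.R62.Upd
import Crest.Agent.R62.GenM

set_option autoImplicit false
set_option linter.unusedSectionVars false

open Finset Matrix

namespace Crest.Agent.R62

variable {ι V : Type} [Fintype ι] [DecidableEq ι] [Fintype V] [DecidableEq V]

namespace LS
open UpdX

/-- the two coordinate columns -/
def E (u v : ι) : Matrix ι (Fin 2) ℝ := fun a k => if a = ![u, v] k then 1 else 0

theorem mul_E {κ : Type} (A : Matrix κ ι ℝ) (u v : ι) (a : κ) (k : Fin 2) :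
    (A * E u v) a k = A a (![u, v] k) := by
  simp [mul_apply, E]

theorem Et_mul {κ : Type} (A : Matrix ι κ ℝ) (u v : ι) (k : Fin 2) (b : κ) :
    ((E u v)ᵀ * A) k b = A (![u, v] k) b := by
  simp [mul_apply, E]

theorem sand {κ κ' : Type} (X : Matrix κ (Fin 2) ℝ) (N : Matrix (Fin 2) (Fin 2) ℝ)
    (Y : Matrix κ' (Fin 2) ℝ) (a : κ) (b : κ') :
    (X * N * Yᵀ) a b = X a 0 * N 0 0 * Y b 0 + X a 1 * N 1 0 * Y b 0
      + X a 0 * N 0 1 * Y b 1 + X a 1 * N 1 1 * Y b 1 := by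
  simp only [mul_apply, Fin.sum_univ_two, transpose_apply]; ring

theorem prj_T (S : Finset ι) : (prj S : Matrix ι ι ℝ)ᵀ = prj S := by
  ext a b; rw [transpose_apply, prj_symm]

theorem RP (vtx : ι → V) (S : Finset ι) (i : V) {b : ι} (hb : b ∈ S) :
    (Rm vtx * (prj S : Matrix ι ι ℝ)) i b
      = (if vtx b = i then 1 else 0) - (fr vtx S i : ℝ) / S.card := by
  have : ∀ a, Rm vtx i a * (prj S : Matrix ι ι ℝ) a b =
      (if a = b then (if vtx b = i then 1 else 0) else 0)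
        - (if a ∈ S.filter (fun a => vtx a = i) then 1 / (S.card : ℝ) else 0) := fun a => by
    by_cases ha : a ∈ S
    · by_cases hab : a = b
      · subst hab
        by_cases hv : vtx a = i <;> simp [Rm, prj, ha, hv]
      · by_cases hv : vtx a = i <;> simp [Rm, prj, ha, hb, hv, hab]
    · have hab : a ≠ b := fun h => ha (h ▸ hb)
      simp [Rm, prj, ha, hab]
  simp only [mul_apply, this, sum_sub_distrib, sum_ite_eq', mem_univ, if_true, sum_ite_mem,
    univ_inter, sum_const, nsmul_eq_mul, fr]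
  ring

theorem fr_rem (vtx : ι → V) {S : Finset ι} {u v : ι} (h : u ≠ v) (hu : u ∈ S) (hv : v ∈ S)
    (i : V) : (fr vtx (rem S u v) i : ℝ)
      = fr vtx S i - (if vtx u = i then 1 else 0) - (if vtx v = i then 1 else 0) := by
  have e : ∀ T : Finset ι, (fr vtx T i : ℝ) = ∑ a ∈ T, if vtx a = i then 1 else 0 := fun T => by
    rw [fr, card_filter]; push_cast; rfl
  have h1 : v ∈ S.erase u := mem_erase.2 ⟨h.symm, hv⟩
  rw [e, e, rem, ← add_sum_erase S _ hu, ← add_sum_erase (S.erase u) _ h1]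
  ring

/-- Woodbury -/
theorem woodbury {H : Matrix V V ℝ} (hH : IsUnit H.det) (W : Matrix V (Fin 2) ℝ)
    (M T : Matrix (Fin 2) (Fin 2) ℝ) (h : T = M + M * (Wᵀ * H⁻¹ * W) * T) :
    (H - W * M * Wᵀ)⁻¹ = H⁻¹ + H⁻¹ * W * T * Wᵀ * H⁻¹ := by
  apply Matrix.inv_eq_right_inv
  have h1 : H * H⁻¹ = 1 := mul_nonsing_inv H hH
  have h2 : W * T * Wᵀ * H⁻¹ = W * M * Wᵀ * H⁻¹ + W * M * Wᵀ * (H⁻¹ * W * T * Wᵀ * H⁻¹) := by
    conv_lhs => rw [h]
    simp only [Matrix.mul_add, Matrix.add_mul, Matrix.mul_assoc]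
  have h3 : H * (H⁻¹ * W * T * Wᵀ * H⁻¹) = W * T * Wᵀ * H⁻¹ := by
    simp only [← Matrix.mul_assoc, h1, Matrix.one_mul]
  rw [Matrix.sub_mul, Matrix.mul_add, Matrix.mul_add, h1, h3, h2]
  abel

/-- rank-one downdate -/
theorem pos_down {H : Matrix V V ℝ} (hH : H.PosDef) (w : V → ℝ) {lam : ℝ} (h0 : 0 ≤ lam)
    (h1 : lam * (w ⬝ᵥ (H⁻¹ *ᵥ w)) < 1) {z : V → ℝ} (hz : z ≠ 0) :
    lam * (w ⬝ᵥ z) ^ 2 < z ⬝ᵥ (H *ᵥ z) := by
  have hU : IsUnit H.det := (Matrix.isUnit_iff_isUnit_det H).1 hH.isUnit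
  have hsym : Hᵀ = H := by simpa using hH.isHermitian.eq
  set g := H⁻¹ *ᵥ w with hg
  have hHg : H *ᵥ g = w := by rw [hg, mulVec_mulVec, mul_nonsing_inv H hU, one_mulVec]
  have hgz : g ⬝ᵥ (H *ᵥ z) = w ⬝ᵥ z := by
    rw [dotProduct_mulVec, ← mulVec_transpose, hsym, hHg]
  have hQ : 0 < z ⬝ᵥ (H *ᵥ z) := by simpa using hH.dotProduct_mulVec_pos hz
  set β := w ⬝ᵥ z with hβ
  have h2 : 0 ≤ (z - (lam * β) • g) ⬝ᵥ (H *ᵥ (z - (lam * β) • g)) := by
    simpa using hH.posSemidef.dotProduct_mulVec_nonneg (z - (lam * β) • g)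
  rw [mulVec_sub, mulVec_smul, hHg, sub_dotProduct, dotProduct_sub, dotProduct_sub,
    smul_dotProduct, dotProduct_smul, smul_dotProduct, dotProduct_smul, hgz, dotProduct_comm z w,
    dotProduct_comm g w, ← hβ] at h2
  simp only [smul_eq_mul] at h2
  set q := w ⬝ᵥ g
  by_cases hb : lam * β ^ 2 = 0
  · rw [hb]; exact hQ
  · have h3 : 0 < lam * β ^ 2 := lt_of_le_of_ne (by positivity) (Ne.symm hb)
    nlinarith [mul_pos h3 (sub_pos.2 h1)]

section
variable {σ : ℝ} {S : Finset ι} {F : Matrix ι ι ℝ} {u v : ι}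

noncomputable def Mm (σ s m : ℝ) : Matrix (Fin 2) (Fin 2) ℝ :=
  !![σ / (m - 2) - s * (1 + 1 / (m - 2)), σ * (1 + 1 / (m - 2)) - s / (m - 2);
    σ * (1 + 1 / (m - 2)) - s / (m - 2), σ / (m - 2) - s * (1 + 1 / (m - 2))]

noncomputable def Nm (σ : ℝ) (S : Finset ι) (F : Matrix ι ι ℝ) (u v : ι) :
    Matrix (Fin 2) (Fin 2) ℝ :=
  !![n1 σ S F u v, n2 σ S F u v; n2 σ S F u v, n1 σ S F v u]

theorem prj_rem_mul (S : Finset ι) (u v : ι) :
    (prj (rem S u v) : Matrix ι ι ℝ) * prj S = prj (rem S u v) := by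
  have : Mat S (prj (rem S u v) : Matrix ι ι ℝ) :=
    ⟨prj_symm _, fun a b ha => prj_out _ (fun h => ha (mem_rem.1 h).1) b, prj_row _⟩
  exact this.mul_prj

theorem prj_mul_rem (S : Finset ι) (u v : ι) :
    (prj S : Matrix ι ι ℝ) * prj (rem S u v) = prj (rem S u v) := by
  have : Mat S (prj (rem S u v) : Matrix ι ι ℝ) :=
    ⟨prj_symm _, fun a b ha => prj_out _ (fun h => ha (mem_rem.1 h).1) b, prj_row _⟩
  exact this.prj_mul

theorem prj_rem_E (S : Finset ι) (u v : ι) :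
    (prj (rem S u v) : Matrix ι ι ℝ) * E u v = 0 := by
  ext a k
  rw [mul_E, prj_symm, prj_out]
  · rfl
  · fin_cases k <;> simp [mem_rem]

theorem mul2 {κ : Type} (X : Matrix κ (Fin 2) ℝ) (N : Matrix (Fin 2) (Fin 2) ℝ) (a : κ)
    (k : Fin 2) : (X * N) a k = X a 0 * N 0 k + X a 1 * N 1 k := by
  simp only [mul_apply, Fin.sum_univ_two]

theorem upd_sand (hl : Loc σ S F u v) :
    upd σ S F u v = prj (rem S u v) * (F + F * E u v * Nm σ S F u v * (F * E u v)ᵀ)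
      * prj (rem S u v) := by
  obtain ⟨P, hP⟩ : ∃ P : Matrix ι ι ℝ, P = prj S := ⟨_, rfl⟩
  obtain ⟨P', hP'⟩ : ∃ P' : Matrix ι ι ℝ, P' = prj (rem S u v) := ⟨_, rfl⟩
  obtain ⟨J, hJ⟩ : ∃ J : Matrix (Fin 2) (Fin 2) ℝ, J = !![0, σ; σ, 0] := ⟨_, rfl⟩
  obtain ⟨K, hK⟩ : ∃ K : Matrix (Fin 2) (Fin 2) ℝ, K = !![σ / ((S.card : ℝ) - 2),
    σ + σ / ((S.card : ℝ) - 2); σ + σ / ((S.card : ℝ) - 2), σ / ((S.card : ℝ) - 2)] := ⟨_, rfl⟩
  obtain ⟨Y, hY⟩ : ∃ Y, Y = F * E u v - P * E u v * J := ⟨_, rfl⟩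
  have hPT : P'ᵀ = P' := by rw [hP', prj_T]
  have hPE : P' * (P * E u v) = 0 := by
    rw [← Matrix.mul_assoc, hP, hP', prj_rem_mul, prj_rem_E]
  have e1 : upd σ S F u v = F + Y * Nm σ S F u v * Yᵀ - P * E u v * K * (P * E u v)ᵀ := by
    have y0 : ∀ a, Y a 0 = hat σ S F u v a := fun a => by
      rw [hY, Matrix.sub_apply, mul2, mul_E, mul_E, mul_E, hJ, hat, hP]; simp [mul_comm]
    have y1 : ∀ a, Y a 1 = hat σ S F v u a := fun a => by
      rw [hY, Matrix.sub_apply, mul2, mul_E, mul_E, mul_E, hJ, hat, hP]; simp [mul_comm]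
    rw [hl.upd_eq]
    ext a b
    simp only [Matrix.add_apply, Matrix.sub_apply, sand, y0, y1, mul_E, Matrix.smul_apply,
      vecMulVec_apply, smul_eq_mul, Nm, hK, hP]
    simp
    ring
  have e2 : upd σ S F u v = P' * upd σ S F u v * P' := by
    rw [hP', hl.mat_upd.prj_mul, hl.mat_upd.mul_prj]
  have e3 : P' * Y = P' * (F * E u v) := by
    rw [hY, Matrix.mul_sub, ← Matrix.mul_assoc P' (P * E u v), hPE, Matrix.zero_mul, sub_zero]
  have e4 : Yᵀ * P' = (F * E u v)ᵀ * P' := by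
    have := congrArg transpose e3
    rwa [transpose_mul, transpose_mul P', hPT] at this
  rw [e2, e1, ← hP']
  simp only [Matrix.mul_add, Matrix.add_mul, Matrix.mul_sub, Matrix.sub_mul]
  rw [← Matrix.mul_assoc P' (P * E u v * K), ← Matrix.mul_assoc P' (P * E u v), hPE]
  simp only [Matrix.zero_mul, sub_zero]
  congr 1
  calc P' * (Y * Nm σ S F u v * Yᵀ) * P' = (P' * Y) * Nm σ S F u v * (Yᵀ * P') := by
        simp only [Matrix.mul_assoc]
    _ = _ := by rw [e3, e4]; simp only [Matrix.mul_assoc]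

theorem Hm_step (hl : Loc σ S F u v) (x s : ℝ) (d : ℕ) (vtx : ι → V) (A : V → V → ℕ) :
    Hm σ x s d vtx (rem S u v) (addE A (vtx u) (vtx v))
      = Hm σ x s d vtx S A - Rm vtx * (prj S : Matrix ι ι ℝ) * E u v * Mm σ s S.card
        * (Rm vtx * (prj S : Matrix ι ι ℝ) * E u v)ᵀ := by
  have hm : (S.card : ℝ) ≠ 0 := by have := hl.big; intro h0; linarith
  have hm2 : (S.card : ℝ) - 2 ≠ 0 := by have := hl.big; intro h0; linarith
  ext i j
  rw [Matrix.sub_apply, sand]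
  simp only [mul_E, Matrix.cons_val_zero, Matrix.cons_val_one, RP vtx S _ hl.hu, RP vtx S _ hl.hv,
    Hm, fr_rem vtx hl.ne hl.hu hl.hv, card_rem_real hl.ne hl.hu hl.hv, addE, Mm, of_apply,
    cons_val', cons_val_fin_one]
  push_cast
  have k1 : ∀ p q : V, (if i = p ∧ j = q then (1 : ℝ) else 0)
      = (if p = i then 1 else 0) * (if q = j then 1 else 0) := fun p q => by
    by_cases h1 : i = p <;> by_cases h2 : j = q <;> simp [h1, h2, eq_comm]
  have k2 : (if i = j then x - s * ((fr vtx S i : ℝ) - (if vtx u = i then 1 else 0)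
        - (if vtx v = i then 1 else 0)) else 0)
      = (if i = j then x - s * fr vtx S i else 0)
        + s * ((if vtx u = i then 1 else 0) * (if vtx u = j then 1 else 0)
          + (if vtx v = i then 1 else 0) * (if vtx v = j then 1 else 0)) := by
    by_cases h : i = j
    · subst h
      by_cases h1 : vtx u = i <;> by_cases h2 : vtx v = i <;> simp [h1, h2] <;> ring
    · have a1 : ∀ p : V, (if p = i then (1 : ℝ) else 0) * (if p = j then 1 else 0) = 0 :=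
        fun p => by
          by_cases h1 : p = i
          · subst h1; simp [h]
          · simp [h1]
      simp [h, a1]
  rw [k1, k1, k2]
  generalize (if vtx u = i then (1 : ℝ) else 0) = a
  generalize (if vtx u = j then (1 : ℝ) else 0) = a'
  generalize (if vtx v = i then (1 : ℝ) else 0) = b
  generalize (if vtx v = j then (1 : ℝ) else 0) = b'
  generalize (if i = j then x - s * (fr vtx S i : ℝ) else 0) = c
  field_simp
  ring

/-- the `2 × 2` identity behind Woodbury -/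
theorem two_id (hl : Loc σ S F u v) (s : ℝ) :
    (1 - s ^ 2) • Nm σ S F u v = Mm σ s S.card
      + Mm σ s S.card * ((E u v)ᵀ * (F + s • (prj S : Matrix ι ι ℝ)) * E u v) * Nm σ S F u v := by
  have hs2 : σ ^ 2 = 1 := by rcases hl.sg with h | h <;> simp [h]
  have hp0 : psi σ S F u v ≠ 0 := by have := hl.psi_ge; intro h0; linarith
  have hm : (S.card : ℝ) ≠ 0 := by have := hl.big; intro h0; linarith
  have hm2 : (S.card : ℝ) - 2 ≠ 0 := by have := hl.big; intro h0; linarith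
  have p1 : (prj S : Matrix ι ι ℝ) u u = 1 - 1 / S.card := by simp [prj, hl.hu]
  have p2 : (prj S : Matrix ι ι ℝ) u v = - (1 / S.card) := by simp [prj, hl.hu, hl.hv, hl.ne]
  have p3 : (prj S : Matrix ι ι ℝ) v v = 1 - 1 / S.card := by simp [prj, hl.hv]
  have p4 : (prj S : Matrix ι ι ℝ) v u = - (1 / S.card) := by rw [prj_symm, p2]
  have c : (E u v)ᵀ * (F + s • (prj S : Matrix ι ι ℝ)) * E u v
      = !![F u u + s * (1 - 1 / S.card), F u v - s / S.card;
          F u v - s / S.card, F v v + s * (1 - 1 / S.card)] := by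
    ext k l
    rw [mul_E, Et_mul]
    fin_cases k <;> fin_cases l <;>
      simp [p1, p2, p3, p4, hl.mat.symm v u, sub_eq_add_neg, div_eq_mul_inv]
  rw [c]
  have hψ : psi σ S F u v = (σ - σ / S.card - F u v) ^ 2
      - (F u u + σ / S.card) * (F v v + σ / S.card) := rfl
  ext k l
  fin_cases k <;> fin_cases l <;>
    simp only [Nm, Mm, n1, n2, hl.psi_swap, dd, ww, mul2, Matrix.add_apply, Matrix.smul_apply,
      smul_eq_mul, of_apply, cons_val', cons_val_zero, cons_val_one, cons_val_fin_one,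
      Fin.zero_eta, Fin.mk_one, Fin.isValue] <;>
    generalize psi σ S F u v = ψ at hp0 hψ ⊢ <;>
    generalize (S.card : ℝ) = m at hm hm2 hψ ⊢ <;>
    field_simp <;> rw [hψ] <;> rcases hl.sg with h | h <;> subst h <;> field_simp <;> ring

theorem prj_sand (S : Finset ι) (F : Matrix ι ι ℝ) (u v : ι) (s : ℝ) :
    (prj (rem S u v) : Matrix ι ι ℝ) * ((F + s • (prj S : Matrix ι ι ℝ)) * E u v)
      = (prj (rem S u v) : Matrix ι ι ℝ) * (F * E u v) := by
  rw [Matrix.add_mul, Matrix.mul_add, Matrix.smul_mul, Matrix.mul_smul,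
    ← Matrix.mul_assoc _ (prj S), prj_rem_mul, prj_rem_E, smul_zero, add_zero]

theorem quad_le (hl : Loc σ S F u v) {s : ℝ} (hs0 : 0 ≤ s) (t0 t1 : ℝ) :
    t0 * Mm σ s S.card 0 0 * t0 + t1 * Mm σ s S.card 1 0 * t0 + t0 * Mm σ s S.card 0 1 * t1
      + t1 * Mm σ s S.card 1 1 * t1
      ≤ (1 - s) * (1 + (1 + σ) / (S.card - 2)) / 2 * (t0 + σ * t1) ^ 2 := by
  have hm2 : (0 : ℝ) < S.card - 2 := by have := hl.big; linarith
  simp only [Mm, of_apply, cons_val', cons_val_zero, cons_val_one, cons_val_fin_one]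
  have he : 0 < 1 / ((S.card : ℝ) - 2) := by positivity
  simp only [div_eq_mul_inv _ ((S.card : ℝ) - 2), one_mul] at he ⊢
  generalize ((S.card : ℝ) - 2)⁻¹ = e at he ⊢
  rcases hl.sg with h | h <;> subst h
  · nlinarith [mul_nonneg (by linarith : 0 ≤ 1 + s) (sq_nonneg (t0 - t1))]
  · nlinarith [mul_nonneg (mul_nonneg (by linarith : 0 ≤ 1 + s) (by linarith : 0 ≤ 1 + 2 * e))
      (sq_nonneg (t0 + t1))]

end

end LS

/-- The update preserves the link (Woodbury). -/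
theorem link_step {σ x s : ℝ} {d : ℕ} {vtx : ι → V} {S : Finset ι} {A : V → V → ℕ}
    {F : Matrix ι ι ℝ} {u v : ι} (hs0 : 0 ≤ s) (hs1 : s < 1) (h : Link σ x s d vtx S A F)
    (hl : Loc σ S F u v) :
    Link σ x s d vtx (rem S u v) (addE A (vtx u) (vtx v)) (upd σ S F u v) := by
  obtain ⟨hH, hF⟩ := h
  rw [Link, LS.Hm_step hl]
  obtain ⟨H, hHd⟩ : ∃ H, H = Hm σ x s d vtx S A := ⟨_, rfl⟩
  rw [← hHd] at hH hF ⊢
  obtain ⟨P, hP⟩ : ∃ P : Matrix ι ι ℝ, P = prj S := ⟨_, rfl⟩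
  obtain ⟨P', hP'⟩ : ∃ P' : Matrix ι ι ℝ, P' = prj (rem S u v) := ⟨_, rfl⟩
  obtain ⟨W, hW⟩ : ∃ W, W = Rm vtx * P * LS.E u v := ⟨_, rfl⟩
  obtain ⟨M, hM⟩ : ∃ M, M = LS.Mm σ s S.card := ⟨_, rfl⟩
  have hU : IsUnit H.det := (Matrix.isUnit_iff_isUnit_det H).1 hH.isUnit
  have hsym : Hᵀ = H := by simpa using hH.isHermitian.eq
  have hκ : 0 < 1 - s ^ 2 := by nlinarith
  have hPT : Pᵀ = P := by rw [hP, LS.prj_T]
  have hX : F + s • P = (1 - s ^ 2) • (P * (Rm vtx)ᵀ * H⁻¹ * Rm vtx * P) := by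
    rw [hP]; conv_lhs => rw [hF]
    abel
  have hC : (LS.E u v)ᵀ * (F + s • P) * LS.E u v = (1 - s ^ 2) • (Wᵀ * H⁻¹ * W) := by
    rw [hX, hW]
    simp only [Matrix.mul_smul, Matrix.smul_mul, transpose_mul, hPT, Matrix.mul_assoc]
  rw [← hP, ← hP', ← hW, ← hM]
  constructor
  · have hMT : Mᵀ = M := by
      rw [hM]; ext k l; fin_cases k <;> fin_cases l <;> rfl
    refine Matrix.PosDef.of_dotProduct_mulVec_pos ?_ fun z hz => ?_
    · have : (H - W * M * Wᵀ)ᵀ = H - W * M * Wᵀ := by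
        simp only [transpose_sub, transpose_mul, transpose_transpose, hsym, hMT, Matrix.mul_assoc]
      simpa [Matrix.IsHermitian] using this
    have hm2 : (0 : ℝ) < S.card - 2 := by have := hl.big; linarith
    have hσ : 0 ≤ 1 + σ := by rcases hl.sg with h | h <;> rw [h] <;> norm_num
    obtain ⟨c, hc⟩ : ∃ c : Fin 2 → ℝ, c = ![1, σ] := ⟨_, rfl⟩
    obtain ⟨t, ht⟩ : ∃ t, t = Wᵀ *ᵥ z := ⟨_, rfl⟩
    have q1 : z ⬝ᵥ ((W * M * Wᵀ) *ᵥ z)
        = t 0 * M 0 0 * t 0 + t 1 * M 1 0 * t 0 + t 0 * M 0 1 * t 1 + t 1 * M 1 1 * t 1 := by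
      rw [← mulVec_mulVec, ← mulVec_mulVec, dotProduct_mulVec, ← mulVec_transpose, ← ht]
      simp only [dotProduct, mulVec, Fin.sum_univ_two]; ring
    have q2 : (W *ᵥ c) ⬝ᵥ z = t 0 + σ * t 1 := by
      rw [dotProduct_comm, dotProduct_mulVec, ← mulVec_transpose, ← ht, hc]
      simp [dotProduct, Fin.sum_univ_two, mul_comm]
    have q3 : (1 - s ^ 2) * ((W *ᵥ c) ⬝ᵥ (H⁻¹ *ᵥ (W *ᵥ c)))
        = F u u + F v v + 2 * σ * F u v + s * (2 - 2 * (1 + σ) / S.card) := by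
      have e : (W *ᵥ c) ⬝ᵥ (H⁻¹ *ᵥ (W *ᵥ c)) = c ⬝ᵥ ((Wᵀ * H⁻¹ * W) *ᵥ c) := by
        rw [← mulVec_mulVec, ← mulVec_mulVec, dotProduct_mulVec c, vecMul_transpose]
      rw [e, ← smul_eq_mul, ← dotProduct_smul, ← smul_mulVec, ← hC, hc, hP]
      have hs2 : σ ^ 2 = 1 := by rcases hl.sg with h | h <;> simp [h]
      have p1 : (prj S : Matrix ι ι ℝ) u u = 1 - 1 / S.card := by simp [prj, hl.hu]
      have p2 : (prj S : Matrix ι ι ℝ) u v = - (1 / S.card) := by simp [prj, hl.hu, hl.hv, hl.ne]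
      have p3 : (prj S : Matrix ι ι ℝ) v v = 1 - 1 / S.card := by simp [prj, hl.hv]
      have p4 : (prj S : Matrix ι ι ℝ) v u = - (1 / S.card) := by rw [UpdX.prj_symm, p2]
      simp only [dotProduct, mulVec, Fin.sum_univ_two, LS.mul_E, LS.Et_mul, cons_val_zero,
        cons_val_one, cons_val_fin_one, Matrix.add_apply, Matrix.smul_apply, smul_eq_mul, p1, p2,
        p3, p4, hl.mat.symm v u]
      linear_combination (F v v + s * (1 - 1 / (S.card : ℝ))) * hs2
    have key := LS.pos_down hH (W *ᵥ c)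
      (lam := (1 - s) * (1 + (1 + σ) / (S.card - 2)) / 2)
      (by have : 0 ≤ 1 - s := by linarith
          positivity) ?_ hz
    · rw [q2] at key
      have := LS.quad_le hl hs0 (t 0) (t 1)
      rw [← hM, ← q1] at this
      simp only [star_trivial, sub_mulVec, dotProduct_sub]
      linarith
    · have hq : (W *ᵥ c) ⬝ᵥ (H⁻¹ *ᵥ (W *ᵥ c))
          = (F u u + F v v + 2 * σ * F u v + s * (2 - 2 * (1 + σ) / S.card)) / (1 - s ^ 2) := by
        rw [← q3]; field_simp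
      have hΦ : F u u + F v v + 2 * σ * F u v ≤ 4 / 1000 := by
        have a1 := (abs_le.1 hl.du).2
        have a2 := (abs_le.1 hl.dv).2
        have a3 := abs_le.1 hl.f
        rcases hl.sg with h | h <;> rw [h] <;> linarith [a3.1, a3.2]
      rw [hq]
      generalize F u u + F v v + 2 * σ * F u v = Φ at hΦ ⊢
      have hb := hl.big
      have h1s : 0 < 1 - s := by linarith
      have e : (1 - s) * (1 + (1 + σ) / (S.card - 2)) / 2
          * ((Φ + s * (2 - 2 * (1 + σ) / S.card)) / (1 - s ^ 2))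
          = ((1 + (1 + σ) / (S.card - 2)) * Φ / 2 + s) / (1 + s) := by
        have : (1 - s ^ 2) = (1 - s) * (1 + s) := by ring
        have hm : (S.card : ℝ) ≠ 0 := by linarith
        rw [this]
        rcases hl.sg with h | h <;> rw [h] <;> field_simp <;> ring
      rw [e, div_lt_one (by linarith)]
      have : (1 + σ) / ((S.card : ℝ) - 2) ≤ 1 := by
        rw [div_le_one hm2]
        rcases hl.sg with h | h <;> rw [h] <;> linarith
      have h0 : 0 ≤ (1 + σ) / ((S.card : ℝ) - 2) := by positivity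
      nlinarith
  · have hT := LS.two_id hl s
    rw [← hP, hC, ← hM] at hT
    obtain ⟨N, hN⟩ : ∃ N, N = LS.Nm σ S F u v := ⟨_, rfl⟩
    rw [← hN] at hT
    have hT' : (1 - s ^ 2) • N = M + M * (Wᵀ * H⁻¹ * W) * ((1 - s ^ 2) • N) := by
      conv_lhs => rw [hT]
      simp only [Matrix.mul_smul, Matrix.smul_mul]
    rw [LS.woodbury hU W M _ hT', LS.upd_sand hl, ← hP', ← hN]
    have hP1 : P' * P = P' := by rw [hP, hP', LS.prj_rem_mul]
    have hP2 : P * P' = P' := by rw [hP, hP', LS.prj_mul_rem]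
    have hP3 : P' * P' = P' := by rw [hP', prj_mul_prj]
    have hP'T : P'ᵀ = P' := by rw [hP', LS.prj_T]
    have hGT : H⁻¹ᵀ = H⁻¹ := by rw [transpose_nonsing_inv, hsym]
    have f1 : (1 - s ^ 2) • (P' * (Rm vtx)ᵀ * H⁻¹ * Rm vtx * P') = P' * F * P' + s • P' := by
      have : P' * (F + s • P) * P' = P' * F * P' + s • P' := by
        rw [Matrix.mul_add, Matrix.add_mul, Matrix.mul_smul, Matrix.smul_mul, hP1, hP3]
      rw [← this, hX, Matrix.mul_smul, Matrix.smul_mul]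
      congr 1
      calc P' * (Rm vtx)ᵀ * H⁻¹ * Rm vtx * P'
          = (P' * P) * (Rm vtx)ᵀ * H⁻¹ * Rm vtx * (P * P') := by rw [hP1, hP2]
        _ = _ := by simp only [Matrix.mul_assoc]
    have f2 : (1 - s ^ 2) • (P' * (Rm vtx)ᵀ * H⁻¹ * W) = P' * (F * LS.E u v) := by
      have := LS.prj_sand S F u v s
      rw [← hP, ← hP'] at this
      rw [← this, hX, hW, Matrix.smul_mul, Matrix.mul_smul]
      congr 1
      calc P' * (Rm vtx)ᵀ * H⁻¹ * (Rm vtx * P * LS.E u v)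
          = (P' * P) * (Rm vtx)ᵀ * H⁻¹ * (Rm vtx * P * LS.E u v) := by rw [hP1]
        _ = _ := by simp only [Matrix.mul_assoc]
    have f3 : (1 - s ^ 2) • (Wᵀ * H⁻¹ * Rm vtx * P') = (F * LS.E u v)ᵀ * P' := by
      have := congrArg transpose f2
      simpa only [transpose_smul, transpose_mul, transpose_transpose, hGT, hP'T,
        Matrix.mul_assoc] using this
    have f4 : (1 - s ^ 2) • (P' * (Rm vtx)ᵀ * (H⁻¹ * W * ((1 - s ^ 2) • N) * Wᵀ * H⁻¹) * Rm vtx * P')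
        = P' * (F * LS.E u v * N * (F * LS.E u v)ᵀ) * P' := by
      calc _ = ((1 - s ^ 2) • (P' * (Rm vtx)ᵀ * H⁻¹ * W)) * N
            * ((1 - s ^ 2) • (Wᵀ * H⁻¹ * Rm vtx * P')) := by
            simp only [Matrix.mul_smul, Matrix.smul_mul, Matrix.mul_assoc]
        _ = _ := by rw [f2, f3]; simp only [Matrix.mul_assoc]
    simp only [Matrix.mul_add, Matrix.add_mul, smul_add]
    rw [f1, f4]
    abel

end Crest.Agent.R62
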