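import Crest.Agent.R62.Defs

set_option autoImplicit false

open Finset Matrix

namespace Crest.Agent.R62

namespace SizeX

/-- `E * x` is an integer. -/
def Dn (E : ℕ) (x : ℝ) : Prop := ∃ z : ℤ, (E : ℝ) * x = z

theorem Dn.add {E : ℕ} {x y : ℝ} (hx : Dn E x) (hy : Dn E y) : Dn E (x + y) := by
  obtain ⟨a, ha⟩ := hx; obtain ⟨b, hb⟩ := hy
  exact ⟨a + b, by rw [mul_add, ha, hb]; push_cast; ring⟩

theorem Dn.sub {E : ℕ} {x y : ℝ} (hx : Dn E x) (hy : Dn E y) : Dn E (x - y) := by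
  obtain ⟨a, ha⟩ := hx; obtain ⟨b, hb⟩ := hy
  exact ⟨a - b, by rw [mul_sub, ha, hb]; push_cast; ring⟩

theorem Dn.mul {E E' : ℕ} {x y : ℝ} (hx : Dn E x) (hy : Dn E' y) : Dn (E * E') (x * y) := by
  obtain ⟨a, ha⟩ := hx; obtain ⟨b, hb⟩ := hy
  exact ⟨a * b, by push_cast; rw [← ha, ← hb]; ring⟩

theorem Dn.of_dvd {E E' : ℕ} {x : ℝ} (hx : Dn E x) (h : E ∣ E') : Dn E' x := by
  obtain ⟨a, ha⟩ := hx; obtain ⟨k, rfl⟩ := h
  exact ⟨k * a, by push_cast; rw [← ha]; ring⟩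

theorem dn_int (z : ℤ) : Dn 1 (z : ℝ) := ⟨z, by simp⟩
theorem dn_nat (z : ℕ) : Dn 1 (z : ℝ) := ⟨z, by simp⟩
theorem dn_zero (E : ℕ) : Dn E 0 := ⟨0, by simp⟩
theorem dn_one (E : ℕ) : Dn E 1 := ⟨E, by simp⟩

theorem Dn.mul_one' {E : ℕ} {x y : ℝ} (hx : Dn E x) (hy : Dn 1 y) : Dn E (x * y) := by
  simpa using hx.mul hy

theorem Dn.one_mul' {E : ℕ} {x y : ℝ} (hx : Dn 1 x) (hy : Dn E y) : Dn E (x * y) := by
  simpa using hx.mul hy

theorem dn_sum {α : Type} (s : Finset α) {E : ℕ} {f : α → ℝ} (h : ∀ a ∈ s, Dn E (f a)) :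
    Dn E (∑ a ∈ s, f a) := by
  classical
  induction s using Finset.induction_on with
  | empty => simpa using dn_zero E
  | insert a s ha ih =>
    rw [Finset.sum_insert ha]
    exact (h a (by simp)).add (ih fun b hb => h b (by simp [hb]))

theorem dn_inv (m : ℕ) : Dn (max m 1) ((m : ℝ)⁻¹) := by
  rcases Nat.eq_zero_or_pos m with rfl | h
  · simpa using dn_zero 1
  · rw [max_eq_left h]
    exact ⟨1, by rw [mul_inv_cancel₀ (by exact_mod_cast h.ne')]; simp⟩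

theorem dn_ite {E : ℕ} (c : Prop) [Decidable c] {x y : ℝ} (hx : Dn E x) (hy : Dn E y) :
    Dn E (if c then x else y) := by
  split_ifs <;> assumption

theorem small_of_dn {E B : ℕ} (q : ℚ) (hE : 0 < E) (hq : Dn E (q : ℝ)) (h1 : |q| ≤ 1)
    (hB : E ≤ 2 ^ B) : q.num.natAbs ≤ 2 ^ B ∧ q.den ≤ 2 ^ B := by
  obtain ⟨z, hz⟩ := hq
  have hz' : (E : ℚ) * q = z := by exact_mod_cast hz
  have hq : q = (z : ℚ) / ((E : ℤ) : ℚ) := by
    rw [eq_div_iff (by exact_mod_cast hE.ne'), ← hz']; push_cast; ring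
  have hd : q.den ≤ E := by
    have h2 : ((q.den : ℕ) : ℤ) ∣ (E : ℤ) := by
      have := Rat.den_dvd z (E : ℤ)
      rwa [Rat.divInt_eq_div, ← hq] at this
    exact Nat.le_of_dvd hE (by exact_mod_cast h2)
  refine ⟨?_, hd.trans hB⟩
  have hn : q.num.natAbs ≤ q.den := by
    have h3 : |(q.num : ℚ)| ≤ q.den := by
      have h4 : (q.num : ℚ) = q * q.den := by
        rw [Rat.mul_den_eq_num]
      rw [h4, abs_mul, Nat.abs_cast]
      exact mul_le_of_le_one_left (by positivity) h1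
    have h5 : |q.num| ≤ (q.den : ℤ) := by exact_mod_cast h3
    rw [← Int.natCast_natAbs] at h5
    exact_mod_cast h5
  exact hn.trans (hd.trans hB)

/-- Cramer's rule with denominators. -/
theorem inv_dn {n D : ℕ} (hD : 0 < D) (H : Matrix (Fin n) (Fin n) ℝ) (hH : H.det ≠ 0)
    (h1 : ∀ i j, Dn D (H i j)) (B : ℕ) (hB : ∀ i j, |H i j| ≤ B) :
    ∃ E : ℕ, 0 < E ∧ E ≤ (n * (D * B)) ^ n ∧ ∀ i j, Dn E (H⁻¹ i j) := by
  choose M hM using h1
  let M0 : Matrix (Fin n) (Fin n) ℤ := Matrix.of M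
  let M' : Matrix (Fin n) (Fin n) ℝ := (Int.castRingHom ℝ).mapMatrix M0
  have hM' : M' = (D : ℝ) • H := by
    ext i j
    simp [M', M0, ← hM]
  have hDr : (D : ℝ) ≠ 0 := by exact_mod_cast hD.ne'
  have hdet : M'.det = (M0.det : ℝ) := by
    simp only [M']
    rw [← RingHom.map_det]; simp
  have hdet0 : M'.det ≠ 0 := by
    rw [hM', Matrix.det_smul]
    exact mul_ne_zero (pow_ne_zero _ hDr) hH
  have hz : M0.det ≠ 0 := by
    intro h; apply hdet0; rw [hdet, h]; simp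
  have hinv : H⁻¹ = (D : ℝ) • M'⁻¹ := by
    apply Matrix.inv_eq_right_inv
    rw [Matrix.mul_smul, ← Matrix.smul_mul, ← hM']
    exact Matrix.mul_nonsing_inv _ (Ne.isUnit hdet0)
  have hadj : M'.adjugate = (Int.castRingHom ℝ).mapMatrix M0.adjugate := by
    simp only [M']
    rw [RingHom.map_adjugate]
  refine ⟨M0.det.natAbs, Int.natAbs_pos.mpr hz, ?_, fun i j => ?_⟩
  · have hb : ∀ i j, |M0 i j| ≤ ((D * B : ℕ) : ℤ) := by
      intro i j
      have : |((M0 i j : ℤ) : ℝ)| ≤ ((D * B : ℕ) : ℝ) := by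
        simp only [M0, Matrix.of_apply]
        rw [← hM, abs_mul, Nat.abs_cast]
        push_cast
        exact mul_le_mul_of_nonneg_left (hB i j) (by positivity)
      exact_mod_cast this
    have h2 := Matrix.det_le (A := M0) (abv := AbsoluteValue.abs) (x := ((D * B : ℕ) : ℤ)) hb
    simp only [AbsoluteValue.abs_apply, Fintype.card_fin, nsmul_eq_mul] at h2
    have h3 : (M0.det.natAbs : ℤ) ≤ ((n.factorial * (D * B) ^ n : ℕ) : ℤ) := by
      rw [Int.natCast_natAbs]; push_cast at h2 ⊢; exact h2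
    have h4 : M0.det.natAbs ≤ n.factorial * (D * B) ^ n := by exact_mod_cast h3
    refine h4.trans ?_
    rw [mul_pow n]
    exact Nat.mul_le_mul_right _ (Nat.factorial_le_pow n)
  · rw [hinv, Matrix.inv_def, hadj, hdet]
    have hzr : ((M0.det : ℤ) : ℝ) ≠ 0 := by exact_mod_cast hz
    refine ⟨M0.det.sign * (D * M0.adjugate i j), ?_⟩
    have h5 : ((M0.det.natAbs : ℕ) : ℝ) = (M0.det.sign : ℝ) * (M0.det : ℝ) := by
      have : ((M0.det.natAbs : ℕ) : ℤ) = M0.det.sign * M0.det := by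
        rw [Int.sign_mul_self_eq_natAbs]
      rw [← Int.cast_mul, ← this, Int.cast_natCast]
    rw [h5]
    simp only [Matrix.smul_apply, Ring.inverse_eq_inv', smul_eq_mul, RingHom.mapMatrix_apply,
      Matrix.map_apply, eq_intCast]
    rw [Int.cast_mul, Int.cast_mul, Int.cast_natCast]
    field_simp

theorem W_le (N : ℕ) : K0 N ^ 6700 ≤ N := by
  have h : K0 N ^ 10000 ≤ N := by
    have := Nat.findGreatest_spec (P := fun k => k ^ 10000 ≤ N) (m := 0) (n := N) (Nat.zero_le _)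
      (by rw [zero_pow (by norm_num)]; exact Nat.zero_le _)
    exact this
  rcases Nat.eq_zero_or_pos (K0 N) with h0 | h0
  · rw [h0]; simp
  · exact (Nat.pow_le_pow_right h0 (by norm_num)).trans h

theorem k_le (N W e : ℕ) : Nat.sqrt (N ^ 3 * (N - W) / e) ≤ N ^ 2 := by
  have h : N ^ 3 * (N - W) / e ≤ N ^ 2 * N ^ 2 := by
    refine (Nat.div_le_self _ _).trans ?_
    calc N ^ 3 * (N - W) ≤ N ^ 3 * N := Nat.mul_le_mul_left _ (Nat.sub_le _ _)
      _ = N ^ 2 * N ^ 2 := by ring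
  refine (Nat.sqrt_le_sqrt h).trans ?_
  rw [Nat.sqrt_eq]

/-- The parameters `s` and `x`. -/
theorem par_dn (N k W d : ℕ) (hN : 0 < N) (hk : k ≤ N ^ 2) (hW : W ≤ N) (hd : d ≤ N) :
    let s : ℝ := (k : ℝ) / (N : ℝ) ^ 2
    let x : ℝ := s * d + (1 - s ^ 2) / (s * (1 + 8 * (W : ℝ) ^ 2 / (N : ℝ) ^ 2))
    0 ≤ s ∧ s ≤ 1 ∧ Dn (N ^ 2) s ∧ |x| ≤ 2 * (N : ℝ) ^ 4 ∧
      ∃ D : ℕ, 0 < D ∧ D ≤ 9 * N ^ 4 ∧ Dn (N ^ 2 * D) x := by
  intro s x
  have hNr : (1 : ℝ) ≤ N := by exact_mod_cast hN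
  have hkr : (k : ℝ) ≤ (N : ℝ) ^ 2 := by exact_mod_cast hk
  have hdr : (d : ℝ) ≤ N := by exact_mod_cast hd
  have hs0 : 0 ≤ s := by positivity
  have hs1 : s ≤ 1 := by
    simp only [s]; rw [div_le_one (by positivity)]; exact hkr
  have hs : Dn (N ^ 2) s := ⟨k, by simp only [s]; push_cast; field_simp⟩
  have hN4 : (N : ℝ) ≤ (N : ℝ) ^ 4 := le_self_pow₀ hNr (by norm_num)
  have hsd : s * d ≤ (N : ℝ) ^ 4 := by
    calc s * d ≤ 1 * d := mul_le_mul_of_nonneg_right hs1 (by positivity)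
      _ ≤ (N : ℝ) ^ 4 := by linarith
  rcases Nat.eq_zero_or_pos k with rfl | hk0
  · have hs00 : s = 0 := by simp [s]
    have hx : x = 0 := by simp [x, hs00]
    refine ⟨hs0, hs1, hs, by rw [hx]; simp, 1, one_pos, ?_, by rw [hx]; exact dn_zero _⟩
    have : 1 ≤ N ^ 4 := Nat.one_le_pow _ _ hN
    omega
  · have hk1 : (1 : ℝ) ≤ k := by exact_mod_cast hk0
    have hx2 : (1 - s ^ 2) / (s * (1 + 8 * (W : ℝ) ^ 2 / (N : ℝ) ^ 2))
        = ((N : ℝ) ^ 4 - k ^ 2) / (k * ((N : ℝ) ^ 2 + 8 * W ^ 2)) := by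
      simp only [s]; field_simp
    have hden : (1 : ℝ) ≤ k * ((N : ℝ) ^ 2 + 8 * W ^ 2) := by
      have : (1 : ℝ) ≤ (N : ℝ) ^ 2 + 8 * W ^ 2 := by nlinarith [sq_nonneg (W : ℝ)]
      nlinarith
    have hnum : 0 ≤ (N : ℝ) ^ 4 - k ^ 2 := by nlinarith
    have hy0 : 0 ≤ ((N : ℝ) ^ 4 - k ^ 2) / (k * ((N : ℝ) ^ 2 + 8 * W ^ 2)) := by positivity
    have hy1 : ((N : ℝ) ^ 4 - k ^ 2) / (k * ((N : ℝ) ^ 2 + 8 * W ^ 2)) ≤ (N : ℝ) ^ 4 := by
      refine (div_le_self hnum hden).trans ?_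
      nlinarith
    refine ⟨hs0, hs1, hs, ?_, k * (N ^ 2 + 8 * W ^ 2), by positivity, ?_, ?_⟩
    · simp only [x]; rw [hx2, abs_of_nonneg (by positivity)]; linarith
    · have : W ^ 2 ≤ N ^ 2 := Nat.pow_le_pow_left hW 2
      calc k * (N ^ 2 + 8 * W ^ 2) ≤ N ^ 2 * (9 * N ^ 2) := Nat.mul_le_mul hk (by omega)
        _ = 9 * N ^ 4 := by ring
    · simp only [x]; rw [hx2]
      refine ((hs.mul_one' (dn_nat d)).of_dvd (Dvd.intro _ rfl)).add ?_
      refine Dn.of_dvd (E := k * (N ^ 2 + 8 * W ^ 2)) ⟨(N : ℤ) ^ 4 - k ^ 2, ?_⟩ (Dvd.intro_left _ rfl)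
      push_cast
      field_simp

theorem exp_le (n d : ℕ) : (7 + 13 * (n + d)) * (n + 1) ≤ (n + 2) ^ (d + 7) := by
  have h1 : d + 1 ≤ (n + 2) ^ d := by
    calc d + 1 ≤ 2 ^ d := Nat.lt_two_pow_self
      _ ≤ (n + 2) ^ d := Nat.pow_le_pow_left (by omega) d
  have h2 : 32 ≤ (n + 2) ^ 5 := by
    calc 32 = 2 ^ 5 := by norm_num
      _ ≤ (n + 2) ^ 5 := Nat.pow_le_pow_left (by omega) 5
  have h3 : 7 + 13 * (n + d) ≤ 32 * ((n + 2) * (d + 1)) := by nlinarith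
  calc (7 + 13 * (n + d)) * (n + 1) ≤ (32 * ((n + 2) * (d + 1))) * (n + 2) :=
        Nat.mul_le_mul h3 (by omega)
    _ ≤ ((n + 2) ^ 5 * ((n + 2) * (n + 2) ^ d)) * (n + 2) := by gcongr
    _ = (n + 2) ^ (d + 7) := by ring

theorem final_le (n d N E m : ℕ) (hN : N = n * d) (hn : 0 < n) (hd : 0 < d) (hm : m ≤ N)
    (hE : E ≤ (n * ((9 * N ^ 8) * (8 * N ^ 4))) ^ n) :
    N ^ 2 * N ^ 2 * (m * E * m) ≤ 2 ^ ((n + 2) ^ (d + 7)) := by
  have hN1 : 1 ≤ N := by rw [hN]; exact Nat.mul_pos hn hd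
  have hnN : n ≤ N := by rw [hN]; exact Nat.le_mul_of_pos_right _ hd
  have hN2 : N ≤ 2 ^ (n + d) := by
    rw [hN, pow_add]
    exact Nat.mul_le_mul Nat.lt_two_pow_self.le Nat.lt_two_pow_self.le
  have hT : 72 * N ^ 13 ≤ 2 ^ (7 + 13 * (n + d)) := by
    rw [pow_add, mul_comm 13, pow_mul]
    exact Nat.mul_le_mul (by norm_num) (Nat.pow_le_pow_left hN2 13)
  have h1 : n * ((9 * N ^ 8) * (8 * N ^ 4)) ≤ 72 * N ^ 13 := by
    calc n * ((9 * N ^ 8) * (8 * N ^ 4)) ≤ N * ((9 * N ^ 8) * (8 * N ^ 4)) :=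
          Nat.mul_le_mul_right _ hnN
      _ = 72 * N ^ 13 := by ring
  have h2 : N ^ 6 ≤ 72 * N ^ 13 := by
    have : N ^ 6 ≤ N ^ 13 := Nat.pow_le_pow_right hN1 (by norm_num)
    omega
  calc N ^ 2 * N ^ 2 * (m * E * m) ≤ N ^ 2 * N ^ 2 * (N * (72 * N ^ 13) ^ n * N) := by
        have := hE.trans (Nat.pow_le_pow_left h1 n)
        gcongr
    _ = N ^ 6 * (72 * N ^ 13) ^ n := by ring
    _ ≤ (72 * N ^ 13) * (72 * N ^ 13) ^ n := Nat.mul_le_mul_right _ h2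
    _ = (72 * N ^ 13) ^ (n + 1) := by ring
    _ ≤ (2 ^ (7 + 13 * (n + d))) ^ (n + 1) := Nat.pow_le_pow_left hT _
    _ = 2 ^ ((7 + 13 * (n + d)) * (n + 1)) := by rw [← pow_mul]
    _ ≤ 2 ^ ((n + 2) ^ (d + 7)) := Nat.pow_le_pow_right (by norm_num) (exp_le n d)

end SizeX

open SizeX

variable {ι V : Type} [Fintype ι] [DecidableEq ι] [Fintype V] [DecidableEq V]

/-- Bit size of a linked rational matrix (Cramer's rule). -/
theorem size_link (d : ℕ) : ∃ c : ℕ, ∀ (n : ℕ) (σ : ℝ) (S : Finset (Fin n × Fin d))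
    (A : Fin n → Fin n → ℕ) (F : Matrix (Fin n × Fin d) (Fin n × Fin d) ℚ), (σ = 1 ∨ σ = -1) →
    (∀ i j, A i j ≤ 1) → (∀ a b, |F a b| ≤ 1) →
    Link σ (x0 ℝ n d) (s0 ℝ n d) d Prod.fst S A (F.map (↑)) → Small ((n + 2) ^ c) F := by
  refine ⟨d + 7, fun n σ S A F hσ hA hF hL a b => ?_⟩
  have hn : 0 < n := Fin.pos a.1
  have hd : 0 < d := Fin.pos a.2
  obtain ⟨N, hN⟩ : ∃ N, N = n * d := ⟨_, rfl⟩
  have hN0 : 0 < N := by rw [hN]; exact Nat.mul_pos hn hd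
  have hnN : n ≤ N := by rw [hN]; exact Nat.le_mul_of_pos_right _ hd
  have hdN : d ≤ N := by rw [hN]; exact Nat.le_mul_of_pos_left _ hn
  have hP := par_dn N (Nat.sqrt (N ^ 3 * (N - 2 * K0 N ^ 6700) / (d - 1))) (K0 N ^ 6700) d hN0
    (k_le _ _ _) (W_le N) hdN
  have es : s0 ℝ n d = ((Nat.sqrt (N ^ 3 * (N - 2 * K0 N ^ 6700) / (d - 1)) : ℕ) : ℝ)
      / (N : ℝ) ^ 2 := by
    rw [hN]; rfl
  have ex : x0 ℝ n d = s0 ℝ n d * d + (1 - s0 ℝ n d ^ 2)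
      / (s0 ℝ n d * (1 + 8 * (((K0 N ^ 6700 : ℕ) : ℝ)) ^ 2 / (N : ℝ) ^ 2)) := by
    rw [hN, Nat.cast_pow]; rfl
  simp only [← es, ← ex] at hP
  generalize x0 ℝ n d = x at hP hL
  generalize s0 ℝ n d = s at hP hL
  obtain ⟨hs0, hs1, hs, hx, D, hD0, hD, hxD⟩ := hP
  have hSN : S.card ≤ N := by
    rw [hN]; simpa using Finset.card_le_univ S
  have hfr : ∀ i, fr (Prod.fst : Fin n × Fin d → Fin n) S i ≤ N := fun i =>
    (Finset.card_filter_le _ _).trans hSN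
  have hσd : Dn 1 σ := by
    rcases hσ with rfl | rfl
    · exact dn_one 1
    · exact ⟨-1, by simp⟩
  have hσa : |σ| = 1 := by rcases hσ with rfl | rfl <;> simp
  have hσs : |σ - s| ≤ 2 := by
    refine (abs_sub _ _).trans ?_
    rw [hσa, abs_of_nonneg hs0]; linarith
  have hσsd : Dn (N ^ 2) (σ - s) := (hσd.of_dvd (one_dvd _)).sub hs
  set m := max S.card 1 with hm
  have hm0 : 0 < m := by omega
  have hmN : m ≤ N := by omega
  have hNr : (1 : ℝ) ≤ N := by exact_mod_cast hN0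
  obtain ⟨hpd, hF'⟩ := hL
  set H := Hm σ x s d (Prod.fst : Fin n × Fin d → Fin n) S A with hH
  have hH1 : ∀ i j, Dn (N ^ 2 * D * m * n) (H i j) := by
    intro i j
    simp only [hH, Hm]
    refine Dn.add (Dn.sub (Dn.sub (dn_ite _ (Dn.sub ?_ ?_) (dn_zero _)) ?_) ?_) ?_
    · exact hxD.of_dvd ⟨m * n, by ring⟩
    · exact (hs.mul_one' (dn_nat _)).of_dvd ⟨D * m * n, by ring⟩
    · exact (hσd.mul_one' (dn_nat _)).of_dvd (one_dvd _)
    · rw [div_eq_mul_inv]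
      exact (((hσsd.mul_one' (dn_nat _)).mul_one' (dn_nat _)).mul (dn_inv _)).of_dvd
        ⟨D * n, by rw [← hm]; ring⟩
    · rw [div_eq_mul_inv, Fintype.card_fin]
      refine ((hσsd.mul_one' (dn_nat _)).mul (dn_inv _)).of_dvd ⟨D * m, ?_⟩
      rw [max_eq_left hn]; ring
  have hH2 : ∀ i j, |H i j| ≤ ((8 * N ^ 4 : ℕ) : ℝ) := by
    intro i j
    have hi : (fr (Prod.fst : Fin n × Fin d → Fin n) S i : ℝ) ≤ N := by exact_mod_cast hfr i
    have hj : (fr (Prod.fst : Fin n × Fin d → Fin n) S j : ℝ) ≤ N := by exact_mod_cast hfr j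
    have hN14 : (N : ℝ) ≤ (N : ℝ) ^ 4 := le_self_pow₀ hNr (by norm_num)
    have hN24 : (N : ℝ) ^ 2 ≤ (N : ℝ) ^ 4 := pow_le_pow_right₀ hNr (by norm_num)
    have t1 : |(if i = j then x - s * fr (Prod.fst : Fin n × Fin d → Fin n) S i else 0)|
        ≤ 3 * (N : ℝ) ^ 4 := by
      split_ifs
      · refine (abs_sub _ _).trans ?_
        have : |s * fr (Prod.fst : Fin n × Fin d → Fin n) S i| ≤ N := by
          rw [abs_of_nonneg (by positivity)]
          calc _ ≤ 1 * (N : ℝ) := mul_le_mul hs1 hi (by positivity) (by norm_num)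
            _ = N := one_mul _
        linarith
      · simp
    have t2 : |σ * A i j| ≤ (N : ℝ) ^ 4 := by
      rw [abs_mul, hσa, one_mul, Nat.abs_cast]
      have : (A i j : ℝ) ≤ 1 := by exact_mod_cast hA i j
      linarith
    have hdiv : ∀ (y : ℝ) (k : ℕ), |y / k| ≤ |y| := by
      intro y k
      rcases Nat.eq_zero_or_pos k with rfl | hk
      · simp
      · rw [abs_div, Nat.abs_cast]
        exact div_le_self (abs_nonneg _) (by exact_mod_cast hk)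
    have t3 : |(σ - s) * fr (Prod.fst : Fin n × Fin d → Fin n) S i
        * fr (Prod.fst : Fin n × Fin d → Fin n) S j / S.card| ≤ 2 * (N : ℝ) ^ 4 := by
      refine (hdiv _ _).trans ?_
      rw [abs_mul, abs_mul, Nat.abs_cast, Nat.abs_cast]
      calc _ ≤ 2 * (N : ℝ) * N := by gcongr
        _ ≤ _ := by nlinarith
    have t4 : |(σ - s) * d / Fintype.card (Fin n)| ≤ 2 * (N : ℝ) ^ 4 := by
      refine (hdiv _ _).trans ?_
      rw [abs_mul, Nat.abs_cast]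
      have : (d : ℝ) ≤ N := by exact_mod_cast hdN
      calc _ ≤ 2 * (N : ℝ) := by gcongr
        _ ≤ _ := by linarith
    simp only [hH, Hm]
    push_cast
    refine (abs_add_le _ _).trans ?_
    refine (add_le_add_left (abs_sub _ _) _).trans ?_
    refine (add_le_add_left (add_le_add_left (abs_sub _ _) _) _).trans ?_
    linarith
  have hDpos : 0 < N ^ 2 * D * m * n := by positivity
  obtain ⟨E, hE0, hE, hEd⟩ := inv_dn hDpos H hpd.det_pos.ne' hH1 _ hH2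
  have hDle : N ^ 2 * D * m * n ≤ 9 * N ^ 8 := by
    calc N ^ 2 * D * m * n ≤ N ^ 2 * (9 * N ^ 4) * N * N := by gcongr
      _ = 9 * N ^ 8 := by ring
  have hE' : E ≤ (n * ((9 * N ^ 8) * (8 * N ^ 4))) ^ n := by
    refine hE.trans ?_
    gcongr
  have hPd : ∀ a b, Dn m ((prj S : Matrix _ _ ℝ) a b) := by
    intro a b
    simp only [prj]
    refine dn_ite _ (Dn.sub (dn_ite _ (dn_one _) (dn_zero _)) ?_) (dn_zero _)
    rw [one_div]; exact dn_inv _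
  have hRd : ∀ i a, Dn 1 (Rm (Prod.fst : Fin n × Fin d → Fin n) i a) := by
    intro i a
    simp only [Rm]
    exact dn_ite _ (dn_one _) (dn_zero _)
  refine small_of_dn (E := N ^ 2 * N ^ 2 * (m * E * m)) _ (by positivity) ?_ (hF a b)
    (final_le n d N E m hN hn hd hmN hE')
  have hab : ((F a b : ℚ) : ℝ) = (F.map (↑) : Matrix _ _ ℝ) a b := rfl
  rw [hab, hF']
  simp only [Matrix.sub_apply, Matrix.smul_apply, smul_eq_mul]
  refine Dn.sub (Dn.mul ?_ ?_) ?_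
  · rw [sq s]; exact (dn_one _).sub (hs.mul hs)
  · simp only [Matrix.mul_apply, Matrix.transpose_apply]
    refine dn_sum _ fun c _ => Dn.mul ?_ (hPd _ _)
    refine dn_sum _ fun j _ => Dn.mul_one' ?_ (hRd _ _)
    refine dn_sum _ fun i _ => Dn.mul ?_ (hEd _ _)
    exact dn_sum _ fun e _ => (hPd _ _).mul_one' (hRd _ _)
  · exact (hs.mul (hPd a b)).of_dvd ⟨N ^ 2 * E * m, by ring⟩

end Crest.Agent.R62
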