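import Crest.Agent.R62.Drift
import Crest.Agent.R62.LinkStep
import Crest.Agent.R62.End
import Crest.Agent.R62.InitB
import Crest.Agent.R62.Size
import Crest.Agent.R62.Cast
import Crest.Agent.R62.Alg

set_option autoImplicit false

open Finset Matrix

namespace Crest.Agent.R62

variable {ι V : Type} [Fintype ι] [DecidableEq ι] [Fintype V] [DecidableEq V]

/-- the budget for the potential -/
noncomputable def Bud (p : Par ℝ) (m : ℝ) : ℝ :=
  1 / 4 + 15 * Real.log (p.N / m) / √p.K + (if p.phX m then 0 else 20 / p.K ^ 3)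

theorem bud_le {p : Par ℝ} (hK : Big p.K) (hp : p.OK) {m : ℝ} (hm : 1 ≤ m) : Bud p m ≤ 1 := by
  have hK0 := hK.pos
  have hK1 := hK.one_lt
  have hN : 0 < p.N := lt_of_lt_of_le (by positivity) hp.N1
  have h1 : Real.log (p.N / m) ≤ Real.log (2 * p.K ^ 10000) :=
    Real.log_le_log (by positivity) (le_trans (div_le_self hN.le hm) hp.N2)
  have h2 : Real.log (2 * p.K ^ 10000) = Real.log 2 + 10000 * Real.log p.K := by
    rw [Real.log_mul (by norm_num) (by positivity), Real.log_pow]; norm_num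
  set r := √(√p.K) with hr
  have hr0 : 0 < r := by positivity
  have hr2 : r ^ 2 = √p.K := Real.sq_sqrt (by positivity)
  have hr4 : r ^ 4 = p.K := by
    have : r ^ 4 = (r ^ 2) ^ 2 := by ring
    rw [this, hr2, Real.sq_sqrt hK0.le]
  have hrb : (10 : ℝ) ^ 25 ≤ r := by
    by_contra h
    push Not at h
    have : r ^ 4 < ((10 : ℝ) ^ 25) ^ 4 := pow_lt_pow_left₀ h hr0.le (by norm_num)
    have h' : (10 : ℝ) ^ 100 ≤ p.K := hK
    rw [hr4] at this
    norm_num at this h'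
    linarith
  have h3 : Real.log p.K ≤ 4 * r := by
    rw [← hr4, Real.log_pow]
    have := Real.log_le_sub_one_of_pos hr0
    push_cast; linarith
  have h4 : Real.log 2 ≤ 1 := by
    have := Real.log_le_sub_one_of_pos (show (0 : ℝ) < 2 by norm_num); linarith
  have h5 : 15 * Real.log (p.N / m) / √p.K ≤ 1 / 4 := by
    rw [← hr2, div_le_iff₀ (by positivity)]
    nlinarith
  have h6 : (if p.phX m then 0 else 20 / p.K ^ 3) ≤ 1 / 4 := by
    split_ifs
    · norm_num
    · have h' : (10 : ℝ) ^ 100 ≤ p.K := hK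
      have : p.K ≤ p.K ^ 3 := le_self_pow₀ hK1.le (by norm_num)
      rw [div_le_iff₀ (by positivity)]
      have : (100 : ℝ) ≤ 10 ^ 100 := by norm_num
      linarith
  unfold Bud; linarith

theorem bud_step {p : Par ℝ} (hK : Big p.K) (hp : p.OK) {m : ℝ} (hm : 1 ≤ m) :
    Bud p (m + 2) + 30 / (√p.K * (m + 2))
      + (if p.phX (m + 2) ∧ ¬ p.phX m then 20 / p.K ^ 3 else 0) ≤ Bud p m := by
  have hK0 := hK.pos
  have hN : 0 < p.N := lt_of_lt_of_le (by positivity) hp.N1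
  have h1 : Real.log (p.N / (m + 2)) + 2 / (m + 2) ≤ Real.log (p.N / m) := by
    have h2 := Real.log_le_sub_one_of_pos (show 0 < m / (m + 2) by positivity)
    have h3 : p.N / (m + 2) = p.N / m * (m / (m + 2)) := by field_simp
    rw [h3, Real.log_mul (by positivity) (by positivity)]
    have : m / (m + 2) - 1 = -(2 / (m + 2)) := by field_simp; ring
    linarith
  have h2 : 15 * Real.log (p.N / (m + 2)) / √p.K + 30 / (√p.K * (m + 2))
      ≤ 15 * Real.log (p.N / m) / √p.K := by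
    have hs : 0 < √p.K := by positivity
    have : 30 / (√p.K * (m + 2)) = 15 * (2 / (m + 2)) / √p.K := by field_simp; norm_num
    rw [this, ← add_div]
    exact div_le_div_of_nonneg_right (by linarith) hs.le
  have h3 : (if p.phX (m + 2) then 0 else 20 / p.K ^ 3)
      + (if p.phX (m + 2) ∧ ¬ p.phX m then 20 / p.K ^ 3 else 0)
      ≤ (if p.phX m then 0 else 20 / p.K ^ 3) := by
    by_cases ha : p.phX m
    · have hb : p.phX (m + 2) := lt_trans ha (by linarith)
      simp [ha, hb]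
    · by_cases hb : p.phX (m + 2) <;> simp [ha, hb]
  unfold Bud; linarith

/-- invariant of the main phase -/
structure InvL (p : Par ℝ) (x s : ℝ) (d : ℕ) (vtx : ι → V) (st : St ι V ℝ) : Prop where
  big : (1000 : ℝ) ≤ st.S.card
  lF : Link 1 x s d vtx st.S st.A st.F
  lG : Link (-1) x s d vtx st.S st.A st.G
  xi : Xi p vtx st ≤ Bud p st.S.card

/-- invariant of the endgame -/
structure InvE (p : Par ℝ) (x s : ℝ) (d : ℕ) (vtx : ι → V) (st : St ι V ℝ) : Prop where
  dead : ¬ p.live st.S.card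
  eF : EI 1 x s d vtx st.S st.A
  eG : EI (-1) x s d vtx st.S st.A
  z1 : same vtx st.S = 0
  z2 : adjc vtx st.S st.A = 0

structure Inv (p : Par ℝ) (x s : ℝ) (d : ℕ) (vtx : ι → V) (st : St ι V ℝ) : Prop where
  gr : Gr d vtx st.S st.A
  ev : Even st.S.card
  le : (st.S.card : ℝ) ≤ p.N
  live : p.live st.S.card → InvL p x s d vtx st
  dead : ¬ p.live st.S.card → InvE p x s d vtx st

section
variable {p : Par ℝ} {x s : ℝ} {d : ℕ} {vtx : ι → V} {st : St ι V ℝ}

theorem InvL.facts (h : InvL p x s d vtx st) (hK : Big p.K) (hp : p.OK) (hs0 : 0 ≤ s)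
    (hs : s ^ 2 ≤ 1 / 2) : One p st.S st.F ∧ One p st.S st.G ∧ pB p vtx st.S st.A ≤ 1 := by
  have hΞ : Xi p vtx st ≤ 1 := h.xi.trans (bud_le hK hp (by linarith [h.big]))
  obtain ⟨h1, h2, -, h3, -⟩ := R62.facts hK hp h.big hs0 hs h.lF h.lG hΞ
  exact ⟨h1, h2, h3⟩

theorem InvL.toE (h : InvL p x s d vtx st) (hK : Big p.K) (hp : p.OK) (hs0 : 0 ≤ s)
    (hs : s ^ 2 ≤ 1 / 2) (hd : ¬ p.live st.S.card) : InvE p x s d vtx st := by
  obtain ⟨h1, h2, h3⟩ := h.facts hK hp hs0 hs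
  have hs1 : s < 1 := by nlinarith
  obtain ⟨e1, e2, e3⟩ := facts_end hK hp h.big hd h1 h3
  obtain ⟨e4, -, -⟩ := facts_end hK hp h.big hd h2 h3
  exact ⟨hd, h.lF.ei hs0 hs1 e1, h.lG.ei hs0 hs1 e4, e2, e3⟩

theorem One.diag {S : Finset ι} {F : Matrix ι ι ℝ} (h : One p S F) (hK : Big p.K) (a : ι)
    (ha : a ∈ S) : |F a a| ≤ 1 / 1000 := by
  have h1 : F a a ^ 4 ≤ D4 S F := single_le_sum (f := fun a => F a a ^ 4) (fun _ _ => by positivity) ha
  have hK' : (1000 : ℝ) ≤ p.K := le_trans (by norm_num) hK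
  have h2 : 1 / p.K ^ 4 ≤ (1 / 1000) ^ 4 := by
    rw [← _root_.one_div_pow]
    exact pow_le_pow_left₀ (by have := hK.pos; positivity)
      (one_div_le_one_div_of_le (by norm_num) hK') 4
  have h3 : |F a a| ^ 4 ≤ (1 / 1000) ^ 4 := by
    rw [show |F a a| ^ 4 = F a a ^ 4 from by rw [← abs_pow, abs_of_nonneg (by positivity)]]
    exact h1.trans (h.D4_T.trans h2)
  exact le_of_pow_le_pow_left₀ (by norm_num) (by norm_num) h3

theorem InvL.child {K1 : ℝ} (hdr : ∀ (vtx : ι → V) (p : Par ℝ) (st : St ι V ℝ) (x s : ℝ),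
      K1 ≤ p.K → p.OK →
      (st.S.card : ℝ) ≤ p.N → p.live st.S.card → 0 ≤ s → s ^ 2 ≤ 1 / 2 → Gr d vtx st.S st.A →
      Link 1 x s d vtx st.S st.A st.F → Link (-1) x s d vtx st.S st.A st.G → Xi p vtx st ≤ 1 →
      ∃ u v, ok p vtx st u v ∧
        XiAt p vtx st.S.card (child vtx st u v) ≤ Xi p vtx st + 30 / (√p.K * st.S.card))
    (h : Inv p x s d vtx st) (hK1 : K1 ≤ p.K) (hK : Big p.K) (hp : p.OK) (hs0 : 0 ≤ s)
    (hs : s ^ 2 ≤ 1 / 2) (hl : p.live st.S.card) {u v : ι} (hok : ok p vtx st u v)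
    (hmin : ∀ u' v', ok p vtx st u' v' → Xi p vtx (child vtx st u v) ≤ Xi p vtx (child vtx st u' v')) :
    InvL p x s d vtx (child vtx st u v) := by
  have hL := h.live hl
  obtain ⟨oF, oG, -⟩ := hL.facts hK hp hs0 hs
  have hs1 : s < 1 := by nlinarith
  have hK' : (1000 : ℝ) ≤ p.K := le_trans (by norm_num) hK
  have hKi : 1 / p.K ≤ 1 / 1000 := one_div_le_one_div_of_le (by norm_num) hK'
  have loc : ∀ u v, ok p vtx st u v → Loc 1 st.S st.F u v ∧ Loc (-1) st.S st.G u v := by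
    rintro u v ⟨q1, q2, q3, -, q5, q6⟩
    exact ⟨⟨oF.mat, Or.inl rfl, q1, q2, q3, hL.big, oF.diag hK u q2, oF.diag hK v q3, q5.trans hKi⟩,
      ⟨oG.mat, Or.inr rfl, q1, q2, q3, hL.big, oG.diag hK u q2, oG.diag hK v q3, q6.trans hKi⟩⟩
  have hcard : ∀ u v, ok p vtx st u v → (((R62.child vtx st u v).S.card : ℝ)) + 2 = st.S.card := by
    rintro u v ⟨q1, q2, q3, -⟩
    have := card_rem_real q1 q2 q3
    show ((rem st.S u v).card : ℝ) + 2 = _
    linarith
  have hbig : ∀ u v, ok p vtx st u v → (1000 : ℝ) ≤ (R62.child vtx st u v).S.card := by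
    intro u v hh
    have h1 : p.K ^ 2 ≤ p.K ^ 3340 := pow_le_pow_right₀ hK.one_lt.le (by norm_num)
    have h3 : p.K ^ 3340 < st.S.card := hl
    have := hcard u v hh
    nlinarith
  obtain ⟨u', v', hok', hle⟩ := hdr vtx p st x s hK1 hp h.le hl hs0 hs h.gr hL.lF hL.lG
    (hL.xi.trans (bud_le hK hp (by linarith [hL.big])))
  refine ⟨hbig u v hok, link_step hs0 hs1 hL.lF (loc u v hok).1,
    link_step hs0 hs1 hL.lG (loc u v hok).2, (hmin u' v' hok').trans ?_⟩
  have hsw := xi_switch (vtx := vtx) (st := R62.child vtx st u' v') hK hp (hbig u' v' hok')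
    (loc u' v' hok').1.mat_upd (loc u' v' hok').2.mat_upd
  have e1 := hcard u v hok
  have e2 := hcard u' v' hok'
  have e3 : (((R62.child vtx st u' v').S.card : ℝ)) = (R62.child vtx st u v).S.card := by linarith
  have hb := bud_step hK hp (m := (R62.child vtx st u v).S.card) (by linarith [hbig u v hok])
  rw [e3, e1] at hsw
  rw [e1] at hb
  have := hL.xi
  linarith

theorem Inv.step {K1 : ℝ} (hdr : ∀ (vtx : ι → V) (p : Par ℝ) (st : St ι V ℝ) (x s : ℝ),
      K1 ≤ p.K → p.OK →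
      (st.S.card : ℝ) ≤ p.N → p.live st.S.card → 0 ≤ s → s ^ 2 ≤ 1 / 2 → Gr d vtx st.S st.A →
      Link 1 x s d vtx st.S st.A st.F → Link (-1) x s d vtx st.S st.A st.G → Xi p vtx st ≤ 1 →
      ∃ u v, ok p vtx st u v ∧
        XiAt p vtx st.S.card (child vtx st u v) ≤ Xi p vtx st + 30 / (√p.K * st.S.card))
    (h : Inv p x s d vtx st) (hK1 : K1 ≤ p.K) (hK : Big p.K) (hp : p.OK) (hs0 : 0 ≤ s)
    (hs : s ^ 2 ≤ 1 / 2) {st' : St ι V ℝ} (hst : Step p vtx st st') :
    Inv p x s d vtx st' ∧ (InvL p x s d vtx st' ∨ (st'.F = st.F ∧ st'.G = st.G)) := by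
  have common : ∀ u v, u ≠ v → u ∈ st.S → v ∈ st.S →
      Even (rem st.S u v).card ∧ ((rem st.S u v).card : ℝ) ≤ st.S.card := by
    intro u v q1 q2 q3
    have h1 := card_rem q1 q2 q3
    have h2 := h.ev
    refine ⟨?_, by exact_mod_cast (by omega : (rem st.S u v).card ≤ st.S.card)⟩
    rw [← h1] at h2
    exact (Nat.even_add.1 h2).2 even_two
  obtain ⟨u, v, ⟨hl, hok, hmin, rfl⟩ | ⟨hl, q1, q2, q3, rfl⟩⟩ := hst
  · have hL := InvL.child hdr h hK1 hK hp hs0 hs hl hok hmin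
    obtain ⟨q1, q2, q3, q4, -⟩ := hok
    obtain ⟨c1, c2⟩ := common u v q1 q2 q3
    exact ⟨⟨h.gr.step q1 q2 q3 q4, c1, c2.trans h.le, fun _ => hL,
      fun hd => hL.toE hK hp hs0 hs hd⟩, Or.inl hL⟩
  · have hE := h.dead hl
    obtain ⟨c1, c2⟩ := common u v q1 q2 q3
    have hd : ¬ p.live ((childE vtx st u v).S.card) := fun h' => hl (lt_of_lt_of_le h' c2)
    obtain ⟨z1, z2⟩ := zero_step hE.z1 hE.z2 q1 q2 q3
    exact ⟨⟨h.gr.step q1 q2 q3 (not_bad_of_zero hE.z1 hE.z2 q1 q2 q3), c1, c2.trans h.le,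
      fun h' => absurd h' hd, fun _ => ⟨hd, hE.eF.step (Or.inl rfl) q1 q2 q3,
        hE.eG.step (Or.inr rfl) q1 q2 q3, z1, z2⟩⟩, Or.inr ⟨rfl, rfl⟩⟩
end

theorem main (d : ℕ) (hd : 3 ≤ d) :
    ∃ n₀ : ℕ, ∃ f : List Bool → List Bool, Crest.Complexity.PolyTime f ∧
      ∀ n : ℕ, n₀ ≤ n → Even n → ∃ A : Fin n → Fin n → ℕ,
        Gr d (Prod.fst : Fin n × Fin d → Fin n) ∅ A ∧
        (∀ i j : Fin n, (f (Crest.CombinatoricsR.GraphCode.unary n)).getD (i.val * n + j.val) false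
          = true ↔ A i j ≠ 0) ∧
        ∀ y : Fin n → ℝ, ∑ i, y i = 0 → y ≠ 0 →
          |y ⬝ᵥ ((Matrix.of fun i j => (A i j : ℝ)) *ᵥ y)| < 2 * √((d : ℝ) - 1) * (y ⬝ᵥ y) := by
  obtain ⟨K1, hdr⟩ := drift d
  obtain ⟨n1, hn1⟩ := init_par d hd (max K1 (10 ^ 100))
  obtain ⟨n2, hn2⟩ := init_xi d hd
  obtain ⟨c, hc⟩ := size_link d
  obtain ⟨f, hf, halg⟩ := alg d c hd
  refine ⟨max (max n1 n2) 1, f, hf, fun n hn hev => ?_⟩
  simp only [max_le_iff] at hn
  obtain ⟨⟨hn1', hn2'⟩, hn0⟩ := hn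
  obtain ⟨hK, hp, hs0, hs, hφ, hx, -, -⟩ := hn1 n hn1'
  have hK1 : K1 ≤ (par0 ℝ n d).K := le_trans (le_max_left _ _) hK
  have hB : Big (par0 ℝ n d).K := le_trans (le_max_right _ _) hK
  set p := par0 ℝ n d with hpdef
  set x := x0 ℝ n d
  set s := s0 ℝ n d
  have hs1 : s ^ 2 < 1 := by linarith
  have hcard : (((st0 ℝ n d).S.card : ℝ)) = p.N := by
    simp [st0, hpdef, par0]
  have hlive : p.live (st0 ℝ n d).S.card := by
    rw [hcard]
    exact lt_of_lt_of_le (pow_lt_pow_right₀ hB.one_lt (by norm_num)) hp.N1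
  have hL0 : InvL p x s d Prod.fst (st0 ℝ n d) := by
    refine ⟨?_, link_init n d 1 hn0 (by omega) hφ hs1, link_init n d (-1) hn0 (by omega) hφ hs1, ?_⟩
    · have h1 : p.K ≤ p.K ^ 10000 := le_self_pow₀ hB.one_lt.le (by norm_num)
      have h2 : (1000 : ℝ) ≤ p.K := le_trans (by norm_num) hB
      rw [hcard]; linarith [hp.N1]
    · refine (hn2 n hn2').trans ?_
      have hN : 0 < p.N := lt_of_lt_of_le (by have := hB.pos; positivity) hp.N1
      rw [hcard, Bud, div_self hN.ne', Real.log_one]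
      have : 0 ≤ (if p.phX p.N then 0 else 20 / p.K ^ 3) := by
        have := hB.pos
        split_ifs <;> positivity
      simp only [mul_zero, zero_div, add_zero]; linarith
  have hI0 : Inv p x s d Prod.fst (st0 ℝ n d) := by
    refine ⟨gr_init n d, ?_, hcard.le, fun _ => hL0, fun h => absurd hlive h⟩
    simp only [st0, card_univ, Fintype.card_prod, Fintype.card_fin]
    exact hev.mul_right d
  have small : ∀ st : St (Fin n × Fin d) (Fin n) ℚ, Inv p x s d Prod.fst st.cast →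
      InvL p x s d Prod.fst st.cast → Small ((n + 2) ^ c) st.F ∧ Small ((n + 2) ^ c) st.G := by
    intro st hI hL
    obtain ⟨oF, oG, -⟩ := hL.facts hB hp hs0.le hs
    refine ⟨hc n 1 st.S st.A st.F (Or.inl rfl) hI.gr.le (fun a b => ?_) hL.lF,
      hc n (-1) st.S st.A st.G (Or.inr rfl) hI.gr.le (fun a b => ?_) hL.lG⟩
    · have : |((st.F a b : ℚ) : ℝ)| ≤ 3 / 4 := oF.ent a b
      have h2 : ((|st.F a b| : ℚ) : ℝ) ≤ ((1 : ℚ) : ℝ) := by push_cast; linarith
      exact_mod_cast h2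
    · have : |((st.G a b : ℚ) : ℝ)| ≤ 3 / 4 := oG.ent a b
      have h2 : ((|st.G a b| : ℚ) : ℝ) ≤ ((1 : ℚ) : ℝ) := by push_cast; linarith
      exact_mod_cast h2
  have hreach : ∀ st, Reach (par0 ℚ n d) Prod.fst (st0 ℚ n d) st →
      Inv p x s d Prod.fst st.cast ∧ Small ((n + 2) ^ c) st.F ∧ Small ((n + 2) ^ c) st.G := by
    intro st hst
    induction hst with
    | refl =>
      refine ⟨by rw [cast_st0]; exact hI0, small _ ?_ ?_⟩ <;> rw [cast_st0]
      exacts [hI0, hL0]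
    | @tail b b' _ hstep ih =>
      have h1 := cast_step _ _ _ hstep
      rw [cast_par0] at h1
      obtain ⟨h2, h3⟩ := ih.1.step (hdr _ _) hK1 hB hp hs0.le hs h1
      refine ⟨h2, ?_⟩
      rcases h3 with h3 | ⟨e1, e2⟩
      · exact small _ h2 h3
      · have e1' : b'.F = b.F := by
          ext i j
          have : ((b'.F i j : ℚ) : ℝ) = (b.F i j : ℚ) := congrFun (congrFun e1 i) j
          exact_mod_cast this
        have e2' : b'.G = b.G := by
          ext i j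
          have : ((b'.G i j : ℚ) : ℝ) = (b.G i j : ℚ) := congrFun (congrFun e2 i) j
          exact_mod_cast this
        rw [e1', e2']; exact ih.2
  obtain ⟨st, hst, hS, hout⟩ := halg n fun st hst => by
    obtain ⟨hI, h1, h2⟩ := hreach st hst
    refine ⟨h1, h2, fun hne => ?_⟩
    by_cases hl : (par0 ℚ n d).live st.S.card
    · have hl' : p.live st.cast.S.card := by
        rw [hpdef, ← cast_par0]; exact (cast_live _ _).2 hl
      have hL := hI.live hl'
      obtain ⟨u, v, hok, -⟩ := hdr _ _ Prod.fst p st.cast x s hK1 hp hI.le hl' hs0.le hs hI.gr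
        hL.lF hL.lG (hL.xi.trans (bud_le hB hp (by linarith [hL.big])))
      rw [hpdef, ← cast_par0, cast_ok] at hok
      classical
      obtain ⟨⟨u0, v0⟩, hmem, hmin⟩ := exists_min_image
        (univ.filter fun z : (Fin n × Fin d) × (Fin n × Fin d) =>
          ok (par0 ℚ n d) Prod.fst st z.1 z.2)
        (fun z => Xi (par0 ℚ n d) Prod.fst (child Prod.fst st z.1 z.2))
        ⟨(u, v), by simpa using hok⟩
      refine ⟨_, u0, v0, Or.inl ⟨hl, (mem_filter.1 hmem).2, fun u' v' h' => ?_, rfl⟩⟩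
      exact hmin (u', v') (by simpa using h')
    · have h2 : 1 < st.S.card := by
        have h3 : Even st.S.card := hI.ev
        have h4 := hne.card_pos
        obtain ⟨k, hk⟩ := h3
        omega
      obtain ⟨u, hu, v, hv, huv⟩ := one_lt_card.1 h2
      exact ⟨_, u, v, Or.inr ⟨hl, huv, hu, hv, rfl⟩⟩
  obtain ⟨hI, -⟩ := hreach st hst
  have hS' : st.cast.S = ∅ := hS
  have hE := hI.dead (by
    rw [hS']
    have := hB.pos
    simp only [card_empty, Nat.cast_zero, Par.live, not_lt]; positivity)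
  have hg := hI.gr
  have e1 := hE.eF
  have e2 := hE.eG
  rw [hS'] at hg e1 e2
  refine ⟨st.A, hg, hout, fun y hy hy0 => lt_of_lt_of_le (e1.final e2 y hy hy0) ?_⟩
  exact mul_le_mul_of_nonneg_right hx (Finset.sum_nonneg fun i _ => mul_self_nonneg _)

end Crest.Agent.R62
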