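import Crest.Agent.R62.Upd
import Crest.Agent.R62.GenM

/-! Exact formula for the change of `tr F³`: the rank-two correction on `span {P e_u, P e_v}` does
not contribute, so only the Schur-complement part `X A Xᵀ` (`X = [y z]`) matters. -/

set_option autoImplicit false

open Finset Matrix

namespace Crest.Agent.R62.Pt3X

variable {ι : Type} [Fintype ι] [DecidableEq ι]

omit [DecidableEq ι] in
theorem tr3_add (F D : Matrix ι ι ℝ) :
    ((F + D) * (F + D) * (F + D)).trace
      = (F * F * F).trace + 3 * (F * F * D).trace + 3 * (F * D * D).trace + (D * D * D).trace := by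
  have h1 : (F * D * F).trace = (F * F * D).trace := by
    rw [Matrix.trace_mul_comm (F * D) F, Matrix.mul_assoc]
  have h2 : (D * F * F).trace = (F * F * D).trace := by
    rw [Matrix.mul_assoc, Matrix.trace_mul_comm D (F * F)]
  have h3 : (D * F * D).trace = (F * D * D).trace := by
    rw [Matrix.mul_assoc, Matrix.trace_mul_comm D (F * D)]
  have h4 : (D * D * F).trace = (F * D * D).trace := by
    rw [Matrix.trace_mul_comm (D * D) F, Matrix.mul_assoc]
  simp only [Matrix.mul_add, Matrix.add_mul, Matrix.trace_add, h1, h2, h3, h4]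
  ring

theorem tr3_low (F : Matrix ι ι ℝ) (X : Matrix ι (Fin 2) ℝ) (N : Matrix (Fin 2) (Fin 2) ℝ) :
    a3 (F + X * N * Xᵀ) = a3 F + 3 * (N * (Xᵀ * (F * F) * X)).trace
      + 3 * (N * (Xᵀ * (1 : Matrix ι ι ℝ) * X) * N * (Xᵀ * F * X)).trace
      + (N * (Xᵀ * (1 : Matrix ι ι ℝ) * X) * (N * (Xᵀ * (1 : Matrix ι ι ℝ) * X)) * (N * (Xᵀ * (1 : Matrix ι ι ℝ) * X))).trace := by
  unfold a3
  rw [tr3_add]
  have h1 : (F * F * (X * N * Xᵀ)).trace = (N * (Xᵀ * (F * F) * X)).trace := by
    have : F * F * (X * N * Xᵀ) = (F * F * X) * (N * Xᵀ) := by simp only [Matrix.mul_assoc]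
    rw [this, Matrix.trace_mul_comm]
    simp only [Matrix.mul_assoc]
  have h2 : (F * (X * N * Xᵀ) * (X * N * Xᵀ)).trace
      = (N * (Xᵀ * (1 : Matrix ι ι ℝ) * X) * N * (Xᵀ * F * X)).trace := by
    have : F * (X * N * Xᵀ) * (X * N * Xᵀ) = (F * X) * (N * Xᵀ * X * N * Xᵀ) := by
      simp only [Matrix.mul_assoc]
    rw [this, Matrix.trace_mul_comm]
    simp only [Matrix.mul_assoc, Matrix.one_mul]
  have h3 : ((X * N * Xᵀ) * (X * N * Xᵀ) * (X * N * Xᵀ)).trace
      = (N * (Xᵀ * (1 : Matrix ι ι ℝ) * X) * (N * (Xᵀ * (1 : Matrix ι ι ℝ) * X)) * (N * (Xᵀ * (1 : Matrix ι ι ℝ) * X))).trace := by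
    have : (X * N * Xᵀ) * (X * N * Xᵀ) * (X * N * Xᵀ)
        = X * (N * Xᵀ * X * N * Xᵀ * X * N * Xᵀ) := by
      simp only [Matrix.mul_assoc]
    rw [this, Matrix.trace_mul_comm]
    simp only [Matrix.mul_assoc, Matrix.one_mul]
  rw [h1, h2, h3]

omit [DecidableEq ι] in
theorem sub_gram (A M B : Matrix ι ι ℝ) (r s : Fin 2 → ι) :
    (A.submatrix id r)ᵀ * M * (B.submatrix id s) = (Aᵀ * M * B).submatrix r s := by
  ext i j
  simp only [Matrix.mul_apply, Matrix.submatrix_apply, Matrix.transpose_apply, id]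

noncomputable def X1 (σ : ℝ) (S : Finset ι) (F : Matrix ι ι ℝ) (u v : ι) : Matrix ι (Fin 2) ℝ :=
  F.submatrix id ![u, v] - σ • (prj S : Matrix ι ι ℝ).submatrix id ![v, u]
noncomputable def X2 (S : Finset ι) (u v : ι) : Matrix ι (Fin 2) ℝ :=
  (prj S : Matrix ι ι ℝ).submatrix id ![u, v]
noncomputable def A1 (σ : ℝ) (S : Finset ι) (F : Matrix ι ι ℝ) (u v : ι) :
    Matrix (Fin 2) (Fin 2) ℝ :=
  !![n1 σ S F u v, n2 σ S F u v; n2 σ S F u v, n1 σ S F v u]
noncomputable def K2 (σ : ℝ) (S : Finset ι) : Matrix (Fin 2) (Fin 2) ℝ :=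
  !![σ / ((S.card : ℝ) - 2), σ + σ / ((S.card : ℝ) - 2);
    σ + σ / ((S.card : ℝ) - 2), σ / ((S.card : ℝ) - 2)]

variable {σ : ℝ} {S : Finset ι} {F : Matrix ι ι ℝ} {u v : ι}

theorem split (h : Loc σ S F u v) :
    F + X1 σ S F u v * A1 σ S F u v * (X1 σ S F u v)ᵀ
      = upd σ S F u v + X2 S u v * K2 σ S * (X2 S u v)ᵀ := by
  rw [h.upd_eq]
  ext a b
  simp only [X1, X2, A1, K2, hat, Matrix.add_apply, Matrix.sub_apply, Matrix.smul_apply,
    Matrix.mul_apply, Matrix.transpose_apply, Matrix.submatrix_apply, Fin.sum_univ_two,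
    Matrix.vecMulVec_apply, smul_eq_mul, id, Matrix.of_apply, Matrix.cons_val', Matrix.cons_val_zero,
    Matrix.cons_val_one, Matrix.cons_val_fin_one]
  ring

theorem gram1 (hF : Mat S F) (M : Matrix ι ι ℝ) :
    (X1 σ S F u v)ᵀ * M * X1 σ S F u v
      = (F * M * F).submatrix ![u, v] ![u, v]
        - σ • (F * M * prj S).submatrix ![u, v] ![v, u]
        - σ • (prj S * M * F).submatrix ![v, u] ![u, v]
        + (σ * σ) • ((prj S : Matrix ι ι ℝ) * M * prj S).submatrix ![v, u] ![v, u] := by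
  unfold X1
  simp only [Matrix.transpose_sub, Matrix.transpose_smul, Matrix.sub_mul, Matrix.mul_sub,
    Matrix.smul_mul, Matrix.mul_smul, sub_gram, hF.transpose, (mat_prj S).transpose, smul_sub,
    smul_smul]
  abel

theorem prj_uu (h : Loc σ S F u v) : (prj S : Matrix ι ι ℝ) u u = 1 - 1 / (S.card : ℝ) := by
  simp [prj, h.hu]
theorem prj_uv (h : Loc σ S F u v) : (prj S : Matrix ι ι ℝ) u v = -(1 / (S.card : ℝ)) := by
  simp [prj, h.hu, h.hv, h.ne]

theorem a3_upd (h : Loc σ S F u v) :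
    a3 (upd σ S F u v) = a3 (F + X1 σ S F u v * A1 σ S F u v * (X1 σ S F u v)ᵀ) := by
  rw [split h, tr3_low]
  have hm := h.mat_upd
  have hS : Mat S (upd σ S F u v) :=
    ⟨hm.symm, fun a b ha => hm.supp a b (fun hh => ha (mem_rem.1 hh).1), hm.row⟩
  have h0 : upd σ S F u v * X2 S u v = 0 := by
    have : upd σ S F u v * X2 S u v = (upd σ S F u v * prj S).submatrix id ![u, v] := by
      ext a i
      simp only [X2, Matrix.mul_apply, Matrix.submatrix_apply, id]
    rw [this, hS.mul_prj]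
    ext a i
    fin_cases i
    · exact hm.supp' a u (fun hh => (mem_rem.1 hh).2.1 rfl)
    · exact hm.supp' a v (fun hh => (mem_rem.1 hh).2.2 rfl)
  have h1 : (X2 S u v)ᵀ * (upd σ S F u v * upd σ S F u v) * X2 S u v = 0 := by
    simp only [Matrix.mul_assoc, h0, Matrix.mul_zero]
  have h2 : (X2 S u v)ᵀ * upd σ S F u v * X2 S u v = 0 := by
    simp only [Matrix.mul_assoc, h0, Matrix.mul_zero]
  have h3 : K2 σ S * ((X2 S u v)ᵀ * (1 : Matrix ι ι ℝ) * X2 S u v) = !![0, σ; σ, 0] := by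
    have hb := h.big
    have hm0 : (S.card : ℝ) ≠ 0 := by linarith
    have hm2 : (S.card : ℝ) - 2 ≠ 0 := by linarith
    unfold X2
    rw [sub_gram, (mat_prj S).transpose, Matrix.mul_one, prj_mul_prj]
    ext i j
    fin_cases i <;> fin_cases j <;>
      simp [K2, Matrix.mul_apply, Fin.sum_univ_two, prj_uu h, prj_uv h, prj_uu h.swap,
        prj_uv h.swap] <;> field_simp <;> ring
  rw [h1, h2, h3]
  simp [Matrix.trace_fin_two]

/-- The exact change of `tr F³` as a polynomial in the entries. -/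
def poly (a b c Y O Z Y1 O1 Z1 Y2 O2 Z2 : ℝ) : ℝ :=
  3 * (a * Y2 + b * Z2 + 2 * c * O2)
    + 3 * ((a * a * Y + 2 * a * c * O + c * c * Z) * Y1 + (c * c * Y + 2 * b * c * O + b * b * Z) * Z1
      + 2 * (a * c * Y + (a * b + c * c) * O + b * c * Z) * O1)
    + ((a * Y + c * O) ^ 3 + (c * O + b * Z) ^ 3
      + 3 * (a * O + c * Z) * (c * Y + b * O) * ((a * Y + c * O) + (c * O + b * Z)))

theorem a3_diff (h : Loc σ S F u v) :
    a3 (upd σ S F u v) - a3 F = poly (n1 σ S F u v) (n1 σ S F v u) (n2 σ S F u v)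
      (rr F u - 2 * σ * F u v + 1 - 1 / S.card)
      ((F * F) u v - σ * F u u - σ * F v v - 1 / S.card)
      (rr F v - 2 * σ * F u v + 1 - 1 / S.card)
      ((F * F * F) u u - 2 * σ * (F * F) u v + F v v)
      ((F * F * F) u v - σ * rr F u - σ * rr F v + F u v)
      ((F * F * F) v v - 2 * σ * (F * F) u v + F u u)
      ((F * F * F * F) u u - 2 * σ * (F * F * F) u v + rr F v)
      ((F * F * F * F) u v - σ * (F * F * F) u u - σ * (F * F * F) v v + (F * F) u v)
      ((F * F * F * F) v v - 2 * σ * (F * F * F) u v + rr F u) := by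
  have hF := h.mat
  have hs : σ * σ = 1 := by rcases h.sg with h | h <;> simp [h]
  have t1 : F v u = F u v := hF.symm v u
  have t2 : (F * F) v u = (F * F) u v := by
    have := congrFun (congrFun hF.sq_transpose u) v
    simpa using this
  have t3 : (F * F * F) v u = (F * F * F) u v := by
    have h3 : (F * F * F)ᵀ = F * F * F := by
      simp only [Matrix.transpose_mul, hF.transpose, Matrix.mul_assoc]
    have := congrFun (congrFun h3 u) v
    simpa using this
  have t4 : (F * F * F * F) v u = (F * F * F * F) u v := by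
    have h3 : (F * F * F * F)ᵀ = F * F * F * F := by
      simp only [Matrix.transpose_mul, hF.transpose, Matrix.mul_assoc]
    have := congrFun (congrFun h3 u) v
    simpa using this
  have e1 : F * F * prj S = F * F := by rw [Matrix.mul_assoc, hF.mul_prj]
  have e2 : F * F * F * prj S = F * F * F := by rw [Matrix.mul_assoc, hF.mul_prj]
  have g0 : (X1 σ S F u v)ᵀ * (1 : Matrix ι ι ℝ) * X1 σ S F u v
      = !![rr F u - 2 * σ * F u v + 1 - 1 / S.card, (F * F) u v - σ * F u u - σ * F v v - 1 / S.card;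
        (F * F) u v - σ * F u u - σ * F v v - 1 / S.card, rr F v - 2 * σ * F u v + 1 - 1 / S.card] := by
    rw [gram1 hF, hs]
    simp only [Matrix.mul_one, hF.mul_prj, hF.prj_mul, prj_mul_prj]
    ext i j
    fin_cases i <;> fin_cases j <;>
      simp [rr, t1, t2, prj_uu h, prj_uv h, prj_uu h.swap, prj_uv h.swap] <;> ring
  have g1 : (X1 σ S F u v)ᵀ * F * X1 σ S F u v
      = !![(F * F * F) u u - 2 * σ * (F * F) u v + F v v,
          (F * F * F) u v - σ * rr F u - σ * rr F v + F u v;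
        (F * F * F) u v - σ * rr F u - σ * rr F v + F u v,
          (F * F * F) v v - 2 * σ * (F * F) u v + F u u] := by
    rw [gram1 hF, hs]
    simp only [hF.mul_prj, hF.prj_mul, e1]
    ext i j
    fin_cases i <;> fin_cases j <;> simp [rr, t1, t2, t3] <;> ring
  have g2 : (X1 σ S F u v)ᵀ * (F * F) * X1 σ S F u v
      = !![(F * F * F * F) u u - 2 * σ * (F * F * F) u v + rr F v,
          (F * F * F * F) u v - σ * (F * F * F) u u - σ * (F * F * F) v v + (F * F) u v;
        (F * F * F * F) u v - σ * (F * F * F) u u - σ * (F * F * F) v v + (F * F) u v,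
          (F * F * F * F) v v - 2 * σ * (F * F * F) u v + rr F u] := by
    rw [gram1 hF, hs]
    simp only [← Matrix.mul_assoc, hF.prj_mul, e1, e2]
    ext i j
    fin_cases i <;> fin_cases j <;> simp [rr, t2, t3, t4] <;> ring
  rw [a3_upd h, tr3_low, g0, g1, g2]
  simp only [A1, poly, Matrix.trace_fin_two, Matrix.mul_apply, Fin.sum_univ_two, Matrix.of_apply,
    Matrix.cons_val', Matrix.cons_val_zero, Matrix.cons_val_one, Matrix.cons_val_fin_one]
  ring

end Crest.Agent.R62.Pt3X
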