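import Mathlib

/-! Scalar inequalities for `pt4`. -/

set_option autoImplicit false

namespace Crest.Agent.R62.P4

/-- The monomials dominated by the error. `α² = ϱ_u`, `β² = ϱ_v`, `s² = q_u`, `t² = q_v`, `ρ² = R`. -/
structure Half (α β s t ρ L pu pv φ ε E : ℝ) : Prop where
  m1 : s * α ^ 2 * β ^ 4 ≤ E
  m0 : α ^ 4 * β ^ 4 ≤ E
  m2 : φ * α ^ 2 * t ^ 2 ≤ E
  m3 : pv * α ^ 2 * (s * t) ≤ E
  m4 : ρ * pv * β ^ 2 * s ^ 2 ≤ E
  m4c : ρ * pv * β ^ 2 * (α ^ 2 * s) ≤ E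
  m5 : ρ ^ 2 * pv ^ 2 * s ^ 2 ≤ E
  m5L : L * pv ^ 2 * s ^ 2 ≤ E
  m6 : L * (φ + pu + pv) * (s + α) * (α * β) ≤ E
  m7 : L * (ε + pv * φ) * s ^ 2 ≤ E
  m89 : ρ ^ 2 * pv * α ^ 3 * t ≤ E
  m59 : ρ ^ 4 * pv ^ 2 * α ^ 2 * s ≤ E
  m9 : ρ ^ 6 * pv ^ 2 * α ^ 4 ≤ E

structure Rng (α β s t ρ L pu pv φ ε : ℝ) : Prop where
  a1 : 1 ≤ α
  b1 : 1 ≤ β
  aρ : α ≤ ρ
  bρ : β ≤ ρ
  s0 : 0 ≤ s
  t0 : 0 ≤ t
  L1 : 1 ≤ L
  pu0 : 0 ≤ pu
  pv0 : 0 ≤ pv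
  φ0 : 0 ≤ φ
  ε0 : 0 ≤ ε
  pu1 : pu ≤ 1 / 100
  pv1 : pv ≤ 1 / 100
  φ1 : φ ≤ 1 / 100
  εφ : ε ≤ φ
  εu : ε ≤ pu
  εv : ε ≤ pv

theorem Rng.swap {α β s t ρ L pu pv φ ε : ℝ} (h : Rng α β s t ρ L pu pv φ ε) :
    Rng β α t s ρ L pv pu φ ε :=
  ⟨h.b1, h.a1, h.bρ, h.aρ, h.t0, h.s0, h.L1, h.pv0, h.pu0, h.φ0, h.ε0, h.pv1, h.pu1, h.φ1, h.εφ,
    h.εv, h.εu⟩

/-- the half error in the square-root variables -/
noncomputable def hv (α β s t ρ L pu pv φ ε : ℝ) : ℝ :=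
  (s * α ^ 2 + α ^ 4) * β ^ 4 + φ * α ^ 2 * t ^ 2 + pv * α ^ 2 * (s * t)
    + ρ * pv * β ^ 2 * (s ^ 2 + α ^ 4) + (ρ ^ 2 + L) * pv ^ 2 * s ^ 2
    + L * (φ + pu + pv) * (s + α) * (α * β) + L * (ε + pv * φ) * s ^ 2
    + α ^ 2 * t ^ 2 / ρ ^ 2 + ρ ^ 6 * pv ^ 2 * α ^ 4 + (L ^ 2 + ρ ^ 4) * α ^ 2 * ε

theorem hv_nonneg {α β s t ρ L pu pv φ ε : ℝ} (h : Rng α β s t ρ L pu pv φ ε) :
    0 ≤ hv α β s t ρ L pu pv φ ε := by
  obtain ⟨a1, b1, aρ, bρ, s0, t0, L1, pu0, pv0, φ0, ε0, -⟩ := h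
  have : 0 < α := by linarith
  have : 0 < β := by linarith
  have : 0 < ρ := by linarith
  have : 0 < L := by linarith
  unfold hv; positivity

theorem half_of {α β s t ρ L pu pv φ ε E : ℝ} (h : Rng α β s t ρ L pu pv φ ε)
    (hE : hv α β s t ρ L pu pv φ ε ≤ E) : Half α β s t ρ L pu pv φ ε E := by
  obtain ⟨a1, b1, aρ, bρ, s0, t0, L1, pu0, pv0, φ0, ε0, -⟩ := h
  have ha : 0 < α := by linarith
  have hb : 0 < β := by linarith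
  have hρ : 0 < ρ := by linarith
  have hL : 0 < L := by linarith
  have e : hv α β s t ρ L pu pv φ ε = s * α ^ 2 * β ^ 4 + α ^ 4 * β ^ 4 + φ * α ^ 2 * t ^ 2
      + pv * α ^ 2 * (s * t) + ρ * pv * β ^ 2 * s ^ 2 + ρ * pv * β ^ 2 * α ^ 4
      + ρ ^ 2 * pv ^ 2 * s ^ 2 + L * pv ^ 2 * s ^ 2 + L * (φ + pu + pv) * (s + α) * (α * β)
      + L * (ε + pv * φ) * s ^ 2 + (α * t / ρ) ^ 2 + ρ ^ 6 * pv ^ 2 * α ^ 4
      + (L ^ 2 + ρ ^ 4) * α ^ 2 * ε := by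
    unfold hv; field_simp; ring
  rw [e] at hE
  have h1 : 0 ≤ s * α ^ 2 * β ^ 4 := by positivity
  have h2 : 0 ≤ α ^ 4 * β ^ 4 := by positivity
  have h3 : 0 ≤ φ * α ^ 2 * t ^ 2 := by positivity
  have h4 : 0 ≤ pv * α ^ 2 * (s * t) := by positivity
  have h5 : 0 ≤ ρ * pv * β ^ 2 * s ^ 2 := by positivity
  have h6 : 0 ≤ ρ * pv * β ^ 2 * α ^ 4 := by positivity
  have h7 : 0 ≤ ρ ^ 2 * pv ^ 2 * s ^ 2 := by positivity
  have h8 : 0 ≤ L * pv ^ 2 * s ^ 2 := by positivity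
  have h9 : 0 ≤ L * (φ + pu + pv) * (s + α) * (α * β) := by positivity
  have h10 : 0 ≤ L * (ε + pv * φ) * s ^ 2 := by positivity
  have h11 : 0 ≤ (α * t / ρ) ^ 2 := by positivity
  have h12 : 0 ≤ ρ ^ 6 * pv ^ 2 * α ^ 4 := by positivity
  have h13 : 0 ≤ (L ^ 2 + ρ ^ 4) * α ^ 2 * ε := by positivity
  have g1 : 2 * (ρ * pv * β ^ 2 * (α ^ 2 * s)) ≤ ρ * pv * β ^ 2 * s ^ 2 + ρ * pv * β ^ 2 * α ^ 4 := by
    have : 0 ≤ ρ * pv * β ^ 2 * (s - α ^ 2) ^ 2 := by positivity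
    nlinarith
  have g2 : 2 * (ρ ^ 2 * pv * α ^ 3 * t) ≤ (α * t / ρ) ^ 2 + ρ ^ 6 * pv ^ 2 * α ^ 4 := by
    have h0 := sq_nonneg (α * t / ρ - ρ ^ 3 * pv * α ^ 2)
    have e2 : α * t / ρ * (ρ ^ 3 * pv * α ^ 2) = ρ ^ 2 * pv * α ^ 3 * t := by field_simp
    nlinarith
  have g3 : 2 * (ρ ^ 4 * pv ^ 2 * α ^ 2 * s) ≤ ρ ^ 2 * pv ^ 2 * s ^ 2 + ρ ^ 6 * pv ^ 2 * α ^ 4 := by
    nlinarith [sq_nonneg (ρ * pv * s - ρ ^ 3 * pv * α ^ 2)]
  refine ⟨?_, ?_, ?_, ?_, ?_, ?_, ?_, ?_, ?_, ?_, ?_, ?_, ?_⟩ <;> linarith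

theorem mle {X Y Z m1 m2 E : ℝ} (hX : 0 ≤ X) (h : Y ≤ Z) (e1 : m1 = X * Y) (e2 : m2 = X * Z)
    (hE : m2 ≤ E) : m1 ≤ E := by
  rw [e1]; rw [e2] at hE; exact (mul_le_mul_of_nonneg_left h hX).trans hE

noncomputable def N0 (α β s t : ℝ) : ℝ := α * t + β * s
noncomputable def NE (α β s t pu pv φ : ℝ) : ℝ :=
  pv * α * s + pu * β * t + (φ + pu * pv) * (α * t + β * s) + α ^ 2 + β ^ 2
noncomputable def ND (α β pu pv : ℝ) : ℝ := α * β + pv * α ^ 2 + pu * β ^ 2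

section
variable {α β s t ρ L pu pv φ ε E : ℝ}

theorem q1 (h : Rng α β s t ρ L pu pv φ ε) (H : Half α β s t ρ L pu pv φ ε E)
    (H' : Half β α t s ρ L pv pu φ ε E) : (φ + pu * pv) * (α * t) ^ 2 ≤ 2 * E := by
  obtain ⟨a1, b1, aρ, bρ, s0, t0, L1, pu0, pv0, φ0, ε0, pu1, pv1, φ1, -⟩ := h
  have ha : 0 < α := by linarith
  have h1 : pu * pv * (α * t) ^ 2 ≤ E :=
    mle (X := pu * α ^ 2 * t ^ 2) (Y := pv) (Z := ρ) (by positivity) (by linarith) (by ring)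
      (by ring) H'.m4
  have h2 := H.m2
  nlinarith

theorem q2 (h : Rng α β s t ρ L pu pv φ ε) (H : Half α β s t ρ L pu pv φ ε E)
    (H' : Half β α t s ρ L pv pu φ ε E) : (φ + pu * pv) * (α * t + β * s) ^ 2 ≤ 8 * E := by
  have h1 := q1 h H H'
  have h2 := q1 h.swap H' H
  have h0 : 0 ≤ φ + pu * pv := by have := h.φ0; have := mul_nonneg h.pu0 h.pv0; linarith
  have h3 : (α * t + β * s) ^ 2 ≤ 2 * (α * t) ^ 2 + 2 * (β * s) ^ 2 := by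
    nlinarith [sq_nonneg (α * t - β * s)]
  have h4 := mul_le_mul_of_nonneg_left h3 h0
  rw [mul_comm pv pu] at h2
  nlinarith

theorem q3 (h : Rng α β s t ρ L pu pv φ ε) (H : Half α β s t ρ L pu pv φ ε E)
    (H' : Half β α t s ρ L pv pu φ ε E) :
    α * t * (pv * α * s + pu * β * t + α ^ 2 + β ^ 2) ≤ 4 * E := by
  obtain ⟨a1, b1, aρ, bρ, s0, t0, L1, pu0, pv0, φ0, ε0, pu1, pv1, φ1, -⟩ := h
  have ha : 0 < α := by linarith
  have hb : 0 < β := by linarith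
  have h1 := H.m3
  have h2 : pu * α * β * t ^ 2 ≤ E :=
    mle (X := pu * α * t ^ 2) (Y := β) (Z := ρ * α) (by positivity) (by nlinarith) (by ring)
      (by ring) H'.m4
  have h3 : α ^ 3 * t ≤ E :=
    mle (X := α ^ 3 * t) (Y := 1) (Z := β ^ 2 * α) (by positivity)
      (one_le_mul_of_one_le_of_one_le (one_le_pow₀ b1) a1) (by ring) (by ring) H'.m1
  have h4 : α * β ^ 2 * t ≤ E :=
    mle (X := α * β ^ 2 * t) (Y := 1) (Z := α ^ 3) (by positivity) (one_le_pow₀ a1) (by ring)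
      (by ring) H'.m1
  nlinarith

theorem I1 (h : Rng α β s t ρ L pu pv φ ε) (H : Half α β s t ρ L pu pv φ ε E)
    (H' : Half β α t s ρ L pv pu φ ε E) : N0 α β s t * NE α β s t pu pv φ ≤ 16 * E := by
  have h1 := q2 h H H'
  have h2 := q3 h H H'
  have h3 := q3 h.swap H' H
  unfold N0 NE
  nlinarith

theorem q4 (h : Rng α β s t ρ L pu pv φ ε) (H : Half α β s t ρ L pu pv φ ε E) :
    (pv * α * s) ^ 2 ≤ E ∧ (α ^ 2) ^ 2 ≤ E := by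
  obtain ⟨a1, b1, aρ, bρ, s0, t0, L1, pu0, pv0, φ0, ε0, pu1, pv1, φ1, -⟩ := h
  have ha : 0 < α := by linarith
  refine ⟨mle (X := pv ^ 2 * s ^ 2) (Y := α ^ 2) (Z := ρ ^ 2) (by positivity)
    (pow_le_pow_left₀ ha.le aρ 2) (by ring) (by ring) H.m5,
    mle (X := α ^ 4) (Y := 1) (Z := β ^ 4) (by positivity) (one_le_pow₀ b1) (by ring) (by ring) H.m0⟩

theorem I2 (h : Rng α β s t ρ L pu pv φ ε) (H : Half α β s t ρ L pu pv φ ε E)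
    (H' : Half β α t s ρ L pv pu φ ε E) : NE α β s t pu pv φ ^ 2 ≤ 60 * E := by
  have h1 := q2 h H H'
  obtain ⟨h2, h3⟩ := q4 h H
  obtain ⟨h4, h5⟩ := q4 h.swap H'
  have h0 : 0 ≤ φ + pu * pv := by have := h.φ0; have := mul_nonneg h.pu0 h.pv0; linarith
  have h00 : φ + pu * pv ≤ 1 := by
    have := h.φ1; have := mul_le_mul h.pu1 h.pv1 h.pv0 (by norm_num); linarith
  have h6 : ((φ + pu * pv) * (α * t + β * s)) ^ 2 ≤ 8 * E :=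
    mle (X := (φ + pu * pv) * (α * t + β * s) ^ 2) (Y := φ + pu * pv) (Z := 1) (by positivity) h00
      (by ring) (by ring) h1
  have key : ∀ a b c d e : ℝ, (a + b + c + d + e) ^ 2 ≤ 5 * (a ^ 2 + b ^ 2 + c ^ 2 + d ^ 2 + e ^ 2) :=
    fun a b c d e => by
      nlinarith [sq_nonneg (a - b), sq_nonneg (a - c), sq_nonneg (a - d), sq_nonneg (a - e),
        sq_nonneg (b - c), sq_nonneg (b - d), sq_nonneg (b - e), sq_nonneg (c - d),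
        sq_nonneg (c - e), sq_nonneg (d - e)]
  unfold NE
  refine (key _ _ _ _ _).trans ?_
  linarith

theorem q5 (h : Rng α β s t ρ L pu pv φ ε) (H : Half α β s t ρ L pu pv φ ε E)
    (H' : Half β α t s ρ L pv pu φ ε E) :
    α * t * ((α * β) ^ 2 + (pv * α ^ 2) ^ 2 + (pu * β ^ 2) ^ 2) ≤ 3 * E ∧
    pv * α * s * ((α * β) ^ 2 + (pv * α ^ 2) ^ 2 + (pu * β ^ 2) ^ 2) ≤ 3 * E ∧
    α ^ 2 * ((α * β) ^ 2 + (pv * α ^ 2) ^ 2 + (pu * β ^ 2) ^ 2) ≤ 3 * E := by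
  obtain ⟨a1, b1, aρ, bρ, s0, t0, L1, pu0, pv0, φ0, ε0, pu1, pv1, φ1, -⟩ := h
  have ha : 0 < α := by linarith
  have hb : 0 < β := by linarith
  have r1 : 1 ≤ ρ := by linarith
  have a2 : α ^ 2 ≤ ρ ^ 2 := pow_le_pow_left₀ ha.le aρ 2
  have b2 : β ^ 2 ≤ ρ ^ 2 := pow_le_pow_left₀ hb.le bρ 2
  have a3 : α ^ 3 ≤ ρ ^ 4 := (pow_le_pow_left₀ ha.le aρ 3).trans (pow_le_pow_right₀ r1 (by norm_num))
  have a6 : α ^ 2 ≤ ρ ^ 6 := a2.trans (pow_le_pow_right₀ r1 (by norm_num))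
  have pv1' : pv ≤ 1 := by linarith
  have pu1' : pu ≤ 1 := by linarith
  have h1 : α ^ 3 * β ^ 2 * t ≤ E :=
    mle (X := α ^ 3 * β ^ 2 * t) (Y := 1) (Z := α) (by positivity) a1 (by ring) (by ring) H'.m1
  have h2 : pv ^ 2 * α ^ 5 * t ≤ E :=
    mle (X := pv * α ^ 3 * t) (Y := pv * α ^ 2) (Z := ρ ^ 2) (by positivity)
      ((mul_le_of_le_one_left (by positivity) pv1').trans a2) (by ring) (by ring) H.m89
  have h3 : pu ^ 2 * α * β ^ 4 * t ≤ E :=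
    mle (X := pu ^ 2 * β ^ 2 * t) (Y := α * β ^ 2) (Z := ρ ^ 4) (by positivity)
      (by
        calc α * β ^ 2 ≤ ρ ^ 2 * ρ ^ 2 := mul_le_mul (by nlinarith) b2 (by positivity) (by positivity)
          _ = ρ ^ 4 := by ring) (by ring) (by ring) H'.m59
  have h4 : pv * α ^ 3 * β ^ 2 * s ≤ E :=
    mle (X := pv * α ^ 2 * β ^ 2 * s) (Y := α) (Z := ρ) (by positivity) aρ (by ring) (by ring) H.m4c
  have h5 : pv ^ 3 * α ^ 5 * s ≤ E :=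
    mle (X := pv ^ 2 * α ^ 2 * s) (Y := pv * α ^ 3) (Z := ρ ^ 4) (by positivity)
      ((mul_le_of_le_one_left (by positivity) pv1').trans a3) (by ring) (by ring) H.m59
  have h6 : pv * pu ^ 2 * α * β ^ 4 * s ≤ E :=
    mle (X := α * β ^ 4 * s) (Y := pv * pu ^ 2) (Z := α) (by positivity)
      ((mul_le_one₀ pv1' (by positivity) (pow_le_one₀ pu0 pu1')).trans a1) (by ring) (by ring) H.m1
  have h7 : α ^ 4 * β ^ 2 ≤ E :=
    mle (X := α ^ 4 * β ^ 2) (Y := 1) (Z := β ^ 2) (by positivity) (one_le_pow₀ b1) (by ring)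
      (by ring) H.m0
  have h8 : pv ^ 2 * α ^ 6 ≤ E :=
    mle (X := pv ^ 2 * α ^ 4) (Y := α ^ 2) (Z := ρ ^ 6) (by positivity) a6 (by ring) (by ring) H.m9
  have h9 : pu ^ 2 * α ^ 2 * β ^ 4 ≤ E :=
    mle (X := α ^ 2 * β ^ 4) (Y := pu ^ 2) (Z := α ^ 2) (by positivity)
      ((pow_le_one₀ pu0 pu1').trans (one_le_pow₀ a1)) (by ring) (by ring) H.m0
  refine ⟨?_, ?_, ?_⟩
  · have : α * t * ((α * β) ^ 2 + (pv * α ^ 2) ^ 2 + (pu * β ^ 2) ^ 2)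
        = α ^ 3 * β ^ 2 * t + pv ^ 2 * α ^ 5 * t + pu ^ 2 * α * β ^ 4 * t := by ring
    linarith
  · have : pv * α * s * ((α * β) ^ 2 + (pv * α ^ 2) ^ 2 + (pu * β ^ 2) ^ 2)
        = pv * α ^ 3 * β ^ 2 * s + pv ^ 3 * α ^ 5 * s + pv * pu ^ 2 * α * β ^ 4 * s := by ring
    linarith
  · have : α ^ 2 * ((α * β) ^ 2 + (pv * α ^ 2) ^ 2 + (pu * β ^ 2) ^ 2)
        = α ^ 4 * β ^ 2 + pv ^ 2 * α ^ 6 + pu ^ 2 * α ^ 2 * β ^ 4 := by ring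
    linarith

theorem sq3 (a b c : ℝ) : (a + b + c) ^ 2 ≤ 3 * (a ^ 2 + b ^ 2 + c ^ 2) := by
  nlinarith [sq_nonneg (a - b), sq_nonneg (a - c), sq_nonneg (b - c)]

theorem I3 (h : Rng α β s t ρ L pu pv φ ε) (H : Half α β s t ρ L pu pv φ ε E)
    (H' : Half β α t s ρ L pv pu φ ε E) :
    (N0 α β s t + NE α β s t pu pv φ) * ND α β pu pv ^ 2 ≤ 72 * E := by
  obtain ⟨h1, h2, h3⟩ := q5 h H H'
  obtain ⟨h4, h5, h6⟩ := q5 h.swap H' H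
  have h00 : φ + pu * pv ≤ 1 := by
    have := h.φ1; have := mul_le_mul h.pu1 h.pv1 h.pv0 (by norm_num); linarith
  obtain ⟨a1, b1, aρ, bρ, s0, t0, L1, pu0, pv0, φ0, ε0, pu1, pv1, φ1, -⟩ := h
  have ha : 0 < α := by linarith
  have hb : 0 < β := by linarith
  set Q := (α * β) ^ 2 + (pv * α ^ 2) ^ 2 + (pu * β ^ 2) ^ 2 with hQ
  have eQ : (β * α) ^ 2 + (pu * β ^ 2) ^ 2 + (pv * α ^ 2) ^ 2 = Q := by rw [hQ]; ring
  rw [eQ] at h4 h5 h6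
  have hQ0 : 0 ≤ Q := by positivity
  have g1 : ND α β pu pv ^ 2 ≤ 3 * Q := sq3 _ _ _
  have g2 : N0 α β s t + NE α β s t pu pv φ
      ≤ 2 * (α * t) + 2 * (β * s) + pv * α * s + pu * β * t + α ^ 2 + β ^ 2 := by
    unfold N0 NE
    have := mul_le_of_le_one_left (show 0 ≤ α * t + β * s by positivity) h00
    linarith
  have g3 := mul_le_mul g2 g1 (sq_nonneg _) (by positivity)
  refine g3.trans ?_
  have : (2 * (α * t) + 2 * (β * s) + pv * α * s + pu * β * t + α ^ 2 + β ^ 2) * (3 * Q)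
      = 6 * (α * t * Q) + 6 * (β * s * Q) + 3 * (pv * α * s * Q) + 3 * (pu * β * t * Q)
        + 3 * (α ^ 2 * Q) + 3 * (β ^ 2 * Q) := by ring
  linarith

theorem q6 (h : Rng α β s t ρ L pu pv φ ε) (H : Half α β s t ρ L pu pv φ ε E) :
    ((pv * α ^ 2) ^ 2) ^ 2 ≤ E := by
  obtain ⟨a1, b1, aρ, bρ, s0, t0, L1, pu0, pv0, φ0, ε0, pu1, pv1, φ1, -⟩ := h
  have ha : 0 < α := by linarith
  have r1 : 1 ≤ ρ := by linarith
  have a4 : α ^ 4 ≤ ρ ^ 6 := (pow_le_pow_left₀ ha.le aρ 4).trans (pow_le_pow_right₀ r1 (by norm_num))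
  exact mle (X := pv ^ 2 * α ^ 4) (Y := pv ^ 2 * α ^ 4) (Z := ρ ^ 6) (by positivity)
    ((mul_le_of_le_one_left (by positivity) (pow_le_one₀ pv0 (by linarith))).trans a4) (by ring)
    (by ring) H.m9

theorem I4 (h : Rng α β s t ρ L pu pv φ ε) (H : Half α β s t ρ L pu pv φ ε E)
    (H' : Half β α t s ρ L pv pu φ ε E) : (ND α β pu pv ^ 2) ^ 2 ≤ 81 * E := by
  have h1 := q6 h H
  have h2 := q6 h.swap H'
  have h3 : ((α * β) ^ 2) ^ 2 ≤ E := by have := H.m0; nlinarith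
  have g1 : ND α β pu pv ^ 2 ≤ 3 * ((α * β) ^ 2 + (pv * α ^ 2) ^ 2 + (pu * β ^ 2) ^ 2) := sq3 _ _ _
  have g2 := pow_le_pow_left₀ (sq_nonneg _) g1 2
  have g3 := sq3 ((α * β) ^ 2) ((pv * α ^ 2) ^ 2) ((pu * β ^ 2) ^ 2)
  rw [mul_pow] at g2
  linarith

theorem amul {x y a b : ℝ} (hx : |x| ≤ a) (hy : |y| ≤ b) : |x * y| ≤ a * b := by
  rw [abs_mul]; exact mul_le_mul hx hy (abs_nonneg _) ((abs_nonneg _).trans hx)

theorem sgn_le {c x E : ℝ} (hc : |c| = 1) (hx : |x| ≤ E) : c * x ≤ E :=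
  (le_abs_self _).trans (by rw [abs_mul, hc, one_mul]; exact hx)

theorem sgns {σ σ' : ℝ} (hσ : σ = 1 ∨ σ = -1) (hσ' : σ' = 1 ∨ σ' = -1) :
    |σ * σ'| = 1 ∧ |-σ| = 1 ∧ |-σ'| = 1 ∧ |(1 : ℝ)| = 1 := by
  rcases hσ with rfl | rfl <;> rcases hσ' with rfl | rfl <;> simp

/-- half of the linear term -/
theorem lin_half (h : Rng α β s t ρ L pu pv φ ε) (H : Half α β s t ρ L pu pv φ ε E)
    (H' : Half β α t s ρ L pv pu φ ε E) (hE3 : L * φ * (s * t) ≤ E)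
    {σ n w κ D Wyy Wyz Wye Wey Wyf Wfy Wff Wef : ℝ} (hσ : σ = 1 ∨ σ = -1)
    (hn : |n| ≤ 2 * pv) (hnD : |n - D| ≤ 3 * (ε + pv * φ + pv ^ 2)) (hw : |w - σ| ≤ 2 * (φ + pu * pv))
    (hκ : |κ| ≤ 2 * ε) (yy : |Wyy| ≤ L * s ^ 2) (yz : |Wyz| ≤ L * (s * t)) (ye : |Wye| ≤ s ^ 2)
    (ey : |Wey| ≤ s ^ 2) (yf : |Wyf| ≤ L * (s * β)) (fy : |Wfy| ≤ L * (s * β))
    (ff : |Wff| ≤ L * β ^ 2) (ef : |Wef| ≤ L * (α * β)) :
    n * Wyy + w * Wyz - σ * w * (Wye + Wey) - σ * n * (Wyf + Wfy) + (n - κ) * Wff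
      + (w - σ - κ) * Wef - (D * Wyy + σ * Wyz - (Wye + Wey)) ≤ 30 * E := by
  obtain ⟨a1, b1, aρ, bρ, s0, t0, L1, pu0, pv0, φ0, ε0, pu1, pv1, φ1, εφ, εu, εv⟩ := h
  have ha : 0 < α := by linarith
  have hb : 0 < β := by linarith
  have hL : 0 < L := by linarith
  have r1 : 1 ≤ ρ := by linarith
  have hs : |σ| = 1 := by rcases hσ with h | h <;> simp [h]
  have hs2 : σ * σ = 1 := by rcases hσ with h | h <;> simp [h]
  have e : n * Wyy + w * Wyz - σ * w * (Wye + Wey) - σ * n * (Wyf + Wfy) + (n - κ) * Wff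
      + (w - σ - κ) * Wef - (D * Wyy + σ * Wyz - (Wye + Wey))
      = (n - D) * Wyy + (w - σ) * Wyz + (-σ * (w - σ)) * (Wye + Wey) + (-σ * n) * (Wyf + Wfy)
        + (n - κ) * Wff + (w - σ - κ) * Wef := by
    linear_combination (-(Wye + Wey)) * hs2
  have c1 : |-σ * (w - σ)| ≤ 2 * (φ + pu * pv) := by rw [abs_mul, abs_neg, hs, one_mul]; exact hw
  have c2 : |-σ * n| ≤ 2 * pv := by rw [abs_mul, abs_neg, hs, one_mul]; exact hn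
  have c3 : |n - κ| ≤ 4 * pv := (abs_sub _ _).trans (by linarith)
  have pp : pu * pv ≤ pu := mul_le_of_le_one_right pu0 (by linarith)
  have c4 : |w - σ - κ| ≤ 4 * (φ + pu + pv) := (abs_sub _ _).trans (by linarith)
  have d1 : |Wye + Wey| ≤ 2 * s ^ 2 := (abs_add_le _ _).trans (by linarith)
  have d2 : |Wyf + Wfy| ≤ 2 * (L * (s * β)) := (abs_add_le _ _).trans (by linarith)
  have t1 := (le_abs_self _).trans (amul hnD yy)
  have t2 := (le_abs_self _).trans (amul hw yz)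
  have t3 := (le_abs_self _).trans (amul c1 d1)
  have t4 := (le_abs_self _).trans (amul c2 d2)
  have t5 := (le_abs_self _).trans (amul c3 ff)
  have t6 := (le_abs_self _).trans (amul c4 ef)
  have u1 : 3 * (ε + pv * φ + pv ^ 2) * (L * s ^ 2) ≤ 6 * E := by
    linear_combination 3 * H.m7 + 3 * H.m5L
  have u2 : 2 * (φ + pu * pv) * (L * (s * t)) ≤ 4 * E := by
    have h1 := H.m5L; have h2 := H'.m5L
    have h3 : 0 ≤ L * (pv * s - pu * t) ^ 2 := by positivity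
    linear_combination 2 * hE3 + h1 + h2 + h3
  have u3 : 2 * (φ + pu * pv) * (2 * s ^ 2) ≤ 8 * E := by
    have h1 : φ * s ^ 2 ≤ E :=
      mle (X := φ * s ^ 2) (Y := 1) (Z := β ^ 2) (by positivity) (one_le_pow₀ b1) (by ring) (by ring)
        H'.m2
    have h2 : pu * pv * s ^ 2 ≤ E :=
      mle (X := pv * s ^ 2) (Y := pu) (Z := ρ * β ^ 2) (by positivity)
        (le_trans (by linarith) (one_le_mul_of_one_le_of_one_le r1 (one_le_pow₀ b1))) (by ring)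
        (by ring) H.m4
    linear_combination 4 * h1 + 4 * h2
  have u4 : 2 * pv * (2 * (L * (s * β))) ≤ 4 * E := by
    have h1 : L * β * (pv * s * 1) ≤ E :=
      mle (X := L * β) (Y := pv * s * 1) (Z := (φ + pu + pv) * (s + α) * α) (by positivity)
        (by gcongr <;> linarith) (by ring) (by ring) H.m6
    linear_combination 4 * h1
  have u5 : 4 * pv * (L * β ^ 2) ≤ 4 * E := by
    have h1 : L * β * (pv * β * 1) ≤ E :=
      mle (X := L * β) (Y := pv * β * 1) (Z := (φ + pv + pu) * (t + β) * α) (by positivity)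
        (by gcongr <;> linarith) (by ring) (by ring) H'.m6
    linear_combination 4 * h1
  have u6 : 4 * (φ + pu + pv) * (L * (α * β)) ≤ 4 * E := by
    have h1 : L * (φ + pu + pv) * (α * β) ≤ E :=
      mle (X := L * (φ + pu + pv) * (α * β)) (Y := 1) (Z := s + α) (by positivity) (by linarith)
        (by ring) (by ring) H.m6
    linear_combination 4 * h1
  rw [e]
  linear_combination t1 + t2 + t3 + t4 + t5 + t6 + u1 + u2 + u3 + u4 + u5 + u6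

/-- the quadratic form `⟨A X, A' X'⟩` -/
theorem aa_bd (h : Rng α β s t ρ L pu pv φ ε) (H : Half α β s t ρ L pu pv φ ε E)
    (H' : Half β α t s ρ L pv pu φ ε E) (hE3 : L * φ * (s * t) ≤ E) {o : ℝ} (hE1 : o * (s * t) ≤ E)
    {σ σ' yy zz yz zy ye yf ze zf ey fy ez fz ee ff ef fe YY ZZ YZ ZY : ℝ}
    (hσ : σ = 1 ∨ σ = -1) (hσ' : σ' = 1 ∨ σ' = -1)
    (hyz : |yz| ≤ o) (hzy : |zy| ≤ o) (hye : |ye| ≤ pu) (hey : |ey| ≤ pu) (hzf : |zf| ≤ pv)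
    (hfz : |fz| ≤ pv) (hyf : |yf| ≤ φ) (hfy : |fy| ≤ φ) (hze : |ze| ≤ φ) (hez : |ez| ≤ φ)
    (hee : |ee - 1| ≤ ε) (hff : |ff - 1| ≤ ε) (hef : |ef| ≤ ε) (hfe : |fe| ≤ ε)
    (hYY : |YY| ≤ s ^ 2) (hZZ : |ZZ| ≤ t ^ 2) (hYZ : |YZ| ≤ s * t) (hZY : |ZY| ≤ s * t) :
    σ * σ' * (yy * ZZ + yz * ZY + zy * YZ + zz * YY) - σ * (ye * ZY + yf * ZZ + ze * YY + zf * YZ)
      - σ' * (ey * YZ + ez * YY + fy * ZZ + fz * ZY) + (ee * YY + ef * YZ + fe * ZY + ff * ZZ)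
      - (σ * σ' * (yy * ZZ + zz * YY) + YY + ZZ) ≤ 14 * E := by
  obtain ⟨a1, b1, aρ, bρ, s0, t0, L1, pu0, pv0, φ0, ε0, pu1, pv1, φ1, εφ, εu, εv⟩ := h
  have g1 : pu * (s * t) ≤ E :=
    mle (X := pu * (s * t)) (Y := 1) (Z := β ^ 2) (by positivity) (one_le_pow₀ b1) (by ring) (by ring)
      H'.m3
  have g2 : pv * (s * t) ≤ E :=
    mle (X := pv * (s * t)) (Y := 1) (Z := α ^ 2) (by positivity) (one_le_pow₀ a1) (by ring) (by ring)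
      H.m3
  have g3 : φ * s ^ 2 ≤ E :=
    mle (X := φ * s ^ 2) (Y := 1) (Z := β ^ 2) (by positivity) (one_le_pow₀ b1) (by ring) (by ring)
      H'.m2
  have g4 : φ * t ^ 2 ≤ E :=
    mle (X := φ * t ^ 2) (Y := 1) (Z := α ^ 2) (by positivity) (one_le_pow₀ a1) (by ring) (by ring)
      H.m2
  have g5 : ε * s ^ 2 ≤ E := (mul_le_mul_of_nonneg_right εφ (by positivity)).trans g3
  have g6 : ε * t ^ 2 ≤ E := (mul_le_mul_of_nonneg_right εφ (by positivity)).trans g4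
  have g7 : ε * (s * t) ≤ E := (mul_le_mul_of_nonneg_right εu (by positivity)).trans g1
  obtain ⟨c1, c2, c3, c4⟩ := sgns hσ hσ'
  have t1 := sgn_le c1 ((amul hyz hZY).trans hE1)
  have t2 := sgn_le c1 ((amul hzy hYZ).trans hE1)
  have t3 := sgn_le c2 ((amul hye hZY).trans g1)
  have t4 := sgn_le c2 ((amul hyf hZZ).trans g4)
  have t5 := sgn_le c2 ((amul hze hYY).trans g3)
  have t6 := sgn_le c2 ((amul hzf hYZ).trans g2)
  have t7 := sgn_le c3 ((amul hey hYZ).trans g1)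
  have t8 := sgn_le c3 ((amul hez hYY).trans g3)
  have t9 := sgn_le c3 ((amul hfy hZZ).trans g4)
  have t10 := sgn_le c3 ((amul hfz hZY).trans g2)
  have t11 := sgn_le c4 ((amul hee hYY).trans g5)
  have t12 := sgn_le c4 ((amul hff hZZ).trans g6)
  have t13 := sgn_le c4 ((amul hef hYZ).trans g7)
  have t14 := sgn_le c4 ((amul hfe hZY).trans g7)
  linear_combination t1 + t2 + t3 + t4 + t5 + t6 + t7 + t8 + t9 + t10 + t11 + t12 + t13 + t14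

/-- the quadratic form `⟨A G, (A' F)ᵀ⟩`; `aB = ⟨a, B'⟩`, `Ab = ⟨A, b'⟩` -/
theorem at_bd (h : Rng α β s t ρ L pu pv φ ε) (H : Half α β s t ρ L pu pv φ ε E)
    (H' : Half β α t s ρ L pv pu φ ε E) {o : ℝ} (hE2 : o * o ≤ E)
    {σ σ' yY yZ zY zZ eY eZ fY fZ Yy Yz Zy Zz Ye Yf Ze Zf : ℝ}
    (hσ : σ = 1 ∨ σ = -1) (hσ' : σ' = 1 ∨ σ' = -1)
    (o1 : |yZ| ≤ o) (o2 : |Zy| ≤ o) (o3 : |zY| ≤ o) (o4 : |Yz| ≤ o)
    (hyY : |yY| ≤ s * α) (hyZ : |yZ| ≤ s * β) (hzY : |zY| ≤ t * α) (hzZ : |zZ| ≤ t * β)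
    (hYy : |Yy| ≤ s * α) (hYz : |Yz| ≤ s * β) (hZy : |Zy| ≤ t * α) (hZz : |Zz| ≤ t * β)
    (heY : |eY| ≤ α * α) (heZ : |eZ| ≤ α * β) (hfY : |fY| ≤ α * β) (hfZ : |fZ| ≤ β * β)
    (hYe : |Ye| ≤ α * α) (hYf : |Yf| ≤ α * β) (hZe : |Ze| ≤ α * β) (hZf : |Zf| ≤ β * β) :
    σ * σ' * (yZ * Zy + yY * Zz + zZ * Yy + zY * Yz) - σ * (yY * Ze + yZ * Zf + zY * Ye + zZ * Yf)
      - σ' * (eZ * Yy + eY * Yz + fZ * Zy + fY * Zz) + (eY * Ye + eZ * Yf + fY * Ze + fZ * Zf)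
      - σ * σ' * (yY * Zz + zZ * Yy) ≤ 14 * E := by
  obtain ⟨a1, b1, aρ, bρ, s0, t0, L1, pu0, pv0, φ0, ε0, pu1, pv1, φ1, εφ, εu, εv⟩ := h
  have ha : 0 < α := by linarith
  have hb : 0 < β := by linarith
  have g1 : s * α * (α * β) ≤ E :=
    mle (X := s * α * (α * β)) (Y := 1) (Z := β ^ 3) (by positivity) (one_le_pow₀ b1) (by ring)
      (by ring) H.m1
  have g2 : s * β * (β * β) ≤ E :=
    mle (X := s * β * (β * β)) (Y := 1) (Z := α ^ 2 * β) (by positivity)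
      (one_le_mul_of_one_le_of_one_le (one_le_pow₀ a1) b1) (by ring) (by ring) H.m1
  have g3 : t * α * (α * α) ≤ E :=
    mle (X := t * α * (α * α)) (Y := 1) (Z := β ^ 2 * α) (by positivity)
      (one_le_mul_of_one_le_of_one_le (one_le_pow₀ b1) a1) (by ring) (by ring) H'.m1
  have g4 : t * β * (α * β) ≤ E :=
    mle (X := t * β * (α * β)) (Y := 1) (Z := α ^ 3) (by positivity) (one_le_pow₀ a1) (by ring)
      (by ring) H'.m1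
  have g5 : α * α * (α * α) ≤ E :=
    mle (X := α ^ 4) (Y := 1) (Z := β ^ 4) (by positivity) (one_le_pow₀ b1) (by ring) (by ring) H.m0
  have g6 : β * β * (β * β) ≤ E :=
    mle (X := β ^ 4) (Y := 1) (Z := α ^ 4) (by positivity) (one_le_pow₀ a1) (by ring) (by ring) H.m0
  have g7 : α * β * (α * β) ≤ E :=
    mle (X := α ^ 2 * β ^ 2) (Y := 1) (Z := α ^ 2 * β ^ 2) (by positivity)
      (one_le_mul_of_one_le_of_one_le (one_le_pow₀ a1) (one_le_pow₀ b1)) (by ring) (by ring) H.m0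
  have g8 : α * α * (s * β) ≤ E := le_trans (le_of_eq (by ring)) g1
  have g9 : β * β * (t * α) ≤ E := le_trans (le_of_eq (by ring)) g4
  have g10 : α * β * (s * α) ≤ E := le_trans (le_of_eq (by ring)) g1
  have g11 : α * β * (t * β) ≤ E := le_trans (le_of_eq (by ring)) g4
  obtain ⟨c1, c2, c3, c4⟩ := sgns hσ hσ'
  have t1 := sgn_le c1 ((amul o1 o2).trans hE2)
  have t2 := sgn_le c1 ((amul o3 o4).trans hE2)
  have t3 := sgn_le c2 ((amul hyY hZe).trans g1)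
  have t4 := sgn_le c2 ((amul hyZ hZf).trans g2)
  have t5 := sgn_le c2 ((amul hzY hYe).trans g3)
  have t6 := sgn_le c2 ((amul hzZ hYf).trans g4)
  have t7 := sgn_le c3 ((amul heZ hYy).trans g10)
  have t8 := sgn_le c3 ((amul heY hYz).trans g8)
  have t9 := sgn_le c3 ((amul hfZ hZy).trans g9)
  have t10 := sgn_le c3 ((amul hfY hZz).trans g11)
  have t11 := sgn_le c4 ((amul heY hYe).trans g5)
  have t12 := sgn_le c4 ((amul heZ hYf).trans g7)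
  have t13 := sgn_le c4 ((amul hfY hZe).trans g7)
  have t14 := sgn_le c4 ((amul hfZ hZf).trans g6)
  linear_combination t1 + t2 + t3 + t4 + t5 + t6 + t7 + t8 + t9 + t10 + t11 + t12 + t13 + t14

end

end Crest.Agent.R62.P4
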