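import Crest.Agent.R62.Pt4A

/-! Frobenius calculus for `pt4`. -/

set_option autoImplicit false
set_option linter.unusedSectionVars false

open Finset Matrix

namespace Crest.Agent.R62.P4

variable {ι : Type} [Fintype ι] [DecidableEq ι]

def fi (A B : Matrix ι ι ℝ) : ℝ := ∑ a, ∑ b, A a b * B a b
noncomputable def fn (A : Matrix ι ι ℝ) : ℝ := √(fi A A)
noncomputable def vn (a : ι → ℝ) : ℝ := √(a ⬝ᵥ a)

theorem fi_comm (A B : Matrix ι ι ℝ) : fi A B = fi B A := by simp only [fi, mul_comm]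
theorem fi_add_left (A B C : Matrix ι ι ℝ) : fi (A + B) C = fi A C + fi B C := by
  simp only [fi, Matrix.add_apply, add_mul, sum_add_distrib]
theorem fi_add_right (A B C : Matrix ι ι ℝ) : fi A (B + C) = fi A B + fi A C := by
  simp only [fi, Matrix.add_apply, mul_add, sum_add_distrib]
theorem fi_sub_left (A B C : Matrix ι ι ℝ) : fi (A - B) C = fi A C - fi B C := by
  simp only [fi, Matrix.sub_apply, sub_mul, sum_sub_distrib]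
theorem fi_sub_right (A B C : Matrix ι ι ℝ) : fi A (B - C) = fi A B - fi A C := by
  simp only [fi, Matrix.sub_apply, mul_sub, sum_sub_distrib]
theorem fi_smul_left (c : ℝ) (A B : Matrix ι ι ℝ) : fi (c • A) B = c * fi A B := by
  simp only [fi, Matrix.smul_apply, smul_eq_mul, mul_sum, mul_assoc]
theorem fi_smul_right (c : ℝ) (A B : Matrix ι ι ℝ) : fi A (c • B) = c * fi A B := by
  rw [fi_comm, fi_smul_left, fi_comm]
theorem fi_ot (a b c d : ι → ℝ) : fi (vecMulVec a b) (vecMulVec c d) = (a ⬝ᵥ c) * (b ⬝ᵥ d) := by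
  simp only [fi, vecMulVec_apply, dotProduct, sum_mul_sum]
  exact sum_congr rfl fun _ _ => sum_congr rfl fun _ _ => by ring
theorem fi_mat_ot (M : Matrix ι ι ℝ) (a b : ι → ℝ) : fi M (vecMulVec a b) = a ⬝ᵥ (M *ᵥ b) := by
  simp only [fi, vecMulVec_apply, dotProduct, mulVec, mul_sum]
  exact sum_congr rfl fun _ _ => sum_congr rfl fun _ _ => by ring
theorem fi_transpose (A B : Matrix ι ι ℝ) : fi Aᵀ Bᵀ = fi A B := by
  simp only [fi, transpose_apply]; exact sum_comm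
theorem fi_eq_trace (A B : Matrix ι ι ℝ) : fi A B = (Aᵀ * B).trace := by
  simp only [fi, Matrix.trace, Matrix.diag, Matrix.mul_apply, transpose_apply]; exact sum_comm
theorem fi_self_nonneg (A : Matrix ι ι ℝ) : 0 ≤ fi A A :=
  sum_nonneg fun _ _ => sum_nonneg fun _ _ => mul_self_nonneg _
theorem fn_nonneg (A : Matrix ι ι ℝ) : 0 ≤ fn A := Real.sqrt_nonneg _
theorem vn_nonneg (a : ι → ℝ) : 0 ≤ vn a := Real.sqrt_nonneg _
theorem fn_sq (A : Matrix ι ι ℝ) : fn A ^ 2 = fi A A := Real.sq_sqrt (fi_self_nonneg A)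
theorem dself_nonneg (a : ι → ℝ) : 0 ≤ a ⬝ᵥ a := sum_nonneg fun _ _ => mul_self_nonneg _
theorem vn_sq (a : ι → ℝ) : vn a ^ 2 = a ⬝ᵥ a := Real.sq_sqrt (dself_nonneg a)

theorem fi_sq_le (A B : Matrix ι ι ℝ) : fi A B ^ 2 ≤ fi A A * fi B B := by
  have h := Finset.sum_mul_sq_le_sq_mul_sq univ (fun x : ι × ι => A x.1 x.2) (fun x => B x.1 x.2)
  simpa only [fi, Fintype.sum_prod_type, sq] using h
theorem abs_fi_le (A B : Matrix ι ι ℝ) : |fi A B| ≤ fn A * fn B := by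
  refine abs_le_of_sq_le_sq' ?_ (mul_nonneg (fn_nonneg A) (fn_nonneg B)) |> abs_le.2
  rw [mul_pow, fn_sq, fn_sq]; exact fi_sq_le A B
theorem abs_dot_le (a b : ι → ℝ) : |a ⬝ᵥ b| ≤ vn a * vn b := by
  refine abs_le_of_sq_le_sq' ?_ (mul_nonneg (vn_nonneg a) (vn_nonneg b)) |> abs_le.2
  rw [mul_pow, vn_sq, vn_sq]
  have h := Finset.sum_mul_sq_le_sq_mul_sq univ a b
  simpa only [dotProduct, sq] using h
theorem dot_bd {a b : ι → ℝ} {x y : ℝ} (ha : vn a ≤ x) (hb : vn b ≤ y) : |a ⬝ᵥ b| ≤ x * y :=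
  (abs_dot_le a b).trans (mul_le_mul ha hb (vn_nonneg b) ((vn_nonneg a).trans ha))
theorem fi_bd {A B : Matrix ι ι ℝ} {x y : ℝ} (ha : fn A ≤ x) (hb : fn B ≤ y) : fi A B ≤ x * y :=
  (le_abs_self _).trans ((abs_fi_le A B).trans
    (mul_le_mul ha hb (fn_nonneg B) ((fn_nonneg A).trans ha)))

theorem fn_add (A B : Matrix ι ι ℝ) : fn (A + B) ≤ fn A + fn B := by
  refine le_of_sq_le_sq ?_ (add_nonneg (fn_nonneg A) (fn_nonneg B)) |> fun h => h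
  rw [fn_sq, fi_add_left, fi_add_right, fi_add_right, add_sq, fn_sq, fn_sq, fi_comm B A]
  have := (le_abs_self _).trans (abs_fi_le A B)
  linarith
theorem fn_smul (c : ℝ) (A : Matrix ι ι ℝ) : fn (c • A) = |c| * fn A := by
  unfold fn
  rw [fi_smul_left, fi_smul_right, ← mul_assoc, Real.sqrt_mul (mul_self_nonneg c),
    Real.sqrt_mul_self_eq_abs]
theorem fn_ot (a b : ι → ℝ) : fn (vecMulVec a b) = vn a * vn b := by
  unfold fn vn; rw [fi_ot, Real.sqrt_mul (dself_nonneg a)]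
theorem fn_transpose (A : Matrix ι ι ℝ) : fn Aᵀ = fn A := by unfold fn; rw [fi_transpose]
theorem fn_mul (A B : Matrix ι ι ℝ) : fn (A * B) ≤ fn A * fn B := by
  refine le_of_sq_le_sq ?_ (mul_nonneg (fn_nonneg A) (fn_nonneg B)) |> fun h => h
  rw [mul_pow, fn_sq, fn_sq, fn_sq]
  have e : fi B B = ∑ b, ∑ c, B c b * B c b := sum_comm
  rw [e]
  unfold fi
  rw [sum_mul_sum]
  refine sum_le_sum fun a _ => sum_le_sum fun b _ => ?_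
  have h := Finset.sum_mul_sq_le_sq_mul_sq univ (A a) (fun c => B c b)
  simpa only [Matrix.mul_apply, sq] using h

theorem bd_add {A B : Matrix ι ι ℝ} {x y : ℝ} (ha : fn A ≤ x) (hb : fn B ≤ y) :
    fn (A + B) ≤ x + y := (fn_add A B).trans (add_le_add ha hb)
theorem bd_smul {A : Matrix ι ι ℝ} {c k x : ℝ} (hc : |c| ≤ k) (ha : fn A ≤ x) :
    fn (c • A) ≤ k * x := by
  rw [fn_smul]; exact mul_le_mul hc ha (fn_nonneg A) ((abs_nonneg c).trans hc)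
theorem bd_sub {A B : Matrix ι ι ℝ} {x y : ℝ} (ha : fn A ≤ x) (hb : fn B ≤ y) :
    fn (A - B) ≤ x + y := by
  have : A - B = A + (-1 : ℝ) • B := by rw [neg_one_smul, sub_eq_add_neg]
  rw [this]
  have h := bd_smul (c := -1) (k := 1) (by simp) hb
  rw [one_mul] at h
  exact bd_add ha h
theorem bd_ot {a b : ι → ℝ} {x y : ℝ} (ha : vn a ≤ x) (hb : vn b ≤ y) :
    fn (vecMulVec a b) ≤ x * y := by
  rw [fn_ot]; exact mul_le_mul ha hb (vn_nonneg b) ((vn_nonneg a).trans ha)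

/-- the low rank update with separate right vectors -/
def Dm (σ n n' w κ : ℝ) (y z e f Y Z E F : ι → ℝ) : Matrix ι ι ℝ :=
  n • vecMulVec y Y + n' • vecMulVec z Z + w • (vecMulVec y Z + vecMulVec z Y)
    - (σ * w) • (vecMulVec y E + vecMulVec e Y + (vecMulVec z F + vecMulVec f Z))
    - (σ * n) • (vecMulVec y F + vecMulVec f Y) - (σ * n') • (vecMulVec z E + vecMulVec e Z)
    + (n - κ) • vecMulVec f F + (n' - κ) • vecMulVec e E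
    + (w - σ - κ) • (vecMulVec e F + vecMulVec f E)

def Am (σ : ℝ) (y z e f Y Z : ι → ℝ) : Matrix ι ι ℝ :=
  σ • (vecMulVec y Z + vecMulVec z Y) - vecMulVec e Y - vecMulVec f Z

def Em (σ n n' w κ : ℝ) (y z e f Y Z E F : ι → ℝ) : Matrix ι ι ℝ :=
  n • vecMulVec y Y + n' • vecMulVec z Z + (w - σ) • (vecMulVec y Z + vecMulVec z Y)
    - (σ * w) • (vecMulVec y E + vecMulVec z F)
    - (σ * (w - σ)) • (vecMulVec e Y + vecMulVec f Z)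
    - (σ * n) • (vecMulVec y F + vecMulVec f Y) - (σ * n') • (vecMulVec z E + vecMulVec e Z)
    + (n - κ) • vecMulVec f F + (n' - κ) • vecMulVec e E
    + (w - σ - κ) • (vecMulVec e F + vecMulVec f E)

theorem Dm_eq {σ : ℝ} (hσ : σ = 1 ∨ σ = -1) (n n' w κ : ℝ) (y z e f Y Z E F : ι → ℝ) :
    Dm σ n n' w κ y z e f Y Z E F = Am σ y z e f Y Z + Em σ n n' w κ y z e f Y Z E F := by
  have hs2 : σ * σ = 1 := by rcases hσ with h | h <;> simp [h]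
  ext a b
  simp only [Dm, Am, Em, Matrix.add_apply, Matrix.sub_apply, Matrix.smul_apply, vecMulVec_apply,
    smul_eq_mul]
  linear_combination (-(e a * Y b + f a * Z b)) * hs2

theorem Dm_mul (σ n n' w κ : ℝ) (y z e f Y Z E F : ι → ℝ) {X : Matrix ι ι ℝ} (hX : Xᵀ = X) :
    Dm σ n n' w κ y z e f Y Z E F * X
      = Dm σ n n' w κ y z e f (X *ᵥ Y) (X *ᵥ Z) (X *ᵥ E) (X *ᵥ F) := by
  have h : ∀ b, b ᵥ* X = X *ᵥ b := fun b => by rw [← mulVec_transpose, hX]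
  simp only [Dm, Matrix.add_mul, Matrix.sub_mul, Matrix.smul_mul, vecMulVec_mul, h]

theorem Dm_symm (σ n n' w κ : ℝ) (y z e f : ι → ℝ) :
    (Dm σ n n' w κ y z e f y z e f)ᵀ = Dm σ n n' w κ y z e f y z e f := by
  ext a b
  simp only [Dm, transpose_apply, Matrix.add_apply, Matrix.sub_apply, Matrix.smul_apply,
    vecMulVec_apply, smul_eq_mul]
  ring

/-- coefficient bounds -/
structure Co (σ n n' w κ pu pv φ ε : ℝ) : Prop where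
  sg : σ = 1 ∨ σ = -1
  n1 : |n| ≤ 2 * pv
  n1' : |n'| ≤ 2 * pu
  w1 : |w - σ| ≤ 2 * (φ + pu * pv)
  k1 : |κ| ≤ 2 * ε

section
variable {α β s t ρ L pu pv φ ε σ n n' w κ : ℝ} {y z e f Y Z E F : ι → ℝ}

theorem Co.more (c : Co σ n n' w κ pu pv φ ε) (h : Rng α β s t ρ L pu pv φ ε) :
    |σ| ≤ 1 ∧ |w| ≤ 2 ∧ |σ * w| ≤ 2 ∧ |σ * (w - σ)| ≤ 2 * (φ + pu * pv) ∧ |σ * n| ≤ 2 * pv ∧
      |σ * n'| ≤ 2 * pu ∧ |n - κ| ≤ 1 ∧ |n' - κ| ≤ 1 ∧ |w - σ - κ| ≤ 1 := by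
  have hs : |σ| = 1 := by rcases c.sg with h | h <;> simp [h]
  have pp : pu * pv ≤ 1 / 100 := (mul_le_of_le_one_right h.pu0 (by linarith [h.pv1])).trans h.pu1
  have := h.φ1; have := h.pu1; have := h.pv1; have := h.εφ
  have := c.n1; have := c.n1'; have := c.w1; have := c.k1
  have hw : |w| ≤ 2 := by
    have := abs_add_le (w - σ) σ
    rw [sub_add_cancel] at this; linarith
  refine ⟨hs.le, hw, ?_, ?_, ?_, ?_, (abs_sub _ _).trans (by linarith),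
    (abs_sub _ _).trans (by linarith), (abs_sub _ _).trans (by linarith)⟩ <;>
    rw [abs_mul, hs, one_mul] <;> assumption

theorem Am_bd (hσ : |σ| ≤ 1) (h : Rng α β s t ρ L pu pv φ ε) (hy : vn y ≤ α) (hz : vn z ≤ β)
    (he : vn e ≤ 1) (hf : vn f ≤ 1) (hY : vn Y ≤ s) (hZ : vn Z ≤ t) :
    fn (Am σ y z e f Y Z) ≤ 2 * N0 α β s t := by
  refine (bd_sub (bd_sub (bd_smul hσ (bd_add (bd_ot hy hZ) (bd_ot hz hY))) (bd_ot he hY))
    (bd_ot hf hZ)).trans ?_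
  unfold N0
  nlinarith [mul_nonneg h.s0 (sub_nonneg.2 h.b1), mul_nonneg h.t0 (sub_nonneg.2 h.a1)]

theorem Em_bd (c : Co σ n n' w κ pu pv φ ε) (h : Rng α β s t ρ L pu pv φ ε) (hy : vn y ≤ α)
    (hz : vn z ≤ β) (he : vn e ≤ 1) (hf : vn f ≤ 1) (hY : vn Y ≤ s) (hZ : vn Z ≤ t)
    (hE : vn E ≤ α) (hF : vn F ≤ β) :
    fn (Em σ n n' w κ y z e f Y Z E F) ≤ 6 * NE α β s t pu pv φ := by
  obtain ⟨c1, c2, c3, c4, c5, c6, c7, c8, c9⟩ := c.more h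
  refine (bd_add (bd_add (bd_add (bd_sub (bd_sub (bd_sub (bd_sub (bd_add (bd_add
    (bd_smul c.n1 (bd_ot hy hY)) (bd_smul c.n1' (bd_ot hz hZ)))
    (bd_smul c.w1 (bd_add (bd_ot hy hZ) (bd_ot hz hY))))
    (bd_smul c3 (bd_add (bd_ot hy hE) (bd_ot hz hF))))
    (bd_smul c4 (bd_add (bd_ot he hY) (bd_ot hf hZ))))
    (bd_smul c5 (bd_add (bd_ot hy hF) (bd_ot hf hY))))
    (bd_smul c6 (bd_add (bd_ot hz hE) (bd_ot he hZ))))
    (bd_smul c7 (bd_ot hf hF))) (bd_smul c8 (bd_ot he hE)))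
    (bd_smul c9 (bd_add (bd_ot he hF) (bd_ot hf hE)))).trans ?_
  obtain ⟨a1, b1, aρ, bρ, s0, t0, L1, pu0, pv0, φ0, ε0, pu1, pv1, φ1, -⟩ := h
  have h0 : 0 ≤ φ + pu * pv := by positivity
  have g1 : (φ + pu * pv) * (s + t) ≤ (φ + pu * pv) * (α * t + β * s) :=
    mul_le_mul_of_nonneg_left (by nlinarith) h0
  have g2 : pv * s ≤ pv * α * s := by nlinarith [mul_nonneg (mul_nonneg pv0 s0) (sub_nonneg.2 a1)]
  have g3 : pu * t ≤ pu * β * t := by nlinarith [mul_nonneg (mul_nonneg pu0 t0) (sub_nonneg.2 b1)]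
  have g4 : α ≤ α ^ 2 := by nlinarith
  have g5 : β ≤ β ^ 2 := by nlinarith
  have ab : 0 ≤ α * β := by positivity
  have g6 : pv * (α * β) ≤ 1 / 100 * (α * β) := mul_le_mul_of_nonneg_right pv1 ab
  have g7 : pu * (α * β) ≤ 1 / 100 * (α * β) := mul_le_mul_of_nonneg_right pu1 ab
  have g8 : 2 * (α * β) ≤ α ^ 2 + β ^ 2 := by nlinarith [sq_nonneg (α - β)]
  have g9 : 0 ≤ pv * α * s := by positivity
  have g10 : 0 ≤ pu * β * t := by positivity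
  have g11 : 0 ≤ (φ + pu * pv) * (α * t + β * s) := by positivity
  unfold NE
  nlinarith

theorem Dm_bd (c : Co σ n n' w κ pu pv φ ε) (h : Rng α β s t ρ L pu pv φ ε) (hy : vn y ≤ α)
    (hz : vn z ≤ β) (he : vn e ≤ 1) (hf : vn f ≤ 1) :
    fn (Dm σ n n' w κ y z e f y z e f) ≤ 20 * ND α β pu pv := by
  obtain ⟨c1, c2, c3, c4, c5, c6, c7, c8, c9⟩ := c.more h
  refine (bd_add (bd_add (bd_add (bd_sub (bd_sub (bd_sub (bd_add (bd_add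
    (bd_smul c.n1 (bd_ot hy hy)) (bd_smul c.n1' (bd_ot hz hz)))
    (bd_smul c2 (bd_add (bd_ot hy hz) (bd_ot hz hy))))
    (bd_smul c3 (bd_add (bd_add (bd_ot hy he) (bd_ot he hy)) (bd_add (bd_ot hz hf) (bd_ot hf hz)))))
    (bd_smul c5 (bd_add (bd_ot hy hf) (bd_ot hf hy))))
    (bd_smul c6 (bd_add (bd_ot hz he) (bd_ot he hz))))
    (bd_smul c7 (bd_ot hf hf))) (bd_smul c8 (bd_ot he he)))
    (bd_smul c9 (bd_add (bd_ot he hf) (bd_ot hf he)))).trans ?_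
  obtain ⟨a1, b1, aρ, bρ, s0, t0, L1, pu0, pv0, φ0, ε0, pu1, pv1, φ1, -⟩ := h
  have g1 : α ≤ α * β := by nlinarith
  have g2 : β ≤ α * β := by nlinarith
  have g3 : pv * α ≤ 1 / 100 * α := mul_le_mul_of_nonneg_right pv1 (by linarith)
  have g4 : pu * β ≤ 1 / 100 * β := mul_le_mul_of_nonneg_right pu1 (by linarith)
  have g5 : 0 ≤ pv * α ^ 2 := by positivity
  have g6 : 0 ≤ pu * β ^ 2 := by positivity
  unfold ND
  nlinarith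

theorem fi_Am_Am (σ σ' : ℝ) (y z e f Y Z y' z' Y' Z' : ι → ℝ) :
    fi (Am σ y z e f Y Z) (Am σ' y' z' e f Y' Z')
      = σ * σ' * ((y ⬝ᵥ y') * (Z ⬝ᵥ Z') + (y ⬝ᵥ z') * (Z ⬝ᵥ Y') + (z ⬝ᵥ y') * (Y ⬝ᵥ Z')
          + (z ⬝ᵥ z') * (Y ⬝ᵥ Y'))
        - σ * ((y ⬝ᵥ e) * (Z ⬝ᵥ Y') + (y ⬝ᵥ f) * (Z ⬝ᵥ Z') + (z ⬝ᵥ e) * (Y ⬝ᵥ Y')
          + (z ⬝ᵥ f) * (Y ⬝ᵥ Z'))
        - σ' * ((e ⬝ᵥ y') * (Y ⬝ᵥ Z') + (e ⬝ᵥ z') * (Y ⬝ᵥ Y') + (f ⬝ᵥ y') * (Z ⬝ᵥ Z')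
          + (f ⬝ᵥ z') * (Z ⬝ᵥ Y'))
        + ((e ⬝ᵥ e) * (Y ⬝ᵥ Y') + (e ⬝ᵥ f) * (Y ⬝ᵥ Z') + (f ⬝ᵥ e) * (Z ⬝ᵥ Y')
          + (f ⬝ᵥ f) * (Z ⬝ᵥ Z')) := by
  simp only [Am, fi_sub_left, fi_sub_right, fi_add_left, fi_add_right, fi_smul_left, fi_smul_right,
    fi_ot]
  ring

theorem fi_Am_AmT (σ σ' : ℝ) (y z e f Y Z y' z' Y' Z' : ι → ℝ) :
    fi (Am σ y z e f Y Z) (Am σ' y' z' e f Y' Z')ᵀ
      = σ * σ' * ((y ⬝ᵥ Z') * (Z ⬝ᵥ y') + (y ⬝ᵥ Y') * (Z ⬝ᵥ z') + (z ⬝ᵥ Z') * (Y ⬝ᵥ y')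
          + (z ⬝ᵥ Y') * (Y ⬝ᵥ z'))
        - σ * ((y ⬝ᵥ Y') * (Z ⬝ᵥ e) + (y ⬝ᵥ Z') * (Z ⬝ᵥ f) + (z ⬝ᵥ Y') * (Y ⬝ᵥ e)
          + (z ⬝ᵥ Z') * (Y ⬝ᵥ f))
        - σ' * ((e ⬝ᵥ Z') * (Y ⬝ᵥ y') + (e ⬝ᵥ Y') * (Y ⬝ᵥ z') + (f ⬝ᵥ Z') * (Z ⬝ᵥ y')
          + (f ⬝ᵥ Y') * (Z ⬝ᵥ z'))
        + ((e ⬝ᵥ Y') * (Y ⬝ᵥ e) + (e ⬝ᵥ Z') * (Y ⬝ᵥ f) + (f ⬝ᵥ Y') * (Z ⬝ᵥ e)
          + (f ⬝ᵥ Z') * (Z ⬝ᵥ f)) := by
  simp only [Am, transpose_sub, transpose_add, transpose_smul, transpose_vecMulVec, fi_sub_left,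
    fi_sub_right, fi_add_left, fi_add_right, fi_smul_left, fi_smul_right, fi_ot]
  ring

theorem fi_mat_Dm (M : Matrix ι ι ℝ) (σ n n' w κ : ℝ) (y z e f Y Z E F : ι → ℝ) :
    fi M (Dm σ n n' w κ y z e f Y Z E F)
      = (n * (y ⬝ᵥ M *ᵥ Y) + w * (y ⬝ᵥ M *ᵥ Z) - σ * w * (y ⬝ᵥ M *ᵥ E + e ⬝ᵥ M *ᵥ Y)
          - σ * n * (y ⬝ᵥ M *ᵥ F + f ⬝ᵥ M *ᵥ Y) + (n - κ) * (f ⬝ᵥ M *ᵥ F)
          + (w - σ - κ) * (e ⬝ᵥ M *ᵥ F))
        + (n' * (z ⬝ᵥ M *ᵥ Z) + w * (z ⬝ᵥ M *ᵥ Y) - σ * w * (z ⬝ᵥ M *ᵥ F + f ⬝ᵥ M *ᵥ Z)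
          - σ * n' * (z ⬝ᵥ M *ᵥ E + e ⬝ᵥ M *ᵥ Z) + (n' - κ) * (e ⬝ᵥ M *ᵥ E)
          + (w - σ - κ) * (f ⬝ᵥ M *ᵥ E)) := by
  simp only [Dm, fi_sub_right, fi_add_right, fi_smul_right, fi_mat_ot]
  ring

end

/-- the exact expansion of the change of `‖F G‖²` -/
theorem expand {F G D T : Matrix ι ι ℝ} (hF : Fᵀ = F) (hG : Gᵀ = G) (hD : Dᵀ = D) (hT : Tᵀ = T) :
    fi ((F + D) * (G + T)) ((F + D) * (G + T)) - fi (F * G) (F * G)
      = 2 * fi (F * G) (D * G) + 2 * fi (G * F) (T * F) + 2 * fi (D * F) (T * G)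
        + fi (D * G) (D * G) + fi (T * F) (T * F) + 2 * fi (D * G) (T * F)ᵀ
        + 2 * (fi (D * G) (D * T) + fi (T * F)ᵀ (D * T)) + fi (D * T) (D * T) := by
  have e1 : (T * F)ᵀ = F * T := by rw [transpose_mul, hF, hT]
  have e2 : fi (G * F) (T * F) = fi (F * G) (F * T) := by
    rw [← fi_transpose, e1, transpose_mul, hF, hG]
  have e3 : fi (T * F) (T * F) = fi (F * T) (F * T) := by rw [← fi_transpose, e1]
  have e4 : fi (D * F) (T * G) = fi (F * G) (D * T) := by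
    rw [fi_eq_trace, fi_eq_trace, transpose_mul, transpose_mul, hF, hG, hD,
      ← Matrix.mul_assoc, Matrix.trace_mul_comm (F * D * T) G]
    simp only [Matrix.mul_assoc]
  rw [e1, e2, e3, e4]
  simp only [Matrix.add_mul, Matrix.mul_add, fi_add_left, fi_add_right]
  rw [fi_comm (F * T) (F * G), fi_comm (D * G) (F * G), fi_comm (D * T) (F * G),
    fi_comm (F * T) (D * G), fi_comm (D * T) (D * G), fi_comm (D * T) (F * T)]
  ring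

end Crest.Agent.R62.P4
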