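import Crest.Agent.R62.Der
import Crest.Agent.R62.Pt2

set_option autoImplicit false
set_option linter.unusedSectionVars false

open Finset Matrix

namespace Crest.Agent.R62

variable {ι : Type} [Fintype ι] [DecidableEq ι]

namespace Tr2X
variable {S : Finset ι} {F G : Matrix ι ι ℝ} {L : ℝ}

theorem rb_nonneg (hF : Mat S F) (hG : Mat S G) (a : ι) : 0 ≤ rb F G a :=
  add_nonneg (hF.rr_nonneg a) (hG.rr_nonneg a)

theorem pb_nonneg (S : Finset ι) (F G : Matrix ι ι ℝ) (a : ι) : 0 ≤ pb S F G a := by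
  unfold pb; positivity

theorem err2_nonneg (hF : Mat S F) (hG : Mat S G) (hL : 0 ≤ L) (u v : ι) :
    0 ≤ err2 L S F G u v := by
  have h1 := rb_nonneg hF hG u
  have h2 := rb_nonneg hF hG v
  have h3 := pb_nonneg S F G u
  have h4 := pb_nonneg S F G v
  have h5 : 0 ≤ w3 F G u v := by unfold w3; positivity
  unfold err2
  positivity

theorem err2_real {L ru rv pu pv s e w o du dv : ℝ} (hL : 1 ≤ L) (h1 : 0 ≤ ru) (h2 : 0 ≤ rv)
    (h3 : 0 ≤ du) (h4 : 0 ≤ dv) (h5 : 0 ≤ s) (h6 : 0 ≤ e) (h7 : pu = du + e) (h8 : pv = dv + e) :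
    L * (ru + rv) * e + ru * rv * e + L * (pv * s + pv ^ 2) * ru + L * (pu * s + pu ^ 2) * rv
      + (s + e + pu * pv) * w + (s + pu * pv) * (ru * rv + ru + rv) + o ^ 2 + pv ^ 2 * ru ^ 2
      + pu ^ 2 * rv ^ 2 + du ^ 2 + dv ^ 2 + s ^ 2
    ≤ L * e * (ru + rv) + 4 * L * ((1 + ru) ^ 2 * pv ^ 2 + pu ^ 2 * (1 + rv) ^ 2) + 2 * L * s ^ 2
      + (s + e + pu * pv) * w + 2 * ((s + e + pu * pv) * ((1 + ru) * (1 + rv))) + o ^ 2 := by
  have hu : 0 ≤ pu := by linarith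
  have hv : 0 ≤ pv := by linarith
  have key : ∀ r p d : ℝ, 0 ≤ r → 0 ≤ d → d ≤ p →
      L * (p * s + p ^ 2) * r + p ^ 2 * r ^ 2 + d ^ 2 ≤ 4 * L * ((1 + r) ^ 2 * p ^ 2) + L * s ^ 2 / 2 := by
    intro r p d hr hd hp
    have a1 : (p * s + p ^ 2) * r ≤ 2 * ((1 + r) ^ 2 * p ^ 2) + s ^ 2 / 2 := by
      nlinarith [sq_nonneg (s - p * r), mul_nonneg (sq_nonneg p) hr, sq_nonneg p,
        mul_nonneg (sq_nonneg p) (sq_nonneg r)]
    have a2 : p ^ 2 * r ^ 2 + d ^ 2 ≤ (1 + r) ^ 2 * p ^ 2 := by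
      nlinarith [mul_nonneg (sq_nonneg p) hr, pow_le_pow_left₀ hd hp 2]
    have a3 : 0 ≤ (1 + r) ^ 2 * p ^ 2 := by positivity
    have a4 := mul_le_mul_of_nonneg_left a1 (by linarith : 0 ≤ L)
    have a5 := mul_le_mul_of_nonneg_right hL a3
    nlinarith
  have k1 := key ru pv dv h1 h4 (by linarith)
  have k2 := key rv pu du h2 h3 (by linarith)
  have k3 : s ^ 2 ≤ L * s ^ 2 := le_mul_of_one_le_left (sq_nonneg _) hL
  have hpp := mul_nonneg hu hv
  have hrr := mul_nonneg h1 h2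
  have k4 : ru * rv * e ≤ (s + e + pu * pv) * ((1 + ru) * (1 + rv)) := by
    rw [mul_comm]; exact mul_le_mul (by linarith) (by nlinarith) hrr (by linarith)
  have k5 : (s + pu * pv) * (ru * rv + ru + rv) ≤ (s + e + pu * pv) * ((1 + ru) * (1 + rv)) :=
    mul_le_mul (by linarith) (by nlinarith) (by linarith) (by linarith)
  nlinarith

/-- `Σ (|F| + |G|)² ≤ 2 Σ rb` -/
theorem sum_s_sq (hF : Mat S F) (hG : Mat S G) :
    ∑ u ∈ S, ∑ v ∈ S, (|F u v| + |G u v|) ^ 2 ≤ 2 * ∑ a ∈ S, rb F G a := by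
  rw [mul_sum]
  refine sum_le_sum fun u _ => ?_
  refine (sum_le_sum_of_subset_of_nonneg (subset_univ S) fun _ _ _ => sq_nonneg _).trans ?_
  rw [rb, hF.rr_eq, hG.rr_eq, ← sum_add_distrib, mul_sum]
  refine sum_le_sum fun v _ => ?_
  nlinarith [sq_abs (F u v), sq_abs (G u v), sq_nonneg (|F u v| - |G u v|)]

/-- double sum of `err2` -/
theorem err2_sum (hF : Mat S F) (hG : Mat S G) (hL : 1 ≤ L) (hm : (0 : ℝ) < S.card) :
    ∑ u ∈ S, ∑ v ∈ S, err2 L S F G u v ≤ 6 * (L * ∑ a ∈ S, rb F G a)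
      + 8 * (L * ((∑ a ∈ S, ro F G a ^ 2) * ∑ a ∈ S, pb S F G a ^ 2))
      + √(3 * (2 * ∑ a ∈ S, rb F G a + 1 + (∑ a ∈ S, pb S F G a ^ 2) ^ 2))
        * (√(∑ u ∈ S, ∑ v ∈ S, w3 F G u v ^ 2) + 2 * ∑ a ∈ S, ro F G a ^ 2)
      + ∑ u ∈ S, ∑ v ∈ S, o2 F G u v ^ 2 := by
  set φ : ι → ι → ℝ := fun u v => |F u v| + |G u v| + 1 / S.card + pb S F G u * pb S F G v with hφ
  have h0 : ∀ u v, err2 L S F G u v ≤ L * (1 / S.card) * (rb F G u + rb F G v)
      + 4 * L * (ro F G u ^ 2 * pb S F G v ^ 2 + pb S F G u ^ 2 * ro F G v ^ 2)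
      + 2 * L * (|F u v| + |G u v|) ^ 2 + |φ u v| * |w3 F G u v|
      + 2 * (|φ u v| * |ro F G u * ro F G v|) + o2 F G u v ^ 2 := by
    intro u v
    have h1 := rb_nonneg hF hG u
    have h2 := rb_nonneg hF hG v
    have h3 := pb_nonneg S F G u
    have h4 := pb_nonneg S F G v
    have h5 : 0 ≤ w3 F G u v := by unfold w3; positivity
    have := err2_real (w := w3 F G u v) (o := o2 F G u v) (s := |F u v| + |G u v|)
      (e := 1 / S.card) (du := |F u u| + |G u u|) (dv := |F v v| + |G v v|)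
      (pu := pb S F G u) (pv := pb S F G v) hL h1 h2 (by positivity) (by positivity)
      (by positivity) (by positivity) rfl rfl
    rw [abs_of_nonneg h5, abs_of_nonneg (show 0 ≤ φ u v by simp only [hφ]; positivity),
      abs_of_nonneg (show 0 ≤ ro F G u * ro F G v by unfold ro; positivity)]
    simp only [err2, ro, hφ]
    simp only [div_eq_mul_one_div (L * _), div_eq_mul_one_div (rb F G u * _)]
    exact this
  refine (sum_le_sum fun u _ => sum_le_sum fun v _ => h0 u v).trans ?_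
  have hΦ : ∑ u ∈ S, ∑ v ∈ S, φ u v ^ 2 ≤
      3 * (2 * ∑ a ∈ S, rb F G a + 1 + (∑ a ∈ S, pb S F G a ^ 2) ^ 2) := by
    have e1 : ∑ u ∈ S, ∑ v ∈ S, φ u v ^ 2 ≤ ∑ u ∈ S, ∑ v ∈ S, (3 * (|F u v| + |G u v|) ^ 2
        + 3 * (1 / (S.card : ℝ)) ^ 2 + 3 * (pb S F G u ^ 2 * pb S F G v ^ 2)) := by
      refine sum_le_sum fun u _ => sum_le_sum fun v _ => ?_
      simp only [hφ]
      generalize |F u v| + |G u v| = a
      generalize 1 / (S.card : ℝ) = b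
      rw [← mul_pow]
      generalize pb S F G u * pb S F G v = c
      nlinarith [sq_nonneg (a - b), sq_nonneg (a - c), sq_nonneg (b - c)]
    refine e1.trans ?_
    simp only [sum_add_distrib, ← mul_sum, ← sum_mul, sum_const, nsmul_eq_mul]
    have := sum_s_sq hF hG
    have e2 : (S.card : ℝ) * (S.card * (1 / S.card) ^ 2) = 1 := by field_simp
    nlinarith
  have h1 := sum2_mul_le_sqrt S φ (w3 F G)
  have h2 := sum2_mul_le_sqrt S φ (fun u v => ro F G u * ro F G v)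
  have e3 : √(∑ u ∈ S, ∑ v ∈ S, (ro F G u * ro F G v) ^ 2) = ∑ a ∈ S, ro F G a ^ 2 := by
    simp only [mul_pow, ← mul_sum, ← sum_mul]
    exact Real.sqrt_mul_self (by positivity)
  rw [e3] at h2
  have h3 := Real.sqrt_le_sqrt hΦ
  have h4 := mul_le_mul_of_nonneg_right h3 (show 0 ≤ √(∑ u ∈ S, ∑ v ∈ S, w3 F G u v ^ 2)
    + 2 * ∑ a ∈ S, ro F G a ^ 2 by positivity)
  have h5 := mul_le_mul_of_nonneg_left (sum_s_sq hF hG) (show 0 ≤ 2 * L by linarith)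
  simp only [sum_add_distrib, ← mul_sum, ← sum_mul, sum_const, nsmul_eq_mul]
  have e4 : L * (1 / (S.card : ℝ)) * (S.card * ∑ a ∈ S, rb F G a + S.card * ∑ a ∈ S, rb F G a)
      = 2 * (L * ∑ a ∈ S, rb F G a) := by field_simp; ring
  rw [e4]
  nlinarith

/-- double sum of `crude2²` -/
theorem crude2_sum (hF : Mat S F) (hG : Mat S G) (hL : 0 ≤ L) :
    ∑ u ∈ S, ∑ v ∈ S, crude2 L S F G u v ^ 2 ≤ 6 * (∑ u ∈ S, ∑ v ∈ S, w3 F G u v ^ 2
      + (∑ a ∈ S, ro F G a ^ 2) ^ 2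
      + 2 * (L ^ 2 * ((∑ a ∈ S, ro F G a ^ 2) * ∑ a ∈ S, pb S F G a ^ 2))
      + 2 * ((∑ a ∈ S, rb F G a ^ 4) * ∑ a ∈ S, pb S F G a ^ 4)) := by
  have h0 : ∀ u v, crude2 L S F G u v ^ 2 ≤ 6 * (w3 F G u v ^ 2 + ro F G u ^ 2 * ro F G v ^ 2
      + L ^ 2 * (ro F G u ^ 2 * pb S F G v ^ 2) + L ^ 2 * (pb S F G u ^ 2 * ro F G v ^ 2)
      + rb F G u ^ 4 * pb S F G v ^ 4 + pb S F G u ^ 4 * rb F G v ^ 4) := by
    intro u v
    have h1 := rb_nonneg hF hG u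
    have h2 := rb_nonneg hF hG v
    have h3 := pb_nonneg S F G u
    have h4 := pb_nonneg S F G v
    have h5 : 0 ≤ w3 F G u v := by unfold w3; positivity
    have h6 : 0 ≤ crude2 L S F G u v := by unfold crude2; positivity
    have h7 : crude2 L S F G u v ≤ w3 F G u v + ro F G u * ro F G v
        + L * (ro F G u * pb S F G v) + L * (pb S F G u * ro F G v)
        + rb F G u ^ 2 * pb S F G v ^ 2 + pb S F G u ^ 2 * rb F G v ^ 2 := by
      unfold crude2 ro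
      nlinarith [mul_nonneg hL h3, mul_nonneg hL h4]
    refine (pow_le_pow_left₀ h6 h7 2).trans ?_
    have key : ∀ a b c d e f : ℝ, (a + b + c + d + e + f) ^ 2 ≤
        6 * (a ^ 2 + b ^ 2 + c ^ 2 + d ^ 2 + e ^ 2 + f ^ 2) := by
      intro a b c d e f
      nlinarith [sq_nonneg (a - b), sq_nonneg (a - c), sq_nonneg (a - d), sq_nonneg (a - e),
        sq_nonneg (a - f), sq_nonneg (b - c), sq_nonneg (b - d), sq_nonneg (b - e),
        sq_nonneg (b - f), sq_nonneg (c - d), sq_nonneg (c - e), sq_nonneg (c - f),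
        sq_nonneg (d - e), sq_nonneg (d - f), sq_nonneg (e - f)]
    refine (key _ _ _ _ _ _).trans (le_of_eq ?_)
    ring
  refine (sum_le_sum fun u _ => sum_le_sum fun v _ => h0 u v).trans (le_of_eq ?_)
  simp only [sum_add_distrib, ← mul_sum, ← sum_mul]
  ring

/-- `‖F³‖² ≤ L² a4` -/
theorem cube_sq (hF : Mat S F) (hL : OpB L F) :
    ∑ u ∈ S, ∑ v ∈ S, (F * F * F) u v ^ 2 ≤ L ^ 2 * a4 F := by
  have h1 : ∑ u ∈ S, ∑ v ∈ S, (F * F * F) u v ^ 2 ≤ ∑ u, ∑ v, (F * F * F) u v ^ 2 :=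
    (sum_le_sum fun u _ => sum_le_sum_of_subset_of_nonneg (subset_univ S)
      fun _ _ _ => sq_nonneg _).trans
      (sum_le_sum_of_subset_of_nonneg (subset_univ S) fun _ _ _ => by positivity)
  refine h1.trans ?_
  rw [hF.a4_eq_sum, sum_comm, sum_comm (f := fun u v => (F * F) u v ^ 2), mul_sum]
  refine sum_le_sum fun v _ => ?_
  have := hL.diag (F * F) v
  rwa [GenMX.gram_diag, GenMX.gram_diag, ← Matrix.mul_assoc] at this

/-- `Σ |(F³)_aa| ≤ √a2 √a4` -/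
theorem cube_diag (hF : Mat S F) : ∑ a ∈ S, |(F * F * F) a a| ≤ √(a2 F) * √(a4 F) := by
  refine (sum_le_sum_of_subset_of_nonneg (subset_univ S) fun _ _ _ => abs_nonneg _).trans ?_
  rw [hF.a2_eq_sum, hF.a4_eq_sum]
  refine le_trans (sum_le_sum fun a _ => ?_) (sum2_mul_le_sqrt univ F (F * F))
  rw [Matrix.mul_apply]
  refine (abs_sum_le_sum_abs _ _).trans (le_of_eq (sum_congr rfl fun b _ => ?_))
  rw [abs_mul, hF.symm b a, mul_comm]

theorem sum_cube_diag (hF : Mat S F) : ∑ a ∈ S, (F * F * F) a a = a3 F := by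
  rw [a3, Matrix.mul_assoc, hF.trace_mul]

theorem abs_a3 (hF : Mat S F) : |a3 F| ≤ √(a2 F) * √(a4 F) := by
  rw [← sum_cube_diag hF]
  exact (abs_sum_le_sum_abs _ _).trans (cube_diag hF)

end Tr2X

end Crest.Agent.R62
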