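import Crest.Agent.R62.Der

set_option autoImplicit false
set_option linter.unusedSectionVars false

open Finset Matrix

namespace Crest.Agent.R62
namespace TrRX

variable {ι : Type} [Fintype ι] [DecidableEq ι]

/-! ### Units and scalar facts in phase III -/

noncomputable def κ (c : Ctx ι) : ℝ := c.m / c.p.K
noncomputable def T (c : Ctx ι) : ℝ := c.p.TR c.m
noncomputable def P2 (c : Ctx ι) : ℝ := ∑ a ∈ c.S, pd c.S c.F a ^ 2
noncomputable def P (c : Ctx ι) : ℝ := ∑ a ∈ c.S, vr c.F a ^ 2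

structure Sc (c : Ctx ι) : Prop where
  big : Big c.p.K
  nI : ¬ c.p.phI c.m
  a2T : c.p.K * a2 c.F ≤ T c
  R2T : R2 c.S c.F ≤ T c
  k1 : 1 ≤ κ c
  L2 : c.p.K * c.L ^ 2 ≤ κ c
  P2m : P2 c ^ 2 ≤ c.m
  LR : c.L * c.R ≤ κ c
  LP : c.L * P2 c ≤ κ c
  a4m : c.p.K / c.m * a4 c.F ≤ κ c
  PP : c.p.K / c.m * (P c * P2 c) ≤ κ c
  KPR : c.p.K * (c.R * P2 c) ≤ κ c
  KR : c.p.K * c.R ≤ κ c
  R2k : c.R ^ 2 ≤ κ c
  RRP : c.R ^ 2 * P2 c ≤ c.m
  eX : c.p.eps c.m * √c.m * √(X2 c.S c.F) ≤ κ c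
  G : √(c.p.Gam2 c.m * c.m) * c.L ≤ κ c
  Lt : |t1 c.F| * c.L ≤ κ c
  eD : c.p.eps c.m * √c.m * √(D2 c.S c.F) * c.L ≤ κ c

theorem P2_nonneg (c : Ctx ι) : 0 ≤ P2 c := sum_nonneg fun _ _ => sq_nonneg _
theorem P_nonneg (c : Ctx ι) : 0 ≤ P c := sum_nonneg fun _ _ => sq_nonneg _

theorem sc {c : Ctx ι} (hK : Big c.p.K) (hX : ¬ c.p.phX c.m) : Sc c := by
  have hμ : c.μ ≤ 6710 := not_lt.1 fun h => hX ((Ctx.phX_iff hK).2 h)
  have hμ0 := Ctx.μ_lo hK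
  have hI : ¬ c.p.phI c.m := fun h => by have := (Ctx.phI_iff hK).1 h; linarith
  have hϱ0 : c.ϱ ≤ 0 := min_le_left _ _
  have hϱ1 : c.ϱ ≤ c.μ - 6700 := min_le_right _ _
  have hϱ2 : c.μ - 6710 ≤ c.ϱ := by
    rcases c.cases_W with ⟨_, h, _⟩ | ⟨_, h, _⟩ <;> rw [h] <;> linarith
  have hτ : c.τ ≤ 2 * c.μ - 96 := by
    rcases c.cases_W with ⟨_, _, h⟩ | ⟨_, _, h⟩ <;> rw [h] <;> linarith
  have gκ : Ge c.p.K (κ c) (c.μ - 1) := Ge.div hK (Ctx.ge_m hK) Le.self hK.pos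
  have gm := Ctx.ge_m hK
  have lm := Ctx.le_m hK
  have hm := Ctx.m_pos hK
  have lL : Le c.p.K c.L (c.μ / 2 - 24 + 1 / 100) := (Ctx.sz_L hK).2.mono hK (by linarith)
  have hL : 0 ≤ c.L := le_trans zero_le_one (Ctx.one_le_L hK)
  have lR := (Ctx.sz_R hK).2
  have hR : 0 ≤ c.R := ((Ctx.sz_R hK).1.pos hK).le
  have lP2 : Le c.p.K (P2 c) (451) :=
    ((Le.cmul hK (Ctx.sz_TD hK).2 (C := 4) (by norm_num) (by norm_num)).of_le
      (Ctx.P2_le hK)).mono hK (by linarith)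
  have hP2 := P2_nonneg c
  have lP : Le c.p.K (P c) (c.μ + 13 + 1 / 50) := Ctx.le_P hK
  have lKm : Le c.p.K (c.p.K / c.m) (1 - c.μ) := Le.div hK Le.self gm
  have le := Ctx.le_eps hK
  have la2 : Le c.p.K (a2 c.F) (1 + c.μ + c.ϱ + 1 / 100) := (Ctx.sz_T2 hK).2.of_le c.oF.a2_T
  have la4 : Le c.p.K (a4 c.F) (c.τ + 1 / 100) := (Ctx.sz_T4 hK).2.of_le c.oF.a4_T
  have lD : Le c.p.K (D2 c.S c.F) (450 + c.ϱ + 1 / 100) := (Ctx.sz_TD hK).2.of_le c.oF.D2_T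
  have lt : Le c.p.K |t1 c.F| (3350 + c.ϱ + 1 / 100) := (Ctx.sz_kt hK).2.of_le (Ctx.le_t' hK hI)
  refine ⟨hK, hI, ?_, c.oF.R2_T hX, ?_, ?_, ?_, ?_, ?_, ?_, ?_, ?_, ?_, ?_, ?_, ?_, ?_, ?_, ?_⟩
  · exact (Le.mul hK Le.self la2 c.oF.mat.a2_nonneg).le_of_ge hK (Ctx.sz_TR hK).1 (by linarith)
  · exact Le.le_of_ge hK Le.one gκ (by linarith)
  · exact (Le.mul hK Le.self (lL.pow hK hL 2) (sq_nonneg _)).le_of_ge hK gκ
      (by push_cast; linarith)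
  · exact (lP2.pow hK hP2 2).le_of_ge hK gm (by push_cast; linarith)
  · exact (lL.mul hK lR hR).le_of_ge hK gκ (by linarith)
  · exact (lL.mul hK lP2 hP2).le_of_ge hK gκ (by linarith)
  · exact (lKm.mul hK la4 c.oF.mat.a4_nonneg).le_of_ge hK gκ (by linarith)
  · exact (lKm.mul hK (lP.mul hK lP2 hP2) (mul_nonneg (P_nonneg c) hP2)).le_of_ge hK gκ
      (by linarith)
  · exact (Le.mul hK Le.self (lR.mul hK lP2 hP2) (mul_nonneg hR hP2)).le_of_ge hK gκ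
      (by linarith)
  · exact (Le.mul hK Le.self lR hR).le_of_ge hK gκ (by linarith)
  · exact (lR.pow hK hR 2).le_of_ge hK gκ (by push_cast; linarith)
  · exact ((lR.pow hK hR 2).mul hK lP2 hP2).le_of_ge hK gm (by push_cast; linarith)
  · exact ((le.mul hK (lm.sqrt hK) (Real.sqrt_nonneg _)).mul hK ((Ctx.le_X2 hK).sqrt hK)
      (Real.sqrt_nonneg _)).le_of_ge hK gκ (by linarith)
  · exact ((((Ctx.le_Gam2 hK hI).mul hK lm hm.le).sqrt hK).mul hK lL hL).le_of_ge hK gκ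
      (by linarith)
  · exact (lt.mul hK lL hL).le_of_ge hK gκ (by linarith)
  · exact (((le.mul hK (lm.sqrt hK) (Real.sqrt_nonneg _)).mul hK (lD.sqrt hK)
      (Real.sqrt_nonneg _)).mul hK lL hL).le_of_ge hK gκ (by linarith)

/-! ### Basic sums -/

section basic
variable {c : Ctx ι}

theorem r0 (a : ι) : 0 ≤ rr c.F a := c.oF.mat.rr_nonneg a
theorem vr0 (a : ι) : 0 ≤ vr c.F a := add_nonneg zero_le_one (r0 a)
theorem pd0 (a : ι) : 0 ≤ pd c.S c.F a := by unfold pd; positivity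
theorem ph_0 (u v : ι) : 0 ≤ ph c.S c.F u v := by unfold ph; positivity
theorem ph00 (u v : ι) : 0 ≤ ph0 c.S c.F u v :=
  add_nonneg (ph_0 u v) (mul_nonneg (pd0 u) (pd0 v))
theorem pe0 (u v : ι) : 0 ≤ pe c.S c.F u v := by
  have := pd0 (c := c) v
  have := ph_0 (c := c) u v
  unfold pe; positivity
theorem sumf2 (a : ι) : ∑ u ∈ c.S, c.F a u ^ 2 = rr c.F a := by
  rw [c.oF.mat.rr_eq]
  exact sum_subset (subset_univ _) fun b _ hb => by rw [c.oF.mat.supp' a b hb]; norm_num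
theorem sumf2' (u : ι) : ∑ a ∈ c.S, c.F a u ^ 2 = rr c.F u := by
  rw [← sumf2]; exact sum_congr rfl fun a _ => by rw [c.oF.mat.symm]
theorem FF_symm (a u : ι) : (c.F * c.F) a u = (c.F * c.F) u a := by
  rw [mul_apply, mul_apply]
  exact sum_congr rfl fun b _ => by rw [c.oF.mat.symm a b, c.oF.mat.symm b u, mul_comm]
theorem Ysq (a u : ι) : (c.F * c.F) a u ^ 2 ≤ rr c.F a * rr c.F u := by
  have := entry_sq_le c.F c.F a u
  rwa [c.oF.mat.transpose] at this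
theorem sum_r : ∑ a ∈ c.S, rr c.F a = a2 c.F := c.oF.mat.a2_eq.symm
theorem sum_rr : ∑ a ∈ c.S, rr c.F a * rr c.F a = R2 c.S c.F :=
  sum_congr rfl fun a _ => (sq _).symm
theorem sum_ff : ∑ a ∈ c.S, ∑ u ∈ c.S, c.F a u ^ 2 = a2 c.F := by
  rw [← sum_r]; exact sum_congr rfl fun a _ => sumf2 a
theorem sum_rff : ∑ a ∈ c.S, ∑ u ∈ c.S, rr c.F a * c.F a u ^ 2 = R2 c.S c.F := by
  rw [← sum_rr]; exact sum_congr rfl fun a _ => by rw [← mul_sum, sumf2]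
theorem sum_one : ∑ _a ∈ c.S, (1 : ℝ) = c.m := by simp [Ctx.m]
theorem R20 : 0 ≤ R2 c.S c.F := sum_nonneg fun _ _ => sq_nonneg _
theorem sum_oo : ∑ u ∈ c.S, ∑ v ∈ c.S, (c.F * c.F) u v ^ 2 ≤ a4 c.F := by
  have h1 := sum_sq_eq_trace (c.F * c.F)
  rw [transpose_mul, c.oF.mat.transpose, ← Matrix.mul_assoc] at h1
  unfold a4
  rw [← h1]
  refine le_trans (sum_le_sum fun u _ => sum_le_sum_of_subset_of_nonneg (subset_univ _)
    fun _ _ _ => sq_nonneg _) ?_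
  exact sum_le_sum_of_subset_of_nonneg (subset_univ _)
    fun _ _ _ => sum_nonneg fun _ _ => sq_nonneg _

variable (h : Sc c)
include h

theorem Sc.K0 : 0 < c.p.K := h.big.pos
theorem Sc.K1 : 1 ≤ c.p.K := h.big.one_lt.le
theorem Sc.m0 : 0 < c.m := Ctx.m_pos h.big
theorem Sc.m1 : 1 ≤ c.m := le_trans (by norm_num) (Ctx.m_big h.big)
theorem Sc.L1 : 1 ≤ c.L := Ctx.one_le_L h.big
theorem Sc.k0 : 0 ≤ κ c := le_trans zero_le_one h.k1
theorem Sc.T0 : 0 ≤ T c := le_trans R20 h.R2T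
theorem Sc.a2T' : a2 c.F ≤ T c :=
  le_trans (le_mul_of_one_le_left c.oF.mat.a2_nonneg h.K1) h.a2T
theorem Sc.TkT : T c ≤ κ c * T c := le_mul_of_one_le_left h.T0 h.k1
theorem Sc.kR2 : κ c * R2 c.S c.F ≤ κ c * T c := mul_le_mul_of_nonneg_left h.R2T h.k0
theorem Sc.ka2 : κ c * a2 c.F ≤ κ c * T c := mul_le_mul_of_nonneg_left h.a2T' h.k0
theorem Sc.vrR (a : ι) : vr c.F a ≤ c.R := by
  have h1 := Ctx.ro_le h.big a
  have h2 := c.oG.mat.rr_nonneg a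
  unfold vr; linarith
theorem Sc.rR (a : ι) : rr c.F a ≤ c.R := by
  have h1 := h.vrR a
  unfold vr at h1; linarith
theorem Sc.R1 : 1 ≤ c.R := by
  have h1 : c.L * c.R ≤ κ c := h.LR
  have hS : c.S.Nonempty := by
    rw [← card_pos]
    have := h.m0
    unfold Ctx.m at this
    exact_mod_cast this
  obtain ⟨a, -⟩ := hS
  have h2 := h.vrR a
  have h3 := r0 (c := c) a
  unfold vr at h2; linarith
theorem Sc.R0 : 0 ≤ c.R := le_trans zero_le_one h.R1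
theorem Sc.L2' : c.L ^ 2 ≤ κ c := le_trans (le_mul_of_one_le_left (sq_nonneg _) h.K1) h.L2
theorem Sc.Lk : c.L ≤ κ c := le_trans (le_mul_of_one_le_right (le_trans zero_le_one h.L1) h.R1) h.LR
theorem Sc.RP : c.R * P2 c ≤ κ c :=
  le_trans (le_mul_of_one_le_left (mul_nonneg h.R0 (P2_nonneg c)) h.K1) h.KPR
theorem Sc.ma2 : c.m * a2 c.F ≤ κ c * T c := by
  have h1 := mul_le_mul_of_nonneg_left h.a2T h.k0
  have h2 : κ c * (c.p.K * a2 c.F) = c.m * a2 c.F := by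
    have := h.K0
    unfold κ; field_simp
  linarith
theorem Sc.sumY2 (a : ι) : ∑ u ∈ c.S, (c.F * c.F) a u ^ 2 ≤ c.L ^ 2 * rr c.F a := by
  have h1 := (Ctx.opB h.big).diag c.F a
  rw [c.oF.mat.transpose] at h1
  refine le_trans ?_ h1
  rw [mul_apply]
  refine le_trans (sum_le_sum_of_subset_of_nonneg (subset_univ _) fun _ _ _ => sq_nonneg _) ?_
  refine le_of_eq (sum_congr rfl fun b _ => ?_)
  rw [transpose_apply, FF_symm a b, sq]
theorem Sc.sum_YY : ∑ a ∈ c.S, ∑ u ∈ c.S, (c.F * c.F) a u ^ 2 ≤ c.L ^ 2 * a2 c.F := by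
  rw [← sum_r, mul_sum]; exact sum_le_sum fun a _ => h.sumY2 a
theorem Sc.abs_fY (a u : ι) : |c.F a u * (c.F * c.F) a u|
    ≤ (c.L * c.F a u ^ 2 + (c.F * c.F) a u ^ 2 / c.L) / 2 := by
  have hL : 0 < c.L := lt_of_lt_of_le one_pos h.L1
  rw [abs_mul, ← sq_abs (c.F a u), ← sq_abs ((c.F * c.F) a u)]
  generalize |c.F a u| = x
  generalize |(c.F * c.F) a u| = y
  have e : (c.L * x ^ 2 + y ^ 2 / c.L) / 2 - x * y = (c.L * x - y) ^ 2 / (2 * c.L) := by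
    field_simp; ring
  have : 0 ≤ (c.L * x - y) ^ 2 / (2 * c.L) := by positivity
  linarith
theorem Sc.sum_fY (a : ι) : ∑ u ∈ c.S, |c.F a u * (c.F * c.F) a u| ≤ c.L * rr c.F a := by
  have hL : 0 < c.L := lt_of_lt_of_le one_pos h.L1
  refine le_trans (sum_le_sum fun u _ => h.abs_fY a u) ?_
  rw [← sum_div, sum_add_distrib, ← mul_sum, ← sum_div, sumf2]
  have h1 : (∑ u ∈ c.S, (c.F * c.F) a u ^ 2) / c.L ≤ c.L * rr c.F a := by
    rw [div_le_iff₀ hL]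
    have := h.sumY2 a
    linarith
  linarith
theorem Sc.sum_ph0 : ∑ u ∈ c.S, ∑ v ∈ c.S, ph0 c.S c.F u v ^ 2 ≤ 10 * c.m := by
  have hm := h.m0
  have h1 : ∀ u v, ph0 c.S c.F u v ^ 2
      ≤ 4 * c.F u v ^ 2 + 4 * (1 / c.m) ^ 2 + 2 * (pd c.S c.F u ^ 2 * pd c.S c.F v ^ 2) := by
    intro u v
    unfold ph0 ph
    change (|c.F u v| + 1 / c.m + _) ^ 2 ≤ _
    rw [← sq_abs (c.F u v), ← mul_pow]
    generalize |c.F u v| = x
    generalize 1 / c.m = y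
    generalize pd c.S c.F u * pd c.S c.F v = z
    nlinarith [sq_nonneg (x - y), sq_nonneg (x + y - z)]
  refine le_trans (sum_le_sum fun u _ => sum_le_sum fun v _ => h1 u v) ?_
  simp only [sum_add_distrib, ← mul_sum, ← sum_mul, sum_const, nsmul_eq_mul]
  rw [sum_ff]
  change 4 * a2 c.F + 4 * (c.m * (c.m * (1 / c.m) ^ 2)) + 2 * (P2 c * P2 c) ≤ _
  have e : c.m * (c.m * (1 / c.m) ^ 2) = 1 := by field_simp
  have h2 := Ctx.a2_le_m h.big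
  have h3 := h.P2m
  have h4 := h.m1
  rw [e, ← sq]
  linarith
theorem Sc.sum_pe (u : ι) : ∑ v ∈ c.S, pe c.S c.F u v ≤ 3 * c.R + 2 * P2 c := by
  have hm := h.m0
  have h1 : ∀ v, pe c.S c.F u v
      ≤ 1 / c.m + c.F u v ^ 2 + (1 / c.m) ^ 2 + 2 * pd c.S c.F v ^ 2 := by
    intro v
    unfold pe ph
    change 1 / c.m + _ * (|c.F u v| + 1 / c.m) + _ ≤ _
    rw [← sq_abs (c.F u v)]
    generalize |c.F u v| = x
    generalize 1 / c.m = y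
    generalize pd c.S c.F v = z
    nlinarith [sq_nonneg (x - z / 2), sq_nonneg (y - z / 2), sq_nonneg z]
  refine le_trans (sum_le_sum fun v _ => h1 v) ?_
  simp only [sum_add_distrib, ← mul_sum, sum_const, nsmul_eq_mul]
  rw [sumf2]
  change c.m * (1 / c.m) + _ + c.m * (1 / c.m) ^ 2 + 2 * P2 c ≤ _
  have e1 : c.m * (1 / c.m) = 1 := by field_simp
  have e2 : c.m * (1 / c.m) ^ 2 = 1 / c.m := by field_simp
  have h2 : 1 / c.m ≤ 1 := by rw [div_le_one hm]; exact h.m1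
  have h3 := h.R1
  have h4 := h.rR u
  rw [e1, e2]
  linarith
end basic

/-! ### Weighted triple sums -/

def Wd (c : Ctx ι) (X : ι → ι → ι → ℝ) (k : ℝ) : Prop :=
  ∑ u, ∑ v, c.w u v * ∑ a ∈ c.S, X a u v ≤ k * (κ c * T c)

section wd
variable {c : Ctx ι} {X Y : ι → ι → ι → ℝ} {k l : ℝ}

theorem Wd.add (h1 : Wd c X k) (h2 : Wd c Y l) :
    Wd c (fun a u v => X a u v + Y a u v) (k + l) := by
  unfold Wd at *
  simp only [sum_add_distrib, mul_add]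
  linarith
theorem Wd.cmul (h1 : Wd c X k) {b : ℝ} (hb : 0 ≤ b) :
    Wd c (fun a u v => b * X a u v) (b * k) := by
  unfold Wd at *
  have e : ∑ u, ∑ v, c.w u v * ∑ a ∈ c.S, b * X a u v
      = b * ∑ u, ∑ v, c.w u v * ∑ a ∈ c.S, X a u v := by
    simp only [← mul_sum, mul_sum univ, mul_left_comm b]
  rw [e, mul_assoc]
  exact mul_le_mul_of_nonneg_left h1 hb
theorem Wd.mono (h1 : Wd c Y k) (h : ∀ u v, c.w u v ≠ 0 → ∀ a, X a u v ≤ Y a u v) :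
    Wd c X k :=
  le_trans (c.sum_le_sum' fun u v huv => sum_le_sum fun a _ => h u v huv a) h1
theorem Wd.crude (h0 : ∀ a u v, 0 ≤ X a u v)
    (h : ∑ u ∈ c.S, ∑ v ∈ c.S, ∑ a ∈ c.S, X a u v ≤ k * (κ c * T c)) : Wd c X (11 / 10 * k) := by
  unfold Wd
  refine le_trans (c.sum_le_crude (fun _ _ _ => le_rfl)
    fun u _ v _ => sum_nonneg fun a _ => h0 a u v) ?_
  rw [mul_assoc]
  exact mul_le_mul_of_nonneg_left h (by norm_num)
theorem Wd.au_uv (A B : ι → ι → ℝ) (hA : ∀ a u, 0 ≤ A a u) (hB : ∀ u v, 0 ≤ B u v) {α Q : ℝ}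
    (hQ : 0 ≤ Q) (h1 : ∑ a ∈ c.S, ∑ u ∈ c.S, A a u ≤ α) (h2 : ∀ u, ∑ v ∈ c.S, B u v ≤ Q)
    (h3 : α * Q ≤ k * (κ c * T c)) : Wd c (fun a u v => A a u * B u v) (11 / 10 * k) := by
  refine Wd.crude (fun a u v => mul_nonneg (hA a u) (hB u v)) (le_trans ?_ h3)
  simp only [← sum_mul, ← mul_sum]
  refine le_trans (sum_le_sum fun u _ => mul_le_mul_of_nonneg_left (h2 u)
    (sum_nonneg fun a _ => hA a u)) ?_
  rw [← sum_mul, sum_comm]
  exact mul_le_mul_of_nonneg_right h1 hQ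
theorem Wd.a_uv (A : ι → ℝ) (B : ι → ι → ℝ) (hA : ∀ a, 0 ≤ A a) (hB : ∀ u v, 0 ≤ B u v) {α β : ℝ}
    (h1 : ∑ a ∈ c.S, A a ≤ α) (h2 : ∑ u ∈ c.S, ∑ v ∈ c.S, B u v ≤ β)
    (h3 : α * β ≤ k * (κ c * T c)) : Wd c (fun a u v => A a * B u v) (11 / 10 * k) := by
  refine Wd.crude (fun a u v => mul_nonneg (hA a) (hB u v)) (le_trans ?_ h3)
  simp only [← sum_mul, ← mul_sum]
  exact mul_le_mul h1 h2 (sum_nonneg fun u _ => sum_nonneg fun v _ => hB u v)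
    (le_trans (sum_nonneg fun a _ => hA a) h1)
theorem Wd.au_av (A B : ι → ι → ℝ) (hA : ∀ a u, 0 ≤ A a u) (hB : ∀ u v, 0 ≤ B u v) {α β : ι → ℝ}
    (h1 : ∀ a, ∑ u ∈ c.S, A a u ≤ α a) (h2 : ∀ a, ∑ v ∈ c.S, B a v ≤ β a)
    (h3 : ∑ a ∈ c.S, α a * β a ≤ k * (κ c * T c)) :
    Wd c (fun a u v => A a u * B a v) (11 / 10 * k) := by
  refine Wd.crude (fun a u v => mul_nonneg (hA a u) (hB a v)) (le_trans ?_ h3)
  have e : ∑ u ∈ c.S, ∑ v ∈ c.S, ∑ a ∈ c.S, A a u * B a v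
      = ∑ a ∈ c.S, (∑ u ∈ c.S, A a u) * ∑ v ∈ c.S, B a v := by
    simp only [sum_mul_sum]
    rw [sum_congr rfl fun u _ => sum_comm, sum_comm]
  rw [e]
  exact sum_le_sum fun a _ => mul_le_mul (h1 a) (h2 a) (sum_nonneg fun v _ => hB a v)
    (le_trans (sum_nonneg fun u _ => hA a u) (h1 a))
end wd

end TrRX
end Crest.Agent.R62
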