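import Crest.Agent.R62.TrRAux

set_option autoImplicit false
set_option linter.unusedSectionVars false

open Finset Matrix

namespace Crest.Agent.R62
namespace TrRX

variable {ι : Type} [Fintype ι] [DecidableEq ι]

/-- half of `err5` -/
noncomputable def eh (c : Ctx ι) (a u v : ι) : ℝ :=
  ph0 c.S c.F u v * (c.F a u ^ 2 * vr c.F v + |c.F a v * (c.F * c.F) a u|)
    + pe c.S c.F u v * |c.F a u * (c.F * c.F) a u|
    + |c.F a u * c.F a v| * (|(c.F * c.F) u v| / 2 + pd c.S c.F v * vr c.F u)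
    + c.F a u ^ 2 * (pd c.S c.F v * |(c.F * c.F) u v| + pd c.S c.F v ^ 2 * vr c.F u)
    + (|(c.F * c.F) a u| + |c.F a u| * (vr c.F u + vr c.F v)) / c.m + rr c.F u / c.m ^ 2

theorem ph0_symm (c : Ctx ι) (u v : ι) : ph0 c.S c.F v u = ph0 c.S c.F u v := by
  unfold ph0 ph
  rw [c.oF.mat.symm v u, mul_comm]

theorem err5_eq (c : Ctx ι) (a u v : ι) : err5 c.S c.F u v a = eh c a u v + eh c a v u := by
  unfold err5 eh
  rw [ph0_symm c u v, FF_symm v u, mul_comm (c.F a v) (c.F a u)]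
  unfold Ctx.m
  ring

theorem eh0 (c : Ctx ι) (a u v : ι) : 0 ≤ eh c a u v := by
  have h1 := ph00 (c := c) u v
  have h2 := pe0 (c := c) u v
  have h3 := pd0 (c := c) v
  have h4 := vr0 (c := c) u
  have h5 := vr0 (c := c) v
  have h6 := r0 (c := c) u
  have h7 : 0 ≤ c.m := Nat.cast_nonneg _
  unfold eh
  positivity

theorem amgm (x y t : ℝ) (ht : 0 < t) : x * y ≤ x ^ 2 / t + t * y ^ 2 / 4 := by
  have e : x ^ 2 / t + t * y ^ 2 / 4 - x * y = (x - t * y / 2) ^ 2 / t := by field_simp; ring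
  have : 0 ≤ (x - t * y / 2) ^ 2 / t := by positivity
  linarith

theorem amgm' (x y t : ℝ) (ht : 0 < t) : x * |y| ≤ x ^ 2 / t + t * y ^ 2 := by
  have h1 := amgm x |y| t ht
  rw [sq_abs] at h1
  have : 0 ≤ t * y ^ 2 := by positivity
  linarith

theorem re_scalar {K m L R r P q pv o ru rv fu fv Yu : ℝ} (hK : 1 ≤ K) (hm : 0 < m)
    (hr : 0 ≤ r) (hP : P ≤ 3 / K) (hq : 0 ≤ q) (hpv : 0 ≤ pv) (hru : 0 ≤ ru) (hrv : 0 ≤ rv)
    (hR : 1 + ru ≤ R) (ho : o ^ 2 ≤ ru * rv)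
    (hf : |fu * Yu| ≤ (L * fu ^ 2 + Yu ^ 2 / L) / 2) :
    r * (P * (fu ^ 2 * (1 + rv) + |fv * Yu|) + q * |fu * Yu|
      + |fu * fv| * (|o| / 2 + pv * (1 + ru)) + fu ^ 2 * (pv * |o| + pv ^ 2 * (1 + ru))
      + (|Yu| + |fu| * ((1 + ru) + (1 + rv))) / m + ru / m ^ 2)
    ≤ 3 / K * (r * fu ^ 2 * (1 + rv)) + 1 / K * (r ^ 2 * P ^ 2) + K * (Yu ^ 2 * fv ^ 2)
      + r * (L * fu ^ 2 + Yu ^ 2 / L) * q + K / m * (r ^ 2 * (o ^ 2 + (1 + ru) ^ 2 * pv ^ 2))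
      + m / K * (fu ^ 2 * fv ^ 2) + r * fu ^ 2 * (2 * K * R * pv ^ 2 + rv / K)
      + (r ^ 2 / K + K * Yu ^ 2) * (1 / m) + (r ^ 2 / K + K * R * (fu ^ 2 * (1 + ru))) * (1 / m)
      + (r ^ 2 / K + K * fu ^ 2) * ((1 + rv) / m) + r * ru * (1 / m ^ 2) := by
  have hK0 : 0 < K := by linarith
  have t1 : r * (P * (fu ^ 2 * (1 + rv))) ≤ 3 / K * (r * fu ^ 2 * (1 + rv)) := by
    have : 0 ≤ r * fu ^ 2 * (1 + rv) := by positivity
    have := mul_le_mul_of_nonneg_right hP this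
    linarith
  have t2 : r * (P * |fv * Yu|) ≤ 1 / K * (r ^ 2 * P ^ 2) + K * (Yu ^ 2 * fv ^ 2) := by
    have := amgm' (r * P) (fv * Yu) K hK0
    calc _ = r * P * |fv * Yu| := by ring
      _ ≤ _ := this
      _ = _ := by ring
  have t3 : r * (q * |fu * Yu|) ≤ r * (L * fu ^ 2 + Yu ^ 2 / L) * q := by
    have h1 : |fu * Yu| ≤ L * fu ^ 2 + Yu ^ 2 / L := by
      have := abs_nonneg (fu * Yu)
      linarith
    have := mul_le_mul_of_nonneg_left h1 (mul_nonneg hr hq)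
    linarith
  have t4 : r * (|fu * fv| * (|o| / 2 + pv * (1 + ru)))
      ≤ K / m * (r ^ 2 * (o ^ 2 + (1 + ru) ^ 2 * pv ^ 2)) + m / K * (fu ^ 2 * fv ^ 2) := by
    have h1 := amgm (r * |o|) |fu * fv| (m / K) (by positivity)
    have h2 := amgm (r * (pv * (1 + ru))) |fu * fv| (m / K) (by positivity)
    rw [mul_pow, sq_abs, sq_abs] at h1
    rw [sq_abs] at h2
    have h3 : 0 ≤ r * |o| * |fu * fv| := by positivity
    have h4 : 0 ≤ m / K * (fu * fv) ^ 2 := by positivity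
    have e1 : r ^ 2 * o ^ 2 / (m / K) + (r * (pv * (1 + ru))) ^ 2 / (m / K)
        = K / m * (r ^ 2 * (o ^ 2 + (1 + ru) ^ 2 * pv ^ 2)) := by field_simp
    have e2 : m / K * (fu ^ 2 * fv ^ 2) = m / K * (fu * fv) ^ 2 := by ring
    have e3 : r * (|fu * fv| * (|o| / 2 + pv * (1 + ru)))
        = r * |o| * |fu * fv| / 2 + r * (pv * (1 + ru)) * |fu * fv| := by ring
    rw [e2, e3, ← e1]
    linarith
  have t5 : r * (fu ^ 2 * (pv * |o| + pv ^ 2 * (1 + ru)))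
      ≤ r * fu ^ 2 * (2 * K * R * pv ^ 2 + rv / K) := by
    have h1 : pv * |o| ≤ K * pv ^ 2 * ru + rv / K := by
      apply le_of_sq_le_sq _ (by positivity) |> fun h => h
      rw [mul_pow, sq_abs]
      have h2 := mul_le_mul_of_nonneg_left ho (sq_nonneg pv)
      have e : (K * pv ^ 2 * ru + rv / K) ^ 2
          = (K * pv ^ 2 * ru) ^ 2 + (rv / K) ^ 2 + 2 * (pv ^ 2 * (ru * rv)) := by
        field_simp; ring
      have h3 : 0 ≤ pv ^ 2 * (ru * rv) := by positivity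
      have h4 := sq_nonneg (K * pv ^ 2 * ru)
      have h5 := sq_nonneg (rv / K)
      rw [e]; linarith
    have h2 : K * pv ^ 2 * ru ≤ K * pv ^ 2 * R :=
      mul_le_mul_of_nonneg_left (by linarith) (by positivity)
    have h3 : pv ^ 2 * (1 + ru) ≤ pv ^ 2 * (K * R) :=
      mul_le_mul_of_nonneg_left (le_trans hR (le_mul_of_one_le_left (by linarith) hK))
        (sq_nonneg _)
    have h4 : pv * |o| + pv ^ 2 * (1 + ru) ≤ 2 * K * R * pv ^ 2 + rv / K := by linarith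
    have := mul_le_mul_of_nonneg_left h4 (show 0 ≤ r * fu ^ 2 by positivity)
    linarith
  have hm' : 0 ≤ 1 / m := by positivity
  have t6 : r * (|Yu| / m) ≤ (r ^ 2 / K + K * Yu ^ 2) * (1 / m) := by
    have := mul_le_mul_of_nonneg_right (amgm' r Yu K hK0) hm'
    calc _ = r * |Yu| * (1 / m) := by ring
      _ ≤ _ := this
  have t7 : r * (|fu| * (1 + ru) / m) ≤ (r ^ 2 / K + K * R * (fu ^ 2 * (1 + ru))) * (1 / m) := by
    have h1 := amgm' r (fu * (1 + ru)) K hK0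
    rw [abs_mul, abs_of_nonneg (show 0 ≤ 1 + ru by linarith)] at h1
    have h2 : K * (fu ^ 2 * (1 + ru)) * (1 + ru) ≤ K * (fu ^ 2 * (1 + ru)) * R :=
      mul_le_mul_of_nonneg_left hR (by positivity)
    have h3 : r * (|fu| * (1 + ru)) ≤ r ^ 2 / K + K * R * (fu ^ 2 * (1 + ru)) := by
      have e : K * (fu * (1 + ru)) ^ 2 = K * (fu ^ 2 * (1 + ru)) * (1 + ru) := by ring
      linarith
    have := mul_le_mul_of_nonneg_right h3 hm'
    calc _ = r * (|fu| * (1 + ru)) * (1 / m) := by ring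
      _ ≤ _ := this
  have t8 : r * (|fu| * (1 + rv) / m) ≤ (r ^ 2 / K + K * fu ^ 2) * ((1 + rv) / m) := by
    have := mul_le_mul_of_nonneg_right (amgm' r fu K hK0) (show 0 ≤ (1 + rv) / m by positivity)
    calc _ = r * |fu| * ((1 + rv) / m) := by ring
      _ ≤ _ := this
  calc _ = r * (P * (fu ^ 2 * (1 + rv))) + r * (P * |fv * Yu|) + r * (q * |fu * Yu|)
        + r * (|fu * fv| * (|o| / 2 + pv * (1 + ru)))
        + r * (fu ^ 2 * (pv * |o| + pv ^ 2 * (1 + ru))) + r * (|Yu| / m)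
        + r * (|fu| * (1 + ru) / m) + r * (|fu| * (1 + rv) / m) + r * ru * (1 / m ^ 2) := by ring
    _ ≤ _ := by linarith

theorem sq8 {e y1 y2 y3 y4 y5 y6 y7 y8 : ℝ} (h0 : 0 ≤ e)
    (h : e ≤ y1 + y2 + y3 + y4 + y5 + y6 + y7 + y8) :
    e ^ 2 ≤ 8 * (y1 ^ 2 + y2 ^ 2 + y3 ^ 2 + y4 ^ 2 + y5 ^ 2 + y6 ^ 2 + y7 ^ 2 + y8 ^ 2) := by
  have k : ∀ x y : ℝ, (x + y) ^ 2 ≤ 2 * x ^ 2 + 2 * y ^ 2 := fun x y => by
    nlinarith [sq_nonneg (x - y)]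
  have h1 := pow_le_pow_left₀ h0 h 2
  have e1 : y1 + y2 + y3 + y4 + y5 + y6 + y7 + y8
      = ((y1 + y2) + (y3 + y4)) + ((y5 + y6) + (y7 + y8)) := by ring
  rw [e1] at h1
  have a1 := k ((y1 + y2) + (y3 + y4)) ((y5 + y6) + (y7 + y8))
  have a2 := k (y1 + y2) (y3 + y4)
  have a3 := k (y5 + y6) (y7 + y8)
  have a4 := k y1 y2
  have a5 := k y3 y4
  have a6 := k y5 y6
  have a7 := k y7 y8
  generalize ((y1 + y2) + (y3 + y4) + ((y5 + y6) + (y7 + y8))) ^ 2 = A at *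
  generalize ((y1 + y2) + (y3 + y4)) ^ 2 = B at *
  generalize ((y5 + y6) + (y7 + y8)) ^ 2 = C at *
  generalize (y1 + y2) ^ 2 = D at *
  generalize (y3 + y4) ^ 2 = E at *
  generalize (y5 + y6) ^ 2 = F at *
  generalize (y7 + y8) ^ 2 = G at *
  linarith

theorem ee_scalar {K m R r P q pv o ru rv fu fv Yu : ℝ} (hK : 10 ≤ K) (hm : 0 < m)
    (hr : 0 ≤ r) (hP0 : 0 ≤ P) (hP : P ≤ 3 / K) (hq0 : 0 ≤ q) (hq : q ≤ 2 * pv) (hpv : 0 ≤ pv)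
    (hpv1 : pv ≤ 1) (hru : 0 ≤ ru) (hrv : 0 ≤ rv)
    (hR : 1 + ru ≤ R) (hR' : 1 + rv ≤ R) (ho : o ^ 2 ≤ ru * rv) (hY : Yu ^ 2 ≤ r * ru)
    (hf : |fu| ≤ 1) :
    (P * (fu ^ 2 * (1 + rv) + |fv * Yu|) + q * |fu * Yu|
      + |fu * fv| * (|o| / 2 + pv * (1 + ru)) + fu ^ 2 * (pv * |o| + pv ^ 2 * (1 + ru))
      + (|Yu| + |fu| * ((1 + ru) + (1 + rv))) / m + ru / m ^ 2) ^ 2
    ≤ 8 * (9 / K ^ 2 * (fu ^ 2 * (1 + rv) ^ 2) + Yu ^ 2 * fv ^ 2 + 4 * R * (r * fu ^ 2 * pv ^ 2)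
      + 4 * R ^ 2 * (fu ^ 2 * fv ^ 2) + 4 * R ^ 2 * (fu ^ 2 * pv ^ 2) + Yu ^ 2 * (1 / m ^ 2)
      + 4 * R ^ 2 * (fu ^ 2 * (1 / m ^ 2)) + ru ^ 2 * (1 / m ^ 4)) := by
  have hK0 : 0 < K := by linarith
  have hR0 : 0 ≤ R := by linarith
  have hP1 : P ≤ 1 := le_trans hP (by rw [div_le_one hK0]; linarith)
  have hoR : |o| ≤ R := by
    apply abs_le_of_sq_le_sq' _ hR0 |> fun h => abs_le.2 h
    calc o ^ 2 ≤ ru * rv := ho
      _ ≤ R * R := mul_le_mul (by linarith) (by linarith) hrv hR0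
      _ = R ^ 2 := (sq R).symm
  have hf2 : fu ^ 2 ≤ |fu| := by
    rw [← sq_abs, sq]; exact mul_le_of_le_one_left (abs_nonneg _) hf
  have t1 : P * (fu ^ 2 * (1 + rv)) ≤ 3 / K * (|fu| * (1 + rv)) :=
    mul_le_mul hP (mul_le_mul_of_nonneg_right hf2 (by linarith)) (by positivity) (by positivity)
  have t2 : P * |fv * Yu| ≤ |fv * Yu| := mul_le_of_le_one_left (abs_nonneg _) hP1
  have t3 : q * |fu * Yu| ≤ 2 * pv * |fu * Yu| := mul_le_mul_of_nonneg_right hq (abs_nonneg _)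
  have hpu : pv * (1 + ru) ≤ R := le_trans (mul_le_of_le_one_left (by linarith) hpv1) hR
  have t4 : |fu * fv| * (|o| / 2 + pv * (1 + ru)) ≤ |fu * fv| * (2 * R) :=
    mul_le_mul_of_nonneg_left (by linarith) (abs_nonneg _)
  have t5 : fu ^ 2 * (pv * |o| + pv ^ 2 * (1 + ru)) ≤ |fu| * (pv * (2 * R)) := by
    refine mul_le_mul hf2 ?_ (by positivity) (abs_nonneg _)
    have h1 : |o| + pv * (1 + ru) ≤ 2 * R := by linarith
    have := mul_le_mul_of_nonneg_left h1 hpv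
    linarith
  have t7 : |fu| * ((1 + ru) + (1 + rv)) / m ≤ |fu| * (2 * R) / m :=
    div_le_div_of_nonneg_right (mul_le_mul_of_nonneg_left (by linarith) (abs_nonneg _)) hm.le
  have key := sq8 (e := P * (fu ^ 2 * (1 + rv) + |fv * Yu|) + q * |fu * Yu|
      + |fu * fv| * (|o| / 2 + pv * (1 + ru)) + fu ^ 2 * (pv * |o| + pv ^ 2 * (1 + ru))
      + (|Yu| + |fu| * ((1 + ru) + (1 + rv))) / m + ru / m ^ 2)
    (y1 := 3 / K * (|fu| * (1 + rv))) (y2 := |fv * Yu|) (y3 := 2 * pv * |fu * Yu|)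
    (y4 := |fu * fv| * (2 * R)) (y5 := |fu| * (pv * (2 * R))) (y6 := |Yu| / m)
    (y7 := |fu| * (2 * R) / m) (y8 := ru / m ^ 2) (by positivity)
    (by rw [mul_add, add_div]; linarith)
  refine le_trans key ?_
  simp only [mul_pow, div_pow, sq_abs]
  have h3 : Yu ^ 2 ≤ r * R := le_trans hY (mul_le_mul_of_nonneg_left (by linarith) hr)
  have h4 := mul_le_mul_of_nonneg_left h3 (show 0 ≤ 4 * pv ^ 2 * fu ^ 2 by positivity)
  have e : 9 / K ^ 2 * (fu ^ 2 * (1 + rv) ^ 2) + Yu ^ 2 * fv ^ 2 + 4 * R * (r * fu ^ 2 * pv ^ 2)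
      + 4 * R ^ 2 * (fu ^ 2 * fv ^ 2) + 4 * R ^ 2 * (fu ^ 2 * pv ^ 2) + Yu ^ 2 * (1 / m ^ 2)
      + 4 * R ^ 2 * (fu ^ 2 * (1 / m ^ 2)) + ru ^ 2 * (1 / m ^ 4)
      - (3 ^ 2 / K ^ 2 * (fu ^ 2 * (1 + rv) ^ 2) + fv ^ 2 * Yu ^ 2
        + 2 ^ 2 * pv ^ 2 * (fu ^ 2 * Yu ^ 2) + fu ^ 2 * fv ^ 2 * (2 ^ 2 * R ^ 2)
        + fu ^ 2 * (pv ^ 2 * (2 ^ 2 * R ^ 2)) + Yu ^ 2 / m ^ 2 + fu ^ 2 * (2 ^ 2 * R ^ 2) / m ^ 2
        + ru ^ 2 / (m ^ 2) ^ 2)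
      = 4 * pv ^ 2 * fu ^ 2 * (r * R) - 4 * pv ^ 2 * fu ^ 2 * Yu ^ 2 := by ring
  linarith

end TrRX
end Crest.Agent.R62
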