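import Crest.Agent.R62.TrRAux2

set_option autoImplicit false
set_option linter.unusedSectionVars false

open Finset Matrix

namespace Crest.Agent.R62
namespace TrRX

variable {ι : Type} [Fintype ι] [DecidableEq ι] {c : Ctx ι}

theorem sum_sum_const (g : ι → ℝ) : ∑ a ∈ c.S, ∑ _u ∈ c.S, g a = c.m * ∑ a ∈ c.S, g a := by
  simp only [sum_const, nsmul_eq_mul, ← mul_sum, Ctx.m]

variable (h : Sc c)
include h

/-! support facts -/
theorem Sc.invK : 1 / c.p.K ≤ 1 / 1000 := Ctx.inv_K_le h.big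
theorem Sc.K10 : 10 ≤ c.p.K := le_trans (by norm_num) h.big
theorem Sc.pd1 (a : ι) : pd c.S c.F a ≤ 1 / 500 := by
  have h1 := Ctx.pd_le h.big a
  have h2 := h.invK
  have : 2 / c.p.K = 2 * (1 / c.p.K) := by ring
  linarith
theorem Sc.invm : 1 / c.m ≤ 1 / c.p.K := one_div_le_one_div_of_le h.K0 (Ctx.K_le_m h.big)
theorem Sc.ph_le {u v : ι} (hw : c.w u v ≠ 0) : ph c.S c.F u v ≤ 2 * (1 / c.p.K) := by
  obtain ⟨-, -, -, h4, -⟩ := c.wt.supp u v hw
  have := h.invm
  unfold ph
  unfold Ctx.m at this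
  linarith
theorem Sc.ph0_le {u v : ι} (hw : c.w u v ≠ 0) : ph0 c.S c.F u v ≤ 3 / c.p.K := by
  have h1 := h.ph_le hw
  have h2 : pd c.S c.F u * pd c.S c.F v ≤ 1 / 500 * (2 / c.p.K) :=
    mul_le_mul (h.pd1 u) (Ctx.pd_le h.big v) (pd0 v) (by norm_num)
  have h3 : 0 < 1 / c.p.K := one_div_pos.2 h.K0
  have e1 : 2 / c.p.K = 2 * (1 / c.p.K) := by ring
  have e2 : 3 / c.p.K = 3 * (1 / c.p.K) := by ring
  unfold ph0
  linarith
theorem Sc.pe_le {u v : ι} (hw : c.w u v ≠ 0) : pe c.S c.F u v ≤ 2 * pd c.S c.F v := by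
  have h1 := h.ph_le hw
  have h2 := h.invK
  have h3 := h.pd1 v
  have h4 := pd0 (c := c) v
  have h5 : 1 / (c.S.card : ℝ) ≤ pd c.S c.F v := by
    have := abs_nonneg (c.F v v)
    unfold pd; linarith
  have h6 := mul_le_mul_of_nonneg_left (show ph c.S c.F u v + pd c.S c.F v ≤ 1 by linarith) h4
  unfold pe
  nlinarith

/-! single terms -/
theorem Sc.w_ff : Wd c (fun a u v => c.F a u ^ 2 * c.F a v ^ 2) (11 / 10 * 1) :=
  Wd.au_av _ _ (fun _ _ => sq_nonneg _) (fun _ _ => sq_nonneg _) (fun a => (sumf2 a).le)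
    (fun a => (sumf2 a).le) (by rw [sum_rr, one_mul]; exact le_trans h.R2T h.TkT)

/-- scaled version: `b * Σ f² f²` with `b ≤ κ` -/
theorem Sc.w_ff' {b : ℝ} (hb0 : 0 ≤ b) (hb : b ≤ κ c) :
    Wd c (fun a u v => b * (c.F a u ^ 2 * c.F a v ^ 2)) (11 / 10 * 1) := by
  have := Wd.au_av (c := c) (k := 1) (fun a u => b * c.F a u ^ 2) (fun a v => c.F a v ^ 2)
    (fun _ _ => by positivity) (fun _ _ => sq_nonneg _) (α := fun a => b * rr c.F a)
    (fun a => by rw [← mul_sum, sumf2]) (fun a => (sumf2 a).le)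
    (by
      simp only [mul_assoc, ← mul_sum]
      rw [sum_rr, one_mul]
      exact mul_le_mul hb h.R2T R20 h.k0)
  exact this.mono fun u v _ a => le_of_eq (by ring)

theorem Sc.w_Yf {b : ℝ} (hb0 : 0 ≤ b) (hb : b ≤ c.p.K) :
    Wd c (fun a u v => b * ((c.F * c.F) a u ^ 2 * c.F a v ^ 2)) (11 / 10 * 1) := by
  have := Wd.au_av (c := c) (k := 1) (fun a u => b * (c.F * c.F) a u ^ 2) (fun a v => c.F a v ^ 2)
    (fun _ _ => by positivity) (fun _ _ => sq_nonneg _) (α := fun a => b * (c.L ^ 2 * rr c.F a))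
    (fun a => by rw [← mul_sum]; exact mul_le_mul_of_nonneg_left (h.sumY2 a) hb0)
    (fun a => (sumf2 a).le)
    (by
      simp only [mul_assoc, ← mul_sum]
      rw [sum_rr, one_mul, ← mul_assoc]
      exact mul_le_mul (le_trans (mul_le_mul_of_nonneg_right hb (sq_nonneg _)) h.L2) h.R2T R20 h.k0)
  exact this.mono fun u v _ a => le_of_eq (by ring)

theorem Sc.w_rfp : Wd c (fun a u v => c.R * (rr c.F a * c.F a u ^ 2 * pd c.S c.F v ^ 2))
    (11 / 10 * 1) := by
  have hR := h.R0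
  have := Wd.au_uv (c := c) (k := 1) (fun a u => rr c.F a * c.F a u ^ 2)
    (fun _ v => c.R * pd c.S c.F v ^ 2) (fun a _ => mul_nonneg (r0 a) (sq_nonneg _))
    (fun _ _ => by positivity) (Q := c.R * P2 c) (mul_nonneg hR (P2_nonneg c)) sum_rff.le
    (fun u => by rw [← mul_sum]; rfl)
    (by rw [one_mul, mul_comm]; exact mul_le_mul h.RP h.R2T R20 h.k0)
  exact this.mono fun u v _ a => le_of_eq (by ring)

/-- (P1) -/
theorem Sc.w_re : ∃ k : ℝ, k ≤ 100 ∧ Wd c (fun a u v => rr c.F a * eh c a u v) k := by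
  have hK := h.K0
  have hm := h.m0
  have hL : 0 < c.L := lt_of_lt_of_le one_pos h.L1
  have hR := h.R0
  have hT := h.T0
  have hk := h.k0
  have hP2 := P2_nonneg c
  have hRT := h.R2T
  have hR2 : 0 ≤ R2 c.S c.F := R20
  have ha2 := c.oF.mat.a2_nonneg
  have hkT := mul_nonneg hk hT
  have hsq : ∑ a ∈ c.S, rr c.F a ^ 2 ≤ T c := h.R2T
  have eκ : ∀ x : ℝ, c.m * x / c.p.K = κ c * x := fun x => by unfold κ; ring
  have w1 := Wd.au_uv (c := c) (k := 6) (fun a u => rr c.F a * c.F a u ^ 2)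
    (fun _ v => 3 / c.p.K * vr c.F v) (fun a _ => mul_nonneg (r0 a) (sq_nonneg _))
    (fun _ v => mul_nonneg (by positivity) (vr0 v)) (Q := 3 / c.p.K * (2 * c.m)) (by positivity)
    sum_rff.le
    (fun u => by
      rw [← mul_sum]; exact mul_le_mul_of_nonneg_left (Ctx.sum_vr_le h.big) (by positivity))
    (by
      have := h.kR2
      have e : R2 c.S c.F * (3 / c.p.K * (2 * c.m)) = 6 * (κ c * R2 c.S c.F) := by unfold κ; ring
      rw [e]; linarith)
  have w2 := Wd.a_uv (c := c) (k := 10) (fun a => rr c.F a ^ 2)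
    (fun u v => 1 / c.p.K * ph0 c.S c.F u v ^ 2) (fun _ => sq_nonneg _) (fun _ _ => by positivity)
    hsq (β := 1 / c.p.K * (10 * c.m))
    (by simp only [← mul_sum]; exact mul_le_mul_of_nonneg_left h.sum_ph0 (by positivity))
    (le_of_eq (by unfold κ; ring))
  have w3 := h.w_Yf hK.le le_rfl
  have w4 := Wd.au_uv (c := c) (k := 10)
    (fun a u => rr c.F a * (c.L * c.F a u ^ 2 + (c.F * c.F) a u ^ 2 / c.L))
    (fun u v => pe c.S c.F u v) (fun a _ => mul_nonneg (r0 a) (by positivity)) pe0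
    (Q := 3 * c.R + 2 * P2 c) (by positivity) (α := 2 * c.L * R2 c.S c.F)
    (by
      rw [← sum_rr, mul_sum]
      refine sum_le_sum fun a _ => ?_
      rw [← mul_sum, sum_add_distrib, ← mul_sum, ← sum_div, sumf2]
      have h1 : (∑ u ∈ c.S, (c.F * c.F) a u ^ 2) / c.L ≤ c.L * rr c.F a := by
        rw [div_le_iff₀ hL]
        have := h.sumY2 a
        linarith
      have := mul_le_mul_of_nonneg_left h1 (r0 (c := c) a)
      linarith)
    h.sum_pe
    (by
      have h1 := mul_le_mul h.LR hRT hR2 hk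
      have h2 := mul_le_mul h.LP hRT hR2 hk
      linarith)
  have w5 := Wd.a_uv (c := c) (k := 2) (fun a => rr c.F a ^ 2)
    (fun u v => c.p.K / c.m * ((c.F * c.F) u v ^ 2 + vr c.F u ^ 2 * pd c.S c.F v ^ 2))
    (fun _ => sq_nonneg _) (fun _ _ => by positivity)
    hsq (β := c.p.K / c.m * (a4 c.F + P c * P2 c))
    (by
      simp only [← mul_sum, sum_add_distrib, ← sum_mul]
      exact mul_le_mul_of_nonneg_left (add_le_add sum_oo le_rfl) (by positivity))
    (by
      have h1 := mul_le_mul_of_nonneg_left h.a4m hT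
      have h2 := mul_le_mul_of_nonneg_left h.PP hT
      linarith)
  have w6 := h.w_ff' (b := c.m / c.p.K) hk le_rfl
  have w7 := Wd.au_uv (c := c) (k := 3) (fun a u => rr c.F a * c.F a u ^ 2)
    (fun _ v => 2 * c.p.K * c.R * pd c.S c.F v ^ 2 + rr c.F v / c.p.K)
    (fun a _ => mul_nonneg (r0 a) (sq_nonneg _))
    (fun _ v => add_nonneg (by positivity) (div_nonneg (r0 v) hK.le))
    (Q := 2 * c.p.K * c.R * P2 c + a2 c.F / c.p.K) (by positivity) sum_rff.le
    (fun u => by rw [sum_add_distrib, ← mul_sum, ← sum_div, sum_r]; rfl)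
    (by
      have h1 := mul_le_mul h.KPR hRT hR2 hk
      have h2 : a2 c.F / c.p.K ≤ κ c := div_le_div_of_nonneg_right (Ctx.a2_le_m h.big) hK.le
      have h3 := mul_le_mul h2 hRT hR2 hk
      linarith)
  have hone : ∀ u : ι, ∑ _v ∈ c.S, 1 / c.m ≤ 1 := fun _ => by
    rw [sum_const, nsmul_eq_mul]
    change c.m * _ ≤ _
    rw [mul_one_div_cancel hm.ne']
  have w8 := Wd.au_uv (c := c) (k := 2)
    (fun a u => rr c.F a ^ 2 / c.p.K + c.p.K * (c.F * c.F) a u ^ 2) (fun _ _ => 1 / c.m)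
    (fun _ _ => by positivity) (fun _ _ => by positivity) (Q := 1) zero_le_one
    (α := κ c * R2 c.S c.F + c.p.K * (c.L ^ 2 * a2 c.F))
    (by
      simp only [sum_add_distrib, ← mul_sum]
      rw [sum_sum_const, ← sum_div, ← mul_div_assoc, eκ]
      exact add_le_add le_rfl (mul_le_mul_of_nonneg_left h.sum_YY hK.le))
    hone
    (by
      have h1 := h.kR2
      have h2 := mul_le_mul h.L2 h.a2T' ha2 hk
      linarith)
  have w9 := Wd.au_uv (c := c) (k := 3)
    (fun a u => rr c.F a ^ 2 / c.p.K + c.p.K * c.R * (c.F a u ^ 2 * vr c.F u)) (fun _ _ => 1 / c.m)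
    (fun _ u => add_nonneg (by positivity)
      (mul_nonneg (by positivity) (mul_nonneg (sq_nonneg _) (vr0 u))))
    (fun _ _ => by positivity) (Q := 1) zero_le_one
    (α := κ c * R2 c.S c.F + c.p.K * c.R * (a2 c.F + R2 c.S c.F))
    (by
      simp only [sum_add_distrib, ← mul_sum]
      rw [sum_sum_const, ← sum_div, ← mul_div_assoc, eκ, sum_comm (s := c.S) (t := c.S)]
      refine add_le_add le_rfl (mul_le_mul_of_nonneg_left (le_of_eq ?_) (by positivity))
      rw [← sum_r, ← sum_rr, ← sum_add_distrib]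
      refine sum_congr rfl fun u _ => ?_
      rw [← sum_mul, sumf2']
      unfold vr; ring)
    hone
    (by
      have h1 := h.kR2
      have h2 := mul_le_mul h.KR h.a2T' ha2 hk
      have h3 := mul_le_mul h.KR hRT hR2 hk
      linarith)
  have w10 := Wd.au_uv (c := c) (k := 4)
    (fun a u => rr c.F a ^ 2 / c.p.K + c.p.K * c.F a u ^ 2) (fun _ v => vr c.F v / c.m)
    (fun _ _ => by positivity) (fun _ v => div_nonneg (vr0 v) hm.le) (Q := 2) (by norm_num)
    (α := κ c * R2 c.S c.F + c.p.K * a2 c.F)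
    (by
      simp only [sum_add_distrib, ← mul_sum]
      rw [sum_sum_const, ← sum_div, ← mul_div_assoc, eκ, sum_ff]
      exact le_rfl)
    (fun u => by rw [← sum_div, div_le_iff₀ hm]; exact Ctx.sum_vr_le h.big)
    (by
      have h1 := h.kR2
      have h2 := h.a2T
      have h3 := h.TkT
      linarith)
  have w11 := Wd.au_uv (c := c) (k := 1)
    (fun a u => rr c.F a * rr c.F u) (fun _ _ => 1 / c.m ^ 2)
    (fun a u => mul_nonneg (r0 a) (r0 u)) (fun _ _ => by positivity) (Q := 1 / c.m) (by positivity)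
    (α := a2 c.F * c.m)
    (by
      rw [← sum_mul_sum, sum_r]
      exact mul_le_mul_of_nonneg_left (Ctx.a2_le_m h.big) ha2)
    (fun u => by
      rw [sum_const, nsmul_eq_mul]
      change c.m * _ ≤ _
      exact le_of_eq (by field_simp))
    (by
      rw [mul_assoc, mul_one_div_cancel hm.ne', mul_one, one_mul]
      exact le_trans h.a2T' h.TkT)
  refine ⟨_, ?_, ((((((((((w1.add w2).add w3).add w4).add w5).add w6).add w7).add w8).add w9).add
    w10).add w11).mono fun u v hw a => ?_⟩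
  · norm_num
  · have := re_scalar (L := c.L) (fv := c.F a v) h.K1 hm (r0 (c := c) a) (h.ph0_le hw)
      (pe0 (c := c) u v) (pd0 (c := c) v) (r0 u) (r0 v) (h.vrR u) (Ysq u v) (h.abs_fY a u)
    unfold eh vr
    refine le_trans this (le_of_eq ?_)
    ring

/-- (P2) -/
theorem Sc.w_ee : ∃ k : ℝ, k ≤ 1000 ∧ Wd c (fun a u v => eh c a u v ^ 2) k := by
  have hK := h.K0
  have hK1 := h.K1
  have hm := h.m0
  have hm1 := h.m1
  have hR := h.R0
  have hT := h.T0
  have hk := h.k0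
  have hP2 := P2_nonneg c
  have hRT := h.R2T
  have hR2 : 0 ≤ R2 c.S c.F := R20
  have ha2 := c.oF.mat.a2_nonneg
  have ham := Ctx.a2_le_m h.big
  have hkT := mul_nonneg hk hT
  have hone : ∀ u : ι, ∑ _v ∈ c.S, 1 / c.m ^ 2 ≤ 1 := fun _ => by
    rw [sum_const, nsmul_eq_mul]
    change c.m * _ ≤ _
    rw [mul_one_div, div_le_one (by positivity)]
    nlinarith
  have w1 := Wd.au_uv (c := c) (k := 36) (fun a u => c.F a u ^ 2)
    (fun _ v => 9 / c.p.K ^ 2 * vr c.F v ^ 2) (fun _ _ => sq_nonneg _) (fun _ _ => by positivity)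
    (Q := 9 / c.p.K ^ 2 * P c) (mul_nonneg (by positivity) (P_nonneg c)) sum_ff.le
    (fun u => by rw [← mul_sum]; rfl)
    (by
      have e : P c = R2 c.S c.F + 2 * a2 c.F + c.m := Ctx.P_eq h.big
      have h1 : a2 c.F * P c ≤ 4 * (c.m * T c) := by
        have a1 : a2 c.F * R2 c.S c.F ≤ c.m * T c := mul_le_mul ham hRT hR2 hm.le
        have a2' : a2 c.F * a2 c.F ≤ c.m * T c := mul_le_mul ham h.a2T' ha2 hm.le
        have a3 : c.m * a2 c.F ≤ c.m * T c := mul_le_mul_of_nonneg_left h.a2T' hm.le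
        rw [e]; linarith
      have h2 : 9 / c.p.K ^ 2 ≤ 9 / c.p.K :=
        div_le_div_of_nonneg_left (by norm_num) hK (by nlinarith)
      calc a2 c.F * (9 / c.p.K ^ 2 * P c) = 9 / c.p.K ^ 2 * (a2 c.F * P c) := by ring
        _ ≤ 9 / c.p.K * (4 * (c.m * T c)) :=
          mul_le_mul h2 h1 (mul_nonneg ha2 (P_nonneg c)) (by positivity)
        _ = _ := by unfold κ; ring)
  have w2 := h.w_Yf zero_le_one hK1
  have w3 := h.w_rfp.cmul (b := 4) (by norm_num)
  have w4 := (h.w_ff' (sq_nonneg _) h.R2k).cmul (b := 4) (by norm_num)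
  have w5 := Wd.au_uv (c := c) (k := 4) (fun a u => c.F a u ^ 2)
    (fun _ v => 4 * c.R ^ 2 * pd c.S c.F v ^ 2) (fun _ _ => sq_nonneg _) (fun _ _ => by positivity)
    (Q := 4 * c.R ^ 2 * P2 c) (by positivity) sum_ff.le
    (fun u => by rw [← mul_sum]; rfl)
    (by
      have h1 := mul_le_mul_of_nonneg_right h.RRP ha2
      have h2 := h.ma2
      linarith)
  have w6 := Wd.au_uv (c := c) (k := 1) (fun a u => (c.F * c.F) a u ^ 2)
    (fun _ _ => 1 / c.m ^ 2) (fun _ _ => sq_nonneg _) (fun _ _ => by positivity)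
    (Q := 1) zero_le_one h.sum_YY hone
    (by
      have := mul_le_mul h.L2' h.a2T' ha2 hk
      linarith)
  have w7 := Wd.au_uv (c := c) (k := 4) (fun a u => 4 * c.R ^ 2 * c.F a u ^ 2)
    (fun _ _ => 1 / c.m ^ 2) (fun _ _ => by positivity) (fun _ _ => by positivity)
    (Q := 1) zero_le_one (α := 4 * c.R ^ 2 * a2 c.F) (by simp only [← mul_sum]; rw [sum_ff]) hone
    (by
      have := mul_le_mul h.R2k h.a2T' ha2 hk
      linarith)
  have w8 := Wd.au_uv (c := c) (k := 1) (fun _ u => rr c.F u ^ 2)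
    (fun _ _ => 1 / c.m ^ 4) (fun _ _ => by positivity) (fun _ _ => by positivity)
    (Q := 1 / c.m ^ 3) (by positivity) (α := c.m * R2 c.S c.F)
    (by rw [sum_comm, sum_sum_const]; rfl)
    (fun u => by
      rw [sum_const, nsmul_eq_mul]
      change c.m * _ ≤ _
      exact le_of_eq (by field_simp))
    (by
      have h1 : c.m * (1 / c.m ^ 3) ≤ 1 := by
        rw [mul_one_div, div_le_one (by positivity)]
        calc c.m = c.m ^ 1 := (pow_one _).symm
          _ ≤ c.m ^ 3 := pow_le_pow_right₀ hm1 (by norm_num)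
      have h2 := mul_le_mul_of_nonneg_left h1 hR2
      have h3 := h.TkT
      linarith)
  refine ⟨_, ?_, ((((((((w1.add w2).add w3).add w4).add w5).add w6).add w7).add w8).cmul (b := 8)
    (by norm_num)).mono fun u v hw a => ?_⟩
  · norm_num
  · have := ee_scalar (fv := c.F a v) h.K10 hm (r0 (c := c) a) (ph00 u v) (h.ph0_le hw)
      (pe0 (c := c) u v) (h.pe_le hw) (pd0 (c := c) v) (le_trans (h.pd1 v) (by norm_num))
      (r0 u) (r0 v) (h.vrR u) (h.vrR v) (Ysq u v) (Ysq a u)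
      (le_trans (c.oF.ent a u) (by norm_num))
    unfold eh vr
    refine le_trans this (le_of_eq ?_)
    ring

end TrRX
end Crest.Agent.R62
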