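import Crest.Agent.R62.TrTAux

set_option autoImplicit false
set_option linter.unusedSectionVars false

open Finset Matrix

namespace Crest.Agent.R62

variable {ι : Type} [Fintype ι] [DecidableEq ι]

namespace TrT

section ctx
variable {c : Ctx ι} (hK : Big c.p.K)
include hK

theorem errT_nonneg (u v : ι) : 0 ≤ errT c.S c.F u v := by
  have h1 := c.oF.mat.rr_nonneg u
  have h2 := c.oF.mat.rr_nonneg v
  unfold errT vr
  positivity

theorem sum_rvr : ∑ a ∈ c.S, rr c.F a * vr c.F a = a2 c.F + R2 c.S c.F := by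
  rw [c.oF.mat.a2_eq, R2, ← Finset.sum_add_distrib]
  exact Finset.sum_congr rfl fun a _ => by unfold vr; ring

theorem le_rvr : Le c.p.K (a2 c.F + R2 c.S c.F) (c.μ + c.ϱ + 13 + 1 / 50) :=
  ((le_a2 hK).add hK (le_R2 hK) (by linarith) le_rfl).mono hK (by linarith)

theorem sum_errT : Le c.p.K (∑ u ∈ c.S, ∑ v ∈ c.S, errT c.S c.F u v) (c.μ + 3350 + c.ϱ - 2) := by
  have hm := m_pos hK
  have hF := c.oF.mat
  have e1 : ∑ u ∈ c.S, ∑ v ∈ c.S, (rr c.F u + rr c.F v) / (c.S.card : ℝ) = 2 * a2 c.F := by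
    simp only [← Finset.sum_div, Finset.sum_add_distrib, Finset.sum_const, nsmul_eq_mul,
      ← Finset.mul_sum, ← hF.a2_eq]
    have : (c.S.card : ℝ) ≠ 0 := hm.ne'
    field_simp; ring
  have e2 : ∑ u ∈ c.S, ∑ v ∈ c.S, c.F u v ^ 2 * (vr c.F u + vr c.F v)
      = 2 * (a2 c.F + R2 c.S c.F) := by rw [sum2_ker hF, sum_rvr hK]
  have e3 : ∑ u ∈ c.S, ∑ v ∈ c.S, |c.F u v| * |(c.F * c.F) u v| ≤ √(a2 c.F) * √(a4 c.F) := by
    refine le_trans (sum2_mul_le_sqrt c.S (fun u v => c.F u v) (fun u v => (c.F * c.F) u v)) ?_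
    rw [sum2_sq hF]
    exact mul_le_mul_of_nonneg_left (sqrt_o_le hK) (Real.sqrt_nonneg _)
  have e4 : ∑ u ∈ c.S, ∑ v ∈ c.S, pd c.S c.F u ^ 2 * vr c.F v
      = (∑ a ∈ c.S, pd c.S c.F a ^ 2) * ∑ a ∈ c.S, vr c.F a := by rw [Finset.sum_mul_sum]
  have e5 : ∑ u ∈ c.S, ∑ v ∈ c.S, pd c.S c.F v ^ 2 * vr c.F u
      = (∑ a ∈ c.S, pd c.S c.F a ^ 2) * ∑ a ∈ c.S, vr c.F a := by rw [Finset.sum_comm, e4]
  set g := c.μ + 3350 + c.ϱ - 3 with hg
  have b1 : Le c.p.K (2 * a2 c.F) g :=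
    ((le_a2 hK).cmul hK (by norm_num) (by norm_num)).mono hK (by linarith)
  have b2 : Le c.p.K (2 * (a2 c.F + R2 c.S c.F)) g :=
    ((le_rvr hK).cmul hK (by norm_num) (by norm_num)).mono hK (by linarith)
  have b3 : Le c.p.K (√(a2 c.F) * √(a4 c.F)) g := by
    refine (((le_a2 hK).sqrt hK).mul hK ((le_a4 hK).sqrt hK) (Real.sqrt_nonneg _)).mono hK ?_
    rcases c.cases_W with ⟨h3, h4, h5⟩ | ⟨h3, h4, h5⟩ <;> linarith
  have b4 : Le c.p.K ((∑ a ∈ c.S, pd c.S c.F a ^ 2) * ∑ a ∈ c.S, vr c.F a) g := by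
    have h1 := ((Ctx.le_m hK).cmul hK (C := 2) (by norm_num) (by norm_num)).of_le
      (Ctx.sum_vr_le hK)
    refine ((le_P2 hK).mul hK h1 (Finset.sum_nonneg fun a _ => ?_)).mono hK (by linarith)
    have := hF.rr_nonneg a
    unfold vr; positivity
  have s1 := b1.add hK b2 le_rfl le_rfl
  have s2 := s1.add hK b3 le_rfl (by linarith)
  have s3 := s2.add hK b4 le_rfl (by linarith)
  have s4 := s3.add hK b4 le_rfl (by linarith)
  refine (s4.mono hK (by linarith)).of_le ?_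
  simp only [errT, Finset.sum_add_distrib]
  rw [e1, e2, e4, e5]
  linarith

/-- The drift of the trace. -/
theorem drift {C : ℝ} (hC0 : 0 ≤ C) (hC : Le c.p.K C (1 / 100))
    (hpt : ∀ u v, Loc c.σ c.S c.F u v →
      |t1 (upd c.σ c.S c.F u v) - t1 c.F - mainT c.σ c.F u v| ≤ C * errT c.S c.F u v) :
    Le c.p.K |∑ u, ∑ v, c.w u v * (t1 (c.F' u v) - t1 c.F) - 2 * ((a2 c.F - c.m) * t1 c.F)
      + 2 * (if c.p.phI c.m then c.p.gam * (io c.F * a3 c.F) else 0)|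
      (c.μ + 3350 + c.ϱ - 9 / 10) := by
  set g := c.μ + 3350 + c.ϱ - 1 with hg
  have hE0 : 0 ≤ ∑ u ∈ c.S, ∑ v ∈ c.S, errT c.S c.F u v :=
    Finset.sum_nonneg fun u _ => Finset.sum_nonneg fun v _ => errT_nonneg hK u v
  have b1 : Le c.p.K (11 / 10 * ∑ u ∈ c.S, ∑ v ∈ c.S, C * errT c.S c.F u v) g := by
    simp only [← Finset.mul_sum]
    exact ((hC.mul hK (sum_errT hK) hE0).cmul hK (by norm_num) (by norm_num)).mono hK (by linarith)
  have i1 := c.sum_le_crude (X := fun u v => t1 (c.F' u v) - t1 c.F - mainT c.σ c.F u v)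
    (Y := fun u v => C * errT c.S c.F u v)
    (fun u v h => le_trans (le_abs_self _) (hpt u v (Ctx.loc hK h)))
    (fun u _ v _ => mul_nonneg hC0 (errT_nonneg hK u v))
  have i2 := c.sum_le_crude (X := fun u v => -(t1 (c.F' u v) - t1 c.F - mainT c.σ c.F u v))
    (Y := fun u v => C * errT c.S c.F u v)
    (fun u v h => le_trans (neg_le_abs _) (hpt u v (Ctx.loc hK h)))
    (fun u _ v _ => mul_nonneg hC0 (errT_nonneg hK u v))
  have b2 := driftA1 hK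
  have b3 : Le c.p.K |c.σ * ∑ u, ∑ v, c.w u v * (c.F * c.F) u v
      + (if c.p.phI c.m then c.p.gam * (io c.F * a3 c.F) else 0)| g := by
    split_ifs with h
    · exact (driftA2_I hK h).mono hK (by linarith)
    · rw [add_zero, abs_mul, sg_abs hK, one_mul]
      exact (driftA2_off hK h).mono hK (by linarith)
  have s1 := b1.add hK (b2.cmul hK (C := 2) (by norm_num) (by norm_num))
    (g := g + 1 / 100) (by linarith) le_rfl
  have s2 := s1.add hK (b3.cmul hK (C := 2) (by norm_num) (by norm_num)) le_rfl (by linarith)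
  refine (s2.mono hK (by linarith)).of_le ?_
  have e0 := c.sum_comm' (fun u v => (rr c.F u - 1) * c.F v v)
  have e1 : ∑ u, ∑ v, c.w u v * (t1 (c.F' u v) - t1 c.F)
      = ∑ u, ∑ v, c.w u v * (t1 (c.F' u v) - t1 c.F - mainT c.σ c.F u v)
        + 2 * (c.σ * ∑ u, ∑ v, c.w u v * (c.F * c.F) u v)
        + ∑ u, ∑ v, c.w u v * ((rr c.F u - 1) * c.F v v)
        + ∑ u, ∑ v, c.w u v * ((rr c.F v - 1) * c.F u u) := by
    simp only [Finset.mul_sum, ← Finset.sum_add_distrib]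
    exact Finset.sum_congr rfl fun u _ => Finset.sum_congr rfl fun v _ => by unfold mainT; ring
  have e2 : ∑ u, ∑ v, c.w u v * -(t1 (c.F' u v) - t1 c.F - mainT c.σ c.F u v)
      = -∑ u, ∑ v, c.w u v * (t1 (c.F' u v) - t1 c.F - mainT c.σ c.F u v) := by
    simp only [mul_neg, Finset.sum_neg_distrib]
  rw [e2] at i2
  rw [e1, ← e0]
  set A := ∑ u, ∑ v, c.w u v * (t1 (c.F' u v) - t1 c.F - mainT c.σ c.F u v)
  set B := c.σ * ∑ u, ∑ v, c.w u v * (c.F * c.F) u v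
  set D := ∑ u, ∑ v, c.w u v * ((rr c.F u - 1) * c.F v v)
  set I := (if c.p.phI c.m then c.p.gam * (io c.F * a3 c.F) else 0)
  have q1 := le_abs_self (B + I)
  have q2 := neg_le_abs (B + I)
  have q3 := le_abs_self (D - (a2 c.F - c.m) * t1 c.F)
  have q4 := neg_le_abs (D - (a2 c.F - c.m) * t1 c.F)
  rw [abs_le]
  constructor <;> linarith

omit hK in
theorem sq5 (a b d e f : ℝ) : (a + b + d + e + f) ^ 2 ≤ 5 * (a ^ 2 + b ^ 2 + d ^ 2 + e ^ 2 + f ^ 2) := by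
  nlinarith [sq_nonneg (a - b), sq_nonneg (a - d), sq_nonneg (a - e), sq_nonneg (a - f),
    sq_nonneg (b - d), sq_nonneg (b - e), sq_nonneg (b - f), sq_nonneg (d - e), sq_nonneg (d - f),
    sq_nonneg (e - f)]

theorem pt_var {C : ℝ} (hC0 : 0 ≤ C) {u v : ι} (hw : c.w u v ≠ 0)
    (hpt : |t1 (upd c.σ c.S c.F u v) - t1 c.F - mainT c.σ c.F u v| ≤ C * errT c.S c.F u v) :
    (t1 (c.F' u v) - t1 c.F) ^ 2 ≤ (2 * C + 2) ^ 2 * 5 * ((c.F * c.F) u v ^ 2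
      + pd c.S c.F v ^ 2 * vr c.F u ^ 2 + pd c.S c.F u ^ 2 * vr c.F v ^ 2
      + c.F u v ^ 2 * (vr c.F u ^ 2 + vr c.F v ^ 2)) := by
  have hm := m_pos hK
  have hF := c.oF.mat
  have hK2 := c.ok.K2
  have ru := hF.rr_nonneg u
  have rv := hF.rr_nonneg v
  have hi : 0 < 1 / (c.S.card : ℝ) := one_div_pos.2 hm
  have pu1 : pd c.S c.F u ≤ 1 :=
    (Ctx.pd_le hK u).trans ((div_le_one hK.pos).2 hK2)
  have pv1 : pd c.S c.F v ≤ 1 :=
    (Ctx.pd_le hK v).trans ((div_le_one hK.pos).2 hK2)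
  have f1 : |c.F u v| ≤ 1 := (c.oF.ent u v).trans (by norm_num)
  have pu0 : 1 / (c.S.card : ℝ) ≤ pd c.S c.F u := by unfold pd; linarith [abs_nonneg (c.F u u)]
  have pv0 : 1 / (c.S.card : ℝ) ≤ pd c.S c.F v := by unfold pd; linarith [abs_nonneg (c.F v v)]
  have du : |c.F u u| ≤ pd c.S c.F u := by unfold pd; linarith
  have dv : |c.F v v| ≤ pd c.S c.F v := by unfold pd; linarith
  set o := |(c.F * c.F) u v| with ho
  set f := |c.F u v| with hf
  set pu := pd c.S c.F u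
  set pv := pd c.S c.F v
  have vu : vr c.F u = 1 + rr c.F u := rfl
  have vv : vr c.F v = 1 + rr c.F v := rfl
  set ϱu := vr c.F u
  set ϱv := vr c.F v
  have o0 : 0 ≤ o := abs_nonneg _
  have f0 : 0 ≤ f := abs_nonneg _
  have pu0' : 0 ≤ pu := hi.le.trans pu0
  have pv0' : 0 ≤ pv := hi.le.trans pv0
  have ϱu0 : 0 ≤ ϱu := by linarith
  have ϱv0 : 0 ≤ ϱv := by linarith
  set B := o + pv * ϱu + pu * ϱv + f * ϱu + f * ϱv with hB
  have t1' : 0 ≤ pv * ϱu := by positivity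
  have t2' : 0 ≤ pu * ϱv := by positivity
  have t3' : 0 ≤ f * ϱu := by positivity
  have t4' : 0 ≤ f * ϱv := by positivity
  have hmain : |mainT c.σ c.F u v| ≤ 2 * B := by
    have x1 : |rr c.F u - 1| ≤ ϱu := abs_le.2 ⟨by linarith, by linarith⟩
    have x2 : |rr c.F v - 1| ≤ ϱv := abs_le.2 ⟨by linarith, by linarith⟩
    have y1 : |c.F v v * (rr c.F u - 1)| ≤ pv * ϱu := by
      rw [abs_mul]; exact mul_le_mul dv x1 (abs_nonneg _) pv0'
    have y2 : |c.F u u * (rr c.F v - 1)| ≤ pu * ϱv := by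
      rw [abs_mul]; exact mul_le_mul du x2 (abs_nonneg _) pu0'
    have y3 : |2 * c.σ * (c.F * c.F) u v| = 2 * o := by
      rw [abs_mul, abs_mul, sg_abs hK]; simp [ho]
    unfold mainT
    have := abs_add_three (2 * c.σ * (c.F * c.F) u v) (c.F v v * (rr c.F u - 1))
      (c.F u u * (rr c.F v - 1))
    linarith
  have herr : errT c.S c.F u v ≤ 2 * B := by
    have y1 : (rr c.F u + rr c.F v) / (c.S.card : ℝ) ≤ pv * ϱu + pu * ϱv := by
      rw [add_div, div_eq_mul_one_div (rr c.F u), div_eq_mul_one_div (rr c.F v), mul_comm pv,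
        mul_comm pu]
      exact add_le_add (mul_le_mul (by linarith) pv0 hi.le ϱu0)
        (mul_le_mul (by linarith) pu0 hi.le ϱv0)
    have y2 : c.F u v ^ 2 * (ϱu + ϱv) ≤ f * ϱu + f * ϱv := by
      rw [← sq_abs, ← hf, ← mul_add]
      exact mul_le_mul_of_nonneg_right (by nlinarith) (by linarith)
    have y3 : f * o ≤ o := mul_le_of_le_one_left o0 f1
    have y4 : pu ^ 2 * ϱv ≤ pu * ϱv := mul_le_mul_of_nonneg_right (by nlinarith) ϱv0
    have y5 : pv ^ 2 * ϱu ≤ pv * ϱu := mul_le_mul_of_nonneg_right (by nlinarith) ϱu0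
    unfold errT
    linarith
  have B0 : 0 ≤ B := by positivity
  have hT : |t1 (c.F' u v) - t1 c.F| ≤ (2 * C + 2) * B := by
    have h1 := mul_le_mul_of_nonneg_left herr hC0
    have h2 : t1 (c.F' u v) - t1 c.F
        = (t1 (upd c.σ c.S c.F u v) - t1 c.F - mainT c.σ c.F u v) + mainT c.σ c.F u v := by
      unfold Ctx.F'; ring
    rw [h2]
    refine le_trans (abs_add_le _ _) ?_
    nlinarith
  have h5 := sq5 o (pv * ϱu) (pu * ϱv) (f * ϱu) (f * ϱv)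
  calc (t1 (c.F' u v) - t1 c.F) ^ 2 = |t1 (c.F' u v) - t1 c.F| ^ 2 := (sq_abs _).symm
    _ ≤ ((2 * C + 2) * B) ^ 2 := pow_le_pow_left₀ (abs_nonneg _) hT 2
    _ = (2 * C + 2) ^ 2 * B ^ 2 := by ring
    _ ≤ (2 * C + 2) ^ 2 * (5 * (o ^ 2 + (pv * ϱu) ^ 2 + (pu * ϱv) ^ 2 + (f * ϱu) ^ 2
          + (f * ϱv) ^ 2)) := mul_le_mul_of_nonneg_left h5 (sq_nonneg _)
    _ = _ := by simp only [mul_pow, ho, hf, sq_abs]; ring

/-- The variance of the trace. -/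
theorem var {C : ℝ} (hC0 : 0 ≤ C) (hC : Le c.p.K ((2 * C + 2) ^ 2 * 5) (1 / 100))
    (hpt : ∀ u v, Loc c.σ c.S c.F u v →
      |t1 (upd c.σ c.S c.F u v) - t1 c.F - mainT c.σ c.F u v| ≤ C * errT c.S c.F u v) :
    Le c.p.K (∑ u, ∑ v, c.w u v * (t1 (c.F' u v) - t1 c.F) ^ 2) (c.μ + 6700 + 2 * c.ϱ - 1) := by
  have hF := c.oF.mat
  have hμ := Ctx.μ_lo hK
  have i1 := c.sum_le_crude (X := fun u v => (t1 (c.F' u v) - t1 c.F) ^ 2)
    (fun u v h => pt_var hK hC0 h (hpt u v (Ctx.loc hK h)))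
    (fun u _ v _ => by positivity)
  have e4 : ∑ u ∈ c.S, ∑ v ∈ c.S, pd c.S c.F u ^ 2 * vr c.F v ^ 2
      = (∑ a ∈ c.S, pd c.S c.F a ^ 2) * ∑ a ∈ c.S, vr c.F a ^ 2 := by rw [Finset.sum_mul_sum]
  have e5 : ∑ u ∈ c.S, ∑ v ∈ c.S, pd c.S c.F v ^ 2 * vr c.F u ^ 2
      = (∑ a ∈ c.S, pd c.S c.F a ^ 2) * ∑ a ∈ c.S, vr c.F a ^ 2 := by rw [Finset.sum_comm, e4]
  have e2 : ∑ u ∈ c.S, ∑ v ∈ c.S, c.F u v ^ 2 * (vr c.F u ^ 2 + vr c.F v ^ 2)
      ≤ 2 * (c.R * (a2 c.F + R2 c.S c.F)) := by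
    rw [sum2_ker hF (fun a => vr c.F a ^ 2), ← sum_rvr hK, Finset.mul_sum c.S _ c.R]
    refine mul_le_mul_of_nonneg_left (Finset.sum_le_sum fun a _ => ?_) (by norm_num)
    have h1 := hF.rr_nonneg a
    have h2 := c.oG.mat.rr_nonneg a
    have h3 := Ctx.ro_le hK a
    have h4 : vr c.F a ≤ c.R := by unfold vr; linarith
    have h5 : 0 ≤ rr c.F a * vr c.F a := by unfold vr; positivity
    calc rr c.F a * vr c.F a ^ 2 = vr c.F a * (rr c.F a * vr c.F a) := by ring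
      _ ≤ c.R * (rr c.F a * vr c.F a) := mul_le_mul_of_nonneg_right h4 h5
  have e3 := sum_o_sq hF
  set g := c.μ + 6700 + 2 * c.ϱ - 2 with hg
  have b1 : Le c.p.K (a4 c.F) g := by
    by_cases h1 : 6650 ≤ c.μ
    · refine (le_a4 hK).mono hK ?_
      rcases c.cases_W with ⟨h3, h4, h5⟩ | ⟨h3, h4, h5⟩ <;> linarith
    · refine (le_a4' hK).mono hK ?_
      rcases c.cases_W with ⟨h3, h4, h5⟩ | ⟨h3, h4, h5⟩ <;> linarith
  have b2 : Le c.p.K ((∑ a ∈ c.S, pd c.S c.F a ^ 2) * ∑ a ∈ c.S, vr c.F a ^ 2) g := by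
    refine ((le_P2 hK).mul hK (Ctx.le_P hK) (Finset.sum_nonneg fun a _ => sq_nonneg _)).mono hK ?_
    rcases c.cases_W with ⟨h3, h4, h5⟩ | ⟨h3, h4, h5⟩ <;> linarith
  have b3 : Le c.p.K (2 * (c.R * (a2 c.F + R2 c.S c.F))) g := by
    refine (((Ctx.sz_R hK).2.mul hK (le_rvr hK)
      (add_nonneg hF.a2_nonneg (R2_nonneg _ _))).cmul hK (by norm_num) (by norm_num)).mono hK ?_
    rcases c.cases_W with ⟨h3, h4, h5⟩ | ⟨h3, h4, h5⟩ <;> linarith
  have s1 := b1.add hK b2 le_rfl le_rfl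
  have s2 := s1.add hK b2 le_rfl (by linarith)
  have s3 := s2.add hK b3 le_rfl (by linarith)
  have s4 : Le c.p.K (∑ u ∈ c.S, ∑ v ∈ c.S, ((c.F * c.F) u v ^ 2
      + pd c.S c.F v ^ 2 * vr c.F u ^ 2 + pd c.S c.F u ^ 2 * vr c.F v ^ 2
      + c.F u v ^ 2 * (vr c.F u ^ 2 + vr c.F v ^ 2))) _ := s3.of_le (by
    simp only [Finset.sum_add_distrib]
    rw [e4, e5]; linarith)
  have s5 := (hC.mul hK s4 (Finset.sum_nonneg fun u _ => Finset.sum_nonneg fun v _ => by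
    positivity)).cmul hK (C := 11 / 10) (by norm_num) (by norm_num)
  refine (s5.mono hK (by linarith)).of_le (i1.trans (le_of_eq ?_))
  simp only [Finset.mul_sum]

end ctx

end TrT

end Crest.Agent.R62
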