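import Crest.Agent.R62.Der
import Crest.Agent.R62.PtT
import Crest.Agent.R62.TrTAux2

set_option autoImplicit false
set_option linter.unusedSectionVars false
set_option linter.unusedVariables false

open Finset Matrix

namespace Crest.Agent.R62

variable {ι V : Type} [Fintype ι] [DecidableEq ι] [Fintype V] [DecidableEq V]

namespace TrT

/-- ratio of the scales `ρ(m-2)/ρ(m) = 1 - 2b` -/
theorem rho_ratio {m W : ℝ} (hm : 1000 ≤ m) (hW : 0 < W) :
    ∃ b : ℝ, 0 ≤ b ∧ b ≤ 1 / m ∧ b ≤ W * (m / (m + W)) / m ^ 2 + 4 / m ^ 2 ∧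
      (m - 2) / (m - 2 + W) = (1 - 2 * b) * (m / (m + W)) := by
  have h0 : 0 < m := by linarith
  have h1 : 0 < m - 2 + W := by linarith
  have h2 : 0 < m + W := by linarith
  refine ⟨W / (m * (m - 2 + W)), by positivity, ?_, ?_, ?_⟩
  · rw [div_le_div_iff₀ (by positivity) h0]; nlinarith
  · have e : W * (m / (m + W)) / m ^ 2 + 4 / m ^ 2 - W / (m * (m - 2 + W))
        = (4 * (m + W) * (m - 2 + W) - 2 * W * m) / (m ^ 2 * (m + W) * (m - 2 + W)) := by
      field_simp; ring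
    have : 0 ≤ (4 * (m + W) * (m - 2 + W) - 2 * W * m) / (m ^ 2 * (m + W) * (m - 2 + W)) := by
      apply div_nonneg _ (by positivity)
      nlinarith [mul_pos h0 hW, mul_pos hW hW]
    linarith
  · field_simp; ring

section ctx
variable {c : Ctx ι} (hK : Big c.p.K)
include hK

theorem K_le_m : c.p.K ≤ c.m :=
  Le.le_of_ge hK Le.self (Ctx.ge_m hK) (by linarith [Ctx.μ_lo hK])

theorem eps_le : c.p.eps c.m ≤ 1 / c.p.K := by
  have h1 : Ge c.p.K (1 / c.p.K) (0 - 1) := Ge.div hK Ge.one Le.self hK.pos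
  exact Le.le_of_ge hK (Ctx.le_eps hK) h1 (by norm_num)

theorem K_big : (1000000 : ℝ) ≤ c.p.K := le_trans (by norm_num) hK

theorem Ω_hi : c.Ω ≤ (1 + c.p.eps c.m) * c.m ^ 2 := by
  have := (abs_le.1 c.G4).2
  linarith

theorem core {Z E : ℝ} {Δ : ι → ι → ℝ} (hZ : Z ≤ c.p.kt c.m)
    (hE : Le c.p.K E (c.μ + 3350 + c.ϱ - 4 / 5))
    (hd : 0 < Z → ∑ u, ∑ v, c.w u v * Δ u v ≤ 2 * ((a2 c.F - c.m) * Z) + E)
    (hv : Le c.p.K (∑ u, ∑ v, c.w u v * Δ u v ^ 2) (c.μ + 6700 + 2 * c.ϱ - 4 / 5)) :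
    ∑ u, ∑ v, c.w u v * (pp (Z + Δ u v) / c.p.kt (c.m - 2) ^ 2)
      ≤ c.Ω * (pp Z / c.p.kt c.m ^ 2 + c.η) := by
  have hm := m_pos hK
  have hm' : (1000 : ℝ) ≤ c.m := le_trans (by norm_num) (Ctx.m_big hK)
  have hK0 := hK.pos
  have hKb := K_big hK
  have hW : 0 < c.p.W := pow_pos hK0 _
  obtain ⟨b, b0, b1, b2, b3⟩ := rho_ratio hm' hW
  have hk' : c.p.kt (c.m - 2) = (1 - 2 * b) * c.p.kt c.m := by
    unfold Par.kt Par.rho; rw [b3]; ring
  have gk := (Ctx.sz_kt hK).1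
  have k0 := gk.pos hK
  have im : 1 / c.m ≤ 1 / 1000 := one_div_le_one_div_of_le (by norm_num) hm'
  have k'0 : 0 < c.p.kt (c.m - 2) := by rw [hk']; exact mul_pos (by linarith) k0
  have η0 := (Ctx.ge_η hK).pos hK
  have ε0 := Ctx.eps_pos hK
  have ε1 := eps_le hK
  have Ω0 := Ctx.Ω_pos hK
  have gΩ := Ctx.ge_Ωη hK
  have iK : 1 / c.p.K ≤ 1 / 1000000 := one_div_le_one_div_of_le (by norm_num) hKb
  have iK0 : 0 < 1 / c.p.K := by positivity
  set k := c.p.kt c.m with hk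
  set ε := c.p.eps c.m with hε
  set a := c.p.W * c.p.rho c.m / c.m ^ 2 with ha
  have ρ0 : 0 < c.p.rho c.m := by unfold Par.rho; positivity
  have a0 : 0 < a := by positivity
  have a1 : a ≤ 1 / c.m := by
    rw [ha, div_le_div_iff₀ (by positivity) hm]
    unfold Par.rho
    have : c.p.W * (c.m / (c.m + c.p.W)) ≤ c.m := by
      rw [← mul_div_assoc, div_le_iff₀ (by positivity)]; nlinarith
    nlinarith
  have hs := c.sq_lemma (Z := Z) (k := k) (k' := c.p.kt (c.m - 2))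
    (lam := 2 * a * (1 - 1 / c.p.K) * (1 - ε)) (β := c.η * k / 24) (Vr := c.η * k ^ 2 / 12)
    (e := 48 / (c.p.K * c.m)) (Δ := Δ) k0 k'0 hZ (div_nonneg (mul_pos η0 k0).le (by norm_num))
    ?_ ?_ ?_ (div_nonneg (by norm_num) (mul_pos hK0 hm).le)
  · refine hs.trans (mul_le_mul_of_nonneg_left (add_le_add le_rfl ?_) Ω0.le)
    have h1 : 48 / (c.p.K * c.m) ≤ c.η / 3 := by
      have hs0 : 144 ≤ √c.p.K := Real.le_sqrt_of_sq_le (by linarith)
      have hs1 : √c.p.K * √c.p.K = c.p.K := Real.mul_self_sqrt hK0.le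
      unfold Ctx.η
      rw [div_div, div_le_div_iff₀ (by positivity) (by positivity)]
      have : 144 * √c.p.K ≤ c.p.K := by nlinarith
      nlinarith
    have h2 : (2 * k * (c.η * k / 24) + c.η * k ^ 2 / 12) / c.p.kt (c.m - 2) ^ 2
        ≤ 2 * c.η / 3 := by
      rw [div_le_iff₀ (pow_pos k'0 2), hk', mul_pow]
      have h3 : 1 / 4 ≤ (1 - 2 * b) ^ 2 := by nlinarith
      have h4 : 0 < c.η * k ^ 2 := mul_pos η0 (pow_pos k0 2)
      nlinarith
    linarith
  · intro hZ0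
    have h1 := hd hZ0
    have h2 : E ≤ c.Ω * (c.η * k / 24) := by
      have := ((hE.cmul hK (C := 3) (by norm_num) (by norm_num)).cmul hK (C := 8) (by norm_num)
        (by norm_num)).le_of_ge hK (gΩ.mul hK gk) (by linarith)
      linarith
    have h3 := Ctx.a2_le hK
    have h4 : c.Ω * (2 * a * (1 - 1 / c.p.K) * (1 - ε))
        ≤ 2 * ((1 - 1 / c.p.K) * (c.p.W * c.p.rho c.m)) := by
      have h5 : c.Ω * (1 - ε) ≤ c.m ^ 2 := by
        have := mul_le_mul_of_nonneg_right (Ω_hi hK) (show 0 ≤ 1 - ε by linarith)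
        have h6 : 0 < c.m ^ 2 := by positivity
        nlinarith [mul_pos h6 (mul_pos ε0 ε0)]
      have h7 : c.p.W * c.p.rho c.m = a * c.m ^ 2 := by rw [ha]; field_simp
      rw [h7]
      have h8 : 0 ≤ 2 * a * (1 - 1 / c.p.K) := by
        have : 0 ≤ 1 - 1 / c.p.K := by linarith
        positivity
      nlinarith [mul_le_mul_of_nonneg_left h5 h8]
    have h9 := mul_le_mul_of_nonneg_right h4 hZ0.le
    have h10 := mul_le_mul_of_nonneg_right h3 hZ0.le
    nlinarith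
  · have := ((hv.cmul hK (C := 3) (by norm_num) (by norm_num)).cmul hK (C := 4) (by norm_num)
        (by norm_num)).le_of_ge hK (gΩ.mul hK (gk.pow hK 2)) (by push_cast; linarith)
    linarith
  · rw [hk', mul_pow, ← mul_assoc (1 + _)]
    refine mul_le_mul_of_nonneg_right ?_ (sq_nonneg _)
    have hKm := K_le_m hK
    set x := 1 / (c.p.K * c.m) with hx
    have x0 : 0 < x := by positivity
    have e1 : 48 / (c.p.K * c.m) = 48 * x := by rw [hx]; ring
    have h1 : 4 / c.m ^ 2 ≤ 4 * x := by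
      rw [hx, mul_one_div, div_le_div_iff₀ (by positivity) (by positivity)]
      nlinarith
    have h2 : a * (1 / c.p.K) ≤ x := by
      rw [hx, mul_comm c.p.K, ← one_div_mul_one_div]
      exact mul_le_mul_of_nonneg_right a1 iK0.le
    have h3 : a * ε ≤ x := (mul_le_mul_of_nonneg_left ε1 a0.le).trans h2
    have h4 : b ≤ a + 4 * x := by
      have : c.p.W * (c.m / (c.m + c.p.W)) / c.m ^ 2 = a := rfl
      linarith
    rw [e1]
    have h5 : 1 - 4 * b ≤ (1 - 2 * b) ^ 2 := by nlinarith only [sq_nonneg b]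
    have h6 : 1 / 2 ≤ (1 - 2 * b) ^ 2 := by linarith
    have h7 : 0 ≤ a * (1 / c.p.K) * ε := (mul_pos (mul_pos a0 iK0) ε0).le
    have h8 := mul_le_mul_of_nonneg_left h6 x0.le
    have e2 : 1 - 2 * (2 * a * (1 - 1 / c.p.K) * (1 - ε))
        = 1 - 4 * a + 4 * (a * (1 / c.p.K)) + 4 * (a * ε) - 4 * (a * (1 / c.p.K) * ε) := by ring
    have e3 : (1 + 48 * x) * (1 - 2 * b) ^ 2 = (1 - 2 * b) ^ 2 + 48 * (x * (1 - 2 * b) ^ 2) := by
      ring
    rw [e2, e3]
    linarith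

/-- the decrease of the barrier `tst` -/
theorem tst_step : 0 ≤ c.p.tst c.m - c.p.tst (c.m - 2) ∧
    c.p.tst c.m - c.p.tst (c.m - 2) ≤ c.p.gam * c.p.a / (c.m * (c.m - 2)) := by
  have hm' : (1000 : ℝ) ≤ c.m := le_trans (by norm_num) (Ctx.m_big hK)
  have hK0 := hK.pos
  have hN : 0 < c.p.N := lt_of_lt_of_le (by positivity) c.ok.N1
  have ha : 0 < c.p.a := by linarith [c.ok.a1]
  have h1 : 0 < c.m - 2 := by linarith
  have h2 : 0 < c.m := by linarith
  have e : c.p.K ^ 600 * c.p.a / 2 * (1 / c.p.K ^ 7195 - 1 / c.m)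
      = c.p.K ^ 600 * c.p.a / 2 * (1 / c.p.K ^ 7195 - 1 / (c.m - 2))
        + c.p.gam * c.p.a / (c.m * (c.m - 2)) := by
    unfold Par.gam
    generalize c.p.K ^ 600 = x
    generalize 1 / c.p.K ^ 7195 = y
    field_simp; ring
  have h3 : 0 ≤ c.p.gam * c.p.a / (c.m * (c.m - 2)) := by
    exact div_nonneg (mul_pos (gam_pos hK) ha).le (mul_pos h2 h1).le
  unfold Par.tst
  rw [e]
  generalize c.p.K ^ 600 * c.p.a / 2 * (1 / c.p.K ^ 7195 - 1 / (c.m - 2)) = y
  generalize c.p.gam * c.p.a / (c.m * (c.m - 2)) = z at h3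
  constructor
  · have := max_le_max (le_refl (0 : ℝ)) (show y ≤ y + z by linarith)
    linarith
  · have : max 0 (y + z) ≤ max 0 y + z :=
      max_le (by linarith [le_max_left 0 y]) (by linarith [le_max_right 0 y])
    linarith

theorem tst_nonneg (x : ℝ) : 0 ≤ c.p.tst x := le_max_left _ _

theorem tst_off (h : ¬ c.p.phI c.m) : c.p.tst c.m - c.p.tst (c.m - 2) = 0 := by
  have h1 := (tst_step hK).1
  have h2 := Ctx.tst_eq hK h
  have h3 := tst_nonneg hK (c.m - 2)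
  linarith

theorem tst_drift (h : c.p.phI c.m) :
    c.Ω * (c.p.tst c.m - c.p.tst (c.m - 2)) ≤ 2 * (c.p.gam * a3 c.F) := by
  have hm' : (1000 : ℝ) ≤ c.m := le_trans (by norm_num) (Ctx.m_big hK)
  have hK0 := hK.pos
  have hKb := K_big hK
  have hN : 0 < c.p.N := lt_of_lt_of_le (by positivity) c.ok.N1
  have ha : 0 < c.p.a := by linarith [c.ok.a1]
  have g0 := gam_pos hK
  have h1 : 0 < c.m - 2 := by linarith
  have h2 : 0 < c.m := by linarith
  have ε1 : c.p.eps c.m ≤ 1 / 1000000 :=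
    (eps_le hK).trans (one_div_le_one_div_of_le (by norm_num) hKb)
  have h3 : c.Ω ≤ 3 / 2 * (c.m * (c.m - 2)) := by
    have := Ω_hi hK
    nlinarith [mul_le_mul_of_nonneg_right ε1 (sq_nonneg c.m)]
  have h4 : c.p.k3 ≤ c.p.a / 4 := by
    unfold Par.k3
    rw [div_le_iff₀ hK0]
    nlinarith [c.ok.a1]
  have h5 := c.oF.a3_I h
  calc c.Ω * (c.p.tst c.m - c.p.tst (c.m - 2))
      ≤ 3 / 2 * (c.m * (c.m - 2)) * (c.p.gam * c.p.a / (c.m * (c.m - 2))) :=
        mul_le_mul h3 (tst_step hK).2 (tst_step hK).1 (by positivity)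
    _ = 2 * (c.p.gam * (3 / 4 * c.p.a)) := by field_simp; ring
    _ ≤ 2 * (c.p.gam * a3 c.F) := by
        refine mul_le_mul_of_nonneg_left (mul_le_mul_of_nonneg_left ?_ g0.le) (by norm_num)
        linarith

theorem tst_var : Le c.p.K (c.Ω * (c.p.tst c.m - c.p.tst (c.m - 2)) ^ 2)
    (c.μ + 6700 + 2 * c.ϱ - 1) := by
  by_cases h : c.p.phI c.m
  swap
  · rw [tst_off hK h]; simpa using Le.zero hK
  have hμ := (Ctx.phI_iff hK).1 h
  have hϱ : c.ϱ = 0 := by rcases c.cases_W with ⟨h3, h4, h5⟩ | ⟨h3, h4, h5⟩ <;> linarith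
  have hm' : (1000 : ℝ) ≤ c.m := le_trans (by norm_num) (Ctx.m_big hK)
  have hK0 := hK.pos
  have hKb := K_big hK
  have hN : 0 < c.p.N := lt_of_lt_of_le (by positivity) c.ok.N1
  have ha : 0 < c.p.a := by linarith [c.ok.a1]
  have g0 := gam_pos hK
  have h1 : 0 < c.m - 2 := by linarith
  have h2 : 0 < c.m := by linarith
  have ε1 : c.p.eps c.m ≤ 1 / 1000000 :=
    (eps_le hK).trans (one_div_le_one_div_of_le (by norm_num) hKb)
  have h3 : c.Ω ≤ 2 * c.m ^ 2 := by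
    have := Ω_hi hK
    nlinarith [mul_le_mul_of_nonneg_right ε1 (sq_nonneg c.m)]
  have h4 : c.p.tst c.m - c.p.tst (c.m - 2) ≤ 2 * (c.p.gam * c.p.a / c.m ^ 2) := by
    refine (tst_step hK).2.trans ?_
    rw [← mul_div_assoc, div_le_div_iff₀ (by positivity) (by positivity)]
    have : 0 < c.p.gam * c.p.a := by positivity
    nlinarith [mul_le_mul_of_nonneg_left (show c.m ^ 2 ≤ 2 * (c.m * (c.m - 2)) by nlinarith)
      this.le]
  have la : Le c.p.K c.p.a (1 + (10000 + 1 / 100)) :=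
    (Le.mul hK Le.self (Ctx.sz_N hK).2 hN.le).of_le c.ok.a2
  have l1 := ((((le_gam hK).mul hK la ha.le).div hK ((Ctx.ge_m hK).pow hK 2)).cmul hK (C := 2)
    (by norm_num) (by norm_num)).of_le h4
  have l2 := (((Ctx.le_m hK).pow hK h2.le 2).cmul hK (C := 2) (by norm_num) (by norm_num)).of_le h3
  refine (l2.mul hK (l1.pow hK (tst_step hK).1 2) (sq_nonneg _)).mono hK ?_
  push_cast; linarith

end ctx

end TrT

open TrT in
theorem trT : TrOne (fun p m => True) (fun _ _ _ p S F => pT p S F) := by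
  obtain ⟨C, hC0, hpt⟩ := ptT
  obtain ⟨K1, hK1⟩ := exists_const ((2 * C + 2) ^ 2 * 5) (1 / 100) (by norm_num)
  refine ⟨K1, fun ι _ _ c hK _ hP => ?_⟩
  obtain ⟨hK, hC⟩ := hK1 _ hK
  have hC' : Le c.p.K C (1 / 100) := hC.of_le (by nlinarith)
  have k0 := (Ctx.sz_kt hK).1.pos hK
  have hd := drift hK hC0 hC' (fun u v h => hpt ι _ _ _ u v h)
  have hv := var hK hC0 hC (fun u v h => hpt ι _ _ _ u v h)
  set δ := c.p.tst c.m - c.p.tst (c.m - 2) with hδ
  have hc := core hK (Z := t1 c.F - c.p.tst c.m) (Δ := fun u v => t1 (c.F' u v) - t1 c.F + δ)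
    (le_of_pp_div_le k0 hP) (hd.mono hK (by linarith)) ?_ ?_
  · refine le_trans (c.sum_le_sum' fun u v h => le_of_eq ?_) hc
    simp only [pT]
    rw [Ctx.card_rem' hK h]
    congr 2
    rw [hδ]; ring
  · intro hZ
    have t0 := tst_nonneg hK c.m
    have tp : 0 < t1 c.F := by linarith
    have e : ∑ u, ∑ v, c.w u v * (t1 (c.F' u v) - t1 c.F + δ)
        = ∑ u, ∑ v, c.w u v * (t1 (c.F' u v) - t1 c.F) + c.Ω * δ := by
      simp only [Ctx.Ω, mul_add, Finset.sum_add_distrib, Finset.sum_mul]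
    have h1 : c.Ω * δ ≤ 2 * (if c.p.phI c.m then c.p.gam * (io c.F * a3 c.F) else 0) := by
      split_ifs with h
      · rw [io, if_pos tp, one_mul]; exact tst_drift hK h
      · rw [hδ, tst_off hK h]; simp
    have h2 := Ctx.a2_le_m hK
    have h3 := le_abs_self (∑ u, ∑ v, c.w u v * (t1 (c.F' u v) - t1 c.F)
      - 2 * ((a2 c.F - c.m) * t1 c.F)
      + 2 * (if c.p.phI c.m then c.p.gam * (io c.F * a3 c.F) else 0))
    rw [e]
    nlinarith [mul_nonneg (sub_nonneg.2 h2) t0]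
  · have s := ((hv.add hK (tst_var hK) le_rfl le_rfl).cmul hK (C := 2) (by norm_num)
      (by norm_num))
    refine (s.mono hK (by linarith)).of_le ?_
    have h1 := c.sum_le_sum' (X := fun u v => (t1 (c.F' u v) - t1 c.F + δ) ^ 2)
      (Y := fun u v => 2 * ((t1 (c.F' u v) - t1 c.F) ^ 2 + δ ^ 2))
      (fun u v _ => by nlinarith [sq_nonneg (t1 (c.F' u v) - t1 c.F - δ)])
    refine h1.trans (le_of_eq ?_)
    simp only [Ctx.Ω, Finset.mul_sum, Finset.sum_mul, ← Finset.sum_add_distrib, ← hδ]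
    exact Finset.sum_congr rfl fun u _ => Finset.sum_congr rfl fun v _ => by ring

open TrT in
theorem trT' : TrOne (fun p m => True) (fun _ _ _ p S F => pT' p S F) := by
  obtain ⟨C, hC0, hpt⟩ := ptT
  obtain ⟨K1, hK1⟩ := exists_const ((2 * C + 2) ^ 2 * 5) (1 / 100) (by norm_num)
  refine ⟨K1, fun ι _ _ c hK _ hP => ?_⟩
  obtain ⟨hK, hC⟩ := hK1 _ hK
  have hC' : Le c.p.K C (1 / 100) := hC.of_le (by nlinarith)
  have k0 := (Ctx.sz_kt hK).1.pos hK
  have hd := drift hK hC0 hC' (fun u v h => hpt ι _ _ _ u v h)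
  have hv := var hK hC0 hC (fun u v h => hpt ι _ _ _ u v h)
  have hc := core hK (Z := -t1 c.F) (Δ := fun u v => -(t1 (c.F' u v) - t1 c.F))
    (le_of_pp_div_le k0 hP) (hd.mono hK (by linarith)) ?_ ?_
  · refine le_trans (c.sum_le_sum' fun u v h => le_of_eq ?_) hc
    simp only [pT']
    rw [Ctx.card_rem' hK h]
    congr 2
    ring
  · intro hZ
    have tp : ¬ 0 < t1 c.F := by linarith
    have e : ∑ u, ∑ v, c.w u v * -(t1 (c.F' u v) - t1 c.F)
        = -∑ u, ∑ v, c.w u v * (t1 (c.F' u v) - t1 c.F) := by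
      simp only [mul_neg, Finset.sum_neg_distrib]
    have h1 : (if c.p.phI c.m then c.p.gam * (io c.F * a3 c.F) else 0) = 0 := by
      rw [io, if_neg tp]; simp
    have h3 := neg_le_abs (∑ u, ∑ v, c.w u v * (t1 (c.F' u v) - t1 c.F)
      - 2 * ((a2 c.F - c.m) * t1 c.F)
      + 2 * (if c.p.phI c.m then c.p.gam * (io c.F * a3 c.F) else 0))
    rw [e]
    linarith
  · simp only [neg_sq]
    exact hv.mono hK (by linarith)

end Crest.Agent.R62
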