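import Crest.Agent.R62.Der
import Crest.Agent.R62.PtT

set_option autoImplicit false
set_option linter.unusedSectionVars false

open Finset Matrix

namespace Crest.Agent.R62

variable {ι : Type} [Fintype ι] [DecidableEq ι]

namespace TrT

section mat
variable {S : Finset ι} {F G : Matrix ι ι ℝ}

theorem sum_S_sq (h : Mat S F) (u : ι) : ∑ v ∈ S, F u v ^ 2 = rr F u := by
  rw [h.rr_eq]
  exact Finset.sum_subset (subset_univ _) (fun v _ hv => by rw [h.supp' u v hv]; ring)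

theorem sum_S_sq' (h : Mat S F) (v : ι) : ∑ u ∈ S, F u v ^ 2 = rr F v := by
  rw [← sum_S_sq h v]
  exact Finset.sum_congr rfl fun u _ => by rw [h.symm u v]

theorem sum2_sq (h : Mat S F) : ∑ u ∈ S, ∑ v ∈ S, F u v ^ 2 = a2 F := by
  rw [h.a2_eq]
  exact Finset.sum_congr rfl fun u _ => sum_S_sq h u

theorem sum_o_sq (h : Mat S F) : ∑ u ∈ S, ∑ v ∈ S, (F * F) u v ^ 2 ≤ a4 F := by
  calc ∑ u ∈ S, ∑ v ∈ S, (F * F) u v ^ 2 ≤ ∑ u ∈ S, ∑ v, (F * F) u v ^ 2 :=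
        Finset.sum_le_sum fun u _ =>
          Finset.sum_le_sum_of_subset_of_nonneg (subset_univ _) fun v _ _ => sq_nonneg _
    _ ≤ ∑ u, ∑ v, (F * F) u v ^ 2 :=
        Finset.sum_le_sum_of_subset_of_nonneg (subset_univ _) fun u _ _ =>
          Finset.sum_nonneg fun v _ => sq_nonneg _
    _ = ((F * F) * (F * F)ᵀ).trace := sum_sq_eq_trace _
    _ = a4 F := by rw [transpose_mul, h.transpose]; unfold a4; simp only [Matrix.mul_assoc]

theorem o_sq_le (h : Mat S F) (u v : ι) : (F * F) u v ^ 2 ≤ rr F u * rr F v := by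
  have := entry_sq_le F F u v
  rwa [h.transpose] at this

theorem o_le (h : Mat S F) (u v : ι) : |(F * F) u v| ≤ (rr F u + rr F v) / 2 := by
  have h1 := o_sq_le h u v
  have h2 := h.rr_nonneg u
  have h3 := h.rr_nonneg v
  refine abs_le_of_sq_le_sq' ?_ (by positivity) |> abs_le.2
  nlinarith [sq_nonneg (rr F u - rr F v)]

/-- `Σ G_uv² (g_u + g_v) = 2 Σ r^G g` -/
theorem sum2_ker (h : Mat S G) (g : ι → ℝ) :
    ∑ u ∈ S, ∑ v ∈ S, G u v ^ 2 * (g u + g v) = 2 * ∑ a ∈ S, rr G a * g a := by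
  have e1 : ∑ u ∈ S, ∑ v ∈ S, G u v ^ 2 * g u = ∑ a ∈ S, rr G a * g a :=
    Finset.sum_congr rfl fun u _ => by rw [← Finset.sum_mul, sum_S_sq h u]
  have e2 : ∑ u ∈ S, ∑ v ∈ S, G u v ^ 2 * g v = ∑ a ∈ S, rr G a * g a := by
    rw [Finset.sum_comm]
    exact Finset.sum_congr rfl fun v _ => by rw [← Finset.sum_mul, sum_S_sq' h v]
  simp only [mul_add, Finset.sum_add_distrib]
  rw [e1, e2]; ring

theorem sum2_ker_o (hF : Mat S F) (hG : Mat S G) :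
    ∑ u ∈ S, ∑ v ∈ S, G u v ^ 2 * |(F * F) u v| ≤ (R2 S F + R2 S G) / 2 := by
  calc ∑ u ∈ S, ∑ v ∈ S, G u v ^ 2 * |(F * F) u v|
      ≤ ∑ u ∈ S, ∑ v ∈ S, G u v ^ 2 * (rr F u / 2 + rr F v / 2) :=
        Finset.sum_le_sum fun u _ => Finset.sum_le_sum fun v _ =>
          mul_le_mul_of_nonneg_left (by have := o_le hF u v; linarith) (sq_nonneg _)
    _ = 2 * ∑ a ∈ S, rr G a * (rr F a / 2) := sum2_ker hG fun a => rr F a / 2
    _ ≤ (R2 S F + R2 S G) / 2 := by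
        unfold R2
        rw [← Finset.sum_add_distrib, Finset.mul_sum, Finset.sum_div]
        exact Finset.sum_le_sum fun a _ => by nlinarith [sq_nonneg (rr F a - rr G a)]

/-- `Σ_uv M_uv (F²)_uv = tr (F F M)` for symmetric `M` supported on `S` -/
theorem sum2_mul_o (hF : Mat S F) (hG : Mat S G) :
    ∑ u ∈ S, ∑ v ∈ S, G u v * (F * F) u v = (F * F * G).trace := by
  rw [Matrix.mul_assoc, hF.trace_mul, ← Matrix.mul_assoc]
  refine Finset.sum_congr rfl fun u _ => ?_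
  rw [Matrix.mul_apply (M := F * F)]
  rw [← Finset.sum_subset (subset_univ S) (fun v _ hv => by rw [hG.supp v u hv]; ring)]
  exact Finset.sum_congr rfl fun v _ => by rw [hG.symm u v]; ring

theorem sum2_o (hF : Mat S F) : ∑ u ∈ S, ∑ v ∈ S, (F * F) u v = 0 := by
  have := hF.sum_sum_mul hF 1
  rwa [Matrix.mul_one] at this

theorem abs_sum_diag_le (S : Finset ι) (F G : Matrix ι ι ℝ) :
    |∑ a ∈ S, G a a * (F * F) a a| ≤ √(D2 S G) * √(R2 S F) := by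
  refine le_trans (Finset.abs_sum_le_sum_abs _ _) ?_
  simp only [abs_mul]
  exact sum_mul_le_sqrt S (fun a => G a a) (fun a => (F * F) a a)

theorem R2_nonneg (S : Finset ι) (F : Matrix ι ι ℝ) : 0 ≤ R2 S F :=
  Finset.sum_nonneg fun _ _ => sq_nonneg _
theorem D2_nonneg (S : Finset ι) (F : Matrix ι ι ℝ) : 0 ≤ D2 S F :=
  Finset.sum_nonneg fun _ _ => sq_nonneg _
theorem X2_nonneg (S : Finset ι) (F : Matrix ι ι ℝ) : 0 ≤ X2 S F :=
  Finset.sum_nonneg fun _ _ => sq_nonneg _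
end mat

section ctx
variable {c : Ctx ι} (hK : Big c.p.K)
include hK

theorem m_pos : 0 < c.m := lt_of_lt_of_le (by norm_num) (Ctx.m_big hK)

theorem le_a2 : Le c.p.K (a2 c.F) (1 + c.μ + c.ϱ + 1 / 100) :=
  (Ctx.sz_T2 hK).2.of_le c.oF.a2_T

theorem le_a4 : Le c.p.K (a4 c.F) (c.τ + 1 / 100) :=
  (Ctx.sz_T4 hK).2.of_le c.oF.a4_T

theorem le_a4' : Le c.p.K (a4 c.F) (2 * (1 + c.μ + c.ϱ + 1 / 100)) := by
  have := (le_a2 hK).pow hK c.oF.mat.a2_nonneg 2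
  exact (by exact_mod_cast this : Le c.p.K (a2 c.F ^ 2) _).of_le c.oF.mat.a4_le_sq

theorem le_D2 : Le c.p.K (D2 c.S c.F) (450 + c.ϱ + 1 / 100) :=
  (Ctx.sz_TD hK).2.of_le c.oF.D2_T

theorem le_R2 : Le c.p.K (R2 c.S c.F) (c.μ + c.ϱ + 13 + 1 / 100) := by
  by_cases h : c.p.phX c.m
  · have h1 := ((Ctx.le_m hK).cmul hK (C := 4) (by norm_num) (by norm_num)).of_le
      (Ctx.R2_le_X hK h)
    have h2 := (Ctx.phX_iff hK).1 h
    refine h1.mono hK ?_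
    rcases c.cases_W with ⟨h3, h4, -⟩ | ⟨h3, h4, -⟩ <;> linarith
  · have h1 := (Ctx.sz_TR hK).2.of_le (c.oF.R2_T h)
    refine h1.mono hK ?_
    rcases c.cases_W with ⟨h3, h4, -⟩ | ⟨h3, h4, -⟩ <;> linarith

theorem le_P2 : Le c.p.K (∑ a ∈ c.S, pd c.S c.F a ^ 2) (450 + c.ϱ + 1 / 50) := by
  have := ((Ctx.sz_TD hK).2.cmul hK (C := 4) (by norm_num) (by norm_num)).of_le (Ctx.P2_le hK)
  exact this.mono hK (by linarith)

/-- the product term `D_v x_u` -/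
theorem errA1 : Le c.p.K (c.p.eps c.m * c.m * (√(X2 c.S c.F) * √(D2 c.S c.F)))
    (c.μ + 3350 + c.ϱ - 1) := by
  have hm := m_pos hK
  have hD := (le_D2 hK).sqrt hK
  have he := (Ctx.le_eps hK).mul hK (Ctx.le_m hK) hm.le
  by_cases h : c.p.phX c.m
  · have hX := ((Ctx.sz_TX hK).2.of_le (c.oF.X2_T h)).sqrt hK
    have h2 := (Ctx.phX_iff hK).1 h
    refine (he.mul hK (hX.mul hK hD (Real.sqrt_nonneg _)) (by positivity)).mono hK ?_
    rcases c.cases_W with ⟨h3, h4, -⟩ | ⟨h3, h4, -⟩ <;> linarith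
  · have hX := (Ctx.le_X2 hK).sqrt hK
    have h2 := not_lt.1 (mt (Ctx.phX_iff hK).2 h)
    refine (he.mul hK (hX.mul hK hD (Real.sqrt_nonneg _)) (by positivity)).mono hK ?_
    rcases c.cases_W with ⟨h3, h4, -⟩ | ⟨h3, h4, -⟩ <;> linarith

theorem driftA1 :
    Le c.p.K |∑ u, ∑ v, c.w u v * ((rr c.F u - 1) * c.F v v) - (a2 c.F - c.m) * t1 c.F|
      (c.μ + 3350 + c.ϱ - 1) := by
  have h := c.G5 (fun u => rr c.F u - 1) (fun v => c.F v v)
  have e1 : ∑ u ∈ c.S, (rr c.F u - 1) = a2 c.F - c.m := by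
    rw [Finset.sum_sub_distrib, ← c.oF.mat.a2_eq]; simp [Ctx.m]
  rw [e1, ← c.oF.mat.t1_eq] at h
  exact (errA1 hK).of_le h

/-- `√a4` against the Frobenius sum -/
theorem sqrt_o_le : √(∑ u ∈ c.S, ∑ v ∈ c.S, (c.F * c.F) u v ^ 2) ≤ √(a4 c.F) :=
  Real.sqrt_le_sqrt (sum_o_sq c.oF.mat)

theorem driftA2_off (h : ¬ c.p.phI c.m) :
    Le c.p.K |∑ u, ∑ v, c.w u v * (c.F * c.F) u v| (c.μ + 3350 + c.ϱ - 2) := by
  have hm := m_pos hK
  have h7 := c.G7 (fun u v => (c.F * c.F) u v) (sum2_o c.oF.mat)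
  have e1 : ∑ u ∈ c.S, (c.F * c.F) u u = a2 c.F := (c.oF.mat.a2_eq).symm
  rw [e1] at h7
  have hG := ((Ctx.le_Gam2 hK h).mul hK (Ctx.le_m hK) hm.le).sqrt hK
  have hμ := not_lt.1 (mt (Ctx.phI_iff hK).2 h)
  have hb : Le c.p.K (√(c.p.Gam2 c.m * c.m) * √(a4 c.F)) (c.μ + 3350 + c.ϱ - 3) := by
    by_cases h1 : 6650 ≤ c.μ
    · refine (hG.mul hK ((le_a4 hK).sqrt hK) (Real.sqrt_nonneg _)).mono hK ?_
      rcases c.cases_W with ⟨h3, h4, h5⟩ | ⟨h3, h4, h5⟩ <;> linarith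
    · refine (hG.mul hK ((le_a4' hK).sqrt hK) (Real.sqrt_nonneg _)).mono hK ?_
      rcases c.cases_W with ⟨h3, h4, h5⟩ | ⟨h3, h4, h5⟩ <;> linarith
  have hs := (hb.add hK (le_a2 hK) (g := c.μ + 3350 + c.ϱ - 3) le_rfl (by linarith))
  refine (hs.mono hK (by linarith)).of_le ?_
  have h8 : √(c.p.Gam2 c.m * c.m) * √(∑ u ∈ c.S, ∑ v ∈ c.S, (c.F * c.F) u v ^ 2)
      ≤ √(c.p.Gam2 c.m * c.m) * √(a4 c.F) :=
    mul_le_mul_of_nonneg_left (sqrt_o_le hK) (Real.sqrt_nonneg _)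
  have h9 := c.oF.mat.a2_nonneg
  rw [abs_le] at h7 ⊢
  constructor <;> linarith [h7.1, h7.2]

theorem io_abs (F : Matrix ι ι ℝ) : |io F| ≤ 1 := by
  unfold io; split_ifs <;> simp

theorem sg_abs : |c.σ| = 1 := by rcases c.sg with h | h <;> simp [h]
theorem sg_sq : c.σ * c.σ = 1 := by rcases c.sg with h | h <;> simp [h]

theorem le_gam : Le c.p.K c.p.gam 600 := by
  have := Le.K_pow (K := c.p.K) 600
  exact_mod_cast this
theorem gam_pos : 0 < c.p.gam := pow_pos hK.pos _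

theorem driftA2_I (h : c.p.phI c.m) :
    Le c.p.K |c.σ * ∑ u, ∑ v, c.w u v * (c.F * c.F) u v + c.p.gam * (io c.F * a3 c.F)|
      (c.μ + 3350 + c.ϱ - 2) := by
  have hm := m_pos hK
  have hμ := (Ctx.phI_iff hK).1 h
  have hX : c.p.phX c.m := (Ctx.phX_iff hK).2 (by linarith)
  have hϱ : c.ϱ = 0 := by rcases c.cases_W with ⟨h3, h4, h5⟩ | ⟨h3, h4, h5⟩ <;> linarith
  have hτ : c.τ = 20004 - c.μ := by
    rcases c.cases_W with ⟨h3, h4, h5⟩ | ⟨h3, h4, h5⟩ <;> linarith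
  have hF := c.oF.mat
  have hG := c.oG.mat
  have h8 := c.G8 h (fun u v => (c.F * c.F) u v) (sum2_o hF)
  have e1 : ∑ u ∈ c.S, (c.F * c.F) u u = a2 c.F := (hF.a2_eq).symm
  have e2 : ∑ u ∈ c.S, ∑ v ∈ c.S, xi c.σ c.F c.G u v * (c.F * c.F) u v
      = c.σ * (io c.F * a3 c.F - io c.G * (c.F * c.F * c.G).trace) := by
    rw [← sum2_mul_o hF hG, a3, ← sum2_mul_o hF hF]
    simp only [xi, Finset.mul_sum, ← Finset.sum_sub_distrib]
    exact Finset.sum_congr rfl fun u _ => Finset.sum_congr rfl fun v _ => by ring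
  have e3 : ∑ u ∈ c.S, xi c.σ c.F c.G u u * (c.F * c.F) u u
      = c.σ * (io c.F * ∑ a ∈ c.S, c.F a a * (c.F * c.F) a a
          - io c.G * ∑ a ∈ c.S, c.G a a * (c.F * c.F) a a) := by
    simp only [xi, Finset.mul_sum, ← Finset.sum_sub_distrib]
    exact Finset.sum_congr rfl fun u _ => by ring
  rw [e1, e2, e3] at h8
  -- sizes
  have hg := le_gam hK
  have hg0 := gam_pos hK
  have hR : Le c.p.K (R2 c.S c.F) (c.μ + c.ϱ + 13 + 1 / 100) := le_R2 hK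
  have hRG : Le c.p.K (R2 c.S c.G) (c.μ + c.ϱ + 13 + 1 / 100) := le_R2 (c := c.swap) hK
  have hD : Le c.p.K (D2 c.S c.F) (450 + c.ϱ + 1 / 100) := le_D2 hK
  have hDG : Le c.p.K (D2 c.S c.G) (450 + c.ϱ + 1 / 100) := le_D2 (c := c.swap) hK
  set g := c.μ + 3350 - 3 with hgdef
  have b1 : Le c.p.K (a2 c.F) g := (le_a2 hK).mono hK (by linarith)
  have b2 : Le c.p.K (c.p.gam * |(c.F * c.F * c.G).trace|) g := by
    have h1 : |(c.F * c.F * c.G).trace| ≤ √(a2 c.F * c22 c.F c.G) :=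
      Real.abs_le_sqrt (hF.c21_sq_le hG)
    have h2 : Le c.p.K (a2 c.F) c.μ := (Ctx.le_m hK).of_le (Ctx.a2_le_m hK)
    have h3 := ((h2.mul hK ((Ctx.sz_T22 hK).2.of_le (c.two.c22_T h))
      (hF.c22_nonneg hG)).sqrt hK).of_le h1
    refine (hg.mul hK h3 (abs_nonneg _)).mono hK ?_
    rcases le_total 10004 (19860 - c.μ) with h4 | h4
    · rw [max_eq_right h4]; linarith
    · rw [max_eq_left h4]; linarith
  have b3 : Le c.p.K (c.p.gam * |∑ a ∈ c.S, c.F a a * (c.F * c.F) a a|) g := by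
    have h3 := ((hD.sqrt hK).mul hK (hR.sqrt hK) (Real.sqrt_nonneg _)).of_le
      (abs_sum_diag_le c.S c.F c.F)
    exact (hg.mul hK h3 (abs_nonneg _)).mono hK (by linarith)
  have b4 : Le c.p.K (c.p.gam * |∑ a ∈ c.S, c.G a a * (c.F * c.F) a a|) g := by
    have h3 := ((hDG.sqrt hK).mul hK (hR.sqrt hK) (Real.sqrt_nonneg _)).of_le
      (abs_sum_diag_le c.S c.F c.G)
    exact (hg.mul hK h3 (abs_nonneg _)).mono hK (by linarith)
  have b5 : Le c.p.K (1000 * c.p.gam ^ 2 *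
      ∑ u ∈ c.S, ∑ v ∈ c.S, (c.F u v ^ 2 + c.G u v ^ 2) * |(c.F * c.F) u v|) g := by
    have h1 : ∑ u ∈ c.S, ∑ v ∈ c.S, (c.F u v ^ 2 + c.G u v ^ 2) * |(c.F * c.F) u v|
        ≤ 2 * (R2 c.S c.F + R2 c.S c.G) := by
      simp only [add_mul, Finset.sum_add_distrib]
      have := sum2_ker_o hF hF
      have := sum2_ker_o hF hG
      have := R2_nonneg c.S c.F
      have := R2_nonneg c.S c.G
      linarith
    have h2 := ((hR.add hK hRG le_rfl le_rfl).cmul hK (C := 2) (by norm_num) (by norm_num)).of_le h1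
    have h3 : Le c.p.K (c.p.gam ^ 2) (2 * 600) := by exact_mod_cast hg.pow hK hg0.le 2
    have h4 := (((h3.cmul hK (C := 10) (by norm_num) le_rfl).cmul hK (C := 10) (by norm_num)
      le_rfl).cmul hK (C := 10) (by norm_num) le_rfl).mul hK h2
      (Finset.sum_nonneg fun u _ => Finset.sum_nonneg fun v _ => by positivity)
    refine (h4.mono hK (by linarith)).of_le (le_of_eq ?_)
    ring
  have b6 : Le c.p.K (√(c.p.K ^ 35 * c.m) *
      √(∑ u ∈ c.S, ∑ v ∈ c.S, (c.F * c.F) u v ^ 2)) g := by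
    have h1 : Le c.p.K (c.p.K ^ 35) 35 := by exact_mod_cast Le.K_pow (K := c.p.K) 35
    have h2 := ((h1.mul hK (Ctx.le_m hK) hm.le).sqrt hK).mul hK
      (((le_a4 hK).sqrt hK).of_le (sqrt_o_le hK)) (Real.sqrt_nonneg _)
    exact h2.mono hK (by linarith)
  have s1 := b1.add hK b2 le_rfl le_rfl
  have s2 := s1.add hK b3 le_rfl (by linarith)
  have s3 := s2.add hK b4 le_rfl (by linarith)
  have s4 := s3.add hK b5 le_rfl (by linarith)
  have s5 := s4.add hK b6 le_rfl (by linarith)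
  refine (s5.mono hK (by linarith)).of_le ?_
  set A := ∑ u, ∑ v, c.w u v * (c.F * c.F) u v
  set t21 := (c.F * c.F * c.G).trace
  set d1 := ∑ a ∈ c.S, c.F a a * (c.F * c.F) a a
  set d2 := ∑ a ∈ c.S, c.G a a * (c.F * c.F) a a
  have hσ := sg_sq hK
  have hσ' := sg_abs hK
  have key : c.σ * A + c.p.gam * (io c.F * a3 c.F)
      = c.σ * (A + a2 c.F + c.p.gam * (c.σ * (io c.F * a3 c.F - io c.G * t21)
          - c.σ * (io c.F * d1 - io c.G * d2))) - c.σ * a2 c.F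
        + c.p.gam * (io c.G * t21) + c.p.gam * (io c.F * d1) - c.p.gam * (io c.G * d2) := by
    linear_combination (-(c.p.gam * (io c.F * a3 c.F - io c.G * t21 - io c.F * d1
      + io c.G * d2))) * hσ
  rw [key]
  have i1 := io_abs hK c.F
  have i2 := io_abs hK c.G
  have q : ∀ x y : ℝ, |x| ≤ 1 → |c.p.gam * (x * y)| ≤ c.p.gam * |y| := fun x y hx => by
    rw [abs_mul, abs_mul, abs_of_pos hg0]
    exact mul_le_mul_of_nonneg_left (mul_le_of_le_one_left (abs_nonneg _) hx) hg0.le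
  have q1 := abs_le.1 (q _ t21 i2)
  have q2 := abs_le.1 (q _ d1 i1)
  have q3 := abs_le.1 (q _ d2 i2)
  have q4 : |c.σ * a2 c.F| ≤ a2 c.F := by
    rw [abs_mul, hσ', one_mul, abs_of_nonneg hF.a2_nonneg]
  have q5 := abs_le.1 q4
  rw [← one_mul |A + _ + _|, ← hσ', ← abs_mul] at h8
  have q6 := abs_le.1 h8
  rw [abs_le]
  constructor <;> linarith [q1.1, q1.2, q2.1, q2.2, q3.1, q3.2, q5.1, q5.2, q6.1, q6.2]

end ctx

end TrT

end Crest.Agent.R62
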