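import Crest.Agent.R62.Der
import Crest.Agent.R62.Pt5

/-! Shared per-`a` estimates for the trackers of `r_a` (TrX, TrR, TrR4). -/

set_option autoImplicit false

open Finset Matrix

namespace Crest.Agent.R62

variable {ι : Type} [Fintype ι] [DecidableEq ι]

/-- `c_a = (F⁴)_aa` -/
noncomputable def cc (F : Matrix ι ι ℝ) (a : ι) : ℝ := (F * F * F * F) a a

/-- half of the bound on `Δ_a - (f_u² x_v + f_v² x_u)` -/
noncomputable def jb (S : Finset ι) (F : Matrix ι ι ℝ) (K : ℝ) (u v a : ι) : ℝ :=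
  |F a v * (F * F) a u| + pd S F v * |F a u * (F * F) a u| + ph0 S F u v * F a u ^ 2
    + F a u ^ 2 * |rr F v - 1| / K + |F a u * F a v| * |(F * F) u v|
    + |F a u * F a v| * (pd S F v * vr F u) + F a u ^ 2 * (pd S F v * |(F * F) u v|)
    + F a u ^ 2 * (pd S F v ^ 2 * vr F u) + |(F * F) a u| / S.card + |F a u| * vr F u / S.card
    + |F a u| * vr F v / S.card + rr F u / (S.card : ℝ) ^ 2

namespace TrXX
variable {S : Finset ι} {M : Matrix ι ι ℝ} {L : ℝ}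

theorem sum_S (f : ι → ℝ) (h : ∀ a, a ∉ S → f a = 0) : ∑ a ∈ S, f a = ∑ a, f a :=
  sum_subset (subset_univ S) fun a _ ha => h a ha

theorem pd_nonneg (S : Finset ι) (F : Matrix ι ι ℝ) (a : ι) : 0 ≤ pd S F a := by
  unfold pd; positivity
theorem ph_nonneg (S : Finset ι) (F : Matrix ι ι ℝ) (u v : ι) : 0 ≤ ph S F u v := by
  unfold ph; positivity
theorem ph0_nonneg (S : Finset ι) (F : Matrix ι ι ℝ) (u v : ι) : 0 ≤ ph0 S F u v :=
  add_nonneg (ph_nonneg S F u v) (mul_nonneg (pd_nonneg S F u) (pd_nonneg S F v))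
theorem pe_nonneg (S : Finset ι) (F : Matrix ι ι ℝ) (u v : ι) : 0 ≤ pe S F u v := by
  have := pd_nonneg S F v
  have := ph_nonneg S F u v
  unfold pe; positivity

/-- bilinear form of an operator of norm at most `L` -/
theorem bil (hL : OpB L M) (h0 : 0 ≤ L) (g k : ι → ℝ) :
    |∑ u ∈ S, ∑ v ∈ S, M u v * (g u * k v)|
      ≤ L * (√(∑ u ∈ S, g u ^ 2) * √(∑ v ∈ S, k v ^ 2)) := by
  set g' : ι → ℝ := fun u => if u ∈ S then g u else 0
  set k' : ι → ℝ := fun u => if u ∈ S then k u else 0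
  have e1 : ∑ u ∈ S, ∑ v ∈ S, M u v * (g u * k v) = g' ⬝ᵥ (M *ᵥ k') := by
    simp only [dotProduct, mulVec, g', k', ite_mul, zero_mul, mul_ite, mul_zero, sum_ite_mem,
      univ_inter]
    simp only [mul_sum]
    exact sum_congr rfl fun u _ => sum_congr rfl fun v _ => by ring
  have e2 : g' ⬝ᵥ g' = ∑ u ∈ S, g u ^ 2 := by
    simp [dotProduct, g', sq]
  have e3 : k' ⬝ᵥ k' = ∑ u ∈ S, k u ^ 2 := by
    simp [dotProduct, k', sq]
  have h1 := GenMX.dot_sq_le g' (M *ᵥ k')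
  have h2 := hL k'
  rw [e1]
  have hg : 0 ≤ ∑ u ∈ S, g u ^ 2 := sum_nonneg fun _ _ => sq_nonneg _
  have hk : 0 ≤ ∑ u ∈ S, k u ^ 2 := sum_nonneg fun _ _ => sq_nonneg _
  refine abs_le_of_sq_le_sq' ?_ (by positivity) |> abs_le.2
  rw [mul_pow, mul_pow, Real.sq_sqrt hg, Real.sq_sqrt hk, ← e2, ← e3]
  calc _ ≤ _ := h1
    _ ≤ (g' ⬝ᵥ g') * (L ^ 2 * (k' ⬝ᵥ k')) := mul_le_mul_of_nonneg_left h2 (GenMX.dot_self_nonneg _)
    _ = _ := by ring

/-- `Σ_S |g| ≤ √(m) ‖g‖` -/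
theorem sum_abs_le (S : Finset ι) (g : ι → ℝ) :
    ∑ a ∈ S, |g a| ≤ √(S.card : ℝ) * √(∑ a ∈ S, g a ^ 2) := by
  have := sum_mul_le_sqrt S (fun _ => 1) g
  simpa using this
end TrXX
open TrXX

namespace Ctx
variable {c : Ctx ι} (hK : Big c.p.K)
include hK

theorem sum_Y_sq (a : ι) : ∑ u ∈ c.S, (c.F * c.F) a u ^ 2 = cc c.F a := by
  have h := c.oF.mat
  rw [sum_S _ fun u hu => by rw [h.mul_supp' _ a u hu]; ring]
  have := GenMX.gram_diag' (c.F * c.F) a
  rw [h.sq_transpose] at this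
  rw [← this, cc]; simp only [Matrix.mul_assoc]
theorem sum_f_sq (a : ι) : ∑ u ∈ c.S, c.F a u ^ 2 = rr c.F a := by
  have h := c.oF.mat
  rw [sum_S _ fun u hu => by rw [h.supp' a u hu]; ring, h.rr_eq]
theorem cc_nonneg (a : ι) : 0 ≤ cc c.F a := by
  rw [← sum_Y_sq hK]; exact sum_nonneg fun _ _ => sq_nonneg _
theorem cc_le (a : ι) : cc c.F a ≤ c.L ^ 2 * rr c.F a := by
  have h := c.oF.mat
  have := (opB hK).diag c.F a
  rw [h.sq_transpose, h.transpose] at this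
  simpa only [cc, rr, Matrix.mul_assoc] using this
theorem sum_cc : ∑ a ∈ c.S, cc c.F a = a4 c.F := by
  have := c.oF.mat.trace_mul (c.F * c.F * c.F)
  simp only [cc, a4, Matrix.mul_assoc] at this ⊢
  exact this.symm
theorem Y_sq_le (a u : ι) : (c.F * c.F) a u ^ 2 ≤ rr c.F a * rr c.F u := by
  have := entry_sq_le c.F c.F a u
  rwa [c.oF.mat.transpose] at this
theorem sum_f_zero (a : ι) : ∑ u ∈ c.S, c.F a u = 0 := by
  have h := c.oF.mat
  rw [sum_S _ fun u hu => h.supp' a u hu, h.row]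
theorem sum_x : ∑ v ∈ c.S, (rr c.F v - 1) = a2 c.F - c.m := by
  rw [sum_sub_distrib, ← c.oF.mat.a2_eq]; simp [Ctx.m]
theorem sum_absx : ∑ v ∈ c.S, |rr c.F v - 1| ≤ 2 * c.m := by
  refine le_trans (sum_le_sum fun v _ => ?_) (sum_vr_le hK)
  have := c.oF.mat.rr_nonneg v
  unfold vr; rw [abs_le]; constructor <;> linarith
theorem sum_fY (a : ι) : ∑ u ∈ c.S, |c.F a u * (c.F * c.F) a u| ≤ √(rr c.F a * cc c.F a) := by
  have := sum_mul_le_sqrt c.S (c.F a) ((c.F * c.F) a)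
  rw [sum_f_sq hK, sum_Y_sq hK, ← Real.sqrt_mul (c.oF.mat.rr_nonneg a)] at this
  simpa only [abs_mul] using this
theorem rr_le_R (a : ι) : rr c.F a ≤ c.R := by
  have := ro_le hK a
  have := c.oG.mat.rr_nonneg a
  linarith
theorem vr_le_R (a : ι) : vr c.F a ≤ c.R := by
  have := ro_le hK a
  have := c.oG.mat.rr_nonneg a
  unfold vr; linarith
theorem sum_absD : ∑ v ∈ c.S, |c.F v v| ≤ √(c.m * c.p.TD c.m) := by
  refine (sum_abs_le c.S fun v => c.F v v).trans ?_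
  rw [Real.sqrt_mul (m_pos hK).le]
  exact mul_le_mul_of_nonneg_left (Real.sqrt_le_sqrt c.oF.D2_T) (Real.sqrt_nonneg _)

theorem main5_symm (u v a : ι) : main5 c.σ c.F v u a = main5 c.σ c.F u v a := by
  unfold main5; ring

/-- coefficient of the array `Y_u f_v` -/
theorem T2_bd : ∃ b : ℝ, b + c.τ / 4 ≤ c.μ - 2 ∧ (c.p.phX c.m → b ≤ c.μ - 3303) ∧ ∀ a,
    |∑ u, ∑ v, c.w u v * ((c.F * c.F) a u * c.F a v)| ≤ c.p.K ^ b * √(rr c.F a * cc c.F a) := by
  have hr := c.oF.mat.rr_nonneg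
  have h0 : ∀ a, ∑ u ∈ c.S, ∑ v ∈ c.S, (c.F * c.F) a u * c.F a v = 0 := fun a => by
    simp only [← mul_sum, sum_f_zero hK, mul_zero, sum_const_zero]
  have hsq : ∀ a, √(∑ u ∈ c.S, ∑ v ∈ c.S, ((c.F * c.F) a u * c.F a v) ^ 2)
      = √(rr c.F a * cc c.F a) := fun a => by
    simp only [mul_pow, ← mul_sum, ← sum_mul, sum_f_sq hK, sum_Y_sq hK, mul_comm]
  have hd : ∀ a, |∑ u ∈ c.S, (c.F * c.F) a u * c.F a u| ≤ √(rr c.F a * cc c.F a) := fun a =>
    (abs_sum_le_sum_abs _ _).trans (by simpa only [mul_comm] using sum_fY hK a)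
  have hμ := μ_lo hK
  have hμ' := μ_hi hK
  by_cases hI : c.p.phI c.m
  · have hI' := (phI_iff hK).1 hI
    obtain ⟨-, -, hτ⟩ | ⟨h, -⟩ := c.cases_W
    swap
    · linarith
    set b0 := max (max (601 + c.τ / 4) 3726) (c.μ / 2 + 18) with hb0
    have b1 : 601 + c.τ / 4 ≤ b0 := le_trans (le_max_left _ _) (le_max_left _ _)
    have b2 : 3726 ≤ b0 := le_trans (le_max_right _ _) (le_max_left _ _)
    have b3 : c.μ / 2 + 18 ≤ b0 := le_max_right _ _
    refine ⟨b0 + 1, ?_, fun _ => ?_, fun a => ?_⟩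
    · simp only [hb0, ← le_sub_iff_add_le, max_le_iff]; refine ⟨⟨?_, ?_⟩, ?_⟩ <;> linarith
    · simp only [hb0, ← le_sub_iff_add_le, max_le_iff]; refine ⟨⟨?_, ?_⟩, ?_⟩ <;> linarith
    have h8 := c.G8 hI (fun u v => (c.F * c.F) a u * c.F a v) (h0 a)
    rw [hsq] at h8
    set s := √(rr c.F a * cc c.F a) with hs
    have hs0 : 0 ≤ s := Real.sqrt_nonneg _
    have hs' : √(∑ u ∈ c.S, (c.F * c.F) a u ^ 2) * √(∑ v ∈ c.S, c.F a v ^ 2) = s := by
      rw [sum_f_sq hK, sum_Y_sq hK, hs, Real.sqrt_mul (hr a), mul_comm]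
    have hL0 : 0 ≤ c.L := le_trans zero_le_one (one_le_L hK)
    have hσ : |c.σ| = 1 := by rcases c.sg with h | h <;> simp [h]
    have hio : ∀ X : Matrix ι ι ℝ, |io X| ≤ 1 := fun X => by unfold io; split_ifs <;> simp
    have x1 : |∑ u ∈ c.S, ∑ v ∈ c.S, xi c.σ c.F c.G u v * ((c.F * c.F) a u * c.F a v)|
        ≤ 2 * c.L * s := by
      have e : ∑ u ∈ c.S, ∑ v ∈ c.S, xi c.σ c.F c.G u v * ((c.F * c.F) a u * c.F a v)
          = c.σ * (io c.F * ∑ u ∈ c.S, ∑ v ∈ c.S, c.F u v * ((c.F * c.F) a u * c.F a v)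
            - io c.G * ∑ u ∈ c.S, ∑ v ∈ c.S, c.G u v * ((c.F * c.F) a u * c.F a v)) := by
        simp only [xi, mul_sum, ← sum_sub_distrib]
        exact sum_congr rfl fun u _ => sum_congr rfl fun v _ => by ring
      have y1 := bil (S := c.S) (opB hK) hL0 ((c.F * c.F) a) (c.F a)
      have y2 := bil (S := c.S) (opB_G hK) hL0 ((c.F * c.F) a) (c.F a)
      rw [hs'] at y1 y2
      rw [e, abs_mul, hσ, one_mul]
      refine (abs_sub _ _).trans ?_
      rw [abs_mul, abs_mul]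
      have := mul_le_mul (hio c.F) y1 (abs_nonneg _) zero_le_one
      have := mul_le_mul (hio c.G) y2 (abs_nonneg _) zero_le_one
      linarith
    have x2 : |∑ u ∈ c.S, xi c.σ c.F c.G u u * ((c.F * c.F) a u * c.F a u)| ≤ s := by
      refine (abs_sum_le_sum_abs _ _).trans (le_trans (sum_le_sum fun u _ => ?_) (sum_fY hK a))
      rw [abs_mul, mul_comm (c.F a u)]
      refine mul_le_of_le_one_left (abs_nonneg _) ?_
      have d1 := diag_le hK u
      have d2 : |c.G u u| ≤ 1 / c.p.K := diag_le (c := c.swap) hK u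
      have d3 := inv_K_le hK
      rw [xi, abs_mul, hσ, one_mul]
      refine (abs_sub _ _).trans ?_
      rw [abs_mul, abs_mul]
      have := mul_le_mul (hio c.F) d1 (abs_nonneg _) zero_le_one
      have := mul_le_mul (hio c.G) d2 (abs_nonneg _) zero_le_one
      linarith
    have x3 : ∑ u ∈ c.S, ∑ v ∈ c.S, (c.F u v ^ 2 + c.G u v ^ 2) * |(c.F * c.F) a u * c.F a v|
        ≤ 2 * c.R * s := by
      have y1 := c.oF.mat.kernel (rr_le_R hK) ((c.F * c.F) a) (c.F a)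
      have y2 := c.oG.mat.kernel (rr_le_R (c := c.swap) hK) ((c.F * c.F) a) (c.F a)
      rw [hs'] at y1 y2
      have e : c.swap.R = c.R := rfl
      rw [e] at y2
      simp only [add_mul, sum_add_distrib, abs_mul]
      linarith
    have hg : 0 ≤ c.p.gam := by have := hK.pos; unfold Par.gam; positivity
    have lg : Le c.p.K c.p.gam 600 := by simpa [Par.gam] using Le.K_pow (K := c.p.K) 600
    have c1 : Le c.p.K (1 + c.p.gam * (2 * c.L + 1) + 1000 * c.p.gam ^ 2 * (2 * c.R)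
        + √(c.p.K ^ 35 * c.m)) (b0 + 1) := by
      have hR0 : 0 ≤ c.R := ((sz_R hK).1.pos hK).le
      have hϱ := ϱ_hi hK
      have l1 : Le c.p.K (2 * c.L + 1) (c.τ / 4 + 1 / 10) :=
        (((sz_L hK).2.cmul hK (by norm_num) (by norm_num)).add hK Le.one le_rfl
          (by linarith [τ_lo hK])).mono hK (by linarith)
      have l2 := lg.mul hK l1 (by linarith)
      have l3 : Le c.p.K (1000 * c.p.gam ^ 2 * (2 * c.R)) 3726 := by
        have := ((((lg.pow hK hg 2).cmul hK (C := 10) (by norm_num) le_rfl).cmul hK (C := 10)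
          (by norm_num) le_rfl).cmul hK (C := 10) (by norm_num) le_rfl).mul hK
          ((sz_R hK).2.cmul hK (C := 2) (by norm_num) (by norm_num)) (by linarith)
        refine (this.mono hK (by push_cast; linarith)).of_le (le_of_eq (by ring))
      have l4 := ((Le.K_pow (K := c.p.K) 35).mul hK (le_m hK) (m_pos hK).le).sqrt hK
      clear_value b0
      have l5 := Le.one.add hK l2 (g := b0) (by linarith) (by linarith)
      have l6 := l5.add hK l3 le_rfl (by linarith)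
      have l7 := l6.add hK l4 le_rfl (by push_cast; linarith)
      exact l7.mono hK (by linarith)
    have c2 := mul_le_mul_of_nonneg_right c1 hs0
    have x4 : |c.p.gam * (∑ u ∈ c.S, ∑ v ∈ c.S, xi c.σ c.F c.G u v * ((c.F * c.F) a u * c.F a v)
          - ∑ u ∈ c.S, xi c.σ c.F c.G u u * ((c.F * c.F) a u * c.F a u))|
        ≤ c.p.gam * ((2 * c.L + 1) * s) := by
      rw [abs_mul, abs_of_nonneg hg]
      exact mul_le_mul_of_nonneg_left ((abs_sub _ _).trans (by linarith)) hg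
    have x5 := mul_le_mul_of_nonneg_left x3 (mul_nonneg (by norm_num : (0:ℝ) ≤ 1000) (sq_nonneg c.p.gam))
    have x6 := hd a
    rw [abs_le] at h8 x4 x6 ⊢
    constructor <;> nlinarith
  · have hI' := (phI_iff hK).not.1 hI
    refine ⟨c.μ / 2 + 19, ?_, fun hX => ?_, fun a => ?_⟩
    · rcases c.cases_W with ⟨h1, -, h2⟩ | ⟨h1, -, h2⟩ <;> linarith
    · linarith [(phX_iff hK).1 hX]
    have h7 := c.G7 (fun u v => (c.F * c.F) a u * c.F a v) (h0 a)
    rw [hsq] at h7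
    have l4 := ((le_Gam2 hK hI).mul hK (le_m hK) (m_pos hK).le).sqrt hK
    have c1 : Le c.p.K (1 + √(c.p.Gam2 c.m * c.m)) (c.μ / 2 + 19) :=
      (Le.one.add hK l4 (by linarith) le_rfl).mono hK (by linarith)
    have c2 := mul_le_mul_of_nonneg_right c1 (Real.sqrt_nonneg (rr c.F a * cc c.F a))
    have x6 := hd a
    rw [abs_le] at h7 x6 ⊢
    constructor <;> nlinarith

theorem T3_bd : ∃ b : ℝ, b + c.τ / 4 ≤ c.μ - 2 ∧ (c.p.phX c.m → b ≤ c.μ - 3303) ∧ ∀ a,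
    |∑ u, ∑ v, c.w u v * (c.F a u * (c.F * c.F) a u * c.F v v)|
      ≤ c.p.K ^ b * √(rr c.F a * cc c.F a) := by
  have hμ := μ_lo hK
  have hμ' := μ_hi hK
  have hϱ := ϱ_hi hK
  have key : ∀ b, Le c.p.K (|t1 c.F| + c.p.eps c.m * √c.m * √(D2 c.S c.F)) b → ∀ a,
      |∑ u, ∑ v, c.w u v * (c.F a u * (c.F * c.F) a u * c.F v v)|
      ≤ c.p.K ^ b * √(rr c.F a * cc c.F a) := by
    intro b hb a
    have h6 := c.G6 (fun u => c.F a u * (c.F * c.F) a u) (fun v => c.F v v)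
    rw [← c.oF.mat.t1_eq] at h6
    have h1 := sum_fY hK a
    have h2 : |(∑ u ∈ c.S, c.F a u * (c.F * c.F) a u) * t1 c.F|
        ≤ √(rr c.F a * cc c.F a) * |t1 c.F| := by
      rw [abs_mul]
      exact mul_le_mul_of_nonneg_right ((abs_sum_le_sum_abs _ _).trans h1) (abs_nonneg _)
    have h3 := mul_le_mul_of_nonneg_left h1
      (show 0 ≤ c.p.eps c.m * √c.m * √(D2 c.S c.F) by have := eps_pos hK; positivity)
    have c2 := mul_le_mul_of_nonneg_right hb (Real.sqrt_nonneg (rr c.F a * cc c.F a))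
    have e : D2 c.S c.F = ∑ v ∈ c.S, c.F v v ^ 2 := rfl
    rw [← e] at h6
    rw [abs_le] at h6 h2 ⊢
    constructor <;> nlinarith
  have l1 : Le c.p.K (c.p.eps c.m * √c.m * √(D2 c.S c.F)) (c.μ / 2) :=
    (((le_eps hK).mul hK ((le_m hK).sqrt hK) (Real.sqrt_nonneg _)).mul hK
      (((sz_TD hK).2.of_le c.oF.D2_T).sqrt hK) (Real.sqrt_nonneg _)).mono hK (by linarith)
  by_cases hI : c.p.phI c.m
  · have hI' := (phI_iff hK).1 hI
    obtain ⟨-, -, hτ⟩ | ⟨h, -⟩ := c.cases_W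
    swap
    · linarith
    exact ⟨c.μ / 2 + 1 / 100, by linarith, fun _ => by linarith,
      key _ ((le_t hK).add hK l1 (by linarith) le_rfl)⟩
  · have hI' := (phI_iff hK).not.1 hI
    have l2 : Le c.p.K |t1 c.F| (3350 + c.ϱ + 1 / 100) := (sz_kt hK).2.of_le (le_t' hK hI)
    refine ⟨c.μ / 2 + 1 / 100 + 1 / 100, ?_, fun hX => ?_,
      key _ (l2.add hK l1 ?_ (by linarith))⟩
    · rcases c.cases_W with ⟨h1, -, h2⟩ | ⟨h1, -, h2⟩ <;> linarith
    · linarith [(phX_iff hK).1 hX]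
    · rcases c.cases_W with ⟨h1, h2, -⟩ | ⟨h1, h2, -⟩ <;> linarith

/-- (A) drift of the main term. The exponent `b` satisfies `b + τ/4 ≤ μ - 1`. -/
theorem main5_drift : ∃ b : ℝ, b + c.τ / 4 ≤ c.μ - 1 ∧ (c.p.phX c.m → b ≤ c.μ - 3302) ∧ ∀ a,
    |∑ u, ∑ v, c.w u v * main5 c.σ c.F u v a - 2 * rr c.F a * (a2 c.F - c.m)|
      ≤ 2 * c.p.eps c.m * √c.m * √(X2 c.S c.F) * rr c.F a
        + c.p.K ^ b * √(rr c.F a * cc c.F a) := by
  obtain ⟨b2, p2, q2, h2⟩ := T2_bd hK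
  obtain ⟨b3, p3, q3, h3⟩ := T3_bd hK
  refine ⟨max b2 b3 + 1, ?_, fun hX => ?_, fun a => ?_⟩
  · rcases le_total b2 b3 with h | h
    · rw [max_eq_right h]; linarith
    · rw [max_eq_left h]; linarith
  · have := max_le (q2 hX) (q3 hX); linarith
  have h1 := c.G6 (fun u => c.F a u ^ 2) (fun v => rr c.F v - 1)
  rw [sum_f_sq hK, sum_x hK] at h1
  simp only [abs_of_nonneg (sq_nonneg (c.F a _)), sum_f_sq hK] at h1
  have e : ∑ u, ∑ v, c.w u v * main5 c.σ c.F u v a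
      = 2 * ∑ u, ∑ v, c.w u v * (c.F a u ^ 2 * (rr c.F v - 1))
        + 4 * c.σ * ∑ u, ∑ v, c.w u v * ((c.F * c.F) a u * c.F a v)
        + 4 * ∑ u, ∑ v, c.w u v * (c.F a u * (c.F * c.F) a u * c.F v v) := by
    have s1 := c.sum_comm' fun u v => c.F a u ^ 2 * (rr c.F v - 1)
    have s2 := c.sum_comm' fun u v => (c.F * c.F) a u * c.F a v
    have s3 := c.sum_comm' fun u v => c.F a u * (c.F * c.F) a u * c.F v v
    have : ∀ u v, c.w u v * main5 c.σ c.F u v a = c.w u v * (c.F a u ^ 2 * (rr c.F v - 1))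
        + c.w u v * (c.F a v ^ 2 * (rr c.F u - 1))
        + 2 * c.σ * (c.w u v * ((c.F * c.F) a u * c.F a v))
        + 2 * c.σ * (c.w u v * ((c.F * c.F) a v * c.F a u))
        + 2 * (c.w u v * (c.F a u * (c.F * c.F) a u * c.F v v))
        + 2 * (c.w u v * (c.F a v * (c.F * c.F) a v * c.F u u)) := fun u v => by
      unfold main5; ring
    simp only [this, sum_add_distrib, ← mul_sum]
    rw [← s1, ← s2, ← s3]; ring
  have hσ : |c.σ| = 1 := by rcases c.sg with h | h <;> simp [h]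
  have c1 : Le c.p.K (4 * c.p.K ^ b2 + 4 * c.p.K ^ b3) (max b2 b3 + 1) :=
    (((show Le c.p.K (c.p.K ^ b2) b2 from le_rfl).cmul hK (by norm_num) (by norm_num)).add hK
      ((show Le c.p.K (c.p.K ^ b3) b3 from le_rfl).cmul hK (by norm_num) (by norm_num))
      (g := max b2 b3 + 1 / 100) (by linarith [le_max_left b2 b3])
      (by linarith [le_max_right b2 b3])).mono hK (by linarith)
  have c2 := mul_le_mul_of_nonneg_right c1 (Real.sqrt_nonneg (rr c.F a * cc c.F a))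
  have h2' : |c.σ * ∑ u, ∑ v, c.w u v * ((c.F * c.F) a u * c.F a v)|
      ≤ c.p.K ^ b2 * √(rr c.F a * cc c.F a) := by rw [abs_mul, hσ, one_mul]; exact h2 a
  have h3' := h3 a
  have eX : X2 c.S c.F = ∑ v ∈ c.S, (rr c.F v - 1) ^ 2 := rfl
  rw [e, eX]
  rw [abs_le] at h1 h2' h3' ⊢
  constructor <;> nlinarith

theorem err5_nonneg (u v a : ι) : 0 ≤ err5 c.S c.F u v a := by
  have := ph0_nonneg c.S c.F u v
  have := pe_nonneg c.S c.F u v
  have := pe_nonneg c.S c.F v u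
  have := pd_nonneg c.S c.F u
  have := pd_nonneg c.S c.F v
  have := c.oF.mat.rr_nonneg u
  have := c.oF.mat.rr_nonneg v
  unfold err5 vr; positivity

theorem jb_nonneg (u v a : ι) : 0 ≤ jb c.S c.F c.p.K u v a := by
  have := ph0_nonneg c.S c.F u v
  have := pd_nonneg c.S c.F u
  have := pd_nonneg c.S c.F v
  have := c.oF.mat.rr_nonneg u
  have := c.oF.mat.rr_nonneg v
  have := hK.pos
  unfold jb vr; positivity

theorem sum_absf (u : ι) : ∑ v ∈ c.S, |c.F u v| ≤ √(c.m * rr c.F u) := by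
  have := sum_abs_le c.S (c.F u)
  rwa [sum_f_sq hK, ← Real.sqrt_mul (Nat.cast_nonneg _)] at this
theorem sum_absY (u : ι) : ∑ v ∈ c.S, |(c.F * c.F) u v| ≤ √c.m * √(cc c.F u) := by
  have := sum_abs_le c.S ((c.F * c.F) u)
  rwa [sum_Y_sq hK] at this
theorem sqrt_cc_le (u : ι) : √(cc c.F u) ≤ c.L * √(rr c.F u) := by
  have hL0 : 0 ≤ c.L := le_trans zero_le_one (one_le_L hK)
  refine (Real.sqrt_le_sqrt (cc_le hK u)).trans (le_of_eq ?_)
  rw [Real.sqrt_mul (sq_nonneg _), Real.sqrt_sq hL0]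

/-- (C) the main term at `a = u` (needed to extend sums over `rem S u v` to `S`). -/
theorem main5_diag (u : ι) : ∑ v ∈ c.S, |main5 c.σ c.F u v u|
    ≤ 2 * c.m * c.F u u ^ 2 + rr c.F u * |rr c.F u - 1| + 2 * √(c.m * rr c.F u) * rr c.F u
      + 2 * c.L * √(c.m * rr c.F u) * |c.F u u| + 2 * √(c.m * c.p.TD c.m) * (|c.F u u| * rr c.F u)
      + 2 * √(rr c.F u * cc c.F u) := by
  have hσ : |c.σ| = 1 := by rcases c.sg with h | h <;> simp [h]
  have hr := c.oF.mat.rr_nonneg u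
  have hD : |c.F u u| ≤ 1 := (diag_le hK u).trans ((inv_K_le hK).trans (by norm_num))
  have pt : ∀ v, |main5 c.σ c.F u v u| ≤ c.F u u ^ 2 * |rr c.F v - 1|
      + |rr c.F u - 1| * c.F u v ^ 2 + 2 * rr c.F u * |c.F u v|
      + 2 * |c.F u u| * |(c.F * c.F) u v| + 2 * (|c.F u u| * rr c.F u) * |c.F v v|
      + 2 * |c.F u v * (c.F * c.F) u v| := fun v => by
    have e : main5 c.σ c.F u v u = c.F u u ^ 2 * (rr c.F v - 1) + (rr c.F u - 1) * c.F u v ^ 2
        + c.σ * (2 * rr c.F u * c.F u v) + c.σ * (2 * c.F u u * (c.F * c.F) u v)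
        + 2 * (c.F u u * rr c.F u) * c.F v v + c.F u u * (2 * (c.F u v * (c.F * c.F) u v)) := by
      unfold main5 rr; ring
    rw [e]
    refine (abs_add_le _ _).trans (add_le_add ((abs_add_le _ _).trans (add_le_add
      ((abs_add_le _ _).trans (add_le_add ((abs_add_le _ _).trans (add_le_add
      ((abs_add_le _ _).trans (add_le_add ?_ ?_)) ?_)) ?_)) ?_)) ?_)
    · rw [abs_mul, abs_of_nonneg (sq_nonneg _)]
    · rw [abs_mul, abs_of_nonneg (sq_nonneg (c.F u v))]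
    · rw [abs_mul, hσ, one_mul, abs_mul, abs_of_nonneg (by linarith : 0 ≤ 2 * rr c.F u)]
    · rw [abs_mul, hσ, one_mul, abs_mul, abs_mul, abs_two]
    · rw [abs_mul, abs_mul, abs_mul, abs_two, abs_of_nonneg hr]
    · rw [abs_mul, abs_mul, abs_two]
      exact mul_le_of_le_one_left (by positivity) hD
  refine (sum_le_sum fun v _ => pt v).trans ?_
  simp only [sum_add_distrib, ← mul_sum, sum_f_sq hK]
  have h1 := mul_le_mul_of_nonneg_left (sum_absx hK) (sq_nonneg (c.F u u))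
  have h2 := mul_le_mul_of_nonneg_left (sum_absf hK u) (by linarith : 0 ≤ 2 * rr c.F u)
  have h3 : ∑ v ∈ c.S, |(c.F * c.F) u v| ≤ c.L * √(c.m * rr c.F u) := by
    refine (sum_absY hK u).trans ?_
    rw [Real.sqrt_mul (m_pos hK).le]
    have := mul_le_mul_of_nonneg_left (sqrt_cc_le hK u) (Real.sqrt_nonneg c.m)
    linarith
  have h3' := mul_le_mul_of_nonneg_left h3 (by positivity : 0 ≤ 2 * |c.F u u|)
  have h4 := mul_le_mul_of_nonneg_left (sum_absD hK) (by positivity : 0 ≤ 2 * (|c.F u u| * rr c.F u))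
  have h5 := sum_fY hK u
  nlinarith

theorem one_le_R : 1 ≤ c.R := by
  have := vr_le_R hK
  exact Le.le_of_ge hK Le.one (sz_R hK).1 (by linarith [ϱ_lo hK])
theorem TD_le_R : c.p.TD c.m ≤ c.R :=
  Le.le_of_ge hK (sz_TD hK).2 (sz_R hK).1 (by linarith [ϱ_hi hK])
theorem inv_m_le : 1 / c.m ≤ 1 := by
  rw [div_le_one (m_pos hK)]; exact le_trans (by norm_num) (m_big hK)
theorem ph_symm (u v : ι) : ph c.S c.F v u = ph c.S c.F u v := by
  unfold ph; rw [c.oF.mat.symm]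
theorem ph0_symm (u v : ι) : ph0 c.S c.F v u = ph0 c.S c.F u v := by
  unfold ph0; rw [ph_symm hK]; ring
theorem FF_symm (u v : ι) : (c.F * c.F) v u = (c.F * c.F) u v := by
  have := congrFun (congrFun c.oF.mat.sq_transpose u) v
  simpa using this
theorem sum_ph_sq (u : ι) : ∑ v ∈ c.S, ph c.S c.F u v ^ 2 ≤ 2 * rr c.F u + 2 / c.m := by
  have hm := m_pos hK
  have : ∀ v, ph c.S c.F u v ^ 2 ≤ 2 * c.F u v ^ 2 + 2 * (1 / c.m) ^ 2 := fun v => by
    unfold ph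
    have := sq_abs (c.F u v)
    show (|c.F u v| + 1 / c.m) ^ 2 ≤ _
    nlinarith [sq_nonneg (|c.F u v| - 1 / c.m)]
  refine (sum_le_sum fun v _ => this v).trans (le_of_eq ?_)
  rw [sum_add_distrib, ← mul_sum, sum_f_sq hK, sum_const, nsmul_eq_mul]
  show _ + c.m * _ = _
  field_simp
theorem sum_ph0_sq (u : ι) : ∑ v ∈ c.S, ph0 c.S c.F u v ^ 2
    ≤ 4 * rr c.F u + 4 / c.m + 8 * c.p.TD c.m * pd c.S c.F u ^ 2 := by
  have : ∀ v, ph0 c.S c.F u v ^ 2
      ≤ 2 * ph c.S c.F u v ^ 2 + 2 * pd c.S c.F u ^ 2 * pd c.S c.F v ^ 2 := fun v => by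
    unfold ph0
    nlinarith [sq_nonneg (ph c.S c.F u v - pd c.S c.F u * pd c.S c.F v)]
  refine (sum_le_sum fun v _ => this v).trans ?_
  rw [sum_add_distrib, ← mul_sum, ← mul_sum]
  have h1 := sum_ph_sq hK u
  have h2 := mul_le_mul_of_nonneg_left (P2_le hK) (by positivity : 0 ≤ 2 * pd c.S c.F u ^ 2)
  have : 4 / c.m = 2 * (2 / c.m) := by ring
  nlinarith
theorem pd_le_one (a : ι) : pd c.S c.F a ≤ 1 := by
  have h1 := pd_le hK a
  have h2 := inv_K_le hK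
  have : 2 / c.p.K = 2 * (1 / c.p.K) := by ring
  linarith
theorem sum_ph0_sq' (u : ι) : ∑ v ∈ c.S, ph0 c.S c.F u v ^ 2 ≤ 16 * c.R := by
  have h1 := sum_ph0_sq hK u
  have h2 := rr_le_R hK u
  have h3 := inv_m_le hK
  have h4 := one_le_R hK
  have h5 := TD_le_R hK
  have h6 : pd c.S c.F u ^ 2 ≤ 1 := pow_le_one₀ (pd_nonneg _ _ _) (pd_le_one hK u)
  have h7 := ((sz_TD hK).1.pos hK).le
  have : 4 / c.m = 4 * (1 / c.m) := by ring
  nlinarith
theorem sum2_ph0_sq : ∑ u ∈ c.S, ∑ v ∈ c.S, ph0 c.S c.F u v ^ 2 ≤ 10 * c.m := by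
  refine (sum_le_sum fun u _ => sum_ph0_sq hK u).trans ?_
  rw [sum_add_distrib, sum_add_distrib, ← mul_sum, ← mul_sum, ← c.oF.mat.a2_eq, sum_const,
    nsmul_eq_mul]
  have hm := m_pos hK
  have h7 := ((sz_TD hK).1.pos hK).le
  have h1 : (c.S.card : ℝ) * (4 / c.m) = 4 := by show c.m * _ = _; field_simp
  have h2 := mul_le_mul_of_nonneg_left (P2_le hK) (by positivity : 0 ≤ 8 * c.p.TD c.m)
  have h3 : c.p.TD c.m * c.p.TD c.m * c.p.K ≤ c.m :=
    Le.le_of_ge hK (((sz_TD hK).2.mul hK (sz_TD hK).2 h7).mul hK Le.self hK.pos.le) (ge_m hK)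
      (by linarith [ϱ_hi hK, μ_lo hK])
  have h4 : (100 : ℝ) ≤ c.p.K := le_trans (by norm_num) hK
  have h5 := a2_le_m hK
  have h6 := K_le_m hK
  nlinarith [mul_nonneg h7 h7]
theorem sum_pe (u : ι) : ∑ v ∈ c.S, pe c.S c.F u v ≤ 13 * c.R := by
  have : ∀ v, pe c.S c.F u v ≤ 1 / c.m + 2 * pd c.S c.F v ^ 2 + ph c.S c.F u v ^ 2 := fun v => by
    unfold pe
    show 1 / c.m + _ + _ ≤ _
    nlinarith [sq_nonneg (ph c.S c.F u v - pd c.S c.F v), sq_nonneg (ph c.S c.F u v),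
      sq_nonneg (pd c.S c.F v)]
  refine (sum_le_sum fun v _ => this v).trans ?_
  rw [sum_add_distrib, sum_add_distrib, ← mul_sum, sum_const, nsmul_eq_mul]
  have hm := m_pos hK
  have h1 : (c.S.card : ℝ) * (1 / c.m) = 1 := by show c.m * _ = _; field_simp
  have h2 := rr_le_R hK u
  have h3 := inv_m_le hK
  have h4 := one_le_R hK
  have h5 := TD_le_R hK
  have h6 := sum_ph_sq hK u
  have h7 := P2_le hK
  have : 2 / c.m = 2 * (1 / c.m) := by ring
  linarith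
theorem sum2_o_sq : ∑ u ∈ c.S, ∑ v ∈ c.S, (c.F * c.F) u v ^ 2 = a4 c.F := by
  simp only [sum_Y_sq hK, sum_cc hK]

/-- (B) total error term. -/
theorem err5_sum : ∃ b : ℝ, b + c.τ / 4 ≤ c.μ - 1 ∧ (c.p.phX c.m → b ≤ c.μ - 3302) ∧ ∀ a,
    ∑ u ∈ c.S, ∑ v ∈ c.S, err5 c.S c.F u v a
      ≤ c.p.K ^ (min (c.μ - 2) 6699) * rr c.F a + c.p.K ^ b * √(rr c.F a * cc c.F a)
        + 2 * √c.m * √(cc c.F a) + c.p.K ^ (c.μ / 2 + 7) * √(rr c.F a) + 2 * a2 c.F / c.m := by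
  have hμ := μ_lo hK
  have hμ' := μ_hi hK
  have hϱ := ϱ_hi hK
  have hm := m_pos hK
  refine ⟨c.μ / 2 + 1, ?_, fun hX => ?_, fun a => ?_⟩
  · rcases c.cases_W with ⟨h1, -, h2⟩ | ⟨h1, -, h2⟩ <;> linarith
  · linarith [(phX_iff hK).1 hX]
  set f := c.F a with hf
  set Y := (c.F * c.F) a with hY
  set r := rr c.F a with hr
  have hr0 : 0 ≤ r := c.oF.mat.rr_nonneg a
  have sf : ∑ u ∈ c.S, f u ^ 2 = r := sum_f_sq hK a
  have sY : ∑ u ∈ c.S, Y u ^ 2 = cc c.F a := sum_Y_sq hK a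
  set P := ∑ a ∈ c.S, vr c.F a ^ 2 with hP
  set P2 := ∑ a ∈ c.S, pd c.S c.F a ^ 2 with hP2
  have hvr : ∀ u, 0 ≤ vr c.F u := fun u => by have := c.oF.mat.rr_nonneg u; unfold vr; linarith
  have hpd := pd_nonneg c.S c.F
  have hR0 : 0 ≤ c.R := le_trans zero_le_one (one_le_R hK)
  have hL0 : 0 ≤ c.L := le_trans zero_le_one (one_le_L hK)
  let H : ι → ι → ℝ := fun u v => f u ^ 2 * (ph0 c.S c.F u v * vr c.F v)
    + |ph0 c.S c.F u v| * |Y u * f v| + |f u * Y u| * pe c.S c.F u v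
    + 1 / 2 * (|f u * f v| * |(c.F * c.F) u v|) + |f u| * |vr c.F u| * (|f v| * |pd c.S c.F v|)
    + f u ^ 2 * (|pd c.S c.F v| * |(c.F * c.F) u v|) + f u ^ 2 * vr c.F u * pd c.S c.F v ^ 2
    + |Y u| / c.m + |f u| * |vr c.F u| / c.m + |f u| / c.m * vr c.F v + rr c.F u / c.m ^ 2
  have eH : ∀ u v, err5 c.S c.F u v a = H u v + H v u := fun u v => by
    simp only [H, err5, ph0_symm hK u v, FF_symm hK u v, abs_of_nonneg (hvr _),
      abs_of_nonneg (hpd _), abs_of_nonneg (ph0_nonneg _ _ _ _), abs_mul, hf, hY, Ctx.m]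
    ring
  have e2 : ∑ u ∈ c.S, ∑ v ∈ c.S, err5 c.S c.F u v a = 2 * ∑ u ∈ c.S, ∑ v ∈ c.S, H u v := by
    simp only [eH, sum_add_distrib]
    rw [sum_comm (s := c.S) (t := c.S) (f := fun u v => H v u)]; ring
  have s1 : ∑ u ∈ c.S, ∑ v ∈ c.S, f u ^ 2 * (ph0 c.S c.F u v * vr c.F v) ≤ √(16 * c.R) * √P * r := by
    rw [← sf, mul_sum]
    refine sum_le_sum fun u _ => ?_
    rw [← mul_sum, mul_comm]
    refine mul_le_mul_of_nonneg_right ?_ (sq_nonneg _)
    have := sum_mul_le_sqrt c.S (ph0 c.S c.F u) (vr c.F)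
    simp only [abs_of_nonneg (hvr _), abs_of_nonneg (ph0_nonneg _ _ _ _)] at this
    exact this.trans (mul_le_mul_of_nonneg_right (Real.sqrt_le_sqrt (sum_ph0_sq' hK u))
      (Real.sqrt_nonneg _))
  have s2 : ∑ u ∈ c.S, ∑ v ∈ c.S, |ph0 c.S c.F u v| * |Y u * f v|
      ≤ √(10 * c.m) * √(r * cc c.F a) := by
    refine (sum2_mul_le_sqrt c.S _ _).trans ?_
    simp only [mul_pow, ← mul_sum, ← sum_mul, sf, sY]
    rw [mul_comm (cc c.F a)]
    exact mul_le_mul_of_nonneg_right (Real.sqrt_le_sqrt (sum2_ph0_sq hK)) (Real.sqrt_nonneg _)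
  have s3 : ∑ u ∈ c.S, ∑ v ∈ c.S, |f u * Y u| * pe c.S c.F u v ≤ 13 * c.R * √(r * cc c.F a) := by
    refine le_trans (sum_le_sum fun u _ => ?_)
      (le_trans (le_of_eq (mul_sum _ _ _).symm) (mul_le_mul_of_nonneg_left (sum_fY hK a)
        (by positivity : 0 ≤ 13 * c.R)))
    rw [← mul_sum, mul_comm]
    exact mul_le_mul_of_nonneg_right (sum_pe hK u) (abs_nonneg _)
  have s4 : ∑ u ∈ c.S, ∑ v ∈ c.S, |f u * f v| * |(c.F * c.F) u v| ≤ √(c.p.T4 c.m) * r := by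
    refine (sum2_mul_le_sqrt c.S _ _).trans ?_
    rw [sum2_o_sq hK]
    simp only [mul_pow, ← mul_sum, ← sum_mul, sf]
    rw [Real.sqrt_mul_self hr0, mul_comm]
    exact mul_le_mul_of_nonneg_right (Real.sqrt_le_sqrt c.oF.a4_T) hr0
  have t1 : ∑ u ∈ c.S, |f u| * |vr c.F u| ≤ √r * √P := by
    simpa only [sf] using sum_mul_le_sqrt c.S f (vr c.F)
  have s5 : ∑ u ∈ c.S, ∑ v ∈ c.S, |f u| * |vr c.F u| * (|f v| * |pd c.S c.F v|)
      ≤ √P * √P2 * r := by
    have t2 : ∑ u ∈ c.S, |f u| * |pd c.S c.F u| ≤ √r * √P2 := by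
      simpa only [sf] using sum_mul_le_sqrt c.S f (pd c.S c.F)
    rw [← sum_mul_sum]
    refine (mul_le_mul t1 t2 (sum_nonneg fun _ _ => by positivity) (by positivity)).trans
      (le_of_eq ?_)
    have := Real.mul_self_sqrt hr0
    linear_combination (√P * √P2) * this
  have s6 : ∑ u ∈ c.S, ∑ v ∈ c.S, f u ^ 2 * (|pd c.S c.F v| * |(c.F * c.F) u v|)
      ≤ √P2 * (c.L * √c.R) * r := by
    rw [← sf, mul_sum]
    refine sum_le_sum fun u _ => ?_
    rw [← mul_sum, mul_comm]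
    refine mul_le_mul_of_nonneg_right ?_ (sq_nonneg _)
    refine (sum_mul_le_sqrt c.S (pd c.S c.F) ((c.F * c.F) u)).trans ?_
    rw [sum_Y_sq hK]
    exact mul_le_mul_of_nonneg_left ((sqrt_cc_le hK u).trans (mul_le_mul_of_nonneg_left
      (Real.sqrt_le_sqrt (rr_le_R hK u)) hL0)) (Real.sqrt_nonneg _)
  have hP20 : 0 ≤ P2 := sum_nonneg fun _ _ => sq_nonneg _
  have s7 : ∑ u ∈ c.S, ∑ v ∈ c.S, f u ^ 2 * vr c.F u * pd c.S c.F v ^ 2 ≤ c.R * P2 * r := by
    rw [← sum_mul_sum, ← hP2, mul_right_comm, ← sf]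
    refine mul_le_mul_of_nonneg_right ?_ hP20
    rw [mul_sum]
    refine sum_le_sum fun u _ => ?_
    rw [mul_comm]
    exact mul_le_mul_of_nonneg_right (vr_le_R hK u) (sq_nonneg _)
  have cm : ∀ g : ι → ℝ, ∑ u ∈ c.S, ∑ _v ∈ c.S, g u / c.m = ∑ u ∈ c.S, g u := fun g =>
    sum_congr rfl fun u _ => by
      rw [sum_const, nsmul_eq_mul]; show c.m * _ = _; field_simp
  have s8 : ∑ u ∈ c.S, ∑ _v ∈ c.S, |Y u| / c.m ≤ √c.m * √(cc c.F a) := by
    rw [cm]; exact sum_absY hK a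
  have s9 : ∑ u ∈ c.S, ∑ _v ∈ c.S, |f u| * |vr c.F u| / c.m ≤ √P * √r := by
    rw [cm, mul_comm]; exact t1
  have s10 : ∑ u ∈ c.S, ∑ v ∈ c.S, |f u| / c.m * vr c.F v ≤ 2 * √c.m * √r := by
    rw [← sum_mul_sum, ← sum_div]
    have h1 := sum_absf hK a
    rw [Real.sqrt_mul hm.le] at h1
    refine (mul_le_mul (div_le_div_of_nonneg_right h1 hm.le) (sum_vr_le hK)
      (sum_nonneg fun u _ => hvr u) (by positivity)).trans (le_of_eq ?_)
    rw [← hr]; field_simp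
  have s11 : ∑ u ∈ c.S, ∑ _v ∈ c.S, rr c.F u / c.m ^ 2 = a2 c.F / c.m := by
    have : ∀ u, rr c.F u / c.m ^ 2 = rr c.F u / c.m / c.m := fun u => by field_simp
    simp only [this, cm]
    rw [← sum_div, c.oF.mat.a2_eq]
  have lP : Le c.p.K (√P) ((c.μ + 13 + 1 / 50) / 2) := (le_P hK).sqrt hK
  have lP2 : Le c.p.K P2 (450 + c.ϱ + 1 / 50) :=
    (((sz_TD hK).2.cmul hK (by norm_num) (by norm_num)).of_le (P2_le hK)).mono hK (by linarith)
  have lR := (sz_R hK).2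
  have c1 : Le c.p.K (2 * (√(16 * c.R) * √P + 1 / 2 * √(c.p.T4 c.m) + √P * √P2
      + √P2 * (c.L * √c.R) + c.R * P2)) (min (c.μ - 2) 6699) := by
    have l1 : Le c.p.K (√(16 * c.R) * √P) _ :=
      ((((lR.cmul hK (C := 4) (by norm_num) (by norm_num)).cmul hK (C := 4) (by norm_num)
        (by norm_num)).of_le (le_of_eq (by ring : 16 * c.R = _))).sqrt hK).mul hK lP
        (Real.sqrt_nonneg _)
    have l2 := ((sz_T4 hK).2.sqrt hK).cmul hK (C := 1 / 2) (by norm_num) (by norm_num)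
    have l3 := lP.mul hK (lP2.sqrt hK) (Real.sqrt_nonneg _)
    have l4 := (lP2.sqrt hK).mul hK ((sz_L hK).2.mul hK (lR.sqrt hK) (Real.sqrt_nonneg _))
      (by positivity)
    have l5 := lR.mul hK lP2 hP20
    obtain ⟨g, hg, g1, g2⟩ : ∃ g, g + 1 = min (c.μ - 2) 6699 ∧ (6701 ≤ c.μ → g = 6698)
        ∧ (c.μ ≤ 6701 → g = c.μ - 3) := by
      refine ⟨min (c.μ - 2) 6699 - 1, by ring, fun h => ?_, fun h => ?_⟩
      · rw [min_eq_right (by linarith)]; norm_num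
      · rw [min_eq_left (by linarith)]; ring
    rw [← hg]
    have q : (2525 + c.ϱ / 2 + c.μ + 14) / 2 ≤ g ∧ c.τ / 2 + 1 ≤ g
        ∧ (2976 + 3 / 2 * c.ϱ) / 2 + c.τ / 4 ≤ g ∧ 2976 + 3 / 2 * c.ϱ ≤ g := by
      rcases c.cases_W with ⟨h1, h2, h3⟩ | ⟨h1, h2, h3⟩ <;> rcases le_total c.μ 6701 with h | h
      all_goals first
        | (have := g1 h; refine ⟨?_, ?_, ?_, ?_⟩ <;> linarith)
        | (have := g2 h; refine ⟨?_, ?_, ?_, ?_⟩ <;> linarith)
    obtain ⟨q1, q2, q3, q4⟩ := q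
    have m1 := l1.add hK l2 (g := g) (by linarith) (by linarith)
    have m2 := m1.add hK l3 le_rfl (by linarith)
    have m3 := m2.add hK l4 le_rfl (by linarith)
    have m4 := m3.add hK l5 le_rfl (by linarith)
    exact (m4.cmul hK (by norm_num) (by norm_num)).mono hK (by linarith)
  have c2 : Le c.p.K (2 * (√(10 * c.m) + 13 * c.R)) (c.μ / 2 + 1) := by
    have l1 := ((le_m hK).cmul hK (C := 10) (by norm_num) le_rfl).sqrt hK
    have l2 : Le c.p.K (13 * c.R) _ :=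
      ((lR.cmul hK (C := 13 / 2) (by norm_num) (by norm_num)).cmul hK (C := 2) (by norm_num)
        (by norm_num)).of_le (le_of_eq (by ring))
    have q : 2525 + c.ϱ / 2 ≤ c.μ / 2 := by
      rcases c.cases_W with ⟨h1, h2, h3⟩ | ⟨h1, h2, h3⟩ <;> linarith
    exact ((l1.add hK l2 (g := c.μ / 2 + 1 / 10) (by linarith) (by linarith)).cmul hK (by norm_num)
      (by norm_num)).mono hK (by linarith)
  have c3 : Le c.p.K (2 * (√P + 2 * √c.m)) (c.μ / 2 + 7) :=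
    ((lP.add hK (((le_m hK).sqrt hK).cmul hK (C := 2) (by norm_num) (by norm_num)) le_rfl
      (by linarith)).cmul hK (by norm_num) (by norm_num)).mono hK (by linarith)
  have d1 := mul_le_mul_of_nonneg_right c1 hr0
  have d2 := mul_le_mul_of_nonneg_right c2 (Real.sqrt_nonneg (r * cc c.F a))
  have d3 := mul_le_mul_of_nonneg_right c3 (Real.sqrt_nonneg r)
  rw [e2]
  simp only [H, sum_add_distrib, ← mul_sum (a := (1 / 2 : ℝ))]
  have : 2 * a2 c.F / c.m = 2 * (a2 c.F / c.m) := by ring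
  linarith
end Ctx

/-- (D) pointwise form of `pt5`. -/
theorem pt5' : ∃ C : ℝ, 0 ≤ C ∧ ∀ (ι : Type) [Fintype ι] [DecidableEq ι] (c : Ctx ι),
    Big c.p.K → ∀ u v a, c.w u v ≠ 0 → a ∈ rem c.S u v →
    |rr (c.F' u v) a - rr c.F a - main5 c.σ c.F u v a| ≤ C * err5 c.S c.F u v a ∧
    |rr (c.F' u v) a - rr c.F a
        - (c.F a u ^ 2 * (rr c.F v - 1) + c.F a v ^ 2 * (rr c.F u - 1))|
      ≤ C * (jb c.S c.F c.p.K u v a + jb c.S c.F c.p.K v u a) := by
  obtain ⟨C, hC, h⟩ := pt5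
  refine ⟨3 * C + 2, by linarith, fun ι _ _ c hK u v a hw ha => ?_⟩
  have h1 := h ι c.σ c.S c.F u v a (Ctx.loc hK hw) ha
  have e0 := Ctx.err5_nonneg hK u v a
  refine ⟨h1.trans (by nlinarith), ?_⟩
  have hσ : |c.σ| = 1 := by rcases c.sg with h | h <;> simp [h]
  have hK0 := hK.pos
  have hKi := Ctx.inv_K_le hK
  have hpd := pd_nonneg c.S c.F
  have hD : ∀ u, |c.F u u| ≤ pd c.S c.F u := fun u => by
    unfold pd; have : (0 : ℝ) ≤ 1 / c.S.card := by positivity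
    linarith
  have hmi : 1 / (c.S.card : ℝ) ≤ 1 / c.p.K := one_div_le_one_div_of_le hK0 (Ctx.K_le_m hK)
  have hp2 : ∀ u, pd c.S c.F u ≤ 2 * (1 / c.p.K) := fun u => by
    have := Ctx.pd_le hK u
    rwa [show 2 / c.p.K = 2 * (1 / c.p.K) by ring] at this
  have hf : |c.F u v| ≤ 1 / c.p.K := (c.wt.supp u v hw).2.2.2.1
  have hph : ph c.S c.F u v ≤ 2 * (1 / c.p.K) := by unfold ph; linarith
  have hph0 : ph0 c.S c.F u v ≤ 3 * (1 / c.p.K) := by
    have := mul_le_mul (hp2 u) (hp2 v) (hpd v) (by positivity)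
    have h3 : 0 ≤ 1 / c.p.K := by positivity
    unfold ph0; nlinarith
  have hpe : ∀ u v, ph c.S c.F u v ≤ 2 * (1 / c.p.K) → pe c.S c.F u v ≤ 2 * pd c.S c.F v := by
    intro u v hph
    have h1 : 1 / (c.S.card : ℝ) ≤ pd c.S c.F v := by
      unfold pd; linarith [abs_nonneg (c.F v v)]
    have := hp2 v
    have := hpd v
    unfold pe; nlinarith
  have pe1 := hpe u v hph
  have pe2 := hpe v u (by rwa [Ctx.ph_symm hK])
  have hvr : ∀ u, vr c.F u ≤ 2 + |rr c.F u - 1| := fun u => by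
    unfold vr; linarith [le_abs_self (rr c.F u - 1)]
  have g1 : ∀ (f2 x : ℝ) (w : ι), 0 ≤ f2 → ph0 c.S c.F u v * (f2 * vr c.F w)
      ≤ 2 * (ph0 c.S c.F u v * f2) + 3 * (f2 * |rr c.F w - 1| / c.p.K) := by
    intro f2 _ w h0
    have p0 := ph0_nonneg c.S c.F u v
    have q1 := mul_le_mul_of_nonneg_left (hvr w) (mul_nonneg p0 h0)
    have q2 := mul_le_mul_of_nonneg_right hph0 (mul_nonneg h0 (abs_nonneg (rr c.F w - 1)))
    have : f2 * |rr c.F w - 1| / c.p.K = 1 / c.p.K * (f2 * |rr c.F w - 1|) := by ring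
    nlinarith
  have hph1 : ph0 c.S c.F u v ≤ 1 := by linarith
  have h2 : err5 c.S c.F u v a ≤ 3 * (jb c.S c.F c.p.K u v a + jb c.S c.F c.p.K v u a) := by
    have j1 := g1 (c.F a u ^ 2) 0 v (sq_nonneg _)
    have j2 := g1 (c.F a v ^ 2) 0 u (sq_nonneg _)
    have j3 := mul_le_of_le_one_left (abs_nonneg (c.F a v * (c.F * c.F) a u)) hph1
    have j4 := mul_le_of_le_one_left (abs_nonneg (c.F a u * (c.F * c.F) a v)) hph1
    have j5 := mul_le_mul_of_nonneg_right pe1 (abs_nonneg (c.F a u * (c.F * c.F) a u))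
    have j6 := mul_le_mul_of_nonneg_right pe2 (abs_nonneg (c.F a v * (c.F * c.F) a v))
    have p0 := ph0_nonneg c.S c.F u v
    have r1 := c.oF.mat.rr_nonneg u
    have r2 := c.oF.mat.rr_nonneg v
    have v1 : 0 ≤ vr c.F u := by unfold vr; linarith
    have v2 : 0 ≤ vr c.F v := by unfold vr; linarith
    have pu := hpd u
    have pv := hpd v
    have key : 0 ≤ 2 * |c.F a v * (c.F * c.F) a u| + pd c.S c.F v * |c.F a u * (c.F * c.F) a u|
        + ph0 c.S c.F u v * c.F a u ^ 2 + 2 * |c.F a u * (c.F * c.F) a v|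
        + pd c.S c.F u * |c.F a v * (c.F * c.F) a v| + ph0 c.S c.F u v * c.F a v ^ 2
        + 5 * (|c.F a u * c.F a v| * |(c.F * c.F) u v|)
        + 2 * (|c.F a u * c.F a v| * (pd c.S c.F v * vr c.F u)
          + |c.F a u * c.F a v| * (pd c.S c.F u * vr c.F v)
          + c.F a u ^ 2 * (pd c.S c.F v * |(c.F * c.F) u v|)
          + c.F a v ^ 2 * (pd c.S c.F u * |(c.F * c.F) u v|)
          + c.F a u ^ 2 * (pd c.S c.F v ^ 2 * vr c.F u) + c.F a v ^ 2 * (pd c.S c.F u ^ 2 * vr c.F v)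
          + (|(c.F * c.F) a u| + |(c.F * c.F) a v| + (|c.F a u| + |c.F a v|)
            * (vr c.F u + vr c.F v)) / c.S.card + (rr c.F u + rr c.F v) / (c.S.card : ℝ) ^ 2) := by
      positivity
    simp only [err5, jb, Ctx.ph0_symm hK u v, Ctx.FF_symm hK u v, mul_comm (c.F a v) (c.F a u)]
    ring_nf at j1 j2 j3 j4 j5 j6 key ⊢
    linarith
  have h3 : |main5 c.σ c.F u v a - (c.F a u ^ 2 * (rr c.F v - 1) + c.F a v ^ 2 * (rr c.F u - 1))|
      ≤ 2 * (jb c.S c.F c.p.K u v a + jb c.S c.F c.p.K v u a) := by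
    have e : main5 c.σ c.F u v a - (c.F a u ^ 2 * (rr c.F v - 1) + c.F a v ^ 2 * (rr c.F u - 1))
        = 2 * (c.σ * (c.F a v * (c.F * c.F) a u) + c.F v v * (c.F a u * (c.F * c.F) a u)
          + (c.σ * (c.F a u * (c.F * c.F) a v) + c.F u u * (c.F a v * (c.F * c.F) a v))) := by
      unfold main5; ring
    have half : ∀ u v, |c.σ * (c.F a v * (c.F * c.F) a u) + c.F v v * (c.F a u * (c.F * c.F) a u)|
        ≤ jb c.S c.F c.p.K u v a := fun u v => by
      refine (abs_add_le _ _).trans ?_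
      rw [abs_mul c.σ, hσ, one_mul, abs_mul (c.F v v)]
      have := mul_le_mul_of_nonneg_right (hD v) (abs_nonneg (c.F a u * (c.F * c.F) a u))
      have p0 := ph0_nonneg c.S c.F u v
      have r1 := c.oF.mat.rr_nonneg u
      have r2 := c.oF.mat.rr_nonneg v
      have v1 : 0 ≤ vr c.F u := by unfold vr; linarith
      have v2 : 0 ≤ vr c.F v := by unfold vr; linarith
      have pv := hpd v
      have key : 0 ≤ ph0 c.S c.F u v * c.F a u ^ 2
        + c.F a u ^ 2 * |rr c.F v - 1| / c.p.K + |c.F a u * c.F a v| * |(c.F * c.F) u v|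
        + |c.F a u * c.F a v| * (pd c.S c.F v * vr c.F u)
        + c.F a u ^ 2 * (pd c.S c.F v * |(c.F * c.F) u v|)
        + c.F a u ^ 2 * (pd c.S c.F v ^ 2 * vr c.F u) + |(c.F * c.F) a u| / c.S.card
        + |c.F a u| * vr c.F u / c.S.card
        + |c.F a u| * vr c.F v / c.S.card + rr c.F u / (c.S.card : ℝ) ^ 2 := by positivity
      unfold jb; linarith
    rw [e, abs_mul, abs_two]
    exact mul_le_mul_of_nonneg_left ((abs_add_le _ _).trans (add_le_add (half u v) (half v u)))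
      zero_le_two
  have h4 := mul_le_mul_of_nonneg_left h2 hC
  have h1' : |rr (c.F' u v) a - rr c.F a - main5 c.σ c.F u v a| ≤ C * err5 c.S c.F u v a := h1
  rw [abs_le] at h1' h3 ⊢
  constructor <;> nlinarith

end Crest.Agent.R62
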