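import Crest.Agent.R62.TrXAux
import Crest.Agent.R62.TrR4Aux

set_option autoImplicit false

open Finset Matrix

namespace Crest.Agent.R62

variable {ι V : Type} [Fintype ι] [DecidableEq ι] [Fintype V] [DecidableEq V]

namespace TrXY
open TrXX Ctx

theorem sq12 (a b c d e f g h i j k l : ℝ) : (a + b + c + d + e + f + g + h + i + j + k + l) ^ 2
    ≤ 12 * (a ^ 2 + b ^ 2 + c ^ 2 + d ^ 2 + e ^ 2 + f ^ 2 + g ^ 2 + h ^ 2 + i ^ 2 + j ^ 2 + k ^ 2
      + l ^ 2) := by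
  have := sq_sum_le_card_mul_sum_sq (s := (univ : Finset (Fin 12)))
    (f := ![a, b, c, d, e, f, g, h, i, j, k, l])
  simp only [Fin.sum_univ_succ, Fin.sum_univ_zero, card_univ, Fintype.card_fin, Matrix.cons_val_zero,
    Matrix.cons_val_succ] at this
  push_cast at this
  calc _ = (a + (b + (c + (d + (e + (f + (g + (h + (i + (j + (k + (l + 0)))))))))))) ^ 2 := by ring
    _ ≤ _ := this
    _ = _ := by ring

variable {c : Ctx ι} (hK : Big c.p.K)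
include hK

theorem sum_col (u : ι) : ∑ a ∈ c.S, c.F a u ^ 2 = rr c.F u := by
  simp only [c.oF.mat.symm _ u, sum_f_sq hK]
theorem sum_colY (u : ι) : ∑ a ∈ c.S, (c.F * c.F) a u ^ 2 = cc c.F u := by
  simp only [FF_symm hK u, sum_Y_sq hK]

/-- bound on `Σ_a jb²` -/
noncomputable def JB (c : Ctx ι) (u v : ι) : ℝ :=
  ∑ a ∈ c.S, (c.F * c.F) a u ^ 2 * c.F a v ^ 2 + ph0 c.S c.F u v ^ 2 * rr c.F u
    + rr c.F u * (rr c.F v - 1) ^ 2 / c.p.K ^ 2 + (c.F * c.F) u v ^ 2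
    + 6 * c.R * (vr c.F u ^ 2 * pd c.S c.F v ^ 2) + c.R * (pd c.S c.F u ^ 2 * vr c.F v ^ 2)
    + cc c.F u / c.m

theorem JB_nonneg (u v : ι) : 0 ≤ JB c u v := by
  have := c.oF.mat.rr_nonneg u
  have := cc_nonneg hK u
  have := one_le_R hK
  have := m_pos hK
  unfold JB; positivity

theorem hh_le {u v : ι} (h : c.w u v ≠ 0) :
    ∑ a ∈ c.S, c.F a u ^ 2 * c.F a v ^ 2 ≤ 1 / c.p.K ^ 20 :=
  le_trans (sum_le_sum_of_subset_of_nonneg (subset_univ _) fun _ _ _ => by positivity)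
    (c.wt.supp u v h).2.2.2.2.2.1

theorem jb_sq {u v : ι} (h : c.w u v ≠ 0) :
    ∑ a ∈ c.S, jb c.S c.F c.p.K u v a ^ 2 ≤ 12 * JB c u v := by
  have hm := m_pos hK
  have hK0 := hK.pos
  have ru := c.oF.mat.rr_nonneg u
  have rv := c.oF.mat.rr_nonneg v
  have hR := one_le_R hK
  have Ru := rr_le_R hK u
  have Rv := rr_le_R hK v
  have ho := Y_sq_le hK u v
  have hh1 : ∑ a ∈ c.S, c.F a u ^ 2 * c.F a v ^ 2 ≤ 1 :=
    (hh_le hK h).trans (by rw [div_le_one (by positivity)]; exact one_le_pow₀ hK.one_lt.le)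
  set pu := pd c.S c.F u
  set pv := pd c.S c.F v
  have pv0 : 0 ≤ pv := pd_nonneg _ _ _
  have pv1 : pv ≤ 1 := pd_le_one hK v
  have mi : ∀ w, (1 / c.m) ^ 2 ≤ pd c.S c.F w ^ 2 := fun w =>
    pow_le_pow_left₀ (by positivity) (by unfold pd; linarith [abs_nonneg (c.F w w), show c.m = c.S.card from rfl, show 1 / c.m = 1 / (c.S.card : ℝ) from rfl]) 2
  set r := rr c.F u
  set o := (c.F * c.F) u v
  set ϱ := vr c.F u with hϱ
  have rϱ : r ^ 2 ≤ ϱ ^ 2 := pow_le_pow_left₀ ru (by rw [hϱ]; unfold vr; linarith) 2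
  have pt : ∀ a ∈ c.S, jb c.S c.F c.p.K u v a ^ 2 ≤ 12 * ((c.F * c.F) a u ^ 2 * c.F a v ^ 2
      + (pv ^ 2 * (c.R * r) + ph0 c.S c.F u v ^ 2 + (rr c.F v - 1) ^ 2 / c.p.K ^ 2
        + pv ^ 2 * (r * c.R) + pv ^ 2 * ϱ ^ 2 + (1 / c.m) ^ 2 * ϱ ^ 2
        + (1 / c.m) ^ 2 * vr c.F v ^ 2) * c.F a u ^ 2
      + (o ^ 2 + pv ^ 2 * ϱ ^ 2) * (c.F a u ^ 2 * c.F a v ^ 2)
      + (1 / c.m) ^ 2 * (c.F * c.F) a u ^ 2 + (1 / c.m) ^ 4 * r ^ 2) := by
    intro a _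
    refine (sq12 _ _ _ _ _ _ _ _ _ _ _ _).trans (mul_le_mul_of_nonneg_left ?_ (by norm_num))
    have f1 : c.F a u ^ 2 ≤ 1 := (TrR4X.f_sq hK a u).trans (by norm_num)
    have f0 := sq_nonneg (c.F a u)
    have hY : (c.F * c.F) a u ^ 2 ≤ c.R * r :=
      (Y_sq_le hK a u).trans (mul_le_mul_of_nonneg_right (rr_le_R hK a) ru)
    have ho' : o ^ 2 ≤ r * c.R := ho.trans (mul_le_mul_of_nonneg_left Rv ru)
    have f4 : (c.F a u ^ 2) ^ 2 ≤ c.F a u ^ 2 := by nlinarith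
    have e1 := mul_le_mul_of_nonneg_left hY (by positivity : 0 ≤ pv ^ 2 * c.F a u ^ 2)
    have e2 := mul_le_mul_of_nonneg_left f4 (sq_nonneg (ph0 c.S c.F u v))
    have e3 := mul_le_mul_of_nonneg_left f4 (by positivity : 0 ≤ (rr c.F v - 1) ^ 2 / c.p.K ^ 2)
    have e4 := mul_le_mul f4 (mul_le_mul_of_nonneg_left ho' (sq_nonneg pv)) (by positivity) f0
    have p4 : (pv ^ 2) ^ 2 ≤ pv ^ 2 := by
      have : pv ^ 2 ≤ 1 := pow_le_one₀ pv0 pv1
      nlinarith [sq_nonneg pv]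
    have e5 := mul_le_mul f4 (mul_le_mul_of_nonneg_right p4 (sq_nonneg ϱ)) (by positivity) f0
    have em : (c.S.card : ℝ) = c.m := rfl
    simp only [mul_pow, div_pow, sq_abs, em]
    ring_nf at e1 e2 e3 e4 e5 ⊢
    linarith
  refine (sum_le_sum pt).trans ?_
  rw [← mul_sum]
  refine mul_le_mul_of_nonneg_left ?_ (by norm_num)
  simp only [sum_add_distrib, ← mul_sum, sum_col hK, sum_colY hK, sum_const, nsmul_eq_mul]
  have em : (c.S.card : ℝ) = c.m := rfl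
  have im := inv_m_le hK
  have im0 : 0 ≤ 1 / c.m := by positivity
  have g1 := mul_le_of_le_one_right (by positivity : 0 ≤ o ^ 2 + pv ^ 2 * ϱ ^ 2) hh1
  have g2 : (1 / c.m) ^ 2 * cc c.F u ≤ cc c.F u / c.m := by
    have := cc_nonneg hK u
    have h3 : (1 / c.m) ^ 2 ≤ 1 / c.m := by nlinarith
    calc _ ≤ 1 / c.m * cc c.F u := mul_le_mul_of_nonneg_right h3 this
      _ = _ := by ring
  have g3 : c.m * ((1 / c.m) ^ 4 * r ^ 2) ≤ pv ^ 2 * ϱ ^ 2 := by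
    have : c.m * ((1 / c.m) ^ 4 * r ^ 2) = 1 / c.m * ((1 / c.m) ^ 2 * r ^ 2) := by field_simp
    rw [this]
    exact (mul_le_of_le_one_left (by positivity) im).trans
      (mul_le_mul (mi v) rϱ (by positivity) (by positivity))
  have g4 := mul_le_mul_of_nonneg_left rϱ (by positivity : 0 ≤ pv ^ 2 * c.R)
  have g5 := mul_le_mul_of_nonneg_left Ru (by positivity : 0 ≤ pv ^ 2 * ϱ ^ 2)
  have g6 := mul_le_mul (mul_le_mul_of_nonneg_right (mi v) (sq_nonneg ϱ)) Ru ru (by positivity)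
  have g7 := mul_le_mul (mul_le_mul_of_nonneg_right (mi u) (sq_nonneg (vr c.F v))) Ru ru
    (by positivity)
  have g8 := mul_le_mul_of_nonneg_left hR (by positivity : 0 ≤ pv ^ 2 * ϱ ^ 2)
  rw [em]
  unfold JB
  ring_nf at g1 g2 g3 g4 g5 g6 g7 g8 ⊢
  linarith

theorem s1_le : ∑ a ∈ c.S, |rr c.F a - 1| * rr c.F a ≤ √(X2 c.S c.F) * √(R2 c.S c.F) := by
  have := sum_mul_le_sqrt c.S (fun a => rr c.F a - 1) (rr c.F)
  simpa only [abs_of_nonneg (c.oF.mat.rr_nonneg _), X2, R2] using this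

theorem s3_le : ∑ a ∈ c.S, |rr c.F a - 1| * √(cc c.F a) ≤ √(X2 c.S c.F) * √(c.p.T4 c.m) := by
  have := sum_mul_le_sqrt c.S (fun a => rr c.F a - 1) (fun a => √(cc c.F a))
  simp only [abs_of_nonneg (Real.sqrt_nonneg _), Real.sq_sqrt (cc_nonneg hK _), sum_cc hK] at this
  exact this.trans (mul_le_mul_of_nonneg_left (Real.sqrt_le_sqrt c.oF.a4_T) (Real.sqrt_nonneg _))

theorem s2_le : ∑ a ∈ c.S, |rr c.F a - 1| * √(rr c.F a * cc c.F a)
    ≤ 2 * c.L * X2 c.S c.F + 2 * (√(X2 c.S c.F) * √(c.p.T4 c.m)) := by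
  have hL0 : 0 ≤ c.L := le_trans zero_le_one (one_le_L hK)
  have pt : ∀ a ∈ c.S, |rr c.F a - 1| * √(rr c.F a * cc c.F a)
      ≤ 2 * c.L * (rr c.F a - 1) ^ 2 + 2 * (|rr c.F a - 1| * √(cc c.F a)) := by
    intro a _
    have hr := c.oF.mat.rr_nonneg a
    have hc := Real.sqrt_nonneg (cc c.F a)
    have hx := abs_nonneg (rr c.F a - 1)
    rw [Real.sqrt_mul hr]
    rcases le_total (rr c.F a) 2 with h | h
    · have : √(rr c.F a) ≤ 2 := Real.sqrt_le_iff.2 ⟨by norm_num, by linarith⟩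
      have := mul_le_mul_of_nonneg_left (mul_le_mul_of_nonneg_right this hc) hx
      nlinarith [mul_nonneg hL0 (sq_nonneg (rr c.F a - 1))]
    · have h1 := mul_le_mul_of_nonneg_left (sqrt_cc_le hK a) (Real.sqrt_nonneg (rr c.F a))
      have h2 := Real.mul_self_sqrt hr
      have h3 : √(rr c.F a) * √(cc c.F a) ≤ c.L * (2 * (rr c.F a - 1)) := by nlinarith
      rw [abs_of_nonneg (by linarith : 0 ≤ rr c.F a - 1)]
      have := mul_le_mul_of_nonneg_left h3 (by linarith : 0 ≤ rr c.F a - 1)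
      nlinarith [mul_nonneg (by linarith : 0 ≤ rr c.F a - 1) hc]
  refine (sum_le_sum pt).trans ?_
  rw [sum_add_distrib, ← mul_sum, ← mul_sum]
  have := s3_le hK
  unfold X2 at *
  linarith

theorem JB_sum (hX : c.p.phX c.m) : Le c.p.K (∑ u ∈ c.S, ∑ v ∈ c.S, JB c u v) (13401 + 1 / 2) := by
  have hμ := (phX_iff hK).1 hX
  have hμ' := μ_hi hK
  obtain ⟨-, hϱ, hτ⟩ | ⟨h, -⟩ := c.cases_W
  swap
  · linarith
  have hm := m_pos hK
  have hK0 := hK.pos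
  have hL0 : 0 ≤ c.L := le_trans zero_le_one (one_le_L hK)
  have hR0 : 0 ≤ c.R := le_trans zero_le_one (one_le_R hK)
  have hT0 := ((sz_TD hK).1.pos hK).le
  set P := ∑ a ∈ c.S, vr c.F a ^ 2 with hP
  set P2 := ∑ a ∈ c.S, pd c.S c.F a ^ 2 with hP2
  have hP0 : 0 ≤ P := sum_nonneg fun _ _ => sq_nonneg _
  have hP20 : 0 ≤ P2 := sum_nonneg fun _ _ => sq_nonneg _
  have hX0 : 0 ≤ X2 c.S c.F := sum_nonneg fun _ _ => sq_nonneg _
  have t1 : ∑ u ∈ c.S, ∑ v ∈ c.S, ∑ a ∈ c.S, (c.F * c.F) a u ^ 2 * c.F a v ^ 2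
      ≤ c.p.T4 c.m + c.L ^ 2 * (√(X2 c.S c.F) * √(R2 c.S c.F)) := by
    have e : ∑ u ∈ c.S, ∑ v ∈ c.S, ∑ a ∈ c.S, (c.F * c.F) a u ^ 2 * c.F a v ^ 2
        = ∑ a ∈ c.S, cc c.F a * rr c.F a := by
      rw [sum_congr rfl fun u _ => sum_comm, sum_comm]
      exact sum_congr rfl fun a _ => by rw [← sum_mul_sum, sum_Y_sq hK, sum_f_sq hK]
    rw [e]
    have pt : ∀ a ∈ c.S, cc c.F a * rr c.F a
        ≤ cc c.F a + c.L ^ 2 * (|rr c.F a - 1| * rr c.F a) := fun a _ => by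
      have h1 := mul_le_mul_of_nonneg_left (le_abs_self (rr c.F a - 1)) (cc_nonneg hK a)
      have h2 := mul_le_mul_of_nonneg_right (cc_le hK a) (abs_nonneg (rr c.F a - 1))
      nlinarith
    refine (sum_le_sum pt).trans ?_
    rw [sum_add_distrib, ← mul_sum, sum_cc hK]
    exact add_le_add c.oF.a4_T (mul_le_mul_of_nonneg_left (s1_le hK) (sq_nonneg _))
  have t2 : ∑ u ∈ c.S, ∑ v ∈ c.S, ph0 c.S c.F u v ^ 2 * rr c.F u
      ≤ 4 * R2 c.S c.F + 4 + 8 * (c.p.TD c.m * c.R * P2) := by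
    have pt : ∀ u ∈ c.S, ∑ v ∈ c.S, ph0 c.S c.F u v ^ 2 * rr c.F u
        ≤ 4 * rr c.F u ^ 2 + 4 / c.m * rr c.F u + 8 * (c.p.TD c.m * c.R) * pd c.S c.F u ^ 2 := by
      intro u _
      rw [← sum_mul]
      have h1 := mul_le_mul_of_nonneg_right (sum_ph0_sq hK u) (c.oF.mat.rr_nonneg u)
      have h2 := mul_le_mul_of_nonneg_left (rr_le_R hK u)
        (by positivity : 0 ≤ 8 * c.p.TD c.m * pd c.S c.F u ^ 2)
      nlinarith
    refine (sum_le_sum pt).trans ?_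
    rw [sum_add_distrib, sum_add_distrib, ← mul_sum, ← mul_sum, ← mul_sum, ← c.oF.mat.a2_eq]
    have h1 : 4 / c.m * a2 c.F ≤ 4 := by
      rw [div_mul_eq_mul_div, div_le_iff₀ hm]; linarith [a2_le_m hK]
    unfold R2; linarith
  have t3 : ∑ u ∈ c.S, ∑ v ∈ c.S, rr c.F u * (rr c.F v - 1) ^ 2 / c.p.K ^ 2
      ≤ c.m * X2 c.S c.F / c.p.K ^ 2 := by
    simp only [← sum_div]
    rw [← sum_mul_sum, ← c.oF.mat.a2_eq]
    exact div_le_div_of_nonneg_right (mul_le_mul_of_nonneg_right (a2_le_m hK) hX0) (by positivity)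
  have t4 : ∑ u ∈ c.S, ∑ v ∈ c.S, (c.F * c.F) u v ^ 2 ≤ c.p.T4 c.m := by
    rw [sum2_o_sq hK]; exact c.oF.a4_T
  have t5 : ∑ u ∈ c.S, ∑ v ∈ c.S, 6 * c.R * (vr c.F u ^ 2 * pd c.S c.F v ^ 2)
      = 6 * (c.R * (P * P2)) := by
    simp only [← mul_sum, ← sum_mul]; ring
  have t6 : ∑ u ∈ c.S, ∑ v ∈ c.S, c.R * (pd c.S c.F u ^ 2 * vr c.F v ^ 2) = c.R * (P * P2) := by
    simp only [← mul_sum, ← sum_mul]; ring
  have t7 : ∑ u ∈ c.S, ∑ _v ∈ c.S, cc c.F u / c.m ≤ c.p.T4 c.m := by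
    refine le_trans (le_of_eq ?_) c.oF.a4_T
    rw [← sum_cc hK]
    exact sum_congr rfl fun u _ => by
      rw [sum_const, nsmul_eq_mul]; show c.m * _ = _; field_simp
  have lX : Le c.p.K (X2 c.S c.F) (13403 - c.μ + 1 / 100) := (sz_TX hK).2.of_le (c.oF.X2_T hX)
  have lR2 : Le c.p.K (R2 c.S c.F) (c.μ + 1 / 100) :=
    ((le_m hK).cmul hK (by norm_num) (by norm_num)).of_le (R2_le_X hK hX)
  have lP : Le c.p.K P (c.μ + 1 / 100) :=
    ((le_m hK).cmul hK (by norm_num) (by norm_num)).of_le (P_le_X hK hX)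
  have lP2 : Le c.p.K P2 _ := ((sz_TD hK).2.cmul hK (by norm_num) (by norm_num)).of_le (P2_le hK)
  have l1 := (sz_T4 hK).2.cmul hK (C := 3) (by norm_num) (by norm_num)
  have l2 := ((sz_L hK).2.pow hK hL0 2).mul hK ((lX.sqrt hK).mul hK (lR2.sqrt hK)
    (Real.sqrt_nonneg _)) (by positivity)
  have l3 := lR2.cmul hK (C := 4) (by norm_num) (by norm_num)
  have l4 := (Le.one (K := c.p.K)).cmul hK (C := 4) (by norm_num) (by norm_num)
  have l5 := (((sz_TD hK).2.mul hK (sz_R hK).2 hR0).mul hK lP2 hP20).cmul hK (C := 8)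
    (by norm_num) (by norm_num)
  have l6 := ((le_m hK).mul hK lX hX0).div hK (Ge.K_pow 2)
  have l7 := ((sz_R hK).2.mul hK (lP.mul hK lP2 hP20) (by positivity)).cmul hK (C := 7)
    (by norm_num) (by norm_num)
  have m1 := l1.add hK l2 (g := 13401 + 1 / 10) (by linarith) (by push_cast; linarith)
  have m2 := m1.add hK l3 le_rfl (by linarith)
  have m3 := m2.add hK l4 le_rfl (by linarith)
  have m4 := m3.add hK l5 le_rfl (by linarith)
  have m5 := m4.add hK l6 le_rfl (by push_cast; linarith)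
  have m6 := m5.add hK l7 le_rfl (by linarith)
  refine (m6.mono hK (by linarith)).of_le ?_
  simp only [JB, sum_add_distrib]
  linarith

/-- pointwise expansion -/
theorem pointwise {C : ℝ} (hC : 0 ≤ C) {u v : ι} (h : c.w u v ≠ 0)
    (hp : ∀ a ∈ rem c.S u v,
      |rr (c.F' u v) a - rr c.F a - main5 c.σ c.F u v a| ≤ C * err5 c.S c.F u v a ∧
      |rr (c.F' u v) a - rr c.F a
          - (c.F a u ^ 2 * (rr c.F v - 1) + c.F a v ^ 2 * (rr c.F u - 1))|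
        ≤ C * (jb c.S c.F c.p.K u v a + jb c.S c.F c.p.K v u a)) :
    X2 (rem c.S u v) (c.F' u v) ≤ X2 c.S c.F - (rr c.F u - 1) ^ 2 - (rr c.F v - 1) ^ 2
      + 2 * ∑ a ∈ c.S, (rr c.F a - 1) * main5 c.σ c.F u v a
      + ((2 * (|rr c.F u - 1| * |main5 c.σ c.F u v u|)
          + C * ∑ a ∈ c.S, |rr c.F a - 1| * err5 c.S c.F u v a
          + 5 / 8 * (rr c.F u * (rr c.F v - 1) ^ 2)
          + 2 / c.p.K ^ 20 * (|rr c.F u - 1| * |rr c.F v - 1|) + 300 * C ^ 2 * JB c u v)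
        + (2 * (|rr c.F v - 1| * |main5 c.σ c.F v u v|)
          + C * ∑ a ∈ c.S, |rr c.F a - 1| * err5 c.S c.F v u a
          + 5 / 8 * (rr c.F v * (rr c.F u - 1) ^ 2)
          + 2 / c.p.K ^ 20 * (|rr c.F v - 1| * |rr c.F u - 1|) + 300 * C ^ 2 * JB c v u)) := by
  obtain ⟨huv, hu, hv, -⟩ := c.wt.supp u v h
  have h' : c.w v u ≠ 0 := by rwa [c.wt.symm]
  set xu := rr c.F u - 1
  set xv := rr c.F v - 1
  let φ : ι → ℝ := fun a => 2 * C * (|rr c.F a - 1| * err5 c.S c.F u v a)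
    + 5 / 8 * xv ^ 2 * c.F a u ^ 2 + 5 / 8 * xu ^ 2 * c.F a v ^ 2
    + 3 * (|xu| * |xv|) * (c.F a u ^ 2 * c.F a v ^ 2)
    + 22 * C ^ 2 * jb c.S c.F c.p.K u v a ^ 2 + 22 * C ^ 2 * jb c.S c.F c.p.K v u a ^ 2
  have pt : ∀ a ∈ rem c.S u v, (rr (c.F' u v) a - 1) ^ 2
      ≤ (rr c.F a - 1) ^ 2 + 2 * ((rr c.F a - 1) * main5 c.σ c.F u v a) + φ a := by
    intro a ha
    obtain ⟨h1, h2⟩ := hp a ha
    set x := rr c.F a - 1
    set Δ := rr (c.F' u v) a - rr c.F a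
    set p := c.F a u ^ 2 * xv
    set q := c.F a v ^ 2 * xu
    set j := jb c.S c.F c.p.K u v a
    set j' := jb c.S c.F c.p.K v u a
    have e : rr (c.F' u v) a - 1 = x + Δ := by simp only [x, Δ]; ring
    have k1 : x * (Δ - main5 c.σ c.F u v a) ≤ |x| * (C * err5 c.S c.F u v a) :=
      (le_abs_self _).trans (by rw [abs_mul]; exact mul_le_mul_of_nonneg_left h1 (abs_nonneg _))
    have k2 : (Δ - (p + q)) ^ 2 ≤ (C * (j + j')) ^ 2 := by
      rw [← sq_abs]; exact pow_le_pow_left₀ (abs_nonneg _) h2 2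
    have k3 : Δ ^ 2 ≤ 11 / 10 * (p + q) ^ 2 + 11 * (Δ - (p + q)) ^ 2 := by
      nlinarith [sq_nonneg ((p + q) - 10 * (Δ - (p + q)))]
    have k4 : (C * (j + j')) ^ 2 ≤ 2 * C ^ 2 * j ^ 2 + 2 * C ^ 2 * j' ^ 2 := by
      nlinarith [mul_nonneg (sq_nonneg C) (sq_nonneg (j - j'))]
    have k5 : p ^ 2 ≤ 9 / 16 * (xv ^ 2 * c.F a u ^ 2) := by
      have := mul_le_mul_of_nonneg_left (TrR4X.f_sq hK a u)
        (by positivity : 0 ≤ xv ^ 2 * c.F a u ^ 2)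
      simp only [p]; nlinarith
    have k6 : q ^ 2 ≤ 9 / 16 * (xu ^ 2 * c.F a v ^ 2) := by
      have := mul_le_mul_of_nonneg_left (TrR4X.f_sq hK a v)
        (by positivity : 0 ≤ xu ^ 2 * c.F a v ^ 2)
      simp only [q]; nlinarith
    have k7 : p * q ≤ |xu| * |xv| * (c.F a u ^ 2 * c.F a v ^ 2) := by
      have := mul_le_mul_of_nonneg_right (le_abs_self (xu * xv))
        (by positivity : 0 ≤ c.F a u ^ 2 * c.F a v ^ 2)
      rw [abs_mul] at this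
      simp only [p, q]; nlinarith
    have k8 : 0 ≤ |xu| * |xv| * (c.F a u ^ 2 * c.F a v ^ 2) := by positivity
    have k9 : 0 ≤ xv ^ 2 * c.F a u ^ 2 := by positivity
    have k10 : 0 ≤ xu ^ 2 * c.F a v ^ 2 := by positivity
    rw [e]
    simp only [φ]
    nlinarith
  have φ0 : ∀ a, 0 ≤ φ a := fun a => by
    have := err5_nonneg hK u v a
    simp only [φ]; positivity
  have s1 : X2 (rem c.S u v) (c.F' u v) ≤ ∑ a ∈ rem c.S u v, (rr c.F a - 1) ^ 2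
      + 2 * ∑ a ∈ rem c.S u v, (rr c.F a - 1) * main5 c.σ c.F u v a + ∑ a ∈ c.S, φ a := by
    refine (sum_le_sum pt).trans ?_
    rw [sum_add_distrib, sum_add_distrib, ← mul_sum]
    have := sum_le_sum_of_subset_of_nonneg (TrR4X.rem_subset c.S u v) fun a _ _ => φ0 a
    linarith
  rw [TrR4X.sum_rem huv hu hv, TrR4X.sum_rem huv hu hv] at s1
  have s2 : ∑ a ∈ c.S, φ a = 2 * C * ∑ a ∈ c.S, |rr c.F a - 1| * err5 c.S c.F u v a
      + 5 / 8 * xv ^ 2 * rr c.F u + 5 / 8 * xu ^ 2 * rr c.F v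
      + 3 * (|xu| * |xv|) * ∑ a ∈ c.S, c.F a u ^ 2 * c.F a v ^ 2
      + 22 * C ^ 2 * ∑ a ∈ c.S, jb c.S c.F c.p.K u v a ^ 2
      + 22 * C ^ 2 * ∑ a ∈ c.S, jb c.S c.F c.p.K v u a ^ 2 := by
    simp only [φ, sum_add_distrib, ← mul_sum, sum_col hK]
  have s3 := mul_le_mul_of_nonneg_left (hh_le hK h) (by positivity : 0 ≤ 3 * (|xu| * |xv|))
  have s4 := mul_le_mul_of_nonneg_left (jb_sq hK h) (by positivity : 0 ≤ 22 * C ^ 2)
  have s5 := mul_le_mul_of_nonneg_left (jb_sq hK h') (by positivity : 0 ≤ 22 * C ^ 2)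
  have s6 : -(xu * main5 c.σ c.F u v u) ≤ |xu| * |main5 c.σ c.F u v u| := by
    rw [← abs_mul]; exact neg_le_abs _
  have s7 : -(xv * main5 c.σ c.F u v v) ≤ |xv| * |main5 c.σ c.F v u v| := by
    rw [main5_symm hK u v, ← abs_mul]; exact neg_le_abs _
  have s8 : ∑ a ∈ c.S, |rr c.F a - 1| * err5 c.S c.F v u a
      = ∑ a ∈ c.S, |rr c.F a - 1| * err5 c.S c.F u v a := by
    refine sum_congr rfl fun a _ => ?_
    simp only [err5, ph0_symm hK u v, FF_symm hK u v, mul_comm (c.F a v) (c.F a u)]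
    ring
  have s9 := mul_nonneg (sq_nonneg C) (JB_nonneg hK u v)
  have s10 := mul_nonneg (sq_nonneg C) (JB_nonneg hK v u)
  have s11 : 0 ≤ |xu| * |xv| * (1 / c.p.K ^ 20) := by have := hK.pos; positivity
  have e20 : 2 / c.p.K ^ 20 = 2 * (1 / c.p.K ^ 20) := by ring
  rw [s8, e20]
  unfold X2 at *
  nlinarith
end TrXY

end Crest.Agent.R62
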